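import Vale.Agent.P139.ARic

open Complex MeasureTheory Filter Topology Set
open scoped ComplexConjugate ContDiff

namespace Vale.Agent.P139.PA

/-! (alpha): once the slope reaches e a it stays above.  Let s0 be the first point of [0,s] with
x ≥ c = e a (sInf of a closed set).  Φ = FF - 6 c - t c^2 has Φ s0 ≥ 0 (s0 = 0: eF; s0 > 0: x1 s0 ≥ 0 and
x s0 = c).  boot with φ = -x, θ1 = -c, θ2 = -c/2 on [s0,3]: for t with P t ≥ 1.5, FF ≥ 1.5 - 0.34 - 3/4
(kap_ge, y + y^2 ≥ -1/4); otherwise P ≤ 1.5 on [0,t] (growP before s0, monoP after), so |y| ≤ 15 a (ybd),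
kap P = P near each point where P < 1.5 (or compare with le_of_deriv the function P - om + u y + u y^2 on [s0,t]),
derivative 2 m x P + y + y^2 + (1 + 2 y)(-a - 6 y - u x (1 + 2 y)) ≥ c^2.  Then Ric.xi is monotone. -/

theorem AAlpha_num {m x P y u a e : ℝ} (hm : 40 ≤ m) (ma : 2 * m * a = 1) (ha0 : 0 < a)
    (ha : a ≤ e / 4400) (he1 : e ≤ 1 / 100) (hx : e * a / 2 ≤ x) (hP : 0.1 ≤ P)
    (hy : |y| ≤ 15 * a) (hu3 : u ≤ 3) :
    0 ≤ 2 * m * x * P + y + y ^ 2 - (1 + 2 * y) * (a + 6 * y) - u * x * (1 + 2 * y) ^ 2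
      - (e * a) ^ 2 := by
  obtain ⟨y1, y2⟩ := abs_le.1 hy
  have he0 : 0 < e := by linarith
  have hx0 : 0 ≤ x := le_trans (by positivity) hx
  have h1 : (1 + 2 * y) ^ 2 ≤ 1.05 := by nlinarith
  have h2 : u * x * (1 + 2 * y) ^ 2 ≤ 3 * x * 1.05 :=
    mul_le_mul (mul_le_mul_of_nonneg_right hu3 hx0) h1 (sq_nonneg _) (by positivity)
  have h3 : m * x * 0.2 ≤ 2 * m * x * P := by
    have : 0 ≤ m * x := by positivity
    nlinarith
  have h4 : 40 * x ≤ m * x := mul_le_mul_of_nonneg_right hm hx0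
  have h5 : m * (e * a / 2) ≤ m * x := mul_le_mul_of_nonneg_left hx (by linarith)
  have h6 : m * (e * a / 2) = e / 4 := by linear_combination e / 4 * ma
  have h7 : (1 + 2 * y) * (a + 6 * y) ≤ 93 * a := by nlinarith
  have h8 : (e * a) ^ 2 ≤ a := by
    have h9 : e * a ≤ a := by nlinarith
    have h10 : e * a ≤ 1 := by nlinarith
    have h11 : 0 ≤ e * a := by positivity
    nlinarith
  nlinarith [sq_nonneg y]

theorem AAlpha_left {f : ℝ → ℝ} {f' s c : ℝ} (h : HasDerivAt f f' s)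
    (hl : ∀ᶠ u in 𝓝[<] s, f u ≤ c) (hc : c ≤ f s) : f s = c ∧ 0 ≤ f' := by
  have h1 : f s ≤ c := le_of_tendsto (h.continuousAt.tendsto.mono_left nhdsWithin_le_nhds) hl
  refine ⟨le_antisymm h1 hc, ?_⟩
  refine ge_of_tendsto (hasDerivAt_iff_tendsto_slope_left_right.1 h).1 ?_
  filter_upwards [hl, self_mem_nhdsWithin] with u hu hu'
  rw [slope_def_field]
  exact div_nonneg_of_nonpos (by linarith) (by linarith [mem_Iio.1 hu'])

theorem AAlpha_first {f : ℝ → ℝ} {s c : ℝ} (hs : 0 ≤ s) (hf : ContinuousOn f (Icc 0 s))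
    (hc : c ≤ f s) : ∃ s0 ∈ Icc 0 s, c ≤ f s0 ∧ ∀ u ∈ Ico 0 s0, f u < c := by
  have h1 : IsCompact (Icc 0 s ∩ f ⁻¹' Ici c) :=
    isCompact_Icc.of_isClosed_subset (hf.preimage_isClosed_of_isClosed isClosed_Icc isClosed_Ici)
      inter_subset_left
  obtain ⟨s0, h2, h3⟩ := h1.exists_isLeast ⟨s, right_mem_Icc.2 hs, hc⟩
  refine ⟨s0, h2.1, h2.2, fun u hu => ?_⟩
  by_contra h4
  exact absurd (h3 ⟨⟨hu.1, hu.2.le.trans h2.1.2⟩, not_lt.1 h4⟩) (not_le.2 hu.2)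

variable {m : ℕ} {om : ℝ} {A x y r x1 y1 : ℝ → ℝ}

theorem AAlpha_psi (h : Ric m om A x y r x1 y1) (c : ℝ) {u : ℝ} (hu : 0 ≤ u) :
    HasDerivAt (fun t => A t ^ (2 * m) - om + t * y t + t * y t ^ 2 - t * c ^ 2)
      (2 * m * x u * A u ^ (2 * m) + y u + y u ^ 2 - (1 + 2 * y u) * (aa m + 6 * y u)
        - u * x u * (1 + 2 * y u) ^ 2 - c ^ 2) u := by
  have h1 := ((((h.dP hu).sub_const om).add ((hasDerivAt_id' u).mul (h.dy u hu))).add
    ((hasDerivAt_id' u).mul ((h.dy u hu).pow 2))).sub ((hasDerivAt_id' u).mul_const (c ^ 2))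
  refine h1.congr_deriv ?_
  have h2 := h.ey u hu
  simp only [Pi.pow_apply, Nat.cast_ofNat, Nat.add_one_sub_one, pow_one]
  linear_combination (1 + 2 * y u) * h2

/-- monotonicity of the quantity of Ric.xi -/
theorem AAlpha_xi (h : Ric m om A x y r x1 y1) {c s t : ℝ} (hs : 0 ≤ s) (hst : s ≤ t)
    (hc : c ≤ x s) (hF : ∀ u ∈ Icc s t, 6 * c + u * c ^ 2 ≤ FF m om A y u) : c ≤ x t := by
  rcases hst.eq_or_lt with rfl | hlt
  · exact hc
  have h1 := le_of_deriv (f := fun _ => (0 : ℝ)) (f' := fun _ => 0) hst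
    (fun u _ => hasDerivAt_const u 0) (fun u hu => h.xi c (hs.trans hu.1)) fun u hu => by
      have h2 := (h.pos u (hs.trans hu.1)).le
      have h3 := hs.trans hu.1
      have h4 : 0 ≤ FF m om A y u - 6 * c - u * c ^ 2 := by linarith [hF u hu]
      positivity
  have h2 : 0 ≤ s ^ 6 * A s * Real.exp (c * s) * (x s - c) := by
    have h3 := (h.pos s hs).le
    have h4 : 0 ≤ x s - c := by linarith
    positivity
  have h3 : 0 < t ^ 6 * A t * Real.exp (c * t) := by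
    have h4 := h.pos t (hs.trans hst)
    have h5 := hs.trans_lt hlt
    positivity
  have h4 : 0 ≤ t ^ 6 * A t * Real.exp (c * t) * (x t - c) := by linarith
  have := nonneg_of_mul_nonneg_right h4 h3
  linarith

theorem AAlpha_exp {e : ℝ} (he : e ≤ 6 / 100) : Real.exp e ≤ 1.07 := by
  have h1 : Real.exp e ≤ Real.exp (6 / 100) := Real.exp_le_exp.2 he
  have h2 := Real.exp_bound_div_one_sub_of_interval (x := 6 / 100) (by norm_num) (by norm_num)
  have h3 : (1 : ℝ) / (1 - 6 / 100) ≤ 1.07 := by norm_num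
  linarith

theorem alpha {e : ℝ} (he : 0 < e) (he1 : e ≤ 1 / 100) : ∃ m0 : ℕ, ∀ m ≥ m0, ∀ (om : ℝ)
    (A x y r x1 y1 : ℝ → ℝ), om ∈ Icc (0.33 : ℝ) 0.34 → Ric m om A x y r x1 y1 →
    A 0 ^ (2 * m) ≤ 0.8 → ∀ s ∈ Icc (0 : ℝ) 3, (∀ t ∈ Icc 0 s, 0.1 ≤ A t ^ (2 * m)) →
    e * aa m ≤ x s → ∀ t ∈ Icc s 3, e * aa m ≤ x t := by
  obtain ⟨m1, -, hm1⟩ := aa_small (θ := e / 4400) (by positivity)
  refine ⟨m1 + 40, fun m hm om A x y r x1 y1 hom h hP0 s hs hP hxs => ?_⟩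
  have hm0 : 1 ≤ m := by omega
  have hm40 : (40 : ℝ) ≤ m := by exact_mod_cast (by omega : 40 ≤ m)
  have ha := hm1 m (by omega)
  have ha0 := aa_pos hm0
  have hc0 : 0 < e * aa m := by positivity
  have hc1 : e * aa m ≤ 1 / 100 := by nlinarith
  have cx : ∀ a b : ℝ, 0 ≤ a → ContinuousOn x (Icc a b) := fun a b h0 u hu =>
    (h.dx u (h0.trans hu.1)).continuousAt.continuousWithinAt
  obtain ⟨s0, hs0, hx0, hlt⟩ := AAlpha_first hs.1 (cx 0 s le_rfl) hxs
  have key : (∀ u ∈ Icc 0 s0, A u ^ (2 * m) ≤ 1) ∧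
      6 * (e * aa m) + s0 * (e * aa m) ^ 2 ≤ FF m om A y s0 := by
    have hF := h.eF hs0.1
    rcases hs0.1.eq_or_lt with h0 | h0
    · subst h0
      refine ⟨fun u hu => ?_, by linarith⟩
      rw [le_antisymm hu.2 hu.1]
      linarith
    · obtain ⟨k1, k2⟩ := AAlpha_left (h.dx s0 hs0.1)
        (mem_of_superset (Ioo_mem_nhdsLT h0) fun u hu => (hlt u ⟨hu.1.le, hu.2⟩).le) hx0
      refine ⟨fun u hu => ?_, ?_⟩
      · have h1 := h.growP hm0 (e := e) (d := 0) le_rfl hu.1 fun v hv => by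
          rcases (hv.2.trans hu.2).eq_or_lt with h2 | h2
          · rw [h2, k1]
            linarith
          · linarith [hlt v ⟨hv.1, h2⟩]
        have h2 : Real.exp (e * (u - 0) - m * 0 * (u - 0) ^ 2) ≤ 1.07 :=
          AAlpha_exp (by nlinarith [hu.2, hs0.2, hs.2, hu.1])
        have h3 : 0 ≤ A 0 ^ (2 * m) := pow_nonneg (h.pos 0 le_rfl).le _
        nlinarith [Real.exp_pos (e * (u - 0) - m * 0 * (u - 0) ^ 2)]
      · rw [k1] at hF
        nlinarith [mul_nonneg h0.le k2]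
  have hb := boot (φ := fun u => -x u) (a := s0) (b := 3) (θ1 := -(e * aa m))
    (θ2 := -(e * aa m / 2)) (cx s0 3 hs0.1).neg (by linarith) (by linarith)
    fun t ht hI => by
      have hI' : ∀ u ∈ Icc s0 t, e * aa m / 2 ≤ x u := fun u hu => by linarith [hI u hu]
      have hmono : ∀ u v, s0 ≤ u → u ≤ v → v ≤ t → A u ^ (2 * m) ≤ A v ^ (2 * m) :=
        fun u v h1 h2 h3 => h.monoP (hs0.1.trans h1) h2 fun z hz => by
          linarith [hI' z ⟨h1.trans hz.1, hz.2.trans h3⟩]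
      refine neg_le_neg (AAlpha_xi h hs0.1 ht.1 hx0 fun u hu => ?_)
      have hu0 : 0 ≤ u := hs0.1.trans hu.1
      have hu3 : u ≤ 3 := hu.2.trans ht.2
      rcases le_total (3 / 2) (A u ^ (2 * m)) with hc | hc
      · have h1 := kap_ge hc
        have h2 : -(1 / 4) ≤ y u + y u ^ 2 := by nlinarith [sq_nonneg (y u + 1 / 2)]
        have h3 : u * -(1 / 4) ≤ u * (y u + y u ^ 2) := mul_le_mul_of_nonneg_left h2 hu0
        have h4 : u * (e * aa m) ^ 2 ≤ 3 * (1 / 100) ^ 2 := by gcongr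
        unfold FF
        linarith [hom.2]
      · have hin : ∀ v ∈ Icc 0 u, 0.1 ≤ A v ^ (2 * m) ∧ A v ^ (2 * m) ≤ 1.5 := fun v hv => by
          rcases le_total v s0 with h1 | h1
          · exact ⟨hP v ⟨hv.1, h1.trans hs0.2⟩, by linarith [key.1 v ⟨hv.1, h1⟩]⟩
          · exact ⟨(hP s0 hs0).trans (hmono s0 v le_rfl h1 (hv.2.trans hu.2)),
              by linarith [hmono v u h1 hv.2 hu.2]⟩
        have h1 := le_of_deriv (f := fun _ => (0 : ℝ)) (f' := fun _ => 0) hu.1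
          (fun v _ => hasDerivAt_const v 0)
          (fun v hv => AAlpha_psi h (e * aa m) (hs0.1.trans hv.1)) fun v hv =>
            AAlpha_num hm40 (aa_mul hm0) ha0 ha he1 (hI' v ⟨hv.1, hv.2.trans hu.2⟩)
              (hin v ⟨hs0.1.trans hv.1, hv.2⟩).1
              (h.ybd hm0 (hs0.1.trans hv.1) fun z hz => hin z ⟨hz.1, hz.2.trans hv.2⟩)
              (hv.2.trans hu3)
        have h2 := key.2
        have h3 : A s0 ^ (2 * m) ≤ 3 / 2 := by linarith [key.1 s0 (right_mem_Icc.2 hs0.1)]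
        unfold FF at h2 ⊢
        rw [kap_of_le h3] at h2
        rw [kap_of_le hc]
        linarith
  intro t ht
  have := hb t ⟨hs0.2.trans ht.1, ht.2⟩
  linarith

/-- start at 0.8: the potential never drops -/
theorem alpha_top : ∃ m0 : ℕ, ∀ m ≥ m0, ∀ (om : ℝ) (A x y r x1 y1 : ℝ → ℝ),
    om ∈ Icc (0.33 : ℝ) 0.34 → Ric m om A x y r x1 y1 → A 0 ^ (2 * m) = 0.8 →
    ∀ t ∈ Icc (0 : ℝ) 3, 0.8 ≤ A t ^ (2 * m) := by
  obtain ⟨m1, hm1⟩ := alpha (e := 1 / 100) (by norm_num) le_rfl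
  obtain ⟨m2, hm2, hm3⟩ := aa_small (θ := 1) one_pos
  refine ⟨m1 + m2, fun m hm om A x y r x1 y1 hom h hP0 t ht => ?_⟩
  have ha := hm3 m (by omega)
  have ha0 := aa_nonneg m
  have h1 := h.ex 0 le_rfl
  rw [hP0, kap_of_le (by norm_num)] at h1
  have h2 := hm1 m (by omega) om A x y r x1 y1 hom h hP0.le 0 ⟨le_rfl, by norm_num⟩
    (fun u hu => by
      rw [le_antisymm hu.2 hu.1, hP0]
      norm_num) (by linarith [hom.2])
  rw [← hP0]
  exact h.monoP le_rfl ht.1 fun u hu => by linarith [h2 u ⟨hu.1, hu.2.trans ht.2⟩]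

end Vale.Agent.P139.PA
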