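import Vale.Agent.P139.AAlpha

open Complex MeasureTheory Filter Topology Set
open scoped ComplexConjugate ContDiff

namespace Vale.Agent.P139.PA

/-! (beta): below om - η the potential drops quickly.  c = η/10 a.  boot with θ1 = c, θ2 = 2 c on [s,t]:
P ≤ 0.8 exp (6 e) ≤ 1.5, ybd, FF ≤ -η/2, Ric.xi is antitone.  Rate: xi' ≤ -(η/4) u^5 (A ≥ 1/2),
u^6 - s^6 ≥ u^6 (u - s)/3, A exp (c u) ≤ 4, so x u ≤ c - η (u - s)/300, growP with P t ≥ 0.1, P s ≤ 0.34.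
core: T = first point with P ≤ 0.23; x ≤ c on [0,T] by alpha (else P increases strictly, use dP or monoP with
P > 0.23 before T; x 0 < 0 if T = 0; closedness at T), beta from T to σ; P > om - η on [0, σ - 2 τ] by beta;
lower bound of u^6 A x (Ric.xi with c = 0) on [0, σ - 2 τ] and on [σ - 2 τ, σ]. -/

theorem ABeta_exp {z : ℝ} (h1 : z ≤ 1 / 100) : Real.exp z ≤ 1 + 1.02 * max z 0 := by
  rcases le_total z 0 with h | h
  · rw [max_eq_right h]
    have := Real.exp_le_one_iff.2 h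
    linarith
  · rw [max_eq_left h]
    refine (Real.exp_bound_div_one_sub_of_interval h (by linarith)).trans ?_
    rw [div_le_iff₀ (by linarith)]
    nlinarith

theorem ABeta_half {A : ℝ} {m : ℕ} (hm : 2 ≤ m) (h0 : 0 < A) (h : 0.1 ≤ A ^ (2 * m)) :
    1 / 2 ≤ A := by
  by_contra h1
  have h2 : A ^ (2 * m) ≤ (1 / 2) ^ (2 * m) := pow_le_pow_left₀ h0.le (not_le.1 h1).le _
  have h3 : (1 / 2 : ℝ) ^ (2 * m) ≤ (1 / 2) ^ 4 :=
    pow_le_pow_of_le_one (by norm_num) (by norm_num) (by omega)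
  norm_num at h3 h2 h
  linarith

theorem ABeta_one {A : ℝ} {m : ℕ} (hm : 1 ≤ m) (h0 : 0 < A) (h : A ^ (2 * m) ≤ 1) : A ≤ 1 :=
  (pow_le_one_iff_of_nonneg h0.le (by omega)).1 h

variable {m : ℕ} {om : ℝ} {A x y r x1 y1 : ℝ → ℝ}

theorem ABeta_grow (h : Ric m om A x y r x1 y1) (hm : 1 ≤ m) {s t e : ℝ} (hs : 0 ≤ s)
    (hst : s ≤ t) (ht : t ≤ 3) (he0 : 0 ≤ e) (he : e ≤ 1 / 300)
    (hx : ∀ u ∈ Icc s t, x u ≤ e * aa m) : A t ^ (2 * m) ≤ A s ^ (2 * m) * (1 + 3.06 * e) := by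
  have h1 := h.growP hm (e := e) (d := 0) hs hst fun u hu => by linarith [hx u hu]
  have h2 : e * (t - s) ≤ e * 3 := mul_le_mul_of_nonneg_left (by linarith) he0
  have h3 : Real.exp (e * (t - s) - m * 0 * (t - s) ^ 2) ≤ Real.exp (e * 3) :=
    Real.exp_le_exp.2 (by linarith)
  have h4 := ABeta_exp (z := e * 3) (by linarith)
  rw [max_eq_left (by linarith)] at h4
  refine h1.trans (mul_le_mul_of_nonneg_left (by linarith) (pow_nonneg (h.pos s hs).le _))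

/-- upper bound for the quantity of Ric.xi -/
theorem ABeta_xi (h : Ric m om A x y r x1 y1) {c s t κ : ℝ} (hs : 0 ≤ s) (hst : s ≤ t)
    (hc : x s ≤ c) (hF : ∀ u ∈ Icc s t,
      A u * Real.exp (c * u) * (FF m om A y u - 6 * c - u * c ^ 2) ≤ -κ) :
    t ^ 6 * A t * Real.exp (c * t) * (x t - c) ≤ -κ * (t ^ 6 - s ^ 6) / 6 := by
  have h1 := le_of_deriv (g := fun u => -κ * u ^ 6 / 6) (g' := fun u => -κ * u ^ 5) hst
    (fun u hu => h.xi c (hs.trans hu.1))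
    (fun u _ => (((hasDerivAt_pow 6 u).const_mul (-κ)).div_const 6).congr_deriv (by
      push_cast
      ring)) fun u hu => by
      have h2 : 0 ≤ u ^ 5 := pow_nonneg (hs.trans hu.1) _
      have h3 := mul_le_mul_of_nonneg_left (hF u hu) h2
      linarith
  have h2 : s ^ 6 * A s * Real.exp (c * s) * (x s - c) ≤ 0 := by
    have h3 := (h.pos s hs).le
    exact mul_nonpos_of_nonneg_of_nonpos (by positivity) (by linarith)
  linarith

theorem ABeta_xi0 (h : Ric m om A x y r x1 y1) {c s t : ℝ} (hs : 0 ≤ s) (hst : s ≤ t)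
    (hc0 : 0 ≤ c) (hc : x s ≤ c) (hF : ∀ u ∈ Icc s t, FF m om A y u ≤ 0) : x t ≤ c := by
  rcases hst.eq_or_lt with rfl | hlt
  · exact hc
  have h1 := ABeta_xi h (κ := 0) hs hst hc fun u hu => by
    have h2 := (h.pos u (hs.trans hu.1)).le
    have h3 : 0 ≤ u * c ^ 2 := mul_nonneg (hs.trans hu.1) (sq_nonneg _)
    rw [neg_zero]
    exact mul_nonpos_of_nonneg_of_nonpos (by positivity) (by linarith [hF u hu])
  have h3 : 0 < t ^ 6 * A t * Real.exp (c * t) := by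
    have h4 := h.pos t (hs.trans hst)
    have h5 := hs.trans_lt hlt
    positivity
  by_contra h4
  have := mul_pos h3 (sub_pos.2 (not_le.1 h4))
  linarith

theorem ABeta_F (h : Ric m om A x y r x1 y1) (hm : 1 ≤ m) (hom : om ≤ 0.34) {η s v : ℝ}
    (h0 : 0 < η) (h1 : η ≤ 1 / 100) (ha : aa m ≤ η / 500) (hP0 : A 0 ^ (2 * m) ≤ 0.8)
    (hs : 0 ≤ s) (hsv : s ≤ v) (hv : v ≤ 3) (hP : ∀ u ∈ Icc 0 v, 0.1 ≤ A u ^ (2 * m))
    (hx : ∀ u ∈ Icc 0 v, x u ≤ η / 5 * aa m) (hPs : A s ^ (2 * m) ≤ om - η) :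
    A v ^ (2 * m) ≤ 1 ∧ FF m om A y v ≤ -η / 2 := by
  have hv0 := hs.trans hsv
  have k1 : ∀ u ∈ Icc 0 v, A u ^ (2 * m) ≤ 1 := fun u hu => by
    have h2 := ABeta_grow h hm le_rfl hu.1 (hu.2.trans hv) (e := η / 5) (by linarith) (by linarith)
      fun z hz => hx z ⟨hz.1, hz.2.trans hu.2⟩
    have h3 : A 0 ^ (2 * m) * (1 + 3.06 * (η / 5)) ≤ 0.8 * (1 + 3.06 * (η / 5)) :=
      mul_le_mul_of_nonneg_right hP0 (by linarith)
    linarith
  have k2 := ABeta_grow h hm hs hsv hv (e := η / 5) (by linarith) (by linarith)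
    fun z hz => hx z ⟨hs.trans hz.1, hz.2⟩
  have k3 : A s ^ (2 * m) * (1 + 3.06 * (η / 5)) ≤ (om - η) * (1 + 3.06 * (η / 5)) :=
    mul_le_mul_of_nonneg_right hPs (by linarith)
  have k4 := abs_le.1 (h.ybd hm hv0 fun u hu => ⟨hP u hu, by linarith [k1 u hu]⟩)
  have k5 : y v + y v ^ 2 ≤ 16 * aa m := by nlinarith [k4.1, k4.2, aa_nonneg m]
  have k6 : v * (y v + y v ^ 2) ≤ 3 * (16 * aa m) :=
    (mul_le_mul_of_nonneg_left k5 hv0).trans
      (mul_le_mul_of_nonneg_right hv (by linarith [aa_nonneg m]))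
  have k7 := k1 v (right_mem_Icc.2 hv0)
  refine ⟨k7, ?_⟩
  unfold FF
  rw [kap_of_le (by linarith)]
  nlinarith

theorem beta {η τ : ℝ} (h0 : 0 < η) (h1 : η ≤ 1 / 100) (hτ : 0 < τ) : ∃ m0 : ℕ, ∀ m ≥ m0,
    ∀ (om : ℝ) (A x y r x1 y1 : ℝ → ℝ), om ∈ Icc (0.33 : ℝ) 0.34 → Ric m om A x y r x1 y1 →
    A 0 ^ (2 * m) ≤ 0.8 → ∀ s t : ℝ, 0 ≤ s → s ≤ t → t ≤ 3 →
    (∀ u ∈ Icc 0 t, 0.1 ≤ A u ^ (2 * m)) → (∀ u ∈ Icc 0 s, x u ≤ η / 10 * aa m) →
    A s ^ (2 * m) ≤ om - η → (∀ u ∈ Icc s t, x u ≤ η / 10 * aa m) ∧ t - s ≤ τ := by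
  obtain ⟨m1, -, hm1⟩ := aa_small (θ := η / 500) (by positivity)
  obtain ⟨m2, hm2⟩ := exists_nat_ge (576 / (η * τ ^ 2))
  refine ⟨m1 + m2 + 2, fun m hm om A x y r x1 y1 hom h hP0 s t hs hst ht hP hx hPs => ?_⟩
  have hm0 : 1 ≤ m := by omega
  have ha := hm1 m (by omega)
  have ha0 := aa_pos hm0
  have hc0 : 0 < η / 10 * aa m := by positivity
  have hF : ∀ v ∈ Icc s t, (∀ u ∈ Icc s v, x u ≤ η / 5 * aa m) →
      A v ^ (2 * m) ≤ 1 ∧ FF m om A y v ≤ -η / 2 := fun v hv hI =>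
    ABeta_F h hm0 hom.2 h0 h1 ha hP0 hs hv.1 (hv.2.trans ht)
      (fun u hu => hP u ⟨hu.1, hu.2.trans hv.2⟩) (fun u hu => by
        rcases le_total u s with h2 | h2
        · linarith [hx u ⟨hu.1, h2⟩]
        · exact hI u ⟨h2, hu.2⟩) hPs
  have hxs := hx s (right_mem_Icc.2 hs)
  have hb := boot (φ := x) (a := s) (b := t) (θ1 := η / 10 * aa m) (θ2 := η / 5 * aa m)
    (fun u hu => (h.dx u (hs.trans hu.1)).continuousAt.continuousWithinAt) (by linarith)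
    (by linarith) fun v hv hI => ABeta_xi0 h hs hv.1 hc0.le hxs fun u hu => by
      linarith [(hF u ⟨hu.1, hu.2.trans hv.2⟩ fun z hz => hI z ⟨hz.1, hz.2.trans hu.2⟩).2]
  refine ⟨hb, ?_⟩
  have hF' : ∀ v ∈ Icc s t, A v ^ (2 * m) ≤ 1 ∧ FF m om A y v ≤ -η / 2 := fun v hv =>
    hF v hv fun u hu => by linarith [hb u ⟨hu.1, hu.2.trans hv.2⟩]
  have hrate : ∀ v ∈ Icc s t, x v ≤ η / 10 * aa m - η / 144 * (v - s) := by
    intro v hv
    have hv0 := hs.trans hv.1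
    rcases hv.1.eq_or_lt with h2 | h2
    · rw [← h2]
      linarith
    have hv1 : 0 < v := hs.trans_lt h2
    have k1 := ABeta_xi h (κ := η / 4) hs hv.1 hxs fun u hu => by
      have hu0 := hs.trans hu.1
      have hu' : u ∈ Icc s t := ⟨hu.1, hu.2.trans hv.2⟩
      have k2 := ABeta_half (by omega) (h.pos u hu0) (hP u ⟨hu0, hu'.2⟩)
      have k3 : 1 ≤ Real.exp (η / 10 * aa m * u) := Real.one_le_exp (by positivity)
      have k4 : 1 / 2 ≤ A u * Real.exp (η / 10 * aa m * u) := by nlinarith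
      have k5 : 0 ≤ u * (η / 10 * aa m) ^ 2 := by positivity
      have k6 := (hF' u hu').2
      nlinarith
    have k2 : v ^ 6 * (v - s) / 3 ≤ v ^ 6 - s ^ 6 := by
      have k3 : s ^ 5 ≤ v ^ 5 := pow_le_pow_left₀ hs hv.1 5
      have k4 : s * s ^ 5 ≤ s * v ^ 5 := mul_le_mul_of_nonneg_left k3 hs
      have k5 : 0 ≤ v ^ 5 * (v - s) := by
        have : 0 ≤ v - s := by linarith
        positivity
      have k6 : v ^ 5 * (v - s) * v ≤ v ^ 5 * (v - s) * 3 :=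
        mul_le_mul_of_nonneg_left (hv.2.trans ht) k5
      nlinarith
    have k3 : A v * Real.exp (η / 10 * aa m * v) ≤ 2 := by
      have k4 := ABeta_one hm0 (h.pos v hv0) (hF' v hv).1
      have k5 : η / 10 * aa m * v ≤ 6 / 100 := by
        have k6 : η / 10 * aa m ≤ 1 / 100 := by nlinarith
        nlinarith [hv.2.trans ht]
      have k6 := AAlpha_exp k5
      nlinarith [Real.exp_pos (η / 10 * aa m * v)]
    have k4 : 0 < v ^ 6 := by positivity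
    have k5 : x v - η / 10 * aa m ≤ 0 := by linarith [hb v hv]
    have k6 : v ^ 6 * 2 * (x v - η / 10 * aa m)
        ≤ v ^ 6 * (A v * Real.exp (η / 10 * aa m * v)) * (x v - η / 10 * aa m) :=
      mul_le_mul_of_nonpos_right (mul_le_mul_of_nonneg_left k3 k4.le) k5
    have k7 : v ^ 6 * (2 * (x v - η / 10 * aa m)) ≤ v ^ 6 * (-(η / 72) * (v - s)) := by
      nlinarith
    have k8 := le_of_mul_le_mul_left k7 k4
    linarith
  have hg := h.growP hm0 hs hst hrate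
  by_contra hτ'
  have k1 : τ ^ 2 ≤ (t - s) ^ 2 := pow_le_pow_left₀ hτ.le (not_le.1 hτ').le 2
  have k2 : (m2 : ℝ) ≤ m := by exact_mod_cast (by omega : m2 ≤ m)
  have k3 : 576 ≤ m * (η * τ ^ 2) := by
    rw [div_le_iff₀ (by positivity)] at hm2
    exact hm2.trans (mul_le_mul_of_nonneg_right k2 (by positivity))
  have k4 : m * (η * τ ^ 2) ≤ m * (η * (t - s) ^ 2) := by gcongr
  have k5 : η / 10 * (t - s) - m * (η / 144) * (t - s) ^ 2 ≤ -3 := by nlinarith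
  have k6 : Real.exp (-3) ≤ 1 / 4 := by
    rw [Real.exp_neg, inv_le_comm₀ (Real.exp_pos _) (by norm_num)]
    linarith [Real.add_one_le_exp (3 : ℝ)]
  have k7 := (Real.exp_le_exp.2 k5).trans k6
  have k8 := hP t ⟨hs.trans hst, le_rfl⟩
  have k9 : A s ^ (2 * m) * Real.exp (η / 10 * (t - s) - m * (η / 144) * (t - s) ^ 2)
      ≤ 0.34 * (1 / 4) :=
    mul_le_mul (by linarith [hom.2]) k7 (Real.exp_pos _).le (by norm_num)
  linarith

/-- lower bound for u^6 A x -/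
theorem ABeta_low (h : Ric m om A x y r x1 y1) {s t κ : ℝ} (hs : 0 ≤ s) (hst : s ≤ t)
    (hκ : 0 ≤ κ) (hF : ∀ u ∈ Icc s t, A u ≤ 1 ∧ -κ ≤ FF m om A y u) :
    s ^ 6 * (A s * x s) - κ * (t ^ 6 - s ^ 6) / 6 ≤ t ^ 6 * (A t * x t) := by
  have h1 := le_of_deriv (f := fun u => -κ * u ^ 6 / 6) (f' := fun u => -κ * u ^ 5) hst
    (fun u _ => (((hasDerivAt_pow 6 u).const_mul (-κ)).div_const 6).congr_deriv (by
      push_cast
      ring)) (fun u hu => h.xi 0 (hs.trans hu.1)) fun u hu => by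
      have h2 : 0 ≤ u ^ 5 := pow_nonneg (hs.trans hu.1) _
      have h3 := (h.pos u (hs.trans hu.1)).le
      obtain ⟨h4, h5⟩ := hF u hu
      have h6 : -κ ≤ A u * FF m om A y u := by nlinarith
      have h7 := mul_le_mul_of_nonneg_left h6 h2
      simp only [zero_mul, Real.exp_zero]
      linarith
  simp only [zero_mul, Real.exp_zero] at h1
  linarith

theorem core {η : ℝ} (h0 : 0 < η) (h1 : η ≤ 1 / 100) : ∃ m0 : ℕ, ∀ m ≥ m0,
    ∀ (om : ℝ) (A x y r x1 y1 : ℝ → ℝ), om ∈ Icc (0.33 : ℝ) 0.34 → Ric m om A x y r x1 y1 →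
    A 0 ^ (2 * m) ≤ 0.8 → ∀ σ ∈ Icc (2.7 : ℝ) 2.71, Wall (fun s => A s ^ (2 * m)) σ →
    (∀ t ∈ Icc 0 σ, x t ≤ η / 10 * aa m ∧ r t ≤ η ∧ A t ^ (2 * m) ≤ 1) ∧
      A σ ^ (2 * m) ≤ 0.24 := by
  obtain ⟨m1, -, hm1⟩ := aa_small (θ := η / 500) (by positivity)
  obtain ⟨m2, hm2⟩ := beta h0 h1 (τ := η / 100) (by positivity)
  obtain ⟨m3, hm3⟩ := alpha (e := η / 10) (by positivity) (by linarith)
  refine ⟨m1 + m2 + m3 + 2, fun m hm om A x y r x1 y1 hom h hP0 σ hσ hW => ?_⟩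
  obtain ⟨hP, T0, hT0, hPT0⟩ := hW
  simp only at hP hPT0
  have hm0 : 1 ≤ m := by omega
  have ha := hm1 m (by omega)
  have ha0 := aa_pos hm0
  have hc0 : 0 < η / 10 * aa m := by positivity
  have hσ0 : 0 ≤ σ := by linarith [hσ.1]
  have hσ3 : σ ≤ 3 := by linarith [hσ.2]
  have hP' : ∀ u ∈ Icc 0 σ, 0.1 ≤ A u ^ (2 * m) := fun u hu => by linarith [hP u hu]
  obtain ⟨T, hT, hPT, hlt⟩ := AAlpha_first (f := fun u => -A u ^ (2 * m)) (c := -0.23) hT0.1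
    (fun u hu => (h.dP hu.1).continuousAt.continuousWithinAt.neg) (by linarith)
  have hTσ : T ≤ σ := hT.2.trans hT0.2
  have k1 : ∀ u ∈ Ico 0 T, x u ≤ η / 10 * aa m := fun u hu => by
    by_contra k2
    have k3 := hm3 m (by omega) om A x y r x1 y1 hom h hP0 u ⟨hu.1, by linarith [hu.2]⟩
      (fun z hz => hP' z ⟨hz.1, by linarith [hz.2, hu.2]⟩) (not_le.1 k2).le
    have k4 := h.monoP hu.1 hu.2.le fun z hz => by
      linarith [k3 z ⟨hz.1, by linarith [hz.2]⟩]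
    linarith [hlt u hu]
  have k2 : ∀ u ∈ Icc 0 T, x u ≤ η / 10 * aa m := fun u hu => by
    rcases hu.2.eq_or_lt with k3 | k3
    · rw [k3]
      rcases hT.1.eq_or_lt with k4 | k4
      · have k5 := h.ex 0 le_rfl
        rw [← k4] at hPT ⊢
        rw [kap_of_le (by linarith)] at k5
        linarith [hom.1]
      · exact le_of_tendsto ((h.dx T hT.1).continuousAt.tendsto.mono_left nhdsWithin_le_nhds)
          (mem_of_superset (Ioo_mem_nhdsLT k4) fun z hz => k1 z ⟨hz.1.le, hz.2⟩)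
    · exact k1 u ⟨hu.1, k3⟩
  have hbeta := hm2 m (by omega) om A x y r x1 y1 hom h hP0
  have k3 := (hbeta T σ hT.1 hTσ hσ3 hP' k2 (by linarith [hom.1])).1
  have hx : ∀ u ∈ Icc 0 σ, x u ≤ η / 10 * aa m := fun u hu => by
    rcases le_total u T with k4 | k4
    · exact k2 u ⟨hu.1, k4⟩
    · exact k3 u ⟨k4, hu.2⟩
  have hP1 : ∀ u ∈ Icc 0 σ, A u ^ (2 * m) ≤ 1 := fun u hu => by
    have k4 := ABeta_grow h hm0 le_rfl hu.1 (hu.2.trans hσ3) (e := η / 10) (by linarith)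
      (by linarith) fun z hz => hx z ⟨hz.1, hz.2.trans hu.2⟩
    have k5 : A 0 ^ (2 * m) * (1 + 3.06 * (η / 10)) ≤ 0.8 * (1 + 3.06 * (η / 10)) :=
      mul_le_mul_of_nonneg_right hP0 (by linarith)
    linarith
  have hy : ∀ u ∈ Icc 0 σ, |y u| ≤ 15 * aa m := fun u hu =>
    h.ybd hm0 hu.1 fun z hz => ⟨hP' z ⟨hz.1, hz.2.trans hu.2⟩,
      by linarith [hP1 z ⟨hz.1, hz.2.trans hu.2⟩]⟩
  have hA1 : ∀ u ∈ Icc 0 σ, A u ≤ 1 := fun u hu => ABeta_one hm0 (h.pos u hu.1) (hP1 u hu)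
  have hF : ∀ u ∈ Icc 0 σ, A u ^ (2 * m) - om - 0.09 * η ≤ FF m om A y u := fun u hu => by
    have k4 := (abs_le.1 (hy u hu)).1
    have k5 : u * -(15 * aa m) ≤ u * y u := mul_le_mul_of_nonneg_left k4 hu.1
    have k6 : 0 ≤ u * y u ^ 2 := mul_nonneg hu.1 (sq_nonneg _)
    have k7 : u * aa m ≤ 3 * aa m := mul_le_mul_of_nonneg_right (hu.2.trans hσ3) ha0.le
    unfold FF
    rw [kap_of_le (by linarith [hP1 u hu])]
    linarith
  have hF1 : ∀ u ∈ Icc 0 (σ - η / 50), A u ≤ 1 ∧ -(1.1 * η) ≤ FF m om A y u := fun u hu => by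
    have hu' : u ∈ Icc 0 σ := ⟨hu.1, by linarith [hu.2]⟩
    refine ⟨hA1 u hu', ?_⟩
    by_contra k4
    have k5 := (hbeta u σ hu.1 hu'.2 hσ3 hP' (fun z hz => hx z ⟨hz.1, hz.2.trans hu'.2⟩)
      (by linarith [hF u hu'])).2
    linarith [hu.2]
  have hlow : ∀ u ∈ Icc 0 σ, -(0.19 * η) ≤ A u * x u := fun u hu => by
    have hs' : 0 ≤ σ - η / 50 := by linarith [hσ.1]
    rcases hu.1.eq_or_lt with k4 | k4
    · have k5 := h.eF le_rfl
      have k6 := hF1 0 (left_mem_Icc.2 hs')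
      rw [← k4]
      nlinarith [h.pos 0 le_rfl]
    have k5 : 0 < u ^ 6 := by positivity
    refine le_of_mul_le_mul_left ?_ k5
    rcases le_total u (σ - η / 50) with k6 | k6
    · have k7 := ABeta_low h le_rfl hu.1 (κ := 1.1 * η) (by linarith)
        fun z hz => hF1 z ⟨hz.1, hz.2.trans k6⟩
      nlinarith
    · have k7 := ABeta_low h le_rfl hs' (κ := 1.1 * η) (by linarith) hF1
      have k8 := ABeta_low h hs' k6 (κ := 0.2) (by norm_num) fun z hz => by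
        have hz' : z ∈ Icc 0 σ := ⟨hs'.trans hz.1, hz.2.trans hu.2⟩
        exact ⟨hA1 z hz', by linarith [hF z hz', hP z hz', hom.2]⟩
      have k9 : (σ - η / 50) ^ 6 ≤ u ^ 6 := pow_le_pow_left₀ hs' k6 6
      have k10 : u ^ 6 - (σ - η / 50) ^ 6 ≤ u ^ 6 * (η / 20) := by
        have k11 : u * (1 - η / 120) ≤ σ - η / 50 := by nlinarith [hu.2, hσ.1]
        have k12 : (u * (1 - η / 120)) ^ 6 ≤ (σ - η / 50) ^ 6 :=
          pow_le_pow_left₀ (mul_nonneg hu.1 (by linarith)) k11 6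
        have k13 : 1 + (6 : ℕ) * (-(η / 120)) ≤ (1 + -(η / 120)) ^ 6 :=
          one_add_mul_le_pow (by linarith) 6
        rw [mul_pow] at k12
        have k14 : u ^ 6 * (1 - η / 20) ≤ u ^ 6 * (1 - η / 120) ^ 6 :=
          mul_le_mul_of_nonneg_left (by
            push_cast at k13
            rw [sub_eq_add_neg 1 (η / 120)]
            linarith) k5.le
        linarith
      nlinarith
  refine ⟨fun t ht => ⟨hx t ht, ?_, hP1 t ht⟩, ?_⟩
  · have k4 := ABeta_half (by omega) (h.pos t ht.1) (hP' t ht)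
    have k5 := hlow t ht
    have k6 : -(0.38 * η) ≤ x t := by
      by_contra k7
      nlinarith [not_le.1 k7]
    have k7 : |x t| ≤ 0.38 * η := abs_le.2 ⟨k6, by nlinarith [hx t ht]⟩
    linarith [h.rle t, hy t ht]
  · have k4 := ABeta_grow h hm0 hT.1 hTσ hσ3 (e := η / 10) (by linarith) (by linarith) k3
    have k5 : A T ^ (2 * m) * (1 + 3.06 * (η / 10)) ≤ 0.23 * (1 + 3.06 * (η / 10)) :=
      mul_le_mul_of_nonneg_right (by linarith) (by linarith)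
    linarith

end Vale.Agent.P139.PA
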