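import Vale.Agent.P139.ADefs
import Vale.Agent.Lib.Brouwer

open Complex MeasureTheory Filter Topology Set
open scoped ComplexConjugate ContDiff

namespace Vale.Agent.P139.PA

/-! Topological matching.  θ from uniform continuity of H: Re (b1 H) ≤ -κ on s in [s1, s1+θ], ≥ κ on
[s2-θ, s2]; Re (b2 H) ≤ -κ at o1, ≥ κ at o2.  χ continuous, 1 on [s1+θ, s2-θ], 0 outside (s1,s2), values in [0,1].
F1 = χ Re (b1 g) + (1 - χ)(σ - (s1+s2)/2), F2 = χ Re (b2 g).  Apply Vale.Agent.Lib.Brouwer.exists_fixed on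
ℝ × ℝ × ℂ to (projIcc (t - F1), projIcc (om - F2), retr (v p)) with p = (projIcc t, projIcc om, retr ζ),
retr ζ = (ρ / max ρ ‖ζ‖) • ζ. -/

theorem ABr_fix {X V : Type*} [TopologicalSpace X] [CompactSpace X] [NormedAddCommGroup V]
    [NormedSpace ℝ V] [FiniteDimensional ℝ V] {ι Φ : X → V} {P : V → X} (hι : Continuous ι)
    (hΦ : Continuous Φ) (hP : Continuous P) (h : ∀ p, P (ι p) = p) : ∃ p, P (Φ p) = p := by
  obtain ⟨C, hC⟩ := (isCompact_range hι).isBounded.exists_norm_le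
  obtain ⟨x, hx⟩ := Vale.Agent.Lib.Brouwer.exists_fixed (fun x => ι (P (Φ (P x))))
    (hι.comp (hP.comp (hΦ.comp hP))) C fun x => hC _ ⟨_, rfl⟩
  exact ⟨P x, (h _).symm.trans (congrArg P hx)⟩

theorem ABr_proj {a b F : ℝ} (hab : a ≤ b) {t : Icc a b} (h : projIcc a b hab (t - F) = t)
    (h1 : (t : ℝ) = a → F < 0) (h2 : (t : ℝ) = b → 0 < F) : F = 0 := by
  have e : max a (min b (t - F)) = t := congrArg Subtype.val h
  rcases le_total (t - F) a with p | p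
  · rw [min_eq_right (p.trans hab), max_eq_left p] at e
    linarith [h1 e.symm]
  · rcases le_total b (t - F) with q | q
    · rw [min_eq_left q, max_eq_right hab] at e
      linarith [h2 e.symm]
    · rw [min_eq_right q, max_eq_right p] at e
      linarith

theorem ABr_retr {ρ : ℝ} (hρ : 0 < ρ) : ∃ R : ℂ → Metric.closedBall (0 : ℂ) ρ, Continuous R ∧
    ∀ ζ, ‖ζ‖ ≤ ρ → (R ζ : ℂ) = ζ := by
  have hm : ∀ ζ : ℂ, 0 < max ρ ‖ζ‖ := fun ζ => lt_max_of_lt_left hρ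
  have hc : Continuous fun ζ : ℂ => (ρ / max ρ ‖ζ‖) • ζ := (continuous_const.div
    (continuous_const.max continuous_norm) fun ζ => (hm ζ).ne').smul continuous_id
  refine ⟨_, hc.subtype_mk fun ζ => ?_, fun ζ hζ => ?_⟩
  · rw [mem_closedBall_zero_iff, norm_smul, Real.norm_of_nonneg (div_pos hρ (hm ζ)).le,
      div_mul_eq_mul_div, div_le_iff₀ (hm ζ)]
    exact mul_le_mul_of_nonneg_left (le_max_right _ _) hρ.le
  · simp only [max_eq_left hζ, div_self hρ.ne', one_smul]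

theorem ABr_re {b x y : ℂ} {η κ : ℝ} (h : ‖x - y‖ ≤ η) (hb : ‖b‖ * η < κ) :
    ((b * y).re ≤ -κ → (b * x).re < 0) ∧ (κ ≤ (b * y).re → 0 < (b * x).re) := by
  have h1 := abs_re_le_norm (b * (x - y))
  have h2 := mul_le_mul_of_nonneg_left h (norm_nonneg b)
  rw [norm_mul, mul_sub, sub_re, abs_le] at h1
  exact ⟨fun p => by linarith [h1.2], fun p => by linarith [h1.1]⟩

theorem ABr_gap {a b : ℝ} {u v : ℝ → ℝ} (hu : ContinuousOn u (Icc a b))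
    (hv : ContinuousOn v (Icc a b)) (h : ∀ x ∈ Icc a b, u x < 0 ∧ 0 < v x) :
    ∃ κ : ℝ, 0 < κ ∧ ∀ x ∈ Icc a b, u x ≤ -κ ∧ κ ≤ v x := by
  obtain ⟨p, p0, hp⟩ := isCompact_Icc.exists_forall_le' hu.neg fun x hx => neg_pos.2 (h x hx).1
  obtain ⟨q, q0, hq⟩ := isCompact_Icc.exists_forall_le' hv fun x hx => (h x hx).2
  exact ⟨min p q, lt_min p0 q0, fun x hx => ⟨le_neg.1 ((min_le_left _ _).trans (hp x hx)),
    (min_le_right _ _).trans (hq x hx)⟩⟩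

theorem ABr_zero {b1 b2 g : ℂ} (indep : (b1 * conj b2).im ≠ 0) (h1 : (b1 * g).re = 0)
    (h2 : (b2 * g).re = 0) : g = 0 := by
  rw [mul_im, conj_re, conj_im] at indep
  rw [mul_re] at h1 h2
  exact Complex.ext
    ((mul_eq_zero.1 (by linear_combination b1.im * h2 - b2.im * h1)).resolve_left indep)
    ((mul_eq_zero.1 (by linear_combination b1.re * h2 - b2.re * h1)).resolve_left indep)

theorem ABr_chi {s1 s2 θ : ℝ} (hθ : 0 < θ) : ∃ χ : ℝ → ℝ, Continuous χ ∧ (∀ s, 0 ≤ χ s) ∧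
    (∀ s, χ s ≤ 1) ∧ (∀ s, s ≤ s1 ∨ s2 ≤ s → χ s = 0) ∧
    ∀ s, s1 + θ ≤ s → s ≤ s2 - θ → χ s = 1 := by
  refine ⟨fun s => max 0 (min 1 (min (s - s1) (s2 - s) / θ)), by fun_prop,
    fun s => le_max_left _ _, fun s => max_le zero_le_one (min_le_left _ _),
    fun s hs => max_eq_left ((min_le_right _ _).trans (div_nonpos_of_nonpos_of_nonneg
      (min_le_iff.2 (hs.imp sub_nonpos.2 sub_nonpos.2)) hθ.le)), fun s p q => ?_⟩
  have h : 1 ≤ min (s - s1) (s2 - s) / θ := (one_le_div hθ).2 (le_min (by linarith) (by linarith))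
  simp only [min_eq_left h, max_eq_right zero_le_one]

theorem brouwer_box {o1 o2 s1 s2 : ℝ} {b1 b2 : ℂ} {H : ℝ → ℝ → ℂ} (ho : o1 < o2) (hs : s1 < s2)
    (hH : ContinuousOn (fun p : ℝ × ℝ => H p.1 p.2) (Icc o1 o2 ×ˢ Icc s1 s2))
    (f1 : ∀ om ∈ Icc o1 o2, (b1 * H om s1).re < 0 ∧ 0 < (b1 * H om s2).re)
    (f2 : ∀ s ∈ Icc s1 s2, (b2 * H o1 s).re < 0 ∧ 0 < (b2 * H o2 s).re)
    (indep : (b1 * conj b2).im ≠ 0) :
    ∃ η : ℝ, 0 < η ∧ ∀ ρ : ℝ, 0 < ρ → ∀ (σ : QI o1 o2 → ℝ)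
      (g v : QI o1 o2 × Metric.closedBall (0 : ℂ) ρ → ℂ), Continuous σ → Continuous g →
      Continuous v → (∀ q : QI o1 o2, (q.1 : ℝ) = 0 → σ q ≤ s1) →
      (∀ q : QI o1 o2, (q.1 : ℝ) = 1 → s2 ≤ σ q) →
      (∀ p, σ p.1 ∈ Icc s1 s2 → ‖g p - H p.1.2 (σ p.1)‖ ≤ η ∧ ‖v p‖ ≤ ρ) →
      ∃ p, σ p.1 ∈ Icc s1 s2 ∧ g p = 0 ∧ v p = p.2 := by
  have mo : ∀ s ∈ Icc s1 s2, ∀ b : ℂ, ContinuousOn (fun om => (b * H om s).re) (Icc o1 o2) :=
    fun s hs b => continuous_re.comp_continuousOn (continuousOn_const.mul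
      (hH.comp (f := fun om => (om, s)) (by fun_prop) fun _ h => ⟨h, hs⟩))
  have ms : ∀ om ∈ Icc o1 o2, ∀ b : ℂ, ContinuousOn (fun s => (b * H om s).re) (Icc s1 s2) :=
    fun om ho b => continuous_re.comp_continuousOn (continuousOn_const.mul
      (hH.comp (f := fun s => (om, s)) (by fun_prop) fun _ h => ⟨ho, h⟩))
  have e1 := left_mem_Icc.2 hs.le
  have e2 := right_mem_Icc.2 hs.le
  obtain ⟨k1, p1, q1⟩ := ABr_gap (mo s1 e1 b1) (mo s2 e2 b1) f1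
  obtain ⟨k2, p2, q2⟩ := ABr_gap (ms o1 (left_mem_Icc.2 ho.le) b2)
    (ms o2 (right_mem_Icc.2 ho.le) b2) f2
  obtain ⟨η, η0, n1, n2⟩ : ∃ η : ℝ, 0 < η ∧ ‖b1‖ * (η + η) < k1 ∧ ‖b2‖ * η < k2 := by
    have c1 : ContinuousAt (fun η : ℝ => ‖b1‖ * (η + η)) 0 := by fun_prop
    have c2 : ContinuousAt (fun η : ℝ => ‖b2‖ * η) 0 := by fun_prop
    exact (eventually_mem_nhdsWithin.and (((c1.eventually_lt continuousAt_const (by simpa)).and
      (c2.eventually_lt continuousAt_const (by simpa))).filter_mono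
      (nhdsWithin_le_nhds (s := Ioi 0)))).exists
  obtain ⟨δ, δ0, hδ⟩ := Metric.uniformContinuousOn_iff.1
    ((isCompact_Icc.prod isCompact_Icc).uniformContinuousOn_of_continuous hH) η η0
  obtain ⟨θ, θ0, θ1, θ2⟩ : ∃ θ : ℝ, 0 < θ ∧ θ ≤ δ ∧ θ ≤ (s2 - s1) / 2 :=
    ⟨min δ ((s2 - s1) / 2), lt_min δ0 (by linarith), min_le_left _ _, min_le_right _ _⟩
  obtain ⟨χ, cχ, x0, x1, x2, x3⟩ := ABr_chi (s1 := s1) (s2 := s2) θ0
  refine ⟨η, η0, fun ρ hρ σ g v cσ cg cv t0 t1 hg => ?_⟩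
  obtain ⟨R, cR, hR⟩ := ABr_retr hρ
  have c1 : Continuous (projIcc (0 : ℝ) 1 zero_le_one) := continuous_projIcc
  have c2 : Continuous (projIcc o1 o2 ho.le) := continuous_projIcc
  obtain ⟨p, hp⟩ := ABr_fix (X := QI o1 o2 × Metric.closedBall (0 : ℂ) ρ) (V := ℝ × ℝ × ℂ)
    (ι := fun p => (p.1.1, p.1.2, p.2))
    (Φ := fun p => (p.1.1 - (χ (σ p.1) * (b1 * g p).re + (1 - χ (σ p.1)) * (σ p.1 - (s1 + s2) / 2)),
      p.1.2 - (b2 * g p).re, v p))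
    (P := fun x => ((projIcc 0 1 zero_le_one x.1, projIcc o1 o2 ho.le x.2.1), R x.2.2))
    (by fun_prop) (by fun_prop) (by fun_prop) fun p => Prod.ext (Prod.ext
      (projIcc_val zero_le_one _) (projIcc_val ho.le _)) (Subtype.ext (hR _ (mem_closedBall_zero_iff.1 p.2.2)))
  have F1 := ABr_proj zero_le_one (congrArg (fun q => q.1.1) hp)
    (fun h => by rw [x2 _ (Or.inl (t0 _ h))]; linarith [t0 _ h])
    (fun h => by rw [x2 _ (Or.inr (t1 _ h))]; linarith [t1 _ h])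
  have near : ∀ s ∈ Icc s1 s2, σ p.1 ∈ Icc s1 s2 → |σ p.1 - s| < θ →
      ‖g p - H p.1.2 s‖ ≤ η + η := fun s hs h1 h2 =>
    (norm_sub_le_norm_sub_add_norm_sub _ _ _).trans (add_le_add (hg p h1).1
      ((dist_eq_norm _ _).symm.trans_lt (hδ (p.1.2, σ p.1) ⟨p.1.2.2, h1⟩ (p.1.2, s) ⟨p.1.2.2, hs⟩
        (by rw [dist_prod_same_left]; exact h2.trans_le θ1))).le)
  have y0 := x0 (σ p.1)
  have y1 := x1 (σ p.1)
  have a1 : s1 + θ ≤ σ p.1 := not_lt.1 fun h => by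
    rcases le_total (σ p.1) s1 with h1 | h1
    · rw [x2 _ (Or.inl h1)] at F1
      linarith
    · have h2 := (ABr_re (near s1 e1 ⟨h1, by linarith⟩ (abs_lt.2 ⟨by linarith, by linarith⟩))
        n1).1 (q1 _ p.1.2.2).1
      rcases y0.eq_or_lt with h3 | h3
      · rw [← h3] at F1
        linarith
      · nlinarith [mul_pos h3 (neg_pos.2 h2)]
  have a2 : σ p.1 ≤ s2 - θ := not_lt.1 fun h => by
    rcases le_total s2 (σ p.1) with h1 | h1
    · rw [x2 _ (Or.inr h1)] at F1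
      linarith
    · have h2 := (ABr_re (near s2 e2 ⟨by linarith, h1⟩ (abs_lt.2 ⟨by linarith, by linarith⟩))
        n1).2 (q1 _ p.1.2.2).2
      rcases y0.eq_or_lt with h3 | h3
      · rw [← h3] at F1
        linarith
      · nlinarith [mul_pos h3 h2]
  have hσ : σ p.1 ∈ Icc s1 s2 := ⟨by linarith, by linarith⟩
  obtain ⟨u1, u2⟩ := hg p hσ
  have F2 := ABr_proj ho.le (congrArg (fun q => q.1.2) hp)
    (fun h => (ABr_re u1 n2).1 (by rw [show (p.1.2 : ℝ) = o1 from h]; exact (q2 _ hσ).1))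
    (fun h => (ABr_re u1 n2).2 (by rw [show (p.1.2 : ℝ) = o2 from h]; exact (q2 _ hσ).2))
  rw [x3 _ a1 a2, one_mul, sub_self, zero_mul, add_zero] at F1
  exact ⟨p, hσ, ABr_zero indep F1 F2,
    (hR _ u2).symm.trans (congrArg (fun q => (q.2 : ℂ)) hp)⟩

end Vale.Agent.P139.PA
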