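import Vale.Agent.P139.AJet

open Complex MeasureTheory Filter Topology Set
open scoped ComplexConjugate ContDiff

namespace Vale.Agent.P139.PA

/-! All orders of decay from order 8.  Induction on k ≥ 8 for the bounds |w_j| ≤ C s^(-a-j), j ≤ k, s > 3:
R = |w|^2m w has |R_j| ≤ C s^(-1-a-j) (Jt.nonlin with M = C s^(-a), Λ = 1/s); ode_level (k-1) gives
|w_(k+1)| ≤ C s^(-a-k), so D of fast_deriv tends to 0; |D'| ≤ C s^(4-2a-k); norm_sub_le_of_deriv on [s,T],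
T → ∞, gives |D s| ≤ C s^(5-2a-k).  On [0,3] continuity; (1+s)^(-e) ≥ 2^(-e) s^(-e) for s ≥ 1. -/

theorem ADecay_tail {D D' : ℝ → ℂ} {s c : ℝ} {r : ℕ} (hs : 0 < s) (hc : 0 ≤ c)
    (hD : ∀ t, s ≤ t → HasDerivAt D (D' t) t) (hb : ∀ t, s ≤ t → ‖D' t‖ ≤ c * t⁻¹ ^ (r + 2))
    (hlim : Tendsto D atTop (𝓝 0)) : ‖D s‖ ≤ c * s⁻¹ ^ (r + 1) := by
  have h1 : Tendsto (fun T => ‖D T - D s‖) atTop (𝓝 ‖0 - D s‖) := (hlim.sub_const _).norm
  rw [zero_sub, norm_neg] at h1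
  refine le_of_tendsto h1 ?_
  filter_upwards [eventually_ge_atTop s] with T hT
  have h2 := norm_sub_le_of_deriv (g := fun t => -c * t⁻¹ ^ (r + 1))
    (g' := fun t => -c * (((r + 1 : ℕ) : ℝ) * t⁻¹ ^ (r + 1 - 1) * -(t ^ 2)⁻¹)) hT
    (fun t ht => hD t ht.1)
    (fun t ht => ((hasDerivAt_inv (hs.trans_le ht.1).ne').fun_pow (r + 1)).const_mul (-c))
    fun t ht => (hb t ht.1).trans (by
      have h0 : 0 < t := hs.trans_le ht.1
      have h3 : 0 ≤ c * t⁻¹ ^ (r + 2) * r := by positivity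
      rw [Nat.add_sub_cancel, ← inv_pow]
      push_cast
      have h4 : -c * (((r : ℝ) + 1) * t⁻¹ ^ r * -t⁻¹ ^ 2) =
          c * t⁻¹ ^ (r + 2) + c * t⁻¹ ^ (r + 2) * r := by ring
      linarith)
  have h0 : 0 < T := hs.trans_le hT
  have h3 : 0 ≤ c * T⁻¹ ^ (r + 1) := by positivity
  linarith

theorem ADecay_conv {e x y c : ℝ} (he : 0 ≤ e) (hx : 0 < x) (hy : 0 < y) (hc : 0 < c)
    (h : x ≤ c * y) : y ^ (-e) ≤ c ^ e * x ^ (-e) := by
  have h1 : (c * y) ^ (-e) ≤ x ^ (-e) := Real.rpow_le_rpow_of_nonpos hx h (by linarith)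
  rw [Real.mul_rpow hc.le hy.le] at h1
  have h2 : c ^ e * c ^ (-e) = 1 := by rw [← Real.rpow_add hc, add_neg_cancel, Real.rpow_zero]
  have h3 := mul_le_mul_of_nonneg_left h1 (Real.rpow_nonneg hc.le e)
  rwa [← mul_assoc, h2, one_mul] at h3

theorem ADecay_R {m K : ℕ} {C s : ℝ} {w : ℝ → ℂ} (hm : 1 ≤ m) (hs : 0 < s)
    (hJ : Jt K s (C * s ^ (-aa m)) s⁻¹ w) {j : ℕ} (hj : j ≤ K) :
    ‖iteratedDeriv j (fun t => ((‖w t‖ ^ (2 * m) : ℝ) : ℂ) * w t) s‖ ≤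
      C ^ (2 * m + 1) * (2 * m + 1) ^ j * (s ^ (-aa m) * s⁻¹ ^ (j + 1)) := by
  refine ((hJ.nonlin (by positivity) m).2 j hj).trans_eq ?_
  have e1 : (s ^ (-aa m)) ^ (2 * m) = s⁻¹ := by
    rw [← Real.rpow_natCast, ← Real.rpow_mul hs.le]
    push_cast
    rw [neg_mul, mul_comm (aa m), aa_mul hm, Real.rpow_neg_one]
  rw [mul_pow, pow_succ (s ^ (-aa m)), e1, mul_pow]
  ring

theorem ADecay_norm (a om : ℝ) {s : ℝ} (hs : 0 < s) (z : ℂ) :
    ‖Complex.exp (I * s) * (s : ℂ) ^ (6 - ((a : ℂ) - I * om)) * z‖ = s ^ 6 * s ^ (-a) * ‖z‖ := by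
  rw [norm_mul, norm_mul, mul_comm I, norm_exp_ofReal_mul_I, one_mul,
    norm_cpow_eq_rpow_re_of_pos hs]
  have : (6 - ((a : ℂ) - I * om)).re = (6 : ℕ) + -a := by simp [sub_eq_add_neg]
  rw [this, Real.rpow_add hs, Real.rpow_natCast]

/-- crude bound for the next derivative -/
theorem ADecay_crude {α r u0 u1 u2 : ℂ} {n : ℕ} {s C C1 P : ℝ} (hs : 1 ≤ s) (hP : 0 ≤ P)
    (hC1 : 0 ≤ C1)
    (e : r = s * u2 + (6 + n + I * s) * u1 + I * (α + n) * u0)
    (hr : ‖r‖ ≤ C1 * (P * s⁻¹)) (h1 : ‖u1‖ ≤ C * (P * s⁻¹)) (h0 : ‖u0‖ ≤ C * P) :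
    ‖u2‖ ≤ (C1 + (7 + n + ‖α + n‖) * C) * (P * s⁻¹) := by
  have hs0 : 0 < s := by linarith
  have e2 : (s : ℂ) * u2 = r - (6 + n + I * s) * u1 - I * (α + n) * u0 := by
    rw [e]
    ring
  have n1 : ‖(6 + n + I * s : ℂ)‖ ≤ (7 + n) * s := by
    refine (norm_add_le _ _).trans ?_
    have := norm_add_le (6 : ℂ) n
    rw [norm_mul, norm_I, one_mul, norm_real, Real.norm_of_nonneg hs0.le]
    rw [Complex.norm_natCast, Complex.norm_ofNat] at this
    have h2 : (0 : ℝ) ≤ n := Nat.cast_nonneg n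
    nlinarith
  have n3 := (congrArg norm e2).trans_le ((norm_sub_le _ _).trans
    (add_le_add (norm_sub_le _ _) le_rfl))
  rw [norm_mul, norm_mul, norm_mul _ u0, norm_mul I, norm_I, one_mul, norm_real,
    Real.norm_of_nonneg hs0.le] at n3
  have n4 := mul_le_mul n1 h1 (norm_nonneg _) (by positivity)
  have n5 := mul_le_mul_of_nonneg_left h0 (norm_nonneg (α + n))
  have n6 : C1 * (P * s⁻¹) ≤ C1 * P :=
    mul_le_mul_of_nonneg_left (mul_le_of_le_one_right hP (inv_le_one_of_one_le₀ hs)) hC1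
  have n7 : (7 + n) * s * (C * (P * s⁻¹)) = (7 + n) * C * P := by field_simp
  refine le_of_mul_le_mul_left ?_ hs0
  have n8 : s * ((C1 + (7 + n + ‖α + n‖) * C) * (P * s⁻¹)) =
      C1 * P + (7 + n) * C * P + ‖α + n‖ * (C * P) := by
    field_simp
    ring
  linarith

theorem ADecay_step {m n : ℕ} {om C : ℝ} {w : ℝ → ℂ} (hm : 1 ≤ m) (hw : ContDiff ℝ ∞ w)
    (ode : POde m om w) (hC : 0 ≤ C)
    (hJ : ∀ s : ℝ, 3 < s → Jt (n + 7 + 1) s (C * s ^ (-aa m)) s⁻¹ w) :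
    ∃ C' : ℝ, 0 ≤ C' ∧ ∀ s : ℝ, 3 < s →
      ‖iteratedDeriv (n + 7 + 2) w s‖ ≤ C' * (s ^ (-aa m) * s⁻¹ ^ (n + 7 + 2)) := by
  set α : ℂ := (aa m : ℂ) - I * om with hα
  set k := n + 7 with hk
  set C1 := C ^ (2 * m + 1) * (2 * m + 1) ^ k
  set C2 := C ^ (2 * m + 1) * (2 * m + 1) ^ (k + 1)
  set C3 := C1 + (7 + k + ‖α + k‖) * C
  set β : ℂ := α + (k + 1 : ℕ) with hβ
  have hC1 : 0 ≤ C1 := by positivity
  have hC2 : 0 ≤ C2 := by positivity
  have hC3 : 0 ≤ C3 := by positivity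
  have ha := aa_nonneg m
  have hu1 : ∀ s : ℝ, 3 < s → ‖iteratedDeriv (k + 1) w s‖ ≤ C * (s ^ (-aa m) * s⁻¹ ^ (k + 1)) :=
    fun s hs => ((hJ s hs).2 (k + 1) le_rfl).trans_eq (mul_assoc _ _ _)
  have hu2 : ∀ s : ℝ, 3 < s → ‖iteratedDeriv (k + 2) w s‖ ≤ C3 * (s ^ (-aa m) * s⁻¹ ^ (k + 1)) := by
    intro s hs
    have hs0 : 0 < s := by linarith
    have h1 := ADecay_R hm hs0 (hJ s hs) (Nat.le_succ k)
    have h2 := hu1 s hs
    rw [pow_succ s⁻¹, ← mul_assoc (s ^ (-aa m))] at h1 h2 ⊢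
    exact ADecay_crude (by linarith) (by positivity) hC1
      (ode_level (s0 := 0) hw.contDiffOn ode k hs0) h1 h2
      (((hJ s hs).2 k (Nat.le_succ k)).trans_eq (mul_assoc _ _ _))
  have hq : ∀ s : ℝ, 3 < s → ‖β * iteratedDeriv (k + 1) w s / s‖ ≤
      ‖β‖ * C * (s ^ (-aa m) * s⁻¹ ^ (k + 2)) := by
    intro s hs
    have hs0 : 0 < s := by linarith
    rw [norm_div, norm_mul, norm_real, Real.norm_of_nonneg hs0.le, div_eq_mul_inv]
    refine (mul_le_mul_of_nonneg_right (mul_le_mul_of_nonneg_left (hu1 s hs) (norm_nonneg β))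
      (by positivity)).trans_eq ?_
    ring
  set D : ℝ → ℂ := fun t => Complex.exp (I * t) * (t : ℂ) ^ (6 - α) *
    (iteratedDeriv (k + 1 + 1) w t + β * iteratedDeriv (k + 1) w t / t) with hD
  have hlim : Tendsto D atTop (𝓝 0) := by
    have h1 : Tendsto (fun T : ℝ => (C3 + ‖β‖ * C) * T⁻¹) atTop (𝓝 0) := by
      simpa using tendsto_inv_atTop_zero.const_mul (C3 + ‖β‖ * C)
    refine squeeze_zero_norm' ?_ h1
    filter_upwards [eventually_gt_atTop 3] with T hT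
    have hT0 : 0 < T := by linarith
    have hi : T⁻¹ ≤ 1 := inv_le_one_of_one_le₀ (by linarith)
    have hp : T ^ (-aa m) ≤ 1 := Real.rpow_le_one_of_one_le_of_nonpos (by linarith) (by linarith)
    have hp0 : 0 ≤ T ^ (-aa m) := by positivity
    have h2 : T ^ (-aa m) * T⁻¹ ^ (k + 1) ≤ T⁻¹ ^ 7 :=
      (mul_le_of_le_one_left (by positivity) hp).trans
        (pow_le_pow_of_le_one (by positivity) hi (by omega))
    have h3 : T ^ (-aa m) * T⁻¹ ^ (k + 2) ≤ T⁻¹ ^ 7 :=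
      (mul_le_of_le_one_left (by positivity) hp).trans
        (pow_le_pow_of_le_one (by positivity) hi (by omega))
    have h4 := (norm_add_le _ _).trans (add_le_add
      ((hu2 T hT).trans (mul_le_mul_of_nonneg_left h2 hC3))
      ((hq T hT).trans (mul_le_mul_of_nonneg_left h3 (by positivity))))
    rw [hD, hα]
    beta_reduce
    rw [ADecay_norm _ _ hT0]
    refine (mul_le_mul (mul_le_of_le_one_right (by positivity) hp) h4 (norm_nonneg _)
      (by positivity)).trans_eq ?_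
    field_simp
  refine ⟨C2 + ‖β * (5 - α)‖ * C + ‖β‖ * C, by positivity, fun s hs => ?_⟩
  have hs0 : 0 < s := by linarith
  have hp0 : 0 < s ^ (-aa m) := by positivity
  have h1 := ADecay_tail (D := D) (s := s) (r := n + 2)
    (c := (C2 + ‖β * (5 - α)‖ * C) * (s ^ (-aa m) * s ^ (-aa m))) hs0 (by positivity)
    (fun t ht => fast_deriv le_rfl hw.contDiffOn ode (k + 1) (hs0.trans_le ht))
    (fun t ht => ?_) hlim
  · rw [hD, hα] at h1
    beta_reduce at h1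
    rw [ADecay_norm _ _ hs0, ← hα] at h1
    have h2 : ‖iteratedDeriv (k + 1 + 1) w s + β * iteratedDeriv (k + 1) w s / s‖ ≤
        (C2 + ‖β * (5 - α)‖ * C) * (s ^ (-aa m) * s⁻¹ ^ (k + 2)) := by
      refine le_of_mul_le_mul_left (h1.trans_eq ?_) (by positivity)
      rw [hk, show n + 7 + 2 = n + 2 + 1 + 6 by ring, pow_add s⁻¹ _ 6]
      field_simp
    have h3 := norm_sub_le (iteratedDeriv (k + 1 + 1) w s + β * iteratedDeriv (k + 1) w s / s)
      (β * iteratedDeriv (k + 1) w s / s)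
    rw [add_sub_cancel_right] at h3
    have h4 := hq s hs
    linarith
  · have ht3 : 3 < t := hs.trans_le ht
    have ht0 : 0 < t := by linarith
    have hp : t ^ (-aa m) ≤ s ^ (-aa m) := Real.rpow_le_rpow_of_nonpos hs0 ht (by linarith)
    have hp1 : 0 ≤ t ^ (-aa m) := by positivity
    rw [ADecay_norm _ _ ht0]
    have h2 := ADecay_R hm ht0 (hJ t ht3) (le_refl (k + 1))
    have h3 := hu1 t ht3
    have h4 : ‖iteratedDeriv (k + 1) (fun t => ((‖w t‖ ^ (2 * m) : ℝ) : ℂ) * w t) t / t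
        + β * (5 - α) * iteratedDeriv (k + 1) w t / t ^ 2‖ ≤
        (C2 + ‖β * (5 - α)‖ * C) * (t ^ (-aa m) * t⁻¹ ^ (k + 3)) := by
      refine (norm_add_le _ _).trans ?_
      rw [norm_div, norm_div, norm_mul, norm_pow, norm_real, Real.norm_of_nonneg ht0.le,
        div_eq_mul_inv, div_eq_mul_inv, ← inv_pow]
      refine (add_le_add (mul_le_mul_of_nonneg_right h2 (by positivity))
        (mul_le_mul_of_nonneg_right (mul_le_mul_of_nonneg_left h3 (norm_nonneg _))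
          (by positivity))).trans_eq ?_
      ring
    refine (mul_le_mul_of_nonneg_left h4 (by positivity)).trans ?_
    have h5 := mul_le_mul hp hp hp1 hp0.le
    have h6 := mul_le_mul_of_nonneg_left h5
      (by positivity : 0 ≤ (C2 + ‖β * (5 - α)‖ * C) * t⁻¹ ^ (n + 2 + 2))
    refine le_trans (le_of_eq ?_) (h6.trans_eq (by ring))
    rw [hk, show n + 7 + 3 = n + 2 + 2 + 6 by ring, pow_add t⁻¹ _ 6]
    field_simp

theorem ADecay_ind {m : ℕ} {om ρ B : ℝ} {w : ℝ → ℂ} (hm : 1 ≤ m) (hw : ContDiff ℝ ∞ w)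
    (ode : POde m om w) (h : ∀ s : ℝ, 3 < s → OutB ρ B (aa m) 8 w s) (n : ℕ) :
    ∃ C : ℝ, 0 ≤ C ∧ ∀ s : ℝ, 3 < s → Jt (n + 7 + 1) s (C * s ^ (-aa m)) s⁻¹ w := by
  induction n with
  | zero =>
    refine ⟨|B| * 3 ^ aa m, by positivity, fun s hs =>
      ⟨(contDiff_infty.1 hw _).contDiffAt, fun j hj => ((h s hs).2 j hj).trans ?_⟩⟩
    have hs0 : 0 < s := by linarith
    rw [Real.div_rpow (by norm_num) hs0.le, Real.rpow_neg hs0.le, one_div, div_eq_mul_inv,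
      mul_assoc |B|]
    exact mul_le_mul_of_nonneg_right (mul_le_mul_of_nonneg_right (le_abs_self B) (by positivity))
      (by positivity)
  | succ n ih =>
    obtain ⟨C, hC, hJ⟩ := ih
    obtain ⟨C', hC', h2⟩ := ADecay_step hm hw ode hC hJ
    refine ⟨C + C', by positivity, fun s hs =>
      ⟨(contDiff_infty.1 hw _).contDiffAt, fun j hj => ?_⟩⟩
    have hs0 : 0 < s := by linarith
    have h3 : 0 ≤ C * (s ^ (-aa m) * s⁻¹ ^ j) := by positivity
    have h4 : 0 ≤ C' * (s ^ (-aa m) * s⁻¹ ^ j) := by positivity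
    rcases Nat.lt_or_ge j (n + 7 + 2) with hj' | hj'
    · have := (hJ s hs).2 j (by omega)
      linarith
    · obtain rfl : j = n + 7 + 2 := by omega
      have := h2 s hs
      linarith

theorem decay_all {m : ℕ} {om ρ B : ℝ} {w : ℝ → ℂ} (hm : 1 ≤ m) (hw : ContDiff ℝ ∞ w)
    (ode : POde m om w) (h : ∀ s : ℝ, 3 < s → OutB ρ B (aa m) 8 w s) (k : ℕ) :
    ∃ C : ℝ, ∀ s : ℝ, 0 ≤ s → ‖iteratedDeriv k w s‖ ≤ C * (1 + s) ^ (-(aa m) - k) := by
  obtain ⟨C, hC, hJ⟩ := ADecay_ind hm hw ode h k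
  obtain ⟨C0, hC0⟩ : ∃ C0 : ℝ, ∀ u ∈ Icc (0 : ℝ) 3, ‖iteratedDeriv k w u‖ ≤ C0 :=
    isCompact_Icc.exists_bound_of_continuousOn
      (hw.continuous_iteratedDeriv k (by exact_mod_cast le_top)).continuousOn
  have h0 : 0 ≤ C0 := (norm_nonneg _).trans (hC0 0 ⟨le_rfl, by norm_num⟩)
  have he : 0 ≤ aa m + k := add_nonneg (aa_nonneg m) (Nat.cast_nonneg k)
  refine ⟨C * 2 ^ (aa m + k) + C0 * 4 ^ (aa m + k), fun s hs => ?_⟩
  rw [show -aa m - k = -(aa m + k) by ring]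
  have hx : 0 < 1 + s := by linarith
  have h1 : 0 ≤ C * (2 ^ (aa m + k) * (1 + s) ^ (-(aa m + k))) := by positivity
  have h2 : 0 ≤ C0 * (4 ^ (aa m + k) * (1 + s) ^ (-(aa m + k))) := by positivity
  rcases le_or_gt s 3 with h3 | h3
  · have h4 := ADecay_conv (c := 4) he hx one_pos (by norm_num) (by linarith)
    rw [Real.one_rpow] at h4
    have h5 := mul_le_mul_of_nonneg_left h4 h0
    have h6 := hC0 s ⟨hs, h3⟩
    linarith
  · have hs0 : 0 < s := by linarith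
    have h4 := ADecay_conv (c := 2) he hx hs0 (by norm_num) (by linarith)
    have h5 := mul_le_mul_of_nonneg_left h4 hC
    have h6 := (hJ s h3).2 k (by omega)
    have h7 : s ^ (-(aa m + k)) = s ^ (-aa m) * s⁻¹ ^ k := by
      rw [neg_add, Real.rpow_add hs0, Real.rpow_neg hs0.le (k : ℝ), Real.rpow_natCast, inv_pow]
    rw [h7] at h5
    linarith

end Vale.Agent.P139.PA
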