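import Vale.Agent.P139.Good

/-! Definitions for Part A (architect helper79, plan in skeleton/P139/PROOF_A2.md). -/

open Complex MeasureTheory Filter Topology Set
open scoped ComplexConjugate ContDiff

namespace Vale.Agent.P139.PA

/-- smooth truncation: identity below 3/2, equal to 2 above 5/2 -/
noncomputable def kap (u : ℝ) : ℝ := u + (2 - u) * Real.smoothTransition (u - 3 / 2)

/-- truncated right side, c is the value of the far cutoff -/
noncomputable def GG (m : ℕ) (om c : ℝ) (w : ℂ) : ℂ :=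
  (((c * kap (‖w‖ ^ (2 * m)) - om : ℝ) : ℂ) - I * aa m) * w

noncomputable def al (m : ℕ) (om : ℝ) : ℂ := (aa m : ℂ) - I * om

/-- solution of the truncated equation that is regular at 0 -/
structure Inn (m : ℕ) (om P0 : ℝ) (w : ℝ → ℂ) : Prop where
  smooth : ContDiff ℝ ∞ w
  ode : ∀ s : ℝ, (s : ℂ) * deriv (deriv w) s + (6 + I * s) * deriv w s = GG m om 1 (w s)
  init : ‖w 0‖ ^ (2 * m) = P0

/-- real form: A = |w|, x + i y = w'/w, r = |w'/w| -/
structure Ric (m : ℕ) (om : ℝ) (A x y r x1 y1 : ℝ → ℝ) : Prop where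
  pos : ∀ s, 0 ≤ s → 0 < A s
  dA : ∀ s, 0 ≤ s → HasDerivAt A (x s * A s) s
  dx : ∀ s, 0 ≤ s → HasDerivAt x (x1 s) s
  dy : ∀ s, 0 ≤ s → HasDerivAt y (y1 s) s
  ex : ∀ s, 0 ≤ s →
    s * x1 s + s * (x s ^ 2 - y s ^ 2) + 6 * x s - s * y s = kap (A s ^ (2 * m)) - om
  ey : ∀ s, 0 ≤ s → s * y1 s + 2 * s * x s * y s + 6 * y s + s * x s = -aa m
  rx : ∀ s, |x s| ≤ r s
  ry : ∀ s, |y s| ≤ r s
  rle : ∀ s, r s ≤ |x s| + |y s|
  zb : ∀ σ s M : ℝ, 0 ≤ σ → σ ≤ s →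
    (∀ t ∈ Icc σ s, (|kap (A t ^ (2 * m)) - om| + aa m) * A t ≤ M) →
    s ^ 6 * (A s * r s) ≤ σ ^ 6 * (A σ * r σ) + M * s ^ 5 * (s - σ)

/-- the force F of the radial equation (s^6 A')' = s^5 F A -/
noncomputable def FF (m : ℕ) (om : ℝ) (A y : ℝ → ℝ) (s : ℝ) : ℝ :=
  kap (A s ^ (2 * m)) - om + s * y s + s * y s ^ 2

/-- the potential f stays above 0.21 up to σ and has been below 0.23 -/
def Wall (f : ℝ → ℝ) (σ : ℝ) : Prop :=
  (∀ t ∈ Icc 0 σ, 0.21 ≤ f t) ∧ ∃ T ∈ Icc 0 σ, f T ≤ 0.23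

noncomputable def psi (u : ℝ) : ℝ := max 0 (min 1 ((u - 0.21) / 0.02))

/-- continuous wall position -/
noncomputable def sg (f : ℝ → ℝ) : ℝ :=
  ∫ s in (0 : ℝ)..2.75, psi (sInf ((fun u => f (s * u)) '' Icc 0 1))

/-- what is known about the inner solution on [0,3] -/
structure InG (η : ℝ) (m : ℕ) (σ : ℝ) (w : ℝ → ℂ) : Prop where
  core : ∀ s ∈ Icc 0 σ, 0.21 ≤ ‖w s‖ ^ (2 * m) ∧ ‖deriv w s‖ ≤ η * ‖w s‖
  lo : ∀ s ∈ Icc (0 : ℝ) 3, 1 / 2 ≤ ‖w s‖
  hi : ∀ s ∈ Icc (0 : ℝ) 3, ‖w s‖ ≤ 1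
  up : ∀ s ∈ Icc (0 : ℝ) 3, 2 * m * (deriv w s * conj (w s)).re ≤ η * ‖w s‖ ^ 2
  out : ∀ s ∈ Icc σ 3, ‖deriv w s‖ ≤ (2 * η + (s - σ) / 5) * ‖w s‖ ∧
    ‖w s‖ ≤ Real.exp (-(s - σ) ^ 2 / 500)

/-- jet bound at one point -/
def Jt (K : ℕ) (s M Λ : ℝ) (f : ℝ → ℂ) : Prop :=
  ContDiffAt ℝ K f s ∧ ∀ j ≤ K, ‖iteratedDeriv j f s‖ ≤ M * Λ ^ j

/-- far cutoff: 1 for s ≤ S, 0 for s ≥ 2 S -/
noncomputable def cutS (S s : ℝ) : ℝ := Real.smoothTransition (2 - s / S)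

/-- solution of the cut off equation that is a multiple of the slow solution far out -/
structure OutS (m : ℕ) (om S : ℝ) (c : ℂ) (v : ℝ → ℂ) : Prop where
  smooth : ContDiffOn ℝ ∞ v (Ioi 1)
  ode : ∀ s : ℝ, 1 < s →
    (s : ℂ) * deriv (deriv v) s + (6 + I * s) * deriv v s = GG m om (cutS S s) (v s)
  far : ∀ s : ℝ, 2 * S < s → v s = c * UU (al m om) 6 s

/-- symbol bounds at the point s -/
def OutB (ρ B a : ℝ) (K : ℕ) (w : ℝ → ℂ) (s : ℝ) : Prop :=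
  ‖w s‖ ≤ ρ * (3 / s) ^ a ∧ ∀ j ≤ K, ‖iteratedDeriv j w s‖ ≤ B * (3 / s) ^ a * (1 / s) ^ j

/-- weighted Wronskian with the slow solution -/
noncomputable def Wr (m : ℕ) (om : ℝ) (w : ℝ → ℂ) (s : ℝ) : ℂ :=
  (s : ℂ) ^ 6 * Complex.exp (I * s) * (w s * dU (al m om) 6 s - deriv w s * UU (al m om) 6 s)

/-- normalised mismatch of the Wronskians -/
noncomputable def gf (m : ℕ) (om σ : ℝ) (w : ℝ → ℂ) (e : ℂ) : ℂ :=
  -σ * Complex.exp (-I * σ) / (σ : ℂ) ^ 6 * (Wr m om w 3 - e) / (w σ * UU (-I * om) 6 σ)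

/-- shooting parameters -/
abbrev QI (o1 o2 : ℝ) := Icc (0 : ℝ) 1 × Icc o1 o2

/-- the equation of the profile -/
def POde (m : ℕ) (om : ℝ) (w : ℝ → ℂ) : Prop :=
  ∀ s : ℝ, 0 < s → (s : ℂ) * deriv (deriv w) s + (6 + I * s) * deriv w s
      + I * ((aa m : ℂ) - I * om) * w s = ((‖w s‖ ^ (2 * m) : ℝ) : ℂ) * w s

theorem kap_of_le {u : ℝ} (h : u ≤ 3 / 2) : kap u = u := by
  rw [kap, Real.smoothTransition.zero_of_nonpos (by linarith)]
  ring

theorem kap_of_ge {u : ℝ} (h : 5 / 2 ≤ u) : kap u = 2 := by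
  rw [kap, Real.smoothTransition.one_of_one_le (by linarith)]
  ring

theorem kap_ge {u : ℝ} (h : 3 / 2 ≤ u) : 3 / 2 ≤ kap u := by
  have h0 := Real.smoothTransition.nonneg (u - 3 / 2)
  have h1 := Real.smoothTransition.le_one (u - 3 / 2)
  unfold kap
  nlinarith

theorem kap_nonneg {u : ℝ} (h : 0 ≤ u) : 0 ≤ kap u := by
  have h0 := Real.smoothTransition.nonneg (u - 3 / 2)
  have h1 := Real.smoothTransition.le_one (u - 3 / 2)
  unfold kap
  nlinarith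

theorem kap_le (u : ℝ) : kap u ≤ 5 / 2 := by
  have h0 := Real.smoothTransition.nonneg (u - 3 / 2)
  have h1 := Real.smoothTransition.le_one (u - 3 / 2)
  rcases le_total u (5 / 2) with h | h
  · unfold kap
    nlinarith
  · rw [kap_of_ge h]
    norm_num

theorem kap_smooth : ContDiff ℝ ∞ kap :=
  contDiff_id.add ((contDiff_const.sub contDiff_id).mul
    (Real.smoothTransition.contDiff.comp (contDiff_id.sub contDiff_const)))

theorem cutS_one {S s : ℝ} (hS : 0 < S) (h : s ≤ S) : cutS S s = 1 :=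
  Real.smoothTransition.one_of_one_le (by
    have : s / S ≤ 1 := (div_le_one hS).2 h
    linarith)

theorem cutS_zero {S s : ℝ} (hS : 0 < S) (h : 2 * S ≤ s) : cutS S s = 0 :=
  Real.smoothTransition.zero_of_nonpos (by
    have : 2 ≤ s / S := (le_div_iff₀ hS).2 h
    linarith)

theorem cutS_mem (S s : ℝ) : cutS S s ∈ Icc (0 : ℝ) 1 :=
  ⟨Real.smoothTransition.nonneg _, Real.smoothTransition.le_one _⟩

theorem cutS_smooth (S : ℝ) : ContDiff ℝ ∞ (cutS S) :=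
  Real.smoothTransition.contDiff.comp (contDiff_const.sub (contDiff_id.div_const S))

theorem aa_pos {m : ℕ} (hm : 1 ≤ m) : 0 < aa m := by
  have : (0 : ℝ) < m := by exact_mod_cast hm
  unfold aa
  positivity

theorem aa_nonneg (m : ℕ) : 0 ≤ aa m := by
  unfold aa
  positivity

theorem aa_mul {m : ℕ} (hm : 1 ≤ m) : 2 * m * aa m = 1 := by
  have : (0 : ℝ) < m := by exact_mod_cast hm
  unfold aa
  field_simp

/-- aa m is eventually small -/
theorem aa_small {θ : ℝ} (hθ : 0 < θ) : ∃ m0 : ℕ, 1 ≤ m0 ∧ ∀ m ≥ m0, aa m ≤ θ := by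
  obtain ⟨n, hn⟩ := exists_nat_ge (1 / θ)
  refine ⟨n + 1, by omega, fun m hm => ?_⟩
  have h1 : (n : ℝ) + 1 ≤ m := by exact_mod_cast hm
  have h2 : 0 < 1 / θ := by positivity
  rw [div_le_iff₀ hθ] at hn
  unfold aa
  rw [div_le_iff₀ (by linarith)]
  nlinarith

theorem al_re (m : ℕ) (om : ℝ) : (al m om).re = aa m := by simp [al]

theorem al_re_gt (m : ℕ) (om : ℝ) : -1 < (al m om).re := by
  rw [al_re]
  have := aa_nonneg m
  linarith

theorem GG_zero (m : ℕ) (om c : ℝ) : GG m om c 0 = 0 := by simp [GG]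

theorem GG_add (m : ℕ) (om c : ℝ) (w : ℂ) :
    GG m om c w + I * al m om * w = ((c * kap (‖w‖ ^ (2 * m)) : ℝ) : ℂ) * w := by
  unfold GG al
  push_cast
  linear_combination (-(om : ℂ) * w) * I_mul_I

theorem pow_norm_eq (m : ℕ) (w : ℂ) : ((‖w‖ ^ (2 * m) : ℝ) : ℂ) = (w * conj w) ^ m := by
  rw [mul_conj, normSq_eq_norm_sq, pow_mul]
  push_cast
  ring

theorem InG.mono {η η' : ℝ} {m : ℕ} {σ : ℝ} {w : ℝ → ℂ} (h : InG η m σ w) (hη : η ≤ η') :
    InG η' m σ w where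
  core s hs := ⟨(h.core s hs).1,
    (h.core s hs).2.trans (mul_le_mul_of_nonneg_right hη (norm_nonneg _))⟩
  lo := h.lo
  hi := h.hi
  up s hs := (h.up s hs).trans (mul_le_mul_of_nonneg_right hη (sq_nonneg _))
  out s hs := ⟨(h.out s hs).1.trans (mul_le_mul_of_nonneg_right (by linarith) (norm_nonneg _)),
    (h.out s hs).2⟩

/-- continuity (bootstrap) argument, forward -/
theorem boot {φ : ℝ → ℝ} {a b θ1 θ2 : ℝ} (hφ : ContinuousOn φ (Icc a b)) (hθ : θ1 < θ2)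
    (ha : φ a ≤ θ2) (h : ∀ s ∈ Icc a b, (∀ t ∈ Icc a s, φ t ≤ θ2) → φ s ≤ θ1) :
    ∀ s ∈ Icc a b, φ s ≤ θ1 := by
  have key : ∀ s ∈ Icc a b, ∀ t ∈ Icc a s, φ t ≤ θ2 := by
    intro s hs
    have hc : IsClosed ({t | φ t ≤ θ2} ∩ Icc a s) := by
      rw [inter_comm]
      exact (hφ.mono (Icc_subset_Icc_right hs.2)).preimage_isClosed_of_isClosed isClosed_Icc
        isClosed_Iic
    refine hc.Icc_subset_of_forall_mem_nhdsGT_of_Icc_subset ha fun t ht hI => ?_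
    have htb : t ∈ Icc a b := ⟨ht.1, ht.2.le.trans hs.2⟩
    have h1 : φ t < θ2 := (h t htb fun u hu => hI hu).trans_lt hθ
    have h2 : ∀ᶠ u in 𝓝[Icc a b] t, φ u < θ2 := (hφ t htb).eventually (gt_mem_nhds h1)
    have h3 : Icc a b ∈ 𝓝[>] t :=
      mem_of_superset (Ioo_mem_nhdsGT (ht.2.trans_le hs.2)) fun u hu => ⟨ht.1.trans hu.1.le, hu.2.le⟩
    have h4 : 𝓝[>] t ≤ 𝓝[Icc a b] t := le_inf inf_le_left (le_principal_iff.2 h3)
    exact (h2.filter_mono h4).mono fun u hu => hu.le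
  exact fun s hs => h s hs (key s hs)

/-- continuity (bootstrap) argument, backward -/
theorem boot_back {φ : ℝ → ℝ} {a b θ1 θ2 : ℝ} (hφ : ContinuousOn φ (Icc a b)) (hθ : θ1 < θ2)
    (hb : φ b ≤ θ2) (h : ∀ s ∈ Icc a b, (∀ t ∈ Icc s b, φ t ≤ θ2) → φ s ≤ θ1) :
    ∀ s ∈ Icc a b, φ s ≤ θ1 := by
  have hm : ∀ s ∈ Icc (-b) (-a), -s ∈ Icc a b := fun s hs => ⟨by linarith [hs.2], by linarith [hs.1]⟩
  have := boot (φ := fun t => φ (-t)) (a := -b) (b := -a)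
    (hφ.comp continuous_neg.continuousOn hm) hθ (by simpa using hb) fun s hs hI =>
      h (-s) (hm s hs) fun t ht => by
        simpa using hI (-t) ⟨by linarith [ht.2], by linarith [ht.1]⟩
  intro s hs
  simpa using this (-s) ⟨by linarith [hs.2], by linarith [hs.1]⟩

/-- comparison of real functions by their derivatives -/
theorem le_of_deriv {f g f' g' : ℝ → ℝ} {a b : ℝ} (hab : a ≤ b)
    (hf : ∀ t ∈ Icc a b, HasDerivAt f (f' t) t) (hg : ∀ t ∈ Icc a b, HasDerivAt g (g' t) t)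
    (h : ∀ t ∈ Icc a b, f' t ≤ g' t) : f b - f a ≤ g b - g a := by
  have hd : ∀ t ∈ Icc a b, HasDerivAt (fun t => g t - f t) (g' t - f' t) t := fun t ht =>
    (hg t ht).sub (hf t ht)
  have hm : MonotoneOn (fun t => g t - f t) (Icc a b) := by
    refine monotoneOn_of_deriv_nonneg (convex_Icc a b)
      (fun t ht => (hd t ht).continuousAt.continuousWithinAt)
      (fun t ht => (hd t (interior_subset ht)).differentiableAt.differentiableWithinAt) fun t ht => ?_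
    rw [(hd t (interior_subset ht)).deriv]
    linarith [h t (interior_subset ht)]
  have := hm (left_mem_Icc.2 hab) (right_mem_Icc.2 hab) hab
  simp only at this
  linarith

/-- comparison of a complex function with a real one -/
theorem norm_sub_le_of_deriv {f f' : ℝ → ℂ} {g g' : ℝ → ℝ} {a b : ℝ} (hab : a ≤ b)
    (hf : ∀ t ∈ Icc a b, HasDerivAt f (f' t) t) (hg : ∀ t ∈ Icc a b, HasDerivAt g (g' t) t)
    (h : ∀ t ∈ Icc a b, ‖f' t‖ ≤ g' t) : ‖f b - f a‖ ≤ g b - g a := by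
  have := image_norm_le_of_norm_deriv_right_le_deriv_boundary' (f := fun t => f t - f a) (f' := f')
    (a := a) (b := b) (B := fun t => g t - g a) (B' := g')
    (fun t ht => ((hf t ht).sub_const _).continuousAt.continuousWithinAt)
    (fun t ht => ((hf t (Ico_subset_Icc_self ht)).sub_const _).hasDerivWithinAt) (by simp)
    (fun t ht => ((hg t ht).sub_const _).continuousAt.continuousWithinAt)
    (fun t ht => ((hg t (Ico_subset_Icc_self ht)).sub_const _).hasDerivWithinAt)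
    (fun t ht => h t (Ico_subset_Icc_self ht)) (right_mem_Icc.2 hab)
  exact this

end Vale.Agent.P139.PA
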