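import Vale.Agent.P139.AJet

open Complex MeasureTheory Filter Topology Set
open scoped ComplexConjugate ContDiff

namespace Vale.Agent.P139.PA

/-! Smallness of the potentials outside the wall. -/

theorem AExt_aa_le (m : ℕ) : aa m ≤ 1 := by
  rcases Nat.eq_zero_or_pos m with rfl | hm
  · simp [aa]
  · have h1 : (1 : ℝ) ≤ m := by exact_mod_cast hm
    have h2 := aa_mul hm
    have h3 := aa_nonneg m
    nlinarith

theorem AExt_al_norm (m : ℕ) {om : ℝ} (hom : om ∈ Icc (0 : ℝ) 1) :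
    ‖(aa m : ℂ) - I * om‖ ≤ 2 := by
  refine (norm_sub_le _ _).trans ?_
  rw [norm_mul, norm_I, one_mul, norm_real, norm_real, Real.norm_of_nonneg (aa_nonneg m),
    Real.norm_of_nonneg hom.1]
  linarith [AExt_aa_le m, hom.2]

/-- induction on K: the K-th derivative of the nonlinearity is at most 1 for large m (Jt.nonlin with
M = ρ, Λ = max 1 (B/ρ), small_pow), then ode_level K -/
theorem jets_in {ρ : ℝ} (h0 : 0 < ρ) (h1 : ρ < 1) (K : ℕ) : ∃ B : ℝ, ∃ m0 : ℕ, ∀ m ≥ m0,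
    ∀ om ∈ Icc (0 : ℝ) 1, ∀ w : ℝ → ℂ, ContDiff ℝ ∞ w → POde m om w → ∀ s ∈ Icc (1 : ℝ) 3,
      ‖w s‖ ≤ ρ → ‖deriv w s‖ ≤ 1 → ∀ j ≤ K + 1, ‖iteratedDeriv j w s‖ ≤ B := by
  induction K with
  | zero =>
    refine ⟨1, 0, fun m _ om _ w _ _ s _ ha hb j hj => ?_⟩
    interval_cases j
    · simpa using ha.trans h1.le
    · simpa using hb
  | succ K ih =>
    obtain ⟨B, m0, hB⟩ := ih
    obtain ⟨m1, hm1⟩ := small_pow h0.le h1 one_pos 1 (max 1 (B / ρ)) K
    refine ⟨1 + (12 + 2 * K) * B, max m0 m1, fun m hm om hom w hw ode s hs ha hb j hj => ?_⟩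
    have hB' := hB m (le_of_max_le_left hm) om hom w hw ode s hs ha hb
    have hB0 : 0 ≤ B := (norm_nonneg _).trans (hB' 0 (by omega))
    have hK : (0 : ℝ) ≤ K := Nat.cast_nonneg K
    have hKB : 0 ≤ (K : ℝ) * B := mul_nonneg hK hB0
    rcases Nat.lt_or_ge j (K + 2) with hj' | hj'
    · refine (hB' j (by omega)).trans ?_
      linarith
    obtain rfl : j = K + 2 := by omega
    have hL : (1 : ℝ) ≤ max 1 (B / ρ) := le_max_left _ _
    have hJ : Jt K s ρ (max 1 (B / ρ)) w := by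
      refine ⟨(hw.of_le (by exact_mod_cast le_top)).contDiffAt, fun i hi => ?_⟩
      rcases Nat.eq_zero_or_pos i with rfl | hi0
      · simpa using ha
      refine (hB' i (by omega)).trans ?_
      rw [← div_le_iff₀' h0]
      exact (le_max_right 1 _).trans (le_self_pow₀ hL hi0.ne')
    have hR := (hJ.nonlin (by linarith) m).2 K le_rfl
    have hs1 := hm1 m (le_of_max_le_right hm) K le_rfl
    rw [abs_one, abs_of_nonneg (by linarith : (0 : ℝ) ≤ max 1 (B / ρ))] at hs1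
    have hm0 : (0 : ℝ) ≤ m := Nat.cast_nonneg m
    have hR1 : ρ ^ (2 * m + 1) * ((2 * m + 1) * max 1 (B / ρ)) ^ K ≤ 1 := by
      refine le_trans ?_ hs1
      refine mul_le_mul ?_ (pow_le_pow_left₀ (by positivity)
        (mul_le_mul_of_nonneg_right (by linarith) (by linarith)) K) (by positivity) (by positivity)
      rw [pow_succ, mul_comm]
      exact mul_le_mul_of_nonneg_right (by linarith) (by positivity)
    have hl := ode_level (s0 := 0) hw.contDiffOn ode K (by linarith [hs.1] : 0 < s)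
    have e : (s : ℂ) * iteratedDeriv (K + 2) w s = iteratedDeriv K
        (fun t => ((‖w t‖ ^ (2 * m) : ℝ) : ℂ) * w t) s
        - (6 + K + I * s) * iteratedDeriv (K + 1) w s
        - I * ((aa m : ℂ) - I * om + K) * iteratedDeriv K w s := by
      rw [hl]
      ring
    have n1 : ‖(6 + K + I * s : ℂ)‖ ≤ 9 + K := by
      refine (norm_add_le _ _).trans ?_
      have := norm_add_le (6 : ℂ) K
      rw [norm_mul, norm_I, one_mul, norm_real, Real.norm_of_nonneg (by linarith [hs.1])]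
      rw [Complex.norm_natCast, Complex.norm_ofNat] at this
      linarith [hs.2]
    have n2 : ‖I * ((aa m : ℂ) - I * om + K)‖ ≤ 2 + K := by
      rw [norm_mul, norm_I, one_mul]
      refine (norm_add_le _ _).trans ?_
      rw [Complex.norm_natCast]
      linarith [AExt_al_norm m hom]
    have n3 := (congrArg norm e).trans_le ((norm_sub_le _ _).trans
      (add_le_add (norm_sub_le _ _) le_rfl))
    rw [norm_mul, norm_mul, norm_mul _ (iteratedDeriv K w s), norm_real,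
      Real.norm_of_nonneg (by linarith [hs.1])] at n3
    have n4 := mul_le_mul n1 (hB' (K + 1) le_rfl) (norm_nonneg _) (by linarith)
    have n5 := mul_le_mul n2 (hB' K (by omega)) (norm_nonneg _) (by linarith)
    have n6 := mul_le_mul_of_nonneg_right hs.1 (norm_nonneg (iteratedDeriv (K + 2) w s))
    linarith

theorem AExt_fin {ρ ε L s : ℝ} {m k : ℕ} (hm : 1 ≤ m) (h0 : 0 < ρ) (hs : 0 < s) (hL : 1 ≤ L)
    (h : |(3 : ℝ)| * (m + 1) * ρ ^ (2 * m) * ((2 * m + 3) * |L|) ^ k ≤ ε) :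
    (m + 1) * (ρ * (3 / s) ^ aa m) ^ (2 * m) * (2 * m * (L / s)) ^ k ≤ ε * s ^ (-1 - (k : ℝ)) := by
  have e1 : ((3 / s) ^ aa m) ^ (2 * m) = 3 / s := by
    rw [← Real.rpow_natCast, ← Real.rpow_mul (by positivity)]
    push_cast
    rw [mul_comm (aa m), aa_mul hm, Real.rpow_one]
  have e2 : s ^ (-1 - (k : ℝ)) = s⁻¹ * s⁻¹ ^ k := by
    rw [Real.rpow_sub hs, Real.rpow_neg_one, Real.rpow_natCast, inv_pow, div_eq_mul_inv]
  rw [abs_of_pos (by norm_num), abs_of_pos (by linarith)] at h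
  have hm0 : (0 : ℝ) ≤ m := Nat.cast_nonneg m
  have h2 : 3 * ((m : ℝ) + 1) * ρ ^ (2 * m) * (2 * m * L) ^ k ≤ ε := by
    refine le_trans ?_ h
    exact mul_le_mul_of_nonneg_left (pow_le_pow_left₀ (by positivity)
      (mul_le_mul_of_nonneg_right (by linarith) (by linarith)) k) (by positivity)
  rw [mul_pow, e1, e2]
  refine le_trans (le_of_eq ?_) (mul_le_mul_of_nonneg_right h2 (by positivity))
  rw [div_eq_mul_inv L, ← mul_assoc _ L, mul_pow]
  ring

/-- OutB.jt, Jt.mul, Jt.pow, ((3/s)^a)^(2m) = 3/s, small_pow -/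
theorem ext_of {ρ ε : ℝ} (h0 : 0 < ρ) (h1 : ρ < 1) (hε : 0 < ε) (B : ℝ) : ∃ m0 : ℕ, ∀ m ≥ m0,
    ∀ w : ℝ → ℂ, ContDiff ℝ ∞ w → ∀ s : ℝ, 0 < s → OutB ρ B (aa m) 8 w s → ∀ k ≤ 8,
      ‖iteratedDeriv k (V1 m w) s‖ ≤ ε * s ^ (-1 - (k : ℝ)) ∧
      ‖iteratedDeriv k (V2 m w) s‖ ≤ ε * s ^ (-1 - (k : ℝ)) := by
  obtain ⟨m1, hm1⟩ := small_pow h0.le h1 hε 3 (max 1 (B / ρ)) 8
  refine ⟨max 1 m1, fun m hm w hw s hs hO k hk => ?_⟩
  have hL : (1 : ℝ) ≤ max 1 (B / ρ) := le_max_left _ _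
  have hm' : 1 ≤ m := le_of_max_le_left hm
  have hf := AExt_fin hm' h0 hs hL (hm1 m (le_of_max_le_right hm) k hk)
  have hJ := hO.jt h0 hs (contDiff_infty.1 hw 8).contDiffAt
  have hΛ : 0 ≤ max 1 (B / ρ) / s := by positivity
  have hM := AJet_nonneg hJ
  set M := ρ * (3 / s) ^ aa m
  set Λ := max 1 (B / ρ) / s
  have hP := hJ.mul hJ.conj hΛ hΛ
  constructor
  · have h2 := ((hP.pow (by positivity) m).cmul ((m : ℂ) + 1)).2 k hk
    refine le_trans h2 (le_trans (le_of_eq ?_) hf)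
    have : ‖(m : ℂ) + 1‖ = m + 1 := by exact_mod_cast Complex.norm_natCast (m + 1)
    rw [this]
    ring
  · obtain ⟨n, rfl⟩ : ∃ n, m = n + 1 := ⟨m - 1, by omega⟩
    have h2 := (((hP.pow (by positivity) n).cmul ((n + 1 : ℕ) : ℂ)).mul (hJ.pow hΛ 2)
      (by positivity) (by positivity)).2 k hk
    refine le_trans h2 (le_trans ?_ hf)
    rw [Complex.norm_natCast]
    have e1 : (n : ℝ) * (Λ + Λ) + (2 : ℕ) * Λ = 2 * (n + 1 : ℕ) * Λ := by
      push_cast
      ring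
    have e2 : ((n + 1 : ℕ) : ℝ) * (M * M) ^ n * M ^ 2 = (n + 1 : ℕ) * M ^ (2 * (n + 1)) := by ring
    rw [e1, e2]
    exact mul_le_mul_of_nonneg_right (mul_le_mul_of_nonneg_right (by linarith) (by positivity))
      (by positivity)

end Vale.Agent.P139.PA
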