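import Vale.Agent.P139.ABeta

open Complex MeasureTheory Filter Topology Set
open scoped ComplexConjugate ContDiff

namespace Vale.Agent.P139.PA

/-! (gamma): past the wall.  boot for P with θ1 = 0.25, θ2 = 0.26 on [σ,3].  zb with M = 0.35:
A r ≤ η + 0.13 (s - σ) ≤ 0.04; A σ ≥ 0.995 (0.995^(2m) < 0.21), |A'| ≤ 0.04, A ≥ 0.98; Ric.eta: |y| ≤ 0.0141;
FF ≤ -0.025; Ric.xi with c = η/10 a: derivative ≤ -3.5 (u^5 ≥ 143), u^6 A exp (c u) ≤ 737, so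
x ≤ c - 0.004 (s - σ); growP closes the bootstrap, grow gives the Gaussian bound (A σ exp (0.3 c) ≤ 1). -/

section step

variable {m : ℕ} {om η σ s : ℝ} {A x y r x1 y1 : ℝ → ℝ}

theorem AGamma_le_one (h : Ric m om A x y r x1 y1) (hm : 1 ≤ m) {t : ℝ} (ht : 0 ≤ t)
    (hP : A t ^ (2 * m) ≤ 1) : A t ≤ 1 :=
  (pow_le_one_iff_of_nonneg (h.pos t ht).le (by omega)).1 hP

theorem AGamma_r (h : Ric m om A x y r x1 y1) (hm : 1 ≤ m) (ha : aa m ≤ 1 / 1000)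
    (hom : om ∈ Icc (0.33 : ℝ) 0.34) (hσ : σ ∈ Icc (2.7 : ℝ) 2.71) (hr : r σ ≤ η)
    (hs : s ∈ Icc σ 3) (hP : ∀ t ∈ Icc σ s, A t ^ (2 * m) ≤ 0.26) :
    A s * r s ≤ η + 0.13 * (s - σ) := by
  have σ0 : 0 ≤ σ := by linarith [hσ.1]
  have hz := h.zb σ s 0.35 σ0 hs.1 fun t ht => by
    have t0 := σ0.trans ht.1
    have p0 : 0 < A t ^ (2 * m) := pow_pos (h.pos t t0) _
    have p1 := hP t ht
    have a1 := AGamma_le_one h hm t0 (by linarith)
    rw [kap_of_le (by linarith)]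
    have p2 : |A t ^ (2 * m) - om| ≤ 0.34 := abs_le.2 ⟨by linarith [hom.2], by linarith [hom.1]⟩
    calc (|A t ^ (2 * m) - om| + aa m) * A t ≤ 0.35 * 1 :=
          mul_le_mul (by linarith) a1 (h.pos t t0).le (by norm_num)
      _ = 0.35 := by ring
  have r0 : 0 ≤ r σ := (abs_nonneg _).trans (h.rx σ)
  have a1 := AGamma_le_one h hm σ0 (by linarith [hP σ (left_mem_Icc.2 hs.1)])
  have s0 : 0 < s := by linarith [hσ.1, hs.1]
  have k1 : A σ * r σ ≤ η := (mul_le_of_le_one_left r0 a1).trans hr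
  have k2 : σ ^ 6 * (A σ * r σ) ≤ s ^ 6 * η :=
    mul_le_mul (pow_le_pow_left₀ σ0 hs.1 6) k1 (mul_nonneg (h.pos σ σ0).le r0) (by positivity)
  have k3 : 0.35 * s ^ 5 * (s - σ) ≤ s ^ 6 * (0.13 * (s - σ)) := by
    have : 0 ≤ s ^ 5 * (s - σ) * (0.13 * s - 0.35) :=
      mul_nonneg (mul_nonneg (by positivity) (by linarith [hs.1])) (by linarith [hσ.1, hs.1])
    nlinarith
  refine le_of_mul_le_mul_left ?_ (pow_pos s0 6)
  linarith

theorem AGamma_A (h : Ric m om A x y r x1 y1) (hσ : σ ∈ Icc (2.7 : ℝ) 2.71) (hs : s ∈ Icc σ 3)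
    (hA : 0.995 ≤ A σ) (hr : ∀ t ∈ Icc σ s, A t * r t ≤ 0.04) : 0.98 ≤ A s := by
  have σ0 : 0 ≤ σ := by linarith [hσ.1]
  have k := le_of_deriv (f := fun t => -0.04 * t) (f' := fun _ => -0.04) hs.1
    (fun t _ => by simpa using (hasDerivAt_id t).const_mul (-0.04 : ℝ))
    (fun t ht => h.dA t (σ0.trans ht.1)) fun t ht => by
      have k1 := (abs_le.1 (h.rx t)).1
      have k2 := hr t ht
      have k3 := mul_le_mul_of_nonneg_right k1 (h.pos t (σ0.trans ht.1)).le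
      linarith
  linarith [hs.2, hσ.1]

theorem AGamma_y (h : Ric m om A x y r x1 y1) (ha : aa m ≤ 1 / 1000) (h1 : η ≤ 1 / 1000)
    (hσ : σ ∈ Icc (2.7 : ℝ) 2.71) (hs : s ∈ Icc σ 3) (hrσ : r σ ≤ η)
    (hr : ∀ t ∈ Icc σ s, A t * r t ≤ 0.04) (hA1 : ∀ t ∈ Icc σ s, A t ≤ 1) (hA : 0.98 ≤ A s) :
    |y s| ≤ 0.0141 := by
  have σ0 : 0 ≤ σ := by linarith [hσ.1]
  have s0 : 0 < s := by linarith [hσ.1, hs.1]
  have a0 := aa_nonneg m
  have hb : ∀ t ∈ Icc σ s, |-(t ^ 5 * A t ^ 2 * (aa m + t * x t))| ≤ s ^ 6 * 0.0404 := by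
    intro t ht
    have t0 := σ0.trans ht.1
    have A0 := (h.pos t t0).le
    have A1 := hA1 t ht
    have k1 : |aa m + t * x t| ≤ aa m + t * r t := by
      refine (abs_add_le _ _).trans ?_
      rw [abs_of_nonneg a0, abs_mul, abs_of_nonneg t0]
      exact add_le_add le_rfl (mul_le_mul_of_nonneg_left (h.rx t) t0)
    have k2 : A t * (aa m + t * r t) ≤ s * 0.0404 := by
      have k3 : A t * aa m ≤ 1 / 1000 := (mul_le_of_le_one_left a0 A1).trans ha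
      have k4 : t * (A t * r t) ≤ s * 0.04 :=
        mul_le_mul ht.2 (hr t ht) (mul_nonneg A0 ((abs_nonneg _).trans (h.rx t))) s0.le
      nlinarith [hσ.1, hs.1]
    have k5 : A t * (A t * |aa m + t * x t|) ≤ s * 0.0404 :=
      (mul_le_of_le_one_left (by positivity) A1).trans
        ((mul_le_mul_of_nonneg_left k1 A0).trans k2)
    rw [abs_neg, abs_mul, abs_of_nonneg (by positivity : 0 ≤ t ^ 5 * A t ^ 2)]
    calc t ^ 5 * A t ^ 2 * |aa m + t * x t| = t ^ 5 * (A t * (A t * |aa m + t * x t|)) := by ring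
      _ ≤ s ^ 5 * (s * 0.0404) :=
          mul_le_mul (pow_le_pow_left₀ t0 ht.2 5) k5 (by positivity) (by positivity)
      _ = s ^ 6 * 0.0404 := by ring
  have u1 := le_of_deriv (g := fun t => s ^ 6 * 0.0404 * t) (g' := fun _ => s ^ 6 * 0.0404) hs.1
    (fun t ht => h.eta (σ0.trans ht.1))
    (fun t _ => by simpa using (hasDerivAt_id t).const_mul (s ^ 6 * 0.0404))
    fun t ht => (abs_le.1 (hb t ht)).2
  have u2 := le_of_deriv (f := fun t => -(s ^ 6 * 0.0404) * t) (f' := fun _ => -(s ^ 6 * 0.0404))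
    hs.1 (fun t _ => by simpa using (hasDerivAt_id t).const_mul (-(s ^ 6 * 0.0404)))
    (fun t ht => h.eta (σ0.trans ht.1)) fun t ht => (abs_le.1 (hb t ht)).1
  have u3 : |σ ^ 6 * A σ ^ 2 * y σ| ≤ s ^ 6 * (1 / 1000) := by
    have A0 := (h.pos σ σ0).le
    have A1 := hA1 σ (left_mem_Icc.2 hs.1)
    rw [abs_mul, abs_of_nonneg (by positivity : 0 ≤ σ ^ 6 * A σ ^ 2), mul_assoc]
    refine mul_le_mul (pow_le_pow_left₀ σ0 hs.1 6) ?_ (by positivity) (by positivity)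
    exact (mul_le_of_le_one_left (abs_nonneg _) (pow_le_one₀ A0 A1)).trans
      ((h.ry σ).trans (hrσ.trans h1))
  have u4 : s ^ 6 * 0.0404 * (s - σ) ≤ s ^ 6 * 0.0404 * 0.3 :=
    mul_le_mul_of_nonneg_left (by linarith [hs.2, hσ.1]) (by positivity)
  have u5 : |s ^ 6 * A s ^ 2 * y s| ≤ s ^ 6 * 0.01312 := by
    obtain ⟨v1, v2⟩ := abs_le.1 u3
    exact abs_le.2 ⟨by linarith, by linarith⟩
  rw [abs_mul, abs_of_nonneg (by positivity : 0 ≤ s ^ 6 * A s ^ 2), mul_assoc] at u5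
  have u6 := le_of_mul_le_mul_left u5 (pow_pos s0 6)
  have u7 : 0.9604 ≤ A s ^ 2 := by nlinarith
  have u8 := mul_le_mul_of_nonneg_right u7 (abs_nonneg (y s))
  linarith

theorem AGamma_x (h : Ric m om A x y r x1 y1) {c : ℝ} (c0 : 0 ≤ c) (c1 : c ≤ 1 / 1000)
    (hom : om ∈ Icc (0.33 : ℝ) 0.34) (hσ : σ ∈ Icc (2.7 : ℝ) 2.71) (hs : s ∈ Icc σ 3)
    (hx : x σ ≤ c) (hP : ∀ t ∈ Icc σ s, A t ^ (2 * m) ≤ 0.26) (hA : ∀ t ∈ Icc σ s, 0.98 ≤ A t)
    (hA1 : A s ≤ 1) (hy : ∀ t ∈ Icc σ s, |y t| ≤ 0.0141) : x s ≤ c - 0.004 * (s - σ) := by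
  have σ0 : 0 ≤ σ := by linarith [hσ.1]
  have s0 : 0 < s := by linarith [hσ.1, hs.1]
  have u1 := le_of_deriv (g := fun t => -3.5 * t) (g' := fun _ => -3.5) hs.1
    (fun t ht => h.xi c (σ0.trans ht.1))
    (fun t _ => by simpa using (hasDerivAt_id t).const_mul (-3.5 : ℝ)) fun t ht => by
      have t1 : 2.7 ≤ t := hσ.1.trans ht.1
      have t3 : t ≤ 3 := ht.2.trans hs.2
      obtain ⟨y0, y2⟩ := abs_le.1 (hy t ht)
      have k1 : FF m om A y t - 6 * c - t * c ^ 2 ≤ -0.025 := by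
        have p1 := hP t ht
        have k2 : y t + y t ^ 2 ≤ 0.0143 := by nlinarith
        have k3 : t * (y t + y t ^ 2) ≤ 3 * 0.0143 :=
          (mul_le_mul_of_nonneg_left k2 (by linarith)).trans (by linarith)
        have k4 : 0 ≤ t * c ^ 2 := by positivity
        unfold FF
        rw [kap_of_le (by linarith)]
        linarith [hom.1]
      have k5 : 143 ≤ t ^ 5 :=
        le_trans (by norm_num) (pow_le_pow_left₀ (by norm_num : (0 : ℝ) ≤ 2.7) t1 5)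
      have k6 : 1 ≤ Real.exp (c * t) := Real.one_le_exp (by positivity)
      have k7 : 143 * 0.98 * 1 ≤ t ^ 5 * A t * Real.exp (c * t) :=
        mul_le_mul (mul_le_mul k5 (hA t ht) (by norm_num) (by positivity)) k6 (by norm_num)
          (mul_nonneg (by positivity) (h.pos t (by linarith)).le)
      have k8 := mul_le_mul_of_nonneg_left k1
        (show 0 ≤ t ^ 5 * A t * Real.exp (c * t) by linarith)
      linarith
  have u2 : σ ^ 6 * A σ * Real.exp (c * σ) * (x σ - c) ≤ 0 :=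
    mul_nonpos_of_nonneg_of_nonpos (mul_nonneg (mul_nonneg (by positivity) (h.pos σ σ0).le)
      (Real.exp_pos _).le) (by linarith)
  have u3 : s ^ 6 * A s * Real.exp (c * s) ≤ 3 ^ 6 * 1 * 1.07 :=
    mul_le_mul (mul_le_mul (pow_le_pow_left₀ s0.le hs.2 6) hA1 (h.pos s s0.le).le (by norm_num))
      (AAlpha_exp (by nlinarith [hs.2])) (Real.exp_pos _).le (by norm_num)
  have u4 : 0 < s ^ 6 * A s * Real.exp (c * s) :=
    mul_pos (mul_pos (by positivity) (h.pos s s0.le)) (Real.exp_pos _)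
  have u5 := mul_le_mul_of_nonneg_right u3 (show 0 ≤ s - σ by linarith [hs.1])
  have u6 : s ^ 6 * A s * Real.exp (c * s) * (x s - c)
      ≤ s ^ 6 * A s * Real.exp (c * s) * (-0.004 * (s - σ)) := by
    linarith [hs.1]
  linarith [le_of_mul_le_mul_left u6 u4]

theorem AGamma_step (h : Ric m om A x y r x1 y1) (hm : 1 ≤ m) (ha : aa m ≤ 1 / 1000)
    (h0 : 0 < η) (h1 : η ≤ 1 / 1000) (hom : om ∈ Icc (0.33 : ℝ) 0.34)
    (hσ : σ ∈ Icc (2.7 : ℝ) 2.71) (hA : 0.995 ≤ A σ) (hx : x σ ≤ η / 10 * aa m) (hr : r σ ≤ η)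
    (hs : s ∈ Icc σ 3) (hP : ∀ t ∈ Icc σ s, A t ^ (2 * m) ≤ 0.26) :
    ∀ t ∈ Icc σ s, x t ≤ η / 10 * aa m - 0.004 * (t - σ) ∧ A t * r t ≤ η + 0.13 * (t - σ) ∧
      0.98 ≤ A t := by
  have σ0 : 0 ≤ σ := by linarith [hσ.1]
  have a0 := aa_nonneg m
  have sub : ∀ t ∈ Icc σ s, t ∈ Icc σ 3 := fun t ht => ⟨ht.1, ht.2.trans hs.2⟩
  have sub' : ∀ t ∈ Icc σ s, ∀ u ∈ Icc σ t, u ∈ Icc σ s := fun t ht u hu => ⟨hu.1, hu.2.trans ht.2⟩
  have k0 : ∀ t ∈ Icc σ s, A t ≤ 1 := fun t ht =>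
    AGamma_le_one h hm (σ0.trans ht.1) (by linarith [hP t ht])
  have k1 : ∀ t ∈ Icc σ s, A t * r t ≤ η + 0.13 * (t - σ) := fun t ht =>
    AGamma_r h hm ha hom hσ hr (sub t ht) fun u hu => hP u (sub' t ht u hu)
  have k2 : ∀ t ∈ Icc σ s, A t * r t ≤ 0.04 := fun t ht => by
    linarith [k1 t ht, (sub t ht).2, hσ.1]
  have k3 : ∀ t ∈ Icc σ s, 0.98 ≤ A t := fun t ht =>
    AGamma_A h hσ (sub t ht) hA fun u hu => k2 u (sub' t ht u hu)
  have k4 : ∀ t ∈ Icc σ s, |y t| ≤ 0.0141 := fun t ht =>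
    AGamma_y h ha h1 hσ (sub t ht) hr (fun u hu => k2 u (sub' t ht u hu))
      (fun u hu => k0 u (sub' t ht u hu)) (k3 t ht)
  exact fun t ht => ⟨AGamma_x h (by positivity) (by nlinarith) hom hσ (sub t ht) hx
    (fun u hu => hP u (sub' t ht u hu)) (fun u hu => k3 u (sub' t ht u hu)) (k0 t ht)
    fun u hu => k4 u (sub' t ht u hu), k1 t ht, k3 t ht⟩

end step

theorem gamma {η : ℝ} (h0 : 0 < η) (h1 : η ≤ 1 / 1000) : ∃ m0 : ℕ, ∀ m ≥ m0,
    ∀ (om : ℝ) (A x y r x1 y1 : ℝ → ℝ), om ∈ Icc (0.33 : ℝ) 0.34 → Ric m om A x y r x1 y1 →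
    ∀ σ ∈ Icc (2.7 : ℝ) 2.71, 0.21 ≤ A σ ^ (2 * m) → A σ ^ (2 * m) ≤ 0.24 →
    x σ ≤ η / 10 * aa m → r σ ≤ η → ∀ s ∈ Icc σ 3, x s ≤ η / 10 * aa m ∧
      r s ≤ 2 * η + (s - σ) / 5 ∧ 1 / 2 ≤ A s ∧ A s ≤ Real.exp (-(s - σ) ^ 2 / 500) := by
  obtain ⟨m1, hm1, ha1⟩ := aa_small (θ := 1 / 1000) (by norm_num)
  obtain ⟨m2, hm2⟩ := exists_pow_lt_of_lt_one (show (0 : ℝ) < 0.21 by norm_num)
    (show (0.995 : ℝ) < 1 by norm_num)
  refine ⟨m1 + m2, fun m hm om A x y r x1 y1 hom h σ hσ p1 p2 hx hr => ?_⟩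
  have hm0 : 1 ≤ m := by omega
  have ha := ha1 m (by omega)
  have σ0 : 0 ≤ σ := by linarith [hσ.1]
  have hA : 0.995 ≤ A σ := by
    by_contra hc
    have k1 : A σ ^ (2 * m) ≤ 0.995 ^ (2 * m) :=
      pow_le_pow_left₀ (h.pos σ σ0).le (not_le.1 hc).le _
    have k2 : (0.995 : ℝ) ^ (2 * m) ≤ 0.995 ^ m2 :=
      pow_le_pow_of_le_one (by norm_num) (by norm_num) (by omega)
    linarith
  have hb := boot (φ := fun t => A t ^ (2 * m)) (a := σ) (b := 3) (θ1 := 0.2568) (θ2 := 0.26)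
    (fun t ht => (h.dP (σ0.trans ht.1)).continuousAt.continuousWithinAt) (by norm_num)
    (by linarith) fun s hs hP => by
      have k := AGamma_step h hm0 ha h0 h1 hom hσ hA hx hr hs hP
      have k1 := h.growP hm0 (e := η / 10) (d := 0) σ0 hs.1 fun u hu => by
        linarith [(k u hu).1, hu.1]
      have k2 : Real.exp (η / 10 * (s - σ) - m * 0 * (s - σ) ^ 2) ≤ 1.07 :=
        AAlpha_exp (by nlinarith [hs.1, hs.2, hσ.1])
      refine k1.trans ((mul_le_mul p2 k2 (Real.exp_pos _).le (by norm_num)).trans ?_)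
      norm_num
  intro s hs
  have k := AGamma_step h hm0 ha h0 h1 hom hσ hA hx hr hs fun t ht => by
    linarith [hb t ⟨ht.1, ht.2.trans hs.2⟩]
  obtain ⟨k1, k2, k3⟩ := k s (right_mem_Icc.2 hs.1)
  have r0 : 0 ≤ r s := (abs_nonneg _).trans (h.rx s)
  refine ⟨by linarith [hs.1], ?_, by linarith, ?_⟩
  · linarith [mul_le_mul_of_nonneg_right k3 r0, hs.1]
  · have k4 := h.grow (c := η / 10 * aa m) (d := 0.004) σ0 hs.1 fun u hu => (k u hu).1
    have k5 : A σ * Real.exp (η / 10 * aa m * (s - σ)) ≤ 1 := by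
      refine (pow_le_one_iff_of_nonneg (mul_nonneg (h.pos σ σ0).le (Real.exp_pos _).le)
        (show 2 * m ≠ 0 by omega)).1 ?_
      rw [mul_pow, ← Real.exp_nat_mul]
      have e : ((2 * m : ℕ) : ℝ) * (η / 10 * aa m * (s - σ)) = η / 10 * (s - σ) := by
        push_cast
        linear_combination η / 10 * (s - σ) * aa_mul hm0
      rw [e]
      refine (mul_le_mul p2 (AAlpha_exp (by nlinarith [hs.1, hs.2, hσ.1])) (Real.exp_pos _).le
        (by norm_num)).trans ?_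
      norm_num
    rw [sub_eq_add_neg, Real.exp_add, ← mul_assoc,
      show -(0.004 * (s - σ) ^ 2 / 2) = -(s - σ) ^ 2 / 500 by ring] at k4
    exact k4.trans (mul_le_of_le_one_left (Real.exp_pos _).le k5)

/-- translation back to w -/
theorem inner_good {η : ℝ} (h0 : 0 < η) (h1 : η ≤ 1 / 1000) : ∃ m0 : ℕ, ∀ m ≥ m0,
    ∀ (om P0 σ : ℝ) (w : ℝ → ℂ), om ∈ Icc (0.33 : ℝ) 0.34 → 0 < P0 → P0 ≤ 0.8 → Inn m om P0 w →
    σ ∈ Icc (2.7 : ℝ) 2.71 → Wall (fun s => ‖w s‖ ^ (2 * m)) σ → InG η m σ w := by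
  obtain ⟨m1, hm1⟩ := core h0 (by linarith)
  obtain ⟨m2, hm2⟩ := gamma h0 h1
  refine ⟨m1 + m2 + 2, fun m hm om P0 σ w hom p0 p1 hw hσ hW => ?_⟩
  have hm0 : 1 ≤ m := by omega
  obtain ⟨x1, y1, h⟩ := hw.ric hm0 p0
  have σ0 : 0 ≤ σ := by linarith [hσ.1]
  obtain ⟨c1, c2⟩ := hm1 m (by omega) om _ _ _ _ x1 y1 hom h (hw.init.trans_le p1) σ hσ hW
  have cσ := c1 σ (right_mem_Icc.2 σ0)
  have g := hm2 m (by omega) om _ _ _ _ x1 y1 hom h σ hσ (hW.1 σ (right_mem_Icc.2 σ0)) c2 cσ.1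
    cσ.2.1
  have nz : ∀ s, 0 ≤ s → 0 < ‖w s‖ := h.pos
  have hr : ∀ s c, 0 ≤ s → ‖deriv w s / w s‖ ≤ c → ‖deriv w s‖ ≤ c * ‖w s‖ := fun s c hs k => by
    rwa [norm_div, div_le_iff₀ (nz s hs)] at k
  refine ⟨fun s hs => ⟨hW.1 s hs, hr s _ hs.1 (c1 s hs).2.1⟩, fun s hs => ?_, fun s hs => ?_,
    fun s hs => ?_, fun s hs => ⟨hr s _ (σ0.trans hs.1) (g s hs).2.1, (g s hs).2.2.2⟩⟩
  · rcases le_total s σ with k | k
    · by_contra hc
      have k1 : ‖w s‖ ^ (2 * m) ≤ (1 / 2) ^ (2 * m) :=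
        pow_le_pow_left₀ (norm_nonneg _) (not_le.1 hc).le _
      have k2 : (1 / 2 : ℝ) ^ (2 * m) ≤ (1 / 2) ^ 4 :=
        pow_le_pow_of_le_one (by norm_num) (by norm_num) (by omega)
      have k3 : 0.21 ≤ ‖w s‖ ^ (2 * m) := hW.1 s ⟨hs.1, k⟩
      linarith
    · exact (g s ⟨k, hs.2⟩).2.2.1
  · rcases le_total s σ with k | k
    · exact AGamma_le_one h hm0 hs.1 (c1 s ⟨hs.1, k⟩).2.2
    · exact (g s ⟨k, hs.2⟩).2.2.2.trans (Real.exp_le_one_iff.2 (by nlinarith [sq_nonneg (s - σ)]))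
  · have k1 : (deriv w s / w s).re ≤ η / 10 * aa m := by
      rcases le_total s σ with k | k
      · exact (c1 s ⟨hs.1, k⟩).1
      · exact (g s ⟨k, hs.2⟩).1
    have n0 : w s ≠ 0 := norm_pos_iff.1 (nz s hs.1)
    have e : deriv w s * conj (w s) = deriv w s / w s * ((‖w s‖ ^ 2 : ℝ) : ℂ) := by
      rw [← normSq_eq_norm_sq, ← mul_conj]
      field_simp
    rw [e, re_mul_ofReal, ← mul_assoc]
    refine mul_le_mul_of_nonneg_right ?_ (sq_nonneg _)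
    have k2 := mul_le_mul_of_nonneg_left k1 (show (0 : ℝ) ≤ 2 * m by positivity)
    have k3 : 2 * m * (η / 10 * aa m) = η / 10 := by linear_combination η / 10 * aa_mul hm0
    linarith

theorem inner_top : ∃ m0 : ℕ, ∀ m ≥ m0, ∀ (om : ℝ) (w : ℝ → ℂ), om ∈ Icc (0.33 : ℝ) 0.34 →
    Inn m om 0.8 w → ∀ t ∈ Icc (0 : ℝ) 3, 0.8 ≤ ‖w t‖ ^ (2 * m) := by
  obtain ⟨m1, hm1⟩ := alpha (e := 1 / 100) (by norm_num) le_rfl
  obtain ⟨m2, hm2, ha2⟩ := aa_small (θ := 1) one_pos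
  refine ⟨m1 + m2, fun m hm om w hom hw t ht => ?_⟩
  have hm0 : 1 ≤ m := by omega
  have ha := ha2 m (by omega)
  obtain ⟨x1, y1, h⟩ := hw.ric hm0 (by norm_num)
  have e := h.ex 0 le_rfl
  simp only [zero_mul, zero_add, sub_zero] at e
  rw [hw.init, kap_of_le (by norm_num)] at e
  have k := hm1 m (by omega) om _ _ _ _ x1 y1 hom h hw.init.le 0 (by norm_num)
    (fun u hu => by
      rw [le_antisymm hu.2 hu.1]
      exact le_trans (by norm_num) hw.init.ge) (by linarith [hom.2])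
  have k2 := h.monoP le_rfl ht.1 fun u hu =>
    le_trans (mul_nonneg (by norm_num) (aa_nonneg m)) (k u ⟨hu.1, hu.2.trans ht.2⟩)
  exact hw.init.ge.trans k2

end Vale.Agent.P139.PA
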