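import Vale.Agent.P139.ALip

open Complex MeasureTheory Filter Topology Set
open scoped ComplexConjugate ContDiff

namespace Vale.Agent.P139.PA

/-! Existence of the inner solution.  Fixed point of
w s = w0 + ∫ r in 0..s, ∫ u in 0..1, u^5 exp (-i r (1-u)) G (w (r u)), contraction on bounded continuous
functions on Q × ℝ with weight exp (λ |s|) as in ode_param.  v r = inner integral = deriv w r satisfies
r^6 exp (i r) v r = ∫ t in 0..r, t^5 exp (i t) G (w t) (substitution), differentiate; at r = 0 directly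
(or by continuity).  Smoothness: w C^k implies v C^k by param_smooth. -/

theorem AInn_hd {K : ℝ × ℝ → ℂ} (hK : ContDiff ℝ 1 K) (s : ℝ) :
    HasDerivAt (fun s : ℝ => ∫ u in (0 : ℝ)..1, K (s, u))
      (∫ u in (0 : ℝ)..1, fderiv ℝ K (s, u) (1, 0)) s := by
  have c0 := hK.continuous
  have c1 : Continuous fun p : ℝ × ℝ => fderiv ℝ K p (1, 0) :=
    (hK.continuous_fderiv one_ne_zero).clm_apply continuous_const
  obtain ⟨C, hC⟩ := ((isCompact_closedBall s 1).prod (isCompact_uIcc (a := (0 : ℝ)) (b := 1))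
    ).exists_bound_of_continuousOn c1.continuousOn
  refine (intervalIntegral.hasDerivAt_integral_of_dominated_loc_of_deriv_le
    (F := fun s u => K (s, u)) (F' := fun s u => fderiv ℝ K (s, u) (1, 0)) (bound := fun _ => C)
    (Metric.closedBall_mem_nhds s one_pos) (Eventually.of_forall fun x => ?_) ?_ ?_
    (Eventually.of_forall fun t ht x hx => hC (x, t) ⟨hx, uIoc_subset_uIcc ht⟩)
    intervalIntegrable_const (Eventually.of_forall fun t _ x _ => ?_)).2
  · exact (c0.comp (Continuous.prodMk_right x)).aestronglyMeasurable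
  · exact (c0.comp (Continuous.prodMk_right s)).intervalIntegrable _ _
  · exact (c1.comp (Continuous.prodMk_right s)).aestronglyMeasurable
  · exact (hK.differentiable one_ne_zero (x, t)).hasFDerivAt.comp_hasDerivAt x
      ((hasDerivAt_id x).prodMk (hasDerivAt_const x t))

/-- induction on k, hasDerivAt_integral_of_dominated_loc_of_deriv_le with a bound on a compact set -/
theorem param_smooth (k : ℕ) {K : ℝ × ℝ → ℂ} (hK : ContDiff ℝ k K) :
    ContDiff ℝ k (fun s : ℝ => ∫ u in (0 : ℝ)..1, K (s, u)) := by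
  induction k generalizing K with
  | zero =>
    have h0 : Continuous K := hK.continuous
    exact contDiff_zero.2 (intervalIntegral.continuous_parametric_intervalIntegral_of_continuous'
      (f := fun s u => K (s, u)) h0 0 1)
  | succ k ih =>
    have h1 : ContDiff ℝ 1 K := hK.of_le (by exact_mod_cast Nat.le_add_left 1 k)
    have h2 : ContDiff ℝ k fun p : ℝ × ℝ => fderiv ℝ K p (1, 0) :=
      (hK.fderiv_right (by push_cast; exact le_rfl)).clm_apply contDiff_const
    have h3 := ih h2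
    push_cast
    refine contDiff_succ_iff_deriv.2 ⟨fun s => (AInn_hd h1 s).differentiableAt, by simp, ?_⟩
    rwa [funext fun s => (AInn_hd h1 s).deriv]

/-- the solution operator of the singular first order equation -/
noncomputable def AInnV (g : ℝ → ℂ) (r : ℝ) : ℂ :=
  ∫ u in (0 : ℝ)..1, (u : ℂ) ^ 5 * Complex.exp (-I * r * (1 - u)) * g (r * u)

theorem AInnV_cont {X : Type} [TopologicalSpace X] {g : X → ℝ → ℂ}
    (hg : Continuous fun p : X × ℝ => g p.1 p.2) :
    Continuous fun p : X × ℝ => AInnV (g p.1) p.2 := by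
  unfold AInnV
  refine intervalIntegral.continuous_parametric_intervalIntegral_of_continuous'
    (f := fun (p : X × ℝ) (u : ℝ) =>
      (u : ℂ) ^ 5 * Complex.exp (-I * p.2 * (1 - u)) * g p.1 (p.2 * u)) ?_ 0 1
  have h1 : Continuous fun z : (X × ℝ) × ℝ => g z.1.1 (z.1.2 * z.2) :=
    hg.comp (f := fun z : (X × ℝ) × ℝ => (z.1.1, z.1.2 * z.2)) (by fun_prop)
  have h2 : Continuous fun z : (X × ℝ) × ℝ =>
      (z.2 : ℂ) ^ 5 * Complex.exp (-I * z.1.2 * (1 - z.2)) := by fun_prop
  exact h2.mul h1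

theorem AInnV_cont1 {g : ℝ → ℂ} (hg : Continuous g) : Continuous (AInnV g) := by
  unfold AInnV
  refine intervalIntegral.continuous_parametric_intervalIntegral_of_continuous'
    (f := fun (r : ℝ) (u : ℝ) =>
      (u : ℂ) ^ 5 * Complex.exp (-I * r * (1 - u)) * g (r * u)) ?_ 0 1
  have h1 : Continuous fun z : ℝ × ℝ => g (z.1 * z.2) := by fun_prop
  have h2 : Continuous fun z : ℝ × ℝ =>
      (z.2 : ℂ) ^ 5 * Complex.exp (-I * z.1 * (1 - z.2)) := by fun_prop
  exact h2.mul h1

theorem AInnV_sub_le {g1 g2 : ℝ → ℂ} (h1 : Continuous g1) (h2 : Continuous g2) {r M : ℝ}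
    (h : ∀ t, |t| ≤ |r| → ‖g1 t - g2 t‖ ≤ M) : ‖AInnV g1 r - AInnV g2 r‖ ≤ M := by
  unfold AInnV
  rw [← intervalIntegral.integral_sub (Continuous.intervalIntegrable (by fun_prop) _ _)
    (Continuous.intervalIntegrable (by fun_prop) _ _)]
  refine (intervalIntegral.norm_integral_le_of_norm_le_const (C := M) fun u hu => ?_).trans
    (by simp)
  rw [uIoc_of_le zero_le_one] at hu
  have e1 : ‖Complex.exp (-I * r * (1 - u))‖ = 1 := by
    rw [Complex.norm_exp]
    simp
  have e2 : ‖(u : ℂ) ^ 5‖ ≤ 1 := by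
    rw [norm_pow, Complex.norm_real, Real.norm_eq_abs, abs_of_pos hu.1]
    exact pow_le_one₀ hu.1.le hu.2
  rw [← mul_sub, norm_mul, norm_mul, e1, mul_one]
  refine (mul_le_of_le_one_left (norm_nonneg _) e2).trans (h _ ?_)
  rw [abs_mul, abs_of_pos hu.1]
  exact mul_le_of_le_one_right (abs_nonneg _) hu.2

theorem AInn_int {h : ℝ → ℂ} (hc : Continuous h) {c b : ℝ} (hc0 : 0 ≤ c) (hb : 0 < b)
    (hh : ∀ r, ‖h r‖ ≤ c * Real.exp (b * |r|)) (s : ℝ) :
    ‖∫ r in (0 : ℝ)..s, h r‖ ≤ c / b * Real.exp (b * |s|) := by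
  have hd : ∀ t, HasDerivAt (fun t => ∫ r in (0 : ℝ)..t, h r) (h t) t := fun t =>
    (hc.integral_hasStrictDerivAt 0 t).hasDerivAt
  have h0 : 0 ≤ c / b := by positivity
  rcases le_total 0 s with hs | hs
  · have h1 := norm_sub_le_of_deriv (g := fun t => c / b * Real.exp (b * t))
      (g' := fun t => c * Real.exp (b * t)) hs (fun t _ => hd t)
      (fun t _ => (((hasDerivAt_id t).const_mul b).exp.const_mul (c / b)).congr_deriv (by
        simp only [id]; field_simp))
      (fun t ht => by simpa only [abs_of_nonneg ht.1] using hh t)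
    rw [abs_of_nonneg hs]
    simp only [intervalIntegral.integral_same, sub_zero, mul_zero, Real.exp_zero] at h1
    linarith
  · have h1 := norm_sub_le_of_deriv (g := fun t => -(c / b) * Real.exp (b * -t))
      (g' := fun t => c * Real.exp (b * -t)) hs (fun t _ => hd t)
      (fun t _ => (((hasDerivAt_id t).neg.const_mul b).exp.const_mul (-(c / b))).congr_deriv (by
        simp only [id, Pi.neg_apply]; field_simp))
      (fun t ht => by simpa only [abs_of_nonpos ht.2] using hh t)
    rw [abs_of_nonpos hs]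
    simp only [intervalIntegral.integral_same, zero_sub, norm_neg, neg_zero, mul_zero,
      Real.exp_zero] at h1
    linarith

theorem AInn_fix {Q : Type} [TopologicalSpace Q] [CompactSpace Q] {G : Q → ℂ → ℂ}
    (hG : Continuous fun p : Q × ℂ => G p.1 p.2) {L : NNReal} (hL : ∀ q, LipschitzWith L (G q))
    (h0 : ∀ q, G q 0 = 0) {w0 : Q → ℂ} (hw : Continuous w0) :
    ∃ W : Q → ℝ → ℂ, Continuous (fun p : Q × ℝ => W p.1 p.2) ∧
      ∀ q s, W q s = w0 q + ∫ r in (0 : ℝ)..s, AInnV (fun t => G q (W q t)) r := by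
  obtain ⟨b, hb⟩ : ∃ b : ℝ, b = 2 * L + 1 := ⟨_, rfl⟩
  have hL0 : (0 : ℝ) ≤ L := L.2
  have hb0 : 0 < b := by linarith
  let X : BoundedContinuousFunction (Q × ℝ) ℂ → Q → ℝ → ℂ := fun f q s =>
    (Real.exp (b * |s|) : ℂ) * f (q, s)
  have cX : ∀ f, Continuous fun p : Q × ℝ => X f p.1 p.2 := fun f => by
    have := f.continuous
    simp only [X]
    fun_prop
  have cG : ∀ f, Continuous fun p : Q × ℝ => G p.1 (X f p.1 p.2) := fun f =>
    hG.comp (f := fun p : Q × ℝ => (p.1, X f p.1 p.2)) (continuous_fst.prodMk (cX f))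
  have cG1 : ∀ f q, Continuous fun t => G q (X f q t) := fun f q =>
    (cG f).comp (Continuous.prodMk_right q)
  let S : BoundedContinuousFunction (Q × ℝ) ℂ → Q × ℝ → ℂ := fun f p =>
    (Real.exp (-(b * |p.2|)) : ℂ) *
      (w0 p.1 + ∫ r in (0 : ℝ)..p.2, AInnV (fun t => G p.1 (X f p.1 t)) r)
  have cS : ∀ f, Continuous (S f) := fun f => by
    have h1 := AInnV_cont (g := fun q t => G q (X f q t)) (cG f)
    have h2 : Continuous fun p : Q × ℝ =>
        ∫ r in (0 : ℝ)..p.2, AInnV (fun t => G p.1 (X f p.1 t)) r :=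
      intervalIntegral.continuous_parametric_intervalIntegral_of_continuous
        (f := fun (p : Q × ℝ) r => AInnV (fun t => G p.1 (X f p.1 t)) r)
        (h1.comp (f := fun z : (Q × ℝ) × ℝ => (z.1.1, z.2)) (by fun_prop)) continuous_snd
    exact (by fun_prop : Continuous fun p : Q × ℝ => (Real.exp (-(b * |p.2|)) : ℂ)).mul
      ((hw.comp continuous_fst).add h2)
  have hS : ∀ f g p, ‖S f p - S g p‖ ≤ 1 / 2 * dist f g := by
    rintro f g ⟨q, s⟩
    have hd : 0 ≤ dist f g := dist_nonneg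
    have c1 := AInnV_cont1 (cG1 f q)
    have c2 := AInnV_cont1 (cG1 g q)
    have h1 : ∀ r, ‖AInnV (fun t => G q (X f q t)) r - AInnV (fun t => G q (X g q t)) r‖
        ≤ L * dist f g * Real.exp (b * |r|) := fun r => by
      refine AInnV_sub_le (cG1 f q) (cG1 g q) fun t ht => ?_
      rw [← dist_eq_norm]
      refine ((hL q).dist_le_mul _ _).trans ?_
      rw [mul_assoc]
      refine mul_le_mul_of_nonneg_left ?_ hL0
      simp only [X]
      rw [dist_eq_norm, ← mul_sub, norm_mul, Complex.norm_real, Real.norm_eq_abs,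
        abs_of_pos (Real.exp_pos _), mul_comm, ← dist_eq_norm]
      exact mul_le_mul (BoundedContinuousFunction.dist_coe_le_dist _)
        (Real.exp_le_exp.2 (mul_le_mul_of_nonneg_left ht hb0.le)) (Real.exp_pos _).le hd
    have h2 := AInn_int (c1.sub c2) (by positivity) hb0 h1 s
    simp only [S]
    rw [← mul_sub, add_sub_add_left_eq_sub, ← intervalIntegral.integral_sub
      (c1.intervalIntegrable _ _) (c2.intervalIntegrable _ _), norm_mul, Complex.norm_real,
      Real.norm_eq_abs, abs_of_pos (Real.exp_pos _)]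
    refine (mul_le_mul_of_nonneg_left h2 (Real.exp_pos _).le).trans ?_
    rw [mul_comm, mul_assoc, ← Real.exp_add, add_neg_cancel, Real.exp_zero, mul_one,
      div_le_iff₀ hb0, hb]
    nlinarith
  obtain ⟨B, hB⟩ := isCompact_univ.exists_bound_of_continuousOn hw.continuousOn
  have hS0 : ∀ p, ‖S 0 p‖ ≤ B := by
    rintro ⟨q, s⟩
    have e : (fun t => G q (X 0 q t)) = fun _ => 0 := by
      funext t
      simp [X, h0]
    have e1 : AInnV (fun _ => 0) = fun _ => 0 := by
      funext t
      simp [AInnV]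
    simp only [S, e, e1, intervalIntegral.integral_zero, add_zero]
    rw [norm_mul, Complex.norm_real, Real.norm_eq_abs, abs_of_pos (Real.exp_pos _)]
    refine (mul_le_of_le_one_left (norm_nonneg _) ?_).trans (hB q (mem_univ _))
    exact Real.exp_le_one_iff.2 (neg_nonpos.2 (by positivity))
  have hSb : ∀ f p, ‖S f p‖ ≤ B + 1 / 2 * dist f 0 := fun f p => by
    have h1 := norm_sub_norm_le (S f p) (S 0 p)
    linarith [hS f 0 p, hS0 p]
  let T : BoundedContinuousFunction (Q × ℝ) ℂ → BoundedContinuousFunction (Q × ℝ) ℂ := fun f =>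
    BoundedContinuousFunction.ofNormedAddCommGroup (S f) (cS f) _ (hSb f)
  have hT : ContractingWith (1 / 2) T := by
    refine ⟨by norm_num, LipschitzWith.of_dist_le_mul fun f g => ?_⟩
    refine (BoundedContinuousFunction.dist_le (by positivity)).2 fun p => ?_
    rw [dist_eq_norm]
    simpa [T] using hS f g p
  have hf := hT.fixedPoint_isFixedPt
  refine ⟨X (hT.fixedPoint T), cX _, fun q s => ?_⟩
  have h1 : hT.fixedPoint T (q, s) = S (hT.fixedPoint T) (q, s) := by
    conv_lhs => rw [← hf.eq]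
    rfl
  have h2 : X (hT.fixedPoint T) q s = (Real.exp (b * |s|) : ℂ) * hT.fixedPoint T (q, s) := rfl
  rw [h2, h1]
  simp only [S]
  rw [← mul_assoc, ← Complex.ofReal_mul, ← Real.exp_add, add_neg_cancel, Real.exp_zero,
    Complex.ofReal_one, one_mul]

theorem AInnV_smooth (k : ℕ) {g : ℝ → ℂ} (hg : ContDiff ℝ k g) : ContDiff ℝ k (AInnV g) := by
  have h1 : ContDiff ℝ k fun p : ℝ × ℝ => ((p.1 : ℝ) : ℂ) :=
    Complex.ofRealCLM.contDiff.comp contDiff_fst
  have h2 : ContDiff ℝ k fun p : ℝ × ℝ => ((p.2 : ℝ) : ℂ) :=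
    Complex.ofRealCLM.contDiff.comp contDiff_snd
  exact param_smooth k (K := fun p : ℝ × ℝ =>
    (p.2 : ℂ) ^ 5 * Complex.exp (-I * p.1 * (1 - p.2)) * g (p.1 * p.2))
    (((h2.pow 5).mul ((contDiff_const.mul h1).mul (contDiff_const.sub h2)).cexp).mul
      (hg.comp (contDiff_fst.mul contDiff_snd)))

theorem AInnV_id (g : ℝ → ℂ) (s : ℝ) :
    (s : ℂ) ^ 6 * Complex.exp (I * s) * AInnV g s
      = ∫ t in (0 : ℝ)..s, (t : ℂ) ^ 5 * Complex.exp (I * t) * g t := by
  have h1 := intervalIntegral.smul_integral_comp_mul_left (a := 0) (b := 1)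
    (fun t : ℝ => (t : ℂ) ^ 5 * Complex.exp (I * t) * g t) s
  rw [mul_zero, mul_one] at h1
  rw [← h1, AInnV, ← intervalIntegral.integral_const_mul, Complex.real_smul,
    ← intervalIntegral.integral_const_mul]
  refine intervalIntegral.integral_congr fun u _ => ?_
  have e : Complex.exp (I * ((s * u : ℝ) : ℂ))
      = Complex.exp (I * s) * Complex.exp (-I * s * (1 - u)) := by
    rw [← Complex.exp_add]
    congr 1
    push_cast
    ring
  simp only [e]
  push_cast
  ring

theorem AInnV_ode {g : ℝ → ℂ} (hg : ContDiff ℝ 1 g) (s : ℝ) :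
    (s : ℂ) * deriv (AInnV g) s + (6 + I * s) * AInnV g s = g s := by
  have hV : ContDiff ℝ 1 (AInnV g) := AInnV_smooth 1 hg
  have c0 := hg.continuous
  have c1 := hV.continuous
  have c2 := hV.continuous_deriv le_rfl
  have key : ∀ s : ℝ, s ≠ 0 → (s : ℂ) * deriv (AInnV g) s + (6 + I * s) * AInnV g s = g s := by
    intro s hs
    have d0 : HasDerivAt (fun t : ℝ => (t : ℂ)) 1 s := Complex.ofRealCLM.hasDerivAt
    have d1 := ((d0.pow 6).mul (d0.const_mul I).cexp).mul
      (hV.differentiable one_ne_zero s).hasDerivAt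
    have c3 : Continuous fun t : ℝ => (t : ℂ) ^ 5 * Complex.exp (I * t) * g t := by fun_prop
    have d2 := (c3.integral_hasStrictDerivAt 0 s).hasDerivAt
    rw [← funext (AInnV_id g)] at d2
    have e := d1.unique d2
    have hs' : (s : ℂ) ^ 5 * Complex.exp (I * s) ≠ 0 :=
      mul_ne_zero (pow_ne_zero _ (Complex.ofReal_ne_zero.2 hs)) (Complex.exp_ne_zero _)
    refine mul_left_cancel₀ hs' ?_
    rw [← e]
    simp only [Pi.mul_apply, Pi.pow_apply]
    push_cast
    ring
  have h := Continuous.ext_on (dense_compl_singleton (0 : ℝ))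
    (f := fun s : ℝ => (s : ℂ) * deriv (AInnV g) s + (6 + I * s) * AInnV g s) (g := g)
    (by fun_prop) c0 fun s hs => key s hs
  exact congrFun h s

theorem inn_exists {m : ℕ} (hm : 1 ≤ m) {Q : Type} [TopologicalSpace Q] [CompactSpace Q]
    (om P0 : Q → ℝ) (h1 : Continuous om) (h2 : Continuous P0) (ho : ∀ q, om q ∈ Icc (0 : ℝ) 1)
    (hP : ∀ q, 0 < P0 q) :
    ∃ W : Q → ℝ → ℂ, Continuous (fun p : Q × ℝ => W p.1 p.2) ∧
      Continuous (fun p : Q × ℝ => deriv (W p.1) p.2) ∧ ∀ q, Inn m (om q) (P0 q) (W q) := by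
  obtain ⟨L, hL⟩ := GG_lip hm
  have hGs := GG_smooth m
  have hG : Continuous fun p : Q × ℂ => GG m (om p.1) 1 p.2 :=
    hGs.continuous.comp (f := fun p : Q × ℂ => (om p.1, (1 : ℝ), p.2)) (by fun_prop)
  have hm0 : 2 * m ≠ 0 := by omega
  have hw : Continuous fun q => ((P0 q ^ (((2 * m : ℕ) : ℝ)⁻¹) : ℝ) : ℂ) :=
    Complex.continuous_ofReal.comp (h2.rpow_const fun _ => Or.inr (by positivity))
  obtain ⟨W, cW, hW⟩ := AInn_fix (G := fun q => GG m (om q) 1) hG
    (fun q => hL _ (ho q) 1 ⟨zero_le_one, le_rfl⟩) (fun q => GG_zero m _ _) hw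
  have cG : Continuous fun p : Q × ℝ => GG m (om p.1) 1 (W p.1 p.2) :=
    hG.comp (f := fun p : Q × ℝ => (p.1, W p.1 p.2)) (continuous_fst.prodMk cW)
  have hd : ∀ q s, HasDerivAt (W q) (AInnV (fun t => GG m (om q) 1 (W q t)) s) s := fun q s => by
    have c0 : Continuous fun t => W q t := cW.comp (Continuous.prodMk_right q)
    have c2 : Continuous fun t => GG m (om q) 1 (W q t) :=
      (hL _ (ho q) 1 ⟨zero_le_one, le_rfl⟩).continuous.comp c0
    have c1 := AInnV_cont1 c2
    have h3 := (c1.integral_hasStrictDerivAt 0 s).hasDerivAt.const_add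
      ((P0 q ^ (((2 * m : ℕ) : ℝ)⁻¹) : ℝ) : ℂ)
    rwa [← funext (hW q)] at h3
  have hd' : ∀ q, deriv (W q) = AInnV (fun t => GG m (om q) 1 (W q t)) := fun q =>
    funext fun s => (hd q s).deriv
  have hGk : ∀ q (k : ℕ), ContDiff ℝ k (W q) → ContDiff ℝ k fun t => GG m (om q) 1 (W q t) :=
    fun q k hk => (contDiff_infty.1 hGs k).comp (f := fun t => (om q, (1 : ℝ), W q t))
      (contDiff_const.prodMk (contDiff_const.prodMk hk))
  have hs : ∀ q (k : ℕ), ContDiff ℝ k (W q) := fun q k => by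
    induction k with
    | zero => exact contDiff_zero.2 (cW.comp (Continuous.prodMk_right q))
    | succ k ih =>
      push_cast
      refine contDiff_succ_iff_deriv.2 ⟨fun s => (hd q s).differentiableAt, by simp, ?_⟩
      rw [hd']
      exact AInnV_smooth k (hGk q k ih)
  refine ⟨W, cW, ?_, fun q => ⟨contDiff_infty.2 (hs q), fun s => ?_, ?_⟩⟩
  · simp only [hd']
    exact AInnV_cont (g := fun q t => GG m (om q) 1 (W q t)) cG
  · rw [hd']
    exact AInnV_ode (hGk q 1 (hs q 1)) s
  · rw [hW q 0, intervalIntegral.integral_same, add_zero, Complex.norm_real, Real.norm_eq_abs,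
      abs_of_nonneg (Real.rpow_nonneg (hP q).le _)]
    exact Real.rpow_inv_natCast_pow (hP q).le hm0

end Vale.Agent.P139.PA
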