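import Vale.Agent.P139.ADefs

open Complex MeasureTheory Filter Topology Set
open scoped ComplexConjugate ContDiff

namespace Vale.Agent.P139.PA

/-! Jet algebra, differentiated equation, limits of derivatives. -/

theorem AJet_nonneg {K : ℕ} {s M Λ : ℝ} {f : ℝ → ℂ} (h : Jt K s M Λ f) : 0 ≤ M := by
  simpa using (norm_nonneg _).trans (h.2 0 (Nat.zero_le _))

theorem Jt.mono {K K' : ℕ} {s M M' Λ Λ' : ℝ} {f : ℝ → ℂ} (h : Jt K s M Λ f) (hK : K' ≤ K)
    (hM : M ≤ M') (h0 : 0 ≤ Λ) (hΛ : Λ ≤ Λ') : Jt K' s M' Λ' f := by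
  have h1 := AJet_nonneg h
  refine ⟨h.1.of_le (by exact_mod_cast hK), fun j hj => (h.2 j (hj.trans hK)).trans ?_⟩
  exact mul_le_mul hM (pow_le_pow_left₀ h0 hΛ j) (pow_nonneg h0 j) (h1.trans hM)

theorem Jt.congr {K : ℕ} {s M Λ : ℝ} {f g : ℝ → ℂ} (h : Jt K s M Λ f) (hfg : f =ᶠ[𝓝 s] g) :
    Jt K s M Λ g := by
  exact ⟨h.1.congr_of_eventuallyEq hfg.symm, fun j hj => hfg.iteratedDeriv_eq j ▸ h.2 j hj⟩

/-- Leibniz rule (iteratedDeriv_mul) and the binomial theorem (add_pow) -/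
theorem Jt.mul {K : ℕ} {s M M' Λ Λ' : ℝ} {f g : ℝ → ℂ} (hf : Jt K s M Λ f) (hg : Jt K s M' Λ' g)
    (h0 : 0 ≤ Λ) (h0' : 0 ≤ Λ') : Jt K s (M * M') (Λ + Λ') (fun t => f t * g t) := by
  refine ⟨hf.1.mul hg.1, fun j hj => ?_⟩
  have h1 := AJet_nonneg hf
  have hj' : (j : WithTop ℕ∞) ≤ K := by exact_mod_cast hj
  rw [show (fun t => f t * g t) = f * g from rfl,
    iteratedDeriv_mul (hf.1.of_le hj') (hg.1.of_le hj'), add_pow, Finset.mul_sum]
  refine norm_sum_le_of_le _ fun i hi => ?_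
  have hi' := Finset.mem_range.1 hi
  rw [norm_mul, norm_mul, Complex.norm_natCast]
  have h2 := mul_le_mul (hf.2 i (by omega)) (hg.2 (j - i) (by omega)) (norm_nonneg _)
    (by positivity)
  have h3 := mul_le_mul_of_nonneg_left h2 (Nat.cast_nonneg (α := ℝ) (j.choose i))
  linarith

theorem Jt.conj {K : ℕ} {s M Λ : ℝ} {f : ℝ → ℂ} (hf : Jt K s M Λ f) :
    Jt K s M Λ (fun t => conj (f t)) := by
  refine ⟨conjCLE.contDiff.contDiffAt.comp s hf.1, fun j hj => ?_⟩
  have := conjLIE.norm_iteratedFDeriv_comp_left f s j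
  rw [norm_iteratedFDeriv_eq_norm_iteratedDeriv, norm_iteratedFDeriv_eq_norm_iteratedDeriv] at this
  exact this.trans_le (hf.2 j hj)

theorem Jt.cmul {K : ℕ} {s M Λ : ℝ} {f : ℝ → ℂ} (hf : Jt K s M Λ f) (c : ℂ) :
    Jt K s (‖c‖ * M) Λ (fun t => c * f t) := by
  refine ⟨contDiffAt_const.mul hf.1, fun j hj => ?_⟩
  rw [iteratedDeriv_const_mul_field, norm_mul, mul_assoc]
  exact mul_le_mul_of_nonneg_left (hf.2 j hj) (norm_nonneg _)

theorem Jt.pow {K : ℕ} {s M Λ : ℝ} {f : ℝ → ℂ} (hf : Jt K s M Λ f) (h0 : 0 ≤ Λ) (n : ℕ) :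
    Jt K s (M ^ n) (n * Λ) (fun t => f t ^ n) := by
  induction n with
  | zero =>
    refine ⟨by simpa using contDiffAt_const, fun j _ => ?_⟩
    simp only [pow_zero, iteratedDeriv_const]
    split_ifs with h
    · simp [h]
    · simp [h]
  | succ n ih =>
    have := ih.mul hf (by positivity) h0
    simpa only [pow_succ, Nat.cast_succ, add_mul, one_mul] using this

/-- the nonlinearity -/
theorem Jt.nonlin {K : ℕ} {s M Λ : ℝ} {f : ℝ → ℂ} (hf : Jt K s M Λ f) (h0 : 0 ≤ Λ) (m : ℕ) :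
    Jt K s (M ^ (2 * m + 1)) ((2 * m + 1) * Λ)
      (fun t => ((‖f t‖ ^ (2 * m) : ℝ) : ℂ) * f t) := by
  have := ((hf.mul hf.conj h0 h0).pow (by positivity) m).mul hf (by positivity) h0
  simp only [pow_norm_eq]
  rwa [show (M * M) ^ m * M = M ^ (2 * m + 1) by ring,
    show (m : ℝ) * (Λ + Λ) + Λ = (2 * m + 1) * Λ by ring] at this

theorem OutB.jt {ρ B a s : ℝ} {K : ℕ} {w : ℝ → ℂ} (h : OutB ρ B a K w s) (hρ : 0 < ρ) (hs : 0 < s)
    (hw : ContDiffAt ℝ K w s) : Jt K s (ρ * (3 / s) ^ a) (max 1 (B / ρ) / s) w := by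
  refine ⟨hw, fun j hj => ?_⟩
  rcases Nat.eq_zero_or_pos j with rfl | hj0
  · simpa using h.1
  have h1 : B ≤ ρ * max 1 (B / ρ) ^ j := by
    rw [← div_le_iff₀' hρ]
    exact (le_max_right 1 _).trans (le_self_pow₀ (le_max_left _ _) hj0.ne')
  refine (h.2 j hj).trans ?_
  have h2 : 0 ≤ (3 / s) ^ a * (1 / s) ^ j := by positivity
  have h3 := mul_le_mul_of_nonneg_right h1 h2
  rw [div_eq_mul_one_div (max 1 (B / ρ)), mul_pow]
  linarith

/-- the cutoff is a symbol uniformly in S (derivatives of smoothTransition are bounded: they vanish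
outside [0,1]; for s > 2 S the cutoff vanishes near s) -/
theorem cutS_jt (K : ℕ) : ∃ C : ℝ, 0 ≤ C ∧ ∀ S s : ℝ, 0 < S → 0 < s →
    Jt K s C (2 / s) (fun t => ((cutS S t : ℝ) : ℂ)) := by
  have hg : ContDiff ℝ ∞ fun u : ℝ => ((Real.smoothTransition (2 - u) : ℝ) : ℂ) :=
    ofRealCLM.contDiff.comp (Real.smoothTransition.contDiff.comp (contDiff_const.sub contDiff_id))
  set g := fun u : ℝ => ((Real.smoothTransition (2 - u) : ℝ) : ℂ) with hgd
  have hb : ∀ j : ℕ, ∃ C : ℝ, ∀ u ∈ Icc (0 : ℝ) 2, ‖iteratedDeriv j g u‖ ≤ C := fun j =>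
    isCompact_Icc.exists_bound_of_continuousOn
      (hg.continuous_iteratedDeriv j (by exact_mod_cast le_top)).continuousOn
  choose C hC using hb
  have h0 : ∀ j, 0 ≤ C j := fun j => (norm_nonneg _).trans (hC j 0 ⟨le_rfl, by norm_num⟩)
  have hs0 : 0 ≤ ∑ j ∈ Finset.range (K + 1), C j := Finset.sum_nonneg fun j _ => h0 j
  refine ⟨∑ j ∈ Finset.range (K + 1), C j, hs0, fun S s hS hs => ⟨?_, fun j hj => ?_⟩⟩
  · exact ((ofRealCLM.contDiff.comp (cutS_smooth S)).of_le (by exact_mod_cast le_top)).contDiffAt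
  rcases le_or_gt s (2 * S) with h | h
  · have h1 : (fun t => ((cutS S t : ℝ) : ℂ)) = fun t => g (S⁻¹ * t) := by
      funext t
      simp only [hgd, cutS, div_eq_inv_mul]
    rw [h1, iteratedDeriv_comp_const_smul (hg.of_le (by exact_mod_cast le_top)), norm_smul, mul_comm,
      Real.norm_of_nonneg (by positivity)]
    refine mul_le_mul ((hC j _ ⟨by positivity, ?_⟩).trans (Finset.single_le_sum
      (fun i _ => h0 i) (Finset.mem_range.2 (by omega)))) (pow_le_pow_left₀ (by positivity) ?_ j)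
      (by positivity) hs0
    · rw [inv_mul_le_iff₀ hS]
      linarith
    · rw [le_div_iff₀ hs, inv_mul_le_iff₀ hS]
      linarith
  · have h1 : (fun t => ((cutS S t : ℝ) : ℂ)) =ᶠ[𝓝 s] fun _ => 0 :=
      (lt_mem_nhds h).mono fun t ht => by simp [cutS_zero hS (le_of_lt ht)]
    rw [h1.iteratedDeriv_eq, iteratedDeriv_const, ite_self, norm_zero]
    positivity

/-- exponential beats polynomial -/
theorem small_pow {ρ θ : ℝ} (h0 : 0 ≤ ρ) (h1 : ρ < 1) (hθ : 0 < θ) (C β : ℝ) (K : ℕ) :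
    ∃ m0 : ℕ, ∀ m ≥ m0, ∀ j ≤ K,
      |C| * (m + 1) * ρ ^ (2 * m) * ((2 * m + 3) * |β|) ^ j ≤ θ := by
  have h2 : ∀ j : ℕ, ∀ᶠ m : ℕ in atTop,
      |C| * (m + 1) * ρ ^ (2 * m) * ((2 * m + 3) * |β|) ^ j ≤ θ := fun j => by
    have h3 := (tendsto_pow_const_mul_const_pow_of_abs_lt_one (j + 1)
      (r := ρ) (by rwa [abs_of_nonneg h0])).const_mul (|C| * 2 * (5 * |β|) ^ j)
    rw [mul_zero] at h3
    filter_upwards [h3.eventually (gt_mem_nhds hθ), eventually_ge_atTop 1] with m hm hm1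
    refine le_trans ?_ hm.le
    have h4 : (1 : ℝ) ≤ m := by exact_mod_cast hm1
    have h5 : ρ ^ (2 * m) ≤ ρ ^ m := pow_le_pow_of_le_one h0 h1.le (by omega)
    calc |C| * (m + 1) * ρ ^ (2 * m) * ((2 * m + 3) * |β|) ^ j
        ≤ |C| * (2 * m) * ρ ^ m * ((5 * m) * |β|) ^ j := by
          gcongr <;> linarith
      _ = _ := by ring
  have h3 : ∀ᶠ m : ℕ in atTop, ∀ j ∈ Finset.range (K + 1),
      |C| * (m + 1) * ρ ^ (2 * m) * ((2 * m + 3) * |β|) ^ j ≤ θ :=
    (eventually_all_finset _).2 fun j _ => h2 j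
  obtain ⟨m0, hm0⟩ := eventually_atTop.1 h3
  exact ⟨m0, fun m hm j hj => hm0 m hm j (Finset.mem_range.2 (by omega))⟩

theorem hasDeriv_iter {u : ℝ → ℂ} {s0 s : ℝ} (hu : ContDiffOn ℝ ∞ u (Ioi s0)) (hs : s0 < s)
    (j : ℕ) : HasDerivAt (iteratedDeriv j u) (iteratedDeriv (j + 1) u s) s := by
  induction j generalizing u with
  | zero =>
    simpa using ((hu.contDiffAt (Ioi_mem_nhds hs)).differentiableAt (by simp)).hasDerivAt
  | succ j ih =>
    rw [iteratedDeriv_succ' (n := j + 1), iteratedDeriv_succ' (n := j)]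
    exact ih (hu.deriv_of_isOpen isOpen_Ioi (by simp))

/-- the equation differentiated j times (compare partO_step in PartO.lean) -/
theorem ode_level {u R : ℝ → ℂ} {α : ℂ} {s0 : ℝ} (hu : ContDiffOn ℝ ∞ u (Ioi s0))
    (ode : ∀ s : ℝ, s0 < s →
      (s : ℂ) * deriv (deriv u) s + (6 + I * s) * deriv u s + I * α * u s = R s)
    (j : ℕ) {s : ℝ} (hs : s0 < s) :
    iteratedDeriv j R s = s * iteratedDeriv (j + 2) u s
      + (6 + j + I * s) * iteratedDeriv (j + 1) u s + I * (α + j) * iteratedDeriv j u s := by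
  induction j generalizing s with
  | zero => simpa [iteratedDeriv_succ] using (ode s hs).symm
  | succ j ih =>
    have h1 : iteratedDeriv j R =ᶠ[𝓝 s] fun t : ℝ => t * iteratedDeriv (j + 2) u t
        + (6 + j + I * t) * iteratedDeriv (j + 1) u t + I * (α + j) * iteratedDeriv j u t :=
      mem_of_superset (Ioi_mem_nhds hs) fun t ht => ih ht
    have h0 : HasDerivAt (fun t : ℝ => (t : ℂ)) 1 s := ofRealCLM.hasDerivAt
    have h2 := ((h0.fun_mul (hasDeriv_iter hu hs (j + 2))).fun_add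
      (((h0.const_mul I).const_add (6 + j : ℂ)).fun_mul (hasDeriv_iter hu hs (j + 1)))).fun_add
      ((hasDeriv_iter hu hs j).const_mul (I * (α + j)))
    rw [iteratedDeriv_succ, h1.deriv_eq, h2.deriv]
    push_cast
    ring

/-- the combination that isolates the fast solution -/
theorem fast_deriv {u R : ℝ → ℂ} {α : ℂ} {s0 : ℝ} (h0 : 0 ≤ s0) (hu : ContDiffOn ℝ ∞ u (Ioi s0))
    (ode : ∀ s : ℝ, s0 < s →
      (s : ℂ) * deriv (deriv u) s + (6 + I * s) * deriv u s + I * α * u s = R s)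
    (k : ℕ) {s : ℝ} (hs : s0 < s) :
    HasDerivAt (fun t : ℝ => Complex.exp (I * t) * (t : ℂ) ^ (6 - α) *
        (iteratedDeriv (k + 1) u t + (α + k) * iteratedDeriv k u t / t))
      (Complex.exp (I * s) * (s : ℂ) ^ (6 - α) *
        (iteratedDeriv k R s / s + (α + k) * (5 - α) * iteratedDeriv k u s / s ^ 2)) s := by
  have hs0 : 0 < s := h0.trans_lt hs
  have hs1 : (s : ℂ) ≠ 0 := ofReal_ne_zero.2 hs0.ne'
  have h1 : HasDerivAt (fun t : ℝ => (t : ℂ)) 1 s := ofRealCLM.hasDerivAt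
  have h2 : HasDerivAt (fun t : ℝ => (t : ℂ) ^ (6 - α)) ((6 - α) * (s : ℂ) ^ (6 - α - 1)) s :=
    (Complex.hasStrictDerivAt_cpow_const (c := 6 - α)
      (ofReal_mem_slitPlane.2 hs0)).hasDerivAt.comp_ofReal
  rw [cpow_sub (6 - α) 1 hs1, cpow_one] at h2
  have h3 := ((h1.const_mul I).cexp.fun_mul h2).fun_mul ((hasDeriv_iter hu hs (k + 1)).fun_add
    (((hasDeriv_iter hu hs k).const_mul (α + k)).fun_div h1 hs1))
  refine h3.congr_deriv ?_
  rw [ode_level hu ode k hs]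
  field_simp
  ring

theorem AJet_taylor {F F1 F2 : ℝ → ℂ} (h1 : ∀ t, HasDerivAt F (F1 t) t)
    (h2 : ∀ t, HasDerivAt F1 (F2 t) t) {s h M : ℝ} (hh : 0 ≤ h)
    (hM : ∀ t ∈ Icc s (s + h), ‖F2 t‖ ≤ M) : ‖F (s + h) - F s - h • F1 s‖ ≤ M * h * h := by
  have hM0 : 0 ≤ M := (norm_nonneg _).trans (hM s ⟨le_rfl, by linarith⟩)
  have h3 : ∀ t ∈ Icc s (s + h), ‖F1 t - F1 s‖ ≤ M * h := fun t ht => by
    have := norm_sub_le_of_deriv (g := fun t => M * t) ht.1 (fun r _ => h2 r)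
      (fun r _ => (hasDerivAt_id' r).const_mul M)
      fun r hr => (hM r ⟨hr.1, hr.2.trans ht.2⟩).trans_eq (mul_one M).symm
    nlinarith [ht.2]
  have h4 := norm_sub_le_of_deriv (f := fun t => F t - t • F1 s) (g := fun t => M * h * t)
    (by linarith : s ≤ s + h) (fun r _ => (h1 r).fun_sub ((hasDerivAt_id' r).smul_const (F1 s)))
    (fun r _ => (hasDerivAt_id' r).const_mul (M * h)) fun r hr => by simpa using h3 r hr
  rw [show F (s + h) - F s - h • F1 s = F (s + h) - (s + h) • F1 s - (F s - s • F1 s) by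
    rw [add_smul]; abel]
  linarith

/-- pointwise limits and derivative bounds (Landau): induction on j; the difference quotient with
step h differs from the derivative by at most M h -/
theorem landau {f : ℕ → ℝ → ℂ} {g : ℝ → ℂ} {a b M : ℝ} {K : ℕ} (hf : ∀ n, ContDiff ℝ ∞ (f n))
    (hg : ContDiff ℝ ∞ g) (hlim : ∀ s ∈ Ioo a b, Tendsto (fun n => f n s) atTop (𝓝 (g s)))
    (hb : ∀ᶠ n in atTop, ∀ j ≤ K + 1, ∀ s ∈ Ioo a b, ‖iteratedDeriv j (f n) s‖ ≤ M) :
    ∀ j ≤ K, ∀ s ∈ Ioo a b,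
      Tendsto (fun n => iteratedDeriv j (f n) s) atTop (𝓝 (iteratedDeriv j g s)) := by
  have hd : ∀ {u : ℝ → ℂ}, ContDiff ℝ ∞ u → ∀ j t,
      HasDerivAt (iteratedDeriv j u) (iteratedDeriv (j + 1) u t) t := fun hu j t =>
    hasDeriv_iter (s0 := t - 1) hu.contDiffOn (by linarith) j
  intro j
  induction j with
  | zero => simpa using fun s hs => hlim s hs
  | succ j ih =>
    intro hj s hs
    replace ih := ih (by omega)
    refine Metric.tendsto_nhds.2 fun ε hε => ?_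
    have e1 : ∀ᶠ h in 𝓝[>] (0 : ℝ), ‖iteratedDeriv j g (s + h) - iteratedDeriv j g s -
        h • iteratedDeriv (j + 1) g s‖ ≤ ε / 4 * ‖h‖ :=
      ((hasDerivAt_iff_isLittleO_nhds_zero.1 (hd hg j s)).def (by positivity)).filter_mono
        nhdsWithin_le_nhds
    have e2 : ∀ᶠ h in 𝓝[>] (0 : ℝ), s + h < b :=
      ((by fun_prop : Continuous fun h : ℝ => s + h).continuousAt.eventually_lt continuousAt_const
        (by simpa using hs.2)).filter_mono nhdsWithin_le_nhds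
    have e3 : ∀ᶠ h in 𝓝[>] (0 : ℝ), M * h < ε / 4 :=
      ((by fun_prop : Continuous fun h : ℝ => M * h).continuousAt.eventually_lt continuousAt_const
        (by simpa using hε)).filter_mono nhdsWithin_le_nhds
    obtain ⟨h, ⟨⟨h1, h2⟩, h3⟩, h0⟩ := (((e1.and e2).and e3).and self_mem_nhdsWithin).exists
    replace h0 : 0 < h := h0
    have h4 := Metric.tendsto_nhds.1 ((ih (s + h) ⟨by linarith [hs.1], h2⟩).sub (ih s hs))
      (ε / 4 * h) (by positivity)
    filter_upwards [h4, hb] with n h5 h6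
    have h7 := AJet_taylor (hd (hf n) j) (hd (hf n) (j + 1)) (s := s) h0.le fun t ht =>
      h6 (j + 1 + 1) (by omega) t ⟨hs.1.trans_le ht.1, ht.2.trans_lt h2⟩
    rw [dist_eq_norm] at h5 ⊢
    rw [Real.norm_of_nonneg h0.le] at h1
    have h8 : h • (iteratedDeriv (j + 1) (f n) s - iteratedDeriv (j + 1) g s) =
        (iteratedDeriv j g (s + h) - iteratedDeriv j g s - h • iteratedDeriv (j + 1) g s) +
        (iteratedDeriv j (f n) (s + h) - iteratedDeriv j (f n) s -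
          (iteratedDeriv j g (s + h) - iteratedDeriv j g s)) -
        (iteratedDeriv j (f n) (s + h) - iteratedDeriv j (f n) s -
          h • iteratedDeriv (j + 1) (f n) s) := by
      rw [smul_sub]
      abel
    have h9 := (congrArg norm h8).trans_le ((norm_sub_le _ _).trans
      (add_le_add ((norm_add_le _ _).trans (add_le_add h1 h5.le)) h7))
    rw [norm_smul, Real.norm_of_nonneg h0.le] at h9
    refine lt_of_mul_lt_mul_left ?_ h0.le
    nlinarith [mul_pos h0 hε]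

end Vale.Agent.P139.PA
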