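import Vale.Agent.P139.AJet

open Complex MeasureTheory Filter Topology Set
open scoped ComplexConjugate ContDiff

namespace Vale.Agent.P139.PA

/-! A priori estimate for the linear equation, backward from infinity.  k = 8, y = r_8, α' = α + 8,
B = r_9 + α' y / s, G = f_8 / s + α' (5 - α) y / s^2, D = exp (i s) s^(6-α) B (fast_deriv),
Z = s^α' (y - i B), Z' = s^α' (-i G + i (6 - α - α') B / s).  Y = |y| s^(a+8), M = max of Y exp (-λ/s) on
[s0, T'], λ = 400, c = 49 ≥ |α'| |5 - α|.  norm_sub_le_of_deriv on [s, T'] with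
g1 = (η + c M exp (λ/t)) t^(-3-2a) / 3, g2 = η t^(-3-2a) / 3 + c M t^(-2-2a) exp (λ/t) / λ for D (use -g),
g3 = 2.1 (η / t + c M exp (λ/t) / λ) for Z.  Y ≤ |Z| + |B| s^(a+8) gives M ≤ 2.5 η + M/2.  Then r_9 from B,
and r_j, j < 8, downwards from ode_level (|α + j| ≥ 0.33). -/

theorem ALin_int {F F' : ℝ → ℂ} {s T p q u l : ℝ} (hs : 0 < s) (hT : s ≤ T) (hl : 0 < l)
    (hp : 0 ≤ p) (hq : 0 ≤ q) (hu : 0 ≤ u) (hF : ∀ t ∈ Icc s T, HasDerivAt F (F' t) t)
    (h0 : F T = 0)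
    (h : ∀ t ∈ Icc s T, ‖F' t‖ ≤ p / t ^ 4 + q * Real.exp (l / t) / t ^ 2 + u / t ^ 2) :
    ‖F s‖ ≤ p / (3 * s ^ 3) + q * Real.exp (l / s) / l + u / s := by
  have hg : ∀ t ∈ Icc s T, HasDerivAt
      (fun t => -(p / 3 * t⁻¹ ^ 3 + q / l * Real.exp (l * t⁻¹) + u * t⁻¹))
      (p / t ^ 4 + q * Real.exp (l / t) / t ^ 2 + u / t ^ 2) t := by
    intro t ht
    have ht0 : t ≠ 0 := (hs.trans_le ht.1).ne'
    have h1 := hasDerivAt_inv ht0
    refine ((((h1.fun_pow 3).const_mul (p / 3)).fun_add (((h1.const_mul l).exp).const_mul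
      (q / l))).fun_add (h1.const_mul u)).fun_neg.congr_deriv ?_
    rw [div_eq_mul_inv l t, show (3 - 1 : ℕ) = 2 from rfl]
    field_simp
    ring
  have h2 := norm_sub_le_of_deriv hT hF hg h
  rw [h0, zero_sub, norm_neg] at h2
  have hT0 : 0 < T := hs.trans_le hT
  have h3 : 0 ≤ p / 3 * T⁻¹ ^ 3 + q / l * Real.exp (l * T⁻¹) + u * T⁻¹ := by positivity
  have h4 : p / 3 * s⁻¹ ^ 3 + q / l * Real.exp (l * s⁻¹) + u * s⁻¹
      = p / (3 * s ^ 3) + q * Real.exp (l / s) / l + u / s := by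
    rw [div_eq_mul_inv l s]
    field_simp
  linarith

theorem ALin_Z {u R : ℝ → ℂ} {α : ℂ} (hu : ContDiffOn ℝ ∞ u (Ioi 1))
    (ode : ∀ s : ℝ, 1 < s →
      (s : ℂ) * deriv (deriv u) s + (6 + I * s) * deriv u s + I * α * u s = R s)
    {s : ℝ} (hs : 1 < s) :
    HasDerivAt (fun t : ℝ => (t : ℂ) ^ (α + 8) * (iteratedDeriv 8 u t - I *
        (iteratedDeriv 9 u t + (α + 8) * iteratedDeriv 8 u t / t)))
      ((s : ℂ) ^ (α + 8) *
        (-I * (iteratedDeriv 8 R s / s + (α + 8) * (5 - α) * iteratedDeriv 8 u s / s ^ 2)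
          - I * (2 + 2 * α) * (iteratedDeriv 9 u s + (α + 8) * iteratedDeriv 8 u s / s) / s)) s := by
  have hs0 : 0 < s := one_pos.trans hs
  have hs1 : (s : ℂ) ≠ 0 := ofReal_ne_zero.2 hs0.ne'
  have h1 : HasDerivAt (fun t : ℝ => (t : ℂ)) 1 s := ofRealCLM.hasDerivAt
  have h2 : HasDerivAt (fun t : ℝ => (t : ℂ) ^ (α + 8)) ((α + 8) * (s : ℂ) ^ (α + 8 - 1)) s :=
    (Complex.hasStrictDerivAt_cpow_const (c := α + 8)
      (ofReal_mem_slitPlane.2 hs0)).hasDerivAt.comp_ofReal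
  rw [cpow_sub (α + 8) 1 hs1, cpow_one] at h2
  have h3 := h2.fun_mul ((hasDeriv_iter hu hs 8).fun_sub (((hasDeriv_iter hu hs 9).fun_add
    (((hasDeriv_iter hu hs 8).const_mul (α + 8)).fun_div h1 hs1)).const_mul I))
  refine h3.congr_deriv ?_
  rw [ode_level hu ode 8 hs]
  push_cast
  field_simp
  linear_combination ((s : ℂ) ^ (α + 8) * s *
    (s * iteratedDeriv 9 u s + (α + 8) * iteratedDeriv 8 u s)) * I_mul_I

theorem ALin_pow {s : ℝ} (hs : 0 < s) (a : ℝ) (j : ℕ) :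
    s ^ (-a - (j : ℝ)) = (s ^ a * s ^ j)⁻¹ := by
  rw [← Real.rpow_natCast, ← Real.rpow_add hs, ← Real.rpow_neg hs.le]
  congr 1
  ring

theorem ALin_pow1 {s : ℝ} (hs : 0 < s) (a : ℝ) (j : ℕ) :
    s ^ (-a - 1 - (j : ℝ)) = (s ^ a * s ^ (j + 1))⁻¹ := by
  rw [← ALin_pow hs]
  congr 1
  push_cast
  ring

/-- the top levels -/
theorem ALin_top {r f : ℝ → ℂ} {α : ℂ} {a s0 T η : ℝ} (ha : α.re = a) (ha0 : 0 ≤ a)
    (hα : ‖α‖ ≤ 1) (hs0 : 3 ≤ s0) (hT : s0 ≤ T) (hη : 0 ≤ η) (hr : ContDiffOn ℝ ∞ r (Ioi 1))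
    (ode : ∀ s : ℝ, 1 < s →
      (s : ℂ) * deriv (deriv r) s + (6 + I * s) * deriv r s + I * α * r s = f s)
    (h8 : iteratedDeriv 8 r T = 0) (h9 : iteratedDeriv 9 r T = 0)
    (hf : ∀ s, s0 ≤ s → ‖iteratedDeriv 8 f s‖ * (s ^ a * s ^ 9) ≤ η) :
    ∀ s ∈ Icc s0 T, ‖iteratedDeriv 8 r s‖ * (s ^ a * s ^ 8) ≤ 200 * Real.exp 200 * η ∧
      ‖iteratedDeriv 9 r s‖ * (s ^ a * s ^ 9) ≤ 200 * Real.exp 200 * η := by
  set y := iteratedDeriv 8 r with hy
  set B : ℝ → ℂ := fun t => iteratedDeriv 9 r t + (α + 8) * y t / t with hB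
  set G : ℝ → ℂ := fun t => iteratedDeriv 8 f t / t + (α + 8) * (5 - α) * y t / t ^ 2 with hG
  have p0 : ∀ t, s0 ≤ t → 0 < t := fun t ht => by linarith
  have p1 : ∀ t, s0 ≤ t → 1 < t := fun t ht => by linarith
  have n8 : ‖α + 8‖ ≤ 9 := (norm_add_le _ _).trans (by simp; linarith)
  have n5 : ‖5 - α‖ ≤ 6 := (norm_sub_le _ _).trans (by simp; linarith)
  have n2 : ‖2 + 2 * α‖ ≤ 4 := (norm_add_le _ _).trans (by simp; linarith)
  obtain ⟨t0, ht0, hmax⟩ := (isCompact_Icc (a := s0) (b := T)).exists_isMaxOn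
    (nonempty_Icc.2 hT) (f := fun t => ‖y t‖ * (t ^ a * t ^ 8) * Real.exp (-(500 / t)))
    (fun t ht => by
      have h1 := (hasDeriv_iter hr (p1 t ht.1) 8).continuousAt
      have h2 := (p0 t ht.1).ne'
      have h3 : ContinuousAt (fun t : ℝ => t ^ a) t := Real.continuousAt_rpow_const _ _ (Or.inl h2)
      refine ContinuousAt.continuousWithinAt ?_
      exact (h1.norm.mul (h3.mul (continuousAt_id.pow 8))).mul
        (Real.continuous_exp.continuousAt.comp (continuousAt_const.div continuousAt_id h2).neg))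
  set M := ‖y t0‖ * (t0 ^ a * t0 ^ 8) * Real.exp (-(500 / t0)) with hM
  have hM0 : 0 ≤ M := by have := p0 t0 ht0.1; positivity
  have hY : ∀ t ∈ Icc s0 T, ‖y t‖ * (t ^ a * t ^ 8) ≤ M * Real.exp (500 / t) := fun t ht => by
    have h1 : ‖y t‖ * (t ^ a * t ^ 8) * Real.exp (-(500 / t)) ≤ M := hmax ht
    rwa [Real.exp_neg, ← div_eq_mul_inv, div_le_iff₀ (Real.exp_pos _)] at h1
  have hGb : ∀ t ∈ Icc s0 T,
      ‖G t‖ * (t ^ a * t ^ 8) ≤ (η + 54 * M * Real.exp (500 / t)) / t ^ 2 := fun t ht => by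
    have t0 := p0 t ht.1
    have h1 : ‖G t‖ ≤ ‖iteratedDeriv 8 f t‖ / t + 54 * ‖y t‖ / t ^ 2 := by
      refine (norm_add_le _ _).trans (add_le_add (le_of_eq ?_) ?_)
      · rw [norm_div, Complex.norm_real, Real.norm_of_nonneg t0.le]
      · rw [norm_div, norm_mul, norm_mul, norm_pow, Complex.norm_real, Real.norm_of_nonneg t0.le]
        gcongr
        calc ‖α + 8‖ * ‖5 - α‖ ≤ 9 * 6 := by gcongr
          _ = 54 := by norm_num
    calc ‖G t‖ * (t ^ a * t ^ 8)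
        ≤ (‖iteratedDeriv 8 f t‖ / t + 54 * ‖y t‖ / t ^ 2) * (t ^ a * t ^ 8) := by gcongr
      _ = (‖iteratedDeriv 8 f t‖ * (t ^ a * t ^ 9) + 54 * (‖y t‖ * (t ^ a * t ^ 8))) / t ^ 2 := by
          field_simp
      _ ≤ _ := by
          refine div_le_div_of_nonneg_right ?_ (by positivity)
          linarith [hf t ht.1, hY t ht]
  have nD : ∀ t, s0 ≤ t → ∀ x : ℂ, ‖Complex.exp (I * t) * (t : ℂ) ^ (6 - α) * x‖
      = ‖x‖ * (t ^ a * t ^ 8) / (t ^ a * t ^ a * t ^ 2) := fun t ht x => by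
    have t0 := p0 t ht
    have e : (6 - α).re = (6 : ℕ) - a := by simp [ha]
    rw [norm_mul, norm_mul, Complex.norm_exp_I_mul_ofReal,
      Complex.norm_cpow_eq_rpow_re_of_pos t0, e, Real.rpow_sub t0, Real.rpow_natCast]
    field_simp
  have nZ : ∀ t, s0 ≤ t → ∀ x : ℂ, ‖(t : ℂ) ^ (α + 8) * x‖ = ‖x‖ * (t ^ a * t ^ 8) :=
    fun t ht x => by
      have t0 := p0 t ht
      have e : (α + 8).re = a + (8 : ℕ) := by simp [ha]
      rw [norm_mul, Complex.norm_cpow_eq_rpow_re_of_pos t0, e, Real.rpow_add t0, Real.rpow_natCast,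
        mul_comm]
  have dD : ∀ t, s0 ≤ t → HasDerivAt (fun t : ℝ => Complex.exp (I * t) * (t : ℂ) ^ (6 - α) * B t)
      (Complex.exp (I * t) * (t : ℂ) ^ (6 - α) * G t) t := fun t ht => by
    simpa using fast_deriv zero_le_one hr ode 8 (p1 t ht)
  have BT : B T = 0 := by simp [hB, h8, h9]
  have dZ : ∀ t, s0 ≤ t → HasDerivAt (fun t : ℝ => (t : ℂ) ^ (α + 8) * (y t - I * B t))
      ((t : ℂ) ^ (α + 8) * (-I * G t - I * (2 + 2 * α) * B t / t)) t := fun t ht =>
    ALin_Z hr ode (p1 t ht)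
  have r9 : ∀ s : ℝ, iteratedDeriv 9 r s = B s - (α + 8) * y s / s := fun s => by simp [hB]
  clear_value y M B G
  clear hy hB hG hmax
  have bD : ∀ s ∈ Icc s0 T, ∀ t ∈ Icc s T, ‖Complex.exp (I * t) * (t : ℂ) ^ (6 - α) * G t‖
      ≤ (η + 54 * M * Real.exp (500 / t)) / (s ^ a * s ^ a) / t ^ 4 := fun s hs t ht => by
    have s1 := p0 s hs.1
    have t1 : s0 ≤ t := hs.1.trans ht.1
    have t0 := p0 t t1
    have e : s ^ a ≤ t ^ a := Real.rpow_le_rpow s1.le ht.1 ha0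
    rw [nD t t1]
    calc _ ≤ (η + 54 * M * Real.exp (500 / t)) / t ^ 2 / (s ^ a * s ^ a * t ^ 2) := by
          gcongr
          exact hGb t ⟨t1, ht.2⟩
      _ = _ := by field_simp
  have b1 : ∀ s ∈ Icc s0 T,
      ‖B s‖ * (s ^ a * s ^ 8) ≤ (η + 54 * M * Real.exp (500 / s)) / (3 * s) := fun s hs => by
    have s1 := p0 s hs.1
    have h1 := ALin_int (p := (η + 54 * M * Real.exp (500 / s)) / (s ^ a * s ^ a)) (q := 0) (u := 0)
      (l := 500) s1 hs.2 (by norm_num) (by positivity) le_rfl le_rfl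
      (fun t ht => dD t (hs.1.trans ht.1)) (by simp [BT]) fun t ht => by
        have t0 := s1.trans_le ht.1
        refine (bD s hs t ht).trans ?_
        simp only [zero_mul, zero_div, add_zero]
        gcongr
        exact ht.1
    rw [nD s hs.1, div_le_iff₀ (by positivity)] at h1
    refine h1.trans (le_of_eq ?_)
    field_simp
    ring
  have b2 : ∀ s ∈ Icc s0 T,
      ‖B s‖ * (s ^ a * s ^ 8) ≤ η / (3 * s) + 54 * M * Real.exp (500 / s) / 500 := fun s hs => by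
    have s1 := p0 s hs.1
    have h1 := ALin_int (p := η / (s ^ a * s ^ a)) (q := 54 * M / (s ^ a * s ^ a * s ^ 2)) (u := 0)
      (l := 500) s1 hs.2 (by norm_num) (by positivity) (by positivity) le_rfl
      (fun t ht => dD t (hs.1.trans ht.1)) (by simp [BT]) fun t ht => by
        have t0 := s1.trans_le ht.1
        refine (bD s hs t ht).trans ?_
        calc _ = η / (s ^ a * s ^ a) / t ^ 4
              + 54 * M / (s ^ a * s ^ a * t ^ 2) * Real.exp (500 / t) / t ^ 2 + 0 / t ^ 2 := by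
              field_simp
              ring
          _ ≤ _ := by
              gcongr
              exact ht.1
    rw [nD s hs.1, div_le_iff₀ (by positivity)] at h1
    refine h1.trans (le_of_eq ?_)
    field_simp
    ring
  have b3 : ∀ s ∈ Icc s0 T, ‖y s - I * B s‖ * (s ^ a * s ^ 8)
      ≤ 3 * 54 * M * Real.exp (500 / s) / 500 + 3 * η / s := fun s hs => by
    have s1 := p0 s hs.1
    have h1 := ALin_int (p := 0) (q := 3 * 54 * M) (u := 3 * η)
      (l := 500) s1 hs.2 (by norm_num) le_rfl (by positivity) (by positivity)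
      (fun t ht => dZ t (hs.1.trans ht.1)) (by simp [h8, BT]) fun t ht => by
        have t1 : t ∈ Icc s0 T := ⟨hs.1.trans ht.1, ht.2⟩
        have t0 := p0 t t1.1
        rw [nZ t t1.1]
        have e1 : ‖-I * G t - I * (2 + 2 * α) * B t / t‖ ≤ ‖G t‖ + 4 * ‖B t‖ / t := by
          refine (norm_sub_le _ _).trans (add_le_add (by simp) ?_)
          rw [norm_div, norm_mul, norm_mul, Complex.norm_I, one_mul, Complex.norm_real,
            Real.norm_of_nonneg t0.le]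
          gcongr
        have e2 : 0 ≤ (η + 54 * M * Real.exp (500 / t)) / t ^ 2 := by positivity
        calc _ ≤ (‖G t‖ + 4 * ‖B t‖ / t) * (t ^ a * t ^ 8) := by gcongr
          _ = ‖G t‖ * (t ^ a * t ^ 8) + 4 * (‖B t‖ * (t ^ a * t ^ 8)) / t := by ring
          _ ≤ (η + 54 * M * Real.exp (500 / t)) / t ^ 2
              + 4 * ((η + 54 * M * Real.exp (500 / t)) / (3 * t)) / t := by
              gcongr
              · exact hGb t t1
              · exact b1 t t1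
          _ = 7 / 3 * ((η + 54 * M * Real.exp (500 / t)) / t ^ 2) := by
              field_simp
              ring
          _ ≤ 3 * ((η + 54 * M * Real.exp (500 / t)) / t ^ 2) := by linarith
          _ = _ := by ring
    rw [nZ s hs.1] at h1
    simpa using h1
  have hM2 : M ≤ 4 * η := by
    have s1 := p0 t0 ht0.1
    have h1 : ‖y t0‖ ≤ ‖y t0 - I * B t0‖ + ‖B t0‖ := by
      simpa using norm_add_le (y t0 - I * B t0) (I * B t0)
    have h2 : ‖y t0‖ * (t0 ^ a * t0 ^ 8) = M * Real.exp (500 / t0) := by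
      rw [hM, mul_assoc _ (Real.exp _), ← Real.exp_add]
      simp
    have h3 := mul_le_mul_of_nonneg_right h1 (show 0 ≤ t0 ^ a * t0 ^ 8 by positivity)
    have h4 := b2 t0 ht0
    have h5 := b3 t0 ht0
    have h6 : 1 ≤ Real.exp (500 / t0) := Real.one_le_exp (by positivity)
    have h7 : η / (3 * t0) ≤ η := div_le_self hη (by linarith [ht0.1])
    have h8 : 3 * η / t0 ≤ η := by
      rw [div_le_iff₀ s1, mul_comm]
      exact mul_le_mul_of_nonneg_left (hs0.trans ht0.1) hη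
    have h9 : M ≤ M * Real.exp (500 / t0) := le_mul_of_one_le_right hM0 h6
    rw [h2, add_mul] at h3
    linarith
  intro s hs
  have s1 := p0 s hs.1
  have e0 : Real.exp (500 / s) ≤ Real.exp 200 := by
    refine Real.exp_le_exp.2 ?_
    rw [div_le_iff₀ s1]
    linarith [hs.1]
  have e1 : M * Real.exp (500 / s) ≤ 4 * η * Real.exp 200 := by gcongr
  have e2 : η ≤ η * Real.exp 200 := le_mul_of_one_le_right hη (Real.one_le_exp (by norm_num))
  have e3 := hY s hs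
  refine ⟨by linarith, ?_⟩
  have e4 : ‖iteratedDeriv 9 r s‖ ≤ ‖B s‖ + 9 * ‖y s‖ / s := by
    rw [r9]
    refine (norm_sub_le _ _).trans (add_le_add le_rfl ?_)
    rw [norm_div, norm_mul, Complex.norm_real, Real.norm_of_nonneg s1.le]
    gcongr
  calc _ ≤ (‖B s‖ + 9 * ‖y s‖ / s) * (s ^ a * s ^ 9) := by gcongr
    _ = s * (‖B s‖ * (s ^ a * s ^ 8)) + 9 * (‖y s‖ * (s ^ a * s ^ 8)) := by field_simp
    _ ≤ s * ((η + 54 * M * Real.exp (500 / s)) / (3 * s)) + 9 * (M * Real.exp (500 / s)) := by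
        gcongr
        exact b1 s hs
    _ = η / 3 + 27 * (M * Real.exp (500 / s)) := by
        field_simp
        ring
    _ ≤ _ := by linarith

/-- one level down -/
theorem ALin_down {r f : ℝ → ℂ} {α : ℂ} {a s η C : ℝ} (hα : 0.33 ≤ |α.im|) (hs : 3 ≤ s)
    (hr : ContDiffOn ℝ ∞ r (Ioi 1))
    (ode : ∀ s : ℝ, 1 < s →
      (s : ℂ) * deriv (deriv r) s + (6 + I * s) * deriv r s + I * α * r s = f s)
    {j : ℕ} (hj : j ≤ 7) (hC : η ≤ C) (hf : ‖iteratedDeriv j f s‖ * (s ^ a * s ^ (j + 1)) ≤ η)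
    (h1 : ‖iteratedDeriv (j + 1) r s‖ * (s ^ a * s ^ (j + 1)) ≤ C)
    (h2 : ‖iteratedDeriv (j + 2) r s‖ * (s ^ a * s ^ (j + 2)) ≤ C) :
    ‖iteratedDeriv j r s‖ * (s ^ a * s ^ j) ≤ 30 * C := by
  have s0 : 0 < s := by linarith
  have e0 := ode_level hr ode j (show 1 < s by linarith)
  have e1 : I * (α + j) * iteratedDeriv j r s = iteratedDeriv j f s - s * iteratedDeriv (j + 2) r s
      - (6 + j + I * s) * iteratedDeriv (j + 1) r s := by rw [e0]; ring
  have e2 : 0.33 ≤ ‖α + j‖ := hα.trans (by simpa using abs_im_le_norm (α + j))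
  have hj' : (j : ℝ) ≤ 7 := by exact_mod_cast hj
  have e3 : ‖(6 + j + I * s : ℂ)‖ ≤ 6 * s := by
    refine (norm_add_le _ _).trans ?_
    have := norm_add_le (6 : ℂ) j
    simp only [norm_mul, Complex.norm_I, one_mul, Complex.norm_real, Real.norm_of_nonneg s0.le]
    simp only [Complex.norm_ofNat, Complex.norm_natCast] at this
    linarith
  have e4 : 0.33 * ‖iteratedDeriv j r s‖ ≤ ‖iteratedDeriv j f s‖ + s * ‖iteratedDeriv (j + 2) r s‖
      + 6 * s * ‖iteratedDeriv (j + 1) r s‖ := by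
    calc _ ≤ ‖I * (α + j) * iteratedDeriv j r s‖ := by
          rw [norm_mul, norm_mul, Complex.norm_I, one_mul]
          gcongr
      _ ≤ _ := by
          rw [e1]
          refine (norm_sub_le _ _).trans (add_le_add ((norm_sub_le _ _).trans (le_of_eq ?_)) ?_)
          · rw [norm_mul, Complex.norm_real, Real.norm_of_nonneg s0.le]
          · rw [norm_mul]
            gcongr
  have e5 : s ^ a * s ^ j ≤ s ^ a * s ^ (j + 1) := by gcongr <;> linarith
  have e6 := mul_le_mul_of_nonneg_right e4 (show 0 ≤ s ^ a * s ^ j by positivity)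
  have e7 := mul_le_mul_of_nonneg_left e5 (norm_nonneg (iteratedDeriv j f s))
  have e8 := mul_le_mul_of_nonneg_left e5
    (show 0 ≤ s * ‖iteratedDeriv (j + 2) r s‖ by positivity)
  have e9 : s * ‖iteratedDeriv (j + 2) r s‖ * (s ^ a * s ^ (j + 1))
      = ‖iteratedDeriv (j + 2) r s‖ * (s ^ a * s ^ (j + 2)) := by ring
  have e10 : 6 * s * ‖iteratedDeriv (j + 1) r s‖ * (s ^ a * s ^ j)
      = 6 * (‖iteratedDeriv (j + 1) r s‖ * (s ^ a * s ^ (j + 1))) := by ring
  have e11 : 0 ≤ ‖iteratedDeriv j r s‖ * (s ^ a * s ^ j) := by positivity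
  rw [add_mul, add_mul, e10, mul_assoc] at e6
  linarith



theorem lin_est : ∃ C : ℝ, 0 < C ∧ ∀ (m : ℕ) (om : ℝ) (r f : ℝ → ℂ) (s0 T η : ℝ), 1 ≤ m →
    om ∈ Icc (0.33 : ℝ) 0.34 → 3 ≤ s0 → 0 ≤ η → ContDiffOn ℝ ∞ r (Ioi 1) →
    (∀ s : ℝ, 1 < s →
      (s : ℂ) * deriv (deriv r) s + (6 + I * s) * deriv r s + I * al m om * r s = f s) →
    (∀ s, T < s → r s = 0) →
    (∀ j ≤ 8, ∀ s, s0 ≤ s → ‖iteratedDeriv j f s‖ ≤ η * s ^ (-aa m - 1 - j)) →
    ∀ j ≤ 9, ∀ s, s0 ≤ s → ‖iteratedDeriv j r s‖ ≤ C * η * s ^ (-aa m - j) := by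
  refine ⟨30 ^ 8 * (200 * Real.exp 200), by positivity,
    fun m om r f s0 T η hm hom hs0 hη hr ode hT hf j hj s hs => ?_⟩
  have s1 : 0 < s := by linarith
  have hz : ∀ (i : ℕ) (t : ℝ), T < t → iteratedDeriv i r t = 0 := fun i t ht => by
    have h1 : r =ᶠ[𝓝 t] fun _ => 0 := (lt_mem_nhds ht).mono fun u hu => hT u hu
    rw [h1.iteratedDeriv_eq, iteratedDeriv_const, ite_self]
  have ha2 : aa m ≤ 1 / 2 := by
    have h1 : (1 : ℝ) ≤ m := by exact_mod_cast hm
    unfold aa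
    gcongr
    linarith
  have hα : ‖al m om‖ ≤ 1 := by
    refine (norm_sub_le _ _).trans ?_
    rw [norm_mul, Complex.norm_I, one_mul, Complex.norm_real, Complex.norm_real,
      Real.norm_of_nonneg (aa_nonneg m), Real.norm_of_nonneg (by linarith [hom.1])]
    linarith [hom.2]
  have him : 0.33 ≤ |(al m om).im| := by
    have : (al m om).im = -om := by simp [al]
    rw [this, abs_neg]
    exact hom.1.trans (le_abs_self _)
  have hf' : ∀ i ≤ 8, ∀ t, s0 ≤ t → ‖iteratedDeriv i f t‖ * (t ^ aa m * t ^ (i + 1)) ≤ η :=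
    fun i hi t ht => by
      have t0 : 0 < t := by linarith
      have := hf i hi t ht
      rwa [ALin_pow1 t0, ← div_eq_mul_inv, le_div_iff₀ (by positivity)] at this
  have h1 : T < max T s + 1 := by linarith [le_max_left T s]
  have h2 : s ≤ max T s + 1 := by linarith [le_max_right T s]
  obtain ⟨t8, t9⟩ := ALin_top (al_re m om) (aa_nonneg m) hα hs0 (hs.trans h2) hη hr ode
    (hz 8 _ h1) (hz 9 _ h1) (hf' 8 le_rfl) s ⟨hs, h2⟩
  set C : ℝ := 200 * Real.exp 200 * η with hC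
  have hηC : η ≤ C := le_mul_of_one_le_left hη (by
    have := Real.one_le_exp (show (0 : ℝ) ≤ 200 by norm_num)
    linarith)
  have hC0 : 0 ≤ C := hη.trans hηC
  have key : ∀ i ≤ 8, ∀ k, 8 - i ≤ k → k ≤ 9 →
      ‖iteratedDeriv k r s‖ * (s ^ aa m * s ^ k) ≤ 30 ^ i * C := by
    intro i
    induction i with
    | zero =>
      intro _ k h1 h2
      obtain rfl | rfl : k = 8 ∨ k = 9 := by omega
      · simpa using t8
      · simpa using t9
    | succ i ih =>
      intro hi k h1 h2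
      have e1 : (1 : ℝ) ≤ 30 ^ i := one_le_pow₀ (by norm_num)
      have e2 : C ≤ 30 ^ i * C := le_mul_of_one_le_left hC0 e1
      rw [pow_succ, mul_comm _ (30 : ℝ), mul_assoc (30 : ℝ)]
      rcases le_or_gt (8 - i) k with h | h
      · linarith [ih (by omega) k h h2]
      · exact ALin_down him (hs0.trans hs) hr ode (by omega) (hηC.trans e2)
          (hf' k (by omega) s hs) (ih (by omega) _ (by omega) (by omega))
          (ih (by omega) _ (by omega) (by omega))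
  rw [ALin_pow s1, ← div_eq_mul_inv, le_div_iff₀ (by positivity)]
  refine (key 8 le_rfl j (by omega) hj).trans (le_of_eq ?_)
  rw [hC]
  ring

end Vale.Agent.P139.PA
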