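import Vale.Agent.P139.ADefs

open Complex MeasureTheory Filter Topology Set
open scoped ComplexConjugate ContDiff

namespace Vale.Agent.P139.PA

/-! The truncated nonlinearity is smooth and globally Lipschitz; global solutions of Lipschitz
equations depending on a parameter. -/

theorem ALip_pow (m : ℕ) : ContDiff ℝ ∞ fun w : ℂ => kap (‖w‖ ^ (2 * m)) := by
  simp only [pow_mul]
  exact kap_smooth.comp ((contDiff_norm_sq ℂ).pow m)

/-- norm w ^ (2 m) = (normSq w) ^ m is a polynomial in re, im -/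
theorem GG_smooth (m : ℕ) : ContDiff ℝ ∞ (fun p : ℝ × ℝ × ℂ => GG m p.1 p.2.1 p.2.2) := by
  have h2 : ContDiff ℝ ∞ fun p : ℝ × ℝ × ℂ => p.2.2 := contDiff_snd.snd
  exact ((ofRealCLM.contDiff.comp ((contDiff_snd.fst.mul ((ALip_pow m).comp h2)).sub
    contDiff_fst)).sub contDiff_const).mul h2

/-- N w = kap (norm w ^ (2 m)) w is smooth and equals 2 w for norm w ≥ 3, so its derivative is
bounded (lipschitzWith_of_nnnorm_fderiv_le) -/
theorem GG_lip {m : ℕ} (hm : 1 ≤ m) : ∃ L : NNReal, ∀ om ∈ Icc (0 : ℝ) 1, ∀ c ∈ Icc (0 : ℝ) 1,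
    LipschitzWith L (GG m om c) := by
  have h1 : ContDiff ℝ ∞ fun w : ℂ => ((kap (‖w‖ ^ (2 * m)) - 2 : ℝ) : ℂ) * w :=
    (ofRealCLM.contDiff.comp ((ALip_pow m).sub contDiff_const)).mul contDiff_id
  have h2 : HasCompactSupport fun w : ℂ => ((kap (‖w‖ ^ (2 * m)) - 2 : ℝ) : ℂ) * w := by
    refine HasCompactSupport.intro (isCompact_closedBall 0 3) fun w hw => ?_
    rw [mem_closedBall_zero_iff, not_le] at hw
    have := le_self_pow₀ (by linarith : 1 ≤ ‖w‖) (by omega : 2 * m ≠ 0)
    rw [kap_of_ge (by linarith)]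
    simp
  obtain ⟨C, hC⟩ := h1.lipschitzWith_of_hasCompactSupport h2 (by simp)
  refine ⟨C + 3 + ⟨aa m, aa_nonneg m⟩, fun om hom c hc => LipschitzWith.of_dist_le_mul fun w w' => ?_⟩
  have h3 := hC.dist_le_mul w w'
  have h4 : GG m om c w - GG m om c w' = c * (((kap (‖w‖ ^ (2 * m)) - 2 : ℝ) : ℂ) * w -
      ((kap (‖w'‖ ^ (2 * m)) - 2 : ℝ) : ℂ) * w') + (((2 * c - om : ℝ) : ℂ) - I * aa m) * (w - w') := by
    simp only [GG]
    push_cast
    ring
  have h5 : ‖((2 * c - om : ℝ) : ℂ) - I * aa m‖ ≤ 3 + aa m := by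
    refine (norm_sub_le _ _).trans ?_
    rw [norm_mul, norm_I, one_mul, norm_real, norm_real, Real.norm_eq_abs,
      Real.norm_of_nonneg (aa_nonneg m)]
    have : |2 * c - om| ≤ 3 := abs_le.2 ⟨by linarith [hc.1, hom.2], by linarith [hc.2, hom.1]⟩
    linarith
  rw [dist_eq_norm, dist_eq_norm] at h3 ⊢
  rw [h4]
  refine (norm_add_le _ _).trans ?_
  rw [norm_mul, norm_mul, norm_real, Real.norm_of_nonneg hc.1]
  have h6 := mul_le_mul_of_nonneg_right h5 (norm_nonneg (w - w'))
  have h7 := (mul_le_of_le_one_left (norm_nonneg _) hc.2).trans h3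
  change _ ≤ (C + 3 + aa m) * _
  linarith

theorem ALip_int {E : Type} [NormedAddCommGroup E] [NormedSpace ℝ E] {G : ℝ → E} {M l s0 : ℝ}
    (hM : 0 ≤ M) (h : ∀ r, ‖G r‖ ≤ M * l * Real.exp (l * |r - s0|)) (s : ℝ) :
    ‖Real.exp (-(l * |s - s0|)) • ∫ r in s0..s, G r‖ ≤ M := by
  have h1 : ‖∫ r in s0..s, G r‖ ≤ M * Real.exp (l * |s - s0|) := by
    rcases le_total s0 s with hs | hs
    · have h2 := intervalIntegral.norm_integral_le_of_norm_le (μ := volume) (f := G)
        (g := fun r => M * (Real.exp (l * (r - s0)) * (l * 1))) hs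
        (Eventually.of_forall fun r hr => (h r).trans_eq (by
          rw [abs_of_nonneg (sub_nonneg.2 hr.1.le)]
          ring)) (Continuous.intervalIntegrable (by fun_prop) _ _)
      rw [intervalIntegral.integral_eq_sub_of_hasDerivAt (f := fun r => M * Real.exp (l * (r - s0)))
        (fun r _ => (((hasDerivAt_id' r).sub_const s0).const_mul l).exp.const_mul M)
        (Continuous.intervalIntegrable (by fun_prop) _ _)] at h2
      rw [abs_of_nonneg (sub_nonneg.2 hs)]
      have h3 := mul_nonneg hM (Real.exp_pos (l * (s0 - s0))).le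
      linarith
    · have h2 := intervalIntegral.norm_integral_le_of_norm_le (μ := volume) (f := G)
        (g := fun r => -M * (Real.exp (l * (s0 - r)) * (l * -1))) hs
        (Eventually.of_forall fun r hr => (h r).trans_eq (by
          rw [abs_sub_comm, abs_of_nonneg (sub_nonneg.2 hr.2)]
          ring)) (Continuous.intervalIntegrable (by fun_prop) _ _)
      rw [intervalIntegral.integral_eq_sub_of_hasDerivAt (f := fun r => -M * Real.exp (l * (s0 - r)))
        (fun r _ => (((hasDerivAt_id' r).const_sub s0).const_mul l).exp.const_mul (-M))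
        (Continuous.intervalIntegrable (by fun_prop) _ _)] at h2
      rw [intervalIntegral.integral_symm, norm_neg, abs_sub_comm, abs_of_nonneg (sub_nonneg.2 hs)]
      have h3 := mul_nonneg hM (Real.exp_pos (l * (s0 - s0))).le
      linarith
  rw [norm_smul, Real.norm_of_nonneg (Real.exp_pos _).le]
  refine (mul_le_mul_of_nonneg_left h1 (Real.exp_pos _).le).trans_eq ?_
  rw [mul_left_comm, ← Real.exp_add, neg_add_cancel, Real.exp_zero, mul_one]

/-- Contraction on bounded continuous functions on Q × ℝ: X q s = exp (λ |s - s0|) f (q, s), λ = 2 L + 1,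
T f (q, s) = exp (-λ |s - s0|) (x0 q + ∫ r in s0..s, F q r (exp (λ |r - s0|) f (q, r)));
continuity by intervalIntegral.continuous_parametric_intervalIntegral_of_continuous -/
theorem ode_param {Q E : Type} [TopologicalSpace Q] [CompactSpace Q] [NormedAddCommGroup E]
    [NormedSpace ℝ E] [CompleteSpace E] (F : Q → ℝ → E → E)
    (hF : Continuous fun p : Q × ℝ × E => F p.1 p.2.1 p.2.2) {L : NNReal}
    (hL : ∀ q s, LipschitzWith L (F q s)) (h0 : ∀ q s, F q s 0 = 0) (s0 : ℝ) (x0 : Q → E)
    (hx : Continuous x0) :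
    ∃ X : Q → ℝ → E, Continuous (fun p : Q × ℝ => X p.1 p.2) ∧
      ∀ q, X q s0 = x0 q ∧ ∀ s, HasDerivAt (X q) (F q s (X q s)) s := by
  set l : ℝ := 2 * L + 1 with hl
  have hl0 : 0 ≤ l := by positivity
  obtain ⟨B, hB⟩ := isCompact_univ.exists_bound_of_continuousOn hx.continuousOn
  let Y : BoundedContinuousFunction (Q × ℝ) E → Q → ℝ → E := fun u q r =>
    Real.exp (l * |r - s0|) • u (q, r)
  have hY : ∀ u, Continuous fun p : Q × ℝ => Y u p.1 p.2 := fun u => by
    simp only [Y]
    fun_prop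
  have hFY : ∀ u, Continuous fun p : Q × ℝ => F p.1 p.2 (Y u p.1 p.2) := fun u =>
    hF.comp (continuous_fst.prodMk (continuous_snd.prodMk (hY u)))
  have hc : ∀ u q, Continuous fun r => F q r (Y u q r) := fun u q =>
    (hFY u).comp (continuous_const.prodMk continuous_id)
  have hd : ∀ u v q r, ‖F q r (Y u q r) - F q r (Y v q r)‖ ≤
      ‖u - v‖ / 2 * l * Real.exp (l * |r - s0|) := fun u v q r => by
    refine ((hL q r).norm_sub_le _ _).trans ?_
    simp only [Y]
    rw [← smul_sub, norm_smul, Real.norm_of_nonneg (Real.exp_pos _).le]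
    have h1 : ‖u (q, r) - v (q, r)‖ ≤ ‖u - v‖ := (u - v).norm_coe_le_norm (q, r)
    have h2 := Real.exp_pos (l * |r - s0|)
    have h3 := mul_le_mul_of_nonneg_left h1 (mul_nonneg L.2 h2.le)
    have h4 := mul_nonneg (norm_nonneg (u - v)) h2.le
    change (L : ℝ) * _ * _ ≤ (L : ℝ) * _ * _ at h3
    rw [hl] at *
    nlinarith
  let G : BoundedContinuousFunction (Q × ℝ) E → Q × ℝ → E := fun u p =>
    Real.exp (-(l * |p.2 - s0|)) • x0 p.1 +
      Real.exp (-(l * |p.2 - s0|)) • ∫ r in s0..p.2, F p.1 r (Y u p.1 r)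
  have hG : ∀ u, Continuous (G u) := fun u => by
    have h1 : Continuous fun p : Q × ℝ => Real.exp (-(l * |p.2 - s0|)) := by fun_prop
    exact (h1.smul (hx.comp continuous_fst)).add (h1.smul
      (intervalIntegral.continuous_parametric_intervalIntegral_of_continuous
        (f := fun (p : Q × ℝ) r => F p.1 r (Y u p.1 r))
        ((hFY u).comp (continuous_fst.fst.prodMk continuous_snd)) continuous_snd))
  have hb : ∀ u p, ‖G u p‖ ≤ B + ‖u‖ / 2 := fun u p => by
    refine (norm_add_le _ _).trans (add_le_add ?_ (ALip_int (by positivity) (fun r => ?_) _))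
    · rw [norm_smul, Real.norm_of_nonneg (Real.exp_pos _).le]
      exact (mul_le_of_le_one_left (norm_nonneg _) (Real.exp_le_one_iff.2
        (neg_nonpos.2 (by positivity)))).trans (hB _ (mem_univ _))
    · simpa [Y, h0] using hd u 0 p.1 r
  let Φ : BoundedContinuousFunction (Q × ℝ) E → BoundedContinuousFunction (Q × ℝ) E := fun u =>
    BoundedContinuousFunction.ofNormedAddCommGroup (G u) (hG u) _ (hb u)
  have hΦ : ContractingWith (1 / 2) Φ := by
    refine ⟨by norm_num, LipschitzWith.of_dist_le_mul fun u v => ?_⟩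
    refine (BoundedContinuousFunction.dist_le (by positivity)).2 fun p => ?_
    have h1 := ALip_int (by positivity) (hd u v p.1) p.2
    rw [intervalIntegral.integral_sub ((hc u _).intervalIntegrable _ _)
      ((hc v _).intervalIntegrable _ _), smul_sub] at h1
    change dist (G u p) (G v p) ≤ _
    rw [dist_eq_norm, dist_eq_norm, add_sub_add_left_eq_sub]
    refine h1.trans_eq ?_
    push_cast
    ring
  obtain ⟨u, hu⟩ : ∃ u, Φ u = u := ⟨_, hΦ.fixedPoint_isFixedPt⟩
  have h1 : ∀ q, Y u q = fun s => x0 q + ∫ r in s0..s, F q r (Y u q r) := fun q => by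
    funext s
    have h2 : u (q, s) = G u (q, s) := by
      conv_lhs => rw [← hu]
      rfl
    change Real.exp (l * |s - s0|) • u (q, s) = _
    rw [h2]
    simp only [G]
    rw [← smul_add, smul_smul, ← Real.exp_add, add_neg_cancel, Real.exp_zero, one_smul]
  refine ⟨Y u, hY u, fun q => ⟨by simpa using congrFun (h1 q) s0, fun s => ?_⟩⟩
  have h2 := ((hc u q).integral_hasStrictDerivAt s0 s).hasDerivAt.const_add (x0 q)
  rwa [← h1 q] at h2

end Vale.Agent.P139.PA
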