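import Vale.Agent.P139.SpB

open Complex MeasureTheory Filter Topology
open scoped ComplexConjugate ContDiff

namespace Vale.Agent.P139

theorem spC_iter {s0 : ℝ} (j : ℕ) {f : ℝ → ℂ} (hf : ContDiffOn ℝ (j + 1 : ℕ) f (Set.Ioi s0))
    {s : ℝ} (hs : s0 < s) : HasDerivAt (iteratedDeriv j f) (iteratedDeriv (j + 1) f s) s := by
  induction j generalizing f with
  | zero =>
    simpa using ((hf.differentiableOn (by simp)).differentiableAt (Ioi_mem_nhds hs)).hasDerivAt
  | succ j ih =>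
    rw [iteratedDeriv_succ', iteratedDeriv_succ']
    exact ih (hf.deriv_of_isOpen isOpen_Ioi (by push_cast; exact le_rfl))

/-- uniqueness for the second order equation -/
theorem spC_uniq (α b : ℂ) {s0 S : ℝ} (hs0 : 0 < s0) (hS : s0 < S) {d d1 d2 : ℝ → ℂ}
    (h1 : ∀ s, s0 < s → HasDerivAt d (d1 s) s) (h2 : ∀ s, s0 < s → HasDerivAt d1 (d2 s) s)
    (ode : ∀ s : ℝ, s0 < s → s * d2 s + (b + I * s) * d1 s + I * α * d s = 0)
    (z1 : d S = 0) (z2 : d1 S = 0) {s : ℝ} (hs : s0 < s) : d s = 0 ∧ d1 s = 0 := by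
  have hK : 0 ≤ (‖b‖ + ‖α‖) / s0 + 1 := by positivity
  have h := ODE_solution_unique_of_mem_Ioo (K := NNReal.mk _ hK) (a := s0) (b := max s S + 1) (t₀ := S)
    (v := fun (t : ℝ) (p : ℂ × ℂ) => (p.2, -((b / t + I) * p.2 + I * α / t * p.1)))
    (s := fun _ => Set.univ) (f := fun t => (d t, d1 t)) (g := fun _ => (0, 0))
    (fun t ht => LipschitzOnWith.of_dist_le_mul fun p _ q _ => ?_)
    ⟨hS, by linarith [le_max_right s S]⟩
    (fun t ht => ⟨((h1 t ht.1).prodMk (h2 t ht.1)).congr_deriv ?_, trivial⟩)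
    (fun t _ => ⟨(hasDerivAt_const t _).congr_deriv (by simp [Prod.ext_iff]), trivial⟩)
    (by simp [z1, z2])
    ⟨hs, by linarith [le_max_left s S]⟩
  · exact Prod.mk.inj h
  · have ht0 : 0 < t := hs0.trans ht.1
    have e1 : ‖p.1 - q.1‖ ≤ ‖p - q‖ := norm_fst_le (p - q)
    have e2 : ‖p.2 - q.2‖ ≤ ‖p - q‖ := norm_snd_le (p - q)
    have e3 : ‖b / t + I‖ ≤ ‖b‖ / s0 + 1 := by
      refine (norm_add_le _ _).trans ?_
      rw [norm_I, norm_div, norm_real, Real.norm_of_nonneg ht0.le]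
      exact add_le_add_left (div_le_div_of_nonneg_left (norm_nonneg _) hs0 ht.1.le) _
    have e4 : ‖I * α / t‖ ≤ ‖α‖ / s0 := by
      rw [norm_div, norm_mul, norm_I, one_mul, norm_real, Real.norm_of_nonneg ht0.le]
      exact div_le_div_of_nonneg_left (norm_nonneg _) hs0 ht.1.le
    rw [dist_eq_norm, dist_eq_norm, Prod.mk_sub_mk, Prod.norm_mk, NNReal.coe_mk]
    have e5 : 0 ≤ (‖b‖ + ‖α‖) / s0 * ‖p - q‖ := by positivity
    refine max_le (by linarith) ?_
    rw [show -((b / t + I) * p.2 + I * α / t * p.1) - -((b / t + I) * q.2 + I * α / t * q.1) =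
      -((b / t + I) * (p.2 - q.2) + I * α / t * (p.1 - q.1)) by ring, norm_neg]
    refine (norm_add_le _ _).trans ?_
    rw [norm_mul, norm_mul (I * α / t)]
    refine (add_le_add (mul_le_mul e3 e2 (norm_nonneg _) (by positivity))
      (mul_le_mul e4 e1 (norm_nonneg _) (by positivity))).trans (le_of_eq (by ring))
  · have ht0 : (t : ℂ) ≠ 0 := ofReal_ne_zero.2 (hs0.trans ht.1).ne'
    refine Prod.ext rfl ?_
    simp only
    field_simp
    linear_combination ode t ht.1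

theorem spC_int {y E : ℝ → ℂ} {g : ℝ → ℝ} {a M : ℝ} {l : ℕ} (ha : 0 < a)
    (hg : IntegrableOn g (Set.Ioi a)) (hy : ∀ t, a < t → t ^ (l + 13) * ‖y t‖ ^ 2 ≤ g t)
    (hE : ContinuousOn E (Set.Ioi a)) (hM : 0 ≤ M)
    (hb : ∀ t, a < t → ‖E t‖ ≤ M * (‖y t‖ * t ^ (l + 13) * t ^ (-((l : ℝ) / 2 + 8)))) :
    IntegrableOn E (Set.Ioi a) := by
  refine ((hg.add (integrableOn_Ioi_rpow_of_lt (a := -3) (by norm_num) ha)).const_mul M).mono'
    (hE.aestronglyMeasurable measurableSet_Ioi) ((ae_restrict_iff' measurableSet_Ioi).2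
      (Eventually.of_forall fun t ht => (hb t ht).trans (mul_le_mul_of_nonneg_left ?_ hM)))
  have ht0 : 0 < t := ha.trans ht
  have h1 : t ^ (l + 13) * (t ^ (-((l : ℝ) / 2 + 8))) ^ 2 = t ^ (-3 : ℝ) := by
    rw [← Real.rpow_natCast, ← Real.rpow_natCast, ← Real.rpow_mul ht0.le, ← Real.rpow_add ht0]
    congr 1
    push_cast
    ring
  have h2 := hy t ht
  have h3 : 0 ≤ t ^ (l + 13) * (‖y t‖ - t ^ (-((l : ℝ) / 2 + 8))) ^ 2 := by positivity
  have h4 : 0 ≤ ‖y t‖ * t ^ (l + 13) * t ^ (-((l : ℝ) / 2 + 8)) := by positivity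
  simp only [Pi.add_apply]
  nlinarith

theorem spC_log {H E : ℝ → ℂ} {a : ℝ} {C : ℂ} (ha : 0 < a) (hH : IntegrableOn H (Set.Ioi a))
    (hE : IntegrableOn E (Set.Ioi a)) (hd : ∀ t : ℝ, a < t → HasDerivAt H (E t - C / t) t) :
    C = 0 := by
  by_contra hC
  have h1 : ∀ t ∈ Set.Ioi a, HasDerivAt (fun t => H t + C * (Real.log t : ℂ)) (E t) t := by
    intro t ht
    refine ((hd t ht).add (((Real.hasDerivAt_log (ha.trans ht).ne').ofReal_comp).const_mul
      C)).congr_deriv ?_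
    push_cast
    ring
  obtain ⟨L, hL⟩ : ∃ L, Tendsto (fun t => H t + C * (Real.log t : ℂ)) atTop (𝓝 L) :=
    ⟨_, tendsto_limUnder_of_hasDerivAt_of_integrableOn_Ioi h1 hE⟩
  have h2 := (Real.tendsto_log_atTop.const_mul_atTop (norm_pos_iff.2 hC)).eventually_ge_atTop
    (‖L‖ + 2)
  obtain ⟨T, hT⟩ := eventually_atTop.1 (h2.and (hL.norm.eventually (gt_mem_nhds (lt_add_one _))))
  have h3 : IntegrableOn (fun _ : ℝ => (1 : ℝ)) (Set.Ioi (max a T)) := by
    refine (hH.mono_set (Set.Ioi_subset_Ioi (le_max_left _ _))).norm.mono'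
      aestronglyMeasurable_const ((ae_restrict_iff' measurableSet_Ioi).2
        (Eventually.of_forall fun t ht => ?_))
    obtain ⟨h4, h5⟩ := hT t ((le_max_right _ _).trans (le_of_lt ht))
    have h6 := norm_sub_le (H t + C * (Real.log t : ℂ)) (H t)
    rw [add_sub_cancel_left, norm_mul, norm_real] at h6
    have h7 := mul_le_mul_of_nonneg_left (Real.le_norm_self (Real.log t)) (norm_nonneg C)
    rw [norm_one]
    linarith
  simp at h3

/-- the Wronskian of a slow solution with W vanishes -/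
theorem spC_wron {l : ℕ} {β : ℂ} (hβ : (l : ℝ) / 2 + 8 ≤ β.re) {a : ℝ} (ha : 1 ≤ a)
    {y y1 y2 : ℝ → ℂ} (h1 : ∀ s, a < s → HasDerivAt y (y1 s) s)
    (h2 : ∀ s, a < s → HasDerivAt y1 (y2 s) s)
    (ode : ∀ s : ℝ, a < s → s * y2 s + ((l : ℂ) + 14 + I * s) * y1 s + I * β * y s = 0)
    {g : ℝ → ℝ} (hg : IntegrableOn g (Set.Ioi a))
    (hy : ∀ t, a < t → t ^ (l + 13) * ‖y t‖ ^ 2 ≤ g t) {S : ℝ} (hS : a < S) :
    y S * WW (β + 1) (l + 14 + 1) S + y1 S * WW β (l + 14) S = 0 := by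
  have ha0 : 0 < a := one_pos.trans_le ha
  have hl : (0 : ℝ) ≤ l := Nat.cast_nonneg l
  have hβ0 : 0 < β.re := by linarith
  have hx : ∀ s : ℝ, HasDerivAt (fun t : ℝ => (t : ℂ)) 1 s := fun s =>
    (hasDerivAt_id (s : ℂ)).comp_ofReal
  have he : ∀ s : ℝ, HasDerivAt (fun t : ℝ => Complex.exp (I * t)) (Complex.exp (I * s) * I) s :=
    fun s => ((hx s).const_mul I).cexp.congr_deriv (by rw [mul_one])
  have hp : ∀ (k : ℕ) (s : ℝ), HasDerivAt (fun t : ℝ => (t : ℂ) ^ (k + 1)) ((k + 1) * s ^ k) s :=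
    fun k s => ((hx s).fun_pow (k + 1)).congr_deriv (by simp)
  have w0 : ∀ s, a < s → HasDerivAt (WW β (l + 14)) (-WW (β + 1) (l + 14 + 1) s) s :=
    fun s hs => WW_deriv hβ0 _ (ha0.trans hs)
  have w1 : ∀ s, a < s → HasDerivAt (WW (β + 1) (l + 14 + 1)) (-WW (β + 2) (l + 14 + 2) s) s :=
    fun s hs => by
      have h := WW_deriv (spA_re' hβ0) (l + 14 + 1) (ha0.trans hs)
      rwa [spA_two, spA_two] at h
  have hw : ∀ s, a < s → HasDerivAt (fun t : ℝ => (t : ℂ) ^ (l + 13 + 1) * Complex.exp (I * t) *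
      (y t * WW (β + 1) (l + 14 + 1) t + y1 t * WW β (l + 14) t)) 0 s := by
    intro s hs
    refine (((hp _ s).mul (he s)).mul (((h1 s hs).mul (w1 s hs)).add
      ((h2 s hs).mul (w0 s hs)))).congr_deriv ?_
    have e1 := ode s hs
    have e2 := spA_ode hβ0 (l + 14) (ha0.trans hs)
    simp only [Pi.mul_apply, Pi.add_apply]
    push_cast
    linear_combination (s : ℂ) ^ (l + 13) * Complex.exp (I * s) * (WW β (l + 14) s * e1 - y s * e2)
  obtain ⟨C, hC⟩ := isOpen_Ioi.exists_is_const_of_deriv_eq_zero isPreconnected_Ioi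
    (fun s hs => (hw s hs).differentiableAt.differentiableWithinAt) fun s hs => (hw s hs).deriv
  obtain ⟨C0, hC0, b0⟩ := spB_W_bound hβ0 (show 0 < β.re + 1 by linarith) ‖(l : ℂ) + 14 - β - 1‖
  have b1 : ∀ t, a < t → ‖WW β (l + 14) t‖ ≤ C0 * t ^ (-((l : ℝ) / 2 + 8)) := fun t ht =>
    (b0 β _ t le_rfl (by linarith) le_rfl (by linarith)).trans (mul_le_mul_of_nonneg_left
      (Real.rpow_le_rpow_of_exponent_le (by linarith) (by linarith)) hC0)
  have b2 : ∀ t, a < t → ‖WW (β + 1) (l + 14 + 1) t‖ ≤ C0 * t ^ (-((l : ℝ) / 2 + 8)) := by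
    intro t ht
    have e : (β + 1).re = β.re + 1 := by simp
    exact (b0 (β + 1) _ t (by linarith) e.le (by rw [add_sub_add_right_eq_sub]) (by linarith)).trans
      (mul_le_mul_of_nonneg_left
        (Real.rpow_le_rpow_of_exponent_le (by linarith) (by linarith)) hC0)
  have ne : ∀ t : ℝ, ‖Complex.exp (I * t)‖ = 1 := fun t => norm_exp_I_mul_ofReal t
  have np : ∀ (k : ℕ) (t : ℝ), a < t → ‖(t : ℂ) ^ k‖ = t ^ k := fun k t ht => by
    rw [norm_pow, norm_real, Real.norm_of_nonneg (ha0.trans ht).le]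
  have cy : ContinuousOn y (Set.Ioi a) := fun t ht => (h1 t ht).continuousAt.continuousWithinAt
  have c0 : ContinuousOn (WW β (l + 14)) (Set.Ioi a) := fun t ht =>
    (w0 t ht).continuousAt.continuousWithinAt
  have c1 : ContinuousOn (WW (β + 1) (l + 14 + 1)) (Set.Ioi a) := fun t ht =>
    (w1 t ht).continuousAt.continuousWithinAt
  have hC' : -C = 0 := by
    refine spC_log (H := fun t : ℝ => (t : ℂ) ^ (l + 12 + 1) * Complex.exp (I * t) *
        (y t * WW β (l + 14) t))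
      (E := fun t : ℝ => Complex.exp (I * t) * y t * ((((l + 12 : ℕ) + 1) * (t : ℂ) ^ (l + 12) +
        I * (t : ℂ) ^ (l + 13)) * WW β (l + 14) t -
        2 * (t : ℂ) ^ (l + 13) * WW (β + 1) (l + 14 + 1) t)) ha0
      (spC_int ha0 hg hy (by fun_prop) hC0 fun t ht => ?_)
      (spC_int (M := (l + 16) * C0) ha0 hg hy (by fun_prop) (by positivity) fun t ht => ?_)
      fun t ht => ?_
    · have ht0 := ha0.trans ht
      rw [norm_mul, norm_mul, norm_mul, ne, np _ t ht, mul_one]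
      refine (mul_le_mul_of_nonneg_left (mul_le_mul_of_nonneg_left (b1 t ht) (norm_nonneg _))
        (by positivity)).trans (le_of_eq (by ring))
    · have ht0 := ha0.trans ht
      have e1 : ‖(((l + 12 : ℕ) : ℂ) + 1) * (t : ℂ) ^ (l + 12) + I * (t : ℂ) ^ (l + 13)‖ ≤
          (l + 14) * t ^ (l + 13) := by
        refine (norm_add_le _ _).trans ?_
        rw [norm_mul, norm_mul, norm_I, np _ t ht, np _ t ht, ← Nat.cast_succ, norm_natCast]
        have e2 : t ^ (l + 12) ≤ t ^ (l + 13) := pow_le_pow_right₀ (by linarith) (by omega)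
        push_cast
        nlinarith
      rw [norm_mul, norm_mul, ne, one_mul]
      refine (mul_le_mul_of_nonneg_left (norm_sub_le _ _) (norm_nonneg _)).trans ?_
      rw [norm_mul, norm_mul, norm_mul, np _ t ht, Complex.norm_two]
      refine (mul_le_mul_of_nonneg_left (add_le_add (mul_le_mul e1 (b1 t ht) (norm_nonneg _)
        (by positivity)) (mul_le_mul_of_nonneg_left (b2 t ht) (by positivity)))
        (norm_nonneg _)).trans (le_of_eq (by ring))
    · refine (((hp _ t).mul (he t)).mul ((h1 t ht).mul (w0 t ht))).congr_deriv ?_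
      have ht0 : (t : ℂ) ≠ 0 := ofReal_ne_zero.2 (ha0.trans ht).ne'
      rw [← hC t ht]
      simp only [Pi.mul_apply]
      field_simp
      ring
  have h3 := hC S hS
  rw [neg_eq_zero.1 hC'] at h3
  exact (mul_eq_zero.1 h3).resolve_left (mul_ne_zero
    (pow_ne_zero _ (ofReal_ne_zero.2 (ha0.trans hS).ne')) (Complex.exp_ne_zero _))

theorem spC_ne {β : ℂ} (hβ : 0 < β.re) (b : ℂ) (a : ℝ) : ∃ S, a < S ∧ WW β b S ≠ 0 := by
  obtain ⟨S, h1, h2, h3⟩ := (((spA_asym hβ (b - β - 1)).eventually_ne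
    (Complex.Gamma_ne_zero_of_re_pos hβ)).and
    ((eventually_gt_atTop a).and (eventually_gt_atTop 0))).exists
  refine ⟨S, h2, mul_ne_zero ?_ h1⟩
  rw [Ne, cpow_eq_zero_iff, not_and_or]
  exact Or.inl (ofReal_ne_zero.2 h3.ne')

/-- a weakly slow solution is a multiple of U, with Jordan source -/
theorem slow_unique (l : ℕ) (α κ : ℂ) (hα : (l : ℝ) / 2 ≤ α.re) (s0 : ℝ) (hs0 : 0 < s0)
    (u : ℝ → ℂ) (hu : ContDiffOn ℝ 10 u (Set.Ioi s0))
    (ode : ∀ s : ℝ, s0 < s → s * deriv (deriv u) s + ((l : ℂ) + 6 + I * s) * deriv u s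
      + I * α * u s = I * κ * UU α (l + 6) s)
    (slow : IntegrableOn (fun t : ℝ => t ^ (l + 13) * ‖iteratedDeriv 8 u t‖ ^ 2)
      (Set.Ioi (s0 + 1))) :
    ∃ A : ℂ, ∀ s : ℝ, s0 < s → u s = A * UU α (l + 6) s - κ * pU α (l + 6) s ∧
      deriv u s = A * dU α (l + 6) s - κ * pdU α (l + 6) s := by
  have hl : (0 : ℝ) ≤ l := Nat.cast_nonneg l
  have hα0 : 0 ≤ α.re := by linarith
  have hα1 : -1 < α.re := by linarith
  obtain ⟨V, hV⟩ : ∃ V : ℕ → ℝ → ℂ,
    V = fun j s => iteratedDeriv j u s + κ * iteratedDeriv j (pU α (l + 6)) s := ⟨_, rfl⟩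
  have hd : ∀ j, j < 10 → ∀ s, s0 < s → HasDerivAt (V j) (V (j + 1) s) s := by
    intro j hj s hs
    rw [hV]
    exact (spC_iter j (hu.of_le (by exact_mod_cast hj)) hs).add ((spC_iter j
      ((pU_smooth hα1 _).of_le (by exact_mod_cast le_top)) (hs0.trans hs)).const_mul κ)
  have v0 : ∀ s, V 0 s = u s + κ * pU α (l + 6) s := fun s => by simp [hV]
  have v1 : ∀ s, s0 < s → V 1 s = deriv u s + κ * pdU α (l + 6) s := fun s hs => by
    simp [hV, (pU_deriv hα1 _ (hs0.trans hs)).deriv]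
  have hode : ∀ j : ℕ, j ≤ 8 → ∀ s : ℝ, s0 < s →
      s * V (j + 2) s + ((l : ℂ) + 6 + j + I * s) * V (j + 1) s + I * (α + j) * V j s = 0 := by
    intro j
    induction j with
    | zero =>
      intro _ s hs
      have e : deriv (pU α (l + 6)) =ᶠ[𝓝 s] pdU α (l + 6) :=
        Filter.eventually_of_mem (Ioi_mem_nhds (hs0.trans hs)) fun t ht => (pU_deriv hα1 _ ht).deriv
      have v2 : V 2 s = deriv (deriv u) s + κ * deriv (pdU α (l + 6)) s := by
        simp only [hV, iteratedDeriv_succ, iteratedDeriv_zero, e.deriv_eq]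
      rw [v2, v1 s hs, v0]
      push_cast
      linear_combination ode s hs + κ * pU_ode hα1 (l + 6) (hs0.trans hs)
    | succ j ih =>
      intro hj s hs
      have hx : HasDerivAt (fun t : ℝ => (t : ℂ)) 1 s := (hasDerivAt_id (s : ℂ)).comp_ofReal
      have h1 := ((hx.mul (hd (j + 2) (by omega) s hs)).add
        (((hx.const_mul I).const_add ((l : ℂ) + 6 + j)).mul (hd (j + 1) (by omega) s hs))).add
        ((hd j (by omega) s hs).const_mul (I * (α + j)))
      have h2 := h1.unique ((hasDerivAt_const s (0 : ℂ)).congr_of_eventuallyEq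
        (Filter.eventually_of_mem (Ioi_mem_nhds hs) fun t ht => ih (by omega) t ht))
      push_cast
      linear_combination h2
  obtain ⟨C, hC⟩ := pU_slow hα0 (l + 6)
  have h8 : (α + 8).re = α.re + 8 := by simp
  obtain ⟨S, hS, hW⟩ := spC_ne (β := α + 8) (by linarith) (l + 14) (s0 + 1)
  have hS0 : s0 < S := by linarith
  have hS1 : 0 < S := hs0.trans hS0
  have hwr := spC_wron (l := l) (β := α + 8) (by linarith) (a := s0 + 1) (by linarith)
    (y := V 8) (y1 := V 9) (y2 := V 10) (fun s hs => hd 8 (by norm_num) s (by linarith))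
    (fun s hs => hd 9 (by norm_num) s (by linarith))
    (fun s hs => by
      have h := hode 8 le_rfl s (by linarith)
      push_cast at h
      linear_combination h)
    ((slow.const_mul 2).add ((integrableOn_Ioi_rpow_of_lt (a := -2) (by norm_num)
      (by linarith)).const_mul (2 * (‖κ‖ * C) ^ 2)))
    (fun t ht => by
      have ht1 : 1 ≤ t := by linarith
      have ht0 : 0 < t := by linarith
      have e1 : ‖V 8 t‖ ≤ ‖iteratedDeriv 8 u t‖ + ‖κ‖ * C * t ^ (-α.re - 15 / 2) := by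
        rw [hV, mul_assoc]
        refine (norm_add_le _ _).trans (add_le_add_right ?_ _)
        rw [norm_mul]
        exact mul_le_mul_of_nonneg_left (hC t ht1) (norm_nonneg _)
      have e2 : t ^ (l + 13) * (t ^ (-α.re - 15 / 2)) ^ 2 ≤ t ^ (-2 : ℝ) := by
        rw [← Real.rpow_natCast, ← Real.rpow_natCast, ← Real.rpow_mul ht0.le, ← Real.rpow_add ht0]
        refine Real.rpow_le_rpow_of_exponent_le ht1 ?_
        push_cast
        linarith
      have e3 : ‖V 8 t‖ ^ 2 ≤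
          2 * ‖iteratedDeriv 8 u t‖ ^ 2 + 2 * (‖κ‖ * C * t ^ (-α.re - 15 / 2)) ^ 2 := by
        refine (pow_le_pow_left₀ (norm_nonneg _) e1 2).trans ?_
        nlinarith [sq_nonneg (‖iteratedDeriv 8 u t‖ - ‖κ‖ * C * t ^ (-α.re - 15 / 2))]
      have e4 := mul_le_mul_of_nonneg_left e3 (pow_pos ht0 (l + 13)).le
      have e5 := mul_le_mul_of_nonneg_left e2 (by positivity : 0 ≤ 2 * (‖κ‖ * C) ^ 2)
      simp only [Pi.add_apply]
      nlinarith) hS
  obtain ⟨c, hc⟩ : ∃ c, c = V 8 S / WW (α + 8) (l + 14) S := ⟨_, rfl⟩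
  have desc : ∀ i j : ℕ, j + 1 + i = 8 →
      V (j + 1) S = c * (-1) ^ (j + 1) * WW (α + (j + 1)) (l + 6 + (j + 1)) S ∧
      V (j + 2) S = c * (-1) ^ (j + 2) * WW (α + (j + 1) + 1) (l + 6 + (j + 1) + 1) S := by
    intro i
    induction i with
    | zero =>
      intro j hj
      obtain rfl : j = 7 := by omega
      rw [show ((7 : ℕ) : ℂ) + 1 = 8 by norm_num, show (l : ℂ) + 6 + 8 = l + 14 by ring, hc]
      constructor
      · field_simp
        norm_num
      · field_simp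
        linear_combination hwr
    | succ i ih =>
      intro j hj
      obtain ⟨e1, e2⟩ := ih (j + 1) (by omega)
      have hj0 : (0 : ℝ) ≤ j := Nat.cast_nonneg j
      have hre : 0 < (α + (j + 1)).re := by
        simp only [add_re, natCast_re, one_re]
        linarith
      have e3 := spA_ode hre (l + 6 + (j + 1)) hS1
      have e4 := hode (j + 1) (by omega) S hS0
      push_cast at e1 e2 e4
      rw [← add_assoc α, ← add_assoc ((l : ℂ) + 6)] at e1 e2
      rw [spA_two, spA_two] at e2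
      refine ⟨mul_left_cancel₀ (mul_ne_zero I_ne_zero fun h => ?_ : I * (α + (j + 1)) ≠ 0) ?_, e1⟩
      · simp [h] at hre
      · rw [e1, e2] at e4
        linear_combination e4 - c * (-1) ^ (j + 1) * e3
  obtain ⟨d1, d2⟩ := desc 7 0 rfl
  have d0 := hode 0 (by norm_num) S hS0
  simp only [Nat.cast_zero, zero_add, add_zero, spA_two] at d0 d1 d2
  have d3 : α * V 0 S = c * UU α (l + 6) S := by
    rw [d1, d2] at d0
    rw [UU]
    linear_combination (-I) * d0 + α * V 0 S * I_mul_I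
  obtain ⟨A, a1, a2⟩ : ∃ A, V 0 S = A * UU α (l + 6) S ∧ V 1 S = A * dU α (l + 6) S := by
    rcases eq_or_ne α 0 with rfl | h
    · rw [UU_zero _ hS1] at d3 ⊢
      refine ⟨V 0 S, (mul_one _).symm, ?_⟩
      rw [d1, dU, ← mul_one c, ← d3]
      ring
    · refine ⟨c / α, ?_, ?_⟩
      · field_simp
        linear_combination d3
      · rw [d1, dU]
        field_simp
  refine ⟨A, fun s hs => ?_⟩
  obtain ⟨f1, f2⟩ := spC_uniq α (l + 6) hs0 hS0 (d := fun t => V 0 t - A * UU α (l + 6) t)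
    (d1 := fun t => V 1 t - A * dU α (l + 6) t)
    (d2 := fun t => V 2 t - A * (α * WW (α + 2) (l + 6 + 2) t))
    (fun t ht => (hd 0 (by norm_num) t ht).sub ((UU_deriv hα1 _ (hs0.trans ht)).const_mul A))
    (fun t ht => (hd 1 (by norm_num) t ht).sub ((dU_deriv hα1 _ (hs0.trans ht)).const_mul A))
    (fun t ht => by
      have h := hode 0 (by norm_num) t ht
      simp only [Nat.cast_zero, zero_add, add_zero] at h
      linear_combination h - A * UU_ode α (l + 6) t)
    (sub_eq_zero.2 a1) (sub_eq_zero.2 a2) hs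
  rw [v0] at f1
  rw [v1 s hs] at f2
  exact ⟨by linear_combination f1, by linear_combination f2⟩

end Vale.Agent.P139
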