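import Vale.Agent.P139.AJet
import Vale.Agent.P139.SpC

open Complex MeasureTheory Filter Topology Set
open scoped ComplexConjugate ContDiff

namespace Vale.Agent.P139.PA

/-! Facts on the slow solution. -/

theorem U_iter {α : ℂ} (hα : -1 < α.re) (j : ℕ) {s : ℝ} (hs : 0 < s) :
    iteratedDeriv (j + 1) (UU α 6) s = (-1) ^ (j + 1) * α * WW (α + (j + 1)) (6 + (j + 1)) s := by
  induction j generalizing s with
  | zero => simp [(UU_deriv hα 6 hs).deriv, dU]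
  | succ j ih =>
    have h1 : iteratedDeriv (j + 1) (UU α 6) =ᶠ[𝓝 s]
        fun t => (-1) ^ (j + 1) * α * WW (α + (j + 1)) (6 + (j + 1)) t :=
      Filter.eventually_of_mem (Ioi_mem_nhds hs) fun t ht => ih ht
    rw [iteratedDeriv_succ, h1.deriv_eq,
      ((WW_deriv (spB_re hα (c := j + 1) (by simp)) _ hs).const_mul _).deriv, add_assoc α,
      add_assoc 6]
    push_cast
    ring

theorem AU_W (n : ℕ) {α : ℂ} (hα : 0 < α.re) (b : ℂ) : ContDiffOn ℝ n (WW α b) (Ioi 0) := by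
  induction n generalizing α b with
  | zero =>
    exact contDiffOn_zero.2 fun s hs => (WW_deriv hα b hs).continuousAt.continuousWithinAt
  | succ n ih =>
    rw [Nat.cast_succ, contDiffOn_succ_iff_deriv_of_isOpen isOpen_Ioi]
    exact ⟨fun s hs => (WW_deriv hα b hs).differentiableAt.differentiableWithinAt, by simp,
      (ih (spA_re' hα) _).neg.congr fun s hs => (WW_deriv hα b hs).deriv⟩

theorem U_smooth {α : ℂ} (hα : -1 < α.re) : ContDiffOn ℝ ∞ (UU α 6) (Ioi 0) := by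
  rw [contDiffOn_infty_iff_deriv_of_isOpen isOpen_Ioi]
  exact ⟨fun s hs => (UU_deriv hα 6 hs).differentiableAt.differentiableWithinAt,
    (contDiffOn_const.mul (contDiffOn_infty.2 fun n => AU_W n (spA_re hα) _)).congr
      fun s hs => (UU_deriv hα 6 hs).deriv⟩

theorem U_ode {α : ℂ} (hα : -1 < α.re) {s : ℝ} (hs : 0 < s) :
    (s : ℂ) * deriv (deriv (UU α 6)) s + (6 + I * s) * deriv (UU α 6) s + I * α * UU α 6 s = 0 := by
  have h1 : deriv (UU α 6) =ᶠ[𝓝 s] dU α 6 :=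
    Filter.eventually_of_mem (Ioi_mem_nhds hs) fun t ht => (UU_deriv hα 6 ht).deriv
  rw [h1.deriv_eq, (dU_deriv hα 6 hs).deriv, (UU_deriv hα 6 hs).deriv]
  exact UU_ode α 6 s

theorem AU_Wc {c : ℂ} (hc : 1 ≤ c.re) (b : ℂ) :
    ContinuousOn (fun p : ℂ × ℝ => WW (p.1 + c) b p.2) {p | -1 < p.1.re ∧ 0 < p.2} :=
  WW_cont.comp (f := fun p : ℂ × ℝ => (p.1 + c, b, p.2)) (by fun_prop)
    fun _ hp => ⟨spB_re hp.1 hc, hp.2⟩

theorem U_cont : ContinuousOn (fun p : ℂ × ℝ => UU p.1 6 p.2) {p | -1 < p.1.re ∧ 0 < p.2} :=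
  continuousOn_const.mul ((ContinuousOn.mul (by fun_prop) (AU_Wc (by simp) _)).sub
    (ContinuousOn.mul (by fun_prop) (AU_Wc (by simp) _)))

theorem dU_cont : ContinuousOn (fun p : ℂ × ℝ => dU p.1 6 p.2) {p | -1 < p.1.re ∧ 0 < p.2} :=
  continuousOn_fst.neg.mul (AU_Wc (by simp) _)

theorem AU_box {o1 o2 s1 s2 : ℝ} (hs : 0 < s1) {F : ℂ × ℝ → ℂ}
    (hF : ContinuousOn F {p | -1 < p.1.re ∧ 0 < p.2}) :
    ContinuousOn (fun p : ℝ × ℝ => F (-I * p.1, p.2)) (Icc o1 o2 ×ˢ Icc s1 s2) :=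
  hF.comp (f := fun p : ℝ × ℝ => (-I * p.1, p.2)) (by fun_prop)
    fun _ hp => ⟨by simp, hs.trans_le hp.2.1⟩

theorem Hf_cont {o1 o2 s1 s2 : ℝ} {b1 b2 : ℂ} (hB : Box o1 o2 s1 s2 b1 b2) :
    ContinuousOn (fun p : ℝ × ℝ => Hf p.1 p.2) (Icc o1 o2 ×ˢ Icc s1 s2) := by
  have hs : 0 < s1 := by linarith [hB.hs1]
  exact (ContinuousOn.mul (by fun_prop) (AU_box hs dU_cont)).div (AU_box hs U_cont)
    fun p hp => hB.une _ hp.1 _ (hB.hs1.trans hp.2.1)

theorem AU_aa {m : ℕ} (hm : 1 ≤ m) : aa m ≤ 1 := by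
  have h : (1 : ℝ) ≤ m := by exact_mod_cast hm
  nlinarith [aa_mul hm, aa_nonneg m]

/-- spB_W_bound; order 0 from the definition of UU -/
theorem U_sym : ∃ B : ℝ, 0 ≤ B ∧ ∀ m : ℕ, 1 ≤ m → ∀ om ∈ Icc (0 : ℝ) 1, ∀ j ≤ 9, ∀ s : ℝ, 1 ≤ s →
    ‖iteratedDeriv j (UU (al m om) 6) s‖ ≤ B * s ^ (-aa m - j) := by
  obtain ⟨C, C0, hC⟩ := spB_W_bound (a₁ := 1) (a₂ := 11) one_pos (by norm_num) 7
  refine ⟨8 * C, by positivity, fun m hm om ho j hj s hs => ?_⟩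
  have s0 : 0 < s := one_pos.trans_le hs
  have a0 := aa_nonneg m
  have a1 := AU_aa hm
  have hα : ‖al m om‖ ≤ 2 := by
    refine (norm_sub_le _ _).trans ?_
    rw [norm_mul, norm_I, Complex.norm_real, Complex.norm_real, Real.norm_of_nonneg a0,
      Real.norm_of_nonneg ho.1]
    linarith [ho.2]
  have hW : ∀ k : ℕ, k ≤ 9 → ‖WW (al m om + (k + 1)) (6 + (k + 1)) s‖
      ≤ C * s ^ (-aa m - (k + 1 : ℕ)) := fun k hk => by
    have e : (al m om + (k + 1)).re = aa m + (k + 1 : ℕ) := by simp [al_re]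
    have k0 : (0 : ℝ) ≤ k := Nat.cast_nonneg k
    have k1 : (k : ℝ) ≤ 9 := by exact_mod_cast hk
    have h := hC (al m om + (k + 1)) (6 + (k + 1)) s (by rw [e]; push_cast; linarith)
      (by rw [e]; push_cast; linarith) (by
        rw [show 6 + ((k : ℂ) + 1) - (al m om + (k + 1)) - 1 = 5 - al m om by ring]
        exact (norm_sub_le _ _).trans (by rw [Complex.norm_ofNat]; linarith)) hs
    rwa [e, neg_add'] at h
  cases j with
  | zero =>
    have h1 := hW 0 (by norm_num)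
    have h2 := hW 1 (by norm_num)
    have h3 : ‖6 + I * s‖ ≤ 7 * s := (norm_add_le _ _).trans (by
      rw [norm_mul, norm_I, Complex.norm_real, Real.norm_of_nonneg s0.le, Complex.norm_ofNat]
      linarith)
    have h4 : s ^ (-aa m - (1 + 1 : ℕ)) ≤ s ^ (-aa m - (0 + 1 : ℕ)) :=
      Real.rpow_le_rpow_of_exponent_le hs (by push_cast; linarith)
    have h5 : s * s ^ (-aa m - (0 + 1 : ℕ)) = s ^ (-aa m - (0 : ℕ)) := by
      rw [mul_comm, ← Real.rpow_add_one s0.ne']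
      exact congrArg _ (by push_cast; ring)
    rw [Nat.cast_zero, zero_add] at h1
    rw [Nat.cast_one, one_add_one_eq_two] at h2
    rw [iteratedDeriv_zero, UU, norm_mul, norm_neg, norm_I, one_mul, ← h5]
    refine (norm_sub_le _ _).trans ?_
    rw [norm_mul, norm_mul (s : ℂ), Complex.norm_real, Real.norm_of_nonneg s0.le]
    linarith [mul_le_mul h3 h1 (norm_nonneg _) (by positivity),
      mul_le_mul_of_nonneg_left (h2.trans (mul_le_mul_of_nonneg_left h4 C0)) s0.le]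
  | succ j =>
    rw [U_iter (al_re_gt m om) j s0, norm_mul, norm_mul, norm_pow, norm_neg, norm_one, one_pow,
      one_mul]
    have h1 := mul_le_mul hα (hW j (by omega)) (norm_nonneg _) zero_le_two
    have h2 : 0 ≤ C * s ^ (-aa m - (j + 1 : ℕ)) := by positivity
    linarith

/-- the profile of the slow solution at infinity -/
noncomputable def AUF (p : ℝ × ℝ × ℝ) : ℝ :=
  ‖(6 * p.2.2 + I) * Th (p.1 - I * p.2.1 + 1) (6 - (p.1 - I * p.2.1) - 1) p.2.2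
    - p.2.2 * Th (p.1 - I * p.2.1 + 1 + 1) (6 - (p.1 - I * p.2.1) - 1) p.2.2‖

theorem AUF_eq (a om : ℝ) {s : ℝ} (hs : 0 < s) :
    ‖UU (a - I * om) 6 s‖ = s ^ (-a) * AUF (a, om, 1 / s) := by
  have hs0 : (s : ℂ) ≠ 0 := ofReal_ne_zero.2 hs.ne'
  have e : (-((a : ℂ) - I * om)).re = -a := by simp
  rw [AUF, ← e, ← norm_cpow_eq_rpow_re_of_pos hs, ← norm_mul, UU, norm_mul, norm_neg, norm_I,
    one_mul, spA_W1 _ _ hs, spA_W2 _ _ hs]
  refine congrArg _ ?_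
  push_cast
  field_simp

theorem AUF_cont (T : Set (ℝ × ℝ)) : ContinuousOn AUF (Icc 0 1 ×ˢ T) := by
  refine ((ContinuousOn.mul (by fun_prop) ?_).sub (ContinuousOn.mul (by fun_prop) ?_)).norm
  · exact th_cont.comp (f := fun p : ℝ × ℝ × ℝ => ((p.1 : ℂ) - I * p.2.1 + 1,
      6 - ((p.1 : ℂ) - I * p.2.1) - 1, p.2.2)) (by fun_prop)
      fun p hp => spA_re (by simpa using (neg_one_lt_zero.trans_le hp.1.1))
  · exact th_cont.comp (f := fun p : ℝ × ℝ × ℝ => ((p.1 : ℂ) - I * p.2.1 + 1 + 1,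
      6 - ((p.1 : ℂ) - I * p.2.1) - 1, p.2.2)) (by fun_prop)
      fun p hp => spA_re' (spA_re (by simpa using (neg_one_lt_zero.trans_le hp.1.1)))

theorem AUF_zero (om : ℝ) {s : ℝ} (hs : 0 < s) : AUF (0, om, 1 / s) = ‖UU (-I * om) 6 s‖ := by
  simpa using (AUF_eq 0 om hs).symm

theorem AU_anti {o1 o2 s1 s2 : ℝ} {b1 b2 : ℂ} (hB : Box o1 o2 s1 s2 b1 b2) {om : ℝ}
    (ho : om ∈ Icc o1 o2) {s : ℝ} (hs : 3 ≤ s) : ‖UU (-I * om) 6 s‖ ≤ ‖UU (-I * om) 6 3‖ := by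
  have h := le_of_deriv hs (fun t ht => (UU_deriv (α := -I * om) (by simp) 6
    (by linarith [ht.1])).norm_sq) (fun t _ => hasDerivAt_const t (0 : ℝ)) fun t ht => by
      have h1 := hB.mono om ho t (by linarith [ht.1])
      rw [Complex.inner, mul_comm (dU _ _ _)]
      linarith
  exact (sq_le_sq₀ (norm_nonneg _) (norm_nonneg _)).1 (by linarith)

/-- s^α UU α 6 s = Φ α (1/s), Φ α x = -I ((6 x + I) Th (α+1) (5-α) x - x Th (α+2) (5-α) x) (spA_W1, spA_W2) is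
jointly continuous (th_cont), uniformly on a compact set of (a, om, x); at a = 0 the norm of UU is antitone
on [2.8, ∞) (Box.mono) and nonzero at 3 (Box.une) -/
theorem U_ratio {o1 o2 s1 s2 : ℝ} {b1 b2 : ℂ} (hB : Box o1 o2 s1 s2 b1 b2) {θ : ℝ} (hθ : 0 < θ) :
    ∃ c0 : ℝ, 0 < c0 ∧ ∃ m0 : ℕ, ∀ m ≥ m0, ∀ om ∈ Icc o1 o2, c0 ≤ ‖UU (al m om) 6 3‖ ∧
      ∀ s : ℝ, 3 ≤ s → ‖UU (al m om) 6 s‖ ≤ (1 + θ) * (3 / s) ^ aa m * ‖UU (al m om) 6 3‖ := by
  obtain ⟨c, c0, hc⟩ := isCompact_Icc.exists_forall_le'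
    (f := fun om : ℝ => ‖UU (-I * om) 6 3‖) (a := 0)
    ((AU_box (s1 := 3) (s2 := 3) (by norm_num) U_cont).comp (f := fun om => (om, 3)) (by fun_prop)
      fun _ h => ⟨h, left_mem_Icc.2 le_rfl⟩).norm
    fun om ho => norm_pos_iff.2 (hB.une om ho 3 (by norm_num))
  obtain ⟨ε, ε0, e1⟩ : ∃ ε : ℝ, 0 < ε ∧ ε * (2 + θ) = θ * c :=
    ⟨θ * c / (2 + θ), by positivity, div_mul_cancel₀ _ (by positivity)⟩
  have e2 : ε < c := by nlinarith
  obtain ⟨δ, δ0, hδ⟩ := Metric.uniformContinuousOn_iff_le.1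
    ((isCompact_Icc.prod (isCompact_Icc.prod isCompact_Icc)).uniformContinuousOn_of_continuous
      (AUF_cont (Icc o1 o2 ×ˢ Icc 0 1))) ε ε0
  obtain ⟨m0, m1, hm⟩ := aa_small δ0
  refine ⟨(c - ε) / 3, by linarith, m0, fun m hm0 om ho => ?_⟩
  have a0 := aa_nonneg m
  have a1 := AU_aa (m1.trans hm0)
  have near : ∀ s : ℝ, 3 ≤ s → |AUF (aa m, om, 1 / s) - ‖UU (-I * om) 6 s‖| ≤ ε := fun s hs => by
    have s0 : 0 < s := by linarith
    have hx : 1 / s ∈ Icc (0 : ℝ) 1 := ⟨by positivity, (div_le_one s0).2 (by linarith)⟩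
    rw [← AUF_zero om s0]
    exact hδ _ ⟨⟨a0, a1⟩, ho, hx⟩ _ ⟨left_mem_Icc.2 zero_le_one, ho, hx⟩
      (by rw [dist_prod_same_right, Real.dist_0_eq_abs, abs_of_nonneg a0]; exact hm m hm0)
  obtain ⟨n1, n2⟩ := abs_le.1 (near 3 le_rfl)
  have h1 := hc om ho
  rw [al, AUF_eq _ _ three_pos]
  refine ⟨?_, fun s hs => ?_⟩
  · have h2 : (3 : ℝ) ^ (-1 : ℝ) ≤ 3 ^ (-aa m) :=
      Real.rpow_le_rpow_of_exponent_le (by norm_num) (by linarith)
    rw [Real.rpow_neg_one] at h2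
    exact (div_eq_inv_mul _ _).trans_le
      (mul_le_mul h2 (by linarith) (by linarith) (by positivity))
  · have s0 : 0 < s := by linarith
    have e : (3 / s) ^ aa m * 3 ^ (-aa m) = s ^ (-aa m) := by
      rw [Real.div_rpow three_pos.le s0.le, Real.rpow_neg three_pos.le, Real.rpow_neg s0.le]
      field_simp
    have h2 := AU_anti hB ho hs
    have h3 := (abs_le.1 (near s hs)).2
    rw [AUF_eq _ _ s0, mul_assoc, ← mul_assoc (_ ^ _), e, mul_left_comm]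
    refine mul_le_mul_of_nonneg_left ?_ (by positivity)
    nlinarith

/-- dU (-I om) 6 = I om WW (1 - I om) 7, UU bounded on the box -/
theorem wall_of {o1 o2 s1 s2 : ℝ} {b1 b2 : ℂ} (hB : Box o1 o2 s1 s2 b1 b2) {ε : ℝ} (hε : 0 < ε) :
    ∃ η : ℝ, 0 < η ∧ ∀ om ∈ Icc o1 o2, ∀ σ ∈ Icc s1 s2, ‖Hf om σ‖ ≤ η →
      ‖WW (1 - I * om) 7 σ‖ ≤ ε := by
  obtain ⟨B, hb⟩ := (isCompact_Icc.prod isCompact_Icc).exists_bound_of_continuousOn
    (AU_box (o1 := o1) (o2 := o2) (s2 := s2) (by linarith [hB.hs1] : 0 < s1) U_cont)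
  refine ⟨ε / (2 * (|B| + 1)), by positivity, fun om ho σ hσ h => ?_⟩
  have h1 := hB.ho1.trans ho.1
  have h2 := hB.hs1.trans hσ.1
  have h3 := norm_pos_iff.2 (hB.une om ho σ h2)
  have h4 : ‖UU (-I * om) 6 σ‖ ≤ |B| + 1 :=
    ((hb (om, σ) ⟨ho, hσ⟩).trans (le_abs_self B)).trans (by linarith)
  rw [Hf, dU, norm_div, norm_mul, norm_mul, norm_neg, norm_neg, norm_mul, norm_neg, norm_I,
    one_mul, Complex.norm_real, Complex.norm_real, Real.norm_of_nonneg (by linarith),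
    Real.norm_of_nonneg (by linarith), show -I * om + 1 = 1 - I * om by ring,
    show (6 : ℂ) + 1 = 7 by norm_num, div_le_div_iff₀ h3 (by positivity)] at h
  have h5 := h.trans (mul_le_mul_of_nonneg_left h4 hε.le)
  have h6 : 1 ≤ 2 * (σ * om) := by nlinarith
  have h7 := le_mul_of_one_le_left (norm_nonneg (WW (1 - I * om) 7 σ)) h6
  refine h7.trans (le_of_mul_le_mul_right (h5.trans_eq' ?_) (by positivity : 0 < |B| + 1))
  ring

end Vale.Agent.P139.PA
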