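import Vale.Agent.P139.ALip
import Vale.Agent.P139.AU

open Complex MeasureTheory Filter Topology Set
open scoped ComplexConjugate ContDiff

namespace Vale.Agent.P139.PA

/-! Outer solutions.  ode_param with E = ℂ × ℂ, F q s (w, v) = (v, (GG m om (cutS S s) w - (6 + I σ) v) / σ),
σ = max s 1, initial point 3 S with data (c UU, c dU); smoothness on s > 1 by induction (w, v both C^k);
far by spC_uniq on s > 2 S (GG m om 0 w = -I α w by GG_add).  Uniqueness: ODE_solution_unique_of_mem_Icc_right. -/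

noncomputable def aodeF (m : ℕ) (om S s : ℝ) (p : ℂ × ℂ) : ℂ × ℂ :=
  (p.2, ((max s 1 : ℝ) : ℂ)⁻¹ * GG m om (cutS S s) p.1 - (6 * ((max s 1 : ℝ) : ℂ)⁻¹ + I) * p.2)

theorem aode_lip {m : ℕ} (hm : 1 ≤ m) : ∃ L : NNReal, ∀ om ∈ Icc (0 : ℝ) 1, ∀ S s : ℝ,
    LipschitzWith L (aodeF m om S s) := by
  obtain ⟨L, hL⟩ := GG_lip hm
  refine ⟨L + 7, fun om ho S s => LipschitzWith.of_dist_le_mul fun p q => ?_⟩
  have h1 := (hL om ho _ (cutS_mem S s)).dist_le_mul p.1 q.1
  have e1 : ‖p.1 - q.1‖ ≤ ‖p - q‖ := norm_fst_le (p - q)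
  have e2 : ‖p.2 - q.2‖ ≤ ‖p - q‖ := norm_snd_le (p - q)
  have hs : (1 : ℝ) ≤ max s 1 := le_max_right _ _
  have e3 : ‖((max s 1 : ℝ) : ℂ)⁻¹‖ ≤ 1 := by
    rw [norm_inv, norm_real, Real.norm_of_nonneg (by linarith)]
    exact inv_le_one_of_one_le₀ hs
  have e4 : ‖6 * ((max s 1 : ℝ) : ℂ)⁻¹ + I‖ ≤ 7 := by
    refine (norm_add_le _ _).trans ?_
    rw [norm_I, norm_mul]
    simp only [norm_ofNat]
    linarith
  have hL0 : (0 : ℝ) ≤ L := L.2
  have n0 : 0 ≤ ‖p - q‖ := norm_nonneg _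
  rw [dist_eq_norm, dist_eq_norm] at h1 ⊢
  simp only [aodeF]
  rw [Prod.mk_sub_mk, Prod.norm_mk]
  push_cast [NNReal.coe_add]
  generalize ((max s 1 : ℝ) : ℂ)⁻¹ = a at e3 e4 ⊢
  refine max_le (by nlinarith) ?_
  rw [show a * GG m om (cutS S s) p.1 - (6 * a + I) * p.2 -
      (a * GG m om (cutS S s) q.1 - (6 * a + I) * q.2) =
      a * (GG m om (cutS S s) p.1 - GG m om (cutS S s) q.1) - (6 * a + I) * (p.2 - q.2) by ring]
  refine (norm_sub_le _ _).trans ?_
  rw [norm_mul, norm_mul]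
  have m1 := mul_le_mul e3 (h1.trans (mul_le_mul_of_nonneg_left e1 hL0)) (norm_nonneg _)
    zero_le_one
  have m2 := mul_le_mul e4 e2 (norm_nonneg _) (by norm_num)
  linarith

theorem aode_snd {m : ℕ} {om S s : ℝ} (hs : 1 < s) (p : ℂ × ℂ) :
    (s : ℂ) * (aodeF m om S s p).2 + (6 + I * s) * p.2 = GG m om (cutS S s) p.1 := by
  have h0 : (s : ℂ) * (s : ℂ)⁻¹ = 1 := mul_inv_cancel₀ (ofReal_ne_zero.2 (by linarith))
  simp only [aodeF, max_eq_left hs.le]
  linear_combination (GG m om (cutS S s) p.1 - 6 * p.2) * h0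

theorem aode_smooth {m : ℕ} {om S : ℝ} {Y : ℝ → ℂ × ℂ}
    (hY : ∀ s, HasDerivAt Y (aodeF m om S s (Y s)) s) : ContDiffOn ℝ ∞ Y (Ioi 1) := by
  rw [contDiffOn_infty]
  intro n
  induction n with
  | zero =>
    exact contDiffOn_zero.2 fun s _ => (hY s).continuousAt.continuousWithinAt
  | succ n ih =>
    rw [Nat.cast_succ, contDiffOn_succ_iff_deriv_of_isOpen isOpen_Ioi]
    refine ⟨fun s _ => (hY s).differentiableAt.differentiableWithinAt, by simp, ?_⟩
    have hn : (n : WithTop ℕ∞) ≤ ∞ := by exact_mod_cast le_top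
    have c1 : ContDiffOn ℝ n (fun s : ℝ => (s : ℂ)⁻¹) (Ioi 1) :=
      ofRealCLM.contDiff.contDiffOn.inv fun s hs =>
        ofReal_ne_zero.2 (lt_trans one_pos hs).ne'
    have c2 : ContDiffOn ℝ n (fun s : ℝ => GG m om (cutS S s) (Y s).1) (Ioi 1) :=
      ((GG_smooth m).of_le hn).comp_contDiffOn
        (contDiffOn_const.prodMk (((cutS_smooth S).of_le hn).contDiffOn.prodMk ih.fst))
    refine (ih.snd.prodMk ((c1.mul c2).sub
      (((contDiffOn_const (c := (6 : ℂ))).mul c1).add (contDiffOn_const (c := I)) |>.mul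
        ih.snd))).congr fun s hs => ?_
    rw [(hY s).deriv]
    simp only [aodeF, max_eq_left (mem_Ioi.1 hs).le]

theorem aode_cont (m : ℕ) (S : ℝ) {Q : Type} [TopologicalSpace Q] {om : Q → ℝ}
    (h1 : Continuous om) :
    Continuous fun p : Q × ℝ × (ℂ × ℂ) => aodeF m (om p.1) S p.2.1 p.2.2 := by
  have ca : Continuous fun p : Q × ℝ × (ℂ × ℂ) => ((max p.2.1 1 : ℝ) : ℂ)⁻¹ :=
    (continuous_ofReal.comp (continuous_snd.fst.max continuous_const)).inv₀ fun p =>
      ofReal_ne_zero.2 (lt_of_lt_of_le one_pos (le_max_right _ _)).ne'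
  have c0 : Continuous fun p : Q × ℝ × (ℂ × ℂ) => (om p.1, cutS S p.2.1, p.2.2.1) :=
    (h1.comp continuous_fst).prodMk
      (((cutS_smooth S).continuous.comp continuous_snd.fst).prodMk continuous_snd.snd.fst)
  have cG := (GG_smooth m).continuous.comp c0
  have c2 : Continuous fun p : Q × ℝ × (ℂ × ℂ) => p.2.2.2 := continuous_snd.snd.snd
  unfold aodeF
  exact c2.prodMk ((ca.mul cG).sub (((continuous_const.mul ca).add continuous_const).mul c2))

theorem aode_out {m : ℕ} {om S : ℝ} (hS : 3 ≤ S) {c : ℂ} {Y : ℝ → ℂ × ℂ}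
    (hY : ∀ s, HasDerivAt Y (aodeF m om S s (Y s)) s)
    (h0 : Y (3 * S) = (c * UU (al m om) 6 (3 * S), c * dU (al m om) 6 (3 * S))) :
    (deriv fun s => (Y s).1) = (fun s => (Y s).2) ∧ OutS m om S c fun s => (Y s).1 := by
  have d1 : ∀ s, HasDerivAt (fun s => (Y s).1) (Y s).2 s := fun s => (hY s).fst
  have d2 : ∀ s, HasDerivAt (fun s => (Y s).2) (aodeF m om S s (Y s)).2 s := fun s => (hY s).snd
  have e1 : (deriv fun s => (Y s).1) = fun s => (Y s).2 := funext fun s => (d1 s).deriv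
  refine ⟨e1, (aode_smooth hY).fst, fun s hs => ?_, fun s hs => ?_⟩
  · rw [e1, (d2 s).deriv]
    exact aode_snd hs _
  · have hα := al_re_gt m om
    have := spC_uniq (al m om) 6 (s0 := 2 * S) (S := 3 * S) (by linarith) (by linarith)
      (d := fun s => (Y s).1 - c * UU (al m om) 6 s)
      (d1 := fun s => (Y s).2 - c * dU (al m om) 6 s)
      (d2 := fun s => (aodeF m om S s (Y s)).2 - c * (al m om * WW (al m om + 2) (6 + 2) s))
      (fun t ht => (d1 t).sub ((UU_deriv hα 6 (by linarith)).const_mul _))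
      (fun t ht => (d2 t).sub ((dU_deriv hα 6 (by linarith)).const_mul _))
      (fun t ht => by
        have a1 := aode_snd (m := m) (om := om) (S := S) (s := t) (by linarith) (Y t)
        have a2 := GG_add m om 0 (Y t).1
        rw [zero_mul, ofReal_zero, zero_mul] at a2
        rw [cutS_zero (by linarith) ht.le] at a1
        linear_combination a1 + a2 - c * UU_ode (al m om) 6 t)
      (by simp only [h0, sub_self]) (by simp only [h0, sub_self]) hs
    exact sub_eq_zero.1 this.1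

theorem out_exists {m : ℕ} (hm : 1 ≤ m) {S : ℝ} (hS : 3 ≤ S) {Q : Type} [TopologicalSpace Q]
    [CompactSpace Q] (om : Q → ℝ) (c : Q → ℂ) (h1 : Continuous om) (h2 : Continuous c)
    (ho : ∀ q, om q ∈ Icc (0 : ℝ) 1) :
    ∃ X : Q → ℝ → ℂ, Continuous (fun q => X q 3) ∧ Continuous (fun q => deriv (X q) 3) ∧
      ∀ q, OutS m (om q) S (c q) (X q) := by
  obtain ⟨L, hL⟩ := aode_lip hm
  have cal : Continuous fun q => (al m (om q), 3 * S) :=
    (continuous_const.sub (continuous_const.mul (continuous_ofReal.comp h1))).prodMk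
      continuous_const
  have hmem : ∀ q, (al m (om q), 3 * S) ∈ {p : ℂ × ℝ | -1 < p.1.re ∧ 0 < p.2} := fun q =>
    ⟨al_re_gt m (om q), by simp only; linarith⟩
  have cU := U_cont.comp_continuous cal hmem
  have cD := dU_cont.comp_continuous cal hmem
  simp only [Function.comp_def] at cU cD
  obtain ⟨Y, cY, hY⟩ := ode_param (fun q s => aodeF m (om q) S s) (aode_cont m S h1)
    (fun q s => hL _ (ho q) S s) (fun q s => by simp [aodeF, GG_zero]) (3 * S)
    (fun q => (c q * UU (al m (om q)) 6 (3 * S), c q * dU (al m (om q)) 6 (3 * S)))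
    ((h2.mul cU).prodMk (h2.mul cD))
  have c3 : Continuous fun q => Y q 3 := cY.comp (continuous_id.prodMk continuous_const)
  have key := fun q => aode_out hS (hY q).2 (hY q).1
  refine ⟨fun q s => (Y q s).1, c3.fst, ?_, fun q => (key q).2⟩
  simp only [fun q => (key q).1]
  exact c3.snd

theorem aode_sys {m : ℕ} {om S : ℝ} {v : ℝ → ℂ} (hv : ContDiffOn ℝ ∞ v (Ioi 1)) {s : ℝ}
    (hs : 1 < s) (ode : (s : ℂ) * deriv (deriv v) s + (6 + I * s) * deriv v s =
      GG m om (cutS S s) (v s)) :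
    HasDerivAt (fun t => (v t, deriv v t)) (aodeF m om S s (v s, deriv v s)) s := by
  obtain ⟨a1, a2⟩ := (contDiffOn_infty_iff_deriv_of_isOpen isOpen_Ioi).1 hv
  obtain ⟨a3, -⟩ := (contDiffOn_infty_iff_deriv_of_isOpen isOpen_Ioi).1 a2
  refine ((a1.differentiableAt (Ioi_mem_nhds hs)).hasDerivAt.prodMk
    (a3.differentiableAt (Ioi_mem_nhds hs)).hasDerivAt).congr_deriv (Prod.ext rfl ?_)
  have h0 : (s : ℂ) ≠ 0 := ofReal_ne_zero.2 (by linarith)
  refine mul_left_cancel₀ h0 ?_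
  linear_combination ode - aode_snd (m := m) (om := om) (S := S) hs (v s, deriv v s)

theorem in_eq_out {m : ℕ} (hm : 1 ≤ m) {om P0 S : ℝ} (ho : om ∈ Icc (0 : ℝ) 1) (hS : 3 ≤ S)
    {c : ℂ} {w v : ℝ → ℂ} (hw : Inn m om P0 w) (hv : OutS m om S c v) (h0 : w 3 = v 3)
    (h1 : deriv w 3 = deriv v 3) : ∀ s ∈ Icc 3 S, w s = v s := by
  obtain ⟨L, hL⟩ := aode_lip hm
  have dw : ∀ s ∈ Icc 3 S,
      HasDerivAt (fun t => (w t, deriv w t)) (aodeF m om S s (w s, deriv w s)) s := fun s hs =>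
    aode_sys hw.smooth.contDiffOn (by linarith [hs.1])
      (by rw [cutS_one (by linarith) hs.2]; exact hw.ode s)
  have dv : ∀ s ∈ Icc 3 S,
      HasDerivAt (fun t => (v t, deriv v t)) (aodeF m om S s (v s, deriv v s)) s := fun s hs =>
    aode_sys hv.smooth (by linarith [hs.1]) (hv.ode s (by linarith [hs.1]))
  intro s hs
  exact congrArg Prod.fst (ODE_solution_unique (hL om ho S)
    (fun t ht => (dw t ht).continuousAt.continuousWithinAt)
    (fun t ht => (dw t (Ico_subset_Icc_self ht)).hasDerivWithinAt)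
    (fun t ht => (dv t ht).continuousAt.continuousWithinAt)
    (fun t ht => (dv t (Ico_subset_Icc_self ht)).hasDerivWithinAt) (Prod.ext h0 h1) hs)

end Vale.Agent.P139.PA
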