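import Vale.Agent.P139.ALin
import Vale.Agent.P139.AU

open Complex MeasureTheory Filter Topology Set
open scoped ComplexConjugate ContDiff

namespace Vale.Agent.P139.PA

/-! A priori bounds for outer solutions.  r = v - c UU, c = ζ / UU α 6 3, solves the linear equation with
f = cutS kap (|v|^2m) v (GG_add, U_ode), r = 0 for s > 2 S.  boot_back on [3, 2 S + 1] for
φ t = ∑ j ≤ 8, |r_j t| t^(a+j), θ2 = δ/4, θ1 = δ/8: OutB (1 - δ/2) B 8 (U_ratio with θ = δ/4, U_sym), near such a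
point kap is inactive, OutB.jt, Jt.nonlin, cutS_jt, Jt.mul, ((3/s)^a)^(2m+1) = (3/s)^(1+a), small_pow, lin_est. -/

theorem AOut_split {s : ℝ} (hs : 0 < s) (a : ℝ) (j : ℕ) :
    s ^ (-a - j) = s ^ (-a) * (1 / s) ^ j := by
  rw [Real.rpow_sub hs, Real.rpow_natCast, one_div, inv_pow, div_eq_mul_inv]

theorem AOut_three {s a : ℝ} (hs : 0 < s) (ha : 0 ≤ a) : s ^ (-a) ≤ (3 / s) ^ a := by
  rw [Real.rpow_neg hs.le, ← Real.inv_rpow hs.le]
  apply Real.rpow_le_rpow (by positivity) _ ha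
  rw [inv_eq_one_div]
  gcongr
  norm_num

theorem AOut_aa_le {m : ℕ} (hm : 1 ≤ m) : aa m ≤ 1 := by
  have h1 : (1 : ℝ) ≤ m := by exact_mod_cast hm
  have h2 := aa_mul hm
  have h3 := aa_nonneg m
  nlinarith

theorem AOut_iter {v U : ℝ → ℂ} (c : ℂ) (hv : ContDiffOn ℝ ∞ v (Ioi 1))
    (hU : ContDiffOn ℝ ∞ U (Ioi 0)) (j : ℕ) {s : ℝ} (hs : 1 < s) :
    iteratedDeriv j (fun t => v t - c * U t) s = iteratedDeriv j v s - c * iteratedDeriv j U s := by
  have h1 : ContDiffAt ℝ j v s :=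
    (hv.contDiffAt (Ioi_mem_nhds hs)).of_le (by exact_mod_cast le_top)
  have h2 : ContDiffAt ℝ j (fun t => c * U t) s := contDiffAt_const.mul
    ((hU.contDiffAt (Ioi_mem_nhds (by linarith))).of_le (by exact_mod_cast le_top))
  rw [← iteratedDeriv_const_mul_field]
  exact iteratedDeriv_sub h1 h2

/-- symbol bounds for v from those of the remainder -/
theorem AOut_outB {v U : ℝ → ℂ} {c : ℂ} (hv : ContDiffOn ℝ ∞ v (Ioi 1))
    (hU : ContDiffOn ℝ ∞ U (Ioi 0)) {δ a D s : ℝ} {K : ℕ} (hδ : 0 < δ) (hδ1 : δ < 1) (ha : 0 ≤ a)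
    (hD : 0 ≤ D) (hs : 3 ≤ s) (h0 : ‖c * U s‖ ≤ (1 - 3 * δ / 4) * (3 / s) ^ a)
    (h1 : ∀ j ≤ K, ‖c * iteratedDeriv j U s‖ ≤ D * s ^ (-a - j))
    (h2 : ∀ j ≤ K, ‖iteratedDeriv j (fun t => v t - c * U t) s‖ ≤ δ / 4 * s ^ (-a - j)) :
    OutB (1 - δ / 2) (D + 1) a K v s := by
  have hs0 : 0 < s := by linarith
  have h3 := AOut_three hs0 ha
  constructor
  · have h4 := h2 0 (Nat.zero_le _)
    simp only [iteratedDeriv_zero, Nat.cast_zero, sub_zero] at h4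
    have h5 : δ / 4 * s ^ (-a) ≤ δ / 4 * (3 / s) ^ a := by gcongr
    calc ‖v s‖ = ‖(v s - c * U s) + c * U s‖ := by rw [sub_add_cancel]
      _ ≤ ‖v s - c * U s‖ + ‖c * U s‖ := norm_add_le _ _
      _ ≤ _ := by linarith
  · intro j hj
    have h4 := h2 j hj
    rw [AOut_iter c hv hU j (by linarith)] at h4
    have h5 := h1 j hj
    have h6 : 0 ≤ s ^ (-a - j) := by positivity
    calc ‖iteratedDeriv j v s‖
        = ‖(iteratedDeriv j v s - c * iteratedDeriv j U s) + c * iteratedDeriv j U s‖ := by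
          rw [sub_add_cancel]
      _ ≤ ‖iteratedDeriv j v s - c * iteratedDeriv j U s‖ + ‖c * iteratedDeriv j U s‖ :=
          norm_add_le _ _
      _ ≤ (D + 1) * s ^ (-a - j) := by nlinarith
      _ = (D + 1) * s ^ (-a) * (1 / s) ^ j := by rw [AOut_split hs0, mul_assoc]
      _ ≤ _ := by gcongr

/-- the source is small -/
theorem AOut_src {ρ B θ : ℝ} (hρ0 : 0 < ρ) (hρ1 : ρ < 1) (hθ : 0 < θ) : ∃ m0 : ℕ, ∀ m ≥ m0,
    1 ≤ m → ∀ (S s : ℝ) (v : ℝ → ℂ), 0 < S → 3 ≤ s → ContDiffOn ℝ ∞ v (Ioi 1) →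
      OutB ρ B (aa m) 8 v s → ∀ j ≤ 8,
        ‖iteratedDeriv j (fun t => ((cutS S t * kap (‖v t‖ ^ (2 * m)) : ℝ) : ℂ) * v t) s‖
          ≤ θ * s ^ (-aa m - 1 - j) := by
  obtain ⟨C, hC, hcut⟩ := cutS_jt 8
  obtain ⟨m0, hm0⟩ := small_pow hρ0.le hρ1 hθ (9 * C) (max 1 (B / ρ)) 8
  refine ⟨m0, fun m hm hm1 S s v hS hs hv hO j hj => ?_⟩
  have hs0 : 0 < s := by linarith
  have ha := aa_nonneg m
  have hΛ : (1 : ℝ) ≤ max 1 (B / ρ) := le_max_left _ _
  set Λ := max 1 (B / ρ) with hΛd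
  have hvs : ContDiffAt ℝ ∞ v s := hv.contDiffAt (Ioi_mem_nhds (by linarith))
  have hvK : ∀ K : ℕ, ContDiffAt ℝ K v s := fun K => hvs.of_le (by exact_mod_cast le_top)
  have hv8 := hvK 8
  have h1 := hO.jt hρ0 hs0 hv8
  have h2 := (hcut S s hS hs0).mul (h1.nonlin (by positivity) m) (by positivity) (by positivity)
  have h3 : (3 / s) ^ aa m ≤ 1 := Real.rpow_le_one (by positivity) ((div_le_one hs0).2 hs) ha
  have h4 : ‖v s‖ < 1 := by
    have := hO.1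
    nlinarith
  have h5 : ∀ᶠ t in 𝓝 s, ‖v t‖ < 1 := hvs.continuousAt.norm.eventually (gt_mem_nhds h4)
  have h6 := h2.congr (g := fun t => ((cutS S t * kap (‖v t‖ ^ (2 * m)) : ℝ) : ℂ) * v t)
    (h5.mono fun t ht => by
      have : ‖v t‖ ^ (2 * m) ≤ 1 := pow_le_one₀ (norm_nonneg _) ht.le
      simp only [kap_of_le (show ‖v t‖ ^ (2 * m) ≤ 3 / 2 by linarith)]
      push_cast
      ring)
  refine (h6.2 j hj).trans ?_
  have e1 : ((3 / s) ^ aa m) ^ (2 * m + 1) = (3 / s) ^ (aa m + 1) := by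
    rw [← Real.rpow_natCast, ← Real.rpow_mul (by positivity)]
    congr 1
    have := aa_mul hm1
    push_cast
    linarith
  have e2 : (3 / s) ^ (aa m + 1) ≤ 9 * s ^ (-(aa m + 1)) := by
    rw [Real.div_rpow (by norm_num) hs0.le, Real.rpow_neg hs0.le, div_eq_mul_inv]
    gcongr
    calc (3 : ℝ) ^ (aa m + 1) ≤ 3 ^ ((2 : ℕ) : ℝ) :=
          Real.rpow_le_rpow_of_exponent_le (by norm_num) (by
            have := AOut_aa_le hm1
            push_cast
            linarith)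
      _ = 9 := by rw [Real.rpow_natCast]; norm_num
  have e3 : 2 / s + (2 * m + 1) * (Λ / s) ≤ (2 * m + 3) * Λ * (1 / s) := by
    have : 2 / s ≤ 2 * Λ / s := by gcongr; linarith
    calc 2 / s + (2 * m + 1) * (Λ / s) ≤ 2 * Λ / s + (2 * m + 1) * (Λ / s) := by linarith
      _ = _ := by ring
  have e4 : ρ ^ (2 * m + 1) ≤ (m + 1) * ρ ^ (2 * m) := by
    rw [pow_succ, mul_comm]
    gcongr
    have : (0 : ℝ) ≤ m := Nat.cast_nonneg m
    linarith
  have e5 := hm0 m hm j hj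
  rw [abs_of_nonneg (by positivity), abs_of_nonneg (by positivity)] at e5
  have e6 : s ^ (-aa m - 1 - j) = s ^ (-(aa m + 1)) * (1 / s) ^ j := by
    rw [← AOut_split hs0]
    congr 1
    ring
  rw [mul_pow, e1, e6]
  calc C * (ρ ^ (2 * m + 1) * (3 / s) ^ (aa m + 1)) * (2 / s + (2 * m + 1) * (Λ / s)) ^ j
      ≤ C * ((m + 1) * ρ ^ (2 * m) * (9 * s ^ (-(aa m + 1)))) * ((2 * m + 3) * Λ * (1 / s)) ^ j := by
        gcongr
    _ = 9 * C * (m + 1) * ρ ^ (2 * m) * ((2 * m + 3) * Λ) ^ j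
        * (s ^ (-(aa m + 1)) * (1 / s) ^ j) := by rw [mul_pow _ (1 / s)]; ring
    _ ≤ _ := by gcongr

theorem AOut_ode {m : ℕ} {om S : ℝ} {c : ℂ} {v : ℝ → ℂ} (h : OutS m om S c v) {s : ℝ}
    (hs : 1 < s) :
    (s : ℂ) * deriv (deriv fun t => v t - c * UU (al m om) 6 t) s
      + (6 + I * s) * deriv (fun t => v t - c * UU (al m om) 6 t) s
      + I * al m om * (v s - c * UU (al m om) 6 s)
      = ((cutS S s * kap (‖v s‖ ^ (2 * m)) : ℝ) : ℂ) * v s := by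
  have hU := U_smooth (al_re_gt m om)
  have h1 := AOut_iter c h.smooth hU 1 hs
  have h2 := AOut_iter c h.smooth hU 2 hs
  simp only [iteratedDeriv_succ, iteratedDeriv_zero] at h1 h2
  rw [h1, h2, ← GG_add m om, ← h.ode s hs]
  have h3 := U_ode (al_re_gt m om) (s := s) (by linarith)
  linear_combination (-c) * h3

/-- the bootstrap -/
theorem AOut_boot {r : ℝ → ℂ} (hr : ContDiffOn ℝ ∞ r (Ioi 1)) {T a θ κ : ℝ} (_hT : 3 ≤ T)
    (hθ : 0 < θ) (hκ : 9 * κ ≤ θ / 2) (hz : ∀ s, T < s → r s = 0)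
    (step : ∀ s0, 3 ≤ s0 → (∀ j ≤ 8, ∀ s, s0 ≤ s → ‖iteratedDeriv j r s‖ ≤ θ * s ^ (-a - j)) →
      ∀ j ≤ 8, ‖iteratedDeriv j r s0‖ ≤ κ * s0 ^ (-a - j)) :
    ∀ j ≤ 8, ∀ s, 3 ≤ s → ‖iteratedDeriv j r s‖ ≤ θ * s ^ (-a - j) := by
  have hz' : ∀ j s, T < s → iteratedDeriv j r s = 0 := fun j s hs => by
    have h1 : r =ᶠ[𝓝 s] fun _ => 0 := (lt_mem_nhds hs).mono fun t ht => hz t ht
    rw [h1.iteratedDeriv_eq, iteratedDeriv_const, ite_self]
  set φ : ℝ → ℝ := fun t => ∑ j ∈ Finset.range 9, ‖iteratedDeriv j r t‖ * t ^ (a + j) with hφ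
  have back : ∀ s0, 3 ≤ s0 → (∀ t ∈ Icc s0 (T + 1), φ t ≤ θ) →
      ∀ j ≤ 8, ∀ s, s0 ≤ s → ‖iteratedDeriv j r s‖ ≤ θ * s ^ (-a - j) := by
    intro s0 hs0 h j hj s hs
    have hsp : 0 < s := by linarith
    rcases le_or_gt s (T + 1) with h1 | h1
    · have h2 : ‖iteratedDeriv j r s‖ * s ^ (a + j) ≤ θ :=
        (Finset.single_le_sum (f := fun j : ℕ => ‖iteratedDeriv j r s‖ * s ^ (a + j))
          (fun i _ => by positivity) (Finset.mem_range.2 (by omega))).trans (h s ⟨hs, h1⟩)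
      rw [show -a - j = -(a + j) by ring, Real.rpow_neg hsp.le, ← div_eq_mul_inv,
        le_div_iff₀ (by positivity)]
      exact h2
    · rw [hz' j s (by linarith), norm_zero]
      positivity
  have hc : ContinuousOn φ (Icc 3 (T + 1)) := by
    refine continuousOn_finsetSum _ fun j _ t ht => ContinuousAt.continuousWithinAt ?_
    exact (hasDeriv_iter hr (by linarith [ht.1]) j).continuousAt.norm.mul
      (Real.continuousAt_rpow_const _ _ (Or.inl (by linarith [ht.1])))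
  have hb := boot_back (θ1 := θ / 2) (θ2 := θ) hc (by linarith)
    (by simp only [hφ, hz' _ _ (lt_add_one T), norm_zero, zero_mul, Finset.sum_const_zero]
        exact hθ.le)
    (fun s hs h => by
      have hsp : 0 < s := by linarith [hs.1]
      have h1 := step s hs.1 (back s hs.1 h)
      calc φ s ≤ ∑ j ∈ Finset.range 9, κ := Finset.sum_le_sum fun j hj => by
            have h2 := h1 j (by have := Finset.mem_range.1 hj; omega)
            rw [show -a - j = -(a + j) by ring, Real.rpow_neg hsp.le, ← div_eq_mul_inv,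
              le_div_iff₀ (by positivity)] at h2
            exact h2
        _ ≤ θ / 2 := by simpa using hκ)
  exact back 3 le_rfl fun t ht => (hb t ht).trans (by linarith)

theorem AOut_wr {m : ℕ} {om : ℝ} {c : ℂ} {v : ℝ → ℂ} (hv : ContDiffOn ℝ ∞ v (Ioi 1)) {κ D : ℝ}
    (hκ : 0 ≤ κ) (_hD : 0 ≤ D)
    (h1 : ∀ j ≤ 1, ‖iteratedDeriv j (fun t => v t - c * UU (al m om) 6 t) 3‖ ≤ κ)
    (h2 : ∀ j ≤ 1, ‖iteratedDeriv j (UU (al m om) 6) 3‖ ≤ D) :
    ‖Wr m om v 3‖ ≤ 1458 * D * κ := by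
  have hU := U_smooth (al_re_gt m om)
  have e1 : dU (al m om) 6 3 = iteratedDeriv 1 (UU (al m om) 6) 3 := by
    rw [U_iter (al_re_gt m om) 0 (by norm_num), dU]
    simp
  have a0 := h1 0 zero_le_one
  have a1 := h1 1 le_rfl
  rw [AOut_iter c hv hU 1 (by norm_num)] at a1
  have b0 := h2 0 zero_le_one
  have b1 := h2 1 le_rfl
  rw [iteratedDeriv_zero] at a0 b0
  rw [iteratedDeriv_one (f := v)] at a1
  have e2 : Wr m om v 3 = ((3 : ℝ) : ℂ) ^ 6 * Complex.exp (I * (3 : ℝ)) *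
      ((v 3 - c * UU (al m om) 6 3) * iteratedDeriv 1 (UU (al m om) 6) 3
        - (deriv v 3 - c * iteratedDeriv 1 (UU (al m om) 6) 3) * UU (al m om) 6 3) := by
    rw [Wr, e1]
    ring
  rw [e2, norm_mul, norm_mul, norm_pow, mul_comm I, Complex.norm_exp_ofReal_mul_I, mul_one,
    Complex.norm_real, Real.norm_of_nonneg (by norm_num)]
  have h3 : ‖(v 3 - c * UU (al m om) 6 3) * iteratedDeriv 1 (UU (al m om) 6) 3
      - (deriv v 3 - c * iteratedDeriv 1 (UU (al m om) 6) 3) * UU (al m om) 6 3‖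
      ≤ κ * D + κ * D := by
    refine (norm_sub_le _ _).trans ?_
    rw [norm_mul, norm_mul]
    gcongr
  calc _ ≤ (3 : ℝ) ^ 6 * (κ * D + κ * D) := by gcongr
    _ = _ := by ring

theorem out_est {o1 o2 s1 s2 : ℝ} {b1 b2 : ℂ} (hB : Box o1 o2 s1 s2 b1 b2) {δ η : ℝ} (h0 : 0 < δ)
    (h1 : δ < 1) (hη : 0 < η) : ∃ B : ℝ, ∃ m0 : ℕ, ∀ m ≥ m0, ∀ om ∈ Icc o1 o2,
    UU (al m om) 6 3 ≠ 0 ∧ ∀ (S : ℝ) (ζ : ℂ) (v : ℝ → ℂ), 3 ≤ S → ‖ζ‖ ≤ 1 - δ →
      OutS m om S (ζ / UU (al m om) 6 3) v → ‖v 3 - ζ‖ ≤ η ∧ ‖Wr m om v 3‖ ≤ η ∧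
        ∀ s : ℝ, 3 ≤ s → OutB (1 - δ / 2) B (aa m) 9 v s := by
  obtain ⟨c0, hc0, m1, hm1⟩ := U_ratio hB (θ := δ / 4) (by positivity)
  obtain ⟨D, hD, hsym⟩ := U_sym
  obtain ⟨C, hC, hlin⟩ := lin_est
  obtain ⟨κ, hκ, k1, k2, k3⟩ : ∃ κ : ℝ, 0 < κ ∧ 9 * κ ≤ δ / 4 / 2 ∧ κ ≤ η ∧ 1458 * D * κ ≤ η := by
    refine ⟨min (δ / 72) (η / (1458 * D + 1)), by positivity, ?_, ?_, ?_⟩
    · linarith [min_le_left (δ / 72) (η / (1458 * D + 1))]
    · exact (min_le_right _ _).trans (div_le_self hη.le (by linarith))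
    · calc 1458 * D * min (δ / 72) (η / (1458 * D + 1)) ≤ (1458 * D + 1) * (η / (1458 * D + 1)) := by
            gcongr
            · linarith
            · exact min_le_right _ _
        _ = η := by field_simp
  obtain ⟨m2, hm2⟩ := AOut_src (ρ := 1 - δ / 2) (B := D / c0 + 1) (θ := κ / C) (by linarith)
    (by linarith) (by positivity)
  refine ⟨D / c0 + 1, max 1 (max m1 m2), fun m hm om hom => ?_⟩
  have hm0 : 1 ≤ m := (le_max_left _ _).trans hm
  obtain ⟨u1, u2⟩ := hm1 m (((le_max_left _ _).trans (le_max_right _ _)).trans hm) om hom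
  have hm2' := hm2 m (((le_max_right _ _).trans (le_max_right _ _)).trans hm) hm0
  have hUp : 0 < ‖UU (al m om) 6 3‖ := hc0.trans_le u1
  have hU0 : UU (al m om) 6 3 ≠ 0 := norm_pos_iff.1 hUp
  refine ⟨hU0, fun S ζ v hS hζ hv => ?_⟩
  have hom1 : om ∈ Icc (0.33 : ℝ) 0.34 := ⟨hB.ho1.trans hom.1, hom.2.trans hB.ho2⟩
  have hom2 : om ∈ Icc (0 : ℝ) 1 := ⟨by linarith [hom1.1], by linarith [hom1.2]⟩
  have hU := U_smooth (al_re_gt m om)
  have ha := aa_nonneg m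
  set c := ζ / UU (al m om) 6 3 with hc
  have hcn : ‖c‖ ≤ 1 / c0 := by
    rw [hc, norm_div]
    gcongr
    linarith
  have b0 : ∀ s, 3 ≤ s → ‖c * UU (al m om) 6 s‖ ≤ (1 - 3 * δ / 4) * (3 / s) ^ aa m := by
    intro s hs
    have p : 0 ≤ (3 / s) ^ aa m := by
      have : 0 < s := by linarith
      positivity
    calc ‖c * UU (al m om) 6 s‖ = ‖ζ‖ / ‖UU (al m om) 6 3‖ * ‖UU (al m om) 6 s‖ := by
          rw [norm_mul, hc, norm_div]
      _ ≤ (1 - δ) / ‖UU (al m om) 6 3‖ * ((1 + δ / 4) * (3 / s) ^ aa m * ‖UU (al m om) 6 3‖) := by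
          have : 0 ≤ 1 - δ := by linarith
          gcongr
          exact u2 s hs
      _ = (1 - δ) * (1 + δ / 4) * (3 / s) ^ aa m := by field_simp
      _ ≤ _ := by gcongr; nlinarith
  have b1 : ∀ s, 3 ≤ s → ∀ j ≤ 9,
      ‖c * iteratedDeriv j (UU (al m om) 6) s‖ ≤ D / c0 * s ^ (-aa m - j) := by
    intro s hs j hj
    have := hsym m hm0 om hom2 j hj s (by linarith)
    calc ‖c * iteratedDeriv j (UU (al m om) 6) s‖ ≤ 1 / c0 * (D * s ^ (-aa m - j)) := by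
          rw [norm_mul]; gcongr
      _ = _ := by ring
  have hr : ContDiffOn ℝ ∞ (fun t => v t - c * UU (al m om) 6 t) (Ioi 1) :=
    hv.smooth.sub (contDiffOn_const.mul (hU.mono (Ioi_subset_Ioi zero_le_one)))
  have hz : ∀ s, 2 * S < s → v s - c * UU (al m om) 6 s = 0 := fun s hs => by
    rw [hv.far s hs, sub_self]
  have step : ∀ s0, 3 ≤ s0 → (∀ j ≤ 8, ∀ s, s0 ≤ s →
      ‖iteratedDeriv j (fun t => v t - c * UU (al m om) 6 t) s‖ ≤ δ / 4 * s ^ (-aa m - j)) →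
      ∀ j ≤ 9, ∀ s, s0 ≤ s →
        ‖iteratedDeriv j (fun t => v t - c * UU (al m om) 6 t) s‖ ≤ κ * s ^ (-aa m - j) := by
    intro s0 hs0 h
    have := hlin m om _ _ s0 (2 * S) (κ / C) hm0 hom1 hs0 (by positivity) hr
      (fun s hs => AOut_ode hv hs) hz fun j hj s hs => hm2' S s v (by linarith) (hs0.trans hs)
        hv.smooth (AOut_outB hv.smooth hU h0 h1 ha (by positivity) (hs0.trans hs)
          (b0 s (hs0.trans hs)) (fun i hi => b1 s (hs0.trans hs) i (by omega))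
          fun i hi => h i hi s hs) j hj
    rwa [mul_div_cancel₀ _ hC.ne'] at this
  have fin := step 3 le_rfl (AOut_boot hr (T := 2 * S) (by linarith) (by positivity) k1 hz
    fun s0 hs0 h j hj => step s0 hs0 h j (by omega) s0 le_rfl)
  have p3 : ∀ j : ℕ, (3 : ℝ) ^ (-aa m - j) ≤ 1 := fun j =>
    Real.rpow_le_one_of_one_le_of_nonpos (by norm_num) (by
      have : (0 : ℝ) ≤ j := Nat.cast_nonneg j
      linarith)
  have fin3 : ∀ j ≤ 1, ‖iteratedDeriv j (fun t => v t - c * UU (al m om) 6 t) 3‖ ≤ κ :=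
    fun j hj => (fin j (by omega) 3 le_rfl).trans (mul_le_of_le_one_right hκ.le (p3 j))
  refine ⟨?_, ?_, fun s hs => ?_⟩
  · have := fin3 0 zero_le_one
    rw [iteratedDeriv_zero, hc, div_mul_cancel₀ _ hU0] at this
    exact this.trans k2
  · refine (AOut_wr hv.smooth hκ.le hD fin3 fun j hj => ?_).trans k3
    exact (hsym m hm0 om hom2 j (by omega) 3 (by norm_num)).trans
      (mul_le_of_le_one_right hD (p3 j))
  · refine AOut_outB hv.smooth hU h0 h1 ha (by positivity) hs (b0 s hs) (b1 s hs) fun j hj => ?_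
    refine (fin j hj s hs).trans ?_
    have : 0 < s := by linarith
    gcongr
    linarith

end Vale.Agent.P139.PA
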