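import Vale.Agent.P139.ADefs

open Complex MeasureTheory Filter Topology Set
open scoped ComplexConjugate ContDiff

namespace Vale.Agent.P139.PA

/-! The wall position.  μ s = sInf of f over [0,s] is jointly continuous (IsCompact.continuous_sInf),
0 ≤ psi ≤ 1, psi = 0 below 0.21, psi = 1 above 0.23. -/

theorem asig_psi_cont : Continuous psi := by
  unfold psi
  fun_prop

theorem asig_psi_nonneg (u : ℝ) : 0 ≤ psi u := le_max_left _ _

theorem asig_psi_le (u : ℝ) : psi u ≤ 1 := max_le zero_le_one (min_le_left _ _)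

theorem asig_psi_zero {u : ℝ} (h : u ≤ 0.21) : psi u = 0 :=
  max_eq_left ((min_le_right _ _).trans
    (div_nonpos_of_nonpos_of_nonneg (by linarith) (by norm_num)))

theorem asig_psi_one {u : ℝ} (h : 0.23 ≤ u) : psi u = 1 := by
  have : 1 ≤ (u - 0.21) / 0.02 := by
    rw [le_div_iff₀ (by norm_num)]
    linarith
  rw [psi, min_eq_left this, max_eq_right zero_le_one]

/-- running minimum -/
noncomputable def asigM (f : ℝ → ℝ) (s : ℝ) : ℝ := sInf ((fun u => f (s * u)) '' Icc 0 1)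

theorem asig_cont2 {Q : Type} [TopologicalSpace Q] {f : Q → ℝ → ℝ}
    (hf : Continuous fun p : Q × ℝ => f p.1 p.2) :
    Continuous fun p : Q × ℝ => psi (asigM (f p.1) p.2) := by
  refine asig_psi_cont.comp (isCompact_Icc.continuous_sInf
    (f := fun (p : Q × ℝ) (u : ℝ) => f p.1 (p.2 * u)) ?_)
  exact hf.comp (f := fun p : (Q × ℝ) × ℝ => (p.1.1, p.1.2 * p.2)) (by fun_prop)

theorem asig_cont1 {f : ℝ → ℝ} (hf : Continuous f) : Continuous fun s => psi (asigM f s) :=
  (asig_cont2 (Q := Unit) (f := fun _ => f) (hf.comp continuous_snd)).comp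
    (f := fun s : ℝ => ((), s)) (by fun_prop)

theorem asig_le {f : ℝ → ℝ} (hf : Continuous f) {s t : ℝ} (ht : t ∈ Icc 0 s) :
    asigM f s ≤ f t := by
  refine csInf_le (isCompact_Icc.image (by fun_prop)).bddBelow ?_
  rcases eq_or_lt_of_le (ht.1.trans ht.2) with h | h
  · refine ⟨0, left_mem_Icc.2 zero_le_one, ?_⟩
    have : t = 0 := le_antisymm (h ▸ ht.2) ht.1
    simp [this]
  · refine ⟨t / s, ⟨div_nonneg ht.1 h.le, (div_le_one h).2 ht.2⟩, ?_⟩
    simp only [mul_div_cancel₀ t h.ne']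

theorem asig_ge {f : ℝ → ℝ} {s c : ℝ} (hs : 0 ≤ s) (h : ∀ t ∈ Icc 0 s, c ≤ f t) :
    c ≤ asigM f s := by
  refine le_csInf ((nonempty_Icc.2 zero_le_one).image _) ?_
  rintro _ ⟨u, hu, rfl⟩
  exact h _ ⟨mul_nonneg hs hu.1, mul_le_of_le_one_right hs hu.2⟩

theorem asig_split {f : ℝ → ℝ} (hf : Continuous f) (t : ℝ) :
    sg f = (∫ s in (0 : ℝ)..t, psi (asigM f s)) + ∫ s in t..2.75, psi (asigM f s) :=
  (intervalIntegral.integral_add_adjacent_intervals ((asig_cont1 hf).intervalIntegrable _ _)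
    ((asig_cont1 hf).intervalIntegrable _ _)).symm

theorem asig_upper {f : ℝ → ℝ} (hf : Continuous f) {t : ℝ} (ht : t ∈ Icc (0 : ℝ) 2.75)
    (h : f t ≤ 0.21) : sg f ≤ t := by
  have h1 : ∫ s in (0 : ℝ)..t, psi (asigM f s) ≤ ∫ _ in (0 : ℝ)..t, (1 : ℝ) :=
    intervalIntegral.integral_mono_on ht.1 ((asig_cont1 hf).intervalIntegrable _ _)
      intervalIntegrable_const fun s _ => asig_psi_le _
  have h2 : ∫ s in t..2.75, psi (asigM f s) ≤ ∫ _ in t..2.75, (0 : ℝ) :=
    intervalIntegral.integral_mono_on ht.2 ((asig_cont1 hf).intervalIntegrable _ _)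
      intervalIntegrable_const fun s hs =>
        (asig_psi_zero ((asig_le hf ⟨ht.1, hs.1⟩).trans h)).le
  rw [asig_split hf t]
  simp only [intervalIntegral.integral_const, smul_eq_mul] at h1 h2
  linarith

theorem asig_lower {f : ℝ → ℝ} (hf : Continuous f) {t : ℝ} (ht : t ∈ Icc (0 : ℝ) 2.75)
    (h : ∀ s ∈ Icc 0 t, 0.23 ≤ f s) : t ≤ sg f := by
  have h1 : ∫ _ in (0 : ℝ)..t, (1 : ℝ) ≤ ∫ s in (0 : ℝ)..t, psi (asigM f s) :=
    intervalIntegral.integral_mono_on ht.1 intervalIntegrable_const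
      ((asig_cont1 hf).intervalIntegrable _ _) fun s hs =>
        (asig_psi_one (asig_ge hs.1 fun u hu => h u ⟨hu.1, hu.2.trans hs.2⟩)).ge
  have h2 : 0 ≤ ∫ s in t..2.75, psi (asigM f s) :=
    intervalIntegral.integral_nonneg ht.2 fun s _ => asig_psi_nonneg _
  rw [asig_split hf t]
  simp only [intervalIntegral.integral_const, smul_eq_mul] at h1
  linarith

theorem sg_cont {Q : Type} [TopologicalSpace Q] {f : Q → ℝ → ℝ}
    (hf : Continuous fun p : Q × ℝ => f p.1 p.2) : Continuous fun q => sg (f q) :=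
  intervalIntegral.continuous_parametric_intervalIntegral_of_continuous'
    (f := fun q s => psi (asigM (f q) s)) (asig_cont2 hf) 0 2.75

theorem sg_zero {f : ℝ → ℝ} (hf : Continuous f) (h : f 0 ≤ 0.21) : sg f = 0 :=
  le_antisymm (asig_upper hf ⟨le_rfl, by norm_num⟩ h)
    (intervalIntegral.integral_nonneg (by norm_num) fun _ _ => asig_psi_nonneg _)

theorem sg_top {f : ℝ → ℝ} (hf : Continuous f) (h : ∀ s ∈ Icc (0 : ℝ) 3, 0.23 ≤ f s) :
    sg f = 2.75 := by
  refine le_antisymm ?_ (asig_lower hf ⟨by norm_num, le_rfl⟩ fun s hs =>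
    h s ⟨hs.1, hs.2.trans (by norm_num)⟩)
  have h1 : ∫ s in (0 : ℝ)..2.75, psi (asigM f s) ≤ ∫ _ in (0 : ℝ)..2.75, (1 : ℝ) :=
    intervalIntegral.integral_mono_on (by norm_num) ((asig_cont1 hf).intervalIntegrable _ _)
      intervalIntegrable_const fun s _ => asig_psi_le _
  simp only [intervalIntegral.integral_const, smul_eq_mul, sub_zero, mul_one] at h1
  exact h1

/-- if f t ≤ 0.21 then sg f ≤ t; if f ≥ 0.23 on [0,t] then t ≤ sg f (t in [0,2.75]); use continuity
to move t a little -/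
theorem sg_wall {f : ℝ → ℝ} (hf : Continuous f) (h0 : 0 < sg f) (h1 : sg f < 2.75) :
    Wall f (sg f) := by
  constructor
  · have key : ∀ t ∈ Ico 0 (sg f), 0.21 ≤ f t := fun t ht => by
      by_contra hc
      have := asig_upper hf ⟨ht.1, ht.2.le.trans h1.le⟩ (not_le.1 hc).le
      linarith [ht.2]
    have hcl : IsClosed {t | 0.21 ≤ f t} := isClosed_le continuous_const hf
    have := hcl.closure_subset_iff.2 key
    rw [closure_Ico h0.ne] at this
    exact this
  · by_contra hc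
    push Not at hc
    have k1 : ∀ᶠ t in 𝓝[>] (sg f), 0.23 < f t :=
      ((hf.tendsto _).eventually (lt_mem_nhds (hc _ ⟨h0.le, le_rfl⟩))).filter_mono
        nhdsWithin_le_nhds
    obtain ⟨u, hu, hsub⟩ := (mem_nhdsGT_iff_exists_Ioc_subset).1
      (inter_mem k1 (Ioc_mem_nhdsGT h1))
    have hu' : sg f < u := hu
    have k2 := asig_lower hf (t := u) ⟨h0.le.trans hu'.le, (hsub ⟨hu', le_rfl⟩).2.2⟩
      fun s hs => by
        rcases le_or_gt s (sg f) with h | h
        · exact (hc s ⟨hs.1, h⟩).le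
        · exact le_of_lt (hsub ⟨h, hs.2⟩).1
    linarith

end Vale.Agent.P139.PA
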