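import Vale.Agent.P139.AU

open Complex MeasureTheory Filter Topology Set
open scoped ComplexConjugate ContDiff

namespace Vale.Agent.P139.PA

/-! The Wronskian mismatch is close to Hf.  (Wr w)' = -s^5 exp (i s) kap (|w|^2m) w UU (GG_add, UU_ode,
UU_deriv, dU_deriv); on [σ,3] |w|^2m ≤ 1 and ≤ exp (-m τ^2 / 250) for s ≥ σ + τ; at σ:
gf - Hf = -σ exp (-i σ) σ^-6 (Wr 3 - Wr σ - e) / (w U0) - σ (dU α - dU0 - (w'/w) UU α) / U0, U0 = UU (-I om) 6 σ is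
bounded below on the box (Box.une, U_cont), dU_cont uniformly. -/

theorem Wr_deriv {m : ℕ} {om P0 : ℝ} {w : ℝ → ℂ} (h : Inn m om P0 w) {s : ℝ} (hs : 0 < s) :
    HasDerivAt (Wr m om w) (-((s : ℂ) ^ 5 * Complex.exp (I * s) *
      (((kap (‖w s‖ ^ (2 * m)) : ℝ) : ℂ) * w s * UU (al m om) 6 s))) s := by
  have h1 : HasDerivAt (fun t : ℝ => (t : ℂ)) 1 s := ofRealCLM.hasDerivAt
  have hw1 : HasDerivAt w (deriv w s) s := (h.smooth.differentiable (by simp) s).hasDerivAt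
  have hw2 : HasDerivAt (deriv w) (deriv (deriv w) s) s :=
    ((contDiff_infty_iff_deriv.1 h.smooth).2.differentiable (by simp) s).hasDerivAt
  have h3 := ((h1.fun_pow 6).fun_mul (h1.const_mul I).cexp).fun_mul
    ((hw1.fun_mul (dU_deriv (al_re_gt m om) 6 hs)).fun_sub
      (hw2.fun_mul (UU_deriv (al_re_gt m om) 6 hs)))
  refine h3.congr_deriv ?_
  have e1 := UU_ode (al m om) 6 s
  have e2 := h.ode s
  have e3 := GG_add m om 1 (w s)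
  rw [one_mul] at e3
  push_cast
  linear_combination ((s : ℂ) ^ 5 * Complex.exp (I * s)) *
    (w s * e1 - UU (al m om) 6 s * e2 - UU (al m om) 6 s * e3)

theorem AWr_mvt {m : ℕ} {om P0 : ℝ} {w : ℝ → ℂ} (h : Inn m om P0 w) {a b M q : ℝ} (ha : 0 < a)
    (hab : a ≤ b) (hb : b ≤ 3) (hq : q ≤ 1)
    (hU : ∀ t ∈ Icc a b, ‖UU (al m om) 6 t‖ ≤ M) (hw : ∀ t ∈ Icc a b, ‖w t‖ ≤ q) :
    ‖Wr m om w b - Wr m om w a‖ ≤ 243 * M * q ^ (2 * m) * (b - a) := by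
  have h1 := norm_sub_le_of_deriv (g := fun t => 243 * M * q ^ (2 * m) * t) hab
    (fun t ht => Wr_deriv h (ha.trans_le ht.1))
    (fun t _ => (hasDerivAt_id' t).const_mul (243 * M * q ^ (2 * m))) fun t ht => by
      have ht0 : 0 < t := ha.trans_le ht.1
      have h2 : ‖w t‖ ≤ 1 := (hw t ht).trans hq
      have h3 : ‖w t‖ ^ (2 * m) ≤ 1 := pow_le_one₀ (norm_nonneg _) h2
      have h4 : ‖w t‖ ^ (2 * m) ≤ q ^ (2 * m) := pow_le_pow_left₀ (norm_nonneg _) (hw t ht) _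
      have h5 : t ^ 5 ≤ 243 :=
        (pow_le_pow_left₀ ht0.le (ht.2.trans hb) 5).trans_eq (by norm_num)
      have h6 : 0 ≤ q ^ (2 * m) := (by positivity : 0 ≤ ‖w t‖ ^ (2 * m)).trans h4
      rw [norm_neg, norm_mul, norm_mul, norm_mul, norm_mul, mul_comm I, norm_exp_ofReal_mul_I,
        norm_pow, norm_real, norm_real, kap_of_le (by linarith), Real.norm_of_nonneg ht0.le,
        Real.norm_of_nonneg (by positivity)]
      have h7 := mul_le_mul h5 (mul_le_mul (mul_le_mul h4 h2 (norm_nonneg _) h6) (hU t ht)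
        (norm_nonneg _) (by positivity)) (by positivity) (by norm_num)
      linarith
  linarith

theorem AWr_alg {σ θ M c0 X : ℝ} {W3 e w w1 U dU U0 dU0 : ℂ} (h1 : 1 ≤ σ) (h3 : σ ≤ 3)
    (hθ : 0 ≤ θ) (hc : 0 < c0) (hw : 1 / 2 ≤ ‖w‖) (hw1 : ‖w1‖ ≤ θ * ‖w‖)
    (hU : ‖U‖ ≤ M) (hU0 : c0 ≤ ‖U0‖) (hd : ‖dU - dU0‖ ≤ θ) (he : ‖e‖ ≤ θ)
    (hW : ‖W3 - (σ : ℂ) ^ 6 * Complex.exp (I * σ) * (w * dU - w1 * U)‖ ≤ X) :
    ‖-σ * Complex.exp (-I * σ) / (σ : ℂ) ^ 6 * (W3 - e) / (w * U0) - -σ * dU0 / U0‖ ≤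
      (2 * (X + θ) + 3 * (θ + θ * M)) / c0 := by
  have hσ : 0 < σ := by linarith
  have hσ' : (σ : ℂ) ≠ 0 := ofReal_ne_zero.2 hσ.ne'
  have hw0 : 0 < ‖w‖ := by linarith
  have hw' : w ≠ 0 := norm_pos_iff.1 hw0
  have hU1 : 0 < ‖U0‖ := by linarith
  have hU' : U0 ≠ 0 := norm_pos_iff.1 hU1
  have hE : Complex.exp (-I * σ) = (Complex.exp (I * σ))⁻¹ := by rw [← Complex.exp_neg, neg_mul]
  have hE0 := Complex.exp_ne_zero (I * σ)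
  have hn : ‖Complex.exp (I * σ)‖ = 1 := by rw [mul_comm, norm_exp_ofReal_mul_I]
  set Y := W3 - (σ : ℂ) ^ 6 * Complex.exp (I * σ) * (w * dU - w1 * U) with hY
  have key : -σ * Complex.exp (-I * σ) / (σ : ℂ) ^ 6 * (W3 - e) / (w * U0) - -σ * dU0 / U0 =
      (-(((σ : ℂ) ^ 5)⁻¹ * (Complex.exp (I * σ))⁻¹ * ((Y - e) / w)) -
        σ * (dU - dU0 - w1 / w * U)) / U0 := by
    rw [hE, hY]
    field_simp
    ring
  rw [key, norm_div]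
  have hX : 0 ≤ X := (norm_nonneg _).trans hW
  have hM : 0 ≤ M := (norm_nonneg _).trans hU
  refine div_le_div₀ (by positivity) ((norm_sub_le _ _).trans (add_le_add ?_ ?_)) hc hU0
  · rw [norm_neg, norm_mul, norm_mul, norm_inv, norm_inv, hn, inv_one, mul_one, norm_pow, norm_real,
      Real.norm_of_nonneg hσ.le, norm_div]
    have h5 : (σ ^ 5)⁻¹ ≤ 1 := inv_le_one_of_one_le₀ (one_le_pow₀ h1)
    refine (mul_le_of_le_one_left (by positivity) h5).trans ?_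
    rw [div_le_iff₀ hw0]
    have h6 := norm_sub_le Y e
    have h7 := mul_le_mul_of_nonneg_left hw (by positivity : 0 ≤ 2 * (X + θ))
    linarith
  · rw [norm_mul, norm_real, Real.norm_of_nonneg hσ.le]
    refine mul_le_mul h3 ((norm_sub_le _ _).trans (add_le_add hd ?_)) (norm_nonneg _) (by norm_num)
    rw [norm_mul, norm_div]
    exact mul_le_mul ((div_le_iff₀ hw0).2 hw1) hU (norm_nonneg _) hθ

theorem AWr_low {o1 o2 s1 s2 : ℝ} {b1 b2 : ℂ} (hB : Box o1 o2 s1 s2 b1 b2) :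
    ∃ c0 : ℝ, 0 < c0 ∧ ∀ om ∈ Icc o1 o2, ∀ σ ∈ Icc s1 s2, c0 ≤ ‖UU (-I * om) 6 σ‖ := by
  have h1 : ContinuousOn (fun p : ℝ × ℝ => ‖UU (-I * p.1) 6 p.2‖) (Icc o1 o2 ×ˢ Icc s1 s2) := by
    refine (U_cont.comp (f := fun p : ℝ × ℝ => ((-I * p.1 : ℂ), p.2)) (by fun_prop)
      fun p hp => ⟨by simp, ?_⟩).norm
    linarith [hB.hs1, hp.2.1]
  obtain ⟨c0, hc, h⟩ := (isCompact_Icc.prod isCompact_Icc).exists_forall_le' h1 (a := 0)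
    fun p hp => norm_pos_iff.2 (hB.une _ hp.1 _ (hB.hs1.trans hp.2.1))
  exact ⟨c0, hc, fun om hom σ hσ => h (om, σ) ⟨hom, hσ⟩⟩

theorem AWr_maps {o1 o2 s1 : ℝ} (hs : 0 < s1) :
    MapsTo (fun p : ℝ × ℝ × ℝ => (((p.1 : ℂ) - I * p.2.1 : ℂ), p.2.2))
      (Icc (0 : ℝ) 1 ×ˢ Icc o1 o2 ×ˢ Icc s1 3) {p : ℂ × ℝ | -1 < p.1.re ∧ 0 < p.2} := by
  refine fun p hp => ⟨?_, hs.trans_le hp.2.2.1⟩
  have := hp.1.1
  simp
  linarith

theorem AWr_up (o1 o2 : ℝ) {s1 : ℝ} (hs : 0 < s1) : ∃ M : ℝ, ∀ a ∈ Icc (0 : ℝ) 1,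
    ∀ om ∈ Icc o1 o2, ∀ s ∈ Icc s1 3, ‖UU ((a : ℂ) - I * om) 6 s‖ ≤ M := by
  obtain ⟨M, hM⟩ := (isCompact_Icc.prod (isCompact_Icc.prod isCompact_Icc)).exists_bound_of_continuousOn
    (U_cont.comp (by fun_prop) (AWr_maps (o1 := o1) (o2 := o2) hs))
  exact ⟨M, fun a ha om hom s hs => hM (a, om, s) ⟨ha, hom, hs⟩⟩

theorem AWr_unif (o1 o2 : ℝ) {s1 θ : ℝ} (hs : 0 < s1) (hθ : 0 < θ) : ∃ δ : ℝ, 0 < δ ∧
    ∀ a ∈ Icc (0 : ℝ) 1, a < δ → ∀ om ∈ Icc o1 o2, ∀ s ∈ Icc s1 3,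
      ‖dU ((a : ℂ) - I * om) 6 s - dU (-I * om) 6 s‖ ≤ θ := by
  obtain ⟨δ, hδ, h⟩ := Metric.uniformContinuousOn_iff.1
    ((isCompact_Icc.prod (isCompact_Icc.prod isCompact_Icc)).uniformContinuousOn_of_continuous
      (dU_cont.comp (by fun_prop) (AWr_maps (o1 := o1) (o2 := o2) hs))) θ hθ
  refine ⟨δ, hδ, fun a ha haδ om hom s hs => ?_⟩
  have h1 := h (a, om, s) ⟨ha, hom, hs⟩ (0, om, s) ⟨⟨le_rfl, zero_le_one⟩, hom, hs⟩ (by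
    simpa [Prod.dist_eq, abs_of_nonneg ha.1, hδ] using haδ)
  rw [dist_eq_norm] at h1
  simpa using h1.le

theorem wr_est {o1 o2 s1 s2 : ℝ} {b1 b2 : ℂ} (hB : Box o1 o2 s1 s2 b1 b2) {η : ℝ} (hη : 0 < η) :
    ∃ η' : ℝ, 0 < η' ∧ ∃ m0 : ℕ, ∀ m ≥ m0, ∀ om ∈ Icc o1 o2, ∀ σ ∈ Icc s1 s2,
      ∀ (P0 : ℝ) (w : ℝ → ℂ) (e : ℂ), Inn m om P0 w → InG η' m σ w → ‖e‖ ≤ η' →
        ‖gf m om σ w e - Hf om σ‖ ≤ η := by
  have hs1 : 0 < s1 := by linarith [hB.hs1]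
  obtain ⟨c0, hc, hU0⟩ := AWr_low hB
  obtain ⟨M, hM⟩ := AWr_up o1 o2 hs1
  have hM0 : 0 ≤ M := (norm_nonneg _).trans (hM 0 ⟨le_rfl, zero_le_one⟩ o1 ⟨le_rfl, hB.ho.le⟩ s1
    ⟨le_rfl, by linarith [hB.hs, hB.hs2]⟩)
  obtain ⟨θ, hθ, hθ1, hθ2⟩ : ∃ θ : ℝ, 0 < θ ∧ θ ≤ 0.2 ∧ 1000 * (M + 1) * θ ≤ η * c0 :=
    ⟨min 0.2 (η * c0 / (1000 * (M + 1))), by positivity, min_le_left _ _,
      (le_div_iff₀' (by positivity)).1 (min_le_right _ _)⟩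
  obtain ⟨δ, hδ, hd⟩ := AWr_unif o1 o2 hs1 hθ
  obtain ⟨m1, -, hm1⟩ := aa_small (θ := min (δ / 2) 1) (by positivity)
  have hq0 : 0 ≤ Real.exp (-θ ^ 2 / 500) := (Real.exp_pos _).le
  have hq1 : Real.exp (-θ ^ 2 / 500) < 1 := Real.exp_lt_one_iff.2 (by
    have : 0 < θ ^ 2 := by positivity
    linarith)
  obtain ⟨m2, hm2⟩ := eventually_atTop.1
    ((tendsto_pow_atTop_nhds_zero_of_lt_one hq0 hq1).eventually (ge_mem_nhds hθ))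
  refine ⟨θ, hθ, max m1 m2, fun m hm om hom σ hσ P0 w e hI hG he => ?_⟩
  have ha := hm1 m (le_of_max_le_left hm)
  have ha1 : aa m ∈ Icc (0 : ℝ) 1 := ⟨aa_nonneg m, ha.trans (min_le_right _ _)⟩
  have ha2 : aa m < δ := (ha.trans (min_le_left _ _)).trans_lt (by linarith)
  have hσ1 : 2.7 ≤ σ := hB.hs1.trans hσ.1
  have hσ2 : σ ≤ 2.71 := hσ.2.trans hB.hs2
  have hσ3 : σ ∈ Icc s1 3 := ⟨hσ.1, by linarith⟩
  have h1 := AWr_mvt hI (a := σ) (b := σ + θ) (M := M) (q := 1) (by linarith) (by linarith)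
    (by linarith) le_rfl
    (fun t ht => hM _ ha1 om hom t ⟨hσ.1.trans ht.1, by linarith [ht.2]⟩)
    fun t ht => hG.hi t ⟨by linarith [ht.1], by linarith [ht.2]⟩
  have h2 := AWr_mvt hI (a := σ + θ) (b := 3) (M := M) (q := Real.exp (-θ ^ 2 / 500))
    (by linarith) (by linarith) le_rfl hq1.le
    (fun t ht => hM _ ha1 om hom t ⟨by linarith [ht.1, hσ.1], ht.2⟩)
    fun t ht => (hG.out t ⟨by linarith [ht.1], ht.2⟩).2.trans (Real.exp_le_exp.2 (by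
      have := pow_le_pow_left₀ hθ.le (by linarith [ht.1] : θ ≤ t - σ) 2
      linarith))
  have h3 := hm2 (2 * m) (by have := le_of_max_le_right hm; omega)
  have h4 : 243 * M * Real.exp (-θ ^ 2 / 500) ^ (2 * m) * (3 - (σ + θ)) ≤ 243 * M * θ * 1 :=
    mul_le_mul (mul_le_mul_of_nonneg_left h3 (by positivity)) (by linarith) (by linarith)
      (by positivity)
  have h5 : ‖Wr m om w 3 - Wr m om w σ‖ ≤ 486 * M * θ := by
    have := norm_sub_le_norm_sub_add_norm_sub (Wr m om w 3) (Wr m om w (σ + θ)) (Wr m om w σ)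
    rw [one_pow] at h1
    linarith
  have h6 := AWr_alg (by linarith) hσ3.2 hθ.le hc (hG.lo σ ⟨by linarith, hσ3.2⟩)
    (hG.core σ ⟨by linarith, le_rfl⟩).2 (hM _ ha1 om hom σ hσ3) (hU0 om hom σ hσ)
    (hd _ ha1 ha2 om hom σ hσ3) he h5
  refine le_trans h6 ((div_le_iff₀ hc).2 ?_)
  have h7 : 0 ≤ M * θ := by positivity
  linarith

end Vale.Agent.P139.PA
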