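import Vale.Agent.P139.AInn
import Vale.Agent.P139.AGamma
import Vale.Agent.P139.ASig
import Vale.Agent.P139.ABr
import Vale.Agent.P139.AOde
import Vale.Agent.P139.AOut
import Vale.Agent.P139.AWr

open Complex MeasureTheory Filter Topology Set
open scoped ComplexConjugate ContDiff

namespace Vale.Agent.P139.PA

/-! Matching for each S, and the limit S → ∞. -/

theorem AMatch_exp {σ : ℝ} (h : σ ≤ 2.71) : Real.exp (-(3 - σ) ^ 2 / 500) ≤ 1 - 2 * 0.00008 := by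
  have h1 : (0.29 : ℝ) ^ 2 ≤ (3 - σ) ^ 2 := pow_le_pow_left₀ (by norm_num) (by linarith) 2
  have h2 : Real.exp (-(3 - σ) ^ 2 / 500) ≤ Real.exp (-0.0001682) :=
    Real.exp_le_exp.2 (by linarith)
  have h3 : (1 : ℝ) + 0.0001682 ≤ Real.exp 0.0001682 := by
    have := Real.add_one_le_exp (0.0001682 : ℝ)
    linarith
  refine h2.trans ?_
  rw [Real.exp_neg, inv_le_comm₀ (Real.exp_pos _) (by norm_num)]
  refine le_trans ?_ h3
  norm_num

theorem AMatch_cU {Q : Type} [TopologicalSpace Q] {α : Q → ℂ} {s : Q → ℝ} (h1 : Continuous α)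
    (h2 : Continuous s) (h3 : ∀ q, -1 < (α q).re) (h4 : ∀ q, 0 < s q) :
    Continuous (fun q => UU (α q) 6 (s q)) ∧ Continuous (fun q => dU (α q) 6 (s q)) :=
  ⟨U_cont.comp_continuous (f := fun q => (α q, s q)) (h1.prodMk h2) fun q => ⟨h3 q, h4 q⟩,
    dU_cont.comp_continuous (f := fun q => (α q, s q)) (h1.prodMk h2) fun q => ⟨h3 q, h4 q⟩⟩

theorem AMatch_al {Q : Type} [TopologicalSpace Q] (m : ℕ) {om : Q → ℝ} (h : Continuous om) :
    Continuous fun q => al m (om q) := by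
  unfold al
  fun_prop

theorem AMatch_Wr {Q : Type} [TopologicalSpace Q] (m : ℕ) {om : Q → ℝ} (h : Continuous om)
    {X : Q → ℝ → ℂ} (h1 : Continuous fun q => X q 3) (h2 : Continuous fun q => deriv (X q) 3) :
    Continuous fun q => Wr m (om q) (X q) 3 := by
  obtain ⟨c1, c2⟩ := AMatch_cU (s := fun _ => (3 : ℝ)) (AMatch_al m h) continuous_const
    (fun q => al_re_gt m _) (fun _ => by norm_num)
  unfold Wr
  exact continuous_const.mul ((h1.mul c2).sub (h2.mul c1))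

theorem AMatch_gf {Q : Type} [TopologicalSpace Q] (m : ℕ) {om σ : Q → ℝ} (h : Continuous om)
    (hσ : Continuous σ) (hσ0 : ∀ q, 0 < σ q) {W : Q → ℝ → ℂ} {e : Q → ℂ} (he : Continuous e)
    (h1 : Continuous fun q => W q 3) (h2 : Continuous fun q => deriv (W q) 3)
    (h3 : Continuous fun q => W q (σ q)) (h4 : ∀ q, W q (σ q) ≠ 0)
    (h5 : ∀ q, UU (-I * om q) 6 (σ q) ≠ 0) :
    Continuous fun q => gf m (om q) (σ q) (W q) (e q) := by
  have c1 := (AMatch_cU (α := fun q => -I * (om q : ℂ)) (s := σ) (by fun_prop) hσ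
    (fun q => by simp) hσ0).1
  have c2 := AMatch_Wr m h h1 h2
  have c3 : Continuous fun q => ((σ q : ℝ) : ℂ) := continuous_ofReal.comp hσ
  unfold gf
  refine Continuous.div (Continuous.mul (Continuous.div (by fun_prop) (c3.pow 6) fun q => ?_)
    (c2.sub he)) (h3.mul c1) fun q => mul_ne_zero (h4 q) (h5 q)
  exact pow_ne_zero _ (ofReal_ne_zero.2 (hσ0 q).ne')

theorem AMatch_zero {m : ℕ} {om σ : ℝ} {w v : ℝ → ℂ} (hσ : 0 < σ) (h1 : w σ ≠ 0)
    (h2 : UU (-I * om) 6 σ ≠ 0) (h3 : UU (al m om) 6 3 ≠ 0) (h4 : w 3 = v 3)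
    (h : gf m om σ w (Wr m om v 3) = 0) : deriv w 3 = deriv v 3 := by
  have hs : (σ : ℂ) ≠ 0 := ofReal_ne_zero.2 hσ.ne'
  unfold gf at h
  rw [div_eq_zero_iff, mul_eq_zero] at h
  have h5 : Wr m om w 3 - Wr m om v 3 = 0 := by
    rcases h with (h | h) | h
    · exact absurd h (div_ne_zero (mul_ne_zero (neg_ne_zero.2 hs) (Complex.exp_ne_zero _))
        (pow_ne_zero _ hs))
    · exact h
    · exact absurd h (mul_ne_zero h1 h2)
  unfold Wr at h5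
  rw [h4, ← mul_sub, mul_eq_zero] at h5
  rcases h5 with h5 | h5
  · exact absurd h5 (mul_ne_zero (by norm_num) (Complex.exp_ne_zero _))
  · apply mul_right_cancel₀ h3
    linear_combination -h5

theorem match_S {o1 o2 s1 s2 : ℝ} {b1 b2 : ℂ} (hB : Box o1 o2 s1 s2 b1 b2) {η : ℝ} (hη : 0 < η) :
    ∃ ρ B : ℝ, 0 < ρ ∧ ρ < 1 ∧ ∃ m0 : ℕ, ∀ m ≥ m0, ∀ W : QI o1 o2 → ℝ → ℂ,
      Continuous (fun p : QI o1 o2 × ℝ => W p.1 p.2) →
      Continuous (fun p : QI o1 o2 × ℝ => deriv (W p.1) p.2) →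
      (∀ q : QI o1 o2, Inn m q.2 (0.1 + 0.7 * q.1) (W q)) → ∀ S : ℝ, 3 ≤ S →
      ∃ q : QI o1 o2, sg (fun s => ‖W q s‖ ^ (2 * m)) ∈ Icc s1 s2 ∧
        ‖Hf q.2 (sg fun s => ‖W q s‖ ^ (2 * m))‖ ≤ η ∧
        ∀ s ∈ Ioo 3 S, OutB ρ B (aa m) 9 (W q) s := by
  obtain ⟨ηb, hηb, hbr⟩ := brouwer_box hB.ho hB.hs (Hf_cont hB) hB.f1 hB.f2 hB.indep
  obtain ⟨η', hη', m1, hwr⟩ := wr_est hB (lt_min hη hηb)
  have h2 : 0 < min η' 0.00008 := lt_min hη' (by norm_num)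
  have h3 : min η' 0.00008 ≤ η' := min_le_left _ _
  have h4 : min η' 0.00008 ≤ 0.00008 := min_le_right _ _
  generalize min η' 0.00008 = θ at h2 h3 h4
  obtain ⟨m2, hgood⟩ := inner_good h2 (by linarith)
  obtain ⟨m3, htop⟩ := inner_top
  obtain ⟨B, m4, hout⟩ := out_est hB (δ := 0.00008) (by norm_num) (by norm_num) h2
  refine ⟨1 - 0.00008 / 2, B, by norm_num, by norm_num, m1 + m2 + m3 + m4 + 1,
    fun m hm W hW hW' hI S hS => ?_⟩
  have hm1 : 1 ≤ m := by omega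
  have hom : ∀ q : QI o1 o2, (q.2 : ℝ) ∈ Icc (0.33 : ℝ) 0.34 := fun q =>
    ⟨hB.ho1.trans q.2.2.1, q.2.2.2.trans hB.ho2⟩
  have hom1 : ∀ q : QI o1 o2, (q.2 : ℝ) ∈ Icc (0 : ℝ) 1 := fun q =>
    ⟨by linarith [(hom q).1], by linarith [(hom q).2]⟩
  have hP : ∀ q : QI o1 o2, (0 : ℝ) < 0.1 + 0.7 * q.1 ∧ (0.1 + 0.7 * q.1 : ℝ) ≤ 0.8 := fun q =>
    ⟨by linarith [q.1.2.1], by linarith [q.1.2.2]⟩
  have hU3 : ∀ q : QI o1 o2, UU (al m q.2) 6 3 ≠ 0 := fun q => (hout m (by omega) _ q.2.2).1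
  have co : Continuous fun p : QI o1 o2 × Metric.closedBall (0 : ℂ) (1 - 0.00008) =>
      (p.1.2 : ℝ) := by fun_prop
  have cz : Continuous fun p : QI o1 o2 × Metric.closedBall (0 : ℂ) (1 - 0.00008) =>
      (p.2 : ℂ) := by fun_prop
  have cU := (AMatch_cU (s := fun _ => (3 : ℝ)) (AMatch_al m co) continuous_const
    (fun q => al_re_gt m _) (fun _ => by norm_num)).1
  obtain ⟨X, hX, hX', hO⟩ := out_exists hm1 hS _ _ co (cz.div cU fun p => hU3 p.1)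
    fun p => hom1 p.1
  have cP : Continuous fun p : QI o1 o2 × ℝ => ‖W p.1 p.2‖ ^ (2 * m) := hW.norm.pow _
  have cσ : Continuous fun q : QI o1 o2 => sg fun s => ‖W q s‖ ^ (2 * m) :=
    sg_cont (f := fun q s => ‖W q s‖ ^ (2 * m)) cP
  have cq : ∀ q, Continuous fun s => ‖W q s‖ ^ (2 * m) := fun q =>
    (hI q).smooth.continuous.norm.pow _
  have hin : ∀ q : QI o1 o2, (sg fun s => ‖W q s‖ ^ (2 * m)) ∈ Icc s1 s2 →
      InG θ m (sg fun s => ‖W q s‖ ^ (2 * m)) (W q) := fun q hq =>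
    hgood m (by omega) _ _ _ _ (hom q) (hP q).1 (hP q).2 (hI q)
      ⟨hB.hs1.trans hq.1, hq.2.trans hB.hs2⟩
      (sg_wall (cq q) (by linarith [hB.hs1, hq.1]) (by linarith [hB.hs2, hq.2]))
  have hz0 : ∀ q : QI o1 o2, (q.1 : ℝ) = 0 → (sg fun s => ‖W q s‖ ^ (2 * m)) ≤ s1 := by
    intro q hq
    rw [sg_zero (cq q) (by rw [(hI q).init, hq]; norm_num)]
    linarith [hB.hs1]
  have hz1 : ∀ q : QI o1 o2, (q.1 : ℝ) = 1 → s2 ≤ sg fun s => ‖W q s‖ ^ (2 * m) := by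
    intro q hq
    have h5 := hI q
    rw [hq, show (0.1 + 0.7 * 1 : ℝ) = 0.8 by norm_num] at h5
    rw [sg_top (cq q) fun s hs => le_trans (by norm_num) (htop m (by omega) _ _ (hom q) h5 s hs)]
    linarith [hB.hs2]
  generalize hσ : (fun q : QI o1 o2 => sg fun s => ‖W q s‖ ^ (2 * m)) = σ at cσ
  have eσ : ∀ q, (sg fun s => ‖W q s‖ ^ (2 * m)) = σ q := fun q => congrFun hσ q
  simp only [eσ] at hin hz0 hz1 ⊢
  have cc : Continuous fun q : QI o1 o2 => max s1 (min (σ q) s2) := by fun_prop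
  have c0 : ∀ q : QI o1 o2, 2.7 ≤ max s1 (min (σ q) s2) := fun q => hB.hs1.trans (le_max_left _ _)
  have c1 : ∀ q : QI o1 o2, σ q ∈ Icc s1 s2 → max s1 (min (σ q) s2) = σ q := fun q hq => by
    rw [min_eq_left hq.2, max_eq_right hq.1]
  have cW : Continuous fun p : QI o1 o2 × Metric.closedBall (0 : ℂ) (1 - 0.00008) => W p.1 3 :=
    hW.comp (continuous_fst.prodMk continuous_const)
  have cW' : Continuous fun p : QI o1 o2 × Metric.closedBall (0 : ℂ) (1 - 0.00008) =>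
      deriv (W p.1) 3 := hW'.comp (continuous_fst.prodMk continuous_const)
  have cWc : Continuous fun p : QI o1 o2 × Metric.closedBall (0 : ℂ) (1 - 0.00008) =>
      W p.1 (max s1 (min (σ p.1) s2)) := hW.comp (continuous_fst.prodMk (cc.comp continuous_fst))
  have cg := AMatch_gf m co (cc.comp continuous_fst) (fun p => by
      have := c0 p.1
      simp only [Function.comp]
      linarith) (W := fun p => W p.1) (AMatch_Wr m co hX hX') cW cW' cWc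
    (fun p => (hI p.1).ne hm1 (hP p.1).1 (by
      have := c0 p.1
      simp only [Function.comp]
      linarith)) fun p => hB.une _ p.1.2.2 _ (c0 p.1)
  have hE : ∀ p : QI o1 o2 × Metric.closedBall (0 : ℂ) (1 - 0.00008), _ := fun p =>
    (hout m (by omega) _ p.1.2.2).2 S p.2 (X p) hS (mem_closedBall_zero_iff.1 p.2.2) (hO p)
  have hg : ∀ p : QI o1 o2 × Metric.closedBall (0 : ℂ) (1 - 0.00008), σ p.1 ∈ Icc s1 s2 →
      ‖gf m p.1.2 (σ p.1) (W p.1) (Wr m p.1.2 (X p) 3) - Hf p.1.2 (σ p.1)‖ ≤ min η ηb :=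
    fun p hp => hwr m (by omega) _ p.1.2.2 _ hp _ _ _ (hI p.1) ((hin p.1 hp).mono h3)
      ((hE p).2.1.trans h3)
  obtain ⟨p, hp, g0, v0⟩ := hbr (1 - 0.00008) (by norm_num) σ _
    (fun p => W p.1 3 - (X p 3 - p.2)) cσ cg (cW.sub (hX.sub cz)) hz0 hz1 fun p hp => by
      constructor
      · simp only [Function.comp, c1 p.1 hp]
        exact (hg p hp).trans (min_le_right _ _)
      · have h5 := ((hin p.1 hp).out 3 ⟨by linarith [hB.hs2, hp.2], le_rfl⟩).2.trans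
          (AMatch_exp (hp.2.trans hB.hs2))
        have h6 := (hE p).1
        have h7 := norm_sub_le (W p.1 3) (X p 3 - p.2)
        linarith
  simp only [Function.comp, c1 p.1 hp] at g0
  have hσ0 : 0 < σ p.1 := by linarith [hB.hs1, hp.1]
  have e0 : W p.1 3 = X p 3 := by linear_combination v0
  have e1 := AMatch_zero hσ0 ((hI p.1).ne hm1 (hP p.1).1 hσ0.le)
    (hB.une _ p.1.2.2 _ (hB.hs1.trans hp.1)) (hU3 p.1) e0 g0
  have e2 := in_eq_out hm1 (hom1 p.1) hS (hI p.1) (hO p) e0 e1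
  refine ⟨p.1, hp, ?_, fun s hs => ?_⟩
  · have h5 := hg p hp
    rw [g0, zero_sub, norm_neg] at h5
    exact h5.trans (min_le_left _ _)
  · have h5 : W p.1 =ᶠ[𝓝 s] X p :=
      mem_of_superset (Ioo_mem_nhds hs.1 hs.2) fun t ht => e2 t (Ioo_subset_Icc_self ht)
    obtain ⟨h6, h7⟩ := (hE p).2.2 s hs.1.le
    refine ⟨by rwa [h5.eq_of_nhds], fun j hj => ?_⟩
    rw [h5.iteratedDeriv_eq]
    exact h7 j hj

theorem match_lim {o1 o2 s1 s2 : ℝ} {b1 b2 : ℂ} (hB : Box o1 o2 s1 s2 b1 b2) {η : ℝ}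
    (hη : 0 < η) : ∃ ρ B : ℝ, 0 < ρ ∧ ρ < 1 ∧ ∃ m0 : ℕ, ∀ m ≥ m0, ∃ om ∈ Icc o1 o2,
      ∃ σ ∈ Icc s1 s2, ∃ P0 ∈ Icc (0.1 : ℝ) 0.8, ∃ w : ℝ → ℂ, Inn m om P0 w ∧
        Wall (fun s => ‖w s‖ ^ (2 * m)) σ ∧ ‖Hf om σ‖ ≤ η ∧
        ∀ s : ℝ, 3 < s → OutB ρ B (aa m) 8 w s := by
  obtain ⟨ρ, B, h0, h1, m0, hS⟩ := match_S hB hη
  refine ⟨ρ, B, h0, h1, m0 + 1, fun m hm => ?_⟩
  obtain ⟨W, hW, hW', hI⟩ := inn_exists (m := m) (by omega) (Q := QI o1 o2) (fun q => q.2)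
    (fun q => 0.1 + 0.7 * q.1) (by fun_prop) (by fun_prop)
    (fun q => ⟨by linarith [hB.ho1, q.2.2.1], by linarith [hB.ho2, q.2.2.2]⟩)
    (fun q => by linarith [q.1.2.1])
  choose q hq1 hq2 hq3 using fun n : ℕ => hS m (by omega) W hW hW' hI (n + 3)
    (by linarith [Nat.cast_nonneg (α := ℝ) n])
  obtain ⟨p, φ, hφ, hlim⟩ := CompactSpace.tendsto_subseq q
  have cσ : Continuous fun q : QI o1 o2 => sg fun s => ‖W q s‖ ^ (2 * m) :=
    sg_cont (f := fun q s => ‖W q s‖ ^ (2 * m)) (hW.norm.pow _)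
  have l1 := (cσ.tendsto p).comp hlim
  have hσ : (sg fun s => ‖W p s‖ ^ (2 * m)) ∈ Icc s1 s2 :=
    isClosed_Icc.mem_of_tendsto l1 (Eventually.of_forall fun n => hq1 (φ n))
  have l2 : Tendsto (fun n => ((q (φ n)).2 : ℝ)) atTop (𝓝 p.2) :=
    ((continuous_subtype_val.comp continuous_snd).tendsto p).comp hlim
  have l3 : Tendsto (fun n => (((q (φ n)).2 : ℝ), sg fun s => ‖W (q (φ n)) s‖ ^ (2 * m))) atTop
      (𝓝[Icc o1 o2 ×ˢ Icc s1 s2] ((p.2 : ℝ), sg fun s => ‖W p s‖ ^ (2 * m))) :=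
    tendsto_nhdsWithin_iff.2 ⟨l2.prodMk_nhds l1,
      Eventually.of_forall fun n => ⟨(q (φ n)).2.2, hq1 (φ n)⟩⟩
  have l4 := ((Hf_cont hB _ ⟨p.2.2, hσ⟩).tendsto.comp l3).norm
  refine ⟨p.2, p.2.2, _, hσ, 0.1 + 0.7 * p.1, ⟨by linarith [p.1.2.1], by linarith [p.1.2.2]⟩,
    W p, hI p, sg_wall ((hI p).smooth.continuous.norm.pow _) (by linarith [hB.hs1, hσ.1])
      (by linarith [hB.hs2, hσ.2]),
    le_of_tendsto l4 (Eventually.of_forall fun n => hq2 (φ n)), fun s hs => ?_⟩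
  have hev : ∀ᶠ n in atTop, s + 1 ≤ (φ n : ℝ) + 3 := by
    obtain ⟨N, hN⟩ := exists_nat_ge s
    refine eventually_atTop.2 ⟨N, fun n hn => ?_⟩
    have h5 : (N : ℝ) ≤ φ n := by exact_mod_cast hn.trans (hφ.id_le n)
    linarith
  have hpt : ∀ t, Tendsto (fun n => W (q (φ n)) t) atTop (𝓝 (W p t)) := fun t =>
    ((hW.comp (continuous_id.prodMk continuous_const)).tendsto p).comp hlim
  have hs' : s ∈ Ioo 3 (s + 1) := ⟨hs, by linarith⟩
  have hL := landau (K := 8) (M := |B|) (a := 3) (b := s + 1) (fun n => (hI (q (φ n))).smooth)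
    (hI p).smooth (fun t _ => hpt t) (hev.mono fun n hn j hj t ht => by
      have ht0 : 0 < t := by linarith [ht.1]
      refine ((hq3 (φ n) t ⟨ht.1, by linarith [ht.2]⟩).2 j hj).trans ?_
      have h5 : (3 / t) ^ aa m ≤ 1 :=
        Real.rpow_le_one (by positivity) ((div_le_one ht0).2 ht.1.le) (aa_nonneg m)
      have h6 : (1 / t) ^ j ≤ 1 :=
        pow_le_one₀ (by positivity) ((div_le_one ht0).2 (by linarith [ht.1]))
      calc B * (3 / t) ^ aa m * (1 / t) ^ j ≤ |B| * (3 / t) ^ aa m * (1 / t) ^ j := by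
            gcongr
            exact le_abs_self B
        _ ≤ |B| * 1 * 1 := by gcongr
        _ = |B| := by ring)
  have hb : ∀ᶠ n in atTop, OutB ρ B (aa m) 9 (W (q (φ n))) s :=
    hev.mono fun n hn => hq3 (φ n) s ⟨hs, by linarith⟩
  exact ⟨le_of_tendsto (hpt s).norm (hb.mono fun n hn => hn.1), fun j hj =>
    le_of_tendsto (hL j hj s hs').norm (hb.mono fun n hn => hn.2 j (by omega))⟩

end Vale.Agent.P139.PA
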