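import Vale.Agent.P139.ADefs

open Complex MeasureTheory Filter Topology Set
open scoped ComplexConjugate ContDiff

namespace Vale.Agent.P139.PA

/-! From the complex equation to the real system, and the basic identities of the real system. -/

theorem ARic_re {f : ℝ → ℂ} {f' : ℂ} {t : ℝ} (h : HasDerivAt f f' t) :
    HasDerivAt (fun t => (f t).re) f'.re t := reCLM.hasFDerivAt.comp_hasDerivAt t h

theorem ARic_im {f : ℝ → ℂ} {f' : ℂ} {t : ℝ} (h : HasDerivAt f f' t) :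
    HasDerivAt (fun t => (f t).im) f'.im t := imCLM.hasFDerivAt.comp_hasDerivAt t h

theorem ARic_d1 {w : ℝ → ℂ} (h : ContDiff ℝ ∞ w) (t : ℝ) : HasDerivAt w (deriv w t) t :=
  (h.differentiable (by simp) t).hasDerivAt

theorem ARic_d2 {w : ℝ → ℂ} (h : ContDiff ℝ ∞ w) (t : ℝ) :
    HasDerivAt (deriv w) (deriv (deriv w) t) t := ARic_d1 (contDiff_infty_iff_deriv.1 h).2 t

theorem ARic_aa {m : ℕ} (hm : 1 ≤ m) : aa m ≤ 1 / 2 := by
  have h1 := aa_mul hm
  have h2 := aa_nonneg m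
  have h3 : (1 : ℝ) ≤ m := by exact_mod_cast hm
  nlinarith

/-- J = s^6 (Im (conj w w') + |w|^2 / 2) has J' = (3 - a) s^5 |w|^2, J 0 = 0, w 0 ≠ 0 -/
theorem Inn.ne {m : ℕ} {om P0 : ℝ} {w : ℝ → ℂ} (hm : 1 ≤ m) (h : Inn m om P0 w) (hP : 0 < P0)
    {s : ℝ} (hs : 0 ≤ s) : w s ≠ 0 := by
  intro h0
  have hw0 : w 0 ≠ 0 := fun h1 => by
    have := h.init
    rw [h1, norm_zero, zero_pow (by omega)] at this
    linarith
  have hs0 : 0 < s := hs.lt_of_ne fun h1 => hw0 (h1 ▸ h0)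
  have ha := ARic_aa hm
  have hJ : ∀ t, HasDerivAt (fun t => t ^ 6 * ((w t).re * (deriv w t).im - (w t).im * (deriv w t).re +
      ((w t).re ^ 2 + (w t).im ^ 2) / 2)) ((3 - aa m) * t ^ 5 * ((w t).re ^ 2 + (w t).im ^ 2)) t :=
    fun t => by
      have d1 := ARic_d1 h.smooth t
      have d2 := ARic_d2 h.smooth t
      refine ((hasDerivAt_pow 6 t).fun_mul ((((ARic_re d1).fun_mul (ARic_im d2)).fun_sub
        ((ARic_im d1).fun_mul (ARic_re d2))).fun_add ((((ARic_re d1).fun_pow 2).fun_add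
        ((ARic_im d1).fun_pow 2)).div_const 2))).congr_deriv ?_
      have e1 := congrArg re (h.ode t)
      have e2 := congrArg im (h.ode t)
      generalize kap (‖w t‖ ^ (2 * m)) = k at e1 e2
      simp only [GG, add_re, mul_re, ofReal_re, ofReal_im, add_im, mul_im, I_re, I_im, sub_re,
        sub_im, re_ofNat, im_ofNat] at e1 e2
      push_cast
      linear_combination t ^ 5 * (w t).re * e2 - t ^ 5 * (w t).im * e1
  have hm' : ∀ a b : ℝ, 0 ≤ a → a ≤ b → (0 : ℝ) - 0 ≤ _ := fun a b h1 h2 =>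
    le_of_deriv h2 (fun t _ => hasDerivAt_const t (0 : ℝ)) (fun t _ => hJ t) fun t ht => by
      have := h1.trans ht.1
      have : 0 ≤ 3 - aa m := by linarith
      positivity
  have hz : ∀ t ∈ Ioo 0 s, w t = 0 := fun t ht => by
    have h1 := (hJ t).unique ((hasDerivAt_const t (0 : ℝ)).congr_of_eventuallyEq
      (mem_of_superset (Ioo_mem_nhds ht.1 ht.2) fun u hu => by
        have h2 := hm' 0 u le_rfl hu.1.le
        have h3 := hm' u s hu.1.le hu.2.le
        rw [h0] at h3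
        simp only [zero_re, zero_im] at h2 h3
        exact le_antisymm (by linarith) (by linarith)))
    have h2 : (w t).re ^ 2 + (w t).im ^ 2 = 0 :=
      (mul_eq_zero.1 h1).resolve_left (mul_pos (by linarith) (pow_pos ht.1 5)).ne'
    exact Complex.ext (by simp only [zero_re]; nlinarith) (by simp only [zero_im]; nlinarith)
  have h1 := (isClosed_eq h.smooth.continuous continuous_const).closure_subset_iff.2
    (show Ioo 0 s ⊆ {t | w t = 0} from hz)
  rw [closure_Ioo hs0.ne] at h1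
  exact hw0 (h1 ⟨le_rfl, hs⟩)

theorem ARic_norm {w : ℝ → ℂ} {w' : ℂ} {s : ℝ} (h : HasDerivAt w w' s) (h0 : w s ≠ 0) :
    HasDerivAt (fun t => ‖w t‖) ((w' / w s).re * ‖w s‖) s := by
  have h1 : 0 < ‖w s‖ := norm_pos_iff.2 h0
  have h2 := h.norm_sq.sqrt (pow_pos h1 2).ne'
  simp only [Real.sqrt_sq (norm_nonneg _)] at h2
  refine h2.congr_deriv ?_
  rw [div_re, normSq_eq_norm_sq, Complex.inner, mul_re, conj_re, conj_im]
  field_simp
  ring

theorem ARic_GG (m : ℕ) (om : ℝ) (w : ℂ) :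
    ‖GG m om 1 w‖ ≤ (|kap (‖w‖ ^ (2 * m)) - om| + aa m) * ‖w‖ := by
  rw [GG, norm_mul]
  refine mul_le_mul_of_nonneg_right ((norm_sub_le _ _).trans_eq ?_) (norm_nonneg _)
  rw [norm_mul, norm_I, one_mul, one_mul, norm_real, norm_real, Real.norm_eq_abs,
    Real.norm_of_nonneg (aa_nonneg m)]

/-- z = w'/w solves s z' + s z^2 + (6 + i s) z = kap - om - i a; for zb use
(s^6 exp (i s) w')' = s^5 exp (i s) GG and norm_sub_le_of_deriv -/
theorem Inn.ric {m : ℕ} {om P0 : ℝ} {w : ℝ → ℂ} (hm : 1 ≤ m) (h : Inn m om P0 w) (hP : 0 < P0) :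
    ∃ x1 y1 : ℝ → ℝ, Ric m om (fun s => ‖w s‖) (fun s => (deriv w s / w s).re)
      (fun s => (deriv w s / w s).im) (fun s => ‖deriv w s / w s‖) x1 y1 := by
  have hz : ∀ s, 0 ≤ s → HasDerivAt (fun s => deriv w s / w s)
      (deriv (deriv w) s / w s - (deriv w s / w s) ^ 2) s := fun s hs => by
    have h0 := h.ne hm hP hs
    refine ((ARic_d2 h.smooth s).fun_div (ARic_d1 h.smooth s) h0).congr_deriv ?_
    field_simp
  have he : ∀ s : ℝ, 0 ≤ s → s * (deriv (deriv w) s / w s - (deriv w s / w s) ^ 2) +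
      s * ((deriv w s / w s) * (deriv w s / w s)) + (6 + I * s) * (deriv w s / w s) =
      ((kap (‖w s‖ ^ (2 * m)) - om : ℝ) : ℂ) - I * aa m := fun s hs => by
    have h0 := h.ne hm hP hs
    have h1 := h.ode s
    rw [GG, one_mul, ← div_eq_iff h0] at h1
    rw [← h1]
    field_simp
    ring
  have hr : ∀ s, 0 ≤ s → ‖w s‖ * ‖deriv w s / w s‖ = ‖deriv w s‖ := fun s hs => by
    rw [← norm_mul, mul_div_cancel₀ _ (h.ne hm hP hs)]
  refine ⟨fun s => (deriv (deriv w) s / w s - (deriv w s / w s) ^ 2).re,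
    fun s => (deriv (deriv w) s / w s - (deriv w s / w s) ^ 2).im,
    fun s hs => norm_pos_iff.2 (h.ne hm hP hs),
    fun s hs => ARic_norm (ARic_d1 h.smooth s) (h.ne hm hP hs), fun s hs => ARic_re (hz s hs),
    fun s hs => ARic_im (hz s hs), fun s hs => ?_, fun s hs => ?_, fun s => abs_re_le_norm _,
    fun s => abs_im_le_norm _, fun s => norm_le_abs_re_add_abs_im _, fun σ s M hσ hs hM => ?_⟩
  · have e := congrArg re (he s hs)
    generalize deriv (deriv w) s / w s - (deriv w s / w s) ^ 2 = p at e ⊢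
    generalize deriv w s / w s = z at e ⊢
    simp only [add_re, mul_re, ofReal_re, ofReal_im, add_im, mul_im, I_re, I_im, sub_re,
      re_ofNat, im_ofNat] at e
    linear_combination e
  · have e := congrArg im (he s hs)
    generalize deriv (deriv w) s / w s - (deriv w s / w s) ^ 2 = p at e ⊢
    generalize deriv w s / w s = z at e ⊢
    simp only [add_re, mul_re, ofReal_re, ofReal_im, add_im, mul_im, I_re, I_im, sub_im,
      re_ofNat, im_ofNat] at e
    linear_combination e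
  · have hd : ∀ t : ℝ, HasDerivAt (fun t : ℝ => (t : ℂ) ^ 6 * Complex.exp (I * t) * deriv w t)
        ((t : ℂ) ^ 5 * Complex.exp (I * t) * GG m om 1 (w t)) t := fun t => by
      have h1 : HasDerivAt (fun t : ℝ => (t : ℂ)) 1 t := ofRealCLM.hasDerivAt
      refine (((h1.fun_pow 6).fun_mul (h1.const_mul I).cexp).fun_mul
        (ARic_d2 h.smooth t)).congr_deriv ?_
      rw [← h.ode t]
      push_cast
      ring
    have hn : ∀ (t : ℝ) (k : ℕ) (z : ℂ), 0 ≤ t → ‖(t : ℂ) ^ k * Complex.exp (I * t) * z‖ =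
        t ^ k * ‖z‖ := fun t k z ht => by
      rw [norm_mul, norm_mul, norm_exp_I_mul_ofReal, mul_one, norm_pow, norm_real,
        Real.norm_of_nonneg ht]
    have h1 := norm_sub_le_of_deriv (g := fun t => M * s ^ 5 * t) hs (fun t _ => hd t)
      (fun t _ => (hasDerivAt_id' t).const_mul (M * s ^ 5)) fun t ht => by
        rw [hn t 5 _ (hσ.trans ht.1), mul_one, mul_comm M]
        exact mul_le_mul (pow_le_pow_left₀ (hσ.trans ht.1) ht.2 5)
          ((ARic_GG m om _).trans (hM t ht)) (norm_nonneg _) (pow_nonneg (hσ.trans hs) 5)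
    have h2 := (norm_sub_norm_le _ _).trans h1
    rw [hn s 6 _ (hσ.trans hs), hn σ 6 _ hσ] at h2
    rw [hr s (hσ.trans hs), hr σ hσ]
    linarith

variable {m : ℕ} {om : ℝ} {A x y r x1 y1 : ℝ → ℝ}

theorem Ric.dP (h : Ric m om A x y r x1 y1) {s : ℝ} (hs : 0 ≤ s) :
    HasDerivAt (fun t => A t ^ (2 * m)) (2 * m * x s * A s ^ (2 * m)) s := by
  refine ((h.dA s hs).fun_pow (2 * m)).congr_deriv ?_
  rcases m with _ | m
  · simp
  · rw [show 2 * (m + 1) - 1 = 2 * m + 1 by omega]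
    push_cast
    ring

theorem Ric.eF (h : Ric m om A x y r x1 y1) {s : ℝ} (hs : 0 ≤ s) :
    s * x1 s = FF m om A y s - 6 * x s - s * x s ^ 2 := by
  rw [FF]
  linear_combination h.ex s hs

theorem Ric.xi (h : Ric m om A x y r x1 y1) (c : ℝ) {s : ℝ} (hs : 0 ≤ s) :
    HasDerivAt (fun t => t ^ 6 * A t * Real.exp (c * t) * (x t - c))
      (s ^ 5 * A s * Real.exp (c * s) * (FF m om A y s - 6 * c - s * c ^ 2)) s := by
  refine ((((hasDerivAt_pow 6 s).fun_mul (h.dA s hs)).fun_mul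
    ((hasDerivAt_id' s).const_mul c).exp).fun_mul ((h.dx s hs).sub_const c)).congr_deriv ?_
  push_cast
  linear_combination s ^ 5 * A s * Real.exp (c * s) * h.eF hs

theorem Ric.eta (h : Ric m om A x y r x1 y1) {s : ℝ} (hs : 0 ≤ s) :
    HasDerivAt (fun t => t ^ 6 * A t ^ 2 * y t) (-(s ^ 5 * A s ^ 2 * (aa m + s * x s))) s := by
  refine (((hasDerivAt_pow 6 s).fun_mul ((h.dA s hs).fun_pow 2)).fun_mul
    (h.dy s hs)).congr_deriv ?_
  push_cast
  linear_combination s ^ 5 * A s ^ 2 * h.ey s hs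

/-- log A has derivative x -/
theorem Ric.grow (h : Ric m om A x y r x1 y1) {s t c d : ℝ} (hs : 0 ≤ s) (hst : s ≤ t)
    (hx : ∀ u ∈ Icc s t, x u ≤ c - d * (u - s)) :
    A t ≤ A s * Real.exp (c * (t - s) - d * (t - s) ^ 2 / 2) := by
  have h1 := le_of_deriv (f := fun u => Real.log (A u)) (f' := x)
    (g := fun u => c * (u - s) - d * (u - s) ^ 2 / 2) (g' := fun u => c - d * (u - s)) hst
    (fun u hu => ((h.dA u (hs.trans hu.1)).log (h.pos u (hs.trans hu.1)).ne').congr_deriv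
      (mul_div_cancel_right₀ _ (h.pos u (hs.trans hu.1)).ne'))
    (fun u _ => ((((hasDerivAt_id' u).sub_const s).const_mul c).fun_sub
      (((((hasDerivAt_id' u).sub_const s).fun_pow 2).const_mul d).div_const 2)).congr_deriv
      (by push_cast; ring)) hx
  rw [← Real.exp_log (h.pos t (hs.trans hst)), ← Real.exp_log (h.pos s hs), ← Real.exp_add,
    Real.exp_le_exp]
  simp only [sub_self] at h1
  linarith

theorem Ric.growP (h : Ric m om A x y r x1 y1) (hm : 1 ≤ m) {s t e d : ℝ} (hs : 0 ≤ s)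
    (hst : s ≤ t) (hx : ∀ u ∈ Icc s t, x u ≤ e * aa m - d * (u - s)) :
    A t ^ (2 * m) ≤ A s ^ (2 * m) * Real.exp (e * (t - s) - m * d * (t - s) ^ 2) := by
  refine (pow_le_pow_left₀ (h.pos t (hs.trans hst)).le (h.grow hs hst hx) (2 * m)).trans_eq ?_
  rw [mul_pow, ← Real.exp_nat_mul]
  congr 2
  push_cast
  linear_combination e * (t - s) * aa_mul hm

theorem Ric.monoP (h : Ric m om A x y r x1 y1) {s t : ℝ} (hs : 0 ≤ s) (hst : s ≤ t)
    (hx : ∀ u ∈ Icc s t, 0 ≤ x u) : A s ^ (2 * m) ≤ A t ^ (2 * m) := by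
  have := le_of_deriv hst (fun u _ => hasDerivAt_const u (0 : ℝ))
    (fun u hu => h.dP (hs.trans hu.1)) fun u hu => by
      have h1 := hx u hu
      have h2 := h.pos u (hs.trans hu.1)
      positivity
  linarith

theorem ARic_bern (hm : 1 ≤ m) {p q : ℝ} (hp : p ^ (2 * m) ≤ 1.5) (hq : 0.1 ≤ q ^ (2 * m)) :
    p ^ 2 ≤ (1 + 28 * aa m) * q ^ 2 := by
  have ha := aa_nonneg m
  have h1 := one_add_mul_le_pow (a := 28 * aa m) (by linarith) m
  have h2 := aa_mul hm
  refine le_of_pow_le_pow_left₀ (n := m) (by omega) (by positivity) ?_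
  rw [mul_pow, ← pow_mul, ← pow_mul]
  have h3 : 15 ≤ (1 + 28 * aa m) ^ m := by linarith
  nlinarith

/-- J = t^6 A^2 (y + 1/2), J' = (3 - a) t^5 A^2; by Bernoulli A u ^ 2 ≤ (1 + 28 a) A v ^ 2 for u, v in
[0,s] since (1 + 14/m)^m ≥ 15; compare J with constants times t^6; s = 0 from ey -/
theorem Ric.ybd (h : Ric m om A x y r x1 y1) (hm : 1 ≤ m) {s : ℝ} (hs : 0 ≤ s)
    (hP : ∀ t ∈ Icc 0 s, 0.1 ≤ A t ^ (2 * m) ∧ A t ^ (2 * m) ≤ 1.5) : |y s| ≤ 15 * aa m := by
  have ha := aa_nonneg m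
  have ha' := ARic_aa hm
  rcases hs.eq_or_lt with rfl | hs0
  · have := h.ey 0 le_rfl
    rw [abs_le]
    constructor <;> linarith
  have hJ : ∀ t ∈ Icc 0 s, HasDerivAt (fun t => t ^ 6 * A t ^ 2 * y t + t ^ 6 * A t ^ 2 / 2)
      ((3 - aa m) * t ^ 5 * A t ^ 2) t := fun t ht => by
    refine ((h.eta ht.1).fun_add (((hasDerivAt_pow 6 t).fun_mul
      ((h.dA t ht.1).fun_pow 2)).div_const 2)).congr_deriv ?_
    push_cast
    ring
  have hK : ∀ k t : ℝ, HasDerivAt (fun t => (3 - aa m) * t ^ 6 * k / 6)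
      ((3 - aa m) * t ^ 5 * k) t := fun k t => by
    refine ((((hasDerivAt_pow 6 t).const_mul (3 - aa m)).mul_const k).div_const 6).congr_deriv ?_
    push_cast
    ring
  have hs' : s ∈ Icc 0 s := ⟨hs, le_rfl⟩
  have h1 := le_of_deriv hs hJ (fun t _ => hK ((1 + 28 * aa m) * A s ^ 2) t) fun t ht =>
    mul_le_mul_of_nonneg_left (ARic_bern hm (hP t ht).2 (hP s hs').1)
      (mul_nonneg (by linarith) (pow_nonneg ht.1 5))
  have h2 := le_of_deriv hs (fun t _ => hK ((1 - 28 * aa m) * A s ^ 2) t) hJ fun t ht => by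
    refine mul_le_mul_of_nonneg_left ?_ (mul_nonneg (by linarith) (pow_nonneg ht.1 5))
    have h3 := ARic_bern hm (hP s hs').2 (hP t ht).1
    rcases le_total (1 - 28 * aa m) 0 with h4 | h4
    · nlinarith [sq_nonneg (A s), sq_nonneg (A t)]
    · have h5 := mul_le_mul_of_nonneg_left h3 h4
      nlinarith [mul_nonneg (sq_nonneg (aa m)) (sq_nonneg (A t))]
  have h3 : 0 < s ^ 6 * A s ^ 2 := mul_pos (pow_pos hs0 6) (pow_pos (h.pos s hs) 2)
  have h4 := mul_nonneg h3.le ha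
  have h5 := mul_nonneg h4 ha
  rw [abs_le]
  constructor <;> refine le_of_mul_le_mul_left ?_ h3 <;> nlinarith

end Vale.Agent.P139.PA
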