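import Vale.Agent.P139.Defs

open Complex MeasureTheory Filter Topology
open scoped ComplexConjugate ContDiff

namespace Vale.Agent.P139

theorem one_le_wt (K : ℕ) {M : ℝ} (hM : 0 < M) (ξ : E) : 1 ≤ wt K M ξ := by
  unfold wt
  exact one_le_pow₀ (le_add_of_nonneg_right (by positivity))

theorem wt_add (K : ℕ) {M : ℝ} (hM : 0 < M) (ξ η : E) :
    wt K M (ξ + η) ≤ wt K M ξ * wt K M η := by
  unfold wt
  rw [← mul_pow]
  apply pow_le_pow_left₀ (by positivity)
  have h1 : ‖ξ + η‖ / M ≤ ‖ξ‖ / M + ‖η‖ / M := by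
    rw [← add_div]
    exact div_le_div_of_nonneg_right (norm_add_le _ _) hM.le
  have h2 : 0 ≤ ‖ξ‖ / M * (‖η‖ / M) := by positivity
  nlinarith

theorem nsq_eq (n : Z) : nsq n = ‖zE n‖ ^ 2 := by
  rw [EuclideanSpace.norm_sq_eq]
  simp [nsq, zE]

theorem zE_add (a b : Z) : zE (a + b) = zE a + zE b := by
  ext i
  simp [zE]

theorem alg_zE_neg (a : Z) : zE (-a) = -zE a := by
  ext i
  simp [zE]

theorem alg_wt_nonneg (K : ℕ) {M : ℝ} (hM : 0 < M) (ξ : E) : 0 ≤ wt K M ξ :=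
  zero_le_one.trans (one_le_wt K hM ξ)

theorem NN_add (K : ℕ) {M : ℝ} (hM : 0 < M) (h : ℝ) (a b : Z → ℂ) :
    NN K M h (a + b) ≤ NN K M h a + NN K M h b := by
  unfold NN
  rw [← ENNReal.tsum_add]
  refine ENNReal.tsum_le_tsum fun n => ?_
  have hw := alg_wt_nonneg K hM (h • zE n)
  rw [← ENNReal.ofReal_add (by positivity) (by positivity), ← mul_add]
  exact ENNReal.ofReal_le_ofReal (mul_le_mul_of_nonneg_left (norm_add_le _ _) hw)

theorem NN_sub (K : ℕ) {M : ℝ} (hM : 0 < M) (h : ℝ) (a b : Z → ℂ) :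
    NN K M h (a - b) ≤ NN K M h a + NN K M h b := by
  unfold NN
  rw [← ENNReal.tsum_add]
  refine ENNReal.tsum_le_tsum fun n => ?_
  have hw := alg_wt_nonneg K hM (h • zE n)
  rw [← ENNReal.ofReal_add (by positivity) (by positivity), ← mul_add]
  exact ENNReal.ofReal_le_ofReal (mul_le_mul_of_nonneg_left (norm_sub_le _ _) hw)

theorem NN_smul (K : ℕ) {M : ℝ} (hM : 0 < M) (h : ℝ) (z : ℂ) (a : Z → ℂ) :
    NN K M h (z • a) = ENNReal.ofReal ‖z‖ * NN K M h a := by
  unfold NN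
  rw [← ENNReal.tsum_mul_left]
  refine tsum_congr fun n => ?_
  rw [← ENNReal.ofReal_mul (norm_nonneg _), Pi.smul_apply, smul_eq_mul, norm_mul]
  congr 1
  ring

theorem alg_enorm_tsum_le {ι : Type*} (f : ι → ℂ) :
    ENNReal.ofReal ‖∑' k, f k‖ ≤ ∑' k, ENNReal.ofReal ‖f k‖ := by
  simp only [ofReal_norm]
  exact enorm_tsum_le_tsum_enorm

theorem NN_conv (K : ℕ) {M : ℝ} (hM : 0 < M) (h : ℝ) (a b : Z → ℂ) :
    NN K M h (conv a b) ≤ NN K M h a * NN K M h b := by
  unfold NN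
  calc ∑' n, ENNReal.ofReal (wt K M (h • zE n) * ‖conv a b n‖)
      ≤ ∑' n, ∑' k, ENNReal.ofReal (wt K M (h • zE (n - k)) * ‖a (n - k)‖)
          * ENNReal.ofReal (wt K M (h • zE k) * ‖b k‖) := by
        refine ENNReal.tsum_le_tsum fun n => ?_
        rw [ENNReal.ofReal_mul (alg_wt_nonneg K hM _)]
        calc ENNReal.ofReal (wt K M (h • zE n)) * ENNReal.ofReal ‖conv a b n‖
            ≤ ENNReal.ofReal (wt K M (h • zE n)) * ∑' k, ENNReal.ofReal ‖a (n - k) * b k‖ :=
              mul_le_mul_right (alg_enorm_tsum_le _) _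
          _ = ∑' k, ENNReal.ofReal (wt K M (h • zE n)) * ENNReal.ofReal ‖a (n - k) * b k‖ :=
              ENNReal.tsum_mul_left.symm
          _ ≤ _ := by
              refine ENNReal.tsum_le_tsum fun k => ?_
              have hw1 := alg_wt_nonneg K hM (h • zE (n - k))
              have hw2 := alg_wt_nonneg K hM (h • zE k)
              rw [← ENNReal.ofReal_mul (alg_wt_nonneg K hM _),
                ← ENNReal.ofReal_mul (by positivity)]
              apply ENNReal.ofReal_le_ofReal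
              have he : h • zE n = h • zE (n - k) + h • zE k := by
                rw [← smul_add, ← zE_add, sub_add_cancel]
              have hw := wt_add K hM (h • zE (n - k)) (h • zE k)
              rw [← he] at hw
              rw [norm_mul]
              calc wt K M (h • zE n) * (‖a (n - k)‖ * ‖b k‖)
                  ≤ (wt K M (h • zE (n - k)) * wt K M (h • zE k)) * (‖a (n - k)‖ * ‖b k‖) :=
                    mul_le_mul_of_nonneg_right hw (by positivity)
                _ = _ := by ring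
    _ = ∑' k, ∑' n, ENNReal.ofReal (wt K M (h • zE (n - k)) * ‖a (n - k)‖)
          * ENNReal.ofReal (wt K M (h • zE k) * ‖b k‖) := ENNReal.tsum_comm
    _ = ∑' k, (∑' n, ENNReal.ofReal (wt K M (h • zE n) * ‖a n‖))
          * ENNReal.ofReal (wt K M (h • zE k) * ‖b k‖) := by
        refine tsum_congr fun k => ?_
        rw [ENNReal.tsum_mul_right]
        congr 1
        exact (Equiv.subRight k).tsum_eq
          (fun n => ENNReal.ofReal (wt K M (h • zE n) * ‖a n‖))
    _ = _ := ENNReal.tsum_mul_left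

theorem alg_summable_w (K : ℕ) {M : ℝ} (hM : 0 < M) (h : ℝ) (a : Z → ℂ)
    (ha : NN K M h a ≠ ⊤) : Summable fun n => wt K M (h • zE n) * ‖a n‖ := by
  have := ENNReal.summable_toReal ha
  refine this.congr fun n => ?_
  rw [ENNReal.toReal_ofReal (mul_nonneg (alg_wt_nonneg K hM _) (norm_nonneg _))]

theorem summable_of_NN (K : ℕ) {M : ℝ} (hM : 0 < M) (h : ℝ) (a : Z → ℂ)
    (ha : NN K M h a ≠ ⊤) : Summable fun n => ‖a n‖ := by
  refine Summable.of_nonneg_of_le (fun n => norm_nonneg _) (fun n => ?_)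
    (alg_summable_w K hM h a ha)
  exact le_mul_of_one_le_left (norm_nonneg _) (one_le_wt K hM _)

/-- change of scale -/
theorem NN_scale (K : ℕ) {M : ℝ} (hM : 0 < M) {h h' L : ℝ} (hh : 0 ≤ h) (hh' : 0 ≤ h')
    (hL : 1 ≤ L) (hle : h' ≤ L * h) (a : Z → ℂ) :
    NN K M h' a ≤ ENNReal.ofReal (L ^ K) * NN K M h a := by
  unfold NN
  rw [← ENNReal.tsum_mul_left]
  refine ENNReal.tsum_le_tsum fun n => ?_
  rw [← ENNReal.ofReal_mul (by positivity), ← mul_assoc]
  apply ENNReal.ofReal_le_ofReal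
  apply mul_le_mul_of_nonneg_right _ (norm_nonneg _)
  unfold wt
  rw [← mul_pow]
  apply pow_le_pow_left₀ (by positivity)
  rw [norm_smul, norm_smul, Real.norm_of_nonneg hh, Real.norm_of_nonneg hh', mul_add, mul_one]
  have : h' * ‖zE n‖ / M ≤ L * (h * ‖zE n‖ / M) := by
    rw [← mul_div_assoc, ← mul_assoc]
    exact div_le_div_of_nonneg_right (mul_le_mul_of_nonneg_right hle (norm_nonneg _)) hM.le
  linarith

/-- Minkowski for coefficientwise integrals -/
theorem NN_integral (K : ℕ) {M : ℝ} (hM : 0 < M) (h t : ℝ) (ht : 0 ≤ t) (F : ℝ → Z → ℂ)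
    (hF : ∀ n, ContinuousOn (fun s => F s n) (Set.Icc 0 t)) :
    NN K M h (fun n => ∫ s in (0 : ℝ)..t, F s n) ≤ ∫⁻ s in Set.Icc 0 t, NN K M h (F s) := by
  unfold NN
  rw [lintegral_tsum]
  · refine ENNReal.tsum_le_tsum fun n => ?_
    have hw := alg_wt_nonneg K hM (h • zE n)
    simp_rw [ENNReal.ofReal_mul hw]
    rw [lintegral_const_mul' _ _ ENNReal.ofReal_ne_top]
    refine mul_le_mul_right ?_ _
    rw [intervalIntegral.integral_of_le ht, ← integral_Icc_eq_integral_Ioc]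
    simp only [ofReal_norm]
    exact enorm_integral_le_lintegral_enorm _
  · intro n
    have h1 : ContinuousOn (fun s => wt K M (h • zE n) * ‖F s n‖) (Set.Icc 0 t) :=
      continuousOn_const.mul (hF n).norm
    exact (h1.aemeasurable measurableSet_Icc).ennreal_ofReal

theorem alg_finite (R : ℝ) : {n : Z | ‖zE n‖ ≤ R}.Finite := by
  refine (Set.Finite.pi' (fun _ : Fin 12 => Set.finite_Icc (-⌈R⌉) ⌈R⌉)).subset ?_
  intro n hn i
  have h1 : |(n i : ℝ)| ≤ ‖zE n‖ := by
    have := PiLp.norm_apply_le (zE n) i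
    simpa [zE] using this
  have h2 : |(n i : ℝ)| ≤ (⌈R⌉ : ℝ) := h1.trans (le_trans hn (Int.le_ceil R))
  have h3 : |n i| ≤ ⌈R⌉ := by exact_mod_cast h2
  exact abs_le.mp h3

theorem alg_tail_aux {ι : Type*} (T : Finset ι) (w f : ι → ℝ) (q : ℝ) (hw : ∀ n, 0 ≤ w n)
    (hf : ∀ n, 0 ≤ f n) (hs0 : Summable f) (hs : Summable fun n => w n * f n)
    (hlow : ∀ n, n ∉ T → q ≤ w n) :
    q * ∑' n : {n // n ∉ T}, f n ≤ ∑' n, w n * f n := by
  rw [← tsum_mul_left]
  calc ∑' n : {n // n ∉ T}, q * f n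
      ≤ ∑' n : {n // n ∉ T}, w n * f n :=
        Summable.tsum_le_tsum (fun n => mul_le_mul_of_nonneg_right (hlow n n.2) (hf _))
          ((hs0.subtype _).mul_left _) (hs.subtype _)
    _ ≤ ∑' n, w n * f n :=
        Summable.tsum_subtype_le (fun n => w n * f n) {n | n ∉ T}
          (fun n => mul_nonneg (hw n) (hf n)) hs

/-- the tail of a sequence of bounded weighted norm -/
theorem alg_tail (K : ℕ) (hK : 1 ≤ K) {M h : ℝ} (hM : 0 < M) (hh : 0 < h) (B ε : ℝ)
    (hε : 0 < ε) : ∃ T : Finset Z, ∀ a : Z → ℂ, NN K M h a ≤ ENNReal.ofReal B →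
      ∑' n : {n // n ∉ T}, ‖a n‖ ≤ ε := by
  obtain ⟨T, hT⟩ : ∃ T : Finset Z, ∀ n, n ∉ T → M * |B| / (h * ε) < ‖zE n‖ :=
    ⟨(alg_finite (M * |B| / (h * ε))).toFinset, fun n hn => by simpa using hn⟩
  refine ⟨T, fun a ha => ?_⟩
  have hne : NN K M h a ≠ ⊤ := ne_top_of_le_ne_top ENNReal.ofReal_ne_top ha
  have hs := alg_summable_w K hM h a hne
  have hs0 := summable_of_NN K hM h a hne
  have hsum : ∑' n, wt K M (h • zE n) * ‖a n‖ ≤ |B| := by
    have h1 : ENNReal.ofReal (∑' n, wt K M (h • zE n) * ‖a n‖) ≤ ENNReal.ofReal |B| := by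
      rw [ENNReal.ofReal_tsum_of_nonneg
        (fun n => mul_nonneg (alg_wt_nonneg K hM _) (norm_nonneg _)) hs]
      exact ha.trans (ENNReal.ofReal_le_ofReal (le_abs_self B))
    exact (ENNReal.ofReal_le_ofReal_iff (abs_nonneg B)).mp h1
  have hlow : ∀ n : Z, n ∉ T → 1 + |B| / ε ≤ wt K M (h • zE n) := by
    intro n hn
    have hn' := hT n hn
    have h1 : |B| / ε ≤ ‖h • zE n‖ / M := by
      rw [norm_smul, Real.norm_of_nonneg hh.le, div_le_div_iff₀ hε hM]
      rw [div_lt_iff₀ (by positivity)] at hn'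
      nlinarith
    calc 1 + |B| / ε ≤ 1 + ‖h • zE n‖ / M := by linarith
      _ ≤ wt K M (h • zE n) := by
        unfold wt
        exact le_self_pow₀ (le_add_of_nonneg_right (by positivity)) (by omega)
  have hq : 0 < 1 + |B| / ε := by positivity
  have h2 := (alg_tail_aux T (fun n => wt K M (h • zE n)) (fun n => ‖a n‖) (1 + |B| / ε)
    (fun n => alg_wt_nonneg K hM _) (fun n => norm_nonneg _) hs0 hs hlow).trans hsum
  have h3 : |B| ≤ (1 + |B| / ε) * ε := by
    rw [add_mul, div_mul_cancel₀ _ hε.ne']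
    linarith
  exact le_of_mul_le_mul_left (h2.trans h3) hq

/-- coefficientwise continuity and a uniform weighted bound give continuity in l^1 -/
theorem l1_cont (K : ℕ) (hK : 1 ≤ K) {M h : ℝ} (hM : 0 < M) (hh : 0 < h) (S : Set ℝ)
    (z : ℝ → Z → ℂ) (B : ℝ) (hc : ∀ n, ContinuousOn (fun t => z t n) S)
    (hB : ∀ t ∈ S, NN K M h (z t) ≤ ENNReal.ofReal B) (t : ℝ) (ht : t ∈ S) :
    Tendsto (fun s => ∑' n, ‖z s n - z t n‖) (𝓝[S] t) (𝓝 0) := by
  rw [Metric.tendsto_nhds]
  intro ε hε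
  obtain ⟨T, hT⟩ := alg_tail K hK hM hh B (ε / 4) (by positivity)
  have h1 : Tendsto (fun s => ∑ n ∈ T, ‖z s n - z t n‖) (𝓝[S] t) (𝓝 0) := by
    have : Tendsto (fun s => ∑ n ∈ T, ‖z s n - z t n‖) (𝓝[S] t)
        (𝓝 (∑ n ∈ T, ‖z t n - z t n‖)) :=
      tendsto_finsetSum _ fun n _ => (((hc n) t ht).tendsto.sub_const _).norm
    simpa using this
  have h2 := (h1.eventually (gt_mem_nhds (show (0 : ℝ) < ε / 4 by positivity)))
  filter_upwards [h2, self_mem_nhdsWithin] with s hs hsS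
  have hss := summable_of_NN K hM h (z s) (ne_top_of_le_ne_top ENNReal.ofReal_ne_top (hB s hsS))
  have hst := summable_of_NN K hM h (z t) (ne_top_of_le_ne_top ENNReal.ofReal_ne_top (hB t ht))
  have hsd : Summable fun n => ‖z s n - z t n‖ :=
    Summable.of_nonneg_of_le (fun n => norm_nonneg _) (fun n => norm_sub_le _ _) (hss.add hst)
  rw [Real.dist_eq, sub_zero, abs_of_nonneg (tsum_nonneg fun n => norm_nonneg _),
    ← hsd.sum_add_tsum_compl (s := T)]
  have h3 : ∑' n : {n // n ∉ T}, ‖z s n - z t n‖ ≤ ε / 4 + ε / 4 := by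
    calc ∑' n : {n // n ∉ T}, ‖z s n - z t n‖
        ≤ ∑' n : {n // n ∉ T}, (‖z s n‖ + ‖z t n‖) :=
          Summable.tsum_le_tsum (fun n => norm_sub_le _ _) (hsd.subtype _)
            ((hss.add hst).subtype _)
      _ = ∑' n : {n // n ∉ T}, ‖z s n‖ + ∑' n : {n // n ∉ T}, ‖z t n‖ :=
          Summable.tsum_add (hss.subtype _) (hst.subtype _)
      _ ≤ ε / 4 + ε / 4 := add_le_add (hT _ (hB s hsS)) (hT _ (hB t ht))
  have h4 : ∑' n : ((T : Set Z)ᶜ : Set Z), ‖z s n - z t n‖ ≤ ε / 4 + ε / 4 := h3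
  linarith

/-- conjugate reflection -/
def refl (c : Z → ℂ) : Z → ℂ := fun n => conj (c (-n))

theorem NN_refl (K : ℕ) (M h : ℝ) (a : Z → ℂ) : NN K M h (refl a) = NN K M h a := by
  unfold NN
  rw [← (Equiv.neg Z).tsum_eq]
  refine tsum_congr fun n => ?_
  simp [refl, alg_zE_neg, wt]

theorem ev_refl (a : Z → ℂ) (x : E) : ev (refl a) x = conj (ev a x) := by
  unfold ev
  rw [Complex.conj_tsum, ← (Equiv.neg Z).tsum_eq]
  refine tsum_congr fun n => ?_
  rw [map_mul, ← Complex.exp_conj]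
  simp [refl, Finset.sum_neg_distrib]

theorem coef_conj (f : E → ℂ) : coef (fun x => conj (f x)) = refl (coef f) := by
  funext n
  unfold coef refl
  rw [map_mul, ← integral_conj]
  congr 1
  · rw [map_inv₀, Complex.conj_ofReal]
  · refine integral_congr_ae (Eventually.of_forall fun x => ?_)
    simp only [map_mul, ← Complex.exp_conj]
    simp [Finset.sum_neg_distrib]

theorem refl_conv (a b : Z → ℂ) : refl (conv a b) = conv (refl a) (refl b) := by
  funext n
  unfold refl conv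
  rw [Complex.conj_tsum, ← (Equiv.neg Z).tsum_eq]
  refine tsum_congr fun k => ?_
  simp only [map_mul, Equiv.neg_apply]
  congr 3
  abel

end Vale.Agent.P139
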