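import Vale.Agent.P139.BHP

open Complex MeasureTheory Filter Topology
open scoped ComplexConjugate ContDiff

namespace Vale.Agent.P139

theorem BAl_step {β b h : ℂ} {c s : ℝ} (hb : b = 2 * c + 1) (hβ : -1 < β.re) (hs : 0 < s)
    (hW : WW (β + 1 + 1) b s ≠ 0) (hV : s * WW (β + 1 + 1) (b + 1) s = I * h * WW (β + 1 + 1) b s)
    (hd : h + (β + 1) - 2 * c ≠ 0) : WW (β + 1) b s ≠ 0 ∧ s * WW (β + 1) (b + 1) s =
      I * ((β + 1) * h / (h + (β + 1) - 2 * c) - I * s) * WW (β + 1) b s := by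
  have h1 := lad_W (spA_re hβ) b hs
  have h2 := lad_V hβ b hs
  have h3 : (β + 1) * WW (β + 1) b s = I * (h + (β + 1) - 2 * c) * WW (β + 1 + 1) b s := by
    rw [h1, hV, hb]; ring
  refine ⟨fun h0 => ?_, ?_⟩
  · rw [h0, mul_zero] at h3
    exact mul_ne_zero (mul_ne_zero I_ne_zero hd) hW h3.symm
  · have h4 : (β + 1) * h / (h + (β + 1) - 2 * c) * WW (β + 1) b s
        = I * h * WW (β + 1 + 1) b s := by
      rw [div_mul_eq_mul_div, div_eq_iff hd]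
      linear_combination h * h3
    linear_combination (s : ℂ) * h2 + I * hV - I * h4 + (s * WW (β + 1) b s) * I_mul_I

theorem BAl_end {α b h : ℂ} {c s : ℝ} (hb : b = 2 * c + 1) (hα : -1 < α.re) (hs : 0 < s)
    (hW : WW (α + 1) b s ≠ 0) (hV : s * WW (α + 1) (b + 1) s = I * h * WW (α + 1) b s)
    (hp : 0 < (α * h * conj (h + α - 2 * c)).re) : Pos α b s := by
  have h1 : UU α b s = I * (h + α - 2 * c) * WW (α + 1) b s := by
    rw [lad_U hα b hs, hV, hb]; ring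
  have h2 : (s : ℂ) * (conj (UU α b s) * dU α b s)
      = -(normSq (WW (α + 1) b s) : ℂ) * (α * h * conj (h + α - 2 * c)) := by
    rw [h1, dU, ← mul_conj, map_mul, map_mul, conj_I]
    linear_combination (I * conj (h + α - 2 * c) * conj (WW (α + 1) b s) * α) * hV
      + (α * h * conj (h + α - 2 * c) * WW (α + 1) b s * conj (WW (α + 1) b s)) * I_mul_I
  have h3 := congrArg Complex.re h2
  rw [re_ofReal_mul, ← ofReal_neg, re_ofReal_mul] at h3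
  have h4 := mul_pos (normSq_pos.2 hW) hp
  unfold Pos
  by_contra h5
  have := mul_nonneg hs.le (not_lt.1 h5)
  linarith

theorem BAl_le_re {p d : ℂ} {r : ℝ} (hd : d ≠ 0) (h : r * normSq d ≤ (p * conj d).re) :
    r ≤ (p / d).re := by
  have e : p / d = (normSq d)⁻¹ * (p * conj d) := by
    rw [div_eq_mul_inv, inv_def]; ring
  rw [e, re_ofReal_mul, inv_mul_eq_div, le_div_iff₀ (normSq_pos.2 hd)]
  exact h

theorem BAl_im_le {p d : ℂ} {r : ℝ} (hd : d ≠ 0) (h : (p * conj d).im ≤ r * normSq d) :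
    (p / d).im ≤ r := by
  have e : p / d = (normSq d)⁻¹ * (p * conj d) := by
    rw [div_eq_mul_inv, inv_def]; ring
  rw [e, im_ofReal_mul, inv_mul_eq_div, div_le_iff₀ (normSq_pos.2 hd)]
  exact h

theorem BAl_id {a h : ℂ} {c j o x y : ℝ} (hj : a.re = c + j) (ho : a.im = -o) (hx : h.re = c + x)
    (hy : h.im = -y) : normSq (h + a - 2 * c) = (x + j) ^ 2 + (y + o) ^ 2 ∧
      (a * h * conj (h + a - 2 * c)).re = c * ((x + j) ^ 2 + (y + o) ^ 2)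
        + (j * (x ^ 2 + y ^ 2 + c ^ 2) + x * (j ^ 2 + o ^ 2 + c ^ 2)) ∧
      (a * h * conj (h + a - 2 * c)).im
        = -(o * (x ^ 2 + y ^ 2 - c ^ 2) + y * (j ^ 2 + o ^ 2 - c ^ 2)) := by
  have e1 : (h + a - 2 * c).re = x + j := by
    simp only [sub_re, add_re, mul_re, re_ofNat, im_ofNat, ofReal_re, ofReal_im, hj, hx]; ring
  have e2 : (h + a - 2 * c).im = -(y + o) := by
    simp only [sub_im, add_im, mul_im, re_ofNat, im_ofNat, ofReal_re, ofReal_im, ho, hy]; ring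
  generalize h + a - 2 * c = d at e1 e2
  simp only [normSq_apply, mul_re, mul_im, conj_re, conj_im, e1, e2, hj, ho, hx, hy]
  refine ⟨?_, ?_, ?_⟩ <;> ring

theorem BAl_x {c j o x y k m : ℝ} (hc : 5 / 2 ≤ c) (ho : 4 * c ≤ o) (hk : 1 / 2 ≤ k)
    (hk' : k ≤ 5 / 2) (hj : -k ≤ j) (hx : -m ≤ x)
    (h : 0 < -k * c ^ 2 - m * (j ^ 2 + 2 * j * k + o ^ 2 + c ^ 2)
      + k * (j ^ 2 + 2 * y * o + o ^ 2)) :
    0 < k * ((x + j) ^ 2 + (y + o) ^ 2)
      + (j * (x ^ 2 + y ^ 2 + c ^ 2) + x * (j ^ 2 + o ^ 2 + c ^ 2)) := by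
  have h1 : 0 ≤ (j + k) * (x ^ 2 + y ^ 2) := mul_nonneg (by linarith) (by positivity)
  have h2 : 0 ≤ (j + k) * c ^ 2 := mul_nonneg (by linarith) (by positivity)
  have h3 : 0 ≤ j ^ 2 + 2 * j * k + o ^ 2 + c ^ 2 := by nlinarith [sq_nonneg (j + k)]
  have h4 : 0 ≤ (x + m) * (j ^ 2 + 2 * j * k + o ^ 2 + c ^ 2) := mul_nonneg (by linarith) h3
  nlinarith

theorem BAl_x2 {c j o x y : ℝ} (hc : 5 / 2 ≤ c) (ho : 4 * c ≤ o) (hj : -(1 / 2) ≤ j) (hx : 0 ≤ x)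
    (hy : 0 ≤ y) : 0 < 1 / 2 * ((x + j) ^ 2 + (y + o) ^ 2)
      + (j * (x ^ 2 + y ^ 2 + c ^ 2) + x * (j ^ 2 + o ^ 2 + c ^ 2)) := by
  refine BAl_x (m := 0) hc ho le_rfl (by norm_num) hj (by linarith) ?_
  have : 0 ≤ y * o := mul_nonneg hy (by linarith)
  nlinarith [sq_nonneg j]

theorem BAl_x1 {c j o x y : ℝ} (hc : 5 / 2 ≤ c) (ho : 4 * c ≤ o) (hj : -(3 / 2) ≤ j)
    (hx : -(1 / 2) ≤ x) (hy : -(c / 4) ≤ y) : 0 < 3 / 2 * ((x + j) ^ 2 + (y + o) ^ 2)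
      + (j * (x ^ 2 + y ^ 2 + c ^ 2) + x * (j ^ 2 + o ^ 2 + c ^ 2)) := by
  refine BAl_x (m := 1 / 2) hc ho (by norm_num) (by norm_num) hj hx ?_
  have q1 : 0 ≤ (y + c / 4) * o := mul_nonneg (by linarith) (by linarith)
  have q2 : 0 ≤ (o - 4 * c) * o := mul_nonneg (by linarith) (by linarith)
  have q3 : 0 ≤ (o - 4 * c) * c := mul_nonneg (by linarith) (by linarith)
  nlinarith [sq_nonneg (j - 3 / 4)]

theorem BAl_x0 {c j o x y : ℝ} (hc : 5 / 2 ≤ c) (ho : 4 * c ≤ o) (hj : -(5 / 2) ≤ j) (hj' : j ≤ 0)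
    (hx : -(3 / 2) ≤ x) (hy : -(0.55 * c) ≤ y) : 0 < c * ((x + j) ^ 2 + (y + o) ^ 2)
      + (j * (x ^ 2 + y ^ 2 + c ^ 2) + x * (j ^ 2 + o ^ 2 + c ^ 2)) := by
  have q : 0 ≤ (c - 5 / 2) * ((x + j) ^ 2 + (y + o) ^ 2) :=
    mul_nonneg (by linarith) (by positivity)
  have := BAl_x (k := 5 / 2) (m := 3 / 2) (y := y) hc ho (by norm_num) le_rfl hj hx (by
    have q1 : 0 ≤ (y + 0.55 * c) * o := mul_nonneg (by linarith) (by linarith)
    have q2 : 0 ≤ (o - 4 * c) * o := mul_nonneg (by linarith) (by linarith)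
    have q3 : 0 ≤ (o - 4 * c) * c := mul_nonneg (by linarith) (by linarith)
    nlinarith [sq_nonneg j])
  linarith

theorem BAl_y2 {c j o x y : ℝ} (hc : 5 / 2 ≤ c) (ho : 4 * c ≤ o) (hy : 0 ≤ y) :
    -(o * (x ^ 2 + y ^ 2 - c ^ 2) + y * (j ^ 2 + o ^ 2 - c ^ 2))
      ≤ c / 4 * ((x + j) ^ 2 + (y + o) ^ 2) := by
  have h0 : 0 ≤ o := by linarith
  have h1 : 0 ≤ o * (x ^ 2 + y ^ 2) := by positivity
  have h2 : 0 ≤ y * (j ^ 2 + o ^ 2 - c ^ 2) := mul_nonneg hy (by nlinarith [sq_nonneg j])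
  have h3 : o ^ 2 ≤ (x + j) ^ 2 + (y + o) ^ 2 := by nlinarith [sq_nonneg (x + j)]
  have h4 := mul_le_mul_of_nonneg_left h3 (show 0 ≤ c / 4 by linarith)
  have h5 : 0 ≤ c * o * (o - 4 * c) := mul_nonneg (mul_nonneg (by linarith) h0) (by linarith)
  nlinarith

theorem BAl_y1 {c j o x y : ℝ} (hc : 5 / 2 ≤ c) (ho : 4 * c ≤ o) (hj : j ^ 2 ≤ 9 / 4)
    (hy : -(c / 4) ≤ y) : -(o * (x ^ 2 + y ^ 2 - c ^ 2) + y * (j ^ 2 + o ^ 2 - c ^ 2))
      ≤ 0.55 * c * ((x + j) ^ 2 + (y + o) ^ 2) := by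
  obtain ⟨t, rfl⟩ : ∃ t, y = t - c / 4 := ⟨y + c / 4, by ring⟩
  obtain ⟨w, rfl⟩ : ∃ w, o = 4 * c + w := ⟨o - 4 * c, by ring⟩
  have ht : 0 ≤ t := by linarith
  have hw : 0 ≤ w := by linarith
  have hc0 : 0 ≤ c := by linarith
  have h1 : 0 ≤ (4 * c + w) * x ^ 2 := by positivity
  have h2 : 0 ≤ c * (x + j) ^ 2 := by positivity
  have h3 : 0 ≤ t * j ^ 2 := by positivity
  have h4 : c * j ^ 2 ≤ 0.36 * c ^ 3 := by
    have : j ^ 2 ≤ 0.36 * c ^ 2 := by nlinarith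
    nlinarith
  have p1 : 0 ≤ c ^ 3 := by positivity
  have p2 : 0 ≤ c ^ 2 * w := by positivity
  have p3 : 0 ≤ c * w ^ 2 := by positivity
  have p4 : 0 ≤ c ^ 2 * t := by positivity
  have p5 : 0 ≤ c * t * w := by positivity
  have p6 : 0 ≤ t * w ^ 2 := by positivity
  have p7 : 0 ≤ c * t ^ 2 := by positivity
  have p8 : 0 ≤ t ^ 2 * w := by positivity
  nlinarith

theorem BAl_ne {d : ℂ} {p q : ℝ} (h : normSq d = p ^ 2 + q ^ 2) (hq : 0 < q) : d ≠ 0 := by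
  rw [← normSq_pos, h]; positivity

theorem BAl_near {a h : ℂ} {r m q : ℝ} (hq : 0 < q) (hd : (h + a - 2 * (5 / 2 : ℝ)).im ≤ -q)
    (hm : ‖a * (5 - a)‖ ≤ m) (hr : m ≤ r * q) :
    h + a - 2 * (5 / 2 : ℝ) ≠ 0 ∧ ‖a * h / (h + a - 2 * (5 / 2 : ℝ)) - a‖ ≤ r := by
  have h1 : q ≤ ‖h + a - 2 * (5 / 2 : ℝ)‖ :=
    le_trans (by linarith [neg_abs_le (h + a - 2 * (5 / 2 : ℝ)).im]) (abs_im_le_norm _)
  have h2 : h + a - 2 * (5 / 2 : ℝ) ≠ 0 := norm_pos_iff.1 (hq.trans_le h1)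
  refine ⟨h2, ?_⟩
  have e : a * h / (h + a - 2 * (5 / 2 : ℝ)) - a = a * (5 - a) / (h + a - 2 * (5 / 2 : ℝ)) := by
    rw [div_sub' h2]
    congr 1
    push_cast
    ring
  have hr0 : 0 ≤ r := by
    by_contra h0
    have := mul_neg_of_neg_of_pos (not_le.1 h0) hq
    linarith [norm_nonneg (a * (5 - a))]
  rw [e, norm_div, div_le_iff₀ (hq.trans_le h1)]
  exact hm.trans (hr.trans (mul_le_mul_of_nonneg_left h1 hr0))

theorem BAl_norm {a : ℂ} {j o m : ℝ} (hj : a.re = j) (ho : a.im = -o) (hm : 0 ≤ m)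
    (h : (j ^ 2 + o ^ 2) * ((5 - j) ^ 2 + o ^ 2) ≤ m ^ 2) : ‖a * (5 - a)‖ ≤ m := by
  refine (pow_le_pow_iff_left₀ (norm_nonneg _) hm two_ne_zero).1 ?_
  rw [← normSq_eq_norm_sq, map_mul, normSq_apply, normSq_apply]
  simp only [sub_re, sub_im, re_ofNat, im_ofNat, hj, ho]
  linarith

theorem al_big {α b : ℂ} {c s : ℝ} (hb : b = 2 * c + 1) (hc : 5 / 2 ≤ c)
    (h1 : c - 5 / 2 ≤ α.re) (h2 : α.re ≤ c) (h3 : α.im ≤ -4 * c) (hs : 0 < s) : Pos α b s := by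
  obtain ⟨j, hj⟩ : ∃ j, α.re = c + j := ⟨α.re - c, by ring⟩
  obtain ⟨o, ho⟩ : ∃ o, α.im = -o := ⟨-α.im, by ring⟩
  have j1 : -(5 / 2) ≤ j := by linarith
  have j2 : j ≤ 0 := by linarith
  have j3 : (j + 1) ^ 2 ≤ 9 / 4 := by nlinarith
  have o1 : 4 * c ≤ o := by linarith
  have a1 : (α + 1).re = c + (j + 1) := by rw [add_re, one_re, hj]; ring
  have a1' : (α + 1).im = -o := by rw [add_im, one_im, ho]; ring
  have a2 : (α + 1 + 1).re = c + (j + 2) := by rw [add_re, one_re, a1]; ring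
  have a2' : (α + 1 + 1).im = -o := by rw [add_im, one_im, a1']; ring
  have nx : ∀ z : ℂ, (z - I * s).re = z.re ∧ (z - I * s).im = z.im - s := fun z => by simp
  obtain ⟨g, r3, i3, W3, V3⟩ := kp_start (α := α + 1 + 1) hb (by linarith) (by linarith) hs
  -- level two
  obtain ⟨n2, e2, f2⟩ := BAl_id (h := g) (x := g.re - c) (y := -g.im) a2 a2' (by ring) (by ring)
  have d2 := BAl_ne n2 (by linarith)
  obtain ⟨W2, V2⟩ := BAl_step hb (by linarith) hs W3 V3 d2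
  have r2 := BAl_le_re (r := c - 1 / 2) (p := (α + 1 + 1) * g) d2 (by
    have := BAl_x2 (j := j + 2) (x := g.re - c) (y := -g.im) hc o1 (by linarith) (by linarith)
      (by linarith)
    rw [n2, e2]; linarith)
  have i2 := BAl_im_le (r := c / 4) (p := (α + 1 + 1) * g) d2 (by
    rw [n2, f2]; exact BAl_y2 hc o1 (by linarith))
  rw [← (nx _).1] at r2
  have i2' := (nx ((α + 1 + 1) * g / (g + (α + 1 + 1) - 2 * c))).2
  generalize (α + 1 + 1) * g / (g + (α + 1 + 1) - 2 * c) - I * s = g2 at V2 r2 i2'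
  have i2'' : g2.im ≤ c / 4 := by linarith
  -- level one
  obtain ⟨n1, e1, f1⟩ := BAl_id (h := g2) (x := g2.re - c) (y := -g2.im) a1 a1' (by ring) (by ring)
  have d1 := BAl_ne n1 (by linarith)
  obtain ⟨W1, V1⟩ := BAl_step hb (by linarith) hs W2 V2 d1
  have r1 := BAl_le_re (r := c - 3 / 2) (p := (α + 1) * g2) d1 (by
    have := BAl_x1 (j := j + 1) (x := g2.re - c) (y := -g2.im) hc o1 (by linarith) (by linarith)
      (by linarith)
    rw [n1, e1]; linarith)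
  have i1 := BAl_im_le (r := 0.55 * c) (p := (α + 1) * g2) d1 (by
    rw [n1, f1]; exact BAl_y1 hc o1 j3 (by linarith))
  rw [← (nx _).1] at r1
  have i1' := (nx ((α + 1) * g2 / (g2 + (α + 1) - 2 * c))).2
  generalize (α + 1) * g2 / (g2 + (α + 1) - 2 * c) - I * s = g1 at V1 r1 i1'
  have i1'' : g1.im ≤ 0.55 * c := by linarith
  -- level zero
  obtain ⟨-, e0, -⟩ := BAl_id (h := g1) (x := g1.re - c) (y := -g1.im) hj ho (by ring) (by ring)
  refine BAl_end hb (by linarith) hs W1 V1 ?_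
  rw [e0]
  exact BAl_x0 hc o1 j1 j2 (by linarith) (by linarith)

theorem mono_big {om s : ℝ} (ho1 : 0.33 ≤ om) (ho2 : om ≤ 0.34) (hs : 4 ≤ s) :
    Pos (-I * om) 6 s := by
  obtain ⟨α, hα⟩ : ∃ α : ℂ, α = -I * om := ⟨_, rfl⟩
  rw [← hα]
  have a0 : α.re = 0 := by simp [hα]
  have a0' : α.im = -om := by simp [hα]
  have a1 : (α + 1).re = 1 := by simp [a0]
  have a1' : (α + 1).im = -om := by simp [a0']
  have a2 : (α + 1 + 1).re = 2 := by rw [add_re, one_re, a1]; norm_num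
  have a2' : (α + 1 + 1).im = -om := by simp [a0']
  have hb : (6 : ℂ) = 2 * (5 / 2 : ℝ) + 1 := by push_cast; ring
  have hs0 : 0 < s := by linarith
  have o2 : om ^ 2 ≤ 0.1156 := by nlinarith
  have o4 : om ^ 2 * om ^ 2 ≤ 0.1156 * 0.1156 := mul_le_mul o2 o2 (sq_nonneg _) (by norm_num)
  have nx : ∀ z : ℂ, (z - I * s).re = z.re ∧ (z - I * s).im = z.im - s := fun z => by simp
  have dn : ∀ g a : ℂ, (g + a - 2 * (5 / 2 : ℝ)).im = g.im + a.im := fun g a => by simp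
  obtain ⟨g, -, i3, W3, V3⟩ := kp_start (α := α + 1 + 1) hb (by norm_num) (by linarith) hs0
  obtain ⟨d2, n2⟩ := BAl_near (a := α + 1 + 1) (h := g) (r := 2.64) (m := 6.13) (q := 2.33)
    (by norm_num) (by rw [dn]; linarith) (BAl_norm a2 a2' (by norm_num) (by nlinarith))
    (by norm_num)
  obtain ⟨W2, V2⟩ := BAl_step hb (by linarith) hs0 W3 V3 d2
  have i2 := (abs_le.1 ((abs_im_le_norm _).trans n2)).2
  rw [sub_im] at i2
  have i2' := (nx ((α + 1 + 1) * g / (g + (α + 1 + 1) - 2 * (5 / 2 : ℝ)))).2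
  generalize (α + 1 + 1) * g / (g + (α + 1 + 1) - 2 * (5 / 2 : ℝ)) - I * s = g2 at V2 i2'
  obtain ⟨d1, n1⟩ := BAl_near (a := α + 1) (h := g2) (r := 2.11) (m := 4.25) (q := 2.02)
    (by norm_num) (by rw [dn]; linarith) (BAl_norm a1 a1' (by norm_num) (by nlinarith))
    (by norm_num)
  obtain ⟨W1, V1⟩ := BAl_step hb (by linarith) hs0 W2 V2 d1
  have i1 := (abs_le.1 ((abs_im_le_norm _).trans n1)).2
  have r1 := (abs_le.1 ((abs_re_le_norm _).trans n1)).1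
  rw [sub_im] at i1
  rw [sub_re] at r1
  obtain ⟨r1', i1'⟩ := nx ((α + 1) * g2 / (g2 + (α + 1) - 2 * (5 / 2 : ℝ)))
  generalize (α + 1) * g2 / (g2 + (α + 1) - 2 * (5 / 2 : ℝ)) - I * s = g1 at V1 r1' i1'
  refine BAl_end hb (by linarith) hs0 W1 V1 ?_
  have e : (α * g1 * conj (g1 + α - 2 * (5 / 2 : ℝ))).re = om * (om * g1.re - 5 * g1.im) := by
    simp only [mul_re, mul_im, conj_re, conj_im, sub_re, sub_im, add_re, add_im, a0, a0', re_ofNat,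
      im_ofNat, ofReal_re, ofReal_im]
    ring
  rw [e]
  have x1 : -1.11 ≤ g1.re := by linarith
  have y1 : g1.im ≤ -1.89 := by linarith
  exact mul_pos (by linarith) (by nlinarith)

end Vale.Agent.P139
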