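import Vale.Agent.P139.BRic

open Complex MeasureTheory Filter Topology
open scoped ComplexConjugate ContDiff

namespace Vale.Agent.P139

theorem BBl_conj (t w z : ℂ) : (conj (t * w) * (t * z)).re = ‖t‖ ^ 2 * (conj w * z).re := by
  have : conj (t * w) * (t * z) = ((‖t‖ ^ 2 : ℝ) : ℂ) * (conj w * z) := by
    rw [map_mul, Complex.ofReal_pow, ← Complex.conj_mul']; ring
  rw [this, Complex.re_ofReal_mul]

theorem BBl_dU {α : ℂ} (hα : -1 < α.re) (b : ℂ) {s : ℝ} (hs : 0 < s) :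
    s * dU α (b + 1) s = I * b * dU α b s - α * UU α b s := by
  have h1 := spA_succ (spA_re hα) (b + 1) hs
  have h2 := UU_ode α b s
  have e : b + 1 + 1 = b + 2 := by ring
  rw [spA_two α, e] at h1
  unfold dU at h2 ⊢
  rw [e, h1]
  linear_combination (-I) * h2 + (s * α * WW (α + 1) (b + 1) s * (-1) + α * UU α b s) * I_mul_I

theorem bl_step {α : ℂ} {b s x k d : ℝ} (hα : -1 < α.re) (hs : 0 < s) (hx : 0 < x) (hk : 0 < k)
    (hd : |b - α.re| ≤ d) (h : s ^ 2 * d ^ 2 ≤ 4 * k * (k * x ^ 2 + s * α.im * x))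
    (H : Xge α b s x) : Xge α ((b + 1 : ℝ) : ℂ) s (b - k) := by
  obtain ⟨hU, hX⟩ := H
  have s0 : (s : ℂ) ≠ 0 := Complex.ofReal_ne_zero.2 hs.ne'
  obtain ⟨G, hG⟩ : ∃ G : ℂ, -(s : ℂ) * dU α b s = UU α b s * G :=
    ⟨-(s : ℂ) * dU α b s / UU α b s, by field_simp⟩
  have n0 : 0 < ‖UU α b s‖ ^ 2 := pow_pos (norm_pos_iff.2 hU) 2
  have xG : x ≤ G.re := by
    have := BBl_conj (UU α b s) 1 G
    rw [mul_one, map_one, one_mul] at this
    rw [hG, this, mul_comm] at hX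
    exact le_of_mul_le_mul_left hX n0
  have e1 : UU α (b + 1) s = UU α b s / s * (s + I * G) := by
    rw [UU_b_succ hα b hs]
    field_simp
    linear_combination I * hG
  have e2 : -(s : ℂ) * dU α (b + 1) s = UU α b s / s * (α * s + I * b * G) := by
    rw [neg_mul, BBl_dU hα b hs]
    field_simp
    linear_combination I * b * hG
  have w0 : (s : ℂ) + I * G ≠ 0 := fun h0 => by
    have := congrArg Complex.im h0
    simp at this
    linarith
  unfold Xge
  push_cast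
  rw [e2, e1, BBl_conj, norm_mul, mul_pow]
  refine ⟨mul_ne_zero (div_ne_zero hU s0) w0, ?_⟩
  rw [mul_left_comm]
  refine mul_le_mul_of_nonneg_left ?_ (by positivity)
  rw [Complex.sq_norm, Complex.normSq_apply]
  simp only [add_re, add_im, mul_re, mul_im, ofReal_re, ofReal_im, I_re, I_im, conj_re, conj_im]
  have d2 : (b - α.re) ^ 2 ≤ d ^ 2 := sq_le_sq' (abs_le.1 hd).1 (abs_le.1 hd).2
  have g0 : 0 ≤ k * x + s * α.im := by
    have : 0 ≤ 4 * k * x * (k * x + s * α.im) := by nlinarith [sq_nonneg (s * d)]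
    exact nonneg_of_mul_nonneg_right this (by positivity)
  have g1 : k * x ^ 2 + s * α.im * x ≤ k * G.re ^ 2 + s * α.im * G.re := by
    have : 0 ≤ (G.re - x) * (k * G.re + (k * x + s * α.im)) :=
      mul_nonneg (sub_nonneg.2 xG) (add_nonneg (mul_nonneg hk.le (hx.le.trans xG)) g0)
    nlinarith
  have g2 : 0 ≤ 4 * k * (k * (s - G.im) ^ 2 - s * (b - α.re) * (s - G.im) +
      (k * G.re ^ 2 + s * α.im * G.re)) := by
    have a1 := mul_le_mul_of_nonneg_left g1 (show 0 ≤ 4 * k by positivity)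
    have a2 := mul_le_mul_of_nonneg_left d2 (sq_nonneg s)
    nlinarith [sq_nonneg (2 * k * (s - G.im) - s * (b - α.re))]
  have g3 := nonneg_of_mul_nonneg_right g2 (by positivity)
  nlinarith

theorem BBl_big_step {α : ℂ} {c s d : ℝ} (hc : 3 / 2 ≤ c) (h1 : c ≤ α.re) (h2 : α.re ≤ c + 5 / 2)
    (hs1 : 2.7 ≤ s) (hs2 : s ≤ 2.71) (h3 : -α.im * (2.71 * c) ≤ (c + 1) * (c ^ 2 - 1.84))
    (hd : c + 1 ≤ d) (H : Xge α ((c + d : ℝ) : ℂ) s c) : Xge α ((c + (d + 1) : ℝ) : ℂ) s c := by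
  have q : 0 ≤ c ^ 2 - 1.84 := by nlinarith
  have q1 : (c + 1) * (c ^ 2 - 1.84) ≤ d * (c ^ 2 - s ^ 2 / 4) :=
    mul_le_mul hd (by nlinarith) q (by linarith)
  have q2 : -α.im * (s * c) ≤ (c + 1) * (c ^ 2 - 1.84) := by
    rcases le_total 0 α.im with h | h
    · have : 0 ≤ α.im * (s * c) := mul_nonneg h (mul_nonneg (by linarith) (by linarith))
      have : 0 ≤ (c + 1) * (c ^ 2 - 1.84) := mul_nonneg (by linarith) q
      linarith
    · exact (mul_le_mul_of_nonneg_left (mul_le_mul_of_nonneg_right hs2 (by linarith))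
        (by linarith)).trans h3
  have := bl_step (k := d) (d := d) (by linarith) (by linarith) (by linarith) (by linarith)
    (abs_le.2 ⟨by linarith, by linarith⟩) (by
      have := mul_le_mul_of_nonneg_left (q2.trans q1) (show 0 ≤ 4 * d by linarith)
      nlinarith) H
  rwa [add_sub_cancel_right, add_assoc] at this

theorem bl_big (l : ℕ) (hl : 3 ≤ l) {α : ℂ} {s : ℝ} (h1 : (l : ℝ) / 2 ≤ α.re)
    (h2 : α.re ≤ (l : ℝ) / 2 + 5 / 2) (hs1 : 2.7 ≤ s) (hs2 : s ≤ 2.71)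
    (h3 : -α.im * (2.71 * ((l : ℝ) / 2)) ≤ ((l : ℝ) / 2 + 1) * ((l : ℝ) ^ 2 / 4 - 1.84)) :
    Pos α (l + 6) s := by
  have l3 : (3 : ℝ) ≤ l := by exact_mod_cast hl
  have hc : 3 / 2 ≤ (l : ℝ) / 2 := by linarith
  rw [show (l : ℝ) ^ 2 / 4 = ((l : ℝ) / 2) ^ 2 by ring] at h3
  have a0 : α ≠ 0 := fun h => by rw [h, zero_re] at h1; linarith
  have H0 : Xge α (((l : ℝ) / 2 + ((l : ℝ) / 2 + 1) : ℝ) : ℂ) s ((l : ℝ) / 2) :=
    hp_X (by push_cast; ring) (by linarith) h1 a0 (by linarith)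
  have H1 := BBl_big_step hc h1 h2 hs1 hs2 h3 le_rfl H0
  have H2 := BBl_big_step hc h1 h2 hs1 hs2 h3 (by linarith) H1
  have H3 := BBl_big_step hc h1 h2 hs1 hs2 h3 (by linarith) H2
  have H4 := BBl_big_step hc h1 h2 hs1 hs2 h3 (by linarith) H3
  have H5 := BBl_big_step hc h1 h2 hs1 hs2 h3 (by linarith) H4
  have := H5.pos (by linarith) (by linarith)
  convert this using 1
  push_cast
  ring

theorem BBl_one {α : ℂ} {b s : ℝ} (h1 : 0 ≤ α.re) (h2 : α.re ≤ 4) (hs1 : 2.7 ≤ s) (hs2 : s ≤ 2.71)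
    (h3 : 4 ≤ α.im) (b1 : 2 ≤ b) (b2 : b ≤ 7) (H : Xge α b s 1) : Xge α ((b + 1 : ℝ) : ℂ) s 1 := by
  have q : 2.7 * 4 ≤ s * α.im := mul_le_mul hs1 h3 (by norm_num) (by linarith)
  have q1 : s ^ 2 ≤ 2.71 ^ 2 := pow_le_pow_left₀ (by linarith) hs2 2
  have := bl_step (k := b - 1) (d := b) (by linarith) (by linarith) one_pos (by linarith)
    (abs_le.2 ⟨by linarith, by linarith⟩) (by
      have a1 := mul_le_mul_of_nonneg_right q1 (sq_nonneg b)
      have a2 := mul_le_mul_of_nonneg_left q (show 0 ≤ 4 * (b - 1) by linarith)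
      have a3 := mul_nonneg (sub_nonneg.2 b1) (sub_nonneg.2 b2)
      nlinarith) H
  rwa [sub_sub_cancel] at this

theorem bl_small (l : ℕ) (hl : l ≤ 2) {α : ℂ} {s : ℝ} (h1 : (l : ℝ) / 2 ≤ α.re)
    (h2 : α.re ≤ (l : ℝ) / 2 + 5 / 2) (hs1 : 2.7 ≤ s) (hs2 : s ≤ 2.71) (h3 : 4 ≤ α.im) :
    Pos α (l + 6) s := by
  have l2 : (l : ℝ) ≤ 2 := by exact_mod_cast hl
  have l0 : (0 : ℝ) ≤ l := Nat.cast_nonneg l
  have a0 : α ≠ 0 := fun h => by rw [h, zero_im] at h3; linarith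
  have r0 : 0 ≤ α.re := by linarith
  have r4 : α.re ≤ 4 := by linarith
  have s0 : 0 < s := by linarith
  have q : 2.7 * 4 ≤ s * α.im := mul_le_mul hs1 h3 (by norm_num) (by linarith)
  have q1 : s ^ 2 ≤ 2.71 ^ 2 := pow_le_pow_left₀ (by linarith) hs2 2
  have one := fun b => BBl_one (b := b) r0 r4 hs1 hs2 h3
  have H3 : Xge α ((3 : ℝ) : ℂ) s 1 := by
    interval_cases l
    · have A : Xge α ((1 : ℝ) : ℂ) s 2 := by simpa using ric r0 h3 hs1 hs2
      have B := bl_step (k := 1 / 4) (d := 3 / 2) (by linarith) s0 two_pos (by norm_num)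
        (abs_le.2 ⟨by push_cast at h2; linarith, by linarith⟩) (by nlinarith) A
      have C := bl_step (k := 1) (d := 2) (by linarith) s0 (by norm_num) (by norm_num)
        (abs_le.2 ⟨by linarith, by linarith⟩) (by nlinarith) B
      norm_num at C ⊢
      exact C
    · push_cast at h1 h2
      have A : Xge α ((2 : ℝ) : ℂ) s (1 / 2) :=
        hp_X (by push_cast; ring) (by norm_num) h1 a0 s0
      have B := bl_step (k := 1) (d := 3 / 2) (by linarith) s0 (by norm_num) (by norm_num)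
        (abs_le.2 ⟨by linarith, by linarith⟩) (by nlinarith) A
      norm_num at B ⊢
      exact B
    · push_cast at h1 h2
      exact hp_X (by push_cast; ring) (by norm_num) (by linarith) a0 s0
  have H4 := one _ (by norm_num) (by norm_num) H3
  have H5 := one _ (by norm_num) (by norm_num) H4
  have H6 := one _ (by norm_num) (by norm_num) H5
  have H7 := one _ (by norm_num) (by norm_num) H6
  have H8 := one _ (by norm_num) (by norm_num) H7
  interval_cases l
  · convert H6.pos s0 one_pos using 1; push_cast; ring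
  · convert H7.pos s0 one_pos using 1; push_cast; ring
  · convert H8.pos s0 one_pos using 1; push_cast; ring

end Vale.Agent.P139
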