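/-! Fixed point disc arithmetic (scale two to the power 40) for the Tricomi ladder.
Everything here is plain computation; the meaning is given in `BCkS`. -/

namespace Vale.Agent.P139.Ck

/-- evaluate a number before continuing -/
noncomputable def force {α : Type} (n : Nat) (f : Nat → α) : α :=
  Nat.rec (f 0) (fun k _ => f (Nat.succ k)) n

/-- evaluate an integer before continuing -/
noncomputable def forceZ {α : Type} (z : Int) (f : Int → α) : α :=
  Int.rec (fun n => force n fun n => f (Int.ofNat n)) (fun n => force n fun n => f (Int.negSucc n)) z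

/-- discs -/
structure D where
  /-- real part of the centre -/
  x : Int
  /-- imaginary part of the centre -/
  y : Int
  /-- radius -/
  r : Nat
  /-- validity -/
  ok : Bool

/-- evaluate a disc before continuing -/
noncomputable def fD {α : Type} (a : D) (f : D → α) : α :=
  D.rec (fun x y r ok => forceZ x fun x => forceZ y fun y => force r fun r =>
    Bool.rec (f ⟨x, y, r, false⟩) (f ⟨x, y, r, true⟩) ok) a

/-- one Newton step for the square root -/
noncomputable def nw (n u : Nat) : Nat :=
  force u fun u => Nat.succ (Nat.div (Nat.add u (Nat.div n u)) 2)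

/-- upper bound for the modulus -/
noncomputable def nrm (x y : Int) : Nat :=
  force (Int.natAbs x) fun a => force (Int.natAbs y) fun b =>
    force (Nat.add (Nat.mul a a) (Nat.mul b b)) fun n =>
      nw n (nw n (Nat.succ (Bool.rec (Nat.add b (Nat.div a 2)) (Nat.add a (Nat.div b 2))
        (Nat.ble b a))))

/-- rounded quotient -/
noncomputable def rnd (X Y : Int) (R M : Nat) (ok : Bool) : D :=
  force M fun M => ⟨Int.ediv X (Int.ofNat M), Int.ediv Y (Int.ofNat M), Nat.add (Nat.div R M) 3, ok⟩

/-- sum -/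
noncomputable def add (a b : D) : D :=
  fD a fun a => fD b fun b => ⟨Int.add a.x b.x, Int.add a.y b.y, Nat.add a.r b.r, and a.ok b.ok⟩

/-- add a constant -/
noncomputable def addc (a : D) (x y : Int) : D :=
  fD a fun a => ⟨Int.add a.x x, Int.add a.y y, a.r, a.ok⟩

/-- product with minus i -/
noncomputable def mnI (a : D) : D := fD a fun a => ⟨a.y, Int.neg a.x, a.r, a.ok⟩

/-- conjugate -/
noncomputable def cj (a : D) : D := fD a fun a => ⟨a.x, Int.neg a.y, a.r, a.ok⟩

/-- product -/
noncomputable def mul (a b : D) : D :=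
  fD a fun a => fD b fun b =>
    rnd (Int.sub (Int.mul a.x b.x) (Int.mul a.y b.y)) (Int.add (Int.mul a.x b.y) (Int.mul a.y b.x))
      (Nat.add (Nat.mul (nrm a.x a.y) b.r) (Nat.mul (Nat.add (nrm b.x b.y) b.r) a.r))
      1099511627776 (and a.ok b.ok)

/-- inverse -/
noncomputable def inv (a : D) : D :=
  fD a fun a =>
    force (Nat.sub (Nat.add (Nat.mul (Int.natAbs a.x) (Int.natAbs a.x))
      (Nat.mul (Int.natAbs a.y) (Int.natAbs a.y))) (Nat.mul a.r a.r)) fun M =>
      rnd (Int.mul a.x (Int.ofNat 1208925819614629174706176))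
        (Int.mul (Int.neg a.y) (Int.ofNat 1208925819614629174706176))
        (Nat.mul a.r 1208925819614629174706176) M (and a.ok (Nat.ble 1 M))

/-- the map K' ↦ K' + (s - 2 c K') / α -/
noncomputable def astep (tc S e : Nat) (a k : D) : D :=
  fD (inv a) fun i => fD k fun k =>
    forceZ (Int.sub (Int.ofNat 1099511627776) (Int.mul (Int.ofNat tc) i.x)) fun mx =>
      forceZ (Int.neg (Int.mul (Int.ofNat tc) i.y)) fun my =>
        rnd (Int.add (Int.sub (Int.mul mx k.x) (Int.mul my k.y)) (Int.mul (Int.ofNat S) i.x))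
          (Int.add (Int.add (Int.mul mx k.y) (Int.mul my k.x)) (Int.mul (Int.ofNat S) i.y))
          (Nat.add (Nat.add (Nat.mul (nrm mx my) k.r)
            (Nat.mul i.r (Nat.add (Nat.add (nrm (Int.sub (Int.ofNat S) (Int.mul (Int.ofNat tc) k.x))
              (Int.neg (Int.mul (Int.ofNat tc) k.y))) e) (Nat.mul tc k.r))))
            (Nat.mul (Nat.add (Int.natAbs i.x) (Int.natAbs i.y)) e))
          1099511627776 (and i.ok k.ok)

/-- the map K ↦ K / (1 - i K) -/
noncomputable def tstep (k : D) : D :=
  mnI (addc (inv (addc (mnI k) (Int.ofNat 1099511627776) (Int.ofNat 0)))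
    (Int.negSucc 1099511627775) (Int.ofNat 0))

/-- the starting disc -/
noncomputable def start (tc S e : Nat) : D :=
  mul ⟨Int.ofNat S, Int.ofNat 0, e, true⟩
    (rnd (Int.ofNat (Nat.mul (Nat.mul tc 1099511627776) 1208925819614629174706176))
      (Int.ofNat (Nat.mul S 1208925819614629174706176))
      (Nat.mul (nrm (Int.ofNat (Nat.mul tc 1099511627776)) (Int.ofNat S)) 1208925819614629174706176)
      (Nat.add (Nat.mul (Nat.mul tc tc) 1208925819614629174706176) (Nat.mul S (Nat.sub S e))) true)

/-- the ladder -/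
noncomputable def kp (tc S e k : Nat) : D → D :=
  Nat.rec (fun _ => start tc S e)
    (fun _ ih a => fD (addc a (Int.ofNat 1099511627776) (Int.ofNat 0)) fun a1 =>
      tstep (astep tc S e a1 (ih a1))) k

/-- positive real part -/
noncomputable def pos (d : D) : Bool :=
  fD d fun d => and d.ok (Int.rec (fun n => Nat.ble (Nat.succ d.r) n) (fun _ => false) d.x)

/-- shift by an integer -/
noncomputable def sh (a : D) (n : Int) : D :=
  addc a (Int.mul n (Int.ofNat 1099511627776)) (Int.ofNat 0)

/-- the last three levels in linear form -/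
noncomputable def lin {β : Type} (tc S e k : Nat) (a : D) (f : D → D → β) : β :=
  fD a fun a => fD ⟨Int.ofNat S, Int.ofNat 0, e, true⟩ fun s =>
    fD (add s (mul (sh a (Int.sub 2 (Int.ofNat tc))) (kp tc S e k (sh a 2)))) fun A2 =>
      fD (add (sh a 2) (mnI A2)) fun F2 =>
        fD (add (mul s F2) (mul (sh a (Int.sub 1 (Int.ofNat tc))) A2)) fun A1 =>
          fD (add (mul (sh a 1) F2) (mnI A1)) fun F1 =>
            fD (add (mul s F1) (mul (sh a (Int.neg (Int.ofNat tc))) A1)) fun A0 =>
              fD (mul a F1) fun P0 => f A0 P0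

/-- the test Re H > 0 -/
noncomputable def tX (tc S e N : Nat) (cx cy : Int) (hx hy : Nat) : Bool :=
  fD ⟨cx, cy, nrm (Int.ofNat hx) (Int.ofNat hy), true⟩ fun a =>
    and (Nat.ble 3 N) (pos (astep tc S e a (kp tc S e N a)))

/-- product of linear factors -/
noncomputable def prod (z : D) (l : List (Int × Int)) : D :=
  List.rec ⟨Int.ofNat 1099511627776, Int.ofNat 0, 0, true⟩
    (fun p _ ih => mul (addc z p.1 p.2) ih) l

/-- the test for the dispersion function -/
noncomputable def tD (l S e O eo : Nat) (L : List (Int × Int)) (N : Nat) (cx cy : Int)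
    (hx hy : Nat) : Bool :=
  fD ⟨cx, cy, nrm (Int.ofNat hx) (Int.ofNat hy), true⟩ fun z =>
    fD ⟨Int.ofNat (Nat.mul l 549755813888), Int.neg (Int.ofNat O), eo, true⟩ fun w =>
      lin (Nat.add l 5) S e N (add z w) fun Af Pf =>
        lin (Nat.add l 5) S e N (add (cj z) w) fun Ag Pg =>
          and (Nat.ble 1 N) (pos (mul (add (mul Pf (cj Ag)) (mul Af (cj Pg))) (cj (prod z L))))

/-- the test for the profile -/
noncomputable def tF (bx b g : Int) (N : Nat) (cx cy : Int) (hx hy : Nat) : Bool :=
  lin 5 (Int.natAbs cy) hy N ⟨Int.ofNat 0, Int.neg cx, hx, true⟩ fun A P =>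
    and (Nat.ble 1 N) (pos (mul (add (mul ⟨bx, b, 0, true⟩ P) (mul ⟨g, Int.ofNat 0, 0, true⟩ A)) (cj A)))

/-- subdivision trees -/
inductive Tr where
  /-- test the cell -/
  | l (n : Nat)
  /-- split the first coordinate -/
  | x (a b : Tr)
  /-- split the second coordinate -/
  | y (a b : Tr)

/-- midpoint -/
noncomputable def mid (a b : Int) : Int := Int.ediv (Int.add a b) (Int.ofNat 2)

/-- run a test on all cells -/
noncomputable def cover (t : Nat → Int → Int → Nat → Nat → Bool) (T : Tr) :
    Int → Int → Int → Int → Bool :=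
  Tr.rec (fun n x0 x1 y0 y1 => forceZ (mid x0 x1) fun cx => forceZ (mid y0 y1) fun cy =>
      force (Int.natAbs (Int.sub x1 cx)) fun hx => force (Int.natAbs (Int.sub y1 cy)) fun hy =>
        t n cx cy hx hy)
    (fun _ _ ia ib x0 x1 y0 y1 => forceZ (mid x0 x1) fun m => and (ia x0 m y0 y1) (ib m x1 y0 y1))
    (fun _ _ ia ib x0 x1 y0 y1 => forceZ (mid y0 y1) fun m => and (ia x0 x1 y0 m) (ib x0 x1 m y1))
    T

end Vale.Agent.P139.Ck
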