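import Vale.Agent.P139.BDefs

open Complex MeasureTheory Filter Topology
open scoped ComplexConjugate ContDiff

namespace Vale.Agent.P139

theorem bMax_closed (x0 x1 t : ℝ) : IsClosed (Rc x0 x1 t) := by
  unfold Rc
  refine (isClosed_le continuous_const Complex.continuous_re).inter ?_
  refine (isClosed_le Complex.continuous_re continuous_const).inter ?_
  exact (isClosed_le continuous_const Complex.continuous_im).inter
    (isClosed_le Complex.continuous_im continuous_const)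

theorem bMax_bdd (x0 x1 t : ℝ) : Bornology.IsBounded (Rc x0 x1 t) := by
  rw [isBounded_iff_forall_norm_le]
  refine ⟨|x0| + |x1| + |t|, fun z hz => ?_⟩
  obtain ⟨a, b, c, d⟩ := hz
  have h1 := Complex.norm_le_abs_re_add_abs_im z
  have h2 : |z.re| ≤ |x0| + |x1| := by
    rw [abs_le]
    constructor
    · linarith [neg_abs_le x0, abs_nonneg x1]
    · linarith [le_abs_self x1, abs_nonneg x0]
  have h3 : |z.im| ≤ |t| := by
    rw [abs_le]
    constructor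
    · linarith [le_abs_self t]
    · linarith [le_abs_self t]
  linarith

theorem bMax_frontier (x0 x1 t : ℝ) : frontier (Rc x0 x1 t) ⊆ Rb x0 x1 t := by
  intro z hz
  have hz1 : z ∈ Rc x0 x1 t := (bMax_closed x0 x1 t).frontier_subset hz
  refine ⟨hz1, ?_⟩
  by_contra hc
  push Not at hc
  obtain ⟨a, b, c, d⟩ := hz1
  obtain ⟨a', b', c', d'⟩ := hc
  have ho : IsOpen {w : ℂ | x0 < w.re ∧ w.re < x1 ∧ -t < w.im ∧ w.im < t} := by
    refine (isOpen_lt continuous_const Complex.continuous_re).inter ?_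
    refine (isOpen_lt Complex.continuous_re continuous_const).inter ?_
    exact (isOpen_lt continuous_const Complex.continuous_im).inter
      (isOpen_lt Complex.continuous_im continuous_const)
  have hsub : {w : ℂ | x0 < w.re ∧ w.re < x1 ∧ -t < w.im ∧ w.im < t} ⊆ Rc x0 x1 t :=
    fun w hw => ⟨hw.1.le, hw.2.1.le, hw.2.2.1.le, hw.2.2.2.le⟩
  have hi : z ∈ interior (Rc x0 x1 t) :=
    interior_maximal hsub ho ⟨lt_of_le_of_ne a (Ne.symm a'), lt_of_le_of_ne b b',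
      lt_of_le_of_ne c (Ne.symm c'), lt_of_le_of_ne d d'⟩
  exact hz.2 hi

/-- minimum principle on a rectangle -/
theorem mp_rect {x0 x1 t : ℝ} {g : ℂ → ℂ} {U : Set ℂ} (hU : IsOpen U) (hsub : Rc x0 x1 t ⊆ U)
    (hg : DifferentiableOn ℂ g U) (hb : ∀ z ∈ Rb x0 x1 t, 0 < (g z).re) :
    ∀ z ∈ Rc x0 x1 t, 0 < (g z).re := by
  intro z hz
  have _ := hU
  have hcl := bMax_closed x0 x1 t
  have hd : DiffContOnCl ℂ (fun w => Complex.exp (-g w)) (Rc x0 x1 t) := by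
    apply DifferentiableOn.diffContOnCl
    rw [hcl.closure_eq]
    exact (hg.mono hsub).neg.cexp
  obtain ⟨w, hw, hmax⟩ :=
    Complex.exists_mem_frontier_isMaxOn_norm (bMax_bdd x0 x1 t) ⟨z, hz⟩ hd
  have h1 : ‖Complex.exp (-g z)‖ ≤ ‖Complex.exp (-g w)‖ := hmax (subset_closure hz)
  rw [Complex.norm_exp, Complex.norm_exp, Real.exp_le_exp, Complex.neg_re, Complex.neg_re] at h1
  have h2 := hb w (bMax_frontier x0 x1 t hw)
  linarith

theorem bMax_re {q g : ℂ} (h : 0 < (q * g * conj q).re) : 0 < g.re := by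
  have h1 : q * g * conj q = (Complex.normSq q : ℂ) * g := by
    rw [← Complex.mul_conj]; ring
  rw [h1, Complex.re_ofReal_mul] at h
  by_contra hc
  have := mul_nonpos_of_nonneg_of_nonpos (Complex.normSq_nonneg q) (not_lt.1 hc)
  linarith

theorem mp_zero0 {x0 x1 t : ℝ} {F p : ℂ → ℂ} {U : Set ℂ} (hU : IsOpen U)
    (hsub : Rc x0 x1 t ⊆ U) (hF : DifferentiableOn ℂ F U) (hp : DifferentiableOn ℂ p U)
    (hp0 : ∀ z ∈ U, p z ≠ 0) (hb : ∀ z ∈ Rb x0 x1 t, 0 < (F z * conj (p z)).re) :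
    ∀ z ∈ Rc x0 x1 t, F z ≠ 0 := by
  have hg : DifferentiableOn ℂ (fun z => F z / p z) U := hF.div hp hp0
  have key := mp_rect hU hsub hg (fun z hz => by
    have h0 := hp0 z (hsub hz.1)
    have h := hb z hz
    have e : F z = p z * (F z / p z) := by field_simp
    rw [e] at h
    exact bMax_re h)
  intro z hz h0
  have := key z hz
  simp [h0] at this

theorem bMax_fac (F : ℂ → ℂ) {z1 : ℂ} (h1 : F z1 = 0) (z : ℂ) :
    F z = (z - z1) * dslope F z1 z := by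
  have h := sub_smul_dslope F z1 z
  rw [h1, sub_zero, smul_eq_mul] at h
  exact h.symm

theorem bMax_conj {q g p : ℂ} (h : 0 < (q * g * conj (q * p)).re) : 0 < (g * conj p).re := by
  apply bMax_re (q := q)
  rw [map_mul] at h
  have e : q * (g * conj p) * conj q = q * g * (conj q * conj p) := by ring
  rw [e]
  exact h

theorem mp_zero1 {x0 x1 t : ℝ} {F p : ℂ → ℂ} {U : Set ℂ} (hU : IsOpen U)
    (hsub : Rc x0 x1 t ⊆ U) (hF : DifferentiableOn ℂ F U) (hp : DifferentiableOn ℂ p U)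
    (hp0 : ∀ z ∈ U, p z ≠ 0) {z1 : ℂ} (hz1 : z1 ∈ Rc x0 x1 t) (h1 : F z1 = 0)
    (hb : ∀ z ∈ Rb x0 x1 t, 0 < (F z * conj ((z - z1) * p z)).re) :
    (∀ z ∈ Rc x0 x1 t, z ≠ z1 → F z ≠ 0) ∧ deriv F z1 ≠ 0 := by
  have hG : DifferentiableOn ℂ (dslope F z1) U :=
    (Complex.differentiableOn_dslope (hU.mem_nhds (hsub hz1))).2 hF
  have key := mp_zero0 hU hsub hG hp hp0 (fun z hz => by
    have h := hb z hz
    rw [bMax_fac F h1 z] at h
    exact bMax_conj h)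
  refine ⟨fun z hz hne => ?_, ?_⟩
  · rw [bMax_fac F h1 z]
    exact mul_ne_zero (sub_ne_zero.2 hne) (key z hz)
  · have := key z1 hz1
    rwa [dslope_same] at this

theorem bMax_two {x0 x1 t : ℝ} {F p : ℂ → ℂ} {U : Set ℂ} (hU : IsOpen U)
    (hsub : Rc x0 x1 t ⊆ U) (hF : DifferentiableOn ℂ F U) (hp : DifferentiableOn ℂ p U)
    (hp0 : ∀ z ∈ U, p z ≠ 0) {z1 z2 : ℂ} (hz1 : z1 ∈ Rc x0 x1 t) (hz2 : z2 ∈ Rc x0 x1 t)
    (hne : z1 ≠ z2) (h1 : F z1 = 0) (h2 : F z2 = 0)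
    (hb : ∀ z ∈ Rb x0 x1 t, 0 < (F z * conj ((z - z1) * (z - z2) * p z)).re) :
    (∀ z ∈ Rc x0 x1 t, z ≠ z1 → z ≠ z2 → F z ≠ 0) ∧ deriv F z1 ≠ 0 := by
  have hG : DifferentiableOn ℂ (dslope F z1) U :=
    (Complex.differentiableOn_dslope (hU.mem_nhds (hsub hz1))).2 hF
  have hG2 : dslope F z1 z2 = 0 := by
    have h := bMax_fac F h1 z2
    rw [h2] at h
    rcases mul_eq_zero.1 h.symm with h' | h'
    · exact absurd (sub_eq_zero.1 h').symm hne
    · exact h'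
  have key := (mp_zero1 hU hsub hG hp hp0 hz2 hG2 (fun z hz => by
    have h := hb z hz
    rw [bMax_fac F h1 z, mul_assoc (z - z1) (z - z2)] at h
    exact bMax_conj h)).1
  refine ⟨fun z hz hn1 hn2 => ?_, ?_⟩
  · rw [bMax_fac F h1 z]
    exact mul_ne_zero (sub_ne_zero.2 hn1) (key z hz hn2)
  · have := key z1 hz1 hne
    rwa [dslope_same] at this

theorem mp_zero2 {x0 x1 t : ℝ} {F p : ℂ → ℂ} {U : Set ℂ} (hU : IsOpen U)
    (hsub : Rc x0 x1 t ⊆ U) (hF : DifferentiableOn ℂ F U) (hp : DifferentiableOn ℂ p U)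
    (hp0 : ∀ z ∈ U, p z ≠ 0) {z1 z2 : ℂ} (hz1 : z1 ∈ Rc x0 x1 t) (hz2 : z2 ∈ Rc x0 x1 t)
    (hne : z1 ≠ z2) (h1 : F z1 = 0) (h2 : F z2 = 0)
    (hb : ∀ z ∈ Rb x0 x1 t, 0 < (F z * conj ((z - z1) * (z - z2) * p z)).re) :
    (∀ z ∈ Rc x0 x1 t, z ≠ z1 → z ≠ z2 → F z ≠ 0) ∧ deriv F z1 ≠ 0 ∧ deriv F z2 ≠ 0 := by
  have a := bMax_two hU hsub hF hp hp0 hz1 hz2 hne h1 h2 hb
  have b := bMax_two hU hsub hF hp hp0 hz2 hz1 hne.symm h2 h1 (fun z hz => by
    rw [mul_comm (z - z2) (z - z1)]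
    exact hb z hz)
  exact ⟨a.1, a.2, b.2⟩

end Vale.Agent.P139
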