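import Vale.Agent.P139.BHP
import Vale.Agent.P139.BMax

open Complex MeasureTheory Filter Topology
open scoped ComplexConjugate ContDiff

namespace Vale.Agent.P139

theorem bdn_ne {z : ℂ} (h : 0 < z.re) : z ≠ 0 := fun h1 => by
  rw [h1] at h
  exact lt_irrefl _ h

theorem bdn_lad {α b : ℂ} {s : ℝ} (hα : -1 < α.re) (hs : 0 < s)
    (hV : WW (α + 2 + 1) (b + 1) s ≠ 0) :
    WW (α + 1) b s = -I * (bK α b s * bA1 α b s) ∧
      WW (α + 1) (b + 1) s = bK α b s * bF1 α b s := by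
  have h1 : α + 1 ≠ 0 := bdn_ne (spA_re hα)
  have h2 : α + 2 ≠ 0 := bdn_ne (spA_re2 hα)
  have e0 : WW (α + 2 + 1) (b + 1) s * Kp (α + 2) b s = I * WW (α + 2 + 1) b s := by
    rw [Kp]
    field_simp
  have e1 := lad_W (spA_re2 hα) b hs
  have e2 := lad_V (α := α + 1) (by linarith [spA_re hα]) b hs
  have e3 := lad_W (spA_re hα) b hs
  have e4 := lad_V hα b hs
  rw [spA_two α] at e2 e3 e4
  have e5 : (α + 1) * (α + 2) * bK α b s = -WW (α + 2 + 1) (b + 1) s := by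
    rw [bK]
    field_simp
  have f1 : (α + 2) * WW (α + 2) b s = WW (α + 2 + 1) (b + 1) s * bA2 α b s := by
    rw [bA2]
    linear_combination e1 - (α + 2 - (b - 1)) * e0
  have f2 : (α + 2) * WW (α + 2) (b + 1) s = I * WW (α + 2 + 1) (b + 1) s * bF2 α b s := by
    rw [bF2]
    linear_combination (α + 2) * e2 + f1 + WW (α + 2 + 1) (b + 1) s * bA2 α b s * I_mul_I
  have f3 : (α + 1) * (α + 2) * WW (α + 1) b s = I * WW (α + 2 + 1) (b + 1) s * bA1 α b s := by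
    rw [bA1]
    linear_combination (α + 2) * e3 + s * f2 + I * (α + 1 - (b - 1)) * f1
  have f4 : (α + 1) * (α + 2) * WW (α + 1) (b + 1) s =
      -WW (α + 2 + 1) (b + 1) s * bF1 α b s := by
    rw [bF1]
    linear_combination (α + 1) * (α + 2) * e4 + f3 + I * (α + 1) * f2
      + (α + 1) * WW (α + 2 + 1) (b + 1) s * bF2 α b s * I_mul_I
  refine ⟨mul_left_cancel₀ (mul_ne_zero h1 h2) ?_, mul_left_cancel₀ (mul_ne_zero h1 h2) ?_⟩
  · linear_combination f3 + I * bA1 α b s * e5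
  · linear_combination f4 - bF1 α b s * e5

theorem lin_U {α b : ℂ} {s : ℝ} (hα : -1 < α.re) (hs : 0 < s)
    (hV : WW (α + 2 + 1) (b + 1) s ≠ 0) : UU α b s = bK α b s * bA0 α b s := by
  obtain ⟨h1, h2⟩ := bdn_lad hα hs hV
  rw [lad_U hα b hs, h1, h2, bA0]
  linear_combination -(α - (b - 1)) * (bK α b s * bA1 α b s) * I_mul_I

theorem lin_dU {α b : ℂ} {s : ℝ} (hα : -1 < α.re) (hs : 0 < s)
    (hV : WW (α + 2 + 1) (b + 1) s ≠ 0) : dU α b s = -(bK α b s * bP0 α b s) := by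
  rw [dU, (bdn_lad hα hs hV).2, bP0]
  ring

theorem bK_ne {α b : ℂ} {s : ℝ} (hα : -1 < α.re) (hV : WW (α + 2 + 1) (b + 1) s ≠ 0) :
    bK α b s ≠ 0 :=
  div_ne_zero (neg_ne_zero.mpr hV) (mul_ne_zero (bdn_ne (spA_re hα)) (bdn_ne (spA_re2 hα)))

theorem DD_ne_of_pos (l : ℕ) (om s : ℝ) (z : ℂ) (h1 : Pos (z + l / 2 - I * om) (l + 6) s)
    (h2 : Pos (conj z + l / 2 - I * om) (l + 6) s) : DD l om s z ≠ 0 := by
  unfold DD
  unfold Pos at h1 h2
  generalize UU (z + l / 2 - I * om) (l + 6) s = u at *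
  generalize dU (z + l / 2 - I * om) (l + 6) s = p at *
  generalize UU (conj z + l / 2 - I * om) (l + 6) s = v at *
  generalize dU (conj z + l / 2 - I * om) (l + 6) s = q at *
  intro h
  have h3 := congrArg re h
  have h4 := congrArg im h
  simp only [add_re, add_im, mul_re, mul_im, conj_re, conj_im, zero_re, zero_im] at h1 h2 h3 h4
  have h5 : (v.re ^ 2 + v.im ^ 2) * (u.re * p.re - -u.im * p.im) +
      (u.re ^ 2 + u.im ^ 2) * (v.re * q.re - -v.im * q.im) = 0 := by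
    linear_combination (u.re * v.re + u.im * v.im) * h3 - (u.re * v.im - u.im * v.re) * h4
  have h6 : 0 < u.re ^ 2 + u.im ^ 2 := by
    refine lt_of_le_of_ne (by positivity) fun h7 => ?_
    have h8 : u.re = 0 := by nlinarith
    have h9 : u.im = 0 := by nlinarith
    rw [h8, h9] at h1
    linarith
  have h7 := mul_neg_of_pos_of_neg h6 h2
  have h8 := mul_nonpos_of_nonneg_of_nonpos (show 0 ≤ v.re ^ 2 + v.im ^ 2 by positivity) h1.le
  linarith

theorem bdn_re (l : ℕ) (om : ℝ) (z : ℂ) : (z + l / 2 - I * om).re = z.re + l / 2 := by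
  simp

theorem bdn_α (l : ℕ) (om : ℝ) {z : ℂ} (hz : -1 / 2 < z.re) : -1 < (z + l / 2 - I * om).re := by
  have h0 : (0 : ℝ) ≤ l := Nat.cast_nonneg l
  rw [bdn_re]
  linarith

theorem bdn_V (l : ℕ) (om : ℝ) {s : ℝ} (hs : 0 < s) {z : ℂ} (hz : -1 / 2 < z.re) :
    WW (z + l / 2 - I * om + 2 + 1) (l + 6 + 1) s ≠ 0 := by
  have h0 : (0 : ℝ) ≤ l := Nat.cast_nonneg l
  have h1 : (z + l / 2 - I * om + 2).re = z.re + l / 2 + 2 := by simp
  refine V_ne (c := (l + 5) / 2) ?_ (by positivity) ?_ ?_ hs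
  · push_cast
    ring
  · rw [h1]
    linarith
  · rw [h1]
    linarith

theorem bdn_holo {α b : ℂ} {s : ℝ} (hα : -1 < α.re) (hs : 0 < s)
    (hV : WW (α + 2 + 1) (b + 1) s ≠ 0) :
    DifferentiableAt ℂ (fun a => bA0 a b s) α ∧ DifferentiableAt ℂ (fun a => bP0 a b s) α ∧
      DifferentiableAt ℂ (fun a => bK a b s) α := by
  have h1 : ∀ c : ℂ, DifferentiableAt ℂ (fun a => WW (a + 2 + 1) c s) α := fun c =>
    DifferentiableAt.comp (g := fun a => WW a c s) (f := fun a : ℂ => a + 2 + 1) α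
      (WW_holo c hs (spA_re' (spA_re2 hα))) (by fun_prop)
  obtain ⟨K, hK⟩ : ∃ K : ℂ → ℂ, ∀ a, Kp (a + 2) b s = K a := ⟨_, fun _ => rfl⟩
  have h2 : DifferentiableAt ℂ K α := by
    rw [← funext hK]
    exact ((h1 b).const_mul I).div (h1 (b + 1)) hV
  refine ⟨?_, ?_, (h1 (b + 1)).neg.div (by fun_prop)
    (mul_ne_zero (bdn_ne (spA_re hα)) (bdn_ne (spA_re2 hα)))⟩
  · simp only [bA0, bF1, bA1, bF2, bA2, hK]
    fun_prop
  · simp only [bP0, bF1, bA1, bF2, bA2, hK]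
    fun_prop

theorem bdn_two (l : ℕ) (om : ℝ) {F : ℂ → ℂ}
    (hF : ∀ z : ℂ, -1 / 2 < z.re → DifferentiableAt ℂ F (z + l / 2 - I * om)) {z : ℂ}
    (hz : -1 / 2 < z.re) : DifferentiableAt ℂ (fun y => F (y + l / 2 - I * om)) z ∧
      DifferentiableAt ℂ (fun y => conj (F (conj y + l / 2 - I * om))) z := by
  have h1 : ∀ w : ℂ, -1 / 2 < w.re → DifferentiableAt ℂ (fun y => F (y + l / 2 - I * om)) w :=
    fun w hw => DifferentiableAt.comp (g := F) (f := fun y : ℂ => y + l / 2 - I * om) w (hF w hw)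
      (by fun_prop)
  have h2 := (h1 (conj z) hz).hasDerivAt.conj_conj
  rw [conj_conj] at h2
  exact ⟨h1 z hz, h2.differentiableAt⟩

theorem Dn_holo (l : ℕ) (om : ℝ) {s : ℝ} (hs : 0 < s) :
    DifferentiableOn ℂ (Dn l om s) {z | -1 / 2 < z.re} := by
  intro z hz
  have h1 := bdn_two l om (F := fun a => bA0 a (l + 6) s)
    (fun w hw => (bdn_holo (bdn_α l om hw) hs (bdn_V l om hs hw)).1) hz
  have h2 := bdn_two l om (F := fun a => bP0 a (l + 6) s)
    (fun w hw => (bdn_holo (bdn_α l om hw) hs (bdn_V l om hs hw)).2.1) hz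
  exact ((h2.1.mul h1.2).add (h1.1.mul h2.2)).differentiableWithinAt

/-- DD is Dn times a holomorphic factor without zeros -/
theorem DD_fac (l : ℕ) (om : ℝ) {s : ℝ} (hs : 0 < s) : ∃ k : ℂ → ℂ,
    DifferentiableOn ℂ k {z | -1 / 2 < z.re} ∧
      ∀ z : ℂ, -1 / 2 < z.re → k z ≠ 0 ∧ DD l om s z = k z * Dn l om s z := by
  refine ⟨fun z => -(bK (z + l / 2 - I * om) (l + 6) s *
    conj (bK (conj z + l / 2 - I * om) (l + 6) s)), fun z hz => ?_, fun z hz => ⟨?_, ?_⟩⟩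
  · have h1 := bdn_two l om (F := fun a => bK a (l + 6) s)
      (fun w hw => (bdn_holo (bdn_α l om hw) hs (bdn_V l om hs hw)).2.2) hz
    exact (h1.1.mul h1.2).neg.differentiableWithinAt
  · exact neg_ne_zero.mpr (mul_ne_zero (bK_ne (bdn_α l om hz) (bdn_V l om hs hz))
      ((map_ne_zero _).mpr (bK_ne (bdn_α l om (z := conj z) hz) (bdn_V l om hs (z := conj z) hz))))
  · rw [DD, Dn, lin_U (bdn_α l om hz) hs (bdn_V l om hs hz),
      lin_dU (bdn_α l om hz) hs (bdn_V l om hs hz),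
      lin_U (bdn_α l om (z := conj z) hz) hs (bdn_V l om hs (z := conj z) hz),
      lin_dU (bdn_α l om (z := conj z) hz) hs (bdn_V l om hs (z := conj z) hz)]
    simp only [map_mul, map_neg]
    ring

theorem DD_sym {om s : ℝ} (hs : 0 < s) (hW : WW (1 - I * om) 7 s = 0) :
    DD 0 om s 0 = 0 ∧ DD 0 om s 1 = 0 ∧ DD 1 om s (1 / 2) = 0 := by
  have hre : 0 < (1 - I * om : ℂ).re := by simp
  refine ⟨?_, ?_, ?_⟩
  · have h1 : dU (0 + ((0 : ℕ) : ℂ) / 2 - I * om) (((0 : ℕ) : ℂ) + 6) s = 0 := by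
      rw [dU, show 0 + ((0 : ℕ) : ℂ) / 2 - I * om + 1 = 1 - I * om by push_cast; ring,
        show ((0 : ℕ) : ℂ) + 6 + 1 = 7 by push_cast; ring, hW, mul_zero]
    rw [DD, map_zero, h1, map_zero, zero_mul, mul_zero, add_zero]
  · have h1 := spA_succ hre 6 hs
    rw [DD, map_one, show 1 + ((0 : ℕ) : ℂ) / 2 - I * om = 1 - I * om by push_cast; ring,
      show ((0 : ℕ) : ℂ) + 6 = 6 by push_cast; ring]
    have h2 : dU (1 - I * om) 6 s = -I * UU (1 - I * om) 6 s := by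
      rw [show (6 : ℂ) + 1 = 7 by norm_num, hW] at h1
      rw [dU, UU_eq hre 6 hs, show (6 : ℂ) + 1 = 7 by norm_num]
      linear_combination (-I * (1 - I * om)) * h1
        - (1 - I * om) * WW (1 - I * om + 1) 7 s * I_mul_I
    rw [h2, map_mul, map_neg, conj_I]
    ring
  · have h1 : conj (1 / 2 : ℂ) = 1 / 2 := by rw [map_div₀, map_one, map_ofNat]
    rw [DD, h1, show 1 / 2 + ((1 : ℕ) : ℂ) / 2 - I * om = 1 - I * om by push_cast; ring,
      show ((1 : ℕ) : ℂ) + 6 = 7 by push_cast; ring, UU_eq hre 7 hs, hW]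
    simp

theorem bdn_fac (l : ℕ) (om : ℝ) {s : ℝ} (hs : 0 < s) {z : ℂ} (hz : -1 / 2 < z.re) :
    (DD l om s z = 0 ↔ Dn l om s z = 0) ∧
      (Dn l om s z = 0 → deriv (Dn l om s) z ≠ 0 → deriv (DD l om s) z ≠ 0) := by
  obtain ⟨k, h1, h2⟩ := DD_fac l om hs
  have h3 : {z : ℂ | -1 / 2 < z.re} ∈ 𝓝 z := (isOpen_lt continuous_const continuous_re).mem_nhds hz
  refine ⟨by rw [(h2 z hz).2, mul_eq_zero, or_iff_right (h2 z hz).1], fun h4 h5 => ?_⟩
  have h6 : DD l om s =ᶠ[𝓝 z] fun y => k y * Dn l om s y :=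
    mem_of_superset h3 fun y hy => (h2 y hy).2
  rw [h6.deriv_eq, deriv_fun_mul (h1.differentiableAt h3) ((Dn_holo l om hs).differentiableAt h3),
    h4, mul_zero, zero_add]
  exact mul_ne_zero (h2 z hz).1 h5

theorem bdn_add {z c : ℂ} {x : ℝ} (hz : -x < z.re) (hc : x ≤ c.re) : z + c ≠ 0 :=
  bdn_ne (by rw [add_re]; linarith)

theorem ls_zero {om s x1 t : ℝ} (hs : 0 < s) (hW : WW (1 - I * om) 7 s = 0) (hx : 1 ≤ x1)
    (ht : 0 ≤ t) (hb : ∀ z ∈ Rb (-1 / 8) x1 t,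
      0 < (Dn 0 om s z * conj (z * (z - 1) * ((z + 1 / 2) * (z + 1 / 2) * (z + 2)))).re) :
    (∀ z ∈ Rc (-1 / 8) x1 t, z ≠ 0 → z ≠ 1 → DD 0 om s z ≠ 0) ∧ deriv (DD 0 om s) 0 ≠ 0 ∧
      deriv (DD 0 om s) 1 ≠ 0 := by
  obtain ⟨z0, z1, -⟩ := DD_sym hs hW
  have r0 : -1 / 2 < (0 : ℂ).re := by norm_num
  have r1 : -1 / 2 < (1 : ℂ).re := by norm_num
  have d0 := (bdn_fac 0 om hs r0).1.mp z0
  have d1 := (bdn_fac 0 om hs r1).1.mp z1
  obtain ⟨h1, h2, h3⟩ := mp_zero2 (x0 := -1 / 8) (x1 := x1) (t := t) (F := Dn 0 om s)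
    (p := fun z => (z + 1 / 2) * (z + 1 / 2) * (z + 2)) (U := {z | -(1 / 4) < z.re})
    (isOpen_lt continuous_const continuous_re) (fun z hz => lt_of_lt_of_le (by norm_num) hz.1)
    ((Dn_holo 0 om hs).mono fun z hz => lt_trans (by norm_num) (Set.mem_ofPred.mp hz)) (by fun_prop)
    (fun z hz => mul_ne_zero (mul_ne_zero (bdn_add hz (by norm_num)) (bdn_add hz (by norm_num)))
      (bdn_add hz (by norm_num))) (z1 := 0) (z2 := 1)
    ⟨by norm_num, by simpa using zero_le_one.trans hx, by simpa using ht, by simpa using ht⟩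
    ⟨by norm_num, by simpa using hx, by simpa using ht, by simpa using ht⟩ zero_ne_one d0 d1
    (fun z hz => by rw [sub_zero]; exact hb z hz)
  exact ⟨fun z hz h4 h5 h6 => h1 z hz h4 h5
    ((bdn_fac 0 om hs (lt_of_lt_of_le (by norm_num) hz.1)).1.mp h6),
    (bdn_fac 0 om hs r0).2 d0 h2, (bdn_fac 0 om hs r1).2 d1 h3⟩

theorem ls_one {om s x1 t : ℝ} (hs : 0 < s) (hW : WW (1 - I * om) 7 s = 0) (hx : 1 / 2 ≤ x1)
    (ht : 0 ≤ t) (hb : ∀ z ∈ Rb 0 x1 t, 0 < (Dn 1 om s z *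
      conj ((z - 1 / 2) * ((z + 1 / 8) * (z + 1 / 2) * (z + 1) * (z + 1)))).re) :
    (∀ z ∈ Rc 0 x1 t, z ≠ 1 / 2 → DD 1 om s z ≠ 0) ∧ deriv (DD 1 om s) (1 / 2) ≠ 0 := by
  obtain ⟨-, -, z0⟩ := DD_sym hs hW
  have r0 : -1 / 2 < (1 / 2 : ℂ).re := by norm_num
  have d0 := (bdn_fac 1 om hs r0).1.mp z0
  obtain ⟨h1, h2⟩ := mp_zero1 (x0 := 0) (x1 := x1) (t := t) (F := Dn 1 om s)
    (p := fun z => (z + 1 / 8) * (z + 1 / 2) * (z + 1) * (z + 1)) (U := {z | -(1 / 8) < z.re})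
    (isOpen_lt continuous_const continuous_re) (fun z hz => lt_of_lt_of_le (by norm_num) hz.1)
    ((Dn_holo 1 om hs).mono fun z hz => lt_trans (by norm_num) (Set.mem_ofPred.mp hz)) (by fun_prop)
    (fun z hz => mul_ne_zero (mul_ne_zero (mul_ne_zero (bdn_add hz (by norm_num))
      (bdn_add hz (by norm_num))) (bdn_add hz (by norm_num))) (bdn_add hz (by norm_num)))
    (z1 := 1 / 2)
    ⟨by norm_num, by simpa using hx, by simpa using ht, by simpa using ht⟩ d0 hb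
  exact ⟨fun z hz h4 h6 => h1 z hz h4
    ((bdn_fac 1 om hs (lt_of_lt_of_le (by norm_num) hz.1)).1.mp h6),
    (bdn_fac 1 om hs r0).2 d0 h2⟩

theorem ls_two {om s x1 t : ℝ} (hs : 0 < s) (hb : ∀ z ∈ Rb 0 x1 t, 0 < (Dn 2 om s z *
      conj ((z + 1 / 8 - 15 / 16 * I) * (z + 1 / 8 + 15 / 16 * I) * (z + 1) * (z + 1)
        * (z + 2))).re) : ∀ z ∈ Rc 0 x1 t, DD 2 om s z ≠ 0 := by
  have h1 := mp_zero0 (x0 := 0) (x1 := x1) (t := t) (F := Dn 2 om s)
    (p := fun z => (z + 1 / 8 - 15 / 16 * I) * (z + 1 / 8 + 15 / 16 * I) * (z + 1) * (z + 1)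
      * (z + 2)) (U := {z | -(1 / 8) < z.re})
    (isOpen_lt continuous_const continuous_re) (fun z hz => lt_of_lt_of_le (by norm_num) hz.1)
    ((Dn_holo 2 om hs).mono fun z hz => lt_trans (by norm_num) (Set.mem_ofPred.mp hz)) (by fun_prop)
    (fun z hz => by
      have h2 : -(1 / 8) < z.re := hz
      refine mul_ne_zero (mul_ne_zero (mul_ne_zero (mul_ne_zero (bdn_ne ?_) (bdn_ne ?_))
        (bdn_add hz (by norm_num))) (bdn_add hz (by norm_num))) (bdn_add hz (by norm_num))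
      · norm_num
        linarith
      · norm_num
        linarith) hb
  exact fun z hz h6 => h1 z hz ((bdn_fac 2 om hs (lt_of_lt_of_le (by norm_num) hz.1)).1.mp h6)

end Vale.Agent.P139
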