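import Vale.Agent.P139.BCkS
import Vale.Agent.P139.BDn

open Complex MeasureTheory Filter Topology
open scoped ComplexConjugate ContDiff

namespace Vale.Agent.P139.Ck

theorem one_sh {a : ℂ} {A : D} (ha : In a A) :
    In (a + 1) (addc A (Int.ofNat 1099511627776) (Int.ofNat 0)) :=
  addc_sound ha (by simp [cz, q])

theorem hb_tc {b : ℂ} {tc : ℕ} (hb : b = tc + 1) : b = 2 * (((tc : ℝ) / 2 : ℝ) : ℂ) + 1 := by
  rw [hb]
  push_cast
  ring

theorem kp_sound {tc S e : ℕ} {b : ℂ} {s : ℝ} (hb : b = tc + 1) (htc : 0 < tc) (hs0 : 0 < s)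
    (hs : |s * q - S| ≤ e) (k : ℕ) : ∀ (α : ℂ) (A : D), In α A → -1 < α.re →
      (tc : ℝ) / 2 + 1 / 2 ≤ α.re + 1 + k → In (Kp α b s) (kp tc S e k A) ∧
        ((kp tc S e k A).ok = true → WW (α + 1) (b + 1) s ≠ 0) := by
  have hs1 : (s : ℂ) ≠ 0 := ofReal_ne_zero.2 hs0.ne'
  induction k with
  | zero =>
    intro α A _ _ h2
    obtain ⟨h, a1, a2, a3, a4⟩ := kp_start (α := α) (hb_tc hb) (by positivity)
      (by simpa using h2) hs0
    have htc' : (0 : ℝ) < tc := by exact_mod_cast htc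
    have hh : h ≠ 0 := by
      rintro rfl
      simp only [zero_re] at a1
      linarith
    have hV : WW (α + 1) (b + 1) s ≠ 0 := by
      intro h0
      rw [h0, mul_zero] at a4
      exact mul_ne_zero (mul_ne_zero I_ne_zero hh) a3 a4.symm
    have e : Kp α b s = s / h := by
      rw [Kp, div_eq_div_iff hV hh]
      linear_combination -a4
    rw [e]
    exact ⟨start_sound htc hs0 hs a1 a2, fun _ => hV⟩
  | succ k ih =>
    intro α A ha h1 h2
    have e0 : kp tc S e (k + 1) A = tstep (astep tc S e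
        (addc A (Int.ofNat 1099511627776) (Int.ofNat 0))
        (kp tc S e k (addc A (Int.ofNat 1099511627776) (Int.ofNat 0)))) := by
      simp only [kp, fD_eq]
    have r1 : (α + 1).re = α.re + 1 := by simp
    obtain ⟨i1, i2⟩ := ih (α + 1) _ (one_sh ha) (by rw [r1]; linarith)
      (by rw [r1]; push_cast at h2; linarith)
    have t := tstep_both (astep_sound (tc := tc) (one_sh ha) i1 hs)
    have key : (kp tc S e (k + 1) A).ok = true → WW (α + 1) (b + 1) s ≠ 0 ∧ Kp α b s =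
        (Kp (α + 1) b s + (s - tc * Kp (α + 1) b s) * (α + 1)⁻¹) /
          (1 - I * (Kp (α + 1) b s + (s - tc * Kp (α + 1) b s) * (α + 1)⁻¹)) := by
      intro hok
      rw [e0] at hok
      obtain ⟨n1, n2⟩ := t.2 hok
      have hV := i2 (astep_ok n2).2
      have hα : α + 1 ≠ 0 := fun h => by
        have := congrArg Complex.re h
        rw [r1, zero_re] at this
        linarith
      have w1 := lad_W (spA_re h1) b hs0
      have w2 := lad_V h1 b hs0
      have eK : Kp (α + 1) b s + (s - tc * Kp (α + 1) b s) * (α + 1)⁻¹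
          = WW (α + 1) b s / WW (α + 1 + 1) (b + 1) s := by
        rw [Kp]
        field_simp
        rw [hb] at w1 ⊢
        linear_combination -w1
      rw [eK] at n1 ⊢
      have e3 : WW (α + 1) (b + 1) s = I * WW (α + 1 + 1) (b + 1) s *
          (1 - I * (WW (α + 1) b s / WW (α + 1 + 1) (b + 1) s)) := by
        rw [w2]
        field_simp
        linear_combination (WW (α + 1) b s) * I_mul_I
      refine ⟨by rw [e3]; exact mul_ne_zero (mul_ne_zero I_ne_zero hV) n1, ?_⟩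
      rw [Kp, e3]
      field_simp
    refine ⟨fun hok => ?_, fun hok => (key hok).1⟩
    rw [(key hok).2]
    rw [e0] at hok ⊢
    exact t.1 hok

theorem tX_sound {tc S e : ℕ} {b : ℂ} {s : ℝ} (hb : b = tc + 1) (htc : 5 ≤ tc) (hs0 : 0 < s)
    (hs : |s * q - S| ≤ e) (n : ℕ) (cx cy : ℤ) (hx hy : ℕ) (h : tX tc S e n cx cy hx hy = true)
    (x y : ℝ) (h1 : |x * q - cx| ≤ hx) (h2 : |y * q - cy| ≤ hy) (h3 : (tc : ℝ) / 2 - 3 ≤ x) :
    Pos (x + y * I) b s := by
  simp only [tX, fD_eq, Bool.and_eq_true, Nat.ble_eq] at h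
  have ha := cell_In h1 h2
  set α : ℂ := x + y * I with hα
  have r : α.re = x := by simp [hα]
  have t5 : (5 : ℝ) ≤ tc := by exact_mod_cast htc
  have n3 : (3 : ℝ) ≤ n := by exact_mod_cast h.1
  have hr : -1 < α.re := by rw [r]; linarith
  obtain ⟨i1, i2⟩ := kp_sound hb (by omega) hs0 hs n α _ ha hr (by rw [r]; linarith)
  obtain ⟨p1, p2⟩ := pos_sound (astep_sound (tc := tc) ha i1 hs) h.2
  have hV := i2 (astep_ok p1).2
  have h0 := ((inv_both ha).2 (astep_ok p1).1).1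
  have e : UU α b s = (Kp α b s + (s - tc * Kp α b s) * α⁻¹) * (α * WW (α + 1) (b + 1) s) := by
    rw [lad_U hr b hs0, Kp, hb]
    rw [hb] at hV
    field_simp
    ring
  have e2 : conj (UU α b s) * dU α b s = -(conj (Kp α b s + (s - tc * Kp α b s) * α⁻¹) *
      ((‖α * WW (α + 1) (b + 1) s‖ ^ 2 : ℝ) : ℂ)) := by
    rw [e, dU, map_mul, ← Complex.normSq_eq_norm_sq, Complex.normSq_eq_conj_mul_self]
    ring
  rw [Pos, e2, neg_re, re_mul_ofReal, conj_re, neg_lt_zero]
  exact mul_pos p2 (pow_pos (norm_pos_iff.2 (mul_ne_zero h0 hV)) 2)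

theorem lin_sound {tc S e : ℕ} {b : ℂ} {s : ℝ} (hb : b = tc + 1) (htc : 5 ≤ tc) (hs0 : 0 < s)
    (hs : |s * q - S| ≤ e) {k : ℕ} (hk : 1 ≤ k) {α : ℂ} {A : D} (ha : In α A)
    (h3 : (tc : ℝ) / 2 - 3 ≤ α.re) : ∃ A0 P0 : D, In (bA0 α b s) A0 ∧ In (bP0 α b s) P0 ∧
      ∀ f : D → D → Bool, lin tc S e k A f = f A0 P0 := by
  have t5 : (5 : ℝ) ≤ tc := by exact_mod_cast htc
  have k1 : (1 : ℝ) ≤ k := by exact_mod_cast hk
  have r2 : (α + 2).re = α.re + 2 := by simp
  have a2 : In (α + 2) (sh A 2) := by simpa using sh_sound ha 2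
  have a1 : In (α + 1) (sh A 1) := by simpa using sh_sound ha 1
  have c2 : In (α + 2 - (b - 1)) (sh A (Int.sub 2 (Int.ofNat tc))) := by
    have := sh_sound ha (Int.sub 2 (Int.ofNat tc))
    rw [show α + 2 - (b - 1) = α + ((Int.sub 2 (Int.ofNat tc) : ℤ) : ℂ) by
      simp [hb, sub_def]; ring]
    exact this
  have c1 : In (α + 1 - (b - 1)) (sh A (Int.sub 1 (Int.ofNat tc))) := by
    have := sh_sound ha (Int.sub 1 (Int.ofNat tc))
    rw [show α + 1 - (b - 1) = α + ((Int.sub 1 (Int.ofNat tc) : ℤ) : ℂ) by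
      simp [hb, sub_def]; ring]
    exact this
  have c0 : In (α - (b - 1)) (sh A (Int.neg (Int.ofNat tc))) := by
    have := sh_sound ha (Int.neg (Int.ofNat tc))
    rw [show α - (b - 1) = α + ((Int.neg (Int.ofNat tc) : ℤ) : ℂ) by
      simp [hb, neg_def]; ring]
    exact this
  have hS := real_In hs
  have hK := (kp_sound hb (by omega) hs0 hs k (α + 2) _ a2 (by rw [r2]; linarith)
    (by rw [r2]; linarith)).1
  have hA2 : In (bA2 α b s) _ := add_sound hS (mul_sound c2 hK)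
  have hF2 := add_sound a2 (mnI_sound hA2)
  rw [show α + 2 + -I * bA2 α b s = bF2 α b s by rw [bF2]; ring] at hF2
  have hA1 : In (bA1 α b s) _ := add_sound (mul_sound hS hF2) (mul_sound c1 hA2)
  have hF1 := add_sound (mul_sound a1 hF2) (mnI_sound hA1)
  rw [show (α + 1) * bF2 α b s + -I * bA1 α b s = bF1 α b s by rw [bF1]; ring] at hF1
  have hA0 : In (bA0 α b s) _ := add_sound (mul_sound hS hF1) (mul_sound c0 hA1)
  have hP0 : In (bP0 α b s) _ := mul_sound ha hF1
  exact ⟨_, _, hA0, hP0, fun f => by simp only [lin, fD_eq]⟩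

theorem tD_sound {l S e O eo : ℕ} {L : List (ℤ × ℤ)} {s om : ℝ} (hs0 : 0 < s)
    (hs : |s * q - S| ≤ e) (ho : |om * q - O| ≤ eo) (n : ℕ) (cx cy : ℤ) (hx hy : ℕ)
    (h : tD l S e O eo L n cx cy hx hy = true) (x y : ℝ) (h1 : |x * q - cx| ≤ hx)
    (h2 : |y * q - cy| ≤ hy) (h3 : -1 / 2 ≤ x) :
    0 < (Dn l om s (x + y * I) *
      conj (L.map fun p => (x + y * I : ℂ) + cz p.1 p.2 / q).prod).re := by
  have hz := cell_In h1 h2
  set z : ℂ := x + y * I with hzz
  have r : z.re = x := by simp [hzz]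
  have hw : In ((l : ℂ) / 2 - I * om)
      ⟨Int.ofNat (Nat.mul l 549755813888), Int.neg (Int.ofNat O), eo, true⟩ := by
    intro _
    have : ((l : ℂ) / 2 - I * om) * q - cz (Int.ofNat (Nat.mul l 549755813888))
        (Int.neg (Int.ofNat O)) = -I * ((om * q - O : ℝ) : ℂ) := by
      simp [cz, neg_def, q]
      ring
    rw [this, norm_mul, norm_neg, norm_I, one_mul, Complex.norm_real]
    exact ho
  have hb : (l : ℂ) + 6 = (Nat.add l 5 : ℕ) + 1 := by
    simp only [Nat.add_eq]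
    push_cast
    ring
  have hn : 1 ≤ n := by
    by_contra hn
    simp only [tD, lin, fD_eq, Bool.and_eq_true, Nat.ble_eq] at h
    exact hn h.1
  obtain ⟨Af, Pf, f1, f2, f3⟩ := lin_sound hb (by simp) hs0 hs hn (add_sound hz hw)
    (by simp [r]; linarith)
  obtain ⟨Ag, Pg, g1, g2, g3⟩ := lin_sound hb (by simp) hs0 hs hn (add_sound (cj_sound hz) hw)
    (by simp [r]; linarith)
  simp only [tD, fD_eq, f3, g3, Bool.and_eq_true] at h
  have := (pos_sound (mul_sound (add_sound (mul_sound f2 (cj_sound g1))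
    (mul_sound f1 (cj_sound g2))) (cj_sound (prod_sound hz L))) h.2).2
  simpa only [Dn, add_sub_assoc] using this

theorem tF_sound {bx b g : ℤ} (n : ℕ) (cx cy : ℤ) (hx hy : ℕ)
    (h : tF bx b g n cx cy hx hy = true) (om s : ℝ) (h1 : |om * q - cx| ≤ hx)
    (h2 : |s * q - cy| ≤ hy) (hs0 : 0 < s) :
    0 < ((cz bx b / q * bP0 (-I * om) 6 s + cz g 0 / q * bA0 (-I * om) 6 s) *
      conj (bA0 (-I * om) 6 s)).re := by
  have hq : (q : ℂ) ≠ 0 := ofReal_ne_zero.2 q_pos.ne'
  have hs : |s * q - (cy.natAbs : ℕ)| ≤ hy := by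
    refine le_trans ?_ h2
    rw [Nat.cast_natAbs, Int.cast_abs]
    have := abs_abs_sub_abs_le_abs_sub (s * q) (cy : ℝ)
    rwa [abs_of_pos (mul_pos hs0 q_pos)] at this
  have ha : In (-I * om) ⟨Int.ofNat 0, Int.neg cx, hx, true⟩ := by
    intro _
    have : -I * om * q - cz (Int.ofNat 0) (Int.neg cx) = -I * ((om * q - cx : ℝ) : ℂ) := by
      simp [cz, neg_def]
      ring
    rw [this, norm_mul, norm_neg, norm_I, one_mul, Complex.norm_real]
    exact h1
  have hn : 1 ≤ n := by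
    by_contra hn
    simp only [tF, lin, fD_eq, Bool.and_eq_true, Nat.ble_eq] at h
    exact hn h.1
  obtain ⟨A, P, f1, f2, f3⟩ := lin_sound (b := 6) (tc := 5) (by norm_num) le_rfl hs0 hs hn ha
    (by simp; norm_num)
  simp only [tF, f3, Bool.and_eq_true] at h
  have c1 : In (cz bx b / q) ⟨bx, b, 0, true⟩ := fun _ => by simp [div_mul_cancel₀ _ hq]
  have c2 : In (cz g 0 / q) ⟨g, Int.ofNat 0, 0, true⟩ := fun _ => by simp [div_mul_cancel₀ _ hq]
  exact (pos_sound (mul_sound (add_sound (mul_sound c1 f2) (mul_sound c2 f1)) (cj_sound f1)) h.2).2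

end Vale.Agent.P139.Ck
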