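import Mathlib
import Vale.Agent.P139.BCk

open Complex
open scoped ComplexConjugate

namespace Vale.Agent.P139.Ck

theorem force_eq {α : Type} (n : ℕ) (f : ℕ → α) : force n f = f n := by cases n <;> rfl

theorem forceZ_eq {α : Type} (z : ℤ) (f : ℤ → α) : forceZ z f = f z := by
  cases z <;> simp only [forceZ, force_eq]

theorem fD_eq {α : Type} (a : D) (f : D → α) : fD a f = f a := by
  obtain ⟨x, y, r, ok⟩ := a
  cases ok <;> simp only [fD, forceZ_eq, force_eq]

/-- the scale -/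
noncomputable def q : ℝ := 1099511627776

theorem q_pos : 0 < q := by norm_num [q]

/-- the centre -/
noncomputable def cz (x y : ℤ) : ℂ := (x : ℂ) + (y : ℂ) * I

/-- membership in a disc -/
def In (z : ℂ) (d : D) : Prop := d.ok = true → ‖z * q - cz d.x d.y‖ ≤ d.r

theorem cz_normSq (x y : ℤ) : ‖cz x y‖ ^ 2 = (x : ℝ) ^ 2 + (y : ℝ) ^ 2 := by
  rw [Complex.sq_norm, Complex.normSq_apply]
  simp [cz]
  ring

theorem cz_le (x y : ℤ) : ‖cz x y‖ ≤ |(x : ℝ)| + |(y : ℝ)| := by
  refine (norm_add_le _ _).trans (le_of_eq ?_)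
  simp

theorem nw_sound (n u : ℕ) (hu : 0 < u) : n ≤ nw n u ^ 2 := by
  rw [nw, force_eq]
  show n ≤ ((u + n / u) / 2 + 1) ^ 2
  have h1 : n < u * (n / u + 1) := Nat.lt_mul_div_succ n hu
  have h2 : u + n / u + 1 ≤ 2 * ((u + n / u) / 2 + 1) := by omega
  have h3 : (u + n / u + 1) ^ 2 ≤ (2 * ((u + n / u) / 2 + 1)) ^ 2 := Nat.pow_le_pow_left h2 2
  have h4 : 4 * (u * (n / u + 1)) ≤ (u + n / u + 1) ^ 2 := by
    zify
    nlinarith [sq_nonneg ((u : ℤ) - (n / u + 1))]
  nlinarith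

theorem nw_pos (n u : ℕ) : 0 < nw n u := by
  rw [nw, force_eq]
  exact Nat.succ_pos _

theorem natAbs_sq (x : ℤ) : ((x.natAbs : ℕ) : ℝ) * x.natAbs = (x : ℝ) ^ 2 := by
  rw [Nat.cast_natAbs, Int.cast_abs, abs_mul_abs_self, sq]

theorem nrm_sound (x y : ℤ) : ‖cz x y‖ ≤ nrm x y := by
  simp only [nrm, force_eq]
  refine (pow_le_pow_iff_left₀ (norm_nonneg _) (Nat.cast_nonneg _) two_ne_zero).1 ?_
  have h := nw_sound (x.natAbs * x.natAbs + y.natAbs * y.natAbs) _ (nw_pos
    (x.natAbs * x.natAbs + y.natAbs * y.natAbs) (Nat.succ (Bool.rec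
      (Nat.add y.natAbs (Nat.div x.natAbs 2)) (Nat.add x.natAbs (Nat.div y.natAbs 2))
        (Nat.ble y.natAbs x.natAbs))))
  have h2 := (Nat.cast_le (α := ℝ)).2 h
  rw [Nat.cast_add, Nat.cast_mul, Nat.cast_mul, natAbs_sq, natAbs_sq, Nat.cast_pow] at h2
  rw [cz_normSq]
  exact h2

theorem rnd_ok (X Y : ℤ) (R M : ℕ) (ok : Bool) : (rnd X Y R M ok).ok = ok := by
  rw [rnd, force_eq]

theorem ediv_err (X : ℤ) (M : ℕ) (hM : 0 < M) :
    |((X - M * (X / M) : ℤ) : ℝ)| ≤ M := by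
  have h0 : (0 : ℤ) < M := by exact_mod_cast hM
  have h1 := Int.emod_nonneg X h0.ne'
  have h2 := Int.emod_lt_of_pos X h0
  rw [Int.emod_def] at h1 h2
  rw [← Int.cast_abs, abs_of_nonneg h1]
  exact_mod_cast h2.le

theorem rnd_sound {z : ℂ} {X Y : ℤ} {R M : ℕ} {ok : Bool}
    (h : ok = true → 0 < M ∧ ‖z * q * M - cz X Y‖ ≤ R) : In z (rnd X Y R M ok) := by
  intro hok
  rw [rnd_ok] at hok
  obtain ⟨hM, h⟩ := h hok
  rw [rnd, force_eq]
  show ‖z * q - cz (X / M) (Y / M)‖ ≤ ((R / M + 3 : ℕ) : ℝ)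
  have hM' : (0 : ℝ) < M := by exact_mod_cast hM
  have e : (z * q - cz (X / M) (Y / M)) * M
      = (z * q * M - cz X Y) + cz (X - M * (X / M)) (Y - M * (Y / M)) := by
    simp only [cz]
    push_cast
    ring
  have h1 : ‖z * q - cz (X / M) (Y / M)‖ * M ≤ R + (M + M) := by
    have := congrArg norm e
    rw [norm_mul, Complex.norm_natCast] at this
    rw [this]
    exact (norm_add_le _ _).trans (add_le_add h ((cz_le _ _).trans
      (add_le_add (ediv_err X M hM) (ediv_err Y M hM))))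
  have h2 : (R : ℝ) ≤ M * ((R / M : ℕ) + 1) := by
    exact_mod_cast (Nat.lt_mul_div_succ R hM).le
  push_cast
  nlinarith

theorem add_sound {a b : ℂ} {A B : D} (ha : In a A) (hb : In b B) : In (a + b) (add A B) := by
  simp only [add, fD_eq]
  intro hok
  simp only [Bool.and_eq_true] at hok
  have e : (a + b) * q - cz (Int.add A.x B.x) (Int.add A.y B.y)
      = (a * q - cz A.x A.y) + (b * q - cz B.x B.y) := by
    simp only [cz, Int.add_def]
    push_cast
    ring
  rw [e]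
  refine (norm_add_le _ _).trans ?_
  simp only [Nat.add_eq, Nat.cast_add]
  exact add_le_add (ha hok.1) (hb hok.2)

theorem addc_ok (A : D) (x y : ℤ) : (addc A x y).ok = A.ok := by rw [addc, fD_eq]

theorem addc_sound {a c : ℂ} {A : D} {x y : ℤ} (ha : In a A) (hc : c * q = cz x y) :
    In (a + c) (addc A x y) := by
  simp only [addc, fD_eq]
  intro hok
  have e : (a + c) * q - cz (Int.add A.x x) (Int.add A.y y) = a * q - cz A.x A.y := by
    rw [add_mul, hc]
    simp only [cz, Int.add_def]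
    push_cast
    ring
  rw [e]
  exact ha hok

theorem sh_sound {a : ℂ} {A : D} (ha : In a A) (n : ℤ) : In (a + n) (sh A n) := by
  refine addc_sound ha ?_
  simp [cz, q]

theorem mnI_ok (A : D) : (mnI A).ok = A.ok := by rw [mnI, fD_eq]

theorem neg_def (x : ℤ) : Int.neg x = -x := rfl

theorem sub_def (x y : ℤ) : Int.sub x y = x - y := rfl

theorem mnI_sound {a : ℂ} {A : D} (ha : In a A) : In (-I * a) (mnI A) := by
  simp only [mnI, fD_eq]
  intro hok
  have e : -I * a * q - cz A.y (Int.neg A.x) = -I * (a * q - cz A.x A.y) := by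
    simp only [cz, neg_def]
    push_cast
    linear_combination (-(A.y : ℂ)) * I_mul_I
  rw [e, norm_mul, norm_neg, norm_I, one_mul]
  exact ha hok

theorem cj_sound {a : ℂ} {A : D} (ha : In a A) : In (conj a) (cj A) := by
  simp only [cj, fD_eq]
  intro hok
  have e : conj a * q - cz A.x (Int.neg A.y) = conj (a * q - cz A.x A.y) := by
    simp [cz, neg_def]
  rw [e, Complex.norm_conj]
  exact ha hok

theorem q_eq : ((1099511627776 : ℕ) : ℂ) = q := by norm_num [q]

theorem qq_eq : ((1208925819614629174706176 : ℕ) : ℝ) = q * q := by norm_num [q]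

theorem mul_sound {a b : ℂ} {A B : D} (ha : In a A) (hb : In b B) : In (a * b) (mul A B) := by
  simp only [mul, fD_eq]
  refine rnd_sound fun hok => ⟨by norm_num, ?_⟩
  simp only [Bool.and_eq_true] at hok
  have h1 := ha hok.1
  have h2 := hb hok.2
  have e : a * b * q * (1099511627776 : ℕ) - cz (Int.sub (Int.mul A.x B.x) (Int.mul A.y B.y))
      (Int.add (Int.mul A.x B.y) (Int.mul A.y B.x))
      = cz A.x A.y * (b * q - cz B.x B.y) + (b * q) * (a * q - cz A.x A.y) := by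
    rw [q_eq]
    simp only [cz, Int.add_def, Int.mul_def, sub_def]
    push_cast
    linear_combination ((A.y : ℂ) * B.y) * I_mul_I
  have h3 : ‖b * q‖ ≤ nrm B.x B.y + B.r := by
    have := norm_add_le (cz B.x B.y) (b * q - cz B.x B.y)
    rw [add_sub_cancel] at this
    linarith [nrm_sound B.x B.y]
  rw [e]
  refine (norm_add_le _ _).trans ?_
  simp only [Nat.add_eq, Nat.mul_eq, Nat.cast_add, Nat.cast_mul, norm_mul (cz A.x A.y),
    norm_mul (b * q)]
  exact add_le_add (mul_le_mul (nrm_sound _ _) h2 (norm_nonneg _) (Nat.cast_nonneg _))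
    (mul_le_mul h3 h1 (norm_nonneg _) (by positivity))

theorem inv_core {w c : ℂ} {r M : ℝ} (hr : 0 ≤ r) (h : ‖w - c‖ ≤ r) (hM : M = ‖c‖ ^ 2 - r ^ 2)
    (h0 : 0 < M) : w ≠ 0 ∧ ‖w⁻¹ * M - conj c‖ ≤ r := by
  have hw : w ≠ 0 := by
    rintro rfl
    rw [zero_sub, norm_neg] at h
    nlinarith [norm_nonneg c]
  refine ⟨hw, ?_⟩
  have e : w⁻¹ * M - conj c = w⁻¹ * (M - w * conj c) := by field_simp
  rw [e, norm_mul, norm_inv, inv_mul_le_iff₀ (norm_pos_iff.2 hw)]
  refine (pow_le_pow_iff_left₀ (norm_nonneg _) (by positivity) two_ne_zero).1 ?_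
  have h2 : ‖w - c‖ ^ 2 ≤ r ^ 2 := pow_le_pow_left₀ (norm_nonneg _) h 2
  rw [mul_pow]
  simp only [Complex.sq_norm, Complex.normSq_apply, sub_re, sub_im, mul_re, mul_im, conj_re,
    conj_im, ofReal_re, ofReal_im] at h2 hM ⊢
  have h3 := mul_nonneg h0.le (sub_nonneg.2 h2)
  subst hM
  nlinarith

theorem inv_both {a : ℂ} {A : D} (ha : In a A) :
    In a⁻¹ (inv A) ∧ ((inv A).ok = true → a ≠ 0 ∧ A.ok = true) := by
  simp only [inv, fD_eq, force_eq]
  set M : ℕ := Nat.sub (Nat.add (Nat.mul A.x.natAbs A.x.natAbs) (Nat.mul A.y.natAbs A.y.natAbs))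
    (Nat.mul A.r A.r) with hM
  have key : (A.ok && Nat.ble 1 M) = true → A.ok = true ∧ 0 < M ∧ a * q ≠ 0 ∧
      ‖(a * q)⁻¹ * (M : ℝ) - conj (cz A.x A.y)‖ ≤ A.r := by
    intro hok
    simp only [Bool.and_eq_true, Nat.ble_eq] at hok
    have h1 : A.r * A.r ≤ A.x.natAbs * A.x.natAbs + A.y.natAbs * A.y.natAbs := by
      simp only [Nat.add_eq, Nat.mul_eq, Nat.sub_eq] at hM
      omega
    have h2 : (M : ℝ) = ‖cz A.x A.y‖ ^ 2 - (A.r : ℝ) ^ 2 := by
      simp only [hM, Nat.add_eq, Nat.mul_eq, Nat.sub_eq]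
      rw [Nat.cast_sub h1, Nat.cast_add, Nat.cast_mul, Nat.cast_mul, natAbs_sq, natAbs_sq,
        cz_normSq, Nat.cast_mul, sq (A.r : ℝ)]
    exact ⟨hok.1, hok.2, inv_core (Nat.cast_nonneg _) (ha hok.1) h2 (by exact_mod_cast hok.2)⟩
  refine ⟨rnd_sound fun hok => ?_, fun hok => ?_⟩
  · obtain ⟨-, h1, h2, h3⟩ := key hok
    refine ⟨h1, ?_⟩
    have hq : (q : ℂ) ≠ 0 := ofReal_ne_zero.2 q_pos.ne'
    have ha0 : a ≠ 0 := left_ne_zero_of_mul h2
    have e : a⁻¹ * q * M - cz (Int.mul A.x (Int.ofNat 1208925819614629174706176))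
        (Int.mul (Int.neg A.y) (Int.ofNat 1208925819614629174706176))
        = ((a * q)⁻¹ * (M : ℝ) - conj (cz A.x A.y)) * ((q * q : ℝ) : ℂ) := by
      have e2 : cz (Int.mul A.x (Int.ofNat 1208925819614629174706176))
          (Int.mul (Int.neg A.y) (Int.ofNat 1208925819614629174706176))
          = conj (cz A.x A.y) * ((q * q : ℝ) : ℂ) := by
        rw [← qq_eq]
        simp [cz, neg_def]
        ring
      rw [e2]
      push_cast
      field_simp
    rw [e, norm_mul, Complex.norm_of_nonneg (mul_pos q_pos q_pos).le]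
    simp only [Nat.mul_eq, Nat.cast_mul, qq_eq]
    exact mul_le_mul_of_nonneg_right h3 (mul_pos q_pos q_pos).le
  · rw [rnd_ok] at hok
    obtain ⟨h0, -, h2, -⟩ := key hok
    exact ⟨left_ne_zero_of_mul h2, h0⟩

theorem astep_ok {tc S e : ℕ} {A K : D} (h : (astep tc S e A K).ok = true) :
    (inv A).ok = true ∧ K.ok = true := by
  simp only [astep, fD_eq, forceZ_eq, rnd_ok, Bool.and_eq_true] at h
  exact h

theorem astep_sound {tc S e : ℕ} {α k : ℂ} {s : ℝ} {A K : D} (ha : In α A) (hk : In k K)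
    (hs : |s * q - S| ≤ e) : In (k + (s - tc * k) * α⁻¹) (astep tc S e A K) := by
  simp only [astep, fD_eq, forceZ_eq]
  refine rnd_sound fun hok => ⟨by norm_num, ?_⟩
  simp only [Bool.and_eq_true] at hok
  have h1 := (inv_both ha).1 hok.1
  have h2 := hk hok.2
  generalize inv A = J at h1 ⊢
  set mx := Int.sub (Int.ofNat 1099511627776) (Int.mul (Int.ofNat tc) J.x) with hmx
  set my := Int.neg (Int.mul (Int.ofNat tc) J.y) with hmy
  set tx := Int.sub (Int.ofNat S) (Int.mul (Int.ofNat tc) K.x) with htx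
  set ty := Int.neg (Int.mul (Int.ofNat tc) K.y) with hty
  have em : cz mx my = q - tc * cz J.x J.y := by
    rw [← q_eq]
    simp [hmx, hmy, cz, sub_def, neg_def]
    ring
  have et : cz tx ty = S - tc * cz K.x K.y := by
    simp [htx, hty, cz, sub_def, neg_def]
    ring
  have eX : cz (Int.add (Int.sub (Int.mul mx K.x) (Int.mul my K.y)) (Int.mul (Int.ofNat S) J.x))
      (Int.add (Int.add (Int.mul mx K.y) (Int.mul my K.x)) (Int.mul (Int.ofNat S) J.y))
      = cz mx my * cz K.x K.y + S * cz J.x J.y := by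
    simp only [cz, Int.add_def, Int.mul_def, sub_def, Int.ofNat_eq_natCast]
    push_cast
    linear_combination (-(my : ℂ) * K.y) * I_mul_I
  have hs' : ‖(s * q - S : ℂ)‖ ≤ e := by
    have : (s * q - S : ℂ) = ((s * q - S : ℝ) : ℂ) := by push_cast; ring
    rw [this, Complex.norm_real]
    exact hs
  have h3 : ‖(s * q - tc * (k * q) : ℂ)‖ ≤ nrm tx ty + e + tc * K.r := by
    have e3 : (s * q - tc * (k * q) : ℂ)
        = cz tx ty + (s * q - S) - tc * (k * q - cz K.x K.y) := by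
      rw [et]; ring
    rw [e3]
    refine (norm_sub_le _ _).trans (add_le_add ((norm_add_le _ _).trans
      (add_le_add (nrm_sound _ _) hs')) ?_)
    rw [norm_mul, Complex.norm_natCast]
    exact mul_le_mul_of_nonneg_left h2 (Nat.cast_nonneg _)
  have e1 : (k + (s - tc * k) * α⁻¹) * q * (1099511627776 : ℕ)
      - (cz mx my * cz K.x K.y + S * cz J.x J.y)
      = cz mx my * (k * q - cz K.x K.y) + (α⁻¹ * q - cz J.x J.y) * (s * q - tc * (k * q))
        + cz J.x J.y * (s * q - S) := by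
    rw [q_eq, em]
    ring
  rw [eX, e1]
  refine (norm_add_le _ _).trans ?_
  simp only [Nat.add_eq, Nat.mul_eq, Nat.cast_add, Nat.cast_mul, Nat.cast_natAbs, Int.cast_abs]
  refine add_le_add ((norm_add_le _ _).trans (add_le_add ?_ ?_)) ?_
  · rw [norm_mul]
    exact mul_le_mul (nrm_sound _ _) h2 (norm_nonneg _) (Nat.cast_nonneg _)
  · rw [norm_mul]
    exact mul_le_mul h1 h3 (norm_nonneg _) (Nat.cast_nonneg _)
  · rw [norm_mul]
    exact mul_le_mul (cz_le _ _) hs' (norm_nonneg _) (by positivity)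

theorem tstep_both {k : ℂ} {K : D} (hk : In k K) :
    In (k / (1 - I * k)) (tstep K) ∧ ((tstep K).ok = true → 1 - I * k ≠ 0 ∧ K.ok = true) := by
  have h1 : In (-I * k + 1) (addc (mnI K) (Int.ofNat 1099511627776) (Int.ofNat 0)) :=
    addc_sound (mnI_sound hk) (by simp [cz, q])
  have h2 := inv_both h1
  have h3 : (tstep K).ok = true → 1 - I * k ≠ 0 ∧ K.ok = true := by
    intro hok
    rw [tstep, mnI_ok, addc_ok] at hok
    have := h2.2 hok
    rw [addc_ok, mnI_ok] at this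
    exact ⟨by rw [show 1 - I * k = -I * k + 1 by ring]; exact this.1, this.2⟩
  refine ⟨fun hok => ?_, h3⟩
  have h4 := mnI_sound (addc_sound (c := -1) (x := Int.negSucc 1099511627775) (y := Int.ofNat 0)
    h2.1 (by simp [cz, q]))
  have e : k / (1 - I * k) = -I * ((-I * k + 1)⁻¹ + -1) := by
    have := (h3 hok).1
    rw [show -I * k + 1 = 1 - I * k by ring, div_eq_iff this]
    have h5 := inv_mul_cancel₀ this
    linear_combination I * h5 + k * I_mul_I
  rw [e]
  exact h4 hok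

theorem real_In {s : ℝ} {S e : ℕ} (hs : |s * q - S| ≤ e) :
    In s ⟨Int.ofNat S, Int.ofNat 0, e, true⟩ := by
  intro _
  have : (s * q - cz (Int.ofNat S) (Int.ofNat 0) : ℂ) = ((s * q - S : ℝ) : ℂ) := by simp [cz]
  rw [this, Complex.norm_real]
  exact hs

theorem start_sound {tc S e : ℕ} {s : ℝ} {h : ℂ} (htc : 0 < tc) (hs0 : 0 < s)
    (hs : |s * q - S| ≤ e) (h1 : (tc : ℝ) / 2 ≤ h.re) (h2 : h.im ≤ -s / 2) :
    In (s / h) (start tc S e) := by
  rw [start, div_eq_mul_inv]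
  refine mul_sound (real_In hs) (rnd_sound fun _ => ⟨?_, ?_⟩)
  · simp only [Nat.add_eq, Nat.mul_eq]
    positivity
  set M : ℕ := Nat.add (Nat.mul (Nat.mul tc tc) 1208925819614629174706176)
    (Nat.mul S (Nat.sub S e)) with hM
  set w := cz (Int.ofNat (Nat.mul tc 1099511627776)) (Int.ofNat S) with hw
  have hq := q_pos
  have htc' : (0 : ℝ) < tc := by exact_mod_cast htc
  have hh : h ≠ 0 := by
    rintro rfl
    simp only [zero_re] at h1
    linarith
  have wre : w.re = tc * q := by simp [hw, cz, q]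
  have wim : w.im = S := by simp [hw, cz]
  have h3 : ((S - e : ℕ) : ℝ) ≤ s * q := by
    rcases le_total e S with h | h
    · rw [Nat.cast_sub h]
      linarith [(abs_le.1 hs).1]
    · rw [Nat.sub_eq_zero_of_le h, Nat.cast_zero]
      positivity
  have h4 : (M : ℝ) ≤ 2 * q * (h * w).re := by
    simp only [hM, Nat.add_eq, Nat.mul_eq, Nat.sub_eq, Nat.cast_add, Nat.cast_mul, qq_eq, mul_re,
      wre, wim]
    have a1 := mul_le_mul_of_nonneg_left h3 (Nat.cast_nonneg S : (0 : ℝ) ≤ S)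
    have a2 := mul_le_mul_of_nonneg_left h1 (by positivity : 0 ≤ 2 * q * (tc * q))
    have a3 := mul_le_mul_of_nonneg_left h2 (by positivity : 0 ≤ 2 * q * S)
    nlinarith
  have h5 : ‖(M : ℂ) - q * (h * w)‖ ≤ ‖(q : ℂ) * (h * w)‖ := by
    refine (pow_le_pow_iff_left₀ (norm_nonneg _) (norm_nonneg _) two_ne_zero).1 ?_
    simp only [Complex.sq_norm, Complex.normSq_apply, sub_re, sub_im, natCast_re, natCast_im,
      re_ofReal_mul, im_ofReal_mul]
    nlinarith [mul_le_mul_of_nonneg_left h4 (Nat.cast_nonneg M : (0 : ℝ) ≤ M)]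
  have e2 : cz (Int.ofNat (Nat.mul (Nat.mul tc 1099511627776) 1208925819614629174706176))
      (Int.ofNat (Nat.mul S 1208925819614629174706176)) = w * ((q * q : ℝ) : ℂ) := by
    rw [← qq_eq]
    simp [hw, cz]
    ring
  have e : h⁻¹ * q * M - w * ((q * q : ℝ) : ℂ) = h⁻¹ * q * (M - q * (h * w)) := by
    push_cast
    field_simp
  rw [e2, e, norm_mul]
  refine (mul_le_mul_of_nonneg_left h5 (norm_nonneg _)).trans ?_
  rw [← norm_mul, show h⁻¹ * q * (q * (h * w)) = w * ((q * q : ℝ) : ℂ) by push_cast; field_simp,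
    norm_mul, Complex.norm_of_nonneg (mul_pos hq hq).le]
  simp only [Nat.mul_eq, Nat.cast_mul, qq_eq]
  exact mul_le_mul_of_nonneg_right (nrm_sound _ _) (mul_pos hq hq).le

theorem pos_sound {z : ℂ} {d : D} (hz : In z d) (h : pos d = true) : d.ok = true ∧ 0 < z.re := by
  simp only [pos, fD_eq, Bool.and_eq_true] at h
  refine ⟨h.1, ?_⟩
  have h1 := (abs_le.1 ((abs_re_le_norm _).trans (hz h.1))).1
  have h2 : (d.r : ℝ) < d.x := by
    obtain ⟨x, y, r, ok⟩ := d
    cases x with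
    | ofNat n =>
      have : r + 1 ≤ n := Nat.le_of_ble_eq_true h.2
      simp only [Int.ofNat_eq_natCast, Int.cast_natCast]
      exact_mod_cast this
    | negSucc n => exact absurd h.2 (by simp)
  have h3 : (z * q - cz d.x d.y).re = z.re * q - d.x := by simp [cz]
  rw [h3] at h1
  have := q_pos
  nlinarith

theorem cell_In {x y : ℝ} {cx cy : ℤ} {hx hy : ℕ} (h1 : |x * q - cx| ≤ hx)
    (h2 : |y * q - cy| ≤ hy) :
    In (x + y * I) ⟨cx, cy, nrm (Int.ofNat hx) (Int.ofNat hy), true⟩ := by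
  intro _
  refine le_trans ?_ (nrm_sound _ _)
  refine (pow_le_pow_iff_left₀ (norm_nonneg _) (norm_nonneg _) two_ne_zero).1 ?_
  rw [cz_normSq, Complex.sq_norm, Complex.normSq_apply]
  have a := sq_le_sq' (abs_le.1 h1).1 (abs_le.1 h1).2
  have b := sq_le_sq' (abs_le.1 h2).1 (abs_le.1 h2).2
  simp [cz]
  nlinarith

theorem prod_sound {z : ℂ} {Z : D} (hz : In z Z) (L : List (ℤ × ℤ)) :
    In (L.map fun p => z + cz p.1 p.2 / q).prod (prod Z L) := by
  induction L with
  | nil =>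
    intro _
    simp [prod, cz, q]
  | cons p L ih =>
    rw [List.map_cons, List.prod_cons]
    exact mul_sound (addc_sound hz (div_mul_cancel₀ _ (ofReal_ne_zero.2 q_pos.ne'))) ih

theorem mid_err {a b : ℤ} {x : ℝ} (h1 : (a : ℝ) ≤ x) (h2 : x ≤ b) :
    |x - mid a b| ≤ (Int.natAbs (Int.sub b (mid a b)) : ℕ) := by
  have h3 : 2 * mid a b ≤ a + b := by
    show 2 * ((a + b) / 2) ≤ a + b
    omega
  have h4 : 2 * (mid a b : ℝ) ≤ a + b := by exact_mod_cast h3
  rw [Nat.cast_natAbs, Int.cast_abs, sub_def, Int.cast_sub]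
  refine le_trans (abs_le.2 ⟨?_, ?_⟩) (le_abs_self _) <;> linarith

theorem cover_sound {t : ℕ → ℤ → ℤ → ℕ → ℕ → Bool} {Q : ℝ → ℝ → Prop}
    (ht : ∀ n cx cy hx hy, t n cx cy hx hy = true → ∀ x y : ℝ, |x * q - cx| ≤ hx →
      |y * q - cy| ≤ hy → Q x y) (T : Tr) :
    ∀ x0 x1 y0 y1 : ℤ, cover t T x0 x1 y0 y1 = true → ∀ x y : ℝ, (x0 : ℝ) ≤ x * q →
      x * q ≤ x1 → (y0 : ℝ) ≤ y * q → y * q ≤ y1 → Q x y := by
  induction T with
  | l n =>
    intro x0 x1 y0 y1 h x y a b c d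
    simp only [cover, forceZ_eq, force_eq] at h
    exact ht _ _ _ _ _ h x y (mid_err a b) (mid_err c d)
  | x A B ia ib =>
    intro x0 x1 y0 y1 h x y a b c d
    have h' : (cover t A x0 (mid x0 x1) y0 y1 && cover t B (mid x0 x1) x1 y0 y1) = true := by
      rw [← h]
      simp only [cover, forceZ_eq]
    rw [Bool.and_eq_true] at h'
    rcases le_total (x * q) (mid x0 x1) with m | m
    · exact ia _ _ _ _ h'.1 x y a m c d
    · exact ib _ _ _ _ h'.2 x y m b c d
  | y A B ia ib =>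
    intro x0 x1 y0 y1 h x y a b c d
    have h' : (cover t A x0 x1 y0 (mid y0 y1) && cover t B x0 x1 (mid y0 y1) y1) = true := by
      rw [← h]
      simp only [cover, forceZ_eq]
    rw [Bool.and_eq_true] at h'
    rcases le_total (y * q) (mid y0 y1) with m | m
    · exact ia _ _ _ _ h'.1 x y a b c m
    · exact ib _ _ _ _ h'.2 x y a b m d

end Vale.Agent.P139.Ck
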