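import Vale.Agent.P139.SpB

open Complex MeasureTheory Filter Topology
open scoped ComplexConjugate ContDiff

namespace Vale.Agent.P139

/-- U is nonzero and Re H is at least x, where H = -s U' / U -/
def Xge (α b : ℂ) (s x : ℝ) : Prop :=
  UU α b s ≠ 0 ∧ x * ‖UU α b s‖ ^ 2 ≤ (conj (UU α b s) * (-(s : ℂ) * dU α b s)).re

/-- Re H is positive -/
def Pos (α b : ℂ) (s : ℝ) : Prop := (conj (UU α b s) * dU α b s).re < 0

/-- the flux density -/
noncomputable def fl (α b : ℂ) (s : ℝ) : ℝ :=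
  (conj (UU α b s) * dU α b s).im + ‖UU α b s‖ ^ 2 / 2

/-- the ladder variable s / (H(α+1) - i s) -/
noncomputable def Kp (α b : ℂ) (s : ℝ) : ℂ := I * WW (α + 1) b s / WW (α + 1) (b + 1) s

noncomputable def bA2 (α b : ℂ) (s : ℝ) : ℂ := s + (α + 2 - (b - 1)) * Kp (α + 2) b s

noncomputable def bF2 (α b : ℂ) (s : ℝ) : ℂ := α + 2 - I * bA2 α b s

noncomputable def bA1 (α b : ℂ) (s : ℝ) : ℂ := s * bF2 α b s + (α + 1 - (b - 1)) * bA2 α b s

noncomputable def bF1 (α b : ℂ) (s : ℝ) : ℂ := (α + 1) * bF2 α b s - I * bA1 α b s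

/-- normalised U -/
noncomputable def bA0 (α b : ℂ) (s : ℝ) : ℂ := s * bF1 α b s + (α - (b - 1)) * bA1 α b s

/-- normalised -U' -/
noncomputable def bP0 (α b : ℂ) (s : ℝ) : ℂ := α * bF1 α b s

/-- the normalising factor -/
noncomputable def bK (α b : ℂ) (s : ℝ) : ℂ := -WW (α + 2 + 1) (b + 1) s / ((α + 1) * (α + 2))

/-- normalised dispersion function -/
noncomputable def Dn (l : ℕ) (om s : ℝ) (z : ℂ) : ℂ :=
  bP0 (z + l / 2 - I * om) (l + 6) s * conj (bA0 (conj z + l / 2 - I * om) (l + 6) s)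
    + bA0 (z + l / 2 - I * om) (l + 6) s * conj (bP0 (conj z + l / 2 - I * om) (l + 6) s)

/-- closed rectangle -/
def Rc (x0 x1 t : ℝ) : Set ℂ := {z | x0 ≤ z.re ∧ z.re ≤ x1 ∧ -t ≤ z.im ∧ z.im ≤ t}

/-- its boundary -/
def Rb (x0 x1 t : ℝ) : Set ℂ :=
  {z | z ∈ Rc x0 x1 t ∧ (z.re = x0 ∨ z.re = x1 ∨ z.im = -t ∨ z.im = t)}

theorem Xge.pos {α b : ℂ} {s x : ℝ} (h : Xge α b s x) (hs : 0 < s) (hx : 0 < x) : Pos α b s := by
  have h1 : 0 < x * ‖UU α b s‖ ^ 2 := mul_pos hx (pow_pos (norm_pos_iff.2 h.1) 2)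
  have h2 : (conj (UU α b s) * (-(s : ℂ) * dU α b s)).re
      = -s * (conj (UU α b s) * dU α b s).re := by
    rw [mul_left_comm, ← Complex.ofReal_neg, Complex.re_ofReal_mul]
  have h3 := h.2
  rw [h2] at h3
  unfold Pos
  nlinarith

theorem lad_V {α : ℂ} (hα : -1 < α.re) (b : ℂ) {s : ℝ} (hs : 0 < s) :
    WW (α + 1) (b + 1) s = WW (α + 1) b s + I * WW (α + 1 + 1) (b + 1) s :=
  spA_succ (spA_re hα) b hs

theorem lad_W {α : ℂ} (hα : 0 < α.re) (b : ℂ) {s : ℝ} (hs : 0 < s) :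
    α * WW α b s = s * WW (α + 1) (b + 1) s + I * (α - (b - 1)) * WW (α + 1) b s := by
  linear_combination WW_rec hα b hs

theorem lad_U {α : ℂ} (hα : -1 < α.re) (b : ℂ) {s : ℝ} (hs : 0 < s) :
    UU α b s = s * WW (α + 1) (b + 1) s + I * (α - (b - 1)) * WW (α + 1) b s := by
  have h1 := WW_rec (spA_re hα) (b + 1) hs
  have h2 := lad_V hα b hs
  rw [show b + 1 + 1 = b + 2 by ring, spA_two α] at h1
  rw [spA_two α] at h2
  unfold UU
  linear_combination (-I) * h1 + I * (α - b + 1) * h2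
    + ((α - b + 1) * WW (α + 2) (b + 1) s - s * WW (α + 1) (b + 1) s
      - (α - b + 1) * WW (α + 2) (b + 1) s) * I_mul_I

end Vale.Agent.P139
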