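import Vale.Agent.P139.BDefs

open Complex MeasureTheory Filter Topology
open scoped ComplexConjugate ContDiff

namespace Vale.Agent.P139

theorem bflux_sq (u : ℂ) : (conj u * u).re = ‖u‖ ^ 2 := by
  rw [conj_mul', ← ofReal_pow, ofReal_re]

theorem bflux_deriv {α b : ℂ} {c t : ℝ} (hb : b = 2 * c + 1) (h1 : -1 < α.re) (ht : 0 < t) :
    ∃ D : ℝ, HasDerivAt (fl α b) D t ∧
      t * D = -(2 * c + 1) * fl α b t + (c + 1 / 2 - α.re) * ‖UU α b t‖ ^ 2 := by
  have d1 := UU_deriv h1 b ht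
  have d2 := dU_deriv h1 b ht
  have d3 : HasDerivAt (fun s => conj (UU α b s)) (conj (dU α b t)) t := d1.star
  have d4 := imCLM.hasFDerivAt.comp_hasDerivAt t (d3.mul d2)
  have d5 := reCLM.hasFDerivAt.comp_hasDerivAt t (d3.mul d1)
  have e : fl α b = fun s => (conj (UU α b s) * dU α b s).im
      + (conj (UU α b s) * UU α b s).re / 2 := by
    funext s
    rw [fl, bflux_sq]
  refine ⟨_, (d4.add (d5.div_const 2)).congr_of_eventuallyEq
    (Eventually.of_forall fun s => congrFun e s), ?_⟩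
  have o := UU_ode α b t
  rw [fl, ← bflux_sq]
  simp only [imCLM_apply, reCLM_apply]
  generalize α * WW (α + 2) (b + 2) t = y at o ⊢
  generalize UU α b t = u at o ⊢
  generalize dU α b t = v at o ⊢
  subst hb
  have o1 := congrArg re o
  have o2 := congrArg im o
  simp only [add_re, add_im, mul_re, mul_im, ofReal_re, ofReal_im, I_re, I_im, zero_re, zero_im,
    one_re, one_im, re_ofNat, im_ofNat, conj_re, conj_im] at o1 o2 ⊢
  linear_combination u.re * o2 - u.im * o1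

theorem bflux_J {α b : ℂ} {c t : ℝ} (hb : b = 2 * c + 1) (h1 : -1 < α.re) (ht : 0 < t) :
    HasDerivAt (fun s : ℝ => s ^ (2 * c + 1) * fl α b s)
      (t ^ (2 * c) * ((c + 1 / 2 - α.re) * ‖UU α b t‖ ^ 2)) t := by
  obtain ⟨D, hD, e⟩ := bflux_deriv hb h1 ht
  refine ((Real.hasDerivAt_rpow_const (p := 2 * c + 1) (Or.inl ht.ne')).mul hD).congr_deriv ?_
  rw [add_sub_cancel_right, Real.rpow_add_one ht.ne']
  linear_combination t ^ (2 * c) * e

theorem bflux_far {α : ℂ} (h1 : -1 < α.re) (b : ℂ) : ∀ᶠ t : ℝ in atTop, 0 < fl α b t := by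
  have a1 := UU_asym h1 b
  have a2 := spA_asym (spA_re h1) (b - α - 1)
  have a3 : Tendsto (fun t : ℝ => ((t : ℂ))⁻¹) atTop (𝓝 0) := by
    have := (continuous_ofReal.tendsto 0).comp tendsto_inv_atTop_zero
    simpa [Function.comp_def] using this
  have a4 : Tendsto (fun t : ℝ => (t : ℂ) ^ α * dU α b t) atTop (𝓝 0) := by
    have := (a3.mul a2).const_mul (-α)
    rw [zero_mul, mul_zero] at this
    refine this.congr' ?_
    filter_upwards [eventually_gt_atTop 0] with t ht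
    have t0 : (t : ℂ) ^ α ≠ 0 := cpow_ne_zero_iff.2 (Or.inl (ofReal_ne_zero.2 ht.ne'))
    rw [dU, spA_W1 α b ht, cpow_neg]
    field_simp
  have a5 : Tendsto (fun t : ℝ => (conj ((t : ℂ) ^ α * UU α b t) * ((t : ℂ) ^ α * dU α b t)).im
      + ‖(t : ℂ) ^ α * UU α b t‖ ^ 2 / 2) atTop
      (𝓝 ((conj (Gamma (α + 1)) * 0).im + ‖Gamma (α + 1)‖ ^ 2 / 2)) :=
    ((continuous_im.tendsto _).comp (((continuous_conj.tendsto _).comp a1).mul a4)).add
      ((a1.norm.pow 2).div_const 2)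
  have a6 : 0 < (conj (Gamma (α + 1)) * 0).im + ‖Gamma (α + 1)‖ ^ 2 / 2 := by
    have := norm_pos_iff.2 (Gamma_ne_zero_of_re_pos (spA_re h1))
    rw [mul_zero, zero_im, zero_add]
    positivity
  filter_upwards [a5.eventually (lt_mem_nhds a6)] with t ht
  have e : conj ((t : ℂ) ^ α * UU α b t) * ((t : ℂ) ^ α * dU α b t) =
      ((‖(t : ℂ) ^ α‖ ^ 2 : ℝ) : ℂ) * (conj (UU α b t) * dU α b t) := by
    rw [map_mul, ofReal_pow, ← conj_mul']
    ring
  rw [e, im_ofReal_mul, norm_mul, mul_pow, mul_div_assoc, ← mul_add] at ht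
  exact pos_of_mul_pos_right ht (sq_nonneg _)

/-- J t = t ^ (2c+1) * fl has derivative t ^ (2c) * ‖U‖ ^ 2 * (c + 1/2 - Re α); here it decreases
and is positive near infinity -/
theorem flux_pos {α b : ℂ} {c s : ℝ} (hb : b = 2 * c + 1) (hc : 0 ≤ c) (hα : c + 1 / 2 ≤ α.re)
    (hs : 0 < s) : 0 < fl α b s := by
  have h1 : -1 < α.re := by linarith
  have hd : ∀ t ∈ Set.Ici s, HasDerivAt (fun s : ℝ => s ^ (2 * c + 1) * fl α b s)
      (t ^ (2 * c) * ((c + 1 / 2 - α.re) * ‖UU α b t‖ ^ 2)) t :=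
    fun t ht => bflux_J hb h1 (hs.trans_le ht)
  have anti : AntitoneOn (fun s : ℝ => s ^ (2 * c + 1) * fl α b s) (Set.Ici s) := by
    refine antitoneOn_of_deriv_nonpos (convex_Ici s)
      (fun t ht => (hd t ht).continuousAt.continuousWithinAt)
      (fun t ht => (hd t (interior_subset ht)).differentiableAt.differentiableWithinAt)
      fun t ht => ?_
    have ht' : t ∈ Set.Ici s := interior_subset ht
    rw [(hd t ht').deriv]
    exact mul_nonpos_of_nonneg_of_nonpos (Real.rpow_nonneg (hs.le.trans ht') _)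
      (mul_nonpos_of_nonpos_of_nonneg (by linarith) (sq_nonneg _))
  obtain ⟨t, ht1, ht2⟩ := ((bflux_far h1 b).and (eventually_ge_atTop s)).exists
  have k1 := anti (Set.self_mem_Ici) ht2 ht2
  have k2 : 0 < t ^ (2 * c + 1) * fl α b t :=
    mul_pos (Real.rpow_pos_of_pos (hs.trans_le ht2) _) ht1
  exact pos_of_mul_pos_right (k2.trans_le k1) (Real.rpow_nonneg hs.le _)

theorem flux_W {α b : ℂ} {c s : ℝ} (hb : b = 2 * c + 1) (hc : 0 ≤ c) (hα : c + 1 / 2 ≤ α.re)
    (hs : 0 < s) : (conj (WW α b s) * WW (α + 1) (b + 1) s).im < ‖WW α b s‖ ^ 2 / 2 := by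
  have h := flux_pos hb hc hα hs
  have e : conj (α * WW α b s) * (-α * WW (α + 1) (b + 1) s) =
      ((-‖α‖ ^ 2 : ℝ) : ℂ) * (conj (WW α b s) * WW (α + 1) (b + 1) s) := by
    rw [map_mul, ofReal_neg, ofReal_pow, ← conj_mul']
    ring
  rw [fl, UU_eq (by linarith) b hs, dU, e, im_ofReal_mul, norm_mul, mul_pow] at h
  have k : 0 < ‖α‖ ^ 2 * (‖WW α b s‖ ^ 2 / 2 - (conj (WW α b s) * WW (α + 1) (b + 1) s).im) := by
    linarith
  exact sub_pos.1 (pos_of_mul_pos_right k (sq_nonneg _))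

/-- here J increases -/
theorem flux_inc {α b : ℂ} {c s0 s : ℝ} (hb : b = 2 * c + 1) (h1 : -1 < α.re)
    (hα : α.re ≤ c + 1 / 2) (hs0 : 0 < s0) (h : s0 ≤ s) (h0 : 0 < fl α b s0) : UU α b s ≠ 0 := by
  have hd : ∀ t ∈ Set.Ici s0, HasDerivAt (fun s : ℝ => s ^ (2 * c + 1) * fl α b s)
      (t ^ (2 * c) * ((c + 1 / 2 - α.re) * ‖UU α b t‖ ^ 2)) t :=
    fun t ht => bflux_J hb h1 (hs0.trans_le ht)
  have mono : MonotoneOn (fun s : ℝ => s ^ (2 * c + 1) * fl α b s) (Set.Ici s0) := by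
    refine monotoneOn_of_deriv_nonneg (convex_Ici s0)
      (fun t ht => (hd t ht).continuousAt.continuousWithinAt)
      (fun t ht => (hd t (interior_subset ht)).differentiableAt.differentiableWithinAt)
      fun t ht => ?_
    have ht' : t ∈ Set.Ici s0 := interior_subset ht
    rw [(hd t ht').deriv]
    exact mul_nonneg (Real.rpow_nonneg (hs0.le.trans ht') _)
      (mul_nonneg (by linarith) (sq_nonneg _))
  have k1 := mono (Set.self_mem_Ici) h h
  have k2 : 0 < s0 ^ (2 * c + 1) * fl α b s0 := mul_pos (Real.rpow_pos_of_pos hs0 _) h0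
  intro hU
  have k3 : fl α b s = 0 := by simp [fl, hU]
  simp only [k3, mul_zero] at k1
  linarith

end Vale.Agent.P139
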