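import Vale.Agent.P139.BFlux

open Complex MeasureTheory Filter Topology
open scoped ComplexConjugate ContDiff

namespace Vale.Agent.P139

theorem BHP_shift (α b : ℂ) {s : ℝ} (hs : 0 < s) (n : ℕ) :
    WW (α + n) b s = (s : ℂ) ^ (-α) * ∫ u in Set.Ioi (0 : ℝ), spA_K α (b - α - 1) (1 / s) u *
      ((u : ℂ) * (s : ℂ)⁻¹ / (1 + I * u * ((1 / s : ℝ) : ℂ))) ^ n := by
  have hs0 : (s : ℂ) ≠ 0 := ofReal_ne_zero.2 hs.ne'
  rw [WW, spA_Th, neg_add, cpow_add _ _ hs0, mul_assoc, ← integral_const_mul]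
  congr 1
  refine setIntegral_congr_fun measurableSet_Ioi fun u hu => ?_
  have hu0 : (u : ℂ) ≠ 0 := ofReal_ne_zero.2 (ne_of_gt hu)
  have h1 := spA_ne u (1 / s)
  simp only [spA_K]
  rw [show α + n - 1 = α - 1 + n by ring, show b - (α + n) - 1 = b - α - 1 + -(n : ℂ) by ring,
    cpow_add _ _ hu0, cpow_add _ _ h1, cpow_neg, cpow_neg _ (n : ℂ), cpow_natCast, cpow_natCast,
    cpow_natCast, div_pow, mul_pow, inv_pow, div_eq_mul_inv]
  ring

theorem BHP_ratio {s u : ℝ} (hs : 0 < s) (hu : 0 < u) :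
    ‖(u : ℂ) * (s : ℂ)⁻¹ / (1 + I * u * ((1 / s : ℝ) : ℂ))‖ < 1 := by
  rw [norm_div, div_lt_one (norm_pos_iff.2 (spA_ne u (1 / s)))]
  have h1 : (u : ℂ) * (s : ℂ)⁻¹ = ((u * (1 / s) : ℝ) : ℂ) := by
    push_cast
    ring
  have h2 : (1 + I * u * ((1 / s : ℝ) : ℂ)) = ((1 : ℝ) : ℂ) + ((u * (1 / s) : ℝ) : ℂ) * I := by
    push_cast
    ring
  rw [h1, h2, Complex.norm_real, Complex.norm_add_mul_I, Real.norm_of_nonneg (by positivity)]
  refine Real.lt_sqrt_of_sq_lt ?_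
  linarith

theorem WW_lim {α : ℂ} (hα : 0 < α.re) (b : ℂ) {s : ℝ} (hs : 0 < s) :
    Tendsto (fun n : ℕ => WW (α + n) b s) atTop (𝓝 0) := by
  simp only [BHP_shift α b hs]
  have h1 := tendsto_integral_filter_of_dominated_convergence (μ := volume.restrict (Set.Ioi 0))
    (l := atTop) (f := fun _ => (0 : ℂ))
    (F := fun (n : ℕ) (u : ℝ) => spA_K α (b - α - 1) (1 / s) u *
      ((u : ℂ) * (s : ℂ)⁻¹ / (1 + I * u * ((1 / s : ℝ) : ℂ))) ^ n)
    (fun u => ‖spA_K α (b - α - 1) (1 / s) u‖)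
    (Eventually.of_forall fun n => (spA_meas α _ _).mul
      (Measurable.aestronglyMeasurable (by fun_prop)))
    (Eventually.of_forall fun n => (ae_restrict_iff' measurableSet_Ioi).2
      (Eventually.of_forall fun u hu => by
        rw [norm_mul, norm_pow]
        exact mul_le_of_le_one_right (norm_nonneg _)
          (pow_le_one₀ (norm_nonneg _) (BHP_ratio hs hu).le)))
    (spA_int hα _ _).norm
    ((ae_restrict_iff' measurableSet_Ioi).2 (Eventually.of_forall fun u hu => by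
      have := (tendsto_pow_atTop_nhds_zero_of_norm_lt_one (BHP_ratio hs hu)).const_mul
        (spA_K α (b - α - 1) (1 / s) u)
      rwa [mul_zero] at this))
  have h2 := h1.const_mul ((s : ℂ) ^ (-α))
  rwa [integral_zero, mul_zero] at h2

/-- the defect in the half-plane property -/
noncomputable def BHP_q (α b : ℂ) (c s : ℝ) : ℝ :=
  (conj (WW α b s) * (s * WW (α + 1) (b + 1) s)).re - c * ‖WW α b s‖ ^ 2

theorem BHP_id (α W V : ℂ) (c s : ℝ) :
    (conj (s * (W + I * V) + I * (α - (2 * c + 1 - 1)) * W) * (-(s : ℂ) * (-α * (W + I * V)))).re -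
      c * ‖s * (W + I * V) + I * (α - (2 * c + 1 - 1)) * W‖ ^ 2 =
    (α.re - c) * (‖s * V - I * s * W - c * W‖ ^ 2 + c ^ 2 * ‖W‖ ^ 2) +
      (c ^ 2 + ((α.re - c) ^ 2 + α.im ^ 2)) * ((conj W * (s * V)).re - c * ‖W‖ ^ 2) := by
  simp only [Complex.sq_norm, Complex.normSq_apply, mul_re, mul_im, add_re, add_im, sub_re, sub_im,
    neg_re, neg_im, conj_re, conj_im, ofReal_re, ofReal_im, I_re, I_im, one_re, one_im, re_ofNat,
    im_ofNat]
  ring

theorem BHP_step {α b : ℂ} {c s : ℝ} (hb : b = 2 * c + 1) (h0 : -1 < α.re) (hs : 0 < s) :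
    (conj (UU α b s) * (-(s : ℂ) * dU α b s)).re - c * ‖UU α b s‖ ^ 2 =
      (α.re - c) * (‖s * WW (α + 1 + 1) (b + 1) s - I * s * WW (α + 1) b s - c * WW (α + 1) b s‖ ^ 2
        + c ^ 2 * ‖WW (α + 1) b s‖ ^ 2) +
      (c ^ 2 + ((α.re - c) ^ 2 + α.im ^ 2)) * BHP_q (α + 1) b c s := by
  rw [lad_U h0 b hs, dU, lad_V h0 b hs, BHP_q, ← BHP_id, ← hb]

theorem BHP_UW {α : ℂ} (b : ℂ) (c : ℝ) {s : ℝ} (h0 : 0 < α.re) (hs : 0 < s) :
    (conj (UU α b s) * (-(s : ℂ) * dU α b s)).re - c * ‖UU α b s‖ ^ 2 =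
      (α.re ^ 2 + α.im ^ 2) * BHP_q α b c s := by
  rw [UU_eq h0 b hs, dU, BHP_q]
  simp only [Complex.sq_norm, Complex.normSq_apply, mul_re, mul_im, neg_re, neg_im, conj_re,
    conj_im, ofReal_re, ofReal_im]
  ring

theorem BHP_dec {α b : ℂ} {c s : ℝ} (hb : b = 2 * c + 1) (hc : 0 ≤ c) (hα : c ≤ α.re)
    (h0 : 0 < α.re) (hs : 0 < s) (hq : BHP_q α b c s < 0) :
    BHP_q (α + 1) b c s ≤ BHP_q α b c s := by
  have h1 := BHP_step hb (by linarith : -1 < α.re) hs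
  rw [BHP_UW b c h0 hs] at h1
  have h2 : 0 ≤ (α.re - c) * (‖s * WW (α + 1 + 1) (b + 1) s - I * s * WW (α + 1) b s -
      c * WW (α + 1) b s‖ ^ 2 + c ^ 2 * ‖WW (α + 1) b s‖ ^ 2) :=
    mul_nonneg (sub_nonneg.2 hα) (by positivity)
  have h3 : c ^ 2 + ((α.re - c) ^ 2 + α.im ^ 2) ≤ α.re ^ 2 + α.im ^ 2 := by
    nlinarith [mul_nonneg hc (sub_nonneg.2 hα)]
  have h4 : 0 < c ^ 2 + ((α.re - c) ^ 2 + α.im ^ 2) := by
    nlinarith [sq_nonneg (α.re - 2 * c), sq_nonneg α.im, mul_pos h0 h0]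
  have h5 := mul_le_mul_of_nonpos_right h3 hq.le
  exact le_of_mul_le_mul_left (by linarith) h4

theorem hp_W {α b : ℂ} {c s : ℝ} (hb : b = 2 * c + 1) (hc : 0 ≤ c) (hα : c ≤ α.re)
    (h0 : 0 < α.re) (hs : 0 < s) :
    c * ‖WW α b s‖ ^ 2 ≤ (conj (WW α b s) * (s * WW (α + 1) (b + 1) s)).re := by
  by_contra hlt
  have hq : BHP_q α b c s < 0 := by
    unfold BHP_q
    linarith [not_le.1 hlt]
  have key : ∀ n : ℕ, BHP_q (α + n) b c s ≤ BHP_q α b c s := by
    intro n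
    induction n with
    | zero => simp
    | succ n ih =>
      have hn : (0 : ℝ) ≤ n := Nat.cast_nonneg n
      have hr : (α + n).re = α.re + n := by simp
      rw [Nat.cast_succ, ← add_assoc]
      exact (BHP_dec hb hc (by rw [hr]; linarith) (by rw [hr]; linarith) hs
        (ih.trans_lt hq)).trans ih
  have l1 := WW_lim h0 b hs
  have l2 := WW_lim (spA_re' h0) (b + 1) hs
  have l3 : Tendsto (fun n : ℕ => BHP_q (α + n) b c s) atTop (𝓝 0) := by
    have hF : Continuous fun p : ℂ × ℂ => (conj p.1 * (s * p.2)).re - c * ‖p.1‖ ^ 2 := by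
      fun_prop
    have := (hF.tendsto (0, 0)).comp (l1.prodMk_nhds l2)
    simp only [map_zero, zero_re, norm_zero, ne_eq, OfNat.ofNat_ne_zero,
      not_false_eq_true, zero_pow, mul_zero, sub_zero] at this
    refine this.congr fun n => ?_
    simp only [Function.comp_apply, BHP_q, add_right_comm α 1 n]
  exact absurd (le_of_tendsto' l3 key) (not_le.2 hq)

theorem BHP_pos {α b : ℂ} {c s : ℝ} (hb : b = 2 * c + 1) (hc : 0 ≤ c) (hα : c < α.re)
    (hs : 0 < s) : 0 < BHP_q α b c s := by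
  have h0 : 0 < α.re := hc.trans_lt hα
  have hr : (α + 1).re = α.re + 1 := by simp
  have h1 := BHP_step hb (by linarith : -1 < α.re) hs
  rw [BHP_UW b c h0 hs] at h1
  have h2 : 0 ≤ BHP_q (α + 1) b c s :=
    sub_nonneg.2 (hp_W hb hc (by rw [hr]; linarith) (spA_re' h0) hs)
  have h3 := flux_W (α := α + 1) hb hc (by rw [hr]; linarith) hs
  have h4 : s * WW (α + 1 + 1) (b + 1) s - I * s * WW (α + 1) b s - c * WW (α + 1) b s ≠ 0 := by
    generalize WW (α + 1 + 1) (b + 1) s = V at h3 ⊢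
    generalize WW (α + 1) b s = W at h3 ⊢
    intro h
    have h5 : (conj W * (s * V - I * s * W - c * W)).im = s * ((conj W * V).im - ‖W‖ ^ 2) := by
      simp only [Complex.sq_norm, Complex.normSq_apply, mul_re, mul_im, sub_re, sub_im, conj_re,
        conj_im, ofReal_re, ofReal_im, I_re, I_im]
      ring
    rw [h, mul_zero, zero_im] at h5
    have h6 : (conj W * V).im - ‖W‖ ^ 2 < 0 := by nlinarith [sq_nonneg ‖W‖]
    nlinarith [mul_pos hs (neg_pos.2 h6)]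
  have h5 : 0 < (α.re - c) * (‖s * WW (α + 1 + 1) (b + 1) s - I * s * WW (α + 1) b s -
      c * WW (α + 1) b s‖ ^ 2 + c ^ 2 * ‖WW (α + 1) b s‖ ^ 2) :=
    mul_pos (sub_pos.2 hα) (add_pos_of_pos_of_nonneg (pow_pos (norm_pos_iff.2 h4) 2)
      (by positivity))
  have h6 : 0 ≤ (c ^ 2 + ((α.re - c) ^ 2 + α.im ^ 2)) * BHP_q (α + 1) b c s :=
    mul_nonneg (by positivity) h2
  have h7 : 0 < (α.re ^ 2 + α.im ^ 2) * BHP_q α b c s := by linarith
  exact (pos_iff_pos_of_mul_pos h7).1 (by positivity)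

theorem hp_U {α b : ℂ} {c s : ℝ} (hb : b = 2 * c + 1) (hc : 0 ≤ c) (hα : c ≤ α.re)
    (h0 : α ≠ 0) (hs : 0 < s) :
    c * ‖UU α b s‖ ^ 2 < (conj (UU α b s) * (-(s : ℂ) * dU α b s)).re := by
  have hr : (α + 1).re = α.re + 1 := by simp
  have h1 := BHP_step hb (by linarith : -1 < α.re) hs
  have h2 := BHP_pos (α := α + 1) hb hc (by rw [hr]; linarith) hs
  have h3 : 0 ≤ (α.re - c) * (‖s * WW (α + 1 + 1) (b + 1) s - I * s * WW (α + 1) b s -
      c * WW (α + 1) b s‖ ^ 2 + c ^ 2 * ‖WW (α + 1) b s‖ ^ 2) :=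
    mul_nonneg (sub_nonneg.2 hα) (by positivity)
  have h4 : 0 < c ^ 2 + ((α.re - c) ^ 2 + α.im ^ 2) := by
    have h5 := Complex.normSq_pos.2 h0
    rw [Complex.normSq_apply] at h5
    nlinarith [sq_nonneg (α.re - 2 * c), sq_nonneg α.im]
  linarith [mul_pos h4 h2]

theorem hp_X {α b : ℂ} {c s : ℝ} (hb : b = 2 * c + 1) (hc : 0 ≤ c) (hα : c ≤ α.re)
    (h0 : α ≠ 0) (hs : 0 < s) : Xge α b s c := by
  have h1 := hp_U hb hc hα h0 hs
  refine ⟨fun h => ?_, h1.le⟩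
  rw [h] at h1
  simp at h1

theorem V_ne {α b : ℂ} {c s : ℝ} (hb : b = 2 * c + 1) (hc : 0 ≤ c) (hα : c ≤ α.re + 1)
    (h0 : -1 < α.re) (hs : 0 < s) : WW (α + 1) (b + 1) s ≠ 0 := by
  intro h
  have hr : (α + 1).re = α.re + 1 := by simp
  have hp := spA_re h0
  have h1 := hp_U (α := α + 1) hb hc (by rw [hr]; exact hα) (fun h => by simp [h] at hp) hs
  have h2 := BHP_UW b c hp hs
  have h3 := lad_V h0 b hs
  rw [h] at h3
  have h4 : WW (α + 1 + 1) (b + 1) s = I * WW (α + 1) b s := by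
    linear_combination I * h3 + WW (α + 1 + 1) (b + 1) s * I_mul_I
  have h5 : BHP_q (α + 1) b c s ≤ 0 := by
    rw [BHP_q, h4]
    have h6 : (conj (WW (α + 1) b s) * (s * (I * WW (α + 1) b s))).re = 0 := by
      simp only [mul_re, mul_im, conj_re, conj_im, ofReal_re, ofReal_im, I_re, I_im]
      ring
    rw [h6, zero_sub, neg_nonpos]
    positivity
  have h6 := mul_nonpos_of_nonneg_of_nonpos
    (by positivity : 0 ≤ (α + 1).re ^ 2 + (α + 1).im ^ 2) h5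
  linarith

/-- the starting quadrant, h = s * WW (α+2) (b+1) / WW (α+1) b - i s -/
theorem kp_start {α b : ℂ} {c s : ℝ} (hb : b = 2 * c + 1) (hc : 0 ≤ c)
    (hα : c + 1 / 2 ≤ α.re + 1) (hs : 0 < s) : ∃ h : ℂ, c ≤ h.re ∧ h.im ≤ -s / 2 ∧
      WW (α + 1) b s ≠ 0 ∧ s * WW (α + 1) (b + 1) s = I * h * WW (α + 1) b s := by
  have hr : (α + 1).re = α.re + 1 := by simp
  have h0 : -1 < α.re := by linarith
  have h1 := flux_W (α := α + 1) hb hc (by rw [hr]; exact hα) hs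
  have h2 := hp_W (α := α + 1) hb hc (by rw [hr]; linarith) (spA_re h0) hs
  rw [lad_V h0 b hs]
  generalize WW (α + 1 + 1) (b + 1) s = V at h1 h2 ⊢
  generalize WW (α + 1) b s = W at h1 h2 ⊢
  have hW : W ≠ 0 := fun h => by simp [h] at h1
  have hn : 0 < ‖W‖ ^ 2 := pow_pos (norm_pos_iff.2 hW) 2
  obtain ⟨r, rfl⟩ : ∃ r, V = r * W := ⟨V / W, by field_simp⟩
  have e1 : (conj W * (r * W)).im = r.im * ‖W‖ ^ 2 := by
    simp only [Complex.sq_norm, Complex.normSq_apply, mul_re, mul_im, conj_re, conj_im]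
    ring
  have e2 : (conj W * (s * (r * W))).re = s * r.re * ‖W‖ ^ 2 := by
    simp only [Complex.sq_norm, Complex.normSq_apply, mul_re, mul_im, conj_re, conj_im, ofReal_re,
      ofReal_im]
    ring
  rw [e1] at h1
  rw [e2] at h2
  have h3 : r.im < 1 / 2 := lt_of_mul_lt_mul_right (by linarith) hn.le
  have h4 : c ≤ s * r.re := le_of_mul_le_mul_right h2 hn
  refine ⟨s * r - I * s, ?_, ?_, hW, ?_⟩
  · simpa using h4
  · have : (s * r - I * s : ℂ).im = s * r.im - s := by simp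
    rw [this]
    nlinarith
  · linear_combination (s * W) * I_mul_I

end Vale.Agent.P139
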