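import Vale.Agent.P139.BHP

open Complex MeasureTheory Filter Topology
open scoped ComplexConjugate ContDiff

namespace Vale.Agent.P139

theorem bric_ineq {u1 u2 r1 r2 w1 w2 a1 a2 t lam : ℝ} (ht1 : 2.7 ≤ t) (ht2 : t ≤ 4.71)
    (hl0 : 0 ≤ lam) (hl2 : lam ≤ 2) (ha : 4 ≤ a2)
    (e1 : t * w1 + (r1 - t * r2) - (a1 * u2 + a2 * u1) = 0)
    (e2 : t * w2 + (r2 + t * r1) + (a1 * u1 - a2 * u2) = 0) :
    -(t * (r1 * r1 + r2 * r2)) - (u1 * (r1 + t * w1) + u2 * (r2 + t * w2)) + (u1 * u1 + u2 * u2)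
      - lam * (2 * (u1 * r1 + u2 * r2)) ≤ 0 := by
  have h1 : r1 + t * w1 = t * r2 + (a1 * u2 + a2 * u1) := by linarith
  have h2 : r2 + t * w2 = -(t * r1) - (a1 * u1 - a2 * u2) := by linarith
  rw [h1, h2]
  have t0 : 0 < t := by linarith
  have hN : 0 ≤ u1 * u1 + u2 * u2 := by nlinarith [mul_self_nonneg u1, mul_self_nonneg u2]
  have hc : t * t / 4 + lam * lam + t - t * a2 ≤ 0 := by nlinarith
  refine le_of_mul_le_mul_left ?_ t0
  nlinarith [mul_nonneg hN (neg_nonneg.2 hc), mul_self_nonneg (t * r1 + lam * u1 - t / 2 * u2),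
    mul_self_nonneg (t * r2 + lam * u2 + t / 2 * u1)]

/-- Riccati barrier for b = 1 -/
theorem ric {α : ℂ} (h0 : 0 ≤ α.re) (h1 : 4 ≤ α.im) {s : ℝ} (hs1 : 2.7 ≤ s) (hs2 : s ≤ 2.71) :
    Xge α 1 s 2 := by
  have hα : -1 < α.re := by linarith
  have hne : α ≠ 0 := fun h => by rw [h, Complex.zero_im] at h1; linarith
  have hb : (1 : ℂ) = 2 * ((0 : ℝ) : ℂ) + 1 := by simp
  let φ : ℝ → ℝ := fun t => (conj (UU α 1 t) * (-(t : ℂ) * dU α 1 t)).re -
    (s + 2 - t) * (conj (UU α 1 t) * UU α 1 t).re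
  have hd : ∀ t, s ≤ t → t ≤ s + 2 → ∃ d, HasDerivAt φ d t ∧ d ≤ 0 := fun t a1 a2 => by
    have t0 : 0 < t := by linarith
    have d1 := UU_deriv hα 1 t0
    have d2 := dU_deriv hα 1 t0
    have d3 : HasDerivAt (fun t : ℝ => (t : ℂ)) 1 t := (hasDerivAt_id (t : ℂ)).comp_ofReal
    have d4 := Complex.reCLM.hasFDerivAt.comp_hasDerivAt t (d1.star.mul (d3.neg.mul d2))
    have d5 := Complex.reCLM.hasFDerivAt.comp_hasDerivAt t (d1.star.mul d1)
    refine ⟨_, d4.sub (((hasDerivAt_id t).const_sub (s + 2)).mul d5), ?_⟩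
    have ode := UU_ode α 1 t
    generalize α * WW (α + 2) (1 + 2) t = w at ode ⊢
    have e1 := congrArg Complex.re ode
    have e2 := congrArg Complex.im ode
    have := bric_ineq (u1 := (UU α 1 t).re) (u2 := (UU α 1 t).im) (r1 := (dU α 1 t).re)
      (r2 := (dU α 1 t).im) (w1 := w.re) (w2 := w.im) (a1 := α.re) (a2 := α.im) (t := t)
      (lam := s + 2 - t) (by linarith) (by linarith) (by linarith) (by linarith) h1
      (by simp at e1; linarith) (by simp at e2; linarith)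
    simp
    linarith
  choose! d hd1 hd2 using hd
  have anti : AntitoneOn φ (Set.Icc s (s + 2)) := by
    refine antitoneOn_of_deriv_nonpos (convex_Icc _ _)
      (fun t ht => (hd1 t ht.1 ht.2).continuousAt.continuousWithinAt)
      (fun t ht => ?_) fun t ht => ?_
    · rw [interior_Icc] at ht
      exact (hd1 t ht.1.le ht.2.le).differentiableAt.differentiableWithinAt
    · rw [interior_Icc] at ht
      rw [(hd1 t ht.1.le ht.2.le).deriv]
      exact hd2 t ht.1.le ht.2.le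
  have h2 := anti ⟨le_rfl, by linarith⟩ ⟨by linarith, le_rfl⟩ (by linarith : s ≤ s + 2)
  have h3 := hp_U (s := s + 2) hb le_rfl h0 hne (by linarith)
  refine ⟨(hp_X (s := s) hb le_rfl h0 hne (by linarith)).1, ?_⟩
  have h4 : (conj (UU α 1 s) * UU α 1 s).re = ‖UU α 1 s‖ ^ 2 := by
    rw [Complex.conj_mul', ← Complex.ofReal_pow, Complex.ofReal_re]
  simp only [φ, h4, sub_self, zero_mul, sub_zero, add_sub_cancel_left] at h2 h3
  linarith

end Vale.Agent.P139
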