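import Vale.Agent.P139.CDefs

open Complex MeasureTheory Filter Topology
open scoped ComplexConjugate ContDiff

namespace Vale.Agent.P139

variable {m : ℕ} {om : ℝ} {w : ℝ → ℂ}

noncomputable def cZ (w : ℝ → ℂ) (r : ℝ) : ℂ := deriv w (r ^ 2 / 4) / w (r ^ 2 / 4)

theorem cco_sq (r : ℝ) : HasDerivAt (fun r : ℝ => r ^ 2 / 4) (r / 2) r :=
  ((hasDerivAt_pow 2 r).div_const 4).congr_deriv (by norm_num; ring)

theorem cco_sqs : ContDiff ℝ ∞ (fun r : ℝ => r ^ 2 / 4) := (contDiff_id.pow 2).div_const 4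

theorem Prof.cW_ne (h : Prof m om w) (r : ℝ) : cW w r ≠ 0 := h.ne _ (by positivity)

theorem Prof.cW_smooth (h : Prof m om w) : ContDiff ℝ ∞ (cW w) := h.smooth.comp cco_sqs

theorem Prof.dw_smooth (h : Prof m om w) : ContDiff ℝ ∞ (deriv w) :=
  (contDiff_infty_iff_deriv.1 h.smooth).2

theorem Prof.cZ_smooth (h : Prof m om w) : ContDiff ℝ ∞ (cZ w) := by
  have h1 := (h.dw_smooth.comp cco_sqs).mul (h.cW_smooth.inv h.cW_ne)
  have e : cZ w = fun r => (deriv w ∘ fun r : ℝ => r ^ 2 / 4) r * (cW w r)⁻¹ :=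
    funext fun r => div_eq_mul_inv _ _
  rw [e]
  exact h1

theorem Prof.cW_deriv (h : Prof m om w) (r : ℝ) :
    HasDerivAt (cW w) (r / 2 * cZ w r * cW w r) r := by
  have h1 := (h.smooth.differentiable (by simp) (r ^ 2 / 4)).hasDerivAt.scomp r (cco_sq r)
  refine h1.congr_deriv ?_
  have := h.cW_ne r
  simp only [cZ, cW] at this ⊢
  rw [real_smul]
  push_cast
  field_simp

theorem Prof.cZ_deriv (h : Prof m om w) {r : ℝ} (hr : r ≠ 0) :
    (r : ℂ) * deriv (cZ w) r = 2 * ((‖w (r ^ 2 / 4)‖ ^ (2 * m) : ℝ) - om - I * aa m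
      - (6 + I * (r ^ 2 / 4)) * cZ w r - r ^ 2 / 4 * cZ w r ^ 2) := by
  have h1 := (h.dw_smooth.differentiable (by simp) (r ^ 2 / 4)).hasDerivAt.scomp r (cco_sq r)
  have h2 := h1.div (h.cW_deriv r) (h.cW_ne r)
  have h3 : deriv (cZ w) r = _ := h2.deriv
  have h4 := h.ode (r ^ 2 / 4) (by positivity)
  have h5 := h.cW_ne r
  rw [h3]
  simp only [cZ, cW, Function.comp, real_smul] at h5 ⊢
  set P : ℂ := ((‖w (r ^ 2 / 4)‖ ^ (2 * m) : ℝ) : ℂ)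
  push_cast at h4 ⊢
  field_simp
  linear_combination (16 * w (r ^ 2 / 4)) * h4 + (16 * om * w (r ^ 2 / 4) ^ 2) * I_mul_I

theorem cco_rho (w : ℝ → ℂ) (r : ℝ) : ((cρ w r : ℝ) : ℂ) = cW w r * conj (cW w r) := by
  rw [mul_conj, normSq_eq_norm_sq]
  rfl

theorem Prof.cρ_smooth (h : Prof m om w) : ContDiff ℝ ∞ (cρ w) := h.cW_smooth.norm_sq ℂ

theorem Prof.cρ_pos (h : Prof m om w) (r : ℝ) : 0 < cρ w r :=
  pow_pos (norm_pos_iff.2 (h.cW_ne r)) 2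

theorem Prof.cρ_deriv (h : Prof m om w) (r : ℝ) :
    HasDerivAt (cρ w) (r * (cZ w r).re * cρ w r) r := by
  have h1 := (h.cW_deriv r).mul (h.cW_deriv r).star
  have h2 := reCLM.hasFDerivAt.comp_hasDerivAt r h1
  have e : cρ w = reCLM ∘ (cW w * fun x => star (cW w x)) := by
    funext t
    have := congrArg re (cco_rho w t)
    simpa using this
  rw [e]
  refine h2.congr_deriv ?_
  simp
  ring

theorem cco_q (m : ℕ) (w : ℝ → ℂ) : cq m w = fun r => 2 * m * cρ w r ^ m := by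
  funext r
  simp only [cq, cρ, pow_mul]

theorem Prof.cq_deriv (h : Prof m om w) (r : ℝ) :
    HasDerivAt (cq m w) (m * (r * (cZ w r).re) * cq m w r) r := by
  rw [cco_q]
  refine (((h.cρ_deriv r).pow m).const_mul (2 * (m : ℝ))).congr_deriv ?_
  obtain ⟨k, rfl⟩ : ∃ k, m = k + 1 := ⟨m - 1, by have := h.m_pos; omega⟩
  simp only [Nat.add_sub_cancel]
  ring

theorem Prof.cZ_re (h : Prof m om w) (r : ℝ) :
    HasDerivAt (fun t => (cZ w t).re) (deriv (cZ w) r).re r :=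
  reCLM.hasFDerivAt.comp_hasDerivAt r (h.cZ_smooth.differentiable (by simp) r).hasDerivAt

theorem Prof.cZ_im (h : Prof m om w) (r : ℝ) :
    HasDerivAt (fun t => (cZ w t).im) (deriv (cZ w) r).im r :=
  imCLM.hasFDerivAt.comp_hasDerivAt r (h.cZ_smooth.differentiable (by simp) r).hasDerivAt

theorem Prof.cZ_dre (h : Prof m om w) {r : ℝ} (hr : r ≠ 0) :
    r * (deriv (cZ w) r).re = 2 * (‖w (r ^ 2 / 4)‖ ^ (2 * m) - om - 6 * (cZ w r).re
      + r ^ 2 / 4 * (cZ w r).im - r ^ 2 / 4 * ((cZ w r).re ^ 2 - (cZ w r).im ^ 2)) := by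
  have h1 := congrArg re (h.cZ_deriv hr)
  generalize ‖w (r ^ 2 / 4)‖ ^ (2 * m) = P at h1 ⊢
  have e : ((r : ℂ) ^ 2 / 4) = ((r ^ 2 / 4 : ℝ) : ℂ) := by push_cast; ring
  rw [e] at h1
  generalize r ^ 2 / 4 = s at h1 ⊢
  simp [pow_two] at h1
  linear_combination h1

theorem Prof.cZ_dim (h : Prof m om w) {r : ℝ} (hr : r ≠ 0) :
    r * (deriv (cZ w) r).im = 2 * (-aa m - 6 * (cZ w r).im
      - r ^ 2 / 4 * (cZ w r).re - r ^ 2 / 2 * ((cZ w r).re * (cZ w r).im)) := by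
  have h1 := congrArg im (h.cZ_deriv hr)
  generalize ‖w (r ^ 2 / 4)‖ ^ (2 * m) = P at h1 ⊢
  have e : ((r : ℂ) ^ 2 / 4) = ((r ^ 2 / 4 : ℝ) : ℂ) := by push_cast; ring
  rw [e] at h1
  rw [show r ^ 2 / 2 = 2 * (r ^ 2 / 4) by ring]
  generalize r ^ 2 / 4 = s at h1 ⊢
  simp [pow_two] at h1
  linear_combination h1

theorem Ctx.cZ_le {ε σ : ℝ} (h : Ctx ε m om σ w) {r : ℝ} (hr : r ∈ Set.Icc (0 : ℝ) 3.46) :
    ‖cZ w r‖ ≤ 1 / 8 := by
  have hs : r ^ 2 / 4 ∈ Set.Icc (0 : ℝ) 3 := ⟨by positivity, by nlinarith [hr.1, hr.2]⟩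
  rw [cZ, norm_div, div_le_iff₀ (norm_pos_iff.2 (h.prof.ne _ hs.1))]
  exact h.good.slope _ hs

end Vale.Agent.P139
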