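import Vale.Agent.P139.CLad
import Vale.Agent.P139.CCoefX1

open Complex MeasureTheory Filter Topology
open scoped ComplexConjugate ContDiff

namespace Vale.Agent.P139

section
variable {m : ℕ} {om : ℝ} {w : ℝ → ℂ}

theorem cat_zp (hP : Prof m om w) {f : ℝ → ℂ} (hf : Differentiable ℝ f) (r : ℝ) :
    HasDerivAt (fun r => f r / cW w r) ((deriv f r - r / 2 * cZ w r * f r) / cW w r) r := by
  refine ((hf r).hasDerivAt.div (hP.cW_deriv r) (hP.cW_ne r)).congr_deriv ?_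
  have := hP.cW_ne r
  field_simp

theorem cat_zm (hP : Prof m om w) {g : ℝ → ℂ} (hg : Differentiable ℝ g) (r : ℝ) :
    HasDerivAt (fun r => g r / conj (cW w r))
      ((deriv g r - r / 2 * conj (cZ w r) * g r) / conj (cW w r)) r := by
  have h0 : conj (cW w r) ≠ 0 := (map_ne_zero _).2 (hP.cW_ne r)
  refine ((hg r).hasDerivAt.div (hP.cW_deriv r).star h0).congr_deriv ?_
  simp only [star_def, map_mul, map_div₀, conj_ofReal, map_ofNat]
  field_simp

theorem cat_j (w : ℝ → ℂ) (r : ℝ) :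
    ((cj w r : ℝ) : ℂ) = r / 2 - I * r * (cZ w r - conj (cZ w r)) / 2 := by
  rw [sub_conj]
  have : cj w r = r / 2 + r * (cZ w r).im := rfl
  rw [this]
  push_cast
  linear_combination (r * (cZ w r).im) * I_mul_I

theorem cat_P (m : ℕ) (w : ℝ → ℂ) (r : ℝ) :
    ((‖w (r ^ 2 / 4)‖ ^ (2 * m) : ℝ) : ℂ) = (cW w r * conj (cW w r)) ^ m := by
  rw [← cco_rho, pow_mul, cρ]
  push_cast
  ring

theorem cat_plus (hP : Prof m om w) {l : ℕ} {z : ℂ} {f g p q : ℝ → ℂ}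
    (h : RSol m om w l z f g p q) {r : ℝ} (hr : 0 ≤ r) :
    HasDerivAt (fun t : ℝ => ((t ^ 11 * cρ w t : ℝ) : ℂ) * deriv (fun r => f r / cW w r) t)
      (((l * (l + 10) * r ^ 9 * cρ w r : ℝ) : ℂ) * (f r / cW w r)
        + ((r ^ 11 * cρ w r : ℝ) : ℂ) * (cq m w r * cA w f g r - I * (z * (f r / cW w r)
          + cj w r * deriv (fun r => f r / cW w r) r) + I * (p r / cW w r))) r := by
  have df : Differentiable ℝ f := h.1.1.differentiable (by norm_num)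
  have d1 : HasDerivAt (deriv f) (deriv (deriv f) r) r :=
    ((h.1.1.deriv' (n := 15)).differentiable (by norm_num) r).hasDerivAt
  have e : (fun t : ℝ => ((t ^ 11 * cρ w t : ℝ) : ℂ) * deriv (fun r => f r / cW w r) t)
      = fun t : ℝ => (t : ℂ) ^ 11 * conj (cW w t) * (deriv f t - t / 2 * cZ w t * f t) := by
    funext t
    have := hP.cW_ne t
    rw [(cat_zp hP df t).deriv, ofReal_mul, cco_rho]
    push_cast
    field_simp
  have i1 : HasDerivAt (fun t : ℝ => (t : ℂ)) 1 r := (hasDerivAt_id r).ofReal_comp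
  have dZ := (hP.cZ_smooth.differentiable (by simp) r).hasDerivAt
  have h1 := ((i1.pow 11).mul (hP.cW_deriv r).star).mul
    (d1.sub (((i1.div_const 2).mul dZ).mul (df r).hasDerivAt))
  rw [e]
  refine h1.congr_deriv ?_
  rcases hr.eq_or_lt with rfl | hr
  · simp
  have h2 := h.2.2.1 r hr
  have h3 := hP.cZ_deriv hr.ne'
  have h4 := hP.cW_ne r
  have h5 : conj (cW w r) ≠ 0 := (map_ne_zero _).2 h4
  have r0 : (r : ℂ) ≠ 0 := ofReal_ne_zero.2 hr.ne'
  have hq : ((cq m w r : ℝ) : ℂ) = 2 * m * (cW w r * conj (cW w r)) ^ m := by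
    rw [← cat_P, cq]; push_cast; ring
  rw [cat_P] at h3
  rw [(cat_zp hP df r).deriv, hq, cat_j, cA]
  simp only [ofReal_mul, cco_rho]
  obtain ⟨k, rfl⟩ : ∃ k, m = k + 1 := ⟨m - 1, by have := hP.m_pos; omega⟩
  have v1 : V1 (k + 1) w (r ^ 2 / 4) = ((k : ℂ) + 1 + 1) * (cW w r * conj (cW w r)) ^ (k + 1) := by
    simp [V1, cW]
  have v2 : V2 (k + 1) w (r ^ 2 / 4)
      = ((k : ℂ) + 1) * (cW w r * conj (cW w r)) ^ k * cW w r ^ 2 := by
    simp [V2, cW]
  rw [v1, v2] at h2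
  simp only [star_def, map_mul, map_div₀, conj_ofReal, map_ofNat, Pi.mul_apply, Pi.pow_apply,
    Pi.sub_apply]
  rw [pow_succ (cW w r * conj (cW w r))] at h2 h3 ⊢
  generalize (cW w r * conj (cW w r)) ^ k = Q at h2 h3 ⊢
  generalize conj (cW w r) = W' at h2 h3 h5 ⊢
  generalize cW w r = W at h2 h3 h4 ⊢
  push_cast
  have h6 : deriv (deriv f) r = I * p r - (11 / r * deriv f r - l * (l + 10) / r ^ 2 * f r
      + I * (z + aa (k + 1) - I * om) * f r + I * r / 2 * deriv f r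
      - ((k : ℂ) + 1 + 1) * (Q * (W * W')) * f r - ((k : ℂ) + 1) * Q * W ^ 2 * g r) := by
    linear_combination h2
  have h7 : deriv (cZ w) r = 2 * (Q * (W * W') - om - I * aa (k + 1)
      - (6 + I * (r ^ 2 / 4)) * cZ w r - r ^ 2 / 4 * cZ w r ^ 2) / r := by
    rw [← h3]; field_simp
  rw [h6, h7]
  field_simp
  ring_nf
  simp only [I_sq, I_pow_three]
  ring

theorem cat_minus (hP : Prof m om w) {l : ℕ} {z : ℂ} {f g p q : ℝ → ℂ}
    (h : RSol m om w l z f g p q) {r : ℝ} (hr : 0 ≤ r) :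
    HasDerivAt (fun t : ℝ => ((t ^ 11 * cρ w t : ℝ) : ℂ) * deriv (fun r => g r / conj (cW w r)) t)
      (((l * (l + 10) * r ^ 9 * cρ w r : ℝ) : ℂ) * (g r / conj (cW w r))
        + ((r ^ 11 * cρ w r : ℝ) : ℂ) * (cq m w r * cA w f g r + I * (z * (g r / conj (cW w r))
          + cj w r * deriv (fun r => g r / conj (cW w r)) r) - I * (q r / conj (cW w r)))) r := by
  have h1 := (cat_plus hP h.swap hr).star
  have e : ∀ t, deriv (fun r => g r / conj (cW w r)) t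
      = conj (deriv (fun r => conj (g r) / cW w r) t) := fun t => by
    have := deriv.star (f := fun r => conj (g r) / cW w r) (x := t)
    simp only [star_def, map_div₀, conj_conj] at this
    exact this
  simp only [e]
  refine (h1.congr_of_eventuallyEq (Eventually.of_forall fun t => ?_)).congr_deriv ?_
  · simp only [star_def, map_mul, conj_ofReal]
  · simp only [star_def, map_mul, map_add, map_sub, map_div₀, conj_ofReal, conj_conj, conj_I, cA,
      map_ofNat]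
    ring

theorem cat_dA (hP : Prof m om w) {f g : ℝ → ℂ} (hf : Differentiable ℝ f)
    (hg : Differentiable ℝ g) (r : ℝ) : HasDerivAt (cA w f g)
      ((deriv (fun r => f r / cW w r) r + deriv (fun r => g r / conj (cW w r)) r) / 2) r := by
  rw [(cat_zp hP hf r).deriv, (cat_zm hP hg r).deriv]
  exact ((cat_zp hP hf r).add (cat_zm hP hg r)).div_const 2

theorem cat_dT (hP : Prof m om w) {f g : ℝ → ℂ} (hf : Differentiable ℝ f)
    (hg : Differentiable ℝ g) (r : ℝ) : HasDerivAt (cT w f g)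
      ((deriv (fun r => f r / cW w r) r - deriv (fun r => g r / conj (cW w r)) r) / (2 * I)) r := by
  rw [(cat_zp hP hf r).deriv, (cat_zm hP hg r).deriv]
  exact ((cat_zp hP hf r).sub (cat_zm hP hg r)).div_const (2 * I)

theorem cat_cd (hP : Prof m om w) {n : ℕ} {f g : ℝ → ℂ} (hf : ContDiff ℝ n f)
    (hg : ContDiff ℝ n g) : ContDiff ℝ n (cA w f g) ∧ ContDiff ℝ n (cT w f g) := by
  have hW : ContDiff ℝ n (cW w) := hP.cW_smooth.of_le (by exact_mod_cast le_top)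
  have hW' : ContDiff ℝ n fun r => conj (cW w r) := conjCLE.contDiff.comp hW
  have h1 : ContDiff ℝ n fun r => f r / cW w r := by
    simp only [div_eq_mul_inv]
    exact hf.mul (hW.inv hP.cW_ne)
  have h2 : ContDiff ℝ n fun r => g r / conj (cW w r) := by
    simp only [div_eq_mul_inv]
    exact hg.mul (hW'.inv fun r => (map_ne_zero _).2 (hP.cW_ne r))
  exact ⟨(h1.add h2).div_const 2, (h1.sub h2).div_const (2 * I)⟩

end

theorem asol_of_sol {m : ℕ} {om : ℝ} {w : ℝ → ℂ} (hP : Prof m om w) {l : ℕ} {z : ℂ}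
    {f g p q : ℝ → ℂ} (h : RSol m om w l z f g p q) (hp : Continuous p) (hq : Continuous q) :
    ASol (cρ w) (cj w) (cq m w) l z (cA w f g) (cT w f g) (cT w p q) (cA w p q) := by
  have df : Differentiable ℝ f := h.1.1.differentiable (by norm_num)
  have dg : Differentiable ℝ g := h.2.1.1.differentiable (by norm_num)
  have c2 := cat_cd hP (n := 2) (h.1.1.of_le (by norm_num)) (h.2.1.1.of_le (by norm_num))
  have c0 := cat_cd hP (n := 0) (contDiff_zero.2 hp) (contDiff_zero.2 hq)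
  refine ⟨c2.1, c2.2, c0.2.continuous, c0.1.continuous, fun r hr => ?_, fun r hr => ?_⟩
  · refine ((((cat_plus hP h hr).add (cat_minus hP h hr)).div_const 2).congr_of_eventuallyEq
      (Eventually.of_forall fun t => ?_)).congr_deriv ?_
    · simp only [(cat_dA hP df dg t).deriv, Pi.add_apply]
      ring
    · rw [(cat_dT hP df dg r).deriv]
      simp only [cA, cT, div_mul_eq_div_div, div_I]
      push_cast
      ring
  · refine ((((cat_plus hP h hr).sub (cat_minus hP h hr)).div_const (2 * I)).congr_of_eventuallyEq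
      (Eventually.of_forall fun t => ?_)).congr_deriv ?_
    · simp only [(cat_dT hP df dg t).deriv, Pi.sub_apply]
      ring
    · rw [(cat_dA hP df dg r).deriv]
      simp only [cA, cT, div_mul_eq_div_div, div_I]
      push_cast
      ring_nf
      simp only [I_sq]
      ring

theorem zp_eq (w f g : ℝ → ℂ) : zp (cA w f g) (cT w f g) = fun r => f r / cW w r := by
  funext r
  simp only [zp, cA, cT, div_mul_eq_div_div, div_I]
  linear_combination (-(f r / cW w r - g r / conj (cW w r)) / 2) * I_mul_I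

theorem zm_eq (w f g : ℝ → ℂ) : zm (cA w f g) (cT w f g) = fun r => g r / conj (cW w r) := by
  funext r
  simp only [zm, cA, cT, div_mul_eq_div_div, div_I]
  linear_combination ((f r / cW w r - g r / conj (cW w r)) / 2) * I_mul_I

theorem cat_par (a b : ℂ) : ‖(a + b) / 2‖ ^ 2 + ‖(a - b) / (2 * I)‖ ^ 2
    = (‖a‖ ^ 2 + ‖b‖ ^ 2) / 2 := by
  have := parallelogram_law_with_norm ℂ a b
  simp only [norm_div, norm_mul, norm_I, Complex.norm_ofNat]
  nlinarith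

/-- real inequalities for one component -/
theorem cat_one {a a1 c W : ℂ} {L : ℝ} (hL : 1 ≤ L) (hc : ‖c‖ ≤ 1 / 4) (h1 : 1 / 2 ≤ ‖W‖)
    (h2 : ‖W‖ ≤ 1) :
    ‖a1‖ ^ 2 + L ^ 2 * ‖a‖ ^ 2 ≤ 2 * (‖(a1 - c * a) / W‖ ^ 2 + L ^ 2 * ‖a / W‖ ^ 2) ∧
    ‖(a1 - c * a) / W‖ ^ 2 + L ^ 2 * ‖a / W‖ ^ 2 ≤ 8 * (‖a1‖ ^ 2 + L ^ 2 * ‖a‖ ^ 2) := by
  have hW : 0 < ‖W‖ := by linarith
  have hca : ‖c * a‖ ≤ ‖a‖ / 4 := by
    rw [norm_mul]; nlinarith [norm_nonneg a]
  have u1 : ‖a1 - c * a‖ ≤ ‖a1‖ + ‖a‖ / 4 := (norm_sub_le _ _).trans (by linarith)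
  have u2 : ‖a1‖ ≤ ‖a1 - c * a‖ + ‖a‖ / 4 := by
    have := norm_add_le (a1 - c * a) (c * a)
    rw [sub_add_cancel] at this
    linarith
  have L2 : ‖a‖ ^ 2 ≤ L ^ 2 * ‖a‖ ^ 2 := le_mul_of_one_le_left (sq_nonneg _) (by nlinarith)
  have e : ‖(a1 - c * a) / W‖ ^ 2 + L ^ 2 * ‖a / W‖ ^ 2
      = (‖a1 - c * a‖ ^ 2 + L ^ 2 * ‖a‖ ^ 2) / ‖W‖ ^ 2 := by
    rw [norm_div, norm_div]; field_simp
  have w1 : ‖W‖ ^ 2 ≤ 1 := by nlinarith
  have w2 : 1 / 4 ≤ ‖W‖ ^ 2 := by nlinarith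
  have n1 := norm_nonneg a
  have n2 := norm_nonneg a1
  have n3 := norm_nonneg (a1 - c * a)
  rw [e]
  generalize ‖a1 - c * a‖ = y at *
  generalize ‖a1‖ = x at *
  generalize ‖a‖ = b at *
  have p0 : 0 ≤ y ^ 2 + L ^ 2 * b ^ 2 := by positivity
  constructor
  · have : y ^ 2 + L ^ 2 * b ^ 2 ≤ (y ^ 2 + L ^ 2 * b ^ 2) / ‖W‖ ^ 2 := by
      rw [le_div_iff₀ (by positivity)]; nlinarith
    have x2 : x ^ 2 ≤ (y + b / 4) ^ 2 := pow_le_pow_left₀ n2 u2 2
    nlinarith [sq_nonneg (y - b / 4)]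
  · rw [div_le_iff₀ (by positivity)]
    have y2 : y ^ 2 ≤ (x + b / 4) ^ 2 := pow_le_pow_left₀ n3 u1 2
    have : y ^ 2 + L ^ 2 * b ^ 2 ≤ 2 * (x ^ 2 + L ^ 2 * b ^ 2) := by
      nlinarith [sq_nonneg (x - b / 4)]
    nlinarith [sq_nonneg x]

theorem cat_k2 {x b y G L : ℝ} (hL : 1 ≤ L) (hx : 0 ≤ x) (hb : 0 ≤ b) (hy : 0 ≤ y) (hG : 0 ≤ G)
    (u1 : y ≤ x + b / 4) : y ^ 2 ≤ x ^ 2 + 4 * (x ^ 2 + L ^ 2 * b ^ 2 + G) / L := by
  have u2 := pow_le_pow_left₀ hy u1 2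
  have k3 : x * b / 2 + b ^ 2 / 16 ≤ 4 * (x ^ 2 + L ^ 2 * b ^ 2 + G) / L := by
    rw [le_div_iff₀ (by positivity)]
    have : L * b ^ 2 ≤ L ^ 2 * b ^ 2 := mul_le_mul_of_nonneg_right (by nlinarith) (sq_nonneg _)
    nlinarith [sq_nonneg (x - L * b), sq_nonneg x]
  nlinarith

theorem cat_k1 {x b G L : ℝ} (hL : 1 ≤ L) (hG : 0 ≤ G) :
    b ^ 2 ≤ 4 * (x ^ 2 + L ^ 2 * b ^ 2 + G) / L ^ 2 := by
  rw [le_div_iff₀ (by positivity)]
  nlinarith [sq_nonneg x, mul_nonneg (sq_nonneg L) (sq_nonneg b)]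

/-- comparison of the two sets of variables on [0, 3.46] -/
theorem at_comp : ∃ C : ℝ, 0 ≤ C ∧ ∀ {ε : ℝ} {m : ℕ} {om σ : ℝ} {w : ℝ → ℂ}, Ctx ε m om σ w →
    ∀ (f g : ℝ → ℂ), Differentiable ℝ f → Differentiable ℝ g → ∀ L : ℝ, 1 ≤ L →
    ∀ r ∈ Set.Icc (0 : ℝ) 3.46,
      ee L f g r ≤ C * ee L (cA w f g) (cT w f g) r ∧
      ee L (cA w f g) (cT w f g) r ≤ C * ee L f g r ∧
      Jf f r - C * ee L f g r / L ^ 2 ≤ cρ w r * Jf (zp (cA w f g) (cT w f g)) r ∧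
      cρ w r * ‖deriv (zp (cA w f g) (cT w f g)) r‖ ^ 2 ≤ ‖deriv f r‖ ^ 2 + C * ee L f g r / L ∧
      cρ w r * ‖zp (cA w f g) (cT w f g) r‖ ^ 2 = ‖f r‖ ^ 2 := by
  refine ⟨4, by norm_num, fun {ε m om σ w} h f g df dg L hL r hr => ?_⟩
  have hP := h.prof
  have hs : r ^ 2 / 4 ∈ Set.Icc (0 : ℝ) 3 := ⟨by positivity, by nlinarith [hr.1, hr.2]⟩
  have w1 : 1 / 2 ≤ ‖cW w r‖ := h.good.lo _ hs
  have w2 : ‖cW w r‖ ≤ 1 := h.good.hi _ hs
  have hc : ‖(r : ℂ) / 2 * cZ w r‖ ≤ 1 / 4 := by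
    rw [norm_mul, norm_div, norm_real, Real.norm_of_nonneg hr.1, Complex.norm_ofNat]
    nlinarith [h.cZ_le hr, hr.1, hr.2, norm_nonneg (cZ w r)]
  have hc' : ‖(r : ℂ) / 2 * conj (cZ w r)‖ ≤ 1 / 4 := by
    rw [norm_mul, norm_conj, ← norm_mul]; exact hc
  obtain ⟨a1, a2⟩ := cat_one (a := f r) (a1 := deriv f r) hL hc w1 w2
  obtain ⟨b1, b2⟩ := cat_one (a := g r) (a1 := deriv g r) (W := conj (cW w r)) hL hc'
    (by rwa [norm_conj]) (by rwa [norm_conj])
  have e : ee L (cA w f g) (cT w f g) r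
      = ((‖(deriv f r - r / 2 * cZ w r * f r) / cW w r‖ ^ 2 + L ^ 2 * ‖f r / cW w r‖ ^ 2)
        + (‖(deriv g r - r / 2 * conj (cZ w r) * g r) / conj (cW w r)‖ ^ 2
          + L ^ 2 * ‖g r / conj (cW w r)‖ ^ 2)) / 2 := by
    have p1 := cat_par (f r / cW w r) (g r / conj (cW w r))
    have p2 := cat_par (deriv (fun r => f r / cW w r) r) (deriv (fun r => g r / conj (cW w r)) r)
    simp only [ee, en, (cat_dA hP df dg r).deriv, (cat_dT hP df dg r).deriv]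
    rw [← (cat_zp hP df r).deriv, ← (cat_zm hP dg r).deriv]
    simp only [cA, cT]
    linear_combination p2 + L ^ 2 * p1
  have hW : 0 < ‖cW w r‖ := by linarith
  have eρ : cρ w r = ‖cW w r‖ ^ 2 := rfl
  have g0 : 0 ≤ en L g r := by unfold en; positivity
  have n1 := norm_nonneg (f r)
  have n2 := norm_nonneg (deriv f r)
  have hca : ‖(r : ℂ) / 2 * cZ w r * f r‖ ≤ ‖f r‖ / 4 := by
    rw [norm_mul]; nlinarith
  rw [e, zp_eq]
  refine ⟨?_, ?_, ?_, ?_, ?_⟩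
  · simp only [ee, en]; linarith
  · simp only [ee, en]; linarith
  · have k : cρ w r * Jf (fun r => f r / cW w r) r
        = Jf f r - (conj (f r) * (r / 2 * cZ w r * f r)).im := by
      have h0 := hP.cW_ne r
      have h5 : conj (cW w r) ≠ 0 := (map_ne_zero _).2 h0
      rw [Jf, Jf, (cat_zp hP df r).deriv, ← im_ofReal_mul, cco_rho, ← sub_im, map_div₀]
      congr 1
      field_simp
    have k2 : (conj (f r) * (r / 2 * cZ w r * f r)).im ≤ ‖f r‖ ^ 2 := by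
      refine (im_le_norm _).trans ?_
      rw [norm_mul, norm_conj]
      nlinarith
    have k3 : ‖f r‖ ^ 2 ≤ 4 * ee L f g r / L ^ 2 := cat_k1 hL g0
    linarith
  · rw [(cat_zp hP df r).deriv, eρ, norm_div, div_pow, mul_div_cancel₀ _ (by positivity)]
    exact cat_k2 hL n2 n1 (norm_nonneg _) g0 ((norm_sub_le _ _).trans (by linarith))
  · rw [eρ, norm_div, div_pow, mul_div_cancel₀ _ (by positivity)]

end Vale.Agent.P139
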