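import Vale.Agent.P139.CDefs
import Vale.Agent.P139.CCoefX1

open Complex MeasureTheory Filter Topology
open scoped ComplexConjugate ContDiff

namespace Vale.Agent.P139

theorem Ctx.mx {ε : ℝ} {m : ℕ} {om σ : ℝ} {w : ℝ → ℂ} (h : Ctx ε m om σ w) {r : ℝ}
    (hr : r ∈ Set.Icc (0 : ℝ) 3.46) : 2 * m * (cZ w r).re ≤ ε := by
  have hs : r ^ 2 / 4 ∈ Set.Icc (0 : ℝ) 3 := ⟨by positivity, by nlinarith [hr.1, hr.2]⟩
  have h1 := h.good.up _ hs
  have h0 := h.prof.ne _ hs.1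
  have hp : 0 < ‖w (r ^ 2 / 4)‖ ^ 2 := pow_pos (norm_pos_iff.2 h0) 2
  have e : deriv w (r ^ 2 / 4) * conj (w (r ^ 2 / 4))
      = cZ w r * ((‖w (r ^ 2 / 4)‖ ^ 2 : ℝ) : ℂ) := by
    rw [← normSq_eq_norm_sq, ← mul_conj, cZ]
    field_simp
  rw [e, re_mul_ofReal, ← mul_assoc] at h1
  exact le_of_mul_le_mul_right h1 hp

theorem cco_n2 {r d x y P om : ℝ} (hr : r ∈ Set.Icc (0 : ℝ) 3.46)
    (h1 : r * d = 2 * (P - om - 6 * x + r ^ 2 / 4 * y - r ^ 2 / 4 * (x ^ 2 - y ^ 2)))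
    (h3 : 0 ≤ P) (h2 : P ≤ 1) (o0 : 0.33 ≤ om) (o1 : om ≤ 0.34) (hx : |x| ≤ 1 / 8)
    (hy : |y| ≤ 1 / 8) : |2 * r * x + r ^ 2 * d| ≤ 20 := by
  obtain ⟨a1, a2⟩ := abs_le.1 hx
  obtain ⟨b1, b2⟩ := abs_le.1 hy
  have r3 : r ^ 2 ≤ 12 := by nlinarith [hr.1, hr.2]
  have r4 := sq_nonneg r
  have x2 : x ^ 2 ≤ 1 / 64 := by nlinarith
  have y2 : y ^ 2 ≤ 1 / 64 := by nlinarith
  have k1 : |2 * x + r * d| ≤ 5 := by
    rw [h1, abs_le]
    constructor <;> nlinarith [sq_nonneg x, sq_nonneg y]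
  rw [show 2 * r * x + r ^ 2 * d = r * (2 * x + r * d) by ring, abs_mul, abs_of_nonneg hr.1]
  nlinarith [hr.1, hr.2, abs_nonneg (2 * x + r * d)]

theorem Ctx.q_le {ε : ℝ} {m : ℕ} {om σ : ℝ} {w : ℝ → ℂ} (h : Ctx ε m om σ w) {r : ℝ}
    (h1 : σ + ε ≤ r ^ 2 / 4) : cq m w r ≤ ε := by
  have e0 := h.e0
  have s0 := h.s0
  have h2 := (h.good.ext 0 (by norm_num) _ h1).1
  have h3 : ‖V1 m w (r ^ 2 / 4)‖ = (m + 1) * ‖w (r ^ 2 / 4)‖ ^ (2 * m) := by
    rw [V1, norm_mul, norm_pow, norm_mul, norm_conj, pow_mul, ← pow_two]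
    congr 1
    exact_mod_cast Complex.norm_natCast (m + 1)
  rw [iteratedDeriv_zero, h3, Nat.cast_zero, sub_zero, Real.rpow_neg_one] at h2
  have h4 : (r ^ 2 / 4)⁻¹ ≤ 1 / 2 := by
    rw [inv_le_comm₀ (by linarith) (by norm_num)]
    linarith
  have h5 : 0 ≤ ‖w (r ^ 2 / 4)‖ ^ (2 * m) := by positivity
  unfold cq
  nlinarith

theorem Ctx.cf {ε : ℝ} {m : ℕ} {om σ : ℝ} {w : ℝ → ℂ} (h : Ctx ε m om σ w) :
    Cf ε (aa m) (2 * Real.sqrt (σ - ε)) (2 * Real.sqrt (σ + ε)) (cρ w) (cn w) (cj w) (cq m w) := by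
  have hP := h.prof
  have e0 := h.e0
  have e1 := h.e1
  have s0 := h.s0
  have s1 := h.s1
  have hm := h.good.hm
  have m1 : (1 : ℝ) ≤ m := by exact_mod_cast hP.m_pos
  have en : cn w = fun r => r ^ 2 * (cZ w r).re := rfl
  have ej : cj w = fun r => r / 2 + r * (cZ w r).im := rfl
  have dn : ∀ r, HasDerivAt (cn w) (2 * r * (cZ w r).re + r ^ 2 * (deriv (cZ w) r).re) r :=
    fun r => ((hasDerivAt_pow 2 r).mul (hP.cZ_re r)).congr_deriv (by norm_num)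
  have dj : ∀ r, HasDerivAt (cj w) (1 / 2 + ((cZ w r).im + r * (deriv (cZ w) r).im)) r :=
    fun r => (((hasDerivAt_id r).div_const 2).add ((hasDerivAt_id r).mul
      (hP.cZ_im r))).congr_deriv (by simp)
  have sre : ContDiff ℝ ∞ fun r => (cZ w r).re := reCLM.contDiff.comp hP.cZ_smooth
  have sim : ContDiff ℝ ∞ fun r => (cZ w r).im := imCLM.contDiff.comp hP.cZ_smooth
  have one : (1 : WithTop ℕ∞) ≤ ∞ := by exact_mod_cast le_top
  have hs : ∀ r ∈ Set.Icc (0 : ℝ) 3.46, r ^ 2 / 4 ∈ Set.Icc (0 : ℝ) 3 := fun r hr =>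
    ⟨by positivity, by nlinarith [hr.1, hr.2]⟩
  have bre : ∀ r ∈ Set.Icc (0 : ℝ) 3.46, |(cZ w r).re| ≤ 1 / 8 := fun r hr =>
    (abs_re_le_norm _).trans (h.cZ_le hr)
  have bim : ∀ r ∈ Set.Icc (0 : ℝ) 3.46, |(cZ w r).im| ≤ 1 / 8 := fun r hr =>
    (abs_im_le_norm _).trans (h.cZ_le hr)
  have r2 : ∀ r ∈ Set.Icc (0 : ℝ) 3.46, r ^ 2 ≤ 12 := fun r hr => by nlinarith [hr.1, hr.2]
  have mn : ∀ r ∈ Set.Icc (0 : ℝ) 3.46, m * (r ^ 2 * (cZ w r).re) ≤ 6 * ε := fun r hr => by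
    have h1 := mul_le_mul_of_nonneg_left (h.mx hr) (sq_nonneg r)
    nlinarith [r2 r hr]
  have qm : Real.sqrt (σ - ε) ^ 2 = σ - ε := Real.sq_sqrt (by linarith)
  have qp : Real.sqrt (σ + ε) ^ 2 = σ + ε := Real.sq_sqrt (by linarith)
  have lm : 1.6 ≤ Real.sqrt (σ - ε) := Real.le_sqrt_of_sq_le (by linarith)
  have lp : Real.sqrt (σ - ε) ≤ Real.sqrt (σ + ε) := Real.sqrt_le_sqrt (by linarith)
  have up : Real.sqrt (σ + ε) ≤ 1.65 := Real.sqrt_le_iff.2 ⟨by norm_num, by linarith⟩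
  have q0 : ∀ r, 0 ≤ cq m w r := fun r => by unfold cq; positivity
  refine ⟨e0, e1, hP.aa_pos, ?_, by linarith, by linarith, by nlinarith, by linarith,
    hP.cρ_smooth.of_le one, ?_, ?_, ?_, fun r => ?_, fun r => ?_, fun r hr => ?_, fun r hr => ?_,
    fun r hr => ?_, fun r hr => ?_, fun r hr => ?_, fun r hr => ?_, fun r hr => ?_, fun r hr => ?_,
    q0, fun r hr => ?_, fun r hr => ?_, fun r hr => ?_⟩
  · rw [aa, div_le_iff₀ (by positivity)]
    nlinarith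
  · rw [en]; exact ((contDiff_id.pow 2).mul sre).of_le one
  · rw [ej]; exact ((contDiff_id.div_const 2).add (contDiff_id.mul sim)).of_le one
  · rw [cco_q]; exact (contDiff_const.mul (hP.cρ_smooth.pow m)).of_le one
  · rw [(hP.cρ_deriv r).deriv, en]; ring
  · rw [(dj r).deriv, en, ej]
    rcases eq_or_ne r 0 with rfl | hr
    · simp
    · linear_combination r * hP.cZ_dim hr
  · have := h.good.lo _ (hs r hr)
    unfold cρ
    nlinarith
  · exact pow_le_one₀ (norm_nonneg _) (h.good.hi _ (hs r hr))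
  · have := (abs_le.1 (bre r hr)).1
    rw [en]
    nlinarith [r2 r hr, sq_nonneg r]
  · have h1 := mn r hr
    rw [en]
    by_contra h2
    push Not at h2
    nlinarith
  · rw [(dn r).deriv]
    rcases eq_or_ne r 0 with rfl | h0
    · simp
    exact cco_n2 hr (hP.cZ_dre h0) (by positivity)
      (pow_le_one₀ (norm_nonneg _) (h.good.hi _ (hs r hr))) h.o0 h.o1 (bre r hr) (bim r hr)
  · have h1 : r ^ 2 / 4 ∈ Set.Icc 0 (σ + ε) := ⟨by positivity, by nlinarith [hr.1, hr.2]⟩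
    have h2 : ‖cZ w r‖ ≤ 2 * ε := by
      rw [cZ, norm_div, div_le_iff₀ (norm_pos_iff.2 (hP.ne _ h1.1))]
      exact h.good.flat _ h1
    rw [en, abs_mul, abs_of_nonneg (sq_nonneg r), mul_comm]
    exact mul_le_mul_of_nonneg_right ((abs_re_le_norm _).trans h2) (sq_nonneg r)
  · have := (abs_le.1 (bim r hr)).1
    rw [ej]
    nlinarith [hr.1]
  · have := (abs_le.1 (bim r hr)).2
    rw [ej]
    nlinarith [hr.1]
  · rw [(hP.cq_deriv r).deriv, en]
    have h1 := mn r hr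
    have h2 : m * (r ^ 2 * (cZ w r).re) ≤ r ^ 2 * (cZ w r).re + 6 * ε := by
      rcases le_total 0 (r ^ 2 * (cZ w r).re) with h3 | h3 <;> nlinarith
    have := mul_le_mul_of_nonneg_right h2 (q0 r)
    linarith [this, show r * (m * (r * (cZ w r).re) * cq m w r)
      = m * (r ^ 2 * (cZ w r).re) * cq m w r by ring]
  · exact h.q_le (by nlinarith [hr.1])
  · have h1 : r ^ 2 / 4 ∈ Set.Icc 0 (σ - ε) := ⟨by positivity, by nlinarith [hr.1, hr.2]⟩
    have h2 := h.good.core _ h1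
    unfold cq
    nlinarith

theorem exists_psi : ∃ (B : ℝ) (ψ : ℝ → ℝ), 0 ≤ B ∧ Psi B ψ := by
  let ψ : ℝ → ℝ := fun r => Real.smoothTransition ((3.4 - r) / 0.04)
  have hc : ContDiff ℝ 1 ψ :=
    Real.smoothTransition.contDiff.comp ((contDiff_const.sub contDiff_id).div_const _)
  have one : ∀ r, r ≤ 3.36 → ψ r = 1 := fun r hr =>
    Real.smoothTransition.one_of_one_le (by rw [le_div_iff₀ (by norm_num)]; linarith)
  have zero : ∀ r, 3.4 ≤ r → ψ r = 0 := fun r hr =>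
    Real.smoothTransition.zero_of_nonpos (div_nonpos_of_nonpos_of_nonneg (by linarith) (by norm_num))
  have anti : Antitone ψ := fun a b hab =>
    Real.smoothTransition.monotone (div_le_div_of_nonneg_right (by linarith) (by norm_num))
  obtain ⟨B, hB⟩ := (isCompact_Icc (a := (3 : ℝ)) (b := 4)).exists_bound_of_continuousOn
    (hc.continuous_deriv le_rfl).continuousOn
  have B0 : 0 ≤ B := (norm_nonneg _).trans (hB 3 (by norm_num))
  refine ⟨B, ψ, B0, hc, one, zero, fun r => Real.smoothTransition.nonneg _,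
    fun r => Real.smoothTransition.le_one _, fun r => anti.deriv_nonpos, fun r => ?_⟩
  rcases lt_or_ge r 3 with h | h
  · have : ψ =ᶠ[𝓝 r] fun _ => 1 := by
      filter_upwards [Iio_mem_nhds h] with t ht using one t (by linarith [Set.mem_Iio.1 ht])
    rw [this.deriv_eq, deriv_const]
    linarith
  rcases le_or_gt r 4 with h' | h'
  · exact (abs_le.1 (hB r ⟨h, h'⟩)).1
  · have : ψ =ᶠ[𝓝 r] fun _ => 0 := by
      filter_upwards [Ioi_mem_nhds h'] with t ht using zero t (by linarith [Set.mem_Ioi.1 ht])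
    rw [this.deriv_eq, deriv_const]
    linarith

end Vale.Agent.P139
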