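import Vale.Agent.P139.SymP

open Complex MeasureTheory Filter Topology
open scoped ComplexConjugate ContDiff

namespace Vale.Agent.P139

theorem rmode_cb_conj {f : ℝ → ℂ} (h : Cb1 f) : Cb1 fun r => conj (f r) := by
  obtain ⟨h1, C, h2⟩ := h
  refine ⟨conjCLE.contDiff.comp h1, C, fun k hk r => le_trans (le_of_eq ?_) (h2 k hk r)⟩
  rw [← norm_iteratedFDeriv_eq_norm_iteratedDeriv, ← norm_iteratedFDeriv_eq_norm_iteratedDeriv]
  exact conjLIE.norm_iteratedFDeriv_comp_left f r k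

theorem rmode_cb_line {γ C : ℝ} (hγ : 0 ≤ γ) (hC : 0 ≤ C) {F : E → ℂ} (h : Sym γ 16 C F) :
    Cb1 fun r : ℝ => F (r • EuclideanSpace.single 0 1) := by
  let L : ℝ →L[ℝ] E := ContinuousLinearMap.toSpanSingleton ℝ (EuclideanSpace.single 0 1)
  have hL : ‖L‖ = 1 := by simp [L]
  refine ⟨(h.1.comp L.contDiff).of_le (WithTop.coe_le_coe.2 (le_top : (16 : ℕ∞) ≤ ⊤)), C, fun k hk r => ?_⟩
  rw [← norm_iteratedFDeriv_eq_norm_iteratedDeriv]
  have e := L.iteratedFDeriv_comp_right h.1 r (i := k) (by exact_mod_cast le_top)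
  refine (congrArg norm e).trans_le ((ContinuousMultilinearMap.norm_compContinuousLinearMap_le
    _ _).trans ?_)
  simp only [hL, Finset.prod_const_one, mul_one]
  refine (h.2 k hk _).trans (mul_le_of_le_one_right hC (Real.rpow_le_one_of_one_le_of_nonpos ?_ ?_))
  · linarith [norm_nonneg (L r)]
  · linarith [(Nat.cast_nonneg k : (0 : ℝ) ≤ k)]

theorem rmode_cb {m : ℕ} {om : ℝ} {w : ℝ → ℂ} (h : Prof m om w) (i : Fin 3) :
    Cb1 (rmode m om w i) := by
  obtain ⟨C, hC, H⟩ := h.sym_mode 16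
  have ha : 0 ≤ 2 * aa m := by
    unfold aa
    positivity
  have hn : ∀ r : ℝ, ‖(r • EuclideanSpace.single 0 1 : E)‖ ^ 2 = r ^ 2 := fun r => by
    simp [norm_smul]
  have key : ∀ β : Co, Cb1 fun r : ℝ => mode1 m om w β (r • EuclideanSpace.single 0 1) :=
    fun β => rmode_cb_line ha (mul_nonneg hC (norm_nonneg _)) (H β).1
  have e : rmode m om w i = fun r : ℝ => mode1 m om w
      (![(1, 0, 0), (0, 0, Pi.single 0 1), (0, 1, 0)] i) (r • EuclideanSpace.single 0 1) := by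
    funext r
    fin_cases i <;> simp [rmode, mode1, rad, hn, Pi.single_apply]
  rw [e]
  exact key _

theorem rmode_comp {u : ℝ → ℂ} {u' : ℂ} {r : ℝ} (h : HasDerivAt u u' (r ^ 2 / 4)) :
    HasDerivAt (fun r : ℝ => u (r ^ 2 / 4)) (r / 2 * u') r := by
  have h1 : HasDerivAt (fun r : ℝ => r ^ 2 / 4) (r / 2) r :=
    ((hasDerivAt_pow 2 r).div_const 4).congr_deriv (by norm_num; ring)
  exact (h.scomp r h1).congr_deriv (by simp)

theorem rmode_half (r : ℝ) : HasDerivAt (fun r : ℝ => (r : ℂ) / 2) (1 / 2) r :=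
  (hasDerivAt_id r).ofReal_comp.div_const 2

theorem rmode_rad {u u1 u2 : ℝ → ℂ} (h1 : ∀ s, HasDerivAt u (u1 s) s)
    (h2 : ∀ s, HasDerivAt u1 (u2 s) s) (r : ℝ) :
    deriv (fun r : ℝ => u (r ^ 2 / 4)) r = r / 2 * u1 (r ^ 2 / 4) ∧
      deriv (deriv fun r : ℝ => u (r ^ 2 / 4)) r =
        1 / 2 * u1 (r ^ 2 / 4) + r / 2 * (r / 2 * u2 (r ^ 2 / 4)) := by
  have e : (deriv fun r : ℝ => u (r ^ 2 / 4)) = fun r : ℝ => r / 2 * u1 (r ^ 2 / 4) :=
    funext fun r => (rmode_comp (h1 _)).deriv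
  rw [e]
  exact ⟨rfl, ((rmode_half r).mul (rmode_comp (h2 _))).deriv⟩

theorem rmode_first {k : ℕ} {om : ℝ} {w : ℝ → ℂ} (h : Prof (k + 1) om w) (i : Fin 3) (r : ℝ)
    (hr : 0 < r) :
    deriv (deriv (rmode (k + 1) om w i)) r + 11 / r * deriv (rmode (k + 1) om w i) r
      - rl i * (rl i + 10) / r ^ 2 * rmode (k + 1) om w i r
      + I * (rz i + aa (k + 1) - I * om) * rmode (k + 1) om w i r
      + I * r / 2 * deriv (rmode (k + 1) om w i) r
      - V1 (k + 1) w (r ^ 2 / 4) * rmode (k + 1) om w i r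
      - V2 (k + 1) w (r ^ 2 / 4) * conj (rmode (k + 1) om w i r) = 0 := by
  obtain ⟨d0, c1⟩ := contDiff_infty_iff_deriv.1 h.smooth
  obtain ⟨d1, c2⟩ := contDiff_infty_iff_deriv.1 c1
  obtain ⟨d2, -⟩ := contDiff_infty_iff_deriv.1 c2
  have D0 : ∀ s, HasDerivAt w (deriv w s) s := fun s => (d0 s).hasDerivAt
  have D1 : ∀ s, HasDerivAt (deriv w) (deriv (deriv w) s) s := fun s => (d1 s).hasDerivAt
  have D2 : ∀ s, HasDerivAt (deriv (deriv w)) (deriv (deriv (deriv w)) s) s :=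
    fun s => (d2 s).hasDerivAt
  have Did : ∀ s : ℝ, HasDerivAt (fun s : ℝ => (s : ℂ)) 1 s := fun s =>
    (hasDerivAt_id s).ofReal_comp
  have hs : 0 < r ^ 2 / 4 := by positivity
  have ode : ∀ s : ℝ, 0 < s → (s : ℂ) * deriv (deriv w) s + (6 + I * s) * deriv w s
      + I * ((aa (k + 1) : ℂ) - I * om) * w s = (w s * conj (w s)) ^ (k + 1) * w s := by
    intro s hs
    rw [h.ode s hs, mul_conj', ← pow_mul]
    push_cast
    rfl
  have o0 := ode _ hs
  have o1 : 1 * deriv (deriv w) (r ^ 2 / 4) + (r ^ 2 / 4 : ℝ) * deriv (deriv (deriv w)) (r ^ 2 / 4)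
      + (I * 1 * deriv w (r ^ 2 / 4) + (6 + I * (r ^ 2 / 4 : ℝ)) * deriv (deriv w) (r ^ 2 / 4))
      + I * ((aa (k + 1) : ℂ) - I * om) * deriv w (r ^ 2 / 4) =
      ((k + 1 : ℕ) : ℂ) * (w (r ^ 2 / 4) * conj (w (r ^ 2 / 4))) ^ k *
        (deriv w (r ^ 2 / 4) * conj (w (r ^ 2 / 4)) + w (r ^ 2 / 4) * conj (deriv w (r ^ 2 / 4))) *
        w (r ^ 2 / 4) + (w (r ^ 2 / 4) * conj (w (r ^ 2 / 4))) ^ (k + 1) * deriv w (r ^ 2 / 4) := by
    have a1 := (((Did _).mul (D2 (r ^ 2 / 4))).add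
      ((((Did _).const_mul I).const_add 6).mul (D1 _))).add
        ((D0 _).const_mul (I * ((aa (k + 1) : ℂ) - I * om)))
    have a2 := (((D0 (r ^ 2 / 4)).mul (D0 _).star).pow (k + 1)).mul (D0 _)
    refine a1.unique (a2.congr_of_eventuallyEq ?_)
    filter_upwards [Ioi_mem_nhds hs] with s hs'
    exact ode s hs'
  have hρ : (r : ℂ) * (r : ℂ)⁻¹ = 1 := mul_inv_cancel₀ (by exact_mod_cast hr.ne')
  have ha : 2 * ((k : ℂ) + 1) * (aa (k + 1) : ℂ) = 1 := by
    have : (k : ℂ) + 1 ≠ 0 := by exact_mod_cast k.succ_ne_zero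
    unfold aa
    push_cast
    field_simp
  push_cast at o0 o1
  fin_cases i
  · have e : rmode (k + 1) om w 0 = fun r : ℝ => (fun s => I * w s) (r ^ 2 / 4) := rfl
    obtain ⟨e1, e2⟩ := rmode_rad (fun s => (D0 s).const_mul I) (fun s => (D1 s).const_mul I) r
    simp only [Fin.zero_eta, e, e1, e2, rl, rz, V1, V2, Matrix.cons_val_zero, map_mul, conj_I,
      Nat.add_sub_cancel]
    push_cast
    linear_combination I * o0 + 11 / 2 * I * deriv w (r ^ 2 / 4) * hρ
  · have e : rmode (k + 1) om w 1 = fun r : ℝ => (r : ℂ) / 2 * deriv w (r ^ 2 / 4) := by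
      funext r
      simp [rmode]
    have e1 : (deriv fun r : ℝ => (r : ℂ) / 2 * deriv w (r ^ 2 / 4)) = fun r : ℝ =>
        1 / 2 * deriv w (r ^ 2 / 4) + r / 2 * (r / 2 * deriv (deriv w) (r ^ 2 / 4)) :=
      funext fun r => ((rmode_half r).mul (rmode_comp (D1 _))).deriv
    have e2 := (((rmode_comp (D1 (r ^ 2 / 4))).const_mul (1 / 2)).add ((rmode_half r).mul
      ((rmode_half r).mul (rmode_comp (D2 _))))).deriv
    simp only [Fin.mk_one, e, e1]
    refine (congrArg (fun x => x + _ - _ + _ + _ - _ - _) e2).trans ?_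
    simp only [rl, rz, V1, V2, Matrix.cons_val_one, Matrix.cons_val_zero, map_mul, map_div₀,
      conj_ofReal, map_ofNat, Nat.add_sub_cancel, Pi.mul_apply]
    push_cast
    linear_combination r / 2 * o1 + (11 * r / 4 * deriv (deriv w) (r ^ 2 / 4)
      - 11 / 2 * (r : ℂ)⁻¹ * deriv w (r ^ 2 / 4)) * hρ
  · have e : rmode (k + 1) om w 2 = fun r : ℝ => Lam (k + 1) om w (r ^ 2 / 4) := rfl
    obtain ⟨e1, e2⟩ := rmode_rad (u := Lam (k + 1) om w)
      (u1 := fun s => ((aa (k + 1) : ℂ) - I * om) * deriv w s +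
        (1 * deriv w s + s * deriv (deriv w) s))
      (u2 := fun s => ((aa (k + 1) : ℂ) - I * om) * deriv (deriv w) s +
        (1 * deriv (deriv w) s + (1 * deriv (deriv w) s + s * deriv (deriv (deriv w)) s)))
      (fun s => ((D0 s).const_mul _).add ((Did s).mul (D1 s)))
      (fun s => ((D1 s).const_mul _).add (((D1 s).const_mul 1).add ((Did s).mul (D2 s)))) r
    simp only [Fin.reduceFinMk, e, e1, e2]
    simp only [rl, rz, V1, V2, Lam, Matrix.cons_val, map_mul, map_add, map_sub, conj_I, conj_ofReal,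
      Nat.add_sub_cancel]
    push_cast
    linear_combination (r ^ 2 / 4 : ℂ) * o1 + ((aa (k + 1) : ℂ) - I * om + 1) * o0
      + 11 / 2 * (((aa (k + 1) : ℂ) - I * om + 1) * deriv w (r ^ 2 / 4)
        + r ^ 2 / 4 * deriv (deriv w) (r ^ 2 / 4)) * hρ
      - (w (r ^ 2 / 4) * conj (w (r ^ 2 / 4))) ^ (k + 1) * w (r ^ 2 / 4) * ha

/-- the radial symmetry modes solve the homogeneous radial system -/
theorem rmode_sol {m : ℕ} {om : ℝ} {w : ℝ → ℂ} (h : Prof m om w) (i : Fin 3) :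
    RSol m om w (rl i) (rz i) (rmode m om w i) (fun r => conj (rmode m om w i r)) 0 0 := by
  obtain ⟨k, rfl⟩ : ∃ k, m = k + 1 := ⟨m - 1, by have := h.m_pos; omega⟩
  refine ⟨rmode_cb h i, rmode_cb_conj (rmode_cb h i), fun r hr => ?_, fun r hr => ?_⟩
  · rw [rmode_first h i r hr, Pi.zero_apply, mul_zero]
  · have e : ∀ f : ℝ → ℂ, (deriv fun r => conj (f r)) = fun r => conj (deriv f r) :=
      fun f => funext fun r => deriv.star
    have hz : conj (rz i) = rz i := by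
      fin_cases i <;> simp [rz, map_ofNat]
    have hV : conj (V1 (k + 1) w (r ^ 2 / 4)) = V1 (k + 1) w (r ^ 2 / 4) := by
      simp [V1, mul_comm]
    have := congrArg conj (rmode_first h i r hr)
    simp only [map_add, map_sub, map_mul, map_div₀, map_pow, conj_I, conj_ofReal, map_ofNat,
      map_natCast, map_zero, conj_conj, hz, hV] at this
    rw [e, e, Pi.zero_apply, mul_zero]
    linear_combination this

end Vale.Agent.P139
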