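import Vale.Agent.P139.CLad
import Vale.Agent.P139.RMode

open Complex MeasureTheory Filter Topology
open scoped ComplexConjugate ContDiff

namespace Vale.Agent.P139

theorem cuniq_zero {F : Type*} [NormedAddCommGroup F] [NormedSpace ℝ F] {X X' : ℝ → F}
    {N : ℝ → ℝ} (hN : ContinuousOn N (Set.Ioi 0))
    (hd : ∀ t, 0 < t → HasDerivAt X (X' t) t) (hb : ∀ t, 0 < t → ‖X' t‖ ≤ N t * ‖X t‖)
    {r : ℝ} (hr : 0 < r) (h0 : X r = 0) {t : ℝ} (ht : 0 < t) : X t = 0 := by
  have bd : ∀ {a b : ℝ}, 0 < a → ∃ K, ∀ s ∈ Set.Icc a b, ‖X' s‖ ≤ K * ‖X s‖ := by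
    intro a b ha
    have hs : Set.Icc a b ⊆ Set.Ioi 0 := fun s hs => lt_of_lt_of_le ha hs.1
    obtain ⟨K, hK⟩ := isCompact_Icc.exists_bound_of_continuousOn (hN.mono hs)
    exact ⟨K, fun s h => (hb s (hs h)).trans (mul_le_mul_of_nonneg_right
      ((le_abs_self _).trans (hK s h)) (norm_nonneg _))⟩
  rcases le_total r t with h | h
  · obtain ⟨K, hK⟩ := bd (b := t) hr
    refine eq_zero_of_abs_deriv_le_mul_abs_self_of_eq_zero_right (f := X) (f' := X') (K := K)
      (a := r) (b := t) (fun s hs => (hd s (hr.trans_le hs.1)).continuousAt.continuousWithinAt)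
      (fun s hs => (hd s (hr.trans_le hs.1)).hasDerivWithinAt) h0
      (fun s hs => hK s (Set.Ico_subset_Icc_self hs)) t ⟨h, le_rfl⟩
  · obtain ⟨K, hK⟩ := bd (b := r) ht
    have hd' : ∀ s ∈ Set.Icc (-r) (-t), HasDerivAt (fun s => X (-s)) (-X' (-s)) s := by
      intro s hs
      have := (hd (-s) (by linarith [hs.2])).scomp s (hasDerivAt_neg s)
      rw [neg_one_smul] at this
      exact this
    have := eq_zero_of_abs_deriv_le_mul_abs_self_of_eq_zero_right (f := fun s => X (-s))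
      (f' := fun s => -X' (-s)) (K := K) (a := -r) (b := -t)
      (fun s hs => (hd' s hs).continuousAt.continuousWithinAt)
      (fun s hs => (hd' s (Set.Ico_subset_Icc_self hs)).hasDerivWithinAt) (by simpa using h0)
      (fun s hs => by
        rw [norm_neg]
        exact hK (-s) ⟨by linarith [hs.2], by linarith [hs.1]⟩) (-t) ⟨by linarith, le_rfl⟩
    simpa using this

theorem cuniq_three {a b c x y u : ℂ} {n N : ℝ} (hx : ‖x‖ ≤ n) (hy : ‖y‖ ≤ n) (hu : ‖u‖ ≤ n)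
    (hN : ‖a‖ + ‖b‖ + ‖c‖ ≤ N) : ‖a * x + b * y + c * u‖ ≤ N * n := by
  have hn : 0 ≤ n := (norm_nonneg _).trans hx
  calc ‖a * x + b * y + c * u‖ ≤ ‖a * x‖ + ‖b * y‖ + ‖c * u‖ := norm_add₃_le
    _ = ‖a‖ * ‖x‖ + ‖b‖ * ‖y‖ + ‖c‖ * ‖u‖ := by simp only [norm_mul]
    _ ≤ ‖a‖ * n + ‖b‖ * n + ‖c‖ * n := by gcongr
    _ = (‖a‖ + ‖b‖ + ‖c‖) * n := by ring
    _ ≤ N * n := by gcongr

theorem cuniq_lin {f g a1 a2 a3 b1 b2 b3 : ℝ → ℂ} (hf : ContDiff ℝ 16 f) (hg : ContDiff ℝ 16 g)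
    (c1 : ContinuousOn a1 (Set.Ioi 0)) (c2 : ContinuousOn a2 (Set.Ioi 0))
    (c3 : ContinuousOn a3 (Set.Ioi 0)) (d1 : ContinuousOn b1 (Set.Ioi 0))
    (d2 : ContinuousOn b2 (Set.Ioi 0)) (d3 : ContinuousOn b3 (Set.Ioi 0))
    (ef : ∀ t, 0 < t → deriv (deriv f) t = a1 t * deriv f t + a2 t * f t + a3 t * g t)
    (eg : ∀ t, 0 < t → deriv (deriv g) t = b1 t * deriv g t + b2 t * g t + b3 t * f t)
    {r : ℝ} (hr : 0 < r) (h1 : f r = 0) (h2 : deriv f r = 0) (h3 : g r = 0)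
    (h4 : deriv g r = 0) : Van f g := by
  intro t ht
  have D0 : ∀ {f : ℝ → ℂ}, ContDiff ℝ 16 f → ∀ r, HasDerivAt f (deriv f r) r := fun hf r =>
    (hf.differentiable (by norm_num) r).hasDerivAt
  have D1 : ∀ {f : ℝ → ℂ}, ContDiff ℝ 16 f → ∀ r, HasDerivAt (deriv f) (deriv (deriv f) r) r :=
    fun hf r => ((hf.deriv' (n := 15)).differentiable (by norm_num) r).hasDerivAt
  have key := cuniq_zero (X := fun t => (f t, deriv f t, g t, deriv g t))
    (X' := fun t => (deriv f t, deriv (deriv f) t, deriv g t, deriv (deriv g) t))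
    (N := fun t => 1 + (‖a1 t‖ + ‖a2 t‖ + ‖a3 t‖) + (‖b1 t‖ + ‖b2 t‖ + ‖b3 t‖))
    ((continuousOn_const.add ((c1.norm.add c2.norm).add c3.norm)).add
      ((d1.norm.add d2.norm).add d3.norm))
    (fun t _ => (D0 hf t).prodMk ((D1 hf t).prodMk ((D0 hg t).prodMk (D1 hg t))))
    (fun t ht => by
      set n := ‖(f t, deriv f t, g t, deriv g t)‖ with hn
      have n1 : ‖f t‖ ≤ n := norm_fst_le (f t, deriv f t, g t, deriv g t)
      have n0 : ‖(deriv f t, g t, deriv g t)‖ ≤ n := norm_snd_le (f t, deriv f t, g t, deriv g t)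
      have n2 : ‖deriv f t‖ ≤ n := (norm_fst_le (deriv f t, g t, deriv g t)).trans n0
      have n0' : ‖(g t, deriv g t)‖ ≤ n := (norm_snd_le (deriv f t, g t, deriv g t)).trans n0
      have n3 : ‖g t‖ ≤ n := (norm_fst_le (g t, deriv g t)).trans n0'
      have n4 : ‖deriv g t‖ ≤ n := (norm_snd_le (g t, deriv g t)).trans n0'
      have hn0 : 0 ≤ n := norm_nonneg _
      have pa : 0 ≤ ‖a1 t‖ + ‖a2 t‖ + ‖a3 t‖ := by positivity
      have pb : 0 ≤ ‖b1 t‖ + ‖b2 t‖ + ‖b3 t‖ := by positivity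
      have hone : ∀ x : ℝ, x ≤ n → x ≤
          (1 + (‖a1 t‖ + ‖a2 t‖ + ‖a3 t‖) + (‖b1 t‖ + ‖b2 t‖ + ‖b3 t‖)) * n := fun x hx =>
        hx.trans (le_mul_of_one_le_left hn0 (by linarith))
      simp only [Prod.norm_mk, max_le_iff]
      refine ⟨hone _ n2, ?_, hone _ n4, ?_⟩
      · rw [ef t ht]
        exact cuniq_three n2 n1 n3 (by linarith)
      · rw [eg t ht]
        exact cuniq_three n4 n3 n1 (by linarith))
    hr (by simp [h1, h2, h3, h4]) ht
  simp only [Prod.mk_eq_zero] at key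
  exact ⟨key.1, key.2.2.1⟩

theorem rsol_uniq {m : ℕ} {om : ℝ} {w : ℝ → ℂ} (hP : Prof m om w) {l : ℕ} {z : ℂ} {f g : ℝ → ℂ}
    (h : RSol m om w l z f g 0 0) {r : ℝ} (hr : 0 < r) {L : ℝ} (hL : 1 ≤ L)
    (h0 : ee L f g r = 0) : Van f g := by
  have hL2 : 0 < L ^ 2 := by positivity
  unfold ee en at h0
  have p1 := sq_nonneg ‖deriv f r‖
  have p2 := mul_nonneg hL2.le (sq_nonneg ‖f r‖)
  have p3 := sq_nonneg ‖deriv g r‖
  have p4 := mul_nonneg hL2.le (sq_nonneg ‖g r‖)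
  have z1 : f r = 0 := by
    have : L ^ 2 * ‖f r‖ ^ 2 = 0 := by linarith
    simpa [hL2.ne'] using this
  have z2 : deriv f r = 0 := by
    have : ‖deriv f r‖ ^ 2 = 0 := by linarith
    simpa using this
  have z3 : g r = 0 := by
    have : L ^ 2 * ‖g r‖ ^ 2 = 0 := by linarith
    simpa [hL2.ne'] using this
  have z4 : deriv g r = 0 := by
    have : ‖deriv g r‖ ^ 2 = 0 := by linarith
    simpa using this
  have cq : Continuous fun t : ℝ => t ^ 2 / 4 := by fun_prop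
  have v1 : ContinuousOn (fun t : ℝ => V1 m w (t ^ 2 / 4)) (Set.Ioi 0) :=
    (hP.V_smooth.1.continuous.comp cq).continuousOn
  have v2 : ContinuousOn (fun t : ℝ => V2 m w (t ^ 2 / 4)) (Set.Ioi 0) :=
    (hP.V_smooth.2.continuous.comp cq).continuousOn
  have v3 : ContinuousOn (fun t : ℝ => conj (V2 m w (t ^ 2 / 4))) (Set.Ioi 0) :=
    continuous_conj.comp_continuousOn v2
  have ci : ContinuousOn (fun t : ℝ => (t : ℂ)) (Set.Ioi 0) := continuous_ofReal.continuousOn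
  have ne : ∀ t ∈ Set.Ioi (0 : ℝ), (t : ℂ) ≠ 0 := fun t ht => ofReal_ne_zero.2 (ne_of_gt ht)
  have k1 : ContinuousOn (fun t : ℝ => (11 : ℂ) / t) (Set.Ioi 0) := continuousOn_const.div ci ne
  have k2 : ContinuousOn (fun t : ℝ => ((l : ℂ) * (l + 10)) / (t : ℂ) ^ 2) (Set.Ioi 0) :=
    continuousOn_const.div (ci.pow 2) fun t ht => pow_ne_zero _ (ne t ht)
  have k3 : ContinuousOn (fun t : ℝ => I * (t : ℂ) / 2) (Set.Ioi 0) :=
    (continuousOn_const.mul ci).div_const _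
  refine cuniq_lin h.1.1 h.2.1.1 (k1.neg.sub k3)
    ((k2.sub (continuousOn_const (c := I * (z + aa m - I * om)))).add v1) v2 (k1.neg.add k3)
    ((k2.add (continuousOn_const (c := I * (z + aa m + I * om)))).add v1) v3
    (fun t ht => ?_) (fun t ht => ?_) hr z1 z2 z3 z4
  · have := h.2.2.1 t ht
    simp only [Pi.zero_apply, mul_zero] at this
    simp only [Pi.add_apply, Pi.sub_apply, Pi.neg_apply]
    linear_combination this
  · have := h.2.2.2 t ht
    simp only [Pi.zero_apply, mul_zero] at this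
    simp only [Pi.add_apply, Pi.sub_apply, Pi.neg_apply]
    linear_combination this

theorem norm_D4 (f g : ℝ → ℂ) : ‖D4 f g‖ ^ 2 = dat f g 3.4 := by
  rw [EuclideanSpace.norm_sq_eq, Fin.sum_univ_four]
  simp only [D4, dat, ee, en, Matrix.cons_val]
  ring

theorem D4_mode_ne {m : ℕ} {om : ℝ} {w : ℝ → ℂ} (hP : Prof m om w) (i : Fin 3) :
    D4 (rmode m om w i) (fun r => conj (rmode m om w i r)) ≠ 0 := by
  intro h0
  have h1 : ee 1 (rmode m om w i) (fun r => conj (rmode m om w i r)) 3.4 = 0 := by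
    have := norm_D4 (rmode m om w i) (fun r => conj (rmode m om w i r))
    rw [h0, norm_zero] at this
    simpa [dat] using this.symm
  have hV := rsol_uniq hP (rmode_sol hP i) (by norm_num : (0 : ℝ) < 3.4) le_rfl h1
  have hs : ∀ s : ℝ, 0 < s → rmode m om w i (2 * √s) = 0 := fun s hs =>
    (hV _ (by have := Real.sqrt_pos.2 hs; positivity)).1
  have e : ∀ s : ℝ, 0 < s → (2 * √s) ^ 2 / 4 = s := fun s hs => by
    rw [mul_pow, Real.sq_sqrt hs.le]; ring
  have ha : 0 < aa m := by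
    have : (0 : ℝ) < m := by exact_mod_cast hP.m_pos
    unfold aa
    positivity
  fin_cases i
  · have := hs 1 one_pos
    simp only [rmode, Fin.zero_eta, Matrix.cons_val_zero, e 1 one_pos] at this
    exact mul_ne_zero I_ne_zero (hP.ne 1 zero_le_one) this
  · have hd : ∀ s : ℝ, 0 < s → deriv w s = 0 := fun s h => by
      have := hs s h
      simp only [rmode, Fin.mk_one, Matrix.cons_val_one, Matrix.cons_val_zero, e s h] at this
      have h2 : 0 < √s := Real.sqrt_pos.2 h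
      exact (mul_eq_zero.1 this).resolve_left (ofReal_ne_zero.2 (by positivity))
    have hdd : deriv (deriv w) 1 = 0 := by
      have : deriv w =ᶠ[𝓝 1] fun _ => 0 := by
        filter_upwards [Ioi_mem_nhds one_pos] with s h using hd s h
      rw [this.deriv_eq, deriv_const]
    have o := hP.ode 1 one_pos
    rw [hdd, hd 1 one_pos, mul_zero, mul_zero, zero_add, zero_add] at o
    have o2 := congrArg Complex.im (mul_right_cancel₀ (hP.ne 1 zero_le_one) o)
    rw [ofReal_im] at o2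
    simp at o2
    exact ha.ne' o2
  · have hd : ∀ s : ℝ, 0 < s → Lam m om w s = 0 := fun s h => by
      have := hs s h
      simpa only [rmode, Fin.reduceFinMk, Matrix.cons_val, e s h] using this
    have cL : Continuous (Lam m om w) :=
      (continuous_const.mul hP.smooth.continuous).add
        (continuous_ofReal.mul (hP.smooth.continuous_deriv (by simp)))
    have t1 : Tendsto (Lam m om w) (𝓝[>] 0) (𝓝 (Lam m om w 0)) :=
      cL.continuousAt.tendsto.mono_left nhdsWithin_le_nhds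
    have t2 : Tendsto (Lam m om w) (𝓝[>] 0) (𝓝 0) :=
      tendsto_const_nhds.congr' (by
        filter_upwards [self_mem_nhdsWithin] with s h using (hd s h).symm)
    have o := tendsto_nhds_unique t1 t2
    simp only [Lam, ofReal_zero, zero_mul, add_zero] at o
    have o2 := congrArg Complex.re ((mul_eq_zero.1 o).resolve_right (hP.ne 0 le_rfl))
    simp at o2
    exact ha.ne' o2

theorem cuniq_cb_smul {f : ℝ → ℂ} (h : Cb1 f) (c : ℂ) : Cb1 fun r => c * f r := by
  obtain ⟨h1, C, h2⟩ := h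
  refine ⟨contDiff_const.mul h1, ‖c‖ * C, fun k hk r => ?_⟩
  rw [iteratedDeriv_const_mul_field, norm_mul]
  exact mul_le_mul_of_nonneg_left (h2 k hk r) (norm_nonneg _)

theorem cuniq_cb_sub {f g : ℝ → ℂ} (hf : Cb1 f) (hg : Cb1 g) : Cb1 fun r => f r - g r := by
  obtain ⟨h1, C, h2⟩ := hf
  obtain ⟨h3, D, h4⟩ := hg
  refine ⟨h1.sub h3, C + D, fun k hk r => ?_⟩
  have hk' : (k : WithTop ℕ∞) ≤ 16 := by exact_mod_cast hk
  have e := iteratedDeriv_sub (n := k) (x := r) (h1.of_le hk').contDiffAt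
    (h3.of_le hk').contDiffAt
  refine (congrArg norm e).trans_le ((norm_sub_le _ _).trans (add_le_add (h2 k hk r) (h4 k hk r)))

theorem cuniq_d1 {f e : ℝ → ℂ} (hf : ContDiff ℝ 16 f) (he : ContDiff ℝ 16 e) (c : ℂ) :
    (deriv fun r => f r - c * e r) = fun r => deriv f r - c * deriv e r := funext fun r =>
  (((hf.differentiable (by norm_num) r).hasDerivAt).sub
    ((he.differentiable (by norm_num) r).hasDerivAt.const_mul c)).deriv

theorem cuniq_d2 {f e : ℝ → ℂ} (hf : ContDiff ℝ 16 f) (he : ContDiff ℝ 16 e) (c : ℂ) (r : ℝ) :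
    deriv (fun r => deriv f r - c * deriv e r) r =
      deriv (deriv f) r - c * deriv (deriv e) r :=
  ((((hf.deriv' (n := 15)).differentiable (by norm_num) r).hasDerivAt).sub
    (((he.deriv' (n := 15)).differentiable (by norm_num) r).hasDerivAt.const_mul c)).deriv

/-- linear combinations of solutions, with a shift of the spectral parameter -/
theorem RSol.sub_smul {m : ℕ} {om : ℝ} {w : ℝ → ℂ} {l : ℕ} {z z0 : ℂ} {f g p q e1 e2 : ℝ → ℂ}
    (h : RSol m om w l z f g p q) (he : RSol m om w l z0 e1 e2 0 0) (c : ℂ) :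
    RSol m om w l z (fun r => f r - c * e1 r) (fun r => g r - c * e2 r)
      (fun r => p r - c * (z - z0) * e1 r) (fun r => q r - c * (z - z0) * e2 r) := by
  refine ⟨cuniq_cb_sub h.1 (cuniq_cb_smul he.1 c), cuniq_cb_sub h.2.1 (cuniq_cb_smul he.2.1 c),
    fun r hr => ?_, fun r hr => ?_⟩
  · have a := h.2.2.1 r hr
    have b := he.2.2.1 r hr
    rw [cuniq_d1 h.1.1 he.1.1, cuniq_d2 h.1.1 he.1.1]
    simp only [Pi.zero_apply, mul_zero] at b
    linear_combination a - c * b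
  · have a := h.2.2.2 r hr
    have b := he.2.2.2 r hr
    rw [cuniq_d1 h.2.1.1 he.2.1.1, cuniq_d2 h.2.1.1 he.2.1.1]
    simp only [Pi.zero_apply, mul_zero] at b
    linear_combination a - c * b

theorem cuniq_dc (f : ℝ → ℂ) (c : ℂ) : (deriv fun r => c * f r) = fun r => c * deriv f r :=
  funext fun _ => deriv_const_mul_field c

theorem RSol.smul {m : ℕ} {om : ℝ} {w : ℝ → ℂ} {l : ℕ} {z : ℂ} {f g p q : ℝ → ℂ}
    (h : RSol m om w l z f g p q) (c : ℂ) :
    RSol m om w l z (fun r => c * f r) (fun r => c * g r) (fun r => c * p r)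
      (fun r => c * q r) := by
  refine ⟨cuniq_cb_smul h.1 c, cuniq_cb_smul h.2.1 c, fun r hr => ?_, fun r hr => ?_⟩
  · rw [cuniq_dc, cuniq_dc]
    linear_combination c * h.2.2.1 r hr
  · rw [cuniq_dc, cuniq_dc]
    linear_combination c * h.2.2.2 r hr

theorem RSol.congr_src {m : ℕ} {om : ℝ} {w : ℝ → ℂ} {l : ℕ} {z : ℂ} {f g p q p' q' : ℝ → ℂ}
    (h : RSol m om w l z f g p q) (hp : ∀ r, 0 < r → p r = p' r) (hq : ∀ r, 0 < r → q r = q' r) :
    RSol m om w l z f g p' q' :=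
  ⟨h.1, h.2.1, fun r hr => hp r hr ▸ h.2.2.1 r hr, fun r hr => hq r hr ▸ h.2.2.2 r hr⟩

theorem D4_sub_smul {f g e1 e2 : ℝ → ℂ} (hf : Cb1 f) (hg : Cb1 g) (h1 : Cb1 e1) (h2 : Cb1 e2)
    (c : ℂ) : D4 (fun r => f r - c * e1 r) (fun r => g r - c * e2 r) = D4 f g - c • D4 e1 e2 := by
  ext i
  simp only [D4, cuniq_d1 hf.1 h1.1, cuniq_d1 hg.1 h2.1]
  fin_cases i <;> simp

theorem D4_smul (f g : ℝ → ℂ) (c : ℂ) :
    D4 (fun r => c * f r) (fun r => c * g r) = c • D4 f g := by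
  ext i
  simp only [D4, cuniq_dc]
  fin_cases i <;> simp

theorem cuniq_lad_sub (l : ℕ) {f g : ℝ → ℂ} (cf : ContDiff ℝ 16 f) (cg : ContDiff ℝ 16 g)
    (k : ℕ) (hk : k ≤ 16) {r : ℝ} (hr : 0 < r) :
    lad l k (fun r => f r - g r) r = lad l k f r - lad l k g r := by
  rw [lad_eq l (cf.sub cg) k hk hr, lad_eq l cf k hk hr, lad_eq l cg k hk hr, ← mul_sub]
  have hs : Set.Ioi (0 : ℝ) ∈ 𝓝 (r ^ 2 / 4) := Ioi_mem_nhds (by positivity)
  have hk' : (k : WithTop ℕ∞) ≤ 16 := by exact_mod_cast hk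
  rw [← iteratedDeriv_sub (((ured_smooth l cf).contDiffAt hs).of_le hk')
    (((ured_smooth l cg).contDiffAt hs).of_le hk')]
  have : ured l (fun r => f r - g r) = ured l f - ured l g := funext fun s => by
    simp only [ured, Pi.sub_apply, sub_div]
  rw [this]

theorem Dec.sub {l : ℕ} {f g : ℝ → ℂ} (hf : Dec l f) (hg : Dec l g) (cf : ContDiff ℝ 16 f)
    (cg : ContDiff ℝ 16 g) : Dec l fun r => f r - g r := by
  obtain ⟨C, hC⟩ := hf
  obtain ⟨D, hD⟩ := hg
  refine ⟨C + D, fun k hk r hr => ?_⟩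
  rw [cuniq_lad_sub l cf cg k (by omega) (by linarith), add_mul]
  exact (norm_sub_le _ _).trans (add_le_add (hC k hk r hr) (hD k hk r hr))

end Vale.Agent.P139
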