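import Vale.Agent.P139.CLad

open Complex MeasureTheory Filter Topology
open scoped ComplexConjugate ContDiff

namespace Vale.Agent.P139

theorem cup_l (l : ℕ) (z : ℂ) : (l : ℝ) ≤ Lb l z :=
  Real.le_sqrt_of_sq_le (by linarith [norm_nonneg z])

theorem cup_ee (L : ℝ) (f g : ℝ → ℂ) (r : ℝ) : 0 ≤ ee L f g r := by
  unfold ee en
  positivity

theorem cup_ind {u : ℕ → ℝ} {K S : ℝ} (hK : 1 ≤ K) (hS : 0 ≤ S) (h0 : u 0 ≤ S) (h1 : u 1 ≤ S)
    (h : ∀ i ≤ 7, ∀ M, S ≤ M → (∀ j ≤ i + 1, u j ≤ M) → u (i + 2) ≤ K * M) :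
    ∀ j ≤ 9, u j ≤ K ^ 8 * S := by
  have key : ∀ i ≤ 8, ∀ j ≤ i + 1, u j ≤ K ^ i * S := by
    intro i
    induction i with
    | zero =>
      intro _ j hj
      rw [pow_zero, one_mul]
      interval_cases j <;> assumption
    | succ i ih =>
      intro hi j hj
      have h2 := ih (by omega)
      have h3 : 0 ≤ K ^ i * S := by positivity
      rw [pow_succ', mul_assoc]
      rcases Nat.lt_or_ge j (i + 2) with h4 | h4
      · exact (h2 j (by omega)).trans (le_mul_of_one_le_left h3 hK)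
      · obtain rfl : j = i + 2 := by omega
        exact h i (by omega) _ (le_mul_of_one_le_left hS (one_le_pow₀ hK)) h2
  exact key 8 le_rfl

theorem cup_der {l k : ℕ} {f : ℝ → ℂ} (hf : ContDiff ℝ 16 f) {L : ℝ} (hL : 1 ≤ L)
    (hl : (l : ℝ) ≤ L) (hk : k ≤ 8) {r : ℝ} (hr : r ∈ Set.Icc (3.3 : ℝ) 3.46) :
    ‖deriv (lad l k f) r‖ ≤ ‖lad l (k + 1) f r‖ + 3 * L * ‖lad l k f r‖ ∧
      ‖lad l (k + 1) f r‖ ≤ ‖deriv (lad l k f) r‖ + 3 * L * ‖lad l k f r‖ := by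
  have hr0 : 0 < r := by linarith [hr.1]
  have h1 := (lad_deriv l hf k (by omega) hr0).deriv
  have h2 : ‖((l : ℂ) + k) / r * lad l k f r‖ ≤ 3 * L * ‖lad l k f r‖ := by
    rw [norm_mul]
    refine mul_le_mul_of_nonneg_right ?_ (norm_nonneg _)
    have h3 : (k : ℝ) ≤ 8 := by exact_mod_cast hk
    rw [norm_div, ← Nat.cast_add, Complex.norm_natCast, Complex.norm_real,
      Real.norm_of_nonneg hr0.le, div_le_iff₀ hr0, Nat.cast_add]
    nlinarith [hr.1]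
  refine ⟨h1 ▸ (norm_add_le _ _).trans (add_le_add le_rfl h2), ?_⟩
  rw [← sub_eq_iff_eq_add] at h1
  rw [← h1]
  exact (norm_sub_le _ _).trans (add_le_add le_rfl h2)

theorem cup_base {l k : ℕ} {f g : ℝ → ℂ} (hf : ContDiff ℝ 16 f) (hg : ContDiff ℝ 16 g) {L : ℝ}
    (hL : 1 ≤ L) (hl : (l : ℝ) ≤ L) (hk : k ≤ 8) {r : ℝ} (hr : r ∈ Set.Icc (3.3 : ℝ) 3.46) {s : ℝ}
    (hs : 0 ≤ s) (h : ee L (lad l k f) (lad l k g) r ≤ s ^ 2) :
    L * (‖lad l k f r‖ + ‖lad l k g r‖) ≤ 2 * s ∧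
      ‖lad l (k + 1) f r‖ + ‖lad l (k + 1) g r‖ ≤ 8 * s := by
  have h1 := (cup_der hf hL hl hk hr).2
  have h2 := (cup_der hg hL hl hk hr).2
  unfold ee en at h
  have a1 := sq_nonneg ‖deriv (lad l k f) r‖
  have a2 := sq_nonneg ‖deriv (lad l k g) r‖
  have a3 := sq_nonneg (L * ‖lad l k f r‖)
  have a4 := sq_nonneg (L * ‖lad l k g r‖)
  have b1 : ‖deriv (lad l k f) r‖ ≤ s := le_of_sq_le_sq (by linarith) hs
  have b2 : ‖deriv (lad l k g) r‖ ≤ s := le_of_sq_le_sq (by linarith) hs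
  have b3 : L * ‖lad l k f r‖ ≤ s := le_of_sq_le_sq (by linarith) hs
  have b4 : L * ‖lad l k g r‖ ≤ s := le_of_sq_le_sq (by linarith) hs
  constructor <;> linarith

theorem cup_EE {l : ℕ} {f g : ℝ → ℂ} (hf : ContDiff ℝ 16 f) (hg : ContDiff ℝ 16 g) {L : ℝ}
    (hL : 1 ≤ L) (hl : (l : ℝ) ≤ L) {r : ℝ} (hr : r ∈ Set.Icc (3.3 : ℝ) 3.46) {B : ℝ}
    (hB : ∀ k ≤ 9, L ^ (9 - k) * (‖lad l k f r‖ + ‖lad l k g r‖) ≤ B) :
    EE l L f g r ≤ 378 * B ^ 2 := by
  have key : ∀ {f : ℝ → ℂ}, ContDiff ℝ 16 f → (∀ k ≤ 9, L ^ (9 - k) * ‖lad l k f r‖ ≤ B) →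
      ∀ k ≤ 8, L ^ (2 * (8 - k)) * en L (lad l k f) r ≤ 21 * B ^ 2 := by
    intro f hf hB k hk
    have h1 := hB k (by omega)
    have h2 := hB (k + 1) (by omega)
    rw [show 9 - k = 8 - k + 1 by omega, pow_succ] at h1
    rw [show 9 - (k + 1) = 8 - k by omega] at h2
    have hw : 0 ≤ L ^ (8 - k) := by positivity
    have h3 := mul_le_mul_of_nonneg_left (cup_der hf hL hl hk hr).1 hw
    have h4 : L ^ (8 - k) * ‖deriv (lad l k f) r‖ ≤ 4 * B := by linarith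
    have h5 := pow_le_pow_left₀ (by positivity) h4 2
    have h6 := pow_le_pow_left₀ (by positivity) h1 2
    rw [en, mul_comm 2, pow_mul]
    linarith [sq_nonneg B]
  have hw : ∀ k, 0 ≤ L ^ (9 - k) := fun k => by positivity
  have h1 := key hf fun k hk => le_trans
    (mul_le_mul_of_nonneg_left (le_add_of_nonneg_right (norm_nonneg _)) (hw k)) (hB k hk)
  have h2 := key hg fun k hk => le_trans
    (mul_le_mul_of_nonneg_left (le_add_of_nonneg_left (norm_nonneg _)) (hw k)) (hB k hk)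
  refine (Finset.sum_le_card_nsmul _ _ (42 * B ^ 2) fun k hk => ?_).trans (le_of_eq ?_)
  · have h3 : k ≤ 8 := Nat.le_of_lt_succ (Finset.mem_range.1 hk)
    rw [ee, mul_add]
    linarith [h1 k h3, h2 k h3]
  · rw [Finset.card_range, nsmul_eq_mul]
    push_cast
    ring

theorem cup_one : ∃ C : ℝ, 0 ≤ C ∧ ∀ {ε : ℝ} {m : ℕ} {om σ : ℝ} {w : ℝ → ℂ}, Ctx ε m om σ w →
    ∀ {l : ℕ} {z : ℂ} {f g p q : ℝ → ℂ}, RSol m om w l z f g p q → ContDiff ℝ 16 p →
    ∀ k ≤ 7, ∀ r ∈ Set.Icc (3.3 : ℝ) 3.46, ∀ M : ℝ,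
      (∀ j ≤ k, ‖lad l j f r‖ + ‖lad l j g r‖ ≤ M) →
      ‖lad l (k + 2) f r‖ ≤ 11 * Lb l z ^ 2 * ‖lad l k f r‖ +
        (11 * Lb l z * ‖lad l (k + 1) f r‖ + C * M + ‖lad l k p r‖) ∧
      (‖z‖ - 10 * Lb l z) * ‖lad l k f r‖ ≤ ‖lad l (k + 2) f r‖ +
        (11 * Lb l z * ‖lad l (k + 1) f r‖ + C * M + ‖lad l k p r‖) := by
  obtain ⟨C, hC, hR⟩ := Rk_bound
  refine ⟨8 * C, by positivity, ?_⟩
  intro ε m om σ w hx l z f g p q h hp k hk r hr M hM
  have hr0 : 0 < r := by linarith [hr.1]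
  have hr1 : (r : ℂ) ≠ 0 := ofReal_ne_zero.2 hr0.ne'
  have hL := one_le_Lb l z
  have hl := cup_l l z
  have hz : ‖z‖ ≤ Lb l z ^ 2 := by
    rw [Lb_sq]
    linarith [sq_nonneg (l : ℝ)]
  have hk' : (k : ℝ) ≤ 7 := by exact_mod_cast hk
  have hM0 : 0 ≤ M := le_trans (by positivity) (hM 0 (Nat.zero_le _))
  have h1 : ‖Rk m w l k f g r‖ ≤ 8 * C * M := by
    refine (hR hx l k f g r (by omega) hr0 (by nlinarith [hx.s1, hx.e1, hr.1])).trans ?_
    have h2 := Finset.sum_le_card_nsmul (Finset.range (k + 1)) (fun i => (r ^ (2 + i))⁻¹ *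
      (‖lad l (k - i) f r‖ + ‖lad l (k - i) g r‖)) M fun i _ =>
      (mul_le_of_le_one_left (by positivity) (inv_le_one_of_one_le₀
        (one_le_pow₀ (by linarith [hr.1])))).trans (hM _ (Nat.sub_le _ _))
    rw [Finset.card_range, nsmul_eq_mul, Nat.cast_succ] at h2
    have h3 : C * ε ≤ C := mul_le_of_le_one_right hC (by linarith [hx.e1])
    refine (mul_le_mul h3 (h2.trans (mul_le_mul_of_nonneg_right
      (show (k : ℝ) + 1 ≤ 8 by linarith) hM0)) (by positivity) hC).trans (le_of_eq (by ring))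
  have e1 := lad_ode hx.prof h hp k (by omega) hr0
  rw [(lad_deriv l h.1.1 k (by omega) hr0).deriv,
    (lad_deriv l h.1.1 (k + 1) (by omega) hr0).deriv] at e1
  obtain ⟨α, hα⟩ : ∃ α : ℂ, α = ((k + l / 2 + aa m : ℝ) : ℂ) - I * om := ⟨_, rfl⟩
  have e2 : lad l (k + 2) f r + I * (z + α) * lad l k f r =
      -((((2 * l + 2 * k + 12) / r : ℝ) : ℂ) + I * ((r / 2 : ℝ) : ℂ)) * lad l (k + 1) f r +
        Rk m w l k f g r + I * lad l k p r := by
    rw [hα]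
    push_cast at e1 ⊢
    have e3 : I * r / 2 * (((l : ℂ) + k) / r) = I * (l + k) / 2 := by field_simp
    linear_combination e1 - lad l k f r * e3
  have ha : 0 ≤ aa m ∧ aa m ≤ 1 := by
    have h2 : (1 : ℝ) ≤ m := by exact_mod_cast hx.prof.m_pos
    unfold aa
    exact ⟨by positivity, (div_le_one (by positivity)).2 (by linarith)⟩
  have h2 : ‖α‖ ≤ 10 * Lb l z := by
    have h3 := ha.1
    rw [hα]
    refine (norm_sub_le _ _).trans ?_
    rw [norm_mul, norm_I, one_mul, Complex.norm_real, Complex.norm_real,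
      Real.norm_of_nonneg (by positivity), Real.norm_of_nonneg (by linarith [hx.o0])]
    linarith [ha.2, hx.o1]
  have h3 : ‖-((((2 * l + 2 * k + 12) / r : ℝ) : ℂ) + I * ((r / 2 : ℝ) : ℂ))‖ ≤ 11 * Lb l z := by
    rw [norm_neg]
    refine (norm_add_le _ _).trans ?_
    rw [norm_mul, norm_I, one_mul, Complex.norm_real, Complex.norm_real,
      Real.norm_of_nonneg (by positivity), Real.norm_of_nonneg (by positivity)]
    have h4 : (2 * l + 2 * k + 12) / r ≤ 9 * Lb l z := by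
      rw [div_le_iff₀ hr0]
      nlinarith [hr.1]
    linarith [hr.2]
  have h4 : ‖lad l (k + 2) f r + I * (z + α) * lad l k f r‖ ≤
      11 * Lb l z * ‖lad l (k + 1) f r‖ + 8 * C * M + ‖lad l k p r‖ := by
    rw [e2]
    refine norm_add₃_le.trans (add_le_add (add_le_add ?_ h1) (by rw [norm_mul, norm_I, one_mul]))
    rw [norm_mul]
    exact mul_le_mul_of_nonneg_right h3 (norm_nonneg _)
  have h5 : ‖I * (z + α) * lad l k f r‖ = ‖z + α‖ * ‖lad l k f r‖ := by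
    rw [norm_mul, norm_mul, norm_I, one_mul]
  have h6 := norm_le_add_norm_add (lad l (k + 2) f r) (I * (z + α) * lad l k f r)
  have h7 := norm_le_add_norm_add' (lad l (k + 2) f r) (I * (z + α) * lad l k f r)
  have h8 : ‖z + α‖ ≤ 11 * Lb l z ^ 2 := by nlinarith [norm_add_le z α]
  have h9 : ‖z‖ - 10 * Lb l z ≤ ‖z + α‖ := by linarith [norm_le_add_norm_add z α]
  have h10 := mul_le_mul_of_nonneg_right h8 (norm_nonneg (lad l k f r))
  have h11 := mul_le_mul_of_nonneg_right h9 (norm_nonneg (lad l k f r))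
  constructor <;> linarith

theorem cup_two : ∃ C : ℝ, 0 ≤ C ∧ ∀ {ε : ℝ} {m : ℕ} {om σ : ℝ} {w : ℝ → ℂ}, Ctx ε m om σ w →
    ∀ {l : ℕ} {z : ℂ} {f g p q : ℝ → ℂ}, RSol m om w l z f g p q → ContDiff ℝ 16 p →
    ContDiff ℝ 16 q → ∀ k ≤ 7, ∀ r ∈ Set.Icc (3.3 : ℝ) 3.46, ∀ M : ℝ,
      (∀ j ≤ k, ‖lad l j f r‖ + ‖lad l j g r‖ ≤ M) →
      ‖lad l (k + 2) f r‖ + ‖lad l (k + 2) g r‖ ≤
        11 * Lb l z ^ 2 * (‖lad l k f r‖ + ‖lad l k g r‖) +
        (11 * Lb l z * (‖lad l (k + 1) f r‖ + ‖lad l (k + 1) g r‖) + C * M +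
          (‖lad l k p r‖ + ‖lad l k q r‖)) ∧
      (‖z‖ - 10 * Lb l z) * (‖lad l k f r‖ + ‖lad l k g r‖) ≤
        ‖lad l (k + 2) f r‖ + ‖lad l (k + 2) g r‖ +
        (11 * Lb l z * (‖lad l (k + 1) f r‖ + ‖lad l (k + 1) g r‖) + C * M +
          (‖lad l k p r‖ + ‖lad l k q r‖)) := by
  obtain ⟨C, hC, h1⟩ := cup_one
  refine ⟨2 * C, by positivity, ?_⟩
  intro ε m om σ w hx l z f g p q h hp hq k hk r hr M hM
  obtain ⟨a1, a2⟩ := h1 hx h hp k hk r hr M hM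
  have h2 := h1 hx h.swap (conjCLE.contDiff.comp hq) k hk r hr M fun j hj => by
    simp only [lad_conj, RCLike.norm_conj]
    exact (add_comm _ _).trans_le (hM j hj)
  simp only [lad_conj, RCLike.norm_conj, Lb_conj] at h2
  constructor <;> linarith [h2.1, h2.2]

/-- upward along the ladder -/
theorem EE_up : ∃ C : ℝ, 0 ≤ C ∧ ∀ {ε : ℝ} {m : ℕ} {om σ : ℝ} {w : ℝ → ℂ}, Ctx ε m om σ w →
    ∀ {l : ℕ} {z : ℂ} {f g p q : ℝ → ℂ}, RSol m om w l z f g p q → ContDiff ℝ 16 p →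
    ContDiff ℝ 16 q → ∀ r ∈ Set.Icc (3.3 : ℝ) 3.46,
      EE l (Lb l z) f g r ≤ C * Lb l z ^ 16 * (ee (Lb l z) f g r
        + ∑ k ∈ Finset.range 8, (‖lad l k p r‖ ^ 2 + ‖lad l k q r‖ ^ 2)) := by
  obtain ⟨C, hC, h1⟩ := cup_two
  refine ⟨378 * ((23 + C) ^ 8 * 8) ^ 2, by positivity, ?_⟩
  intro ε m om σ w hx l z f g p q h hp hq r hr
  have hL := one_le_Lb l z
  have hl := cup_l l z
  have hf := h.1.1
  have hg := h.2.1.1
  have h2 := fun k hk => h1 hx h hp hq k hk r hr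
  generalize Lb l z = L at *
  have hL0 : 0 < L := by linarith
  have hP : ∀ k ∈ Finset.range 8, 0 ≤ ‖lad l k p r‖ ^ 2 + ‖lad l k q r‖ ^ 2 :=
    fun k _ => by positivity
  have hs0 := Finset.sum_nonneg hP
  have hs1 := fun k hk => Finset.single_le_sum hP (a := k) hk
  generalize ∑ k ∈ Finset.range 8, (‖lad l k p r‖ ^ 2 + ‖lad l k q r‖ ^ 2) = T at *
  have he := cup_ee L f g r
  obtain ⟨s, hs, e⟩ : ∃ s, 0 ≤ s ∧ ee L f g r + T = s ^ 2 :=
    ⟨_, Real.sqrt_nonneg _, (Real.sq_sqrt (by linarith)).symm⟩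
  obtain ⟨b0, b1⟩ := cup_base hf hg hL hl (Nat.zero_le 8) hr hs
    (show ee L f g r ≤ s ^ 2 by linarith)
  have h3 := cup_ind (u := fun k => (‖lad l k f r‖ + ‖lad l k g r‖) / L ^ k) (K := 23 + C)
    (S := 8 * s / L) (by linarith) (by positivity)
    (by rw [pow_zero, div_one, le_div_iff₀ hL0]; linarith)
    (by rw [pow_one]; exact div_le_div_of_nonneg_right b1 hL0.le) fun i hi M hM hu => by
      have hM0 : 0 ≤ M := le_trans (by positivity) hM
      have h4 : ∀ j ≤ i + 1, ‖lad l j f r‖ + ‖lad l j g r‖ ≤ M * L ^ j := fun j hj =>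
        (div_le_iff₀ (by positivity)).1 (hu j hj)
      have h5 := (h2 i hi (M * L ^ (i + 2)) fun j hj => (h4 j (by omega)).trans
        (mul_le_mul_of_nonneg_left (pow_le_pow_right₀ hL (by omega)) hM0)).1
      have h6 := mul_le_mul_of_nonneg_left (h4 i (by omega)) (sq_nonneg L)
      have h7 := mul_le_mul_of_nonneg_left (h4 (i + 1) le_rfl) hL0.le
      have h8 := hs1 i (Finset.mem_range.2 (by omega))
      have h9 : ‖lad l i p r‖ ≤ s := le_of_sq_le_sq (by linarith [sq_nonneg ‖lad l i q r‖]) hs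
      have h10 : ‖lad l i q r‖ ≤ s := le_of_sq_le_sq (by linarith [sq_nonneg ‖lad l i p r‖]) hs
      have h11 : L ≤ L ^ (i + 2) := le_self_pow₀ hL (by omega)
      have h12 := mul_le_mul_of_nonneg_left h11 hM0
      rw [div_le_iff₀ hL0] at hM
      rw [div_le_iff₀ (by positivity)]
      simp only [pow_succ] at *
      linarith
  have h4 := cup_EE hf hg hL hl hr (B := (23 + C) ^ 8 * (8 * s / L) * L ^ 9) fun k hk => by
    have h5 := mul_le_mul_of_nonneg_left ((div_le_iff₀ (by positivity)).1 (h3 k hk))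
      (by positivity : 0 ≤ L ^ (9 - k))
    rwa [mul_left_comm, ← pow_add, Nat.sub_add_cancel hk] at h5
  refine h4.trans (le_of_eq ?_)
  rw [e]
  field_simp

theorem ee_le_EE (l : ℕ) (L : ℝ) (f g : ℝ → ℂ) (r : ℝ) (k : ℕ) (hk : k ≤ 8) :
    L ^ (2 * (8 - k)) * ee L (lad l k f) (lad l k g) r ≤ EE l L f g r := by
  exact Finset.single_le_sum (f := fun k => L ^ (2 * (8 - k)) * ee L (lad l k f) (lad l k g) r)
    (fun k _ => mul_nonneg (by rw [pow_mul]; positivity) (cup_ee _ _ _ _))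
    (Finset.mem_range.2 (Nat.lt_succ_of_le hk))

/-- downward along the ladder when |z| dominates -/
theorem EE_down (c : ℝ) (hc : 0 < c) : ∃ L0 C : ℝ, 0 ≤ C ∧
    ∀ {ε : ℝ} {m : ℕ} {om σ : ℝ} {w : ℝ → ℂ}, Ctx ε m om σ w →
    ∀ {l : ℕ} {z : ℂ} {f g : ℝ → ℂ}, RSol m om w l z f g 0 0 → L0 ≤ Lb l z →
    c * Lb l z ^ 2 ≤ ‖z‖ → ∀ r ∈ Set.Icc (3.3 : ℝ) 3.46,
      EE l (Lb l z) f g r ≤ C * ee (Lb l z) (lad l 8 f) (lad l 8 g) r := by
  obtain ⟨C, hC, h1⟩ := cup_two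
  obtain ⟨K, hK⟩ : ∃ K, K = 2 / c * (12 + C) + 1 := ⟨_, rfl⟩
  have hK1 : 1 ≤ K := hK ▸ le_add_of_nonneg_left (by positivity)
  refine ⟨max (20 / c) (20 * K ^ 8), 378 * (20 * K ^ 8 * 8) ^ 2, by positivity, ?_⟩
  intro ε m om σ w hx l z f g h hL0 hz r hr
  have hL := one_le_Lb l z
  have hl := cup_l l z
  have hf := h.1.1
  have hg := h.2.1.1
  have h2 := fun k hk M hM => (h1 hx h contDiff_const contDiff_const k hk r hr M hM).2
  simp only [lad_zero, Pi.zero_apply, norm_zero, add_zero] at h2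
  generalize Lb l z = L at *
  have hL1 := (div_le_iff₀ hc).1 ((le_max_left _ _).trans hL0)
  have hL2 := (le_max_right _ _).trans hL0
  have hLp : 0 < L := by linarith
  have hz2 : c / 2 * L ^ 2 ≤ ‖z‖ - 10 * L := by linarith [mul_le_mul_of_nonneg_left hL1 hLp.le]
  obtain ⟨s, hs, e⟩ : ∃ s, 0 ≤ s ∧ ee L (lad l 8 f) (lad l 8 g) r = s ^ 2 :=
    ⟨_, Real.sqrt_nonneg _, (Real.sq_sqrt (cup_ee _ _ _ _)).symm⟩
  obtain ⟨b0, b1⟩ := cup_base hf hg hL hl le_rfl hr hs e.le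
  obtain ⟨x, hx'⟩ : ∃ x : ℕ → ℝ, ∀ k, ‖lad l k f r‖ + ‖lad l k g r‖ = x k := ⟨_, fun _ => rfl⟩
  have x0 : ∀ k, 0 ≤ x k := fun k => hx' k ▸ by positivity
  simp only [hx'] at h2 b0 b1
  have hu0 : ∀ i ∈ Finset.range 10, 0 ≤ L ^ i * x (9 - i) := fun i _ =>
    mul_nonneg (by positivity) (x0 _)
  have hB0 := Finset.sum_nonneg hu0
  have hB1 := fun i (hi : i ≤ 9) =>
    Finset.single_le_sum hu0 (Finset.mem_range.2 (Nat.lt_succ_of_le hi))
  have hB2 := Finset.sum_le_card_nsmul (Finset.range 10) fun i => L ^ i * x (9 - i)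
  generalize ∑ i ∈ Finset.range 10, L ^ i * x (9 - i) = B at *
  have hT : 0 ≤ B / L := by positivity
  have h3 := cup_ind (u := fun i => L ^ i * x (9 - i)) (S := 8 * s + B / L) hK1 (by positivity)
    (by rw [pow_zero, one_mul]; exact b1.trans (le_add_of_nonneg_right hT))
    (by rw [pow_one]; exact b0.trans (by linarith)) fun i hi M hM hu => by
      have hw : 0 < L ^ i := by positivity
      have h4 := mul_le_mul_of_nonneg_left (h2 (7 - i) (by omega) (B / L / L ^ i) fun j hj => by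
        have h5 := hB1 (9 - j) (by omega)
        rw [show 9 - (9 - j) = j by omega] at h5
        rw [div_div, le_div_iff₀ (by positivity), ← pow_succ', mul_comm]
        exact (mul_le_mul_of_nonneg_right (pow_le_pow_right₀ hL (by omega)) (x0 j)).trans h5) hw.le
      have h5 := hu i (by omega)
      have h6 := hu (i + 1) le_rfl
      rw [show 7 - i + 2 = 9 - i by omega, show 7 - i + 1 = 9 - (i + 1) by omega] at h4
      rw [show 9 - (i + 2) = 7 - i by omega]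
      have h7 := mul_le_mul_of_nonneg_left (mul_le_mul_of_nonneg_right hz2 (x0 (7 - i))) hw.le
      have h8 : L ^ i * (C * (B / L / L ^ i)) = C * (B / L) := by field_simp
      have h9 := mul_le_mul_of_nonneg_left (show B / L ≤ M by linarith) hC
      have h10 : c / 2 * (L ^ (i + 2) * x (7 - i)) ≤ (12 + C) * M := by
        simp only [pow_succ] at *
        linarith
      have h11 := mul_le_mul_of_nonneg_left h10 (by positivity : 0 ≤ 2 / c)
      have h12 : 2 / c * (c / 2 * (L ^ (i + 2) * x (7 - i))) = L ^ (i + 2) * x (7 - i) := by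
        field_simp
      rw [hK]
      linarith
  have h4 := hB2 _ fun i hi => h3 i (Nat.le_of_lt_succ (Finset.mem_range.1 hi))
  rw [Finset.card_range, nsmul_eq_mul, Nat.cast_ofNat] at h4
  have h5 := mul_le_mul_of_nonneg_right hL2 hT
  rw [mul_div_cancel₀ _ hLp.ne'] at h5
  have h6 := cup_EE hf hg hL hl hr (B := 20 * K ^ 8 * (8 * s)) fun k hk => by
    have h7 := hB1 (9 - k) (by omega)
    rw [show 9 - (9 - k) = k by omega] at h7
    rw [hx']
    linarith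
  refine h6.trans (le_of_eq ?_)
  rw [e]
  ring

end Vale.Agent.P139
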