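import Vale.Agent.P139.CSrc
import Vale.Agent.P139.CUp
import Vale.Agent.P139.CCoef
import Vale.Agent.P139.CAT
import Vale.Agent.P139.CUniq

open Complex MeasureTheory Filter Topology
open scoped ComplexConjugate ContDiff

namespace Vale.Agent.P139

theorem cag_nu {l : ℕ} {z : ℂ} (hL : 30 ≤ Lb l z) (hz : ‖z‖ ≤ 1 / 100 * Lb l z ^ 2) :
    Lb l z ^ 2 / 2 ≤ l * (l + 10) ∧ 24 * (‖z‖ + 8) ≤ l * (l + 10) ∧
      (l : ℝ) * (l + 10) ≤ 11 * Lb l z ^ 2 := by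
  have h1 : Lb l z ^ 2 = 1 + ‖z‖ + (l : ℝ) ^ 2 := Real.sq_sqrt (by positivity)
  have h2 : (900 : ℝ) ≤ Lb l z ^ 2 := by nlinarith
  have h3 : (0 : ℝ) ≤ l := Nat.cast_nonneg l
  refine ⟨by nlinarith, by nlinarith, ?_⟩
  nlinarith [norm_nonneg z, sq_nonneg ((l : ℝ) - 1)]

theorem cag_alg (a a1 t t1 z : ℂ) {μ P q j : ℝ} (hμ : 0 ≤ μ) (hq : 0 ≤ q) (hj0 : 0 ≤ j)
    (hj : j ≤ 4) (hP : 2 * (μ * (‖z‖ + 8)) ≤ P) :
    μ * (‖a1‖ ^ 2 + ‖t1‖ ^ 2 + q * ‖a‖ ^ 2) + P * (‖a‖ ^ 2 + ‖t‖ ^ 2) ≤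
      2 * ((((P + μ * q : ℝ) : ℂ) * a + (μ : ℂ) * (z * t + j * t1 - 0)) * star a +
        (μ : ℂ) * a1 * star a1 + ((((P : ℝ) : ℂ) * t - (μ : ℂ) * (z * a + j * a1 - 0)) * star t +
        (μ : ℂ) * t1 * star t1)).re := by
  have e : ((((P + μ * q : ℝ) : ℂ) * a + (μ : ℂ) * (z * t + j * t1 - 0)) * star a +
        (μ : ℂ) * a1 * star a1 + ((((P : ℝ) : ℂ) * t - (μ : ℂ) * (z * a + j * a1 - 0)) * star t +
        (μ : ℂ) * t1 * star t1)).re =
      μ * (‖a1‖ ^ 2 + ‖t1‖ ^ 2 + q * ‖a‖ ^ 2) + P * (‖a‖ ^ 2 + ‖t‖ ^ 2) +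
        μ * ((z * t + j * t1) * star a - (z * a + j * a1) * star t).re := by
    simp only [Complex.sq_norm, normSq_apply, add_re, mul_re, sub_re, add_im, mul_im, sub_im,
      ofReal_re, ofReal_im, star_def, conj_re, conj_im, zero_re, zero_im]
    ring
  have h1 : ∀ x y1 y : ℂ, ‖(z * x + j * y1) * star y‖ ≤ (‖z‖ * ‖x‖ + 4 * ‖y1‖) * ‖y‖ :=
    fun x y1 y => by
      rw [norm_mul, norm_star]
      refine mul_le_mul_of_nonneg_right ((norm_add_le _ _).trans ?_) (norm_nonneg _)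
      rw [norm_mul, norm_mul, Complex.norm_real, Real.norm_of_nonneg hj0]
      exact add_le_add le_rfl (mul_le_mul_of_nonneg_right hj (norm_nonneg _))
  have h2 := (abs_le.1 ((Complex.abs_re_le_norm _).trans ((norm_sub_le _ _).trans
    (add_le_add (h1 t t1 a) (h1 a a1 t))))).1
  rw [e]
  generalize ((z * t + j * t1) * star a - (z * a + j * a1) * star t).re = X at h2
  have h3 : -((‖a1‖ ^ 2 + ‖t1‖ ^ 2) / 2 + (‖z‖ + 8) * (‖a‖ ^ 2 + ‖t‖ ^ 2)) ≤ X := by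
    linarith [sq_nonneg (‖t1‖ - 4 * ‖a‖), sq_nonneg (‖a1‖ - 4 * ‖t‖),
      mul_nonneg (norm_nonneg z) (sq_nonneg (‖a‖ - ‖t‖))]
  have h4 := mul_le_mul_of_nonneg_left h3 hμ
  have h5 := mul_le_mul_of_nonneg_right hP (by positivity : 0 ≤ ‖a‖ ^ 2 + ‖t‖ ^ 2)
  have h6 : 0 ≤ μ * (q * ‖a‖ ^ 2) := by positivity
  linarith

theorem cag_bd (a a1 t t1 : ℂ) {μ P q L : ℝ} (hμ : 0 ≤ μ) (hq : 0 ≤ q) (hL : 0 < L)
    (hP : μ * L ^ 2 ≤ 24 * P) :
    L / 6 * (2 * ((μ : ℂ) * a1 * star a + (μ : ℂ) * t1 * star t).re) ≤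
      μ * (‖a1‖ ^ 2 + ‖t1‖ ^ 2 + q * ‖a‖ ^ 2) + P * (‖a‖ ^ 2 + ‖t‖ ^ 2) := by
  have h1 : ((μ : ℂ) * a1 * star a + (μ : ℂ) * t1 * star t).re ≤
      μ * ‖a1‖ * ‖a‖ + μ * ‖t1‖ * ‖t‖ := by
    refine (Complex.re_le_norm _).trans ((norm_add_le _ _).trans (le_of_eq ?_))
    simp only [norm_mul, norm_star, Complex.norm_real, Real.norm_of_nonneg hμ]
  have h2 := mul_le_mul_of_nonneg_left h1 hL.le
  have h5 := mul_le_mul_of_nonneg_right hP (by positivity : 0 ≤ ‖a‖ ^ 2 + ‖t‖ ^ 2)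
  have h6 : 0 ≤ μ * (q * ‖a‖ ^ 2) := by positivity
  have h7 : 0 ≤ μ * L ^ 2 * (‖a‖ ^ 2 + ‖t‖ ^ 2) := by positivity
  linarith [mul_nonneg hμ (sq_nonneg (‖a1‖ - L / 6 * ‖a‖)),
    mul_nonneg hμ (sq_nonneg (‖t1‖ - L / 6 * ‖t‖))]

theorem cag_cont {ε a rm rp : ℝ} {ρ n j q : ℝ → ℝ} (hc : Cf ε a rm rp ρ n j q) {l : ℕ} {z : ℂ}
    {A Θ F1 F2 : ℝ → ℂ} (h : ASol ρ j q l z A Θ F1 F2) : Continuous (dens ρ q l A Θ) := by
  have h1 := h.cA.continuous
  have h2 := h.cT.continuous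
  have h3 := h.cA.continuous_deriv (by norm_num)
  have h4 := h.cT.continuous_deriv (by norm_num)
  have h5 := hc.cρ.continuous
  have h6 := hc.cq.continuous
  unfold dens
  fun_prop

theorem cag_main {ε a rm rp : ℝ} {ρ n j q : ℝ → ℝ} (hc : Cf ε a rm rp ρ n j q) {l : ℕ} {z : ℂ}
    {A Θ : ℝ → ℂ} (h : ASol ρ j q l z A Θ 0 0) (hL : 30 ≤ Lb l z)
    (hz : ‖z‖ ≤ 1 / 100 * Lb l z ^ 2) : (∫ r in (0 : ℝ)..3.32, dens ρ q l A Θ r)
      ≤ Real.exp (-(7 / 300) * Lb l z) * ∫ r in (0 : ℝ)..3.46, dens ρ q l A Θ r := by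
  obtain ⟨n1, n2, -⟩ := cag_nu hL hz
  generalize Lb l z = L at hL n1 ⊢
  have hE : ∀ r, HasDerivAt (fun r => ∫ t in (0 : ℝ)..r, dens ρ q l A Θ t) (dens ρ q l A Θ r) r :=
    fun r => ((cag_cont hc h).integral_hasStrictDerivAt 0 r).hasDerivAt
  have hG := fun r (hr : 0 ≤ r) => (Complex.reCLM.hasFDerivAt.comp_hasDerivAt r
    (((h.e1 r hr).mul (h.cA.differentiable (by norm_num) r).hasDerivAt.star).add
      ((h.e2 r hr).mul (h.cT.differentiable (by norm_num) r).hasDerivAt.star))).const_mul 2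
  have hb : ∀ r ∈ Set.Icc (0 : ℝ) 3.46, 0 ≤ r ^ 9 * ρ r ∧ r ^ 11 * ρ r ≤ 12 * (r ^ 9 * ρ r) := by
    intro r hr
    have h1 : 0 ≤ r ^ 9 * ρ r := mul_nonneg (pow_nonneg hr.1 9) (by linarith [hc.ρ0 r hr])
    have h2 : r ^ 2 ≤ 12 := by nlinarith [hr.1, hr.2]
    exact ⟨h1, by linarith [mul_le_mul_of_nonneg_right h2 h1]⟩
  have hμ : ∀ r ∈ Set.Icc (0 : ℝ) 3.46, 0 ≤ r ^ 11 * ρ r := fun r hr =>
    mul_nonneg (pow_nonneg hr.1 11) (by linarith [hc.ρ0 r hr])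
  have h1 := image_le_of_deriv_right_le_deriv_boundary (a := 0) (b := 3.46)
    (fun r _ => (hE r).continuousAt.continuousWithinAt) (fun r _ => (hE r).hasDerivWithinAt)
    (by simp) (fun r hr => (hG r hr.1).continuousAt.continuousWithinAt)
    (fun r hr => (hG r hr.1).hasDerivWithinAt) fun r hr => by
      have hr' := Set.Ico_subset_Icc_self hr
      obtain ⟨b1, b2⟩ := hb r hr'
      refine cag_alg (A r) (deriv A r) (Θ r) (deriv Θ r) z (hμ r hr') (hc.q0 r) (hc.j0 r hr')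
        (by linarith [hc.j1 r hr', hr'.2]) ?_
      linarith [mul_le_mul_of_nonneg_right n2 b1,
        mul_le_mul_of_nonneg_right b2 (by positivity : 0 ≤ ‖z‖ + 8)]
  have h2 : ∀ r ∈ Set.Icc (0 : ℝ) 3.46,
      L / 6 * ∫ t in (0 : ℝ)..r, dens ρ q l A Θ t ≤ dens ρ q l A Θ r := by
    intro r hr
    obtain ⟨b1, b2⟩ := hb r hr
    refine (mul_le_mul_of_nonneg_left (h1 hr) (by linarith)).trans
      (cag_bd (A r) (deriv A r) (Θ r) (deriv Θ r) (hμ r hr) (hc.q0 r) (by linarith) ?_)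
    linarith [mul_le_mul_of_nonneg_right n1 b1, mul_le_mul_of_nonneg_right b2 (sq_nonneg L)]
  have hφ := fun r : ℝ => (((hasDerivAt_id' r).const_mul (-(L / 6))).exp).mul (hE r)
  have h3 := image_le_of_deriv_right_le_deriv_boundary (a := 3.32) (b := 3.46)
    (f := fun _ => Real.exp (-(L / 6) * 3.32) * ∫ t in (0 : ℝ)..3.32, dens ρ q l A Θ t)
    continuousOn_const (fun r _ => hasDerivWithinAt_const r _ _) le_rfl
    (fun r _ => (hφ r).continuousAt.continuousWithinAt) (fun r _ => (hφ r).hasDerivWithinAt)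
    (fun r hr => by
      have h4 := mul_le_mul_of_nonneg_left (h2 r ⟨by linarith [hr.1], hr.2.le⟩)
        (Real.exp_pos (-(L / 6) * r)).le
      linarith) (Set.right_mem_Icc.2 (by norm_num))
  refine le_of_mul_le_mul_left (h3.trans (le_of_eq ?_)) (Real.exp_pos (-(L / 6) * 3.32))
  rw [← mul_assoc, ← Real.exp_add]
  exact congrArg₂ _ (congrArg _ (by ring)) rfl

/-- exponential growth of the interior energy when the angular momentum dominates -/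
theorem agmon : ∃ c0 L0 γ : ℝ, 0 < c0 ∧ 0 < γ ∧ ∀ {ε a rm rp : ℝ} {ρ n j q : ℝ → ℝ},
    Cf ε a rm rp ρ n j q → ∀ {l : ℕ} {z : ℂ} {A Θ : ℝ → ℂ}, ASol ρ j q l z A Θ 0 0 →
    L0 ≤ Lb l z → ‖z‖ ≤ c0 * Lb l z ^ 2 →
      (∫ r in (0 : ℝ)..3.32, dens ρ q l A Θ r)
        ≤ Real.exp (-γ * Lb l z) * ∫ r in (0 : ℝ)..3.46, dens ρ q l A Θ r := by
  refine ⟨1 / 100, 30, 7 / 300, by norm_num, by norm_num, fun hc l z A Θ h hL hz => ?_⟩
  exact cag_main hc h hL hz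

theorem cag_small {K : ℝ} (hK : 0 ≤ K) : ∃ L0 : ℝ, ∀ L, L0 ≤ L →
    (K + 2) * (L ^ 18 * Real.exp (-(7 / 300) * L)) < 1 := by
  have _ := hK
  have h := (tendsto_rpow_mul_exp_neg_mul_atTop_nhds_zero (18 : ℕ) (7 / 300)
    (by norm_num)).const_mul (K + 2)
  rw [mul_zero] at h
  simp only [Real.rpow_natCast] at h
  exact eventually_atTop.1 (h.eventually (gt_mem_nhds one_pos))

theorem cag_lad (l k : ℕ) : lad l k 0 = 0 := by
  induction k with
  | zero => rfl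
  | succ k ih =>
    funext r
    simp [lad, ih]

theorem cag_dens {ε a rm rp : ℝ} {ρ n j q : ℝ → ℝ} (hc : Cf ε a rm rp ρ n j q) {l : ℕ}
    (A Θ : ℝ → ℂ) {L : ℝ} (hL : 1 ≤ L) (n1 : L ^ 2 / 2 ≤ l * (l + 10))
    (n3 : (l : ℝ) * (l + 10) ≤ 11 * L ^ 2) {r : ℝ} (hr : r ∈ Set.Icc (3.3 : ℝ) 3.46) :
    ee L A Θ r ≤ dens ρ q l A Θ r ∧ dens ρ q l A Θ r ≤ 2 * 4 ^ 11 * ee L A Θ r := by
  have hr' : r ∈ Set.Icc (0 : ℝ) 3.46 := ⟨by linarith [hr.1], hr.2⟩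
  have h0 := hc.ρ0 r hr'
  have h1 := hc.ρ1 r hr'
  have h2 := hc.q0 r
  have h3 : q r ≤ L ^ 2 := by
    have b1 := hc.q2 r ⟨hc.r3.trans hr.1, hr.2⟩
    have b2 : 1 ≤ L ^ 2 := one_le_pow₀ hL
    linarith [hc.e1]
  have hp : ∀ k : ℕ, 3 ^ k * (1 / 4) ≤ r ^ k * ρ r ∧ r ^ k * ρ r ≤ 4 ^ k * 1 := fun k =>
    ⟨mul_le_mul (pow_le_pow_left₀ (by norm_num) (by linarith [hr.1]) k) h0 (by norm_num)
      (pow_nonneg hr'.1 k), mul_le_mul (pow_le_pow_left₀ hr'.1 (by linarith [hr.2]) k) h1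
      (by linarith) (by positivity)⟩
  obtain ⟨a1, a2⟩ := hp 11
  obtain ⟨a3, a4⟩ := hp 9
  have p1 : L ^ 2 ≤ l * (l + 10) * r ^ 9 * ρ r := by
    have b1 := mul_le_mul n1 (show 2 ≤ r ^ 9 * ρ r by linarith) zero_le_two (by positivity)
    linarith
  have p2 : l * (l + 10) * r ^ 9 * ρ r ≤ 4 ^ 11 * L ^ 2 := by
    have b1 := mul_le_mul n3 a4 (by linarith) (by positivity)
    linarith [sq_nonneg L]
  unfold ee en dens
  generalize l * (l + 10) * r ^ 9 * ρ r = P at *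
  generalize r ^ 11 * ρ r = μ at *
  have x1 := sq_nonneg ‖deriv A r‖
  have x2 := sq_nonneg ‖deriv Θ r‖
  have x3 := sq_nonneg ‖A r‖
  have x4 := sq_nonneg ‖Θ r‖
  have y0 := mul_nonneg h2 x3
  have y1 := mul_le_mul_of_nonneg_right h3 x3
  have y2 := mul_le_mul_of_nonneg_right p1 (add_nonneg x3 x4)
  have y3 := mul_le_mul_of_nonneg_right p2 (add_nonneg x3 x4)
  have y4 := mul_le_mul_of_nonneg_right (show 1 ≤ μ by linarith) (add_nonneg (add_nonneg x1 x2) y0)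
  have y5 := mul_le_mul_of_nonneg_right a2 (add_nonneg (add_nonneg x1 x2) y0)
  have y6 := mul_nonneg (sq_nonneg L) x4
  constructor <;> linarith

theorem regime_B : ∃ c0 ε0 L0 : ℝ, 0 < c0 ∧ 0 < ε0 ∧
    ∀ {ε : ℝ} {m : ℕ} {om σ : ℝ} {w : ℝ → ℂ}, Ctx ε m om σ w → ε ≤ ε0 →
    ∀ {l : ℕ} {z : ℂ} {f g : ℝ → ℂ}, HSol m om w l z f g → L0 ≤ Lb l z →
    ‖z‖ ≤ c0 * Lb l z ^ 2 → Van f g := by
  obtain ⟨ε0, C1, hε0, hC1, h1⟩ := ng_lossy
  obtain ⟨C2, hC2, h2⟩ := EE_up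
  obtain ⟨C3, hC3, h3⟩ := at_comp
  obtain ⟨L0, hL0⟩ := cag_small (K := 100 * C3 * (2 * 4 ^ 11 * C3) * C1 * C2) (by positivity)
  refine ⟨1 / 100, ε0, max 30 L0, by norm_num, hε0, ?_⟩
  intro ε m om σ w hx hε l z f g h hL hz
  have hL1 := (le_max_left _ _).trans hL
  have hs := hL0 _ ((le_max_right _ _).trans hL)
  have hc := hx.cf
  have ha := asol_of_sol hx.prof h.sol continuous_zero continuous_zero
  rw [show cT w 0 0 = 0 from funext fun r => by simp [cT],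
    show cA w 0 0 = 0 from funext fun r => by simp [cA]] at ha
  have hm := cag_main hc ha hL1 hz
  have hd := cag_cont hc ha
  obtain ⟨n1, -, n3⟩ := cag_nu hL1 hz
  have df : Differentiable ℝ f := h.sol.1.1.differentiable (by norm_num)
  have dg : Differentiable ℝ g := h.sol.2.1.1.differentiable (by norm_num)
  have hcmp := h3 hx f g df dg (Lb l z) (by linarith)
  have hde := fun r hr => cag_dens hc (cA w f g) (cT w f g) (by linarith) n1 n3 (r := r) hr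
  have he : Continuous (ee (Lb l z) f g) := by
    have c1 := df.continuous
    have c2 := dg.continuous
    have c3 := h.sol.1.1.continuous_deriv (by norm_num)
    have c4 := h.sol.2.1.1.continuous_deriv (by norm_num)
    unfold ee en
    fun_prop
  have he0 : ∀ r, 0 ≤ ee (Lb l z) f g r := fun r => by
    unfold ee en
    positivity
  obtain ⟨r, hr, hmin⟩ := (isCompact_Icc (a := (3.3 : ℝ)) (b := 3.32)).exists_isMinOn
    ⟨3.3, Set.left_mem_Icc.2 (by norm_num)⟩ hd.continuousOn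
  have hr' : r ∈ Set.Icc (3.3 : ℝ) 3.46 := ⟨hr.1, by linarith [hr.2]⟩
  have i1 := intervalIntegral.integral_mono_on (μ := volume) (by norm_num : (3.3 : ℝ) ≤ 3.32)
    intervalIntegrable_const (hd.intervalIntegrable _ _) fun t ht => hmin ht
  rw [intervalIntegral.integral_const, smul_eq_mul] at i1
  have i2 := intervalIntegral.integral_add_adjacent_intervals (μ := volume)
    (hd.intervalIntegrable 0 3.3) (hd.intervalIntegrable 3.3 3.32)
  have i3 : 0 ≤ ∫ t in (0 : ℝ)..3.3, dens (cρ w) (cq m w) l (cA w f g) (cT w f g) t :=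
    intervalIntegral.integral_nonneg (by norm_num) fun t ht => by
      have b1 := ht.1
      have b2 := hc.q0 t
      have b3 : 0 ≤ cρ w t := sq_nonneg _
      unfold dens
      positivity
  have i4 := intervalIntegral.integral_add_adjacent_intervals (μ := volume)
    (hd.intervalIntegrable 0 3.32) (hd.intervalIntegrable 3.32 3.46)
  have i5 := intervalIntegral.integral_mono_on (μ := volume) (by norm_num : (3.32 : ℝ) ≤ 3.46)
    (hd.intervalIntegrable _ _) ((he.intervalIntegrable _ _).const_mul (2 * 4 ^ 11 * C3))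
    fun t ht => ((hde t ⟨by linarith [ht.1], ht.2⟩).2.trans (mul_le_mul_of_nonneg_left
      (hcmp t ⟨by linarith [ht.1], ht.2⟩).2.1 (by norm_num))).trans_eq (mul_assoc _ _ _).symm
  rw [intervalIntegral.integral_const_mul] at i5
  have i6 := intervalIntegral.integral_mono_interval (μ := volume) hr.2
    (by norm_num : (3.32 : ℝ) ≤ 3.46) le_rfl (ae_of_all _ he0) (he.intervalIntegrable r 3.46)
  have i7 := h1 hx hε h r hr'
  have i8 := h2 hx h.sol contDiff_const contDiff_const r hr'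
  simp only [cag_lad, Pi.zero_apply, norm_zero, ne_eq, OfNat.ofNat_ne_zero, not_false_eq_true,
    zero_pow, add_zero, Finset.sum_const_zero] at i8
  have i9 := (hcmp r ⟨by linarith [hr.1], hr'.2⟩).1.trans
    (mul_le_mul_of_nonneg_left (hde r hr').1 hC3)
  refine rsol_uniq hx.prof h.sol (by linarith [hr.1] : 0 < r) (by linarith : 1 ≤ Lb l z) ?_
  have j1 := i5.trans (mul_le_mul_of_nonneg_left (i6.trans (i7.trans
    (mul_le_mul_of_nonneg_left i8 (by positivity)))) (by positivity))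
  have j2 := he0 r
  have j3 := Real.exp_pos (-(7 / 300) * Lb l z)
  have j4 : 1 ≤ Lb l z ^ 18 := one_le_pow₀ (by linarith)
  rw [← i4] at hm
  generalize ee (Lb l z) f g r = e at *
  generalize Real.exp (-(7 / 300) * Lb l z) = x at *
  generalize dens (cρ w) (cq m w) l (cA w f g) (cT w f g) r = d at *
  generalize ∫ t in (0 : ℝ)..3.32, dens (cρ w) (cq m w) l (cA w f g) (cT w f g) t = E1 at *
  generalize ∫ t in (3.32 : ℝ)..3.46, dens (cρ w) (cq m w) l (cA w f g) (cT w f g) t = E2 at *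
  have k0 : 0 ≤ 100 * C3 * (2 * 4 ^ 11 * C3) * C1 * C2 * (Lb l z ^ 18 * x) := by positivity
  have k1 : x ≤ 1 / 2 := by linarith [mul_le_mul_of_nonneg_right j4 j3.le]
  have k2 : e ≤ C3 * (50 * E1) := i9.trans (mul_le_mul_of_nonneg_left (by linarith) hC3)
  rcases le_or_gt E1 0 with k3 | k3
  · exact le_antisymm (k2.trans (mul_nonpos_of_nonneg_of_nonpos hC3 (by linarith))) j2
  have k4 : E1 ≤ 2 * x * E2 := by linarith [mul_le_mul_of_nonneg_right k1 k3.le]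
  have k5 := mul_le_mul_of_nonneg_left (k4.trans (mul_le_mul_of_nonneg_left j1 (by positivity)))
    (by positivity : 0 ≤ 50 * C3)
  have k6 : e ≤ 100 * C3 * (2 * 4 ^ 11 * C3) * C1 * C2 * (Lb l z ^ 18 * x) * e := by linarith
  by_contra k7
  have k8 := lt_of_le_of_ne j2 (Ne.symm k7)
  have k9 : 0 ≤ Lb l z ^ 18 * x := by positivity
  have k10 := mul_lt_mul_of_pos_right (show 100 * C3 * (2 * 4 ^ 11 * C3) * C1 * C2 *
    (Lb l z ^ 18 * x) < 1 by linarith) k8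
  linarith

end Vale.Agent.P139
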