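import Vale.Agent.P139.CLad
import Vale.Agent.P139.CUniq

open Complex MeasureTheory Filter Topology
open scoped ComplexConjugate ContDiff

namespace Vale.Agent.P139

theorem cgron_bd {P K x : ℝ} (hP : 0 ≤ P) (hK : 1 ≤ K) (hx : x ≤ 1) :
    gronwallBound P K P x ≤ 2 * Real.exp K * P := by
  refine (gronwallBound_mono hP hP (by linarith) hx).trans ?_
  rw [gronwallBound_of_K_ne_0 (by linarith)]
  have h1 : P / K ≤ P := div_le_self hP hK
  have h2 : 1 ≤ Real.exp K := Real.one_le_exp (by linarith)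
  have h3 : P / K * (Real.exp K - 1) ≤ P * Real.exp K :=
    mul_le_mul h1 (by linarith) (by linarith) hP
  simp only [mul_one]
  linarith

theorem cgron_two {F : Type*} [NormedAddCommGroup F] [NormedSpace ℝ F] {X X' : ℝ → F}
    {a b t0 K P : ℝ} (hP : 0 ≤ P) (hK : 1 ≤ K) (hab : b - a ≤ 1)
    (hd : ∀ t ∈ Set.Icc a b, HasDerivAt X (X' t) t)
    (hb : ∀ t ∈ Set.Icc a b, ‖X' t‖ ≤ K * ‖X t‖ + P) (ht0 : t0 ∈ Set.Icc a b)
    (h0 : ‖X t0‖ ≤ P) : ∀ t ∈ Set.Icc a b, ‖X t‖ ≤ 2 * Real.exp K * P := by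
  intro t ht
  rcases le_total t0 t with h | h
  · have hs : Set.Icc t0 t ⊆ Set.Icc a b := Set.Icc_subset_Icc ht0.1 ht.2
    refine (norm_le_gronwallBound_of_norm_deriv_right_le (f := X) (f' := X') (a := t0) (b := t)
      (fun s h' => (hd s (hs h')).continuousAt.continuousWithinAt)
      (fun s h' => (hd s (hs (Set.Ico_subset_Icc_self h'))).hasDerivWithinAt) h0
      (fun s h' => hb s (hs (Set.Ico_subset_Icc_self h'))) t ⟨h, le_rfl⟩).trans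
      (cgron_bd hP hK (by linarith [ht.2, ht0.1]))
  · have hs : ∀ s ∈ Set.Icc (-t0) (-t), -s ∈ Set.Icc a b := fun s h' =>
      ⟨by linarith [h'.2, ht.1], by linarith [h'.1, ht0.2]⟩
    have hd' : ∀ s ∈ Set.Icc (-t0) (-t), HasDerivAt (fun s => X (-s)) (-X' (-s)) s := by
      intro s h'
      have := (hd (-s) (hs s h')).scomp s (hasDerivAt_neg s)
      rw [neg_one_smul] at this
      exact this
    have := norm_le_gronwallBound_of_norm_deriv_right_le (f := fun s => X (-s))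
      (f' := fun s => -X' (-s)) (δ := P) (K := K) (ε := P) (a := -t0) (b := -t)
      (fun s h' => (hd' s h').continuousAt.continuousWithinAt)
      (fun s h' => (hd' s (Set.Ico_subset_Icc_self h')).hasDerivWithinAt) (by simpa using h0)
      (fun s h' => by
        rw [norm_neg]
        exact hb _ (hs s (Set.Ico_subset_Icc_self h'))) (-t) ⟨by linarith, le_rfl⟩
    rw [neg_neg] at this
    exact this.trans (cgron_bd hP hK (by linarith [ht.1, ht0.2]))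

theorem cgron_lip {h h' : ℝ → ℂ} {a b B : ℝ} (hd : ∀ t ∈ Set.Icc a b, HasDerivAt h (h' t) t)
    (hb : ∀ t ∈ Set.Icc a b, ‖h' t‖ ≤ B) {r r' : ℝ} (hr : r ∈ Set.Icc a b)
    (hr' : r' ∈ Set.Icc a b) : ‖h r - h r'‖ ≤ B * |r - r'| :=
  (convex_Icc a b).norm_image_sub_le_of_norm_hasDerivWithin_le
    (fun t ht => (hd t ht).hasDerivWithinAt) hb hr' hr

/-- abstract form -/
theorem cgron_abs {f g a1 a2 a3 b1 b2 b3 p q : ℝ → ℂ} (hf : ContDiff ℝ 16 f)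
    (hg : ContDiff ℝ 16 g) {a b t0 K P : ℝ} (hP : 0 ≤ P) (hK : 1 ≤ K) (hab : b - a ≤ 1)
    (ef : ∀ t ∈ Set.Icc a b,
      deriv (deriv f) t = a1 t * deriv f t + a2 t * f t + a3 t * g t + p t)
    (eg : ∀ t ∈ Set.Icc a b,
      deriv (deriv g) t = b1 t * deriv g t + b2 t * g t + b3 t * f t + q t)
    (ha : ∀ t ∈ Set.Icc a b, ‖a1 t‖ + ‖a2 t‖ + ‖a3 t‖ ≤ K)
    (hb : ∀ t ∈ Set.Icc a b, ‖b1 t‖ + ‖b2 t‖ + ‖b3 t‖ ≤ K)
    (hp : ∀ t ∈ Set.Icc a b, ‖p t‖ ≤ P) (hq : ∀ t ∈ Set.Icc a b, ‖q t‖ ≤ P)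
    (ht0 : t0 ∈ Set.Icc a b) (h0 : dat f g t0 ≤ P ^ 2) : ∀ t ∈ Set.Icc a b,
      (‖f t‖ ≤ 2 * Real.exp K * P ∧ ‖deriv f t‖ ≤ 2 * Real.exp K * P ∧
        ‖deriv (deriv f) t‖ ≤ (K * (2 * Real.exp K) + 1) * P) ∧
      (‖g t‖ ≤ 2 * Real.exp K * P ∧ ‖deriv g t‖ ≤ 2 * Real.exp K * P ∧
        ‖deriv (deriv g) t‖ ≤ (K * (2 * Real.exp K) + 1) * P) := by
  have D0 : ∀ {f : ℝ → ℂ}, ContDiff ℝ 16 f → ∀ r, HasDerivAt f (deriv f r) r := fun hf r =>
    (hf.differentiable (by norm_num) r).hasDerivAt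
  have D1 : ∀ {f : ℝ → ℂ}, ContDiff ℝ 16 f → ∀ r, HasDerivAt (deriv f) (deriv (deriv f) r) r :=
    fun hf r => ((hf.deriv' (n := 15)).differentiable (by norm_num) r).hasDerivAt
  have comp : ∀ t (n : ℝ), ‖(f t, deriv f t, g t, deriv g t)‖ ≤ n ↔
      ‖f t‖ ≤ n ∧ ‖deriv f t‖ ≤ n ∧ ‖g t‖ ≤ n ∧ ‖deriv g t‖ ≤ n := fun t n => by
    simp only [Prod.norm_mk, max_le_iff]
  have sec : ∀ t ∈ Set.Icc a b, ∀ n : ℝ, ‖(f t, deriv f t, g t, deriv g t)‖ ≤ n →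
      ‖deriv (deriv f) t‖ ≤ K * n + P ∧ ‖deriv (deriv g) t‖ ≤ K * n + P := by
    intro t ht n hn
    obtain ⟨n1, n2, n3, n4⟩ := (comp t n).1 hn
    rw [ef t ht, eg t ht]
    exact ⟨(norm_add_le _ _).trans (add_le_add (cuniq_three n2 n1 n3 (ha t ht)) (hp t ht)),
      (norm_add_le _ _).trans (add_le_add (cuniq_three n4 n3 n1 (hb t ht)) (hq t ht))⟩
  have key := cgron_two (X := fun t => (f t, deriv f t, g t, deriv g t))
    (X' := fun t => (deriv f t, deriv (deriv f) t, deriv g t, deriv (deriv g) t)) hP hK hab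
    (fun t _ => (D0 hf t).prodMk ((D1 hf t).prodMk ((D0 hg t).prodMk (D1 hg t))))
    (fun t ht => by
      obtain ⟨s1, s2⟩ := sec t ht _ le_rfl
      obtain ⟨-, n2, -, n4⟩ := (comp t _).1 le_rfl
      have hn0 : 0 ≤ ‖(f t, deriv f t, g t, deriv g t)‖ := norm_nonneg _
      have h1 := le_mul_of_one_le_left hn0 hK
      generalize ‖(f t, deriv f t, g t, deriv g t)‖ = n at *
      simp only [Prod.norm_mk, max_le_iff]
      exact ⟨by linarith, s1, by linarith, s2⟩) ht0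
    (by
      rw [comp]
      simp only [dat, ee, en, one_pow, one_mul] at h0
      have p1 := sq_nonneg ‖deriv f t0‖
      have p2 := sq_nonneg ‖f t0‖
      have p3 := sq_nonneg ‖deriv g t0‖
      have p4 := sq_nonneg ‖g t0‖
      exact ⟨(abs_le_of_sq_le_sq' (by linarith : ‖f t0‖ ^ 2 ≤ P ^ 2) hP).2,
        (abs_le_of_sq_le_sq' (by linarith : ‖deriv f t0‖ ^ 2 ≤ P ^ 2) hP).2,
        (abs_le_of_sq_le_sq' (by linarith : ‖g t0‖ ^ 2 ≤ P ^ 2) hP).2,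
        (abs_le_of_sq_le_sq' (by linarith : ‖deriv g t0‖ ^ 2 ≤ P ^ 2) hP).2⟩)
  intro t ht
  obtain ⟨n1, n2, n3, n4⟩ := (comp t _).1 (key t ht)
  obtain ⟨s1, s2⟩ := sec t ht _ (key t ht)
  exact ⟨⟨n1, n2, by linarith⟩, n3, n4, by linarith⟩

theorem cgron_lad {f : ℝ → ℂ} (hf : ContDiff ℝ 16 f) (l : ℕ) {a b B B2 L : ℝ} (ha : 1 ≤ a)
    (hl : (l : ℝ) ≤ L)
    (hb : ∀ t ∈ Set.Icc a b, ‖f t‖ ≤ B ∧ ‖deriv f t‖ ≤ B ∧ ‖deriv (deriv f) t‖ ≤ B2)
    {r r' : ℝ} (hr : r ∈ Set.Icc a b) (hr' : r' ∈ Set.Icc a b) :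
    ‖lad l 1 f r - lad l 1 f r'‖ ≤ (B2 + 2 * L * B) * |r - r'| := by
  refine cgron_lip (h' := fun t => deriv (deriv f) t -
    (-(l / (t : ℂ) ^ 2) * f t + ((l : ℂ) + (0 : ℕ)) / (t : ℂ) * deriv f t)) (fun t ht => ?_)
    (fun t ht => ?_) hr hr'
  · have r0 : (t : ℂ) ≠ 0 := ofReal_ne_zero.2 (by linarith [ht.1])
    have d0 : HasDerivAt f (deriv f t) t := (hf.differentiable (by norm_num) t).hasDerivAt
    have d1 : HasDerivAt (deriv f) (deriv (deriv f) t) t :=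
      ((hf.deriv' (n := 15)).differentiable (by norm_num) t).hasDerivAt
    have d2 : HasDerivAt (fun ρ : ℝ => ((l : ℂ) + (0 : ℕ)) / (ρ : ℂ)) (-(l / (t : ℂ) ^ 2)) t :=
      (((hasDerivAt_const (t : ℂ) ((l : ℂ) + (0 : ℕ))).div (hasDerivAt_id (t : ℂ))
        r0).comp_ofReal).congr_deriv (by simp; ring)
    exact d1.sub (d2.mul d0)
  · obtain ⟨h1, h2, h3⟩ := hb t ht
    have t1 : 1 ≤ t := ha.trans ht.1
    have hl0 : (0 : ℝ) ≤ l := Nat.cast_nonneg l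
    have n1 : ‖-((l : ℂ) / (t : ℂ) ^ 2)‖ ≤ L := by
      rw [norm_neg, norm_div, norm_pow, norm_real, Complex.norm_natCast,
        Real.norm_of_nonneg (by linarith)]
      exact (div_le_self hl0 (one_le_pow₀ t1)).trans hl
    have n2 : ‖((l : ℂ) + (0 : ℕ)) / (t : ℂ)‖ ≤ L := by
      rw [Nat.cast_zero, add_zero, norm_div, norm_real, Complex.norm_natCast,
        Real.norm_of_nonneg (by linarith)]
      exact (div_le_self hl0 t1).trans hl
    have m1 := mul_le_mul n1 h1 (norm_nonneg _) (hl0.trans hl)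
    have m2 := mul_le_mul n2 h2 (norm_nonneg _) (hl0.trans hl)
    refine (norm_sub_le _ _).trans ?_
    have := norm_add_le (-((l : ℂ) / (t : ℂ) ^ 2) * f t)
      (((l : ℂ) + (0 : ℕ)) / (t : ℂ) * deriv f t)
    rw [norm_mul, norm_mul] at this
    linarith

theorem cgron_coef {l : ℕ} {L t : ℝ} (hl : (l : ℝ) ≤ L) (t1 : 1 ≤ t) (t2 : t ≤ 4) {s u V W : ℂ}
    (hs : ‖s‖ = 1) (hu : ‖u‖ ≤ L ^ 2 + 2) (hV : ‖V‖ ≤ 1) (hW : ‖W‖ ≤ 1) :
    ‖-(11 / (t : ℂ)) - s * t / 2‖ + ‖(l : ℂ) * (l + 10) / (t : ℂ) ^ 2 - s * u + V‖ + ‖W‖ ≤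
      17 + 2 * L ^ 2 + 10 * L := by
  have hl0 : (0 : ℝ) ≤ l := Nat.cast_nonneg l
  have nt : ‖(t : ℂ)‖ = t := by rw [norm_real, Real.norm_of_nonneg (by linarith)]
  have n1 : ‖-(11 / (t : ℂ))‖ ≤ 11 := by
    rw [norm_neg, norm_div, nt]
    simpa using div_le_self (by norm_num : (0 : ℝ) ≤ 11) t1
  have n2 : ‖s * t / 2‖ ≤ 2 := by
    rw [norm_div, norm_mul, hs, nt]
    simp only [norm_ofNat]
    linarith
  have n3 : ‖(l : ℂ) * (l + 10) / (t : ℂ) ^ 2‖ ≤ L * (L + 10) := by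
    have e : (l : ℂ) * (l + 10) = ((l * (l + 10) : ℝ) : ℂ) := by push_cast; ring
    rw [norm_div, norm_pow, nt, e, norm_real, Real.norm_of_nonneg (by positivity)]
    exact (div_le_self (by positivity) (one_le_pow₀ t1)).trans
      (mul_le_mul hl (by linarith) (by positivity) (hl0.trans hl))
  have n4 : ‖s * u‖ ≤ L ^ 2 + 2 := by rw [norm_mul, hs, one_mul]; exact hu
  have a1 := norm_sub_le (-(11 / (t : ℂ))) (s * t / 2)
  have a2 := norm_add_le ((l : ℂ) * (l + 10) / (t : ℂ) ^ 2 - s * u) V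
  have a3 := norm_sub_le ((l : ℂ) * (l + 10) / (t : ℂ) ^ 2) (s * u)
  nlinarith

/-- Gronwall bounds between the wall and the shell -/
theorem gron (L0 : ℝ) : ∃ C : ℝ, 0 ≤ C ∧ ∀ {ε : ℝ} {m : ℕ} {om σ : ℝ} {w : ℝ → ℂ},
    Ctx ε m om σ w → ∀ {l : ℕ} {z : ℂ} {f g p q : ℝ → ℂ}, RSol m om w l z f g p q →
    Lb l z ≤ L0 → ∀ P : ℝ, 0 ≤ P →
    (∀ r ∈ Set.Icc (2 * Real.sqrt (σ + ε)) 3.46, ‖p r‖ ≤ P ∧ ‖q r‖ ≤ P) → dat f g 3.4 ≤ P ^ 2 →
    ∀ r ∈ Set.Icc (2 * Real.sqrt (σ + ε)) 3.46, dat f g r ≤ (C * P) ^ 2 ∧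
      ∀ r' ∈ Set.Icc (2 * Real.sqrt (σ + ε)) 3.46,
        ‖f r - f r'‖ ≤ C * P * |r - r'| ∧ ‖g r - g r'‖ ≤ C * P * |r - r'| ∧
        ‖lad l 1 f r - lad l 1 f r'‖ ≤ C * P * |r - r'| ∧
        ‖lad l 1 g r - lad l 1 g r'‖ ≤ C * P * |r - r'| := by
  obtain ⟨L, hL0, hL⟩ : ∃ L : ℝ, 0 ≤ L ∧ L0 ≤ L := ⟨|L0|, abs_nonneg _, le_abs_self _⟩
  obtain ⟨K, hK⟩ : ∃ K : ℝ, K = 17 + 2 * L ^ 2 + 10 * L := ⟨_, rfl⟩
  have hK1 : 1 ≤ K := by rw [hK]; nlinarith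
  obtain ⟨B, hB⟩ : ∃ B : ℝ, B = 2 * Real.exp K := ⟨_, rfl⟩
  have hB0 : 0 ≤ B := by rw [hB]; positivity
  have hKB : 0 ≤ K * B := by positivity
  have hLB : 0 ≤ L * B := by positivity
  refine ⟨2 * B + (K * B + 1) + 2 * L * B, by positivity, ?_⟩
  intro ε m om σ w hc l z f g p q h hLb P hP hpq hd
  have e0 := hc.e0
  have e1 := hc.e1
  have s0 := hc.s0
  have s1 := hc.s1
  have a1 : 3 ≤ 2 * Real.sqrt (σ + ε) := by
    have : (3 / 2 : ℝ) ≤ Real.sqrt (σ + ε) := Real.le_sqrt_of_sq_le (by linarith)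
    linarith
  have a2 : 2 * Real.sqrt (σ + ε) ≤ 3.4 := by
    have : Real.sqrt (σ + ε) ≤ 1.7 := Real.sqrt_le_iff.2 ⟨by norm_num, by norm_num; linarith⟩
    linarith
  have hsq := Lb_sq l z
  have hLb1 := one_le_Lb l z
  have hLL : Lb l z ^ 2 ≤ L ^ 2 := pow_le_pow_left₀ (by linarith) (hLb.trans hL) 2
  have hl : (l : ℝ) ≤ L := by
    refine (abs_le_of_sq_le_sq' ?_ hL0).2
    linarith [norm_nonneg z]
  have hz : ‖z‖ ≤ L ^ 2 := by nlinarith [sq_nonneg (l : ℝ)]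
  have ha : ‖(aa m : ℂ)‖ ≤ 1 := by
    have : (1 : ℝ) ≤ m := by exact_mod_cast hc.prof.m_pos
    rw [norm_real, aa, Real.norm_of_nonneg (by positivity), div_le_one (by linarith)]
    linarith
  have ho : ‖I * (om : ℂ)‖ ≤ 1 := by
    rw [norm_mul, norm_I, one_mul, norm_real, Real.norm_of_nonneg (by linarith [hc.o0])]
    linarith [hc.o1]
  have u1 : ‖z + aa m - I * om‖ ≤ L ^ 2 + 2 := by
    linarith [norm_sub_le (z + aa m) (I * om), norm_add_le z (aa m)]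
  have u2 : ‖z + aa m + I * om‖ ≤ L ^ 2 + 2 := by
    linarith [norm_add_le (z + aa m) (I * om), norm_add_le z (aa m)]
  have hV : ∀ t ∈ Set.Icc (2 * Real.sqrt (σ + ε)) 3.46,
      ‖V1 m w (t ^ 2 / 4)‖ ≤ 1 ∧ ‖V2 m w (t ^ 2 / 4)‖ ≤ 1 := by
    intro t ht
    have hs : σ + ε ≤ t ^ 2 / 4 := by
      have := pow_le_pow_left₀ (by linarith) ht.1 2
      rw [mul_pow, Real.sq_sqrt (by linarith)] at this
      linarith
    have := hc.good.ext 0 (by norm_num) _ hs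
    simp only [iteratedDeriv_zero] at this
    have h1 : (t ^ 2 / 4) ^ (-1 - ((0 : ℕ) : ℝ)) ≤ 1 :=
      Real.rpow_le_one_of_one_le_of_nonpos (by linarith) (by norm_num)
    have h2 : ε * (t ^ 2 / 4) ^ (-1 - ((0 : ℕ) : ℝ)) ≤ 1 :=
      (mul_le_of_le_one_right e0.le h1).trans (by linarith)
    exact ⟨this.1.trans h2, this.2.trans h2⟩
  have key := cgron_abs (a := 2 * Real.sqrt (σ + ε)) (b := 3.46) (t0 := 3.4) (K := K)
    (a1 := fun t => -(11 / (t : ℂ)) - I * t / 2)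
    (a2 := fun t => (l : ℂ) * (l + 10) / (t : ℂ) ^ 2 - I * (z + aa m - I * om)
      + V1 m w (t ^ 2 / 4))
    (a3 := fun t => V2 m w (t ^ 2 / 4))
    (b1 := fun t => -(11 / (t : ℂ)) - -I * t / 2)
    (b2 := fun t => (l : ℂ) * (l + 10) / (t : ℂ) ^ 2 - -I * (z + aa m + I * om)
      + V1 m w (t ^ 2 / 4))
    (b3 := fun t => conj (V2 m w (t ^ 2 / 4)))
    (p := fun t => I * p t) (q := fun t => -I * q t) h.1.1 h.2.1.1 hP hK1 (by linarith)
    (fun t ht => by linear_combination h.2.2.1 t (by linarith [ht.1]))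
    (fun t ht => by linear_combination h.2.2.2 t (by linarith [ht.1]))
    (fun t ht => hK ▸ cgron_coef hl (by linarith [ht.1]) (by linarith [ht.2]) norm_I u1
      (hV t ht).1 (hV t ht).2)
    (fun t ht => hK ▸ cgron_coef hl (by linarith [ht.1]) (by linarith [ht.2]) (by simp) u2
      (hV t ht).1 (by rw [Complex.norm_conj]; exact (hV t ht).2))
    (fun t ht => by simpa using (hpq t ht).1) (fun t ht => by simpa using (hpq t ht).2)
    ⟨a2, by norm_num⟩ hd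
  rw [← hB] at key
  have D0 : ∀ {f : ℝ → ℂ}, ContDiff ℝ 16 f → ∀ r, HasDerivAt f (deriv f r) r := fun hf r =>
    (hf.differentiable (by norm_num) r).hasDerivAt
  have c1 : 2 * (B * P) ≤ (2 * B + (K * B + 1) + 2 * L * B) * P := by
    rw [← mul_assoc]
    exact mul_le_mul_of_nonneg_right (by linarith) hP
  have c2 : (K * B + 1) * P + 2 * L * (B * P) ≤ (2 * B + (K * B + 1) + 2 * L * B) * P := by
    nlinarith [mul_nonneg hB0 hP]
  have hBP : 0 ≤ B * P := mul_nonneg hB0 hP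
  intro r hr
  refine ⟨?_, fun r' hr' => ⟨?_, ?_, ?_, ?_⟩⟩
  · obtain ⟨⟨n1, n2, -⟩, n3, n4, -⟩ := key r hr
    have q1 := pow_le_pow_left₀ (norm_nonneg _) n1 2
    have q2 := pow_le_pow_left₀ (norm_nonneg _) n2 2
    have q3 := pow_le_pow_left₀ (norm_nonneg _) n3 2
    have q4 := pow_le_pow_left₀ (norm_nonneg _) n4 2
    have q5 := pow_le_pow_left₀ (by positivity) c1 2
    simp only [dat, ee, en, one_pow, one_mul]
    linarith [mul_pow 2 (B * P) 2]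
  · exact (cgron_lip (fun t _ => D0 h.1.1 t) (fun t ht => (key t ht).1.2.1) hr hr').trans
      (mul_le_mul_of_nonneg_right (by linarith) (abs_nonneg _))
  · exact (cgron_lip (fun t _ => D0 h.2.1.1 t) (fun t ht => (key t ht).2.2.1) hr hr').trans
      (mul_le_mul_of_nonneg_right (by linarith) (abs_nonneg _))
  · exact (cgron_lad h.1.1 l (by linarith) hl (fun t ht => (key t ht).1) hr hr').trans
      (mul_le_mul_of_nonneg_right c2 (abs_nonneg _))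
  · exact (cgron_lad h.2.1.1 l (by linarith) hl (fun t ht => (key t ht).2) hr hr').trans
      (mul_le_mul_of_nonneg_right c2 (abs_nonneg _))

end Vale.Agent.P139
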