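import Vale.Agent.P139.CInt2
import Vale.Agent.P139.CGron
import Vale.Agent.P139.CCoef
import Vale.Agent.P139.CAT
import Vale.Agent.P139.CUniq

open Complex MeasureTheory Filter Topology
open scoped ComplexConjugate ContDiff

namespace Vale.Agent.P139

theorem cbc_dat (f g : ℝ → ℂ) (r : ℝ) : ‖f r‖ ^ 2 + ‖g r‖ ^ 2 ≤ dat f g r := by
  unfold dat ee en
  have h1 := sq_nonneg ‖deriv f r‖
  have h2 := sq_nonneg ‖deriv g r‖
  linarith

theorem cbc_cA (w f g : ℝ → ℂ) (κ : ℂ) (r : ℝ) :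
    cA w (fun r => κ * f r) (fun r => κ * g r) r = κ * cA w f g r := by
  unfold cA
  ring

theorem cbc_cT (w f g : ℝ → ℂ) (κ : ℂ) (r : ℝ) :
    cT w (fun r => κ * f r) (fun r => κ * g r) r = κ * cT w f g r := by
  unfold cT
  ring

theorem cbc_int {h F : ℝ → ℂ} {κ : ℂ} (hκ : ‖κ‖ ≤ 1) (hF : ∀ r, F r = κ * h r) {y : ℝ}
    (hy : 0 ≤ y) : ∫ r in (0 : ℝ)..y, r ^ 11 * ‖F r‖ ^ 2 ≤ ∫ r in (0 : ℝ)..y, r ^ 11 * ‖h r‖ ^ 2 := by
  have e : (fun r : ℝ => r ^ 11 * ‖F r‖ ^ 2) = fun r : ℝ => ‖κ‖ ^ 2 * (r ^ 11 * ‖h r‖ ^ 2) := by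
    funext r
    rw [hF, norm_mul]
    ring
  rw [e, intervalIntegral.integral_const_mul]
  have h0 : 0 ≤ ∫ r in (0 : ℝ)..y, r ^ 11 * ‖h r‖ ^ 2 :=
    intervalIntegral.integral_nonneg hy fun r hr => by
      have := hr.1
      positivity
  have h1 : ‖κ‖ ^ 2 ≤ 1 := pow_le_one₀ (norm_nonneg _) hκ
  exact (mul_le_mul_of_nonneg_right h1 h0).trans_eq (one_mul _)

/-- the ladder boundary expression in terms of the phase variable -/
theorem cbc_phase {w f g : ℝ → ℂ} (hw : Differentiable ℝ w) (hf : Differentiable ℝ f)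
    (hg : Differentiable ℝ g) (l : ℕ) {r s : ℝ} (hs : r ^ 2 / 4 = s) (h0 : w s ≠ 0) :
    lad l 1 f r / w s - lad l 1 g r / conj (w s) =
      2 * I * (deriv (cT w f g) r - (l : ℂ) / r * cT w f g r)
        + (f r / w s * (deriv w s * (r / 2 : ℝ) / w s)
          - g r / conj (w s) * conj (deriv w s * (r / 2 : ℝ) / w s)) := by
  have d0 : HasDerivAt (fun t : ℝ => t ^ 2 / 4) (r / 2) r := by
    refine ((hasDerivAt_pow 2 r).div_const 4).congr_deriv ?_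
    norm_num
    ring
  have d1 : HasDerivAt (cW w) (deriv w s * (r / 2 : ℝ)) r := by
    have d2 : HasDerivAt w (deriv w s) (r ^ 2 / 4) := by
      rw [hs]
      exact (hw s).hasDerivAt
    refine (d2.scomp r d0).congr_deriv ?_
    rw [Complex.real_smul, mul_comm]
  have d2 : HasDerivAt (fun t => conj (cW w t)) (conj (deriv w s * (r / 2 : ℝ))) r := d1.star
  have eW : cW w r = w s := by rw [cW, hs]
  have h0' : conj (w s) ≠ 0 := (map_ne_zero _).2 h0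
  have d3 := ((((hf r).hasDerivAt.div d1 (by rw [eW]; exact h0)).sub
    ((hg r).hasDerivAt.div d2 (by rw [eW]; exact h0'))).div_const (2 * I)).deriv
  have d4 : deriv (cT w f g) r = ((deriv f r * cW w r - f r * (deriv w s * (r / 2 : ℝ))) /
      cW w r ^ 2 - (deriv g r * conj (cW w r) - g r * conj (deriv w s * (r / 2 : ℝ))) /
      conj (cW w r) ^ 2) / (2 * I) := d3
  have hI : I ≠ 0 := I_ne_zero
  rw [d4, cT, eW, map_div₀]
  simp only [lad, Nat.cast_zero, add_zero]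
  generalize conj (deriv w s * (r / 2 : ℝ)) = c at *
  generalize deriv w s * (r / 2 : ℝ) = c' at *
  generalize conj (w s) = v at *
  generalize (l : ℂ) / r = k
  field_simp
  ring

theorem cbc_err {a b c v : ℂ} {ε : ℝ} (hv : 1 / 2 ≤ ‖v‖) (hc : ‖c‖ ≤ 4 * ε * ‖v‖) :
    ‖a / v * (c / v) - b / conj v * conj (c / v)‖ ≤ 8 * ε * (‖a‖ + ‖b‖) := by
  have v0 : 0 < ‖v‖ := by linarith
  have h1 : ‖c / v‖ ≤ 4 * ε := by
    rw [norm_div, div_le_iff₀ v0]
    exact hc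
  have h2 : ∀ x : ℂ, ‖x‖ / ‖v‖ ≤ 2 * ‖x‖ := fun x => by
    rw [div_le_iff₀ v0]
    have := mul_le_mul_of_nonneg_left hv (norm_nonneg x)
    linarith
  have h3 : ∀ x : ℂ, ‖x‖ / ‖v‖ * ‖c / v‖ ≤ 2 * ‖x‖ * (4 * ε) := fun x =>
    mul_le_mul (h2 x) h1 (norm_nonneg _) (by positivity)
  refine (norm_sub_le _ _).trans ?_
  rw [norm_mul, norm_mul, norm_conj, norm_div a, norm_div b, norm_conj]
  have h4 := h3 a
  have h5 := h3 b
  linarith

theorem bc_approx (L0 : ℝ) : ∃ ε0 C : ℝ, 0 < ε0 ∧ 0 ≤ C ∧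
    ∀ {ε : ℝ} {m : ℕ} {om σ : ℝ} {w : ℝ → ℂ}, Ctx ε m om σ w → ε ≤ ε0 →
    ∀ {l : ℕ} {z z0 κ : ℂ} {f g e1 e2 : ℝ → ℂ}, RSol m om w l z0 e1 e2 0 0 →
    RSol m om w l z f g (fun r => κ * e1 r) (fun r => κ * e2 r) → Lb l z ≤ L0 → Lb l z0 ≤ L0 →
    ‖κ‖ ≤ 1 → ‖D4 f g‖ ≤ 1 → ‖D4 e1 e2‖ ≤ 1 →
      ‖f (2 * Real.sqrt (σ + ε)) / w (σ + ε)
          + g (2 * Real.sqrt (σ + ε)) / conj (w (σ + ε))‖ ^ 2 ≤ C * Real.sqrt ε ∧
      ‖lad l 1 f (2 * Real.sqrt (σ + ε)) / w (σ + ε)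
          - lad l 1 g (2 * Real.sqrt (σ + ε)) / conj (w (σ + ε))‖ ^ 2 ≤ C * Real.sqrt ε := by
  obtain ⟨Cg, Cg0, Hg⟩ := gron L0
  obtain ⟨Ca, Ca0, Ha⟩ := at_comp
  obtain ⟨εe, Ce, εe0, Ce0, He⟩ := int_en L0
  obtain ⟨εb, Cb, εb0, Cb0, Hb⟩ := int_bc L0
  obtain ⟨D, hD⟩ : ∃ D : ℝ, D = (Cg * (Cg + 1)) ^ 2 := ⟨_, rfl⟩
  obtain ⟨Pe, hPe⟩ : ∃ Pe : ℝ, Pe = Ca * (Cg * 1) ^ 2 := ⟨_, rfl⟩
  obtain ⟨P, hP⟩ : ∃ P : ℝ, P = Ca * D + Ce * Pe := ⟨_, rfl⟩
  have D0 : 0 ≤ D := by rw [hD]; positivity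
  have Pe0 : 0 ≤ Pe := by rw [hPe]; positivity
  have P1 : 0 ≤ Ca * D := by positivity
  have P2 : 0 ≤ Ce * Pe := by positivity
  have P0 : 0 ≤ P := by rw [hP]; positivity
  refine ⟨min εe εb, 8 * (Cb * P) + 256 * D, lt_min εe0 εb0, by positivity, ?_⟩
  intro ε m om σ w hx hε l z z0 κ f g e1 e2 he hs hL hL0 hκ hd hde
  have hc := hx.cf
  have e0 := hx.e0
  have ε1 := hx.e1
  have s0 := hx.s0
  have s1 := hx.s1
  have hr2 : (2 * Real.sqrt (σ + ε)) ^ 2 / 4 = σ + ε := by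
    rw [mul_pow, Real.sq_sqrt (by linarith)]
    ring
  have g1 := Hg hx he hL0 1 zero_le_one (fun r _ => by simp) (by
    rw [← norm_D4]
    exact pow_le_pow_left₀ (norm_nonneg _) hde 2)
  have g2 := Hg hx hs hL (Cg + 1) (by positivity) (fun r hr => by
    have h1 := (cbc_dat e1 e2 r).trans (g1 r hr).1
    rw [mul_one] at h1
    have h2 : ‖e1 r‖ ≤ Cg := (pow_le_pow_iff_left₀ (norm_nonneg _) Cg0 two_ne_zero).1 (by
      have := sq_nonneg ‖e2 r‖; linarith)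
    have h3 : ‖e2 r‖ ≤ Cg := (pow_le_pow_iff_left₀ (norm_nonneg _) Cg0 two_ne_zero).1 (by
      have := sq_nonneg ‖e1 r‖; linarith)
    have h4 := mul_le_mul hκ h2 (norm_nonneg _) zero_le_one
    have h5 := mul_le_mul hκ h3 (norm_nonneg _) zero_le_one
    rw [norm_mul, norm_mul]
    constructor <;> linarith) (by
    rw [← norm_D4]
    exact pow_le_pow_left₀ (norm_nonneg _) (by linarith) 2)
  generalize 2 * Real.sqrt (σ + ε) = rp at *
  have r0 : 3.2 ≤ rp := hc.r0.trans hc.r1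
  have r3 := hc.r3
  have hp : 0 ≤ rp := by linarith
  have m1 : rp ∈ Set.Icc rp 3.46 := ⟨le_rfl, by linarith⟩
  have m2 : rp ∈ Set.Icc (0 : ℝ) 3.46 := ⟨hp, by linarith⟩
  have df : Differentiable ℝ f := hs.1.1.differentiable (by norm_num)
  have dg : Differentiable ℝ g := hs.2.1.1.differentiable (by norm_num)
  have de1 : Differentiable ℝ e1 := he.1.1.differentiable (by norm_num)
  have de2 : Differentiable ℝ e2 := he.2.1.1.differentiable (by norm_num)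
  have a1 : ee 1 (cA w e1 e2) (cT w e1 e2) rp ≤ Pe := by
    rw [hPe]
    exact (Ha hx e1 e2 de1 de2 1 le_rfl rp m2).2.1.trans
      (mul_le_mul_of_nonneg_left (g1 rp m1).1 Ca0)
  have b0 : dat f g rp ≤ D := by
    rw [hD]
    exact (g2 rp m1).1
  have a2 : ee 1 (cA w f g) (cT w f g) rp ≤ Ca * D :=
    (Ha hx f g df dg 1 le_rfl rp m2).2.1.trans (mul_le_mul_of_nonneg_left b0 Ca0)
  obtain ⟨-, i1, i2⟩ := He hc (hε.trans (min_le_left _ _))
    (asol_of_sol hx.prof he continuous_zero continuous_zero) hL0 Pe Pe0 a1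
    (by simpa [cT] using Pe0) (by simpa [cA] using mul_nonneg e0.le Pe0)
  obtain ⟨j1, j2⟩ := Hb hc (hε.trans (min_le_right _ _))
    (asol_of_sol hx.prof hs (continuous_const.mul de1.continuous)
      (continuous_const.mul de2.continuous)) hL P P0 (by linarith)
    ((cbc_int hκ (cbc_cT w e1 e2 κ) hp).trans (by linarith))
    ((cbc_int hκ (cbc_cA w e1 e2 κ) hp).trans (by
      have := mul_nonneg e0.le P1
      rw [hP]
      linarith))
  have q0 := Real.sqrt_nonneg ε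
  have q1 : 0 ≤ Cb * Real.sqrt ε * P := by positivity
  have q2 : 0 ≤ D * Real.sqrt ε := by positivity
  constructor
  · have e : f rp / w (σ + ε) + g rp / conj (w (σ + ε)) = 2 * cA w f g rp := by
      rw [cA, cW, hr2]
      ring
    rw [e, norm_mul, mul_pow, Complex.norm_ofNat]
    linarith
  · have w1 := hx.good.lo (σ + ε) ⟨by linarith, by linarith⟩
    have w2 := hx.good.flat (σ + ε) ⟨by linarith, le_rfl⟩
    have w0 : w (σ + ε) ≠ 0 := hx.prof.ne _ (by linarith)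
    have w3 : ‖deriv w (σ + ε) * (rp / 2 : ℝ)‖ ≤ 4 * ε * ‖w (σ + ε)‖ := by
      rw [norm_mul, Complex.norm_real, Real.norm_of_nonneg (by linarith)]
      have := mul_le_mul w2 (show rp / 2 ≤ 2 by linarith) (by linarith) (by positivity)
      linarith
    have k1 := cbc_err (a := f rp) (b := g rp) w1 w3
    rw [cbc_phase (hx.prof.smooth.differentiable (by simp)) df dg l hr2 w0]
    have k2 := (norm_add_le (2 * I * (deriv (cT w f g) rp - (l : ℂ) / rp * cT w f g rp)) _).trans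
      (add_le_add le_rfl k1)
    rw [norm_mul, norm_mul, Complex.norm_ofNat, Complex.norm_I, mul_one] at k2
    refine (pow_le_pow_left₀ (norm_nonneg _) k2 2).trans ?_
    have k3 := (cbc_dat f g rp).trans b0
    have k4 : ε ^ 2 ≤ Real.sqrt ε := by
      refine Real.le_sqrt_of_sq_le ?_
      have k5 : ε ^ 3 ≤ 1 := pow_le_one₀ e0.le (by linarith)
      have k6 := mul_le_mul_of_nonneg_left k5 e0.le
      linarith
    have k5 : (‖f rp‖ + ‖g rp‖) ^ 2 ≤ 2 * D := by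
      have := sq_nonneg (‖f rp‖ - ‖g rp‖)
      linarith
    have k6 := mul_le_mul k4 k5 (sq_nonneg _) q0
    have k7 := sq_nonneg (2 * ‖deriv (cT w f g) rp - (l : ℂ) / rp * cT w f g rp‖
      - 8 * ε * (‖f rp‖ + ‖g rp‖))
    linarith

end Vale.Agent.P139
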