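import Vale.Agent.P139.OLad

open Complex MeasureTheory Filter Topology
open scoped ComplexConjugate ContDiff

namespace Vale.Agent.P139

/-- power bound on the half line -/
def OBd (σ : ℝ) (u : ℝ → ℂ) : Prop := ∃ C, 0 ≤ C ∧ ∀ s : ℝ, 1 / 4 ≤ s → ‖u s‖ ≤ C * s ^ (-σ)

variable {σ σ' τ : ℝ} {u v : ℝ → ℂ}

theorem OBd.congr (h : OBd σ u) (e : ∀ s, 0 < s → v s = u s) : OBd σ v :=
  let ⟨C, h0, h1⟩ := h
  ⟨C, h0, fun s hs => (e s (by linarith)).symm ▸ h1 s hs⟩

theorem OBd.mono (h : OBd σ u) (e : σ' ≤ σ) : OBd σ' u := by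
  obtain ⟨C, h0, h1⟩ := h
  refine ⟨C * (1 / 4) ^ (σ' - σ), by positivity, fun s hs => (h1 s hs).trans ?_⟩
  have s0 : 0 < s := by linarith
  rw [show -σ = σ' - σ + -σ' by ring, Real.rpow_add s0, ← mul_assoc]
  exact mul_le_mul_of_nonneg_right (mul_le_mul_of_nonneg_left
    (Real.rpow_le_rpow_of_nonpos (by norm_num) hs (sub_nonpos.2 e)) h0) (by positivity)

theorem OBd.add (h : OBd σ u) (h' : OBd σ v) : OBd σ fun s => u s + v s :=
  let ⟨C, h0, h1⟩ := h
  let ⟨C', h2, h3⟩ := h'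
  ⟨C + C', by positivity, fun s hs =>
    (norm_add_le _ _).trans (by rw [add_mul]; exact add_le_add (h1 s hs) (h3 s hs))⟩

theorem OBd.mul (h : OBd σ u) (h' : OBd σ' v) (e : τ ≤ σ + σ') : OBd τ fun s => u s * v s := by
  obtain ⟨C, h0, h1⟩ := h
  obtain ⟨C', h2, h3⟩ := h'
  refine OBd.mono ⟨C * C', by positivity, fun s hs => ?_⟩ e
  have s0 : 0 < s := by linarith
  rw [norm_mul, neg_add, Real.rpow_add s0, mul_mul_mul_comm]
  exact mul_le_mul (h1 s hs) (h3 s hs) (norm_nonneg _) (by positivity)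

theorem OBd.const (c : ℂ) : OBd 0 fun _ => c := ⟨‖c‖, norm_nonneg _, fun s _ => by simp⟩

theorem OBd.cmul (h : OBd σ u) (c : ℂ) : OBd σ fun s => c * u s :=
  (OBd.const c).mul h (zero_add _).ge

theorem OBd.sub (h : OBd σ u) (h' : OBd σ v) : OBd σ fun s => u s - v s :=
  (h.add (h'.cmul (-1))).congr fun s _ => by ring

theorem OBd.conj (h : OBd σ u) : OBd σ fun s => conj (u s) :=
  let ⟨C, h0, h1⟩ := h
  ⟨C, h0, fun s hs => by rw [norm_conj]; exact h1 s hs⟩

theorem OBd.of_norm (h : ∀ s, 0 < s → ‖u s‖ = s ^ (-σ)) : OBd σ u :=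
  ⟨1, zero_le_one, fun s hs => by rw [one_mul, h s (by linarith)]⟩

theorem OBd.id : OBd (-1) fun s => (s : ℂ) :=
  OBd.of_norm fun s hs => by simp [abs_of_pos hs]

theorem OBd.inv : OBd 1 fun s => (s : ℂ)⁻¹ :=
  OBd.of_norm fun s hs => by simp [abs_of_pos hs, Real.rpow_neg_one]

theorem OBd.int_aux {F F' : ℝ → ℂ} (hF : ∀ s, 0 < s → HasDerivAt F (F' s) s) {C κ : ℝ}
    (hκ : κ ≠ 0) (h : ∀ s : ℝ, 1 / 4 ≤ s → ‖F' s‖ ≤ C * s ^ (κ - 1)) {a b : ℝ} (ha : 1 / 4 ≤ a)
    (hab : a ≤ b) : ‖F b - F a‖ ≤ C / κ * (b ^ κ - a ^ κ) := by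
  have p : ∀ x ∈ Set.Icc a b, 0 < x := fun x hx => by linarith [hx.1]
  have d : ∀ x ∈ Set.Icc a b, HasDerivAt (fun t : ℝ => C / κ * (t ^ κ - a ^ κ))
      (C * x ^ (κ - 1)) x := fun x hx =>
    (((Real.hasDerivAt_rpow_const (Or.inl (p x hx).ne')).sub_const _).const_mul _).congr_deriv
      (by field_simp)
  exact image_norm_le_of_norm_deriv_right_le_deriv_boundary' (f := fun t => F t - F a) (f' := F')
    (B := fun t : ℝ => C / κ * (t ^ κ - a ^ κ)) (B' := fun x => C * x ^ (κ - 1))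
    (fun x hx => ((hF x (p x hx)).sub_const _).continuousAt.continuousWithinAt)
    (fun x hx => ((hF x (p x (Set.Ico_subset_Icc_self hx))).sub_const _).hasDerivWithinAt)
    (by simp) (fun x hx => (d x hx).continuousAt.continuousWithinAt)
    (fun x hx => (d x (Set.Ico_subset_Icc_self hx)).hasDerivWithinAt)
    (fun x hx => h x (ha.trans hx.1)) ⟨hab, le_rfl⟩

theorem OBd.int1 {F F' : ℝ → ℂ} (hF : ∀ s, 0 < s → HasDerivAt F (F' s) s) {κ ν : ℝ} (hκ : 0 < κ)
    (h : OBd (κ + 1) F') (hν : 0 < ν) (h' : OBd ν F) : OBd κ F := by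
  obtain ⟨C, h0, h1⟩ := h
  obtain ⟨C', -, h3⟩ := h'
  refine ⟨C / κ, by positivity, fun s hs => ?_⟩
  have t : Tendsto (fun T : ℝ => C' * T ^ (-ν) + C / κ * s ^ (-κ)) atTop
      (𝓝 (C' * 0 + C / κ * s ^ (-κ))) :=
    ((tendsto_rpow_neg_atTop hν).const_mul _).add_const _
  rw [mul_zero, zero_add] at t
  refine ge_of_tendsto t ?_
  filter_upwards [eventually_ge_atTop s] with T hT
  have a1 := OBd.int_aux hF (κ := -κ) (C := C) (by linarith)
    (fun s hs => (h1 s hs).trans_eq (by congr 2; ring)) hs hT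
  have a2 := h3 T (hs.trans hT)
  have a3 := norm_sub_le (F T) (F T - F s)
  have a4 : 0 ≤ C / κ * T ^ (-κ) := by
    have : 0 < T := by linarith
    positivity
  rw [sub_sub_cancel] at a3
  rw [div_neg, neg_mul, ← mul_neg, neg_sub, mul_sub] at a1
  linarith

theorem OBd.int2 {F F' : ℝ → ℂ} (hF : ∀ s, 0 < s → HasDerivAt F (F' s) s) {κ : ℝ} (hκ : 0 < κ)
    (h : OBd (1 - κ) F') : OBd (-κ) F := by
  obtain ⟨C, h0, h1⟩ := h
  refine ((OBd.const (F (1 / 4))).mono (by linarith)).add (v := fun s => F s - F (1 / 4))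
    ⟨C / κ, by positivity, fun s hs => ?_⟩ |>.congr fun s _ => by ring
  refine (OBd.int_aux hF hκ.ne' (fun s hs => (h1 s hs).trans_eq (by rw [neg_sub])) le_rfl
    hs).trans ?_
  rw [neg_neg]
  gcongr
  exact sub_le_self _ (by positivity)

theorem OBd.weight (ε : ℝ) (β : ℂ) : ∃ P : ℝ → ℂ,
    (∀ s : ℝ, 0 < s → HasDerivAt P ((I * ε + β / s) * P s) s) ∧ OBd (-β.re) P ∧
      (∀ s, P s ≠ 0) ∧ OBd β.re fun s => (P s)⁻¹ := by
  have n : ∀ s : ℝ, 0 < s → ‖exp (I * ε * s + β * (Real.log s : ℝ))‖ = s ^ β.re := fun s hs => by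
    rw [norm_exp, Real.rpow_def_of_pos hs]
    simp [mul_comm]
  refine ⟨fun s => exp (I * ε * s + β * (Real.log s : ℝ)), fun s hs => ?_,
    OBd.of_norm fun s hs => by rw [neg_neg, n s hs], fun s => exp_ne_zero _,
    OBd.of_norm fun s hs => by rw [norm_inv, n s hs, Real.rpow_neg hs.le]⟩
  exact ((((hasDerivAt_id s).ofReal_comp.const_mul (I * ε)).add
    ((Real.hasDerivAt_log hs.ne').ofReal_comp.const_mul β)).cexp).congr_deriv
    (by simp [mul_comm, div_eq_mul_inv])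

theorem OBd.ode1 {D D' H : ℝ → ℂ} {β : ℂ} {μ ν : ℝ} (hD : ∀ s, 0 < s → HasDerivAt D (D' s) s)
    (e : ∀ s : ℝ, 0 < s → D' s + (I + β / s) * D s = H s) (hH : OBd (μ + 1) H) (h : OBd ν D)
    (h1 : β.re < ν) (h2 : β.re < μ) : OBd μ D := by
  obtain ⟨P, p1, p2, p3, p4⟩ := OBd.weight 1 β
  have := OBd.int1 (F := fun s => P s * D s) (F' := fun s => P s * H s) (κ := μ - β.re)
    (ν := ν - β.re) (fun s hs => ((p1 s hs).mul (hD s hs)).congr_deriv (by
      rw [← e s hs]; push_cast; ring)) (by linarith) (p2.mul hH (by linarith)) (by linarith)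
    (p2.mul h (by linarith))
  exact (p4.mul this (by linarith)).congr fun s _ => (inv_mul_cancel_left₀ (p3 s) _).symm

theorem OBd.ode2 {D D' H : ℝ → ℂ} {β : ℂ} {μ : ℝ} (hD : ∀ s, 0 < s → HasDerivAt D (D' s) s)
    (e : ∀ s : ℝ, 0 < s → D' s + β / s * D s = H s) (hH : OBd (μ + 1) H) (h2 : μ < β.re) :
    OBd μ D := by
  obtain ⟨P, p1, p2, p3, p4⟩ := OBd.weight 0 β
  have := OBd.int2 (F := fun s => P s * D s) (F' := fun s => P s * H s) (κ := β.re - μ)
    (fun s hs => ((p1 s hs).mul (hD s hs)).congr_deriv (by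
      rw [← e s hs]; push_cast; ring)) (by linarith) (p2.mul hH (by linarith))
  exact (p4.mul this (by linarith)).congr fun s _ => (inv_mul_cancel_left₀ (p3 s) _).symm

/-- symbols on the half line -/
def OSy (δ : ℝ) : ℕ → ℝ → (ℝ → ℂ) → Prop
  | 0, σ, u => OBd σ u
  | J + 1, σ, u => OBd σ u ∧ (∀ s, 0 < s → DifferentiableAt ℝ u s) ∧ OSy δ J (σ + δ) (deriv u)

variable {J : ℕ} {δ : ℝ}

theorem OSy.bd (h : OSy δ J σ u) : OBd σ u := by
  cases J
  exacts [h, h.1]

theorem OSy.congr (h : OSy δ J σ u) (e : ∀ s, 0 < s → v s = u s) : OSy δ J σ v := by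
  induction J generalizing σ u v with
  | zero => exact OBd.congr h e
  | succ J ih =>
    have e' : ∀ s, 0 < s → v =ᶠ[𝓝 s] u := fun s hs => by
      filter_upwards [isOpen_Ioi.mem_nhds hs] with t ht using e t ht
    exact ⟨h.1.congr e, fun s hs => (h.2.1 s hs).congr_of_eventuallyEq (e' s hs),
      ih h.2.2 fun s hs => (e' s hs).deriv_eq⟩

theorem OSy.mono (h : OSy δ J σ u) (e : σ' ≤ σ) : OSy δ J σ' u := by
  induction J generalizing σ σ' u with
  | zero => exact OBd.mono h e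
  | succ J ih => exact ⟨h.1.mono e, h.2.1, ih h.2.2 (by linarith)⟩

theorem OSy.pred (h : OSy δ (J + 1) σ u) : OSy δ J σ u := by
  induction J generalizing σ u with
  | zero => exact h.1
  | succ J ih => exact ⟨h.1, h.2.1, ih h.2.2⟩

theorem OSy.add (h : OSy δ J σ u) (h' : OSy δ J σ v) : OSy δ J σ fun s => u s + v s := by
  induction J generalizing σ u v with
  | zero => exact OBd.add h h'
  | succ J ih =>
    exact ⟨h.1.add h'.1, fun s hs => (h.2.1 s hs).add (h'.2.1 s hs),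
      (ih h.2.2 h'.2.2).congr fun s hs => deriv_add (h.2.1 s hs) (h'.2.1 s hs)⟩

theorem OSy.mul (h : OSy δ J σ u) (h' : OSy δ J σ' v) (e : τ ≤ σ + σ') :
    OSy δ J τ fun s => u s * v s := by
  induction J generalizing τ σ σ' u v with
  | zero => exact OBd.mul h h' e
  | succ J ih =>
    exact ⟨h.1.mul h'.1 e, fun s hs => (h.2.1 s hs).mul (h'.2.1 s hs),
      ((ih h.2.2 h'.pred (by linarith)).add (ih h.pred h'.2.2 (by linarith))).congr fun s hs =>
        deriv_mul (h.2.1 s hs) (h'.2.1 s hs)⟩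

theorem OSy.conj (h : OSy δ J σ u) : OSy δ J σ fun s => conj (u s) := by
  induction J generalizing σ u with
  | zero => exact OBd.conj h
  | succ J ih =>
    exact ⟨h.1.conj, fun s hs => (h.2.1 s hs).star, (ih h.2.2).congr fun s _ => deriv.star⟩

theorem OSy.zero : OSy δ J σ fun _ => 0 := by
  have b : ∀ σ, OBd σ fun _ => 0 := fun σ => ⟨0, le_rfl, fun s _ => by simp⟩
  induction J generalizing σ with
  | zero => exact b σ
  | succ J ih => exact ⟨b σ, fun s _ => differentiableAt_const _, ih.congr fun s _ => by simp⟩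

theorem OSy.const (c : ℂ) : OSy δ J 0 fun _ => c := by
  cases J
  · exact OBd.const c
  · exact ⟨OBd.const c, fun s _ => differentiableAt_const _, OSy.zero.congr fun s _ => by simp⟩

theorem OSy.cmul (h : OSy δ J σ u) (c : ℂ) : OSy δ J σ fun s => c * u s :=
  (OSy.const c).mul h (zero_add _).ge

theorem OSy.id : OSy 1 J (-1) fun s => (s : ℂ) := by
  cases J
  · exact OBd.id
  · exact ⟨OBd.id, fun s _ => (hasDerivAt_id s).ofReal_comp.differentiableAt,
      ((OSy.const 1).mono (by norm_num)).congr fun s _ => (hasDerivAt_id s).ofReal_comp.deriv⟩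

theorem OSy.out (h : OSy δ J σ u) (j : ℕ) (hj : j ≤ J) : OBd (σ + δ * j) (iteratedDeriv j u) := by
  induction J generalizing σ u j with
  | zero =>
    obtain rfl := Nat.le_zero.1 hj
    simpa using h.bd
  | succ J ih =>
    cases j with
    | zero => simpa using h.bd
    | succ j =>
      rw [iteratedDeriv_succ']
      exact (ih h.2.2 j (by omega)).mono (by push_cast; linarith)

theorem OSy.intro (hu : ContDiffOn ℝ J u (Set.Ioi 0))
    (h : ∀ j ≤ J, OBd (σ + δ * j) (iteratedDeriv j u)) : OSy δ J σ u := by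
  induction J generalizing σ u with
  | zero => exact (show OBd σ u by simpa using h 0 le_rfl)
  | succ J ih =>
    refine ⟨by simpa using h 0 (Nat.zero_le _), fun s hs => ?_,
      ih (hu.deriv_of_isOpen isOpen_Ioi (by push_cast; exact le_rfl)) fun j hj => ?_⟩
    · simpa using (olad_hasDeriv hu (Nat.succ_pos J) hs).differentiableAt
    · rw [← iteratedDeriv_succ']
      exact (h (j + 1) (by omega)).mono (by push_cast; linarith)

theorem OSy.inv : OSy 0 J 0 fun s => (s : ℂ)⁻¹ := by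
  induction J with
  | zero => exact OBd.inv.mono zero_le_one
  | succ J ih =>
    have d : ∀ s : ℝ, 0 < s → HasDerivAt (fun s : ℝ => (s : ℂ)⁻¹) (-((s : ℂ) ^ 2)⁻¹) s :=
      fun s hs => (hasDerivAt_inv (ofReal_ne_zero.2 hs.ne')).comp_ofReal
    exact ⟨OBd.inv.mono zero_le_one, fun s hs => (d s hs).differentiableAt,
      ((ih.mul ih le_rfl).cmul (-1)).congr fun s hs => (d s hs).deriv.trans (by ring)⟩

end Vale.Agent.P139
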