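import Vale.Agent.P139.SymP
import Vale.Agent.P139.PartOX1

open Complex MeasureTheory Filter Topology
open scoped ComplexConjugate ContDiff

namespace Vale.Agent.P139

theorem partO_step {u R : ℝ → ℂ} {α b : ℂ} {σ : ℝ} (hu : ContDiffOn ℝ 16 u (Set.Ioi 0))
    (ode : ∀ s : ℝ, 0 < s → s * deriv (deriv u) s + (b + I * s) * deriv u s + I * α * u s = R s)
    (h : OSy 1 14 σ u) (hR : OSy 1 14 (σ + 1) R) (h1 : (b - α).re < σ + 14) (h2 : σ + 1 < α.re)
    (h3 : 0 < α.re) : OSy 1 14 (σ + 1) u := by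
  have d : ∀ j < 16, ∀ s : ℝ, 0 < s →
      HasDerivAt (iteratedDeriv j u) (iteratedDeriv (j + 1) u s) s := fun j hj s hs =>
    olad_hasDeriv (N := 16) hu hj hs
  have di : ∀ s : ℝ, HasDerivAt (fun s : ℝ => (s : ℂ)) 1 s := fun s =>
    (hasDerivAt_id s).ofReal_comp
  have dv : ∀ s : ℝ, 0 < s → HasDerivAt (fun s : ℝ => (s : ℂ)⁻¹) (-((s : ℂ) ^ 2)⁻¹) s :=
    fun s hs => (hasDerivAt_inv (ofReal_ne_zero.2 hs.ne')).comp_ofReal
  have dL : ∀ j ≤ 13, ∀ s : ℝ, 0 < s → HasDerivAt (fun s : ℝ => s * iteratedDeriv (j + 2) u s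
      + (b + j + I * s) * iteratedDeriv (j + 1) u s + I * (α + j) * iteratedDeriv j u s)
      (s * iteratedDeriv (j + 1 + 2) u s + (b + (j + 1 : ℕ) + I * s) * iteratedDeriv (j + 1 + 1) u s
        + I * (α + (j + 1 : ℕ)) * iteratedDeriv (j + 1) u s) s := fun j hj s hs =>
    ((((di s).mul (d (j + 2) (by omega) s hs)).add ((((di s).const_mul I).const_add (b + j)).mul
      (d (j + 1) (by omega) s hs))).add ((d j (by omega) s hs).const_mul (I * (α + j)))).congr_deriv
      (by push_cast; ring)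
  have E : ∀ j ≤ 14, ∀ s : ℝ, 0 < s → iteratedDeriv j R s = s * iteratedDeriv (j + 2) u s
      + (b + j + I * s) * iteratedDeriv (j + 1) u s + I * (α + j) * iteratedDeriv j u s := by
    intro j hj
    induction j with
    | zero =>
      intro s hs
      simp [← ode s hs, iteratedDeriv_succ]
    | succ j ih =>
      intro s hs
      rw [iteratedDeriv_succ (f := R), ← (dL j (by omega) s hs).deriv]
      refine Filter.EventuallyEq.deriv_eq ?_
      filter_upwards [isOpen_Ioi.mem_nhds hs] with t ht using ih (by omega) t ht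
  have dR : ∀ s : ℝ, 0 < s → HasDerivAt (iteratedDeriv 13 R) (iteratedDeriv 14 R s) s :=
    fun s hs => by
      rw [E 14 le_rfl s hs]
      refine (dL 13 le_rfl s hs).congr_of_eventuallyEq ?_
      filter_upwards [isOpen_Ioi.mem_nhds hs] with t ht using E 13 (by norm_num) t ht
  have u13 : OBd (σ + 13) (iteratedDeriv 13 u) := (h.out 13 (by norm_num)).mono (by norm_num)
  have u14 : OBd (σ + 14) (iteratedDeriv 14 u) := (h.out 14 le_rfl).mono (by norm_num)
  have r13 : OBd (σ + 14) (iteratedDeriv 13 R) :=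
    (hR.out 13 (by norm_num)).mono (by push_cast; linarith)
  have r14 : OBd (σ + 15) (iteratedDeriv 14 R) := (hR.out 14 le_rfl).mono (by push_cast; linarith)
  have i1 := OBd.inv
  have i2 : OBd 2 fun s : ℝ => (s : ℂ)⁻¹ * (s : ℂ)⁻¹ := i1.mul i1 (by norm_num)
  set y := iteratedDeriv 13 u
  set y1 := iteratedDeriv 14 u
  set y2 := iteratedDeriv 15 u
  set κ := (α + 13) * (b - α - 1)
  set B : ℝ → ℂ := fun s => y1 s + (α + 13) * ((s : ℂ)⁻¹ * y s) with hB
  set G : ℝ → ℂ := fun s => (s : ℂ)⁻¹ * iteratedDeriv 13 R s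
    + κ * ((s : ℂ)⁻¹ * (s : ℂ)⁻¹ * y s) with hG
  set G' : ℝ → ℂ := fun s => (s : ℂ)⁻¹ * iteratedDeriv 14 R s
    - (s : ℂ)⁻¹ * (s : ℂ)⁻¹ * iteratedDeriv 13 R s + κ * ((s : ℂ)⁻¹ * (s : ℂ)⁻¹ * y1 s
      - 2 * ((s : ℂ)⁻¹ * ((s : ℂ)⁻¹ * (s : ℂ)⁻¹ * y s))) with hG'
  have b0 : OBd (σ + 14) B := u14.add ((i1.mul u13 (by linarith)).cmul _)
  have g0 : OBd (σ + 15) G := (i1.mul r13 (by linarith)).add ((i2.mul u13 (by linarith)).cmul _)
  have g1 : OBd (σ + 16) G' := ((i1.mul r14 (by linarith)).sub (i2.mul r13 (by linarith))).add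
    (((i2.mul u14 (by linarith)).sub
      ((i1.mul (i2.mul u13 le_rfl) (by linarith)).cmul 2)).cmul _)
  have dG : ∀ s : ℝ, 0 < s → HasDerivAt G (G' s) s := fun s hs =>
    (((dv s hs).mul (dR s hs)).add ((((dv s hs).mul (dv s hs)).mul
      (d 13 (by norm_num) s hs)).const_mul κ)).congr_deriv (by simp only [hG', Pi.mul_apply]; ring)
  have dB : ∀ s : ℝ, 0 < s → HasDerivAt B (y2 s + (α + 13) * (-((s : ℂ) ^ 2)⁻¹ * y s
      + (s : ℂ)⁻¹ * y1 s)) s := fun s hs =>
    (d 14 (by norm_num) s hs).add (((dv s hs).mul (d 13 (by norm_num) s hs)).const_mul _)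
  have b1 : OBd (σ + 15) fun s => B s + I * G s := by
    refine OBd.ode1 (β := b - α) (fun s hs => (dB s hs).add ((dG s hs).const_mul I))
      (H := fun s => I * G' s + I * (b - α) * ((s : ℂ)⁻¹ * G s)) (fun s hs => ?_)
      (((g1.mono (by linarith)).cmul I).add ((i1.mul g0 (by linarith)).cmul _))
      (b0.add ((g0.mono (by linarith)).cmul I)) h1 (by linarith)
    have e : iteratedDeriv 13 R s = s * y2 s + (b + 13 + I * s) * y1 s + I * (α + 13) * y s := by
      simpa using E 13 (by norm_num) s hs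
    have s0 := mul_inv_cancel₀ (ofReal_ne_zero.2 hs.ne')
    have e' : G s = y2 s + ((b + 13) * (s : ℂ)⁻¹ + I) * y1 s + I * (α + 13) * ((s : ℂ)⁻¹ * y s)
        + κ * ((s : ℂ)⁻¹ * (s : ℂ)⁻¹ * y s) := by
      simp only [hG, e]
      linear_combination (y2 s + I * y1 s) * s0
    simp only [hB, div_eq_mul_inv]
    linear_combination G s * I_mul_I - e'
  have b2 : OBd (σ + 15) B := (b1.sub (g0.cmul I)).congr fun s _ => by ring
  have y0 : OBd (σ + 14) y := OBd.ode2 (β := α + 13) (d 13 (by norm_num)) (H := B)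
    (fun s _ => by simp only [hB, div_eq_mul_inv]; ring) (b2.mono (by linarith))
    (by simp only [add_re, re_ofNat]; linarith)
  have y3 : OBd (σ + 15) y1 :=
    (b2.sub ((i1.mul y0 (by linarith)).cmul (α + 13))).congr fun s _ => by simp only [hB]; ring
  have low : ∀ k j : ℕ, j + k = 13 → OBd (σ + 1 + j) (iteratedDeriv j u) ∧
      OBd (σ + 2 + j) (iteratedDeriv (j + 1) u) := by
    intro k
    induction k with
    | zero =>
      intro j hj
      obtain rfl : j = 13 := hj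
      exact ⟨y0.mono (by push_cast; linarith), y3.mono (by push_cast; linarith)⟩
    | succ k ih =>
      intro j hj
      obtain ⟨a1, a2⟩ := ih (j + 1) (by omega)
      push_cast at a1 a2
      refine ⟨?_, a1.mono (by linarith)⟩
      have a3 : I * (α + j) ≠ 0 := mul_ne_zero I_ne_zero fun h0 => by
        have := congrArg re h0
        simp only [add_re, natCast_re, zero_re] at this
        linarith [Nat.cast_nonneg (α := ℝ) j]
      have a4 : OBd (-1) fun s : ℝ => b + j + I * s :=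
        ((OBd.const _).mono (by norm_num)).add (OBd.id.cmul I)
      refine (((((hR.out j (by omega)).mono (by linarith)).sub (OBd.id.mul a2 (by linarith))).sub
        (a4.mul a1 (by linarith))).cmul (I * (α + j))⁻¹).congr fun s hs => ?_
      rw [E j (by omega) s hs, eq_inv_mul_iff_mul_eq₀ a3]
      ring
  refine OSy.intro (hu.of_le (by exact_mod_cast (by norm_num : 14 ≤ 16))) fun j hj => ?_
  rcases Nat.lt_or_ge j 14 with h4 | h4
  · exact (low (13 - j) j (by omega)).1.mono (by linarith)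
  · obtain rfl : j = 14 := by omega
    exact y3.mono (by push_cast; linarith)

theorem partO_sy {g : ℝ → ℂ} (hg : ContDiff ℝ ∞ g) {σ : ℝ} (hσ : 0 ≤ σ)
    (h : ∀ k : ℕ, ∃ C : ℝ, ∀ s : ℝ, 0 ≤ s → ‖iteratedDeriv k g s‖ ≤ C * (1 + s) ^ (-σ - k))
    (J : ℕ) : OSy 1 J σ g := by
  refine OSy.intro (hg.of_le (by exact_mod_cast le_top)).contDiffOn fun k _ => ?_
  obtain ⟨C, hC⟩ := h k
  refine ⟨|C|, abs_nonneg _, fun s hs => (hC s (by linarith)).trans ?_⟩
  refine mul_le_mul (le_abs_self _) ?_ (by positivity) (abs_nonneg _)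
  rw [show -σ - k = -(σ + 1 * k) by ring]
  exact Real.rpow_le_rpow_of_nonpos (by linarith) (by linarith) (neg_nonpos.2 (by positivity))

theorem partO_src {m : ℕ} {om : ℝ} {w : ℝ → ℂ} (h : Prof m om w) (l : ℕ) (c : Fin 3 → ℂ) :
    OSy 1 14 (l / 2) (ured l (rsp1 m om w l c)) := by
  have a0 := h.aa_pos
  have w0 : OSy 1 15 (aa m) w := partO_sy h.smooth a0.le h.decay 15
  have w1 := w0.2.2
  have e : ∀ s : ℝ, 0 < s → (2 * √s) ^ 2 / 4 = s := fun s hs => by
    rw [mul_pow, Real.sq_sqrt hs.le]; ring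
  rcases l with _ | _ | l
  · refine ((((w0.pred.cmul I).mono (by simpa using a0.le)).cmul (c 0)).add
      (((((w0.pred.cmul ((aa m : ℂ) - I * om)).add (OSy.id.mul w1 (by linarith)))).mono
        (by simpa using a0.le)).cmul (c 2))).congr fun s hs => ?_
    simp [ured, rsp1, Fin.sum_univ_three, rl, rmode, Lam, e s hs]
  · refine ((w1.mono (by push_cast; linarith)).cmul (c 1 / 2)).congr fun s hs => ?_
    have : ((√s : ℝ) : ℂ) ≠ 0 := ofReal_ne_zero.2 (Real.sqrt_pos.2 hs).ne'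
    simp only [ured, rsp1, Fin.sum_univ_three, rl, rmode, e s hs]
    simp
    field_simp
  · refine OSy.zero.congr fun s _ => ?_
    simp [ured, rsp1, Fin.sum_univ_three, rl]

theorem partO_init (l : ℕ) {f : ℝ → ℂ} (hf : Cb1 f) : OSy 1 14 (l / 2 - 7) (ured l f) := by
  obtain ⟨h1, C, h2⟩ := hf
  have a : ∀ k J, J + k ≤ 16 → OSy 0 J 0 (lad l k f) := by
    intro k
    induction k with
    | zero =>
      intro J hJ
      refine OSy.intro (h1.of_le (by exact_mod_cast hJ)).contDiffOn fun j hj =>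
        ⟨|C|, abs_nonneg _, fun s _ => ?_⟩
      simpa [lad] using (h2 j (by omega) s).trans (le_abs_self C)
    | succ k ih =>
      intro J hJ
      have := ih (J + 1) (by omega)
      refine ((this.2.2.mono (by norm_num)).add
        ((OSy.inv.mul this.pred (by norm_num)).cmul (-((l : ℂ) + k)))).congr fun s _ => ?_
      simp only [lad]
      ring
  refine OSy.intro ((ured_smooth l h1).of_le (by exact_mod_cast (by norm_num : 14 ≤ 16)))
    fun j hj => OBd.mono (σ := (l + j : ℕ) / 2) ?_ ?_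
  · obtain ⟨C, c0, c1⟩ := (a j 0 (by omega)).bd
    refine ⟨C * 2 ^ j, by positivity, fun s hs => ?_⟩
    have s0 : 0 < s := by linarith
    have s1 : 0 < √s := Real.sqrt_pos.2 s0
    have s2 : 1 / 2 ≤ √s := Real.le_sqrt_of_sq_le (by linarith)
    have b := c1 (2 * √s) (by linarith)
    rw [lad_eq l h1 j (by omega) (by positivity), mul_pow, Real.sq_sqrt s0.le,
      show 2 ^ 2 * s / 4 = s by ring, neg_zero, Real.rpow_zero, mul_one, norm_mul, norm_div,
      norm_pow, norm_pow, norm_real, Real.norm_of_nonneg (by positivity), Complex.norm_two,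
      div_mul_eq_mul_div, div_le_iff₀ (by positivity)] at b
    rw [Real.rpow_neg s0.le, ← div_eq_mul_inv, le_div_iff₀ (by positivity), mul_comm]
    refine le_trans (mul_le_mul_of_nonneg_right ?_ (norm_nonneg _)) b
    rw [Real.rpow_div_two_eq_sqrt _ s0.le, Real.rpow_natCast]
    exact pow_le_pow_left₀ s1.le (by linarith) _
  · have : (j : ℝ) ≤ 14 := by exact_mod_cast hj
    push_cast
    linarith

theorem partO_fin (l : ℕ) {f : ℝ → ℂ} (hf : ContDiff ℝ 16 f) (h : OSy 1 14 (l / 2) (ured l f))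
    (k : ℕ) : ∃ C, 0 ≤ C ∧ (k ≤ 10 → ∀ r : ℝ, 1 ≤ r → ‖lad l k f r‖ ≤ C * r ^ (1 / 2 - (k : ℝ))) := by
  by_cases hk : k ≤ 10
  swap
  · exact ⟨0, le_rfl, fun h => absurd h hk⟩
  obtain ⟨C, c0, c1⟩ := h.out k (by omega)
  refine ⟨C * 2 ^ (l + k), by positivity, fun _ r hr => ?_⟩
  have r0 : 0 < r := by linarith
  have b := c1 (r ^ 2 / 4) (by nlinarith)
  have e : (r ^ 2 / 4) ^ (-((l : ℝ) / 2 + 1 * k)) = ((r / 2) ^ (l + 2 * k))⁻¹ := by
    rw [show r ^ 2 / 4 = (r / 2) ^ (2 : ℝ) by rw [Real.rpow_two]; ring,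
      ← Real.rpow_mul (by positivity), ← Real.rpow_natCast, ← Real.rpow_neg (by positivity)]
    congr 1; push_cast; ring
  rw [lad_eq l hf k (by omega) r0, norm_mul, norm_div, norm_pow, norm_pow, norm_real,
    Real.norm_of_nonneg r0.le, Complex.norm_two]
  refine (mul_le_mul_of_nonneg_left (b.trans_eq (by rw [e])) (by positivity)).trans ?_
  calc _ = C * 2 ^ (l + k) * r ^ (-(k : ℝ)) := by
        rw [Real.rpow_neg r0.le, Real.rpow_natCast, div_pow]; field_simp; ring
    _ ≤ _ := mul_le_mul_of_nonneg_left (Real.rpow_le_rpow_of_exponent_le hr (by linarith))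
        (by positivity)

theorem partO_conj (l k : ℕ) (g : ℝ → ℂ) :
    lad l k (fun r => conj (g r)) = fun r => conj (lad l k g r) := by
  induction k with
  | zero => rfl
  | succ k ih =>
    funext r
    have : deriv (fun r => conj (lad l k g r)) r = conj (deriv (lad l k g) r) := deriv.star
    simp [lad, ih, this]

/-- a priori decay of bounded radial solutions -/
theorem partO {m : ℕ} {om : ℝ} {w : ℝ → ℂ} (h : Prof m om w) (l : ℕ) (z : ℂ) (hz : 0 ≤ z.re)
    (f g : ℝ → ℂ) (c : Fin 3 → ℂ) (hs : RSol m om w l z f g (rsp1 m om w l c) (rsp2 m om w l c)) :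
    ∃ C : ℝ, ∀ k ≤ 10, ∀ r : ℝ, 1 ≤ r → ‖lad l k f r‖ ≤ C * r ^ (1 / 2 - (k : ℝ)) ∧
      ‖lad l k g r‖ ≤ C * r ^ (1 / 2 - (k : ℝ)) := by
  have a0 := h.aa_pos
  have v1 : OSy 1 14 1 (V1 m w) := partO_sy h.V_smooth.1 zero_le_one
    (fun k => (h.V_decay k).imp fun C hC s hs => (hC s hs).1) 14
  have v2 : OSy 1 14 1 (V2 m w) := partO_sy h.V_smooth.2 zero_le_one
    (fun k => (h.V_decay k).imp fun C hC s hs => (hC s hs).2) 14
  have e : (fun r => conj (rsp2 m om w l c r)) = rsp1 m om w l fun i => conj (c i) := by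
    funext r
    simp only [rsp1, rsp2, map_sum, apply_ite conj, map_mul, conj_conj, map_zero]
  have l0 : (0 : ℝ) ≤ l := Nat.cast_nonneg l
  have H : ∀ k : ℕ, k ≤ 7 → OSy 1 14 (l / 2 - 7 + k) (ured l f) ∧
      OSy 1 14 (l / 2 - 7 + k) (ured l fun r => conj (g r)) := by
    intro k hk
    induction k with
    | zero => simpa using ⟨partO_init l hs.1, partO_init l hs.swap.1⟩
    | succ k ih =>
      obtain ⟨a1, a2⟩ := ih (by omega)
      have k6 : (k : ℝ) ≤ 6 := by exact_mod_cast (by omega : k ≤ 6)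
      have k0 : (0 : ℝ) ≤ k := Nat.cast_nonneg k
      rw [Nat.cast_succ, ← add_assoc]
      refine ⟨partO_step (ured_smooth l hs.1.1) (fun s => ured_ode1 hs) a1
        (((v1.mul a1 (by linarith)).add (v2.mul a2.conj (by linarith))).add
          (((partO_src h l c).mono (by linarith)).cmul I)) ?_ ?_ ?_,
        partO_step (ured_smooth l hs.swap.1.1) (fun s => ured_ode2 hs) a2
        (((v1.mul a2 (by linarith)).add (v2.mul a1.conj (by linarith))).add
          (((e ▸ partO_src h l _ :).mono (by linarith)).cmul I)) ?_ ?_ ?_⟩ <;>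
      simp <;> linarith
  obtain ⟨H1, H2⟩ := H 7 le_rfl
  choose C c0 c1 using partO_fin l hs.1.1 (H1.mono (by push_cast; linarith))
  choose C' c2 c3 using partO_fin l hs.swap.1.1 (H2.mono (by push_cast; linarith))
  refine ⟨∑ k ∈ Finset.range 11, (C k + C' k), fun k hk r hr => ?_⟩
  have b : C k + C' k ≤ ∑ k ∈ Finset.range 11, (C k + C' k) :=
    Finset.single_le_sum (fun k _ => add_nonneg (c0 k) (c2 k)) (Finset.mem_range.2 (by omega))
  have r0 : 0 ≤ r ^ (1 / 2 - (k : ℝ)) := Real.rpow_nonneg (by linarith) _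
  have b3 := c3 k hk r hr
  rw [partO_conj, norm_conj] at b3
  exact ⟨(c1 k hk r hr).trans (mul_le_mul_of_nonneg_right (by linarith [c2 k]) r0),
    b3.trans (mul_le_mul_of_nonneg_right (by linarith [c0 k]) r0)⟩

end Vale.Agent.P139
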