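import Vale.Agent.P139.CLim
import Vale.Agent.P139.PartO

open Complex MeasureTheory Filter Topology
open scoped ComplexConjugate ContDiff

namespace Vale.Agent.P139

theorem HSol.cb_smul {m : ℕ} {om : ℝ} {w : ℝ → ℂ} {l : ℕ} {z : ℂ} {f g : ℝ → ℂ}
    (h : HSol m om w l z f g) (c : ℂ) : HSol m om w l z (fun r => c * f r) fun r => c * g r :=
  ⟨(h.sol.smul c).congr_src (by simp) (by simp), h.re, h.df.smul c, h.dg.smul c⟩

theorem cb_zero (m : ℕ) (om : ℝ) (w : ℝ → ℂ) (l : ℕ) : HSol m om w l 0 0 0 := by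
  have h1 : Cb1 0 := ⟨contDiff_const, 0, fun k _ r => by simp⟩
  have h2 : Dec l 0 := ⟨0, fun k _ r _ => by simp [lad_zero]⟩
  exact ⟨⟨h1, h1, by simp, by simp⟩, le_rfl, h2, h2⟩

theorem cb_ne {m : ℕ} {om : ℝ} {w : ℝ → ℂ} (hP : Prof m om w) {l : ℕ} {z : ℂ} {f g : ℝ → ℂ}
    (h : RSol m om w l z f g 0 0) (hv : ¬ Van f g) : D4 f g ≠ 0 := fun h0 =>
  hv (rsol_uniq hP h (by norm_num : (0 : ℝ) < 3.4) le_rfl
    ((norm_D4 f g).symm.trans (by simp [h0])))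

theorem cb_unit {m : ℕ} {om : ℝ} {w : ℝ → ℂ} (hP : Prof m om w) {l : ℕ} {z : ℂ} {f g : ℝ → ℂ}
    (h : HSol m om w l z f g) (hv : ¬ Van f g) : ∃ f g, HSol m om w l z f g ∧ ‖D4 f g‖ = 1 :=
  ⟨_, _, h.cb_smul (‖D4 f g‖ : ℂ)⁻¹, by rw [D4_smul, norm_smul, norm_inv, norm_real, norm_norm,
    inv_mul_cancel₀ (norm_ne_zero_iff.2 (cb_ne hP h.sol hv))]⟩

theorem cb_dec {m : ℕ} {om : ℝ} {w : ℝ → ℂ} (hP : Prof m om w) {i : Fin 3} {z κ : ℂ}
    (hz : 0 ≤ z.re) {f g : ℝ → ℂ} (h : RSol m om w (rl i) z f g (fun r => κ * rmode m om w i r)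
      fun r => κ * conj (rmode m om w i r)) : Dec (rl i) f ∧ Dec (rl i) g := by
  obtain ⟨C, hC⟩ := partO hP (rl i) z hz f g (Pi.single i κ) (h.congr_src
    (fun r _ => by rw [rsp1, Finset.sum_eq_single i] <;> simp +contextual)
    fun r _ => by rw [rsp2, Finset.sum_eq_single i] <;> simp +contextual)
  exact ⟨⟨C, fun k hk r hr => (hC k hk r hr).1⟩, C, fun k hk r hr => (hC k hk r hr).2⟩

section
variable {ε : ℕ → ℝ} {m : ℕ → ℕ} {om σ : ℕ → ℝ} {w : ℕ → ℝ → ℂ} {om' σ' : ℝ}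

theorem cb_ls {o1 o2 s1 s2 : ℝ} {b1 b2 : ℂ} (hB : Box o1 o2 s1 s2 b1 b2)
    (ctx : ∀ n, Ctx (ε n) (m n) (om n) (σ n) (w n)) (tε : Tendsto ε atTop (𝓝 0))
    (tom : Tendsto om atTop (𝓝 om')) (tσ : Tendsto σ atTop (𝓝 σ')) (ho : om' ∈ Set.Icc o1 o2)
    (hσ : σ' ∈ Set.Icc s1 s2) : LS om' σ' := by
  have h1 : ContinuousAt (fun p : ℂ × ℂ × ℝ => WW p.1 p.2.1 p.2.2) (1 - I * om', 7, σ') :=
    WW_cont.continuousAt (((isOpen_lt continuous_const (continuous_re.comp continuous_fst)).inter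
      (isOpen_lt continuous_const continuous_snd.snd)).mem_nhds
        ⟨by simp, show 0 < σ' by linarith [hB.hs1, hσ.1]⟩)
  exact hB.ls _ ho _ hσ (tendsto_nhds_unique (h1.tendsto.comp
    (((((continuous_ofReal.tendsto _).comp tom).const_mul I).const_sub 1).prodMk_nhds
      (tendsto_const_nhds.prodMk_nhds tσ))) (squeeze_zero_norm (fun n => (ctx n).good.wall) tε))

theorem cb_hom (ctx : ∀ n, Ctx (ε n) (m n) (om n) (σ n) (w n)) (tε : Tendsto ε atTop (𝓝 0))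
    (tom : Tendsto om atTop (𝓝 om')) (tσ : Tendsto σ atTop (𝓝 σ')) {l : ℕ} {z : ℕ → ℂ} {z' : ℂ}
    (tz : Tendsto z atTop (𝓝 z')) {f g : ℕ → ℝ → ℂ}
    (hs : ∀ᶠ n in atTop, HSol (m n) (om n) (w n) l (z n) (f n) (g n))
    {d : EuclideanSpace ℂ (Fin 4)} (td : Tendsto (fun n => D4 (f n) (g n)) atTop (𝓝 d))
    (hD : DD l om' σ' z' ≠ 0) : d = 0 := by
  obtain ⟨N, hN⟩ := eventually_atTop.1 (hs.and (td.norm.eventually (ge_mem_nhds (lt_add_one _))))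
  have t := tendsto_add_atTop_nat N
  have c0 : 0 < ‖d‖ + 1 := by positivity
  have hn := fun n => (hN (n + N) (Nat.le_add_left _ _)).1.cb_smul ((‖d‖ + 1 : ℝ) : ℂ)⁻¹
  have e0 : D4 0 0 = 0 := by
    ext i
    fin_cases i <;> simp [D4]
  have h : Seq l (fun n => ε (n + N)) (fun n => m (n + N)) (fun n => om (n + N))
      (fun n => σ (n + N)) (fun n => w (n + N)) (fun n => z (n + N)) (fun _ => 0) _ _
      (fun _ => 0) (fun _ => 0) om' σ' z' 0 0 (((‖d‖ + 1 : ℝ) : ℂ)⁻¹ • d) 0 :=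
    ⟨fun _ => ctx _, tε.comp t, tom.comp t, tσ.comp t, tz.comp t, tendsto_const_nhds,
      fun _ => cb_zero _ _ _ _, fun n => (hn n).sol.congr_src (by simp) (by simp),
      fun n => (hn n).re, fun n => (hn n).df, fun n => (hn n).dg, by simp, fun n => by
        rw [D4_smul, norm_smul, norm_inv, norm_real, Real.norm_of_nonneg c0.le,
          inv_mul_le_one₀ c0]
        exact (hN (n + N) (Nat.le_add_left _ _)).2, by simp [e0], by
        simp only [D4_smul]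
        exact (td.comp t).const_smul _, by simp [e0]⟩
  exact (smul_eq_zero.1 (lim_nz h hD)).resolve_left (inv_ne_zero (ofReal_ne_zero.2 c0.ne'))

end

theorem cb_eps {ε : ℕ → ℝ} (h0 : ∀ n, 0 < ε n) (h1 : ∀ n, ε n ≤ 1 / ((n : ℝ) + 1)) {φ : ℕ → ℕ}
    (hφ : StrictMono φ) : Tendsto (fun n => ε (φ n)) atTop (𝓝 0) :=
  (squeeze_zero (fun n => (h0 n).le) h1 tendsto_one_div_add_atTop_nhds_zero_nat).comp
    hφ.tendsto_atTop

theorem cb_norm {m : ℕ} {om : ℝ} {w : ℝ → ℂ} (hP : Prof m om w) {i : Fin 3} {z κ : ℂ}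
    (hz : 0 ≤ z.re) {f g : ℝ → ℂ} (h : RSol m om w (rl i) z f g (fun r => κ * rmode m om w i r)
      fun r => κ * conj (rmode m om w i r))
    (ho : inner ℂ (D4 (rmode m om w i) fun r => conj (rmode m om w i r)) (D4 f g) = 0)
    (hv : ¬ Van f g) : ∃ (κ : ℂ) (f g e1 e2 : ℝ → ℂ), HSol m om w (rl i) (rz i) e1 e2 ∧
      RSol m om w (rl i) z f g (fun r => κ * e1 r) (fun r => κ * e2 r) ∧ Dec (rl i) f ∧
      Dec (rl i) g ∧ ‖D4 e1 e2‖ = 1 ∧ ‖D4 f g‖ + ‖κ‖ = 1 ∧ inner ℂ (D4 e1 e2) (D4 f g) = 0 := by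
  have h1 : 0 ≤ (rz i).re := by fin_cases i <;> simp [rz]
  have h2 := cb_dec hP (κ := 0) h1 ((rmode_sol hP i).congr_src (by simp) (by simp))
  have h3 := cb_dec hP hz h
  have h4 := norm_pos_iff.2 (D4_mode_ne hP i)
  obtain ⟨c, hc⟩ : ∃ c, c = ‖D4 (rmode m om w i) fun r => conj (rmode m om w i r)‖ := ⟨_, rfl⟩
  rw [← hc] at h4
  have c0 : (c : ℂ) ≠ 0 := ofReal_ne_zero.2 h4.ne'
  have h5 : 0 < ‖D4 f g‖ + ‖κ * c‖ := by
    by_cases hκ : κ = 0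
    · exact add_pos_of_pos_of_nonneg (norm_pos_iff.2
        (cb_ne hP (h.congr_src (by simp [hκ]) (by simp [hκ])) hv)) (norm_nonneg _)
    · exact add_pos_of_nonneg_of_pos (norm_nonneg _) (norm_pos_iff.2 (mul_ne_zero hκ c0))
  obtain ⟨N, hN⟩ : ∃ N, N = ‖D4 f g‖ + ‖κ * c‖ := ⟨_, rfl⟩
  rw [← hN] at h5
  refine ⟨(N : ℂ)⁻¹ * (κ * c), _, _, _, _, HSol.cb_smul ⟨rmode_sol hP i, h1, h2.1, h2.2⟩ (c : ℂ)⁻¹,
    (h.smul (N : ℂ)⁻¹).congr_src (fun r _ => by field_simp) fun r _ => by field_simp,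
    h3.1.smul _, h3.2.smul _, ?_, ?_, ?_⟩
  · rw [D4_smul, norm_smul, ← hc, norm_inv, norm_real, Real.norm_of_nonneg h4.le,
      inv_mul_cancel₀ h4.ne']
  · rw [D4_smul, norm_smul, norm_mul, ← mul_add, ← hN, norm_inv, norm_real,
      Real.norm_of_nonneg h5.le, inv_mul_cancel₀ h5.ne']
  · rw [D4_smul, D4_smul, inner_smul_left, inner_smul_right, ho, mul_zero, mul_zero]

/-- bounded frequencies, away from the symmetry eigenvalues -/
theorem bdd_far {o1 o2 s1 s2 : ℝ} {b1 b2 : ℂ} (hB : Box o1 o2 s1 s2 b1 b2) (L0 : ℝ) :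
    ∃ ε0 : ℝ, 0 < ε0 ∧ ∀ {ε : ℝ} {m : ℕ} {om σ : ℝ} {w : ℝ → ℂ}, Ctx ε m om σ w → ε ≤ ε0 →
    om ∈ Set.Icc o1 o2 → σ ∈ Set.Icc s1 s2 → ∀ {l : ℕ} {z : ℂ} {f g : ℝ → ℂ},
    HSol m om w l z f g → Lb l z ≤ L0 → (∀ i, rl i = l → 1 / 4 ≤ ‖z - rz i‖) → Van f g := by
  by_contra hc
  simp only [not_exists, not_and, not_forall] at hc
  choose ε m om σ w ctx hε ho hσ l z f0 g0 hs0 hL hz hv using
    fun n : ℕ => hc (1 / ((n : ℝ) + 1)) (by positivity)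
  choose f g hs h1 using fun n => cb_unit (ctx n).prof (hs0 n) (hv n)
  have h2 : ∀ n, 1 + ‖z n‖ + (l n : ℝ) ^ 2 ≤ L0 ^ 2 := fun n => Lb_sq _ _ ▸
    pow_le_pow_left₀ (zero_le_one.trans (one_le_Lb _ _)) (hL n) 2
  obtain ⟨⟨l', z', d, om', σ'⟩, ⟨-, -, k1, k2, k3⟩, φ, hφ, t⟩ :=
    ((Set.finite_Iic ⌈L0 ^ 2⌉₊).isCompact.prod ((isCompact_closedBall (0 : ℂ) (L0 ^ 2)).prod
      ((isCompact_sphere 0 1).prod (isCompact_Icc.prod isCompact_Icc)))).tendsto_subseq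
    (x := fun n => (l n, z n, D4 (f n) (g n), om n, σ n)) fun n => ⟨by
      refine Nat.cast_le (α := ℝ).1 (le_trans ?_ (Nat.le_ceil _))
      nlinarith [h2 n, norm_nonneg (z n), sq_nonneg ((l n : ℝ) - 1), sq_nonneg (l n : ℝ)],
      mem_closedBall_zero_iff.2 (by linarith [h2 n, sq_nonneg (l n : ℝ)]),
      mem_sphere_zero_iff_norm.2 (h1 n), ho n, hσ n⟩
  have e : ∀ᶠ n in atTop, l (φ n) = l' := tendsto_pure.1 (nhds_discrete ℕ ▸ t.fst_nhds)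
  have tz : Tendsto (fun n => z (φ n)) atTop (𝓝 z') := t.snd_nhds.fst_nhds
  have td : Tendsto (fun n => D4 (f (φ n)) (g (φ n))) atTop (𝓝 d) := t.snd_nhds.snd_nhds.fst_nhds
  have tom := t.snd_nhds.snd_nhds.snd_nhds.fst_nhds
  have tσ := t.snd_nhds.snd_nhds.snd_nhds.snd_nhds
  have tε := cb_eps (fun n => (ctx n).e0) hε hφ
  have h3 := cb_hom (fun n => ctx (φ n)) tε tom tσ tz (e.mono fun n hn => hn ▸ hs (φ n)) td
    ((cb_ls hB (fun n => ctx (φ n)) tε tom tσ k2 k3).nz l' z'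
      (ge_of_tendsto' ((continuous_re.tendsto _).comp tz) fun n => (hs _).re) fun i hi => by
        have h3 := ge_of_tendsto (tz.sub_const (rz i)).norm
          (e.mono fun n hn => hz (φ n) i (hi.1.trans hn.symm))
        norm_num [hi.2] at h3)
  simp [h3] at k1

/-- near a symmetry eigenvalue -/
theorem bdd_near {o1 o2 s1 s2 : ℝ} {b1 b2 : ℂ} (hB : Box o1 o2 s1 s2 b1 b2) (i : Fin 3) :
    ∃ ε0 : ℝ, 0 < ε0 ∧ ∀ {ε : ℝ} {m : ℕ} {om σ : ℝ} {w : ℝ → ℂ}, Ctx ε m om σ w → ε ≤ ε0 →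
    om ∈ Set.Icc o1 o2 → σ ∈ Set.Icc s1 s2 → ∀ {z κ : ℂ} {f g : ℝ → ℂ}, 0 ≤ z.re →
    ‖z - rz i‖ ≤ 1 / 4 → RSol m om w (rl i) z f g (fun r => κ * rmode m om w i r)
      (fun r => κ * conj (rmode m om w i r)) →
    inner ℂ (D4 (rmode m om w i) (fun r => conj (rmode m om w i r))) (D4 f g) = 0 → Van f g := by
  by_contra hc
  simp only [not_exists, not_and, not_forall] at hc
  choose ε m om σ w ctx hε ho hσ z κ0 f0 g0 hz hz' hs0 hi0 hv using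
    fun n : ℕ => hc (1 / ((n : ℝ) + 1)) (by positivity)
  choose κ f g e1 e2 he hs df dg n1 n2 hi using
    fun n => cb_norm (ctx n).prof (hz n) (hs0 n) (hi0 n) (hv n)
  have b1 : ∀ n, ‖κ n‖ ≤ 1 := fun n => by linarith [n2 n, norm_nonneg (D4 (f n) (g n))]
  have b2 : ∀ n, ‖D4 (f n) (g n)‖ ≤ 1 := fun n => by linarith [n2 n, norm_nonneg (κ n)]
  obtain ⟨⟨z', κ', d, de, om', σ'⟩, ⟨k0, -, -, k1, k2, k3⟩, φ, hφ, t⟩ :=
    ((isCompact_closedBall (rz i) (1 / 4)).prod ((isCompact_closedBall (0 : ℂ) 1).prod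
      ((isCompact_closedBall 0 1).prod ((isCompact_sphere 0 1).prod
        (isCompact_Icc.prod isCompact_Icc))))).tendsto_subseq
    (x := fun n => (z n, κ n, D4 (f n) (g n), D4 (e1 n) (e2 n), om n, σ n)) fun n =>
      ⟨mem_closedBall_iff_norm.2 (hz' n), mem_closedBall_zero_iff.2 (b1 n),
        mem_closedBall_zero_iff.2 (b2 n), mem_sphere_zero_iff_norm.2 (n1 n), ho n, hσ n⟩
  have tz : Tendsto (fun n => z (φ n)) atTop (𝓝 z') := t.fst_nhds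
  have tκ : Tendsto (fun n => κ (φ n)) atTop (𝓝 κ') := t.snd_nhds.fst_nhds
  have td : Tendsto (fun n => D4 (f (φ n)) (g (φ n))) atTop (𝓝 d) := t.snd_nhds.snd_nhds.fst_nhds
  have te : Tendsto (fun n => D4 (e1 (φ n)) (e2 (φ n))) atTop (𝓝 de) :=
    t.snd_nhds.snd_nhds.snd_nhds.fst_nhds
  have tom := t.snd_nhds.snd_nhds.snd_nhds.snd_nhds.fst_nhds
  have tσ := t.snd_nhds.snd_nhds.snd_nhds.snd_nhds.snd_nhds
  have tε := cb_eps (fun n => (ctx n).e0) hε hφ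
  have ls := cb_ls hB (fun n => ctx (φ n)) tε tom tσ k2 k3
  have k4 : ‖de‖ = 1 := mem_sphere_zero_iff_norm.1 k1
  have k5 : ‖d‖ + ‖κ'‖ = 1 :=
    tendsto_nhds_unique (td.norm.add tκ.norm) (tendsto_const_nhds.congr fun n => (n2 _).symm)
  have k6 : ∀ t : ℂ, d = t • de → t = 0 := fun t ht => by
    have h1 : inner ℂ de d = 0 :=
      tendsto_nhds_unique (te.inner td) (tendsto_const_nhds.congr fun n => (hi _).symm)
    simpa [ht, inner_self_eq_norm_sq_to_K, k4] using h1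
  by_cases h : z' = rz i
  · obtain ⟨h1, t, h2⟩ := lim_simple (z' := rz i) ⟨fun n => ctx (φ n), tε, tom, tσ, h ▸ tz, tκ,
      fun n => he _, fun n => hs _, fun n => hz _, fun n => df _, fun n => dg _, fun n => b1 _,
      fun n => b2 _, fun n => (n1 _).le, td, te⟩ (norm_pos_iff.1 (k4 ▸ one_pos)) (ls.simple i)
    simp [h1, h2, k6 t h2] at k5
  · have h1 := sub_ne_zero.2 h
    have h2 := cb_hom (fun n => ctx (φ n)) tε tom tσ tz
      (f := fun n r => f (φ n) r - κ (φ n) / (z (φ n) - rz i) * e1 (φ n) r)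
      (g := fun n r => g (φ n) r - κ (φ n) / (z (φ n) - rz i) * e2 (φ n) r)
      (((tz.sub_const (rz i)).eventually_ne h1).mono fun n hn =>
        ⟨((hs _).sub_smul (he _).sol _).congr_src (fun r _ => by simp [div_mul_cancel₀ _ hn])
          fun r _ => by simp [div_mul_cancel₀ _ hn], hz _,
          (df _).sub ((he _).df.smul _) (hs _).1.1 (contDiff_const.mul (he _).sol.1.1),
          (dg _).sub ((he _).dg.smul _) (hs _).2.1.1 (contDiff_const.mul (he _).sol.2.1.1)⟩)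
      ((td.sub ((tκ.div (tz.sub_const (rz i)) h1).smul te)).congr fun n =>
        (D4_sub_smul (hs _).1 (hs _).2.1 (he _).sol.1 (he _).sol.2.1 _).symm)
      (ls.nz _ z' (ge_of_tendsto' ((continuous_re.tendsto _).comp tz) fun n => hz _) fun j hj => by
        have h3 := (abs_re_le_norm _).trans (mem_closedBall_iff_norm.1 k0)
        rw [← hj.2] at h h3
        fin_cases i <;> fin_cases j <;> first | exact h rfl | norm_num [rz] at h3)
    have h3 := k6 _ (sub_eq_zero.1 h2)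
    rw [h3, zero_smul, sub_zero] at h2
    simp [h2, (div_eq_zero_iff.1 h3).resolve_right h1] at k5

end Vale.Agent.P139
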