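import Vale.Agent.P139.Defs

open Complex MeasureTheory Filter Topology
open scoped ComplexConjugate ContDiff

namespace Vale.Agent.P139

/-- the reduced function in the variable s = r^2/4 -/
noncomputable def ured (l : ℕ) (f : ℝ → ℂ) (s : ℝ) : ℂ := f (2 * √s) / ((2 * √s : ℝ) : ℂ) ^ l

theorem ured_smooth (l : ℕ) {f : ℝ → ℂ} (hf : ContDiff ℝ 16 f) :
    ContDiffOn ℝ 16 (ured l f) (Set.Ioi 0) := by
  have h1 : ContDiffOn ℝ 16 (fun s : ℝ => 2 * √s) (Set.Ioi 0) := fun s hs =>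
    (contDiffAt_const.mul (Real.contDiffAt_sqrt (ne_of_gt hs))).contDiffWithinAt
  have h2 : ContDiffOn ℝ 16 (fun s : ℝ => ((2 * √s : ℝ) : ℂ) ^ l) (Set.Ioi 0) :=
    (ofRealCLM.contDiff.comp_contDiffOn h1).pow l
  refine ((hf.comp_contDiffOn h1).mul (h2.inv fun s hs => ?_)).congr fun s _ => div_eq_mul_inv _ _
  have : 0 < √s := Real.sqrt_pos.2 hs
  exact pow_ne_zero _ (ofReal_ne_zero.2 (by positivity))

theorem olad_on {u : ℝ → ℂ} {N : ℕ} (j : ℕ) (hu : ContDiffOn ℝ (N + j : ℕ) u (Set.Ioi 0)) :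
    ContDiffOn ℝ N (iteratedDeriv j u) (Set.Ioi 0) := by
  induction j generalizing N with
  | zero => simpa using hu
  | succ j ih =>
    rw [iteratedDeriv_succ]
    exact (ih (N := N + 1) (by rwa [add_assoc, add_comm 1])).deriv_of_isOpen isOpen_Ioi
      (by push_cast; exact le_rfl)

/-- iterated derivatives of a function that is smooth on the half line -/
theorem olad_hasDeriv {u : ℝ → ℂ} {N j : ℕ} (hu : ContDiffOn ℝ N u (Set.Ioi 0)) (hj : j < N)
    {s : ℝ} (hs : 0 < s) : HasDerivAt (iteratedDeriv j u) (iteratedDeriv (j + 1) u s) s := by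
  rw [iteratedDeriv_succ]
  have h := olad_on (N := 1) j (hu.of_le (by exact_mod_cast (by omega : 1 + j ≤ N)))
  exact ((h.contDiffAt (isOpen_Ioi.mem_nhds hs)).differentiableAt (by simp)).hasDerivAt

theorem ured_sq (l : ℕ) (f : ℝ → ℂ) {r : ℝ} (hr : 0 < r) :
    ured l f (r ^ 2 / 4) = f r / (r : ℂ) ^ l := by
  have : 2 * √(r ^ 2 / 4) = r := by
    rw [show r ^ 2 / 4 = (r / 2) ^ 2 by ring, Real.sqrt_sq (by positivity)]; ring
  rw [ured, this]

/-- the ladder in terms of the reduced function -/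
theorem lad_eq (l : ℕ) {f : ℝ → ℂ} (hf : ContDiff ℝ 16 f) (k : ℕ) (hk : k ≤ 16) {r : ℝ}
    (hr : 0 < r) :
    lad l k f r = (r : ℂ) ^ (l + k) / 2 ^ k * iteratedDeriv k (ured l f) (r ^ 2 / 4) := by
  have r0 : ∀ {r : ℝ}, 0 < r → (r : ℂ) ≠ 0 := fun h => ofReal_ne_zero.2 h.ne'
  induction k generalizing r with
  | zero =>
    have := r0 hr
    simp only [lad, iteratedDeriv_zero, ured_sq l f hr]
    field_simp
    simp
  | succ k ih =>
    have e : lad l k f =ᶠ[𝓝 r] fun ρ : ℝ =>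
        (ρ : ℂ) ^ (l + k) / 2 ^ k * iteratedDeriv k (ured l f) (ρ ^ 2 / 4) := by
      filter_upwards [isOpen_Ioi.mem_nhds hr] with ρ hρ using ih (by omega) hρ
    have d1 : HasDerivAt (fun ρ : ℝ => ρ ^ 2 / 4) (r / 2) r :=
      ((hasDerivAt_pow 2 r).div_const 4).congr_deriv (by push_cast; ring)
    have d2 := (olad_hasDeriv (N := 16) (j := k) (ured_smooth l hf) (by omega)
      (by positivity : 0 < r ^ 2 / 4)).scomp r d1
    have d3 := (((hasDerivAt_pow (l + k) (r : ℂ)).comp_ofReal).div_const (2 ^ k)).mul d2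
    have d4 := r0 hr
    change deriv (lad l k f) r - ((l : ℂ) + k) / r * lad l k f r = _
    rw [e.deriv_eq, ih (by omega) hr]
    refine (congrArg (· - _) d3.deriv).trans ?_
    simp only [Function.comp, real_smul]
    rcases Nat.eq_zero_or_pos (l + k) with h | h
    · obtain ⟨rfl, rfl⟩ := Nat.add_eq_zero_iff.1 h
      simp
    · obtain ⟨n, hn⟩ : ∃ n, l + k = n + 1 := ⟨l + k - 1, by omega⟩
      rw [← add_assoc, ← Nat.cast_add, hn, Nat.add_sub_cancel]
      push_cast
      field_simp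
      ring

theorem olad_ode (l : ℕ) {f : ℝ → ℂ} (hf : ContDiff ℝ 16 f) {r : ℝ} (hr : 0 < r) (α : ℂ) :
    deriv (deriv f) r + 11 / r * deriv f r - l * (l + 10) / r ^ 2 * f r + I * α * f r
      + I * r / 2 * deriv f r = (r : ℂ) ^ l * (((r ^ 2 / 4 : ℝ) : ℂ) *
        deriv (deriv (ured l f)) (r ^ 2 / 4) + ((l : ℂ) + 6 + I * ((r ^ 2 / 4 : ℝ) : ℂ)) *
        deriv (ured l f) (r ^ 2 / 4) + I * (α + l / 2) * ured l f (r ^ 2 / 4)) := by
  have r0 : (r : ℂ) ≠ 0 := ofReal_ne_zero.2 hr.ne'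
  have e0 := lad_eq l hf 0 (by norm_num) hr
  have e1 := lad_eq l hf 1 (by norm_num) hr
  have e2 := lad_eq l hf 2 (by norm_num) hr
  have d0 : HasDerivAt f (deriv f r) r := (hf.differentiable (by norm_num) r).hasDerivAt
  have d1 : HasDerivAt (deriv f) (deriv (deriv f) r) r :=
    ((hf.deriv' (n := 15)).differentiable (by norm_num) r).hasDerivAt
  have d2 : HasDerivAt (fun ρ : ℝ => ((l : ℂ) + (0 : ℕ)) / (ρ : ℂ)) (-(l / (r : ℂ) ^ 2)) r :=
    (((hasDerivAt_const (r : ℂ) ((l : ℂ) + (0 : ℕ))).div (hasDerivAt_id (r : ℂ))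
      r0).comp_ofReal).congr_deriv (by simp; ring)
  have d3 : deriv (lad l 1 f) r = deriv (deriv f) r -
      (-(l / (r : ℂ) ^ 2) * f r + ((l : ℂ) + (0 : ℕ)) / (r : ℂ) * deriv f r) :=
    (d1.sub (d2.mul d0)).deriv
  rw [iteratedDeriv_zero] at e0
  rw [iteratedDeriv_one] at e1
  rw [iteratedDeriv_succ, iteratedDeriv_one] at e2
  have f1 : lad l 1 f r = deriv f r - ((l : ℂ) + (0 : ℕ)) / r * f r := rfl
  have f2 : lad l 2 f r = deriv (lad l 1 f) r - ((l : ℂ) + (1 : ℕ)) / r * lad l 1 f r := rfl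
  have f0 : lad l 0 f r = f r := rfl
  rw [d3, f1, e2] at f2
  rw [e1] at f1
  rw [e0] at f0
  push_cast at f0 f1 f2 ⊢
  simp only [pow_add] at f0 f1 f2
  generalize (r : ℂ) ^ l = P at f0 f1 f2 ⊢
  linear_combination (-1 : ℂ) * f2 - ((2 * l + 12) / r + I * r / 2) * f1
    - I * (α + l / 2) * f0 + (P * (l + 6) * deriv (ured l f) (r ^ 2 / 4) + I * l / 2 * f r) *
      mul_inv_cancel₀ r0

theorem olad_V1 (m : ℕ) (w : ℝ → ℂ) (s : ℝ) : conj (V1 m w s) = V1 m w s := by
  simp [V1, mul_comm]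

/-- conjugation symmetry of the radial system -/
theorem RSol.swap {m : ℕ} {om : ℝ} {w : ℝ → ℂ} {l : ℕ} {z : ℂ} {f g p q : ℝ → ℂ}
    (h : RSol m om w l z f g p q) : RSol m om w l (conj z) (fun r => conj (g r))
      (fun r => conj (f r)) (fun r => conj (q r)) (fun r => conj (p r)) := by
  have cb : ∀ {f : ℝ → ℂ}, Cb1 f → Cb1 fun r => conj (f r) := fun {f} ⟨h1, C, h2⟩ =>
    ⟨conjCLE.contDiff.comp h1, C, fun k hk r => by
      have := conjLIE.norm_iteratedFDeriv_comp_left f r k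
      rw [norm_iteratedFDeriv_eq_norm_iteratedDeriv, norm_iteratedFDeriv_eq_norm_iteratedDeriv]
        at this
      exact (le_of_eq this).trans (h2 k hk r)⟩
  have d1 : ∀ f : ℝ → ℂ, (deriv fun r => conj (f r)) = fun r => conj (deriv f r) := fun f =>
    funext fun r => deriv.star
  refine ⟨cb h.2.1, cb h.1, fun r hr => ?_, fun r hr => ?_⟩
  · have := congrArg conj (h.2.2.2 r hr)
    simp only [map_add, map_sub, map_mul, map_div₀, map_neg, map_pow, conj_I, conj_ofReal,
      conj_conj, olad_V1, map_natCast, map_ofNat] at this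
    rw [d1, d1]
    linear_combination this
  · have := congrArg conj (h.2.2.1 r hr)
    simp only [map_add, map_sub, map_mul, map_div₀, map_neg, map_pow, conj_I, conj_ofReal,
      conj_conj, olad_V1, map_natCast, map_ofNat] at this
    rw [d1, d1]
    linear_combination this

/-- the reduced equation of the first component -/
theorem ured_ode1 {m : ℕ} {om : ℝ} {w : ℝ → ℂ} {l : ℕ} {z : ℂ} {f g p q : ℝ → ℂ}
    (h : RSol m om w l z f g p q) {s : ℝ} (hs : 0 < s) :
    s * deriv (deriv (ured l f)) s + ((l : ℂ) + 6 + I * s) * deriv (ured l f) s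
      + I * (z + aa m + l / 2 - I * om) * ured l f s
      = V1 m w s * ured l f s + V2 m w s * conj (ured l (fun r => conj (g r)) s)
        + I * ured l p s := by
  have hr : 0 < 2 * √s := by have := Real.sqrt_pos.2 hs; positivity
  have e : (2 * √s) ^ 2 / 4 = s := by rw [mul_pow, Real.sq_sqrt hs.le]; ring
  have e1 := olad_ode l h.1.1 hr (z + aa m - I * om)
  have e2 := h.2.2.1 _ hr
  rw [e] at e1 e2
  have r0 : ((2 * √s : ℝ) : ℂ) ^ l ≠ 0 := pow_ne_zero _ (ofReal_ne_zero.2 hr.ne')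
  refine mul_left_cancel₀ r0 ?_
  have c : ∀ f : ℝ → ℂ, ((2 * √s : ℝ) : ℂ) ^ l * ured l f s = f (2 * √s) := fun f =>
    mul_div_cancel₀ _ r0
  have c' : ((2 * √s : ℝ) : ℂ) ^ l * conj (ured l (fun r => conj (g r)) s) = g (2 * √s) := by
    have := congrArg conj (c fun r => conj (g r))
    rwa [map_mul, map_pow, conj_ofReal, conj_conj] at this
  linear_combination e2 - e1 - V1 m w s * c f - V2 m w s * c' - I * c p

/-- the reduced equation of the conjugate of the second component -/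
theorem ured_ode2 {m : ℕ} {om : ℝ} {w : ℝ → ℂ} {l : ℕ} {z : ℂ} {f g p q : ℝ → ℂ}
    (h : RSol m om w l z f g p q) {s : ℝ} (hs : 0 < s) :
    s * deriv (deriv (ured l fun r => conj (g r))) s
      + ((l : ℂ) + 6 + I * s) * deriv (ured l fun r => conj (g r)) s
      + I * (conj z + aa m + l / 2 - I * om) * ured l (fun r => conj (g r)) s
      = V1 m w s * ured l (fun r => conj (g r)) s + V2 m w s * conj (ured l f s)
        + I * ured l (fun r => conj (q r)) s := by
  simpa only [conj_conj] using ured_ode1 h.swap hs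

end Vale.Agent.P139
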