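import Vale.Agent.P139.SymA

open Complex MeasureTheory Filter Topology
open scoped ComplexConjugate ContDiff

namespace Vale.Agent.P139

variable {m : ℕ} {om : ℝ} {w : ℝ → ℂ}

/-- one dimensional symbols of order -γ on the half line -/
def SymPS (γ : ℝ) (g : ℝ → ℂ) : Prop :=
  ContDiff ℝ ∞ g ∧ ∀ k : ℕ, ∃ C : ℝ, ∀ s : ℝ, 0 ≤ s →
    ‖iteratedDeriv k g s‖ ≤ C * (1 + s) ^ (-γ - k)

theorem symP_unif (P : ℕ → ℝ → Prop) (hm : ∀ k C C', C ≤ C' → P k C → P k C')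
    (h : ∀ k, ∃ C, P k C) (J : ℕ) : ∃ C, 0 ≤ C ∧ ∀ k ≤ J, P k C := by
  choose f hf using h
  refine ⟨∑ k ∈ Finset.range (J + 1), |f k|, Finset.sum_nonneg fun _ _ => abs_nonneg _,
    fun k hk => hm k _ _ ?_ (hf k)⟩
  exact (le_abs_self _).trans (Finset.single_le_sum (f := fun k => |f k|)
    (fun _ _ => abs_nonneg _) (Finset.mem_range.2 (by omega)))

theorem symP_at {g : ℝ → ℂ} (h : ContDiff ℝ ∞ g) (k : ℕ) (s : ℝ) : ContDiffAt ℝ k g s :=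
  (h.of_le (by exact_mod_cast le_top)).contDiffAt

theorem SymPS.unif {γ : ℝ} {g : ℝ → ℂ} (h : SymPS γ g) (J : ℕ) : ∃ C, 0 ≤ C ∧ ∀ k ≤ J,
    ∀ s : ℝ, 0 ≤ s → ‖iteratedDeriv k g s‖ ≤ C * (1 + s) ^ (-γ - k) :=
  symP_unif (fun k C => ∀ s : ℝ, 0 ≤ s → ‖iteratedDeriv k g s‖ ≤ C * (1 + s) ^ (-γ - k))
    (fun _ _ _ hC h1 s hs => (h1 s hs).trans
      (mul_le_mul_of_nonneg_right hC (Real.rpow_nonneg (by linarith) _))) h.2 J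

theorem SymPS.mono {γ γ' : ℝ} {g : ℝ → ℂ} (h : SymPS γ g) (h1 : γ' ≤ γ) : SymPS γ' g := by
  refine ⟨h.1, fun k => ?_⟩
  obtain ⟨C, hC0, hC⟩ := h.unif k
  refine ⟨C, fun s hs => (hC k le_rfl s hs).trans (mul_le_mul_of_nonneg_left ?_ hC0)⟩
  exact Real.rpow_le_rpow_of_exponent_le (by linarith) (by linarith)

theorem SymPS.add {γ : ℝ} {f g : ℝ → ℂ} (hf : SymPS γ f) (hg : SymPS γ g) :
    SymPS γ (fun s => f s + g s) := by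
  refine ⟨hf.1.add hg.1, fun k => ?_⟩
  obtain ⟨C, hC⟩ := hf.2 k
  obtain ⟨C', hC'⟩ := hg.2 k
  refine ⟨C + C', fun s hs => ?_⟩
  rw [iteratedDeriv_fun_add (symP_at hf.1 k s) (symP_at hg.1 k s), add_mul]
  exact (norm_add_le _ _).trans (add_le_add (hC s hs) (hC' s hs))

theorem SymPS.mul {γ γ' : ℝ} {f g : ℝ → ℂ} (hf : SymPS γ f) (hg : SymPS γ' g) :
    SymPS (γ + γ') (fun s => f s * g s) := by
  refine ⟨hf.1.mul hg.1, fun k => ?_⟩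
  obtain ⟨C, hC0, hC⟩ := hf.unif k
  obtain ⟨C', hC0', hC'⟩ := hg.unif k
  refine ⟨∑ i ∈ Finset.range (k + 1), (k.choose i : ℝ) * C * C', fun s hs => ?_⟩
  rw [iteratedDeriv_fun_mul (symP_at hf.1 k s) (symP_at hg.1 k s), Finset.sum_mul]
  refine (norm_sum_le _ _).trans (Finset.sum_le_sum fun i hi => ?_)
  have hi' : i ≤ k := by have := Finset.mem_range.1 hi; omega
  have hs1 : (0 : ℝ) < 1 + s := by linarith
  rw [norm_mul, norm_mul, Complex.norm_natCast]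
  have e : (1 + s) ^ (-(γ + γ') - k) =
      (1 + s) ^ (-γ - i) * (1 + s) ^ (-γ' - ((k - i : ℕ) : ℝ)) := by
    rw [← Real.rpow_add hs1, Nat.cast_sub hi']
    congr 1
    ring
  have h1 := hC i hi' s hs
  have h2 := hC' (k - i) (Nat.sub_le _ _) s hs
  have h3 := mul_le_mul h1 h2 (norm_nonneg _) ((norm_nonneg _).trans h1)
  calc (k.choose i : ℝ) * ‖iteratedDeriv i f s‖ * ‖iteratedDeriv (k - i) g s‖
      = (k.choose i : ℝ) * (‖iteratedDeriv i f s‖ * ‖iteratedDeriv (k - i) g s‖) := by ring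
    _ ≤ (k.choose i : ℝ) * (C * (1 + s) ^ (-γ - i) *
        (C' * (1 + s) ^ (-γ' - ((k - i : ℕ) : ℝ)))) :=
        mul_le_mul_of_nonneg_left h3 (Nat.cast_nonneg _)
    _ = _ := by rw [e]; ring

theorem symP_const (c : ℂ) : SymPS 0 (fun _ => c) := by
  refine ⟨contDiff_const, fun k => ⟨‖c‖, fun s hs => ?_⟩⟩
  rw [iteratedDeriv_const]
  split_ifs with hk
  · subst hk
    simp
  · rw [norm_zero]
    exact mul_nonneg (norm_nonneg _) (Real.rpow_nonneg (by linarith) _)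

theorem SymPS.smul {γ : ℝ} {f : ℝ → ℂ} (hf : SymPS γ f) (c : ℂ) :
    SymPS γ (fun s => c * f s) := by
  have h := (symP_const c).mul hf
  rwa [zero_add] at h

theorem SymPS.pow {γ : ℝ} {f : ℝ → ℂ} (hf : SymPS γ f) (n : ℕ) :
    SymPS (n * γ) (fun s => f s ^ n) := by
  induction n with
  | zero => simpa using symP_const 1
  | succ n ih =>
    have h := ih.mul hf
    have e : ((n + 1 : ℕ) : ℝ) * γ = n * γ + γ := by push_cast; ring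
    rw [e]
    simpa only [pow_succ] using h

theorem SymPS.conj {γ : ℝ} {f : ℝ → ℂ} (hf : SymPS γ f) : SymPS γ (fun s => conj (f s)) := by
  refine ⟨Complex.conjLIE.toContinuousLinearEquiv.contDiff.comp hf.1, fun k => ?_⟩
  obtain ⟨C, hC⟩ := hf.2 k
  refine ⟨C, fun s hs => ?_⟩
  have h := Complex.conjLIE.norm_iteratedFDeriv_comp_left f s k
  rw [norm_iteratedFDeriv_eq_norm_iteratedDeriv, norm_iteratedFDeriv_eq_norm_iteratedDeriv] at h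
  exact (le_of_eq h).trans (hC s hs)

theorem SymPS.deriv {γ : ℝ} {f : ℝ → ℂ} (hf : SymPS γ f) : SymPS (γ + 1) (deriv f) := by
  refine ⟨(contDiff_infty_iff_deriv.1 hf.1).2, fun k => ?_⟩
  obtain ⟨C, hC⟩ := hf.2 (k + 1)
  refine ⟨C, fun s hs => ?_⟩
  have h := hC s hs
  rw [iteratedDeriv_succ'] at h
  have e : -(γ + 1) - (k : ℝ) = -γ - ((k + 1 : ℕ) : ℝ) := by push_cast; ring
  rwa [e]

theorem symP_id : SymPS (-1) (fun s : ℝ => (s : ℂ)) := by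
  refine ⟨Complex.ofRealCLM.contDiff, fun k => ⟨1, fun s hs => ?_⟩⟩
  have hs1 : (0 : ℝ) < 1 + s := by linarith
  have hd : deriv (fun s : ℝ => (s : ℂ)) = fun _ => 1 := by
    funext x
    exact Complex.ofRealCLM.hasDerivAt.deriv
  obtain _ | k := k
  · simp only [iteratedDeriv_zero, Complex.norm_real, Real.norm_eq_abs, abs_of_nonneg hs]
    norm_num
  · rw [iteratedDeriv_succ', hd, iteratedDeriv_const]
    split_ifs with hk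
    · subst hk
      norm_num
    · rw [norm_zero]
      exact mul_nonneg zero_le_one (Real.rpow_nonneg hs1.le _)

theorem SymPS.rad {γ : ℝ} {g : ℝ → ℂ} (h : SymPS γ g) (J : ℕ) :
    ∃ C, 0 ≤ C ∧ Sym (2 * γ) J C (rad g) := by
  obtain ⟨C0, h0, hC0⟩ := sym_rad (2 * γ) J
  obtain ⟨C, hC, h1⟩ := h.unif J
  refine ⟨C0 * C, mul_nonneg h0 hC, hC0 g C h.1 fun k hk s hs => ?_⟩
  have e : -(2 * γ) / 2 - (k : ℝ) = -γ - k := by ring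
  rw [e]
  exact h1 k hk s hs

theorem Prof.aa_pos (h : Prof m om w) : 0 < aa m := by
  have h1 : (0 : ℝ) < m := by exact_mod_cast h.m_pos
  unfold aa
  positivity

theorem Prof.symPS (h : Prof m om w) : SymPS (aa m) w := ⟨h.smooth, h.decay⟩

theorem Prof.symPS_V1 (h : Prof m om w) : SymPS 1 (V1 m w) := by
  have h1 : (0 : ℝ) < m := by exact_mod_cast h.m_pos
  have h2 := ((h.symPS.mul h.symPS.conj).pow m).smul ((m : ℂ) + 1)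
  have e : (m : ℝ) * (aa m + aa m) = 1 := by
    unfold aa
    field_simp
    norm_num
  rw [e] at h2
  exact h2

theorem Prof.symPS_V2 (h : Prof m om w) : SymPS 1 (V2 m w) := by
  have h1 : (0 : ℝ) < m := by exact_mod_cast h.m_pos
  have h2 := (((h.symPS.mul h.symPS.conj).pow (m - 1)).smul (m : ℂ)).mul (h.symPS.pow 2)
  have e : ((m - 1 : ℕ) : ℝ) * (aa m + aa m) + ((2 : ℕ) : ℝ) * aa m = 1 := by
    rw [Nat.cast_sub h.m_pos]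
    unfold aa
    field_simp
    push_cast
    ring
  rw [e] at h2
  exact h2

theorem Prof.symPS_Lam (h : Prof m om w) : SymPS (aa m) (Lam m om w) := by
  have h2 := symP_id.mul h.symPS.deriv
  have e : -1 + (aa m + 1) = aa m := by ring
  rw [e] at h2
  exact (h.symPS.smul _).add h2

theorem Prof.sym_w (h : Prof m om w) (J : ℕ) : ∃ C, Sym (2 * aa m) J C (rad w) :=
  let ⟨C, _, hC⟩ := h.symPS.rad J
  ⟨C, hC⟩

theorem Prof.sym_V1 (h : Prof m om w) (J : ℕ) : ∃ C, Sym 2 J C (rad (V1 m w)) := by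
  obtain ⟨C, -, hC⟩ := h.symPS_V1.rad J
  rw [mul_one] at hC
  exact ⟨C, hC⟩

theorem Prof.sym_V2 (h : Prof m om w) (J : ℕ) : ∃ C, Sym 2 J C (rad (V2 m w)) := by
  obtain ⟨C, -, hC⟩ := h.symPS_V2.rad J
  rw [mul_one] at hC
  exact ⟨C, hC⟩

theorem symP_zero (γ : ℝ) (J : ℕ) : Sym γ J 0 (fun _ : E => (0 : ℂ)) := by
  refine ⟨contDiff_const, fun k _ y => ?_⟩
  simp

theorem symP_sum {ι : Type} {γ : ℝ} {J : ℕ} (s : Finset ι) (C : ι → ℝ) (f : ι → E → ℂ)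
    (h : ∀ i ∈ s, Sym γ J (C i) (f i)) :
    Sym γ J (∑ i ∈ s, C i) (fun y => ∑ i ∈ s, f i y) := by
  classical
  induction s using Finset.induction_on with
  | empty => simpa using symP_zero γ J
  | insert a s ha ih =>
    simp only [Finset.sum_insert ha]
    exact (h a (Finset.mem_insert_self _ _)).add
      (ih fun i hi => h i (Finset.mem_insert_of_mem hi))

theorem symP_comb {γ : ℝ} {J : ℕ} {C : ℝ} (hC : 0 ≤ C) {f0 f1 : E → ℂ} {f2 : Fin 12 → E → ℂ}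
    (h0 : Sym γ J C f0) (h1 : Sym γ J C f1) (h2 : ∀ j, Sym γ J C (f2 j)) (β : Co) :
    Sym γ J (14 * C * ‖β‖)
      (fun y => β.1 * f0 y + β.2.1 * f1 y + ∑ j, β.2.2 j * f2 j y) := by
  have b0 : ‖β.1‖ ≤ ‖β‖ := norm_fst_le β
  have b1 : ‖β.2.1‖ ≤ ‖β‖ := (norm_fst_le β.2).trans (norm_snd_le β)
  have b2 : ∀ j, ‖β.2.2 j‖ ≤ ‖β‖ := fun j =>
    (norm_le_pi_norm _ j).trans ((norm_snd_le β.2).trans (norm_snd_le β))
  have h3 := symP_sum Finset.univ (fun _ : Fin 12 => ‖β‖ * C) (fun j y => β.2.2 j * f2 j y)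
    fun j _ => ((h2 j).smul (β.2.2 j)).mono le_rfl le_rfl (mul_le_mul_of_nonneg_right (b2 j) hC)
  refine (((h0.smul β.1).add (h1.smul β.2.1)).add h3).mono le_rfl le_rfl ?_
  have a0 := mul_le_mul_of_nonneg_right b0 hC
  have a1 := mul_le_mul_of_nonneg_right b1 hC
  simp only [Finset.sum_const, Finset.card_univ, Fintype.card_fin, nsmul_eq_mul]
  push_cast
  nlinarith

theorem Prof.sym_mode (h : Prof m om w) (J : ℕ) : ∃ C, 0 ≤ C ∧ ∀ β : Co,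
    Sym (2 * aa m) J (C * ‖β‖) (mode1 m om w β) ∧ Sym (2 * aa m) J (C * ‖β‖) (mode2 m om w β) := by
  obtain ⟨C0, h0, H0⟩ := h.symPS.rad J
  obtain ⟨C1, h1, H1⟩ := h.symPS_Lam.rad J
  obtain ⟨C2, h2, H2⟩ := h.symPS.deriv.rad J
  set C3 : ℝ := 2 ^ J * (‖(1 / 2 : ℂ)‖ * 1) * C2 with hC3
  have h3 : 0 ≤ C3 := by positivity
  have G0 : Sym (2 * aa m) J (C0 + C1 + C3) (fun y => I * rad w y) :=
    (H0.smul I).mono le_rfl le_rfl (by rw [Complex.norm_I]; linarith)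
  have G1 : Sym (2 * aa m) J (C0 + C1 + C3) (rad (Lam m om w)) :=
    H1.mono le_rfl le_rfl (by linarith)
  have G2 : ∀ j : Fin 12, Sym (2 * aa m) J (C0 + C1 + C3)
      (fun y => ((y j / 2 : ℝ) : ℂ) * rad (deriv w) y) := by
    intro j
    have h4 := (((sym_coord J j).smul (1 / 2)).mul H2).mono
      (γ' := 2 * aa m) (C' := C0 + C1 + C3) (by linarith) le_rfl (by linarith)
    have e : (fun y : E => ((y j / 2 : ℝ) : ℂ) * rad (deriv w) y) =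
        fun y : E => 1 / 2 * ((y j : ℝ) : ℂ) * rad (deriv w) y := by
      funext y
      push_cast
      ring
    rw [e]
    exact h4
  have hC : 0 ≤ C0 + C1 + C3 := by positivity
  exact ⟨14 * (C0 + C1 + C3), by positivity, fun β =>
    ⟨symP_comb hC G0 G1 G2 β, symP_comb hC G0.conj G1.conj (fun j => (G2 j).conj) β⟩⟩

theorem symP_bdd {b : ℝ → ℂ} (hb : ∀ ρ, 0 < ρ → ContDiffAt ℝ 1 b ρ) {ρ0 : ℝ} (h0 : 0 < ρ0) :
    ∃ B, 0 ≤ B ∧ ∀ ρ ∈ Set.Icc ρ0 1, ‖b ρ‖ ≤ B ∧ ‖deriv b ρ‖ ≤ B := by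
  have hc : ContDiffOn ℝ 1 b (Set.Ioi 0) := fun ρ hρ => (hb ρ hρ).contDiffWithinAt
  have hs : Set.Icc ρ0 1 ⊆ Set.Ioi 0 := fun ρ hρ => h0.trans_le hρ.1
  have h1 : ContinuousOn b (Set.Icc ρ0 1) := hc.continuousOn.mono hs
  have h2 : ContinuousOn (deriv b) (Set.Icc ρ0 1) :=
    (hc.continuousOn_deriv_of_isOpen isOpen_Ioi le_rfl).mono hs
  obtain ⟨B1, hB1⟩ := isCompact_Icc.exists_bound_of_continuousOn h1
  obtain ⟨B2, hB2⟩ := isCompact_Icc.exists_bound_of_continuousOn h2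
  refine ⟨|B1| + |B2|, by positivity, fun ρ hρ => ⟨?_, ?_⟩⟩
  · have := hB1 ρ hρ
    have := le_abs_self B1
    have := abs_nonneg B2
    linarith
  · have := hB2 ρ hρ
    have := le_abs_self B2
    have := abs_nonneg B1
    linarith

theorem symP_lip {V : ℝ → ℂ} (hV : SymPS 1 V) {b : ℝ → ℂ}
    (hb : ∀ ρ, 0 < ρ → ContDiffAt ℝ 1 b ρ) {ρ0 : ℝ} (h0 : 0 < ρ0) (k : ℕ) :
    ∃ C, 0 ≤ C ∧ ∀ s : ℝ, 0 ≤ s → ∀ ρ ∈ Set.Icc ρ0 1,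
      ‖b ρ * iteratedDeriv k V (ρ⁻¹ * s)‖ ≤ C * (1 + s) ^ (-1 - (k : ℝ)) ∧
      ∀ ρ' ∈ Set.Icc ρ0 1,
        ‖b ρ * iteratedDeriv k V (ρ⁻¹ * s) - b ρ' * iteratedDeriv k V (ρ'⁻¹ * s)‖ ≤
          C * |ρ - ρ'| * (1 + s) ^ (-1 - (k : ℝ)) := by
  obtain ⟨B, hB0, hB⟩ := symP_bdd hb h0
  obtain ⟨C, hC0, hC⟩ := hV.unif (k + 1)
  have hi0 : 0 < ρ0⁻¹ := inv_pos.2 h0
  refine ⟨B * C + B * C * ρ0⁻¹, by positivity, fun s hs => ?_⟩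
  have hs1 : (0 : ℝ) < 1 + s := by linarith
  have hp : 0 ≤ (1 + s) ^ (-1 - (k : ℝ)) := Real.rpow_nonneg hs1.le _
  have hk0 : (0 : ℝ) ≤ k := Nat.cast_nonneg k
  have key : ∀ ρ ∈ Set.Icc ρ0 1,
      ‖iteratedDeriv k V (ρ⁻¹ * s)‖ ≤ C * (1 + s) ^ (-1 - (k : ℝ)) ∧
      ‖iteratedDeriv (k + 1) V (ρ⁻¹ * s)‖ * (ρ⁻¹ * s) ≤ C * (1 + s) ^ (-1 - (k : ℝ)) := by
    intro ρ hρ
    have hρ0 : 0 < ρ := h0.trans_le hρ.1
    have hi : 1 ≤ ρ⁻¹ := (one_le_inv₀ hρ0).2 hρ.2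
    have ht : s ≤ ρ⁻¹ * s := le_mul_of_one_le_left hs hi
    have ht0 : 0 ≤ ρ⁻¹ * s := hs.trans ht
    have hle : (1 + ρ⁻¹ * s) ^ (-1 - (k : ℝ)) ≤ (1 + s) ^ (-1 - (k : ℝ)) :=
      Real.rpow_le_rpow_of_nonpos hs1 (by linarith) (by linarith)
    refine ⟨(hC k (by omega) _ ht0).trans (mul_le_mul_of_nonneg_left hle hC0), ?_⟩
    have h1 := hC (k + 1) le_rfl _ ht0
    have ht1 : (0 : ℝ) < 1 + ρ⁻¹ * s := by linarith
    have e : (1 + ρ⁻¹ * s) ^ (-1 - (k : ℝ)) =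
        (1 + ρ⁻¹ * s) ^ (-1 - ((k + 1 : ℕ) : ℝ)) * (1 + ρ⁻¹ * s) := by
      rw [← Real.rpow_add_one ht1.ne']
      congr 1
      push_cast
      ring
    have hq : 0 ≤ (1 + ρ⁻¹ * s) ^ (-1 - ((k + 1 : ℕ) : ℝ)) := Real.rpow_nonneg ht1.le _
    calc ‖iteratedDeriv (k + 1) V (ρ⁻¹ * s)‖ * (ρ⁻¹ * s)
        ≤ C * (1 + ρ⁻¹ * s) ^ (-1 - ((k + 1 : ℕ) : ℝ)) * (1 + ρ⁻¹ * s) :=
          mul_le_mul h1 (by linarith) ht0 (mul_nonneg hC0 hq)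
      _ = C * (1 + ρ⁻¹ * s) ^ (-1 - (k : ℝ)) := by rw [e]; ring
      _ ≤ _ := mul_le_mul_of_nonneg_left hle hC0
  have hBC : 0 ≤ B * C * ρ0⁻¹ * (1 + s) ^ (-1 - (k : ℝ)) := by positivity
  have hder : ∀ ρ ∈ Set.Icc ρ0 1, HasDerivWithinAt
      (fun ρ : ℝ => b ρ * iteratedDeriv k V (ρ⁻¹ * s))
      (deriv b ρ * iteratedDeriv k V (ρ⁻¹ * s) +
        b ρ * ((-(ρ ^ 2)⁻¹ * s) • iteratedDeriv (k + 1) V (ρ⁻¹ * s))) (Set.Icc ρ0 1) ρ := by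
    intro ρ hρ
    have hρ0 : 0 < ρ := h0.trans_le hρ.1
    have d1 : HasDerivAt b (deriv b ρ) ρ :=
      ((hb ρ hρ0).differentiableAt one_ne_zero).hasDerivAt
    have d2 : HasDerivAt (fun ρ : ℝ => ρ⁻¹ * s) (-(ρ ^ 2)⁻¹ * s) ρ :=
      (hasDerivAt_inv hρ0.ne').mul_const s
    have d3 : HasDerivAt (iteratedDeriv k V) (iteratedDeriv (k + 1) V (ρ⁻¹ * s)) (ρ⁻¹ * s) := by
      rw [iteratedDeriv_succ]
      exact (hV.1.differentiable_iteratedDeriv k (by exact_mod_cast ENat.natCast_lt_top k) _).hasDerivAt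
    exact (d1.mul (d3.scomp ρ d2)).hasDerivWithinAt
  have hbd : ∀ ρ ∈ Set.Icc ρ0 1, ‖deriv b ρ * iteratedDeriv k V (ρ⁻¹ * s) +
        b ρ * ((-(ρ ^ 2)⁻¹ * s) • iteratedDeriv (k + 1) V (ρ⁻¹ * s))‖ ≤
      (B * C + B * C * ρ0⁻¹) * (1 + s) ^ (-1 - (k : ℝ)) := by
    intro ρ hρ
    have hρ0 : 0 < ρ := h0.trans_le hρ.1
    obtain ⟨k1, k2⟩ := key ρ hρ
    obtain ⟨b1, b2⟩ := hB ρ hρ
    have hi : ρ⁻¹ ≤ ρ0⁻¹ := inv_anti₀ h0 hρ.1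
    have hi1 : 0 < ρ⁻¹ := inv_pos.2 hρ0
    have e : ‖-(ρ ^ 2)⁻¹ * s‖ = ρ⁻¹ * s * ρ⁻¹ := by
      rw [neg_mul, norm_neg, Real.norm_eq_abs, abs_of_nonneg (by positivity)]
      ring
    have t1 : ‖deriv b ρ * iteratedDeriv k V (ρ⁻¹ * s)‖ ≤ B * (C * (1 + s) ^ (-1 - (k : ℝ))) := by
      rw [norm_mul]
      exact mul_le_mul b2 k1 (norm_nonneg _) hB0
    have t2 : ‖b ρ * ((-(ρ ^ 2)⁻¹ * s) • iteratedDeriv (k + 1) V (ρ⁻¹ * s))‖ ≤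
        B * (C * (1 + s) ^ (-1 - (k : ℝ)) * ρ0⁻¹) := by
      rw [norm_mul, norm_smul, e]
      refine mul_le_mul b1 ?_ (by positivity) hB0
      calc ρ⁻¹ * s * ρ⁻¹ * ‖iteratedDeriv (k + 1) V (ρ⁻¹ * s)‖
          = ‖iteratedDeriv (k + 1) V (ρ⁻¹ * s)‖ * (ρ⁻¹ * s) * ρ⁻¹ := by ring
        _ ≤ _ := mul_le_mul k2 hi hi1.le (by positivity)
    refine (norm_add_le _ _).trans ((add_le_add t1 t2).trans (le_of_eq ?_))
    ring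
  intro ρ hρ
  refine ⟨?_, fun ρ' hρ' => ?_⟩
  · rw [norm_mul]
    have t := mul_le_mul (hB ρ hρ).1 (key ρ hρ).1 (norm_nonneg _) hB0
    refine t.trans ?_
    nlinarith
  · have t := (convex_Icc ρ0 1).norm_image_sub_le_of_norm_hasDerivWithin_le hder hbd hρ' hρ
    rw [Real.norm_eq_abs] at t
    refine t.trans (le_of_eq ?_)
    ring

theorem symP_scale {V : ℝ → ℂ} (hV : SymPS 1 V) {a : ℝ → ℂ}
    (ha : ∀ ρ, 0 < ρ → ContDiffAt ℝ 1 a ρ) {ρ0 : ℝ} (h0 : 0 < ρ0) (J : ℕ) :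
    ∃ C, 0 ≤ C ∧ ∀ ρ ∈ Set.Icc ρ0 1,
      Sym 2 J C (fun y => a ρ * V (‖y‖ ^ 2 / 4 / ρ)) ∧ ∀ ρ' ∈ Set.Icc ρ0 1,
        Sym 2 J (C * |ρ - ρ'|)
          (fun y => a ρ * V (‖y‖ ^ 2 / 4 / ρ) - a ρ' * V (‖y‖ ^ 2 / 4 / ρ')) := by
  have hsm : ∀ ρ : ℝ, ContDiff ℝ ∞ (fun s : ℝ => a ρ * V (ρ⁻¹ * s)) := fun ρ =>
    contDiff_const.mul (hV.1.comp (contDiff_const.mul contDiff_id))
  have hit : ∀ (ρ : ℝ) (k : ℕ) (s : ℝ), iteratedDeriv k (fun s : ℝ => a ρ * V (ρ⁻¹ * s)) s =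
      a ρ * ((ρ⁻¹ ^ k : ℝ) : ℂ) * iteratedDeriv k V (ρ⁻¹ * s) := by
    intro ρ k s
    rw [iteratedDeriv_const_mul_field,
      iteratedDeriv_comp_const_smul (hV.1.of_le (by exact_mod_cast le_top)), mul_assoc]
    simp only [Complex.real_smul]
  obtain ⟨C, hC0, hC⟩ := symP_unif (fun k C => ∀ s : ℝ, 0 ≤ s → ∀ ρ ∈ Set.Icc ρ0 1,
      ‖a ρ * ((ρ⁻¹ ^ k : ℝ) : ℂ) * iteratedDeriv k V (ρ⁻¹ * s)‖ ≤
        C * (1 + s) ^ (-1 - (k : ℝ)) ∧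
      ∀ ρ' ∈ Set.Icc ρ0 1,
        ‖a ρ * ((ρ⁻¹ ^ k : ℝ) : ℂ) * iteratedDeriv k V (ρ⁻¹ * s) -
          a ρ' * ((ρ'⁻¹ ^ k : ℝ) : ℂ) * iteratedDeriv k V (ρ'⁻¹ * s)‖ ≤
          C * |ρ - ρ'| * (1 + s) ^ (-1 - (k : ℝ)))
    (fun k C C' hCC h1 s hs ρ hρ => by
      have hp : 0 ≤ (1 + s) ^ (-1 - (k : ℝ)) := Real.rpow_nonneg (by linarith) _
      refine ⟨(h1 s hs ρ hρ).1.trans (mul_le_mul_of_nonneg_right hCC hp), fun ρ' hρ' =>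
        ((h1 s hs ρ hρ).2 ρ' hρ').trans ?_⟩
      exact mul_le_mul_of_nonneg_right (mul_le_mul_of_nonneg_right hCC (abs_nonneg _)) hp)
    (fun k => by
      obtain ⟨C, -, hC⟩ := symP_lip hV (b := fun ρ => a ρ * ((ρ⁻¹ ^ k : ℝ) : ℂ))
        (fun ρ hρ => (ha ρ hρ).mul (Complex.ofRealCLM.contDiff.contDiffAt.comp ρ
          ((contDiffAt_inv ℝ hρ.ne').pow k))) h0 k
      exact ⟨C, hC⟩) J
  obtain ⟨C0, h1, hC1⟩ := sym_rad 2 J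
  have e0 : ∀ k : ℕ, -(2 : ℝ) / 2 - (k : ℝ) = -1 - k := fun k => by ring
  have e1 : ∀ (ρ : ℝ) (y : E), ‖y‖ ^ 2 / 4 / ρ = ρ⁻¹ * (‖y‖ ^ 2 / 4) := fun ρ y => by ring
  simp only [e1]
  refine ⟨C0 * C, mul_nonneg h1 hC0, fun ρ hρ => ⟨?_, fun ρ' hρ' => ?_⟩⟩
  · refine hC1 (fun s : ℝ => a ρ * V (ρ⁻¹ * s)) C (hsm ρ) fun k hk s hs => ?_
    rw [hit, e0]
    exact (hC k hk s hs ρ hρ).1
  · rw [mul_assoc]
    refine hC1 (fun s : ℝ => a ρ * V (ρ⁻¹ * s) - a ρ' * V (ρ'⁻¹ * s)) (C * |ρ - ρ'|)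
      ((hsm ρ).sub (hsm ρ')) fun k hk s hs => ?_
    rw [iteratedDeriv_fun_sub (symP_at (hsm ρ) k s) (symP_at (hsm ρ') k s), hit, hit, e0]
    exact (hC k hk s hs ρ hρ).2 ρ' hρ'

theorem symP_cpow (c : ℂ) (ρ : ℝ) (hρ : 0 < ρ) :
    ContDiffAt ℝ 1 (fun ρ : ℝ => (ρ : ℂ) ^ c) ρ := by
  have h1 : AnalyticAt ℂ (fun z : ℂ => z ^ c) (ρ : ℂ) :=
    analyticAt_id.cpow analyticAt_const (Complex.ofReal_mem_slitPlane.2 hρ)
  exact (h1.contDiffAt.restrict_scalars ℝ).comp ρ Complex.ofRealCLM.contDiff.contDiffAt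

theorem Prof.sym_P (h : Prof m om w) (ρ0 : ℝ) (h0 : 0 < ρ0) (J : ℕ) : ∃ C, 0 ≤ C ∧
    ∀ ρ ∈ Set.Icc ρ0 1, Sym 2 J C (P1 m w ρ) ∧ Sym 2 J C (P2 m om w ρ) ∧ ∀ ρ' ∈ Set.Icc ρ0 1,
      Sym 2 J (C * |ρ - ρ'|) (fun y => P1 m w ρ y - P1 m w ρ' y) ∧
      Sym 2 J (C * |ρ - ρ'|) (fun y => P2 m om w ρ y - P2 m om w ρ' y) := by
  obtain ⟨C1, h1, H1⟩ := symP_scale h.symPS_V1 (a := fun ρ : ℝ => (ρ : ℂ)⁻¹)
    (fun ρ hρ => Complex.ofRealCLM.contDiff.contDiffAt.inv (by simpa using hρ.ne')) h0 J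
  obtain ⟨C2, h2, H2⟩ := symP_scale h.symPS_V2 (a := fun ρ : ℝ => (ρ : ℂ) ^ (-1 + 2 * I * om))
    (symP_cpow _) h0 J
  have a1 : C1 ≤ C1 + C2 := by linarith
  have a2 : C2 ≤ C1 + C2 := by linarith
  refine ⟨C1 + C2, by linarith, fun ρ hρ => ⟨(H1 ρ hρ).1.mono le_rfl le_rfl a1,
    (H2 ρ hρ).1.mono le_rfl le_rfl a2, fun ρ' hρ' => ⟨?_, ?_⟩⟩⟩
  · exact ((H1 ρ hρ).2 ρ' hρ').mono le_rfl le_rfl
      (mul_le_mul_of_nonneg_right a1 (abs_nonneg _))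
  · exact ((H2 ρ hρ).2 ρ' hρ').mono le_rfl le_rfl
      (mul_le_mul_of_nonneg_right a2 (abs_nonneg _))

/-- one dimensional symbol bounds of the potentials -/
theorem Prof.V_decay (h : Prof m om w) (k : ℕ) : ∃ C, ∀ s : ℝ, 0 ≤ s →
    ‖iteratedDeriv k (V1 m w) s‖ ≤ C * (1 + s) ^ (-1 - (k : ℝ)) ∧
    ‖iteratedDeriv k (V2 m w) s‖ ≤ C * (1 + s) ^ (-1 - (k : ℝ)) := by
  obtain ⟨C1, h1, H1⟩ := h.symPS_V1.unif k
  obtain ⟨C2, h2, H2⟩ := h.symPS_V2.unif k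
  refine ⟨C1 + C2, fun s hs => ?_⟩
  have hp : 0 ≤ (1 + s) ^ (-1 - (k : ℝ)) := Real.rpow_nonneg (by linarith) _
  exact ⟨(H1 k le_rfl s hs).trans (mul_le_mul_of_nonneg_right (by linarith) hp),
    (H2 k le_rfl s hs).trans (mul_le_mul_of_nonneg_right (by linarith) hp)⟩

theorem Prof.V_smooth (h : Prof m om w) : ContDiff ℝ ∞ (V1 m w) ∧ ContDiff ℝ ∞ (V2 m w) :=
  ⟨h.symPS_V1.1, h.symPS_V2.1⟩

end Vale.Agent.P139
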