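import Vale.Agent.P139.Good
import Vale.Agent.P139.OLad
import Vale.Agent.P139.SymP

open Complex MeasureTheory Filter Topology
open scoped ComplexConjugate ContDiff

namespace Vale.Agent.P139

structure Ctx (ε : ℝ) (m : ℕ) (om σ : ℝ) (w : ℝ → ℂ) : Prop where
  prof : Prof m om w
  good : Good ε m om σ w
  e0 : 0 < ε
  e1 : ε ≤ 1 / 1000
  o0 : 0.33 ≤ om
  o1 : om ≤ 0.34
  s0 : 2.7 ≤ σ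
  s1 : σ ≤ 2.71

/-- frequency size Λ -/
noncomputable def Lb (l : ℕ) (z : ℂ) : ℝ := Real.sqrt (1 + ‖z‖ + (l : ℝ) ^ 2)

noncomputable def en (L : ℝ) (f : ℝ → ℂ) (r : ℝ) : ℝ := ‖deriv f r‖ ^ 2 + L ^ 2 * ‖f r‖ ^ 2

noncomputable def ee (L : ℝ) (f g : ℝ → ℂ) (r : ℝ) : ℝ := en L f r + en L g r

/-- all ladder levels up to 8, in units of level 8 -/
noncomputable def EE (l : ℕ) (L : ℝ) (f g : ℝ → ℂ) (r : ℝ) : ℝ :=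
  ∑ k ∈ Finset.range 9, L ^ (2 * (8 - k)) * ee L (lad l k f) (lad l k g) r

/-- the decay given by partO -/
def Dec (l : ℕ) (f : ℝ → ℂ) : Prop :=
  ∃ C : ℝ, ∀ k ≤ 10, ∀ r : ℝ, 1 ≤ r → ‖lad l k f r‖ ≤ C * r ^ (1 / 2 - (k : ℝ))

/-- potential terms of the level k equation -/
noncomputable def Rk (m : ℕ) (w : ℝ → ℂ) (l k : ℕ) (f g : ℝ → ℂ) (r : ℝ) : ℂ :=
  ∑ i ∈ Finset.range (k + 1), (k.choose i : ℂ) * ((r / 2 : ℝ) : ℂ) ^ i *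
    (iteratedDeriv i (V1 m w) (r ^ 2 / 4) * lad l (k - i) f r
      + iteratedDeriv i (V2 m w) (r ^ 2 / 4) * lad l (k - i) g r)

noncomputable def M8 (l : ℕ) (f : ℝ → ℂ) (r : ℝ) : ℝ :=
  ∫ t in Set.Ioi r, t ^ 11 * ‖lad l 8 f t‖ ^ 2

noncomputable def Hi (l i : ℕ) (f : ℝ → ℂ) (r : ℝ) : ℝ :=
  ∫ t in Set.Ioi r, t ^ (21 / 2 - 2 * (i : ℝ)) * ‖lad l (8 - i) f t‖ ^ 2

/-- flux -/
noncomputable def Jf (f : ℝ → ℂ) (r : ℝ) : ℝ := (conj (f r) * deriv f r).im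

/-- oscillation energy -/
noncomputable def So (Ω : ℝ) (L : ℕ) (f : ℝ → ℂ) (r : ℝ) : ℝ :=
  ‖deriv f r‖ ^ 2 + (Ω - (L : ℝ) ^ 2 / r ^ 2) * ‖f r‖ ^ 2

/-- relative error size -/
noncomputable def eta (ε : ℝ) (l : ℕ) (z : ℂ) : ℝ := ε + 1 / Lb l z + z.re / Lb l z ^ 2

/-- homogeneous decaying solution in the closed right half plane -/
structure HSol (m : ℕ) (om : ℝ) (w : ℝ → ℂ) (l : ℕ) (z : ℂ) (f g : ℝ → ℂ) : Prop where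
  sol : RSol m om w l z f g 0 0
  re : 0 ≤ z.re
  df : Dec l f
  dg : Dec l g

/-! ### amplitude and phase variables -/

noncomputable def cW (w : ℝ → ℂ) (r : ℝ) : ℂ := w (r ^ 2 / 4)

noncomputable def cρ (w : ℝ → ℂ) (r : ℝ) : ℝ := ‖w (r ^ 2 / 4)‖ ^ 2

noncomputable def cn (w : ℝ → ℂ) (r : ℝ) : ℝ := r ^ 2 * (deriv w (r ^ 2 / 4) / w (r ^ 2 / 4)).re

noncomputable def cj (w : ℝ → ℂ) (r : ℝ) : ℝ :=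
  r / 2 + r * (deriv w (r ^ 2 / 4) / w (r ^ 2 / 4)).im

noncomputable def cq (m : ℕ) (w : ℝ → ℂ) (r : ℝ) : ℝ := 2 * m * ‖w (r ^ 2 / 4)‖ ^ (2 * m)

noncomputable def cA (w f g : ℝ → ℂ) (r : ℝ) : ℂ := (f r / cW w r + g r / conj (cW w r)) / 2

noncomputable def cT (w f g : ℝ → ℂ) (r : ℝ) : ℂ := (f r / cW w r - g r / conj (cW w r)) / (2 * I)

/-- abstract coefficients on [0, 3.46]; wall between rm and rp -/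
structure Cf (ε a rm rp : ℝ) (ρ n j q : ℝ → ℝ) : Prop where
  e0 : 0 < ε
  e1 : ε ≤ 1 / 1000
  a0 : 0 < a
  a1 : a ≤ ε
  r0 : 3.2 ≤ rm
  r1 : rm ≤ rp
  r2 : rp ≤ rm + 2 * ε
  r3 : rp ≤ 3.3
  cρ : ContDiff ℝ 1 ρ
  cn : ContDiff ℝ 1 n
  cj : ContDiff ℝ 1 j
  cq : ContDiff ℝ 1 q
  dρ : ∀ r, r * deriv ρ r = n r * ρ r
  dj : ∀ r, r * deriv j r = (6 - 2 * a) * r - (11 + n r) * j r
  ρ0 : ∀ r ∈ Set.Icc (0 : ℝ) 3.46, 1 / 4 ≤ ρ r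
  ρ1 : ∀ r ∈ Set.Icc (0 : ℝ) 3.46, ρ r ≤ 1
  n0 : ∀ r ∈ Set.Icc (0 : ℝ) 3.46, -2 ≤ n r
  n1 : ∀ r ∈ Set.Icc (0 : ℝ) 3.46, n r ≤ ε
  n2 : ∀ r ∈ Set.Icc (0 : ℝ) 3.46, |deriv n r| ≤ 20
  n3 : ∀ r ∈ Set.Icc (0 : ℝ) rp, |n r| ≤ 2 * ε * r ^ 2
  j0 : ∀ r ∈ Set.Icc (0 : ℝ) 3.46, 0 ≤ j r
  j1 : ∀ r ∈ Set.Icc (0 : ℝ) 3.46, j r ≤ r
  q0 : ∀ r, 0 ≤ q r
  q1 : ∀ r ∈ Set.Icc (0 : ℝ) 3.46, r * deriv q r ≤ (n r + 6 * ε) * q r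
  q2 : ∀ r ∈ Set.Icc rp 3.46, q r ≤ ε
  q3 : ∀ r ∈ Set.Icc (0 : ℝ) rm, 0.4 ≤ ε * q r

/-- (D + q) A = -T Θ + F1, D Θ = T A - F2, multiplied by μ = r^11 ρ -/
structure ASol (ρ j q : ℝ → ℝ) (l : ℕ) (z : ℂ) (A Θ F1 F2 : ℝ → ℂ) : Prop where
  cA : ContDiff ℝ 2 A
  cT : ContDiff ℝ 2 Θ
  c1 : Continuous F1
  c2 : Continuous F2
  e1 : ∀ r : ℝ, 0 ≤ r → HasDerivAt (fun t : ℝ => ((t ^ 11 * ρ t : ℝ) : ℂ) * deriv A t)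
    (((l * (l + 10) * r ^ 9 * ρ r + r ^ 11 * ρ r * q r : ℝ) : ℂ) * A r
      + ((r ^ 11 * ρ r : ℝ) : ℂ) * (z * Θ r + j r * deriv Θ r - F1 r)) r
  e2 : ∀ r : ℝ, 0 ≤ r → HasDerivAt (fun t : ℝ => ((t ^ 11 * ρ t : ℝ) : ℂ) * deriv Θ t)
    (((l * (l + 10) * r ^ 9 * ρ r : ℝ) : ℂ) * Θ r
      - ((r ^ 11 * ρ r : ℝ) : ℂ) * (z * A r + j r * deriv A r - F2 r)) r

/-- energy density -/
noncomputable def dens (ρ q : ℝ → ℝ) (l : ℕ) (A Θ : ℝ → ℂ) (r : ℝ) : ℝ :=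
  r ^ 11 * ρ r * (‖deriv A r‖ ^ 2 + ‖deriv Θ r‖ ^ 2 + q r * ‖A r‖ ^ 2)
    + l * (l + 10) * r ^ 9 * ρ r * (‖A r‖ ^ 2 + ‖Θ r‖ ^ 2)

structure Psi (B : ℝ) (ψ : ℝ → ℝ) : Prop where
  c : ContDiff ℝ 1 ψ
  one : ∀ r, r ≤ 3.36 → ψ r = 1
  zero : ∀ r, 3.4 ≤ r → ψ r = 0
  nn : ∀ r, 0 ≤ ψ r
  le : ∀ r, ψ r ≤ 1
  d0 : ∀ r, deriv ψ r ≤ 0
  d1 : ∀ r, -B ≤ deriv ψ r

noncomputable def Eψ (ψ ρ q : ℝ → ℝ) (l : ℕ) (A Θ : ℝ → ℂ) : ℝ :=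
  ∫ r in (0 : ℝ)..3.4, ψ r * dens ρ q l A Θ r

noncomputable def Nψ (ψ ρ : ℝ → ℝ) (h : ℝ → ℂ) : ℝ :=
  ∫ r in (0 : ℝ)..3.4, ψ r * (r ^ 11 * ρ r * ‖h r‖ ^ 2)

noncomputable def zp (A Θ : ℝ → ℂ) (r : ℝ) : ℂ := A r + I * Θ r

noncomputable def zm (A Θ : ℝ → ℂ) (r : ℝ) : ℂ := A r - I * Θ r

/-! ### bounded frequencies -/

noncomputable def dat (f g : ℝ → ℂ) (r : ℝ) : ℝ := ee 1 f g r

/-- Cauchy data at r = 3.4 -/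
noncomputable def D4 (f g : ℝ → ℂ) : EuclideanSpace ℂ (Fin 4) :=
  WithLp.toLp 2 ![f 3.4, deriv f 3.4, g 3.4, deriv g 3.4]

/-- Cauchy data at r = 3.4 from reduced data at s = 2.89 -/
noncomputable def lin4 (l : ℕ) (a b c d : ℂ) : EuclideanSpace ℂ (Fin 4) :=
  WithLp.toLp 2 ![3.4 ^ l * a, l / 3.4 * 3.4 ^ l * a + 3.4 ^ (l + 1) / 2 * b,
    3.4 ^ l * c, l / 3.4 * 3.4 ^ l * c + 3.4 ^ (l + 1) / 2 * d]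

/-- a sequence of problems approaching the hard wall limit -/
structure Seq (l : ℕ) (ε : ℕ → ℝ) (m : ℕ → ℕ) (om σ : ℕ → ℝ) (w : ℕ → ℝ → ℂ) (z κ : ℕ → ℂ)
    (f g e1 e2 : ℕ → ℝ → ℂ) (om' σ' : ℝ) (z' z0 κ' : ℂ) (d de : EuclideanSpace ℂ (Fin 4)) :
    Prop where
  ctx : ∀ n, Ctx (ε n) (m n) (om n) (σ n) (w n)
  tε : Tendsto ε atTop (𝓝 0)
  tom : Tendsto om atTop (𝓝 om')
  tσ : Tendsto σ atTop (𝓝 σ')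
  tz : Tendsto z atTop (𝓝 z')
  tκ : Tendsto κ atTop (𝓝 κ')
  he : ∀ n, HSol (m n) (om n) (w n) l z0 (e1 n) (e2 n)
  sol : ∀ n, RSol (m n) (om n) (w n) l (z n) (f n) (g n) (fun r => κ n * e1 n r)
    (fun r => κ n * e2 n r)
  re : ∀ n, 0 ≤ (z n).re
  df : ∀ n, Dec l (f n)
  dg : ∀ n, Dec l (g n)
  bκ : ∀ n, ‖κ n‖ ≤ 1
  bd : ∀ n, ‖D4 (f n) (g n)‖ ≤ 1
  be : ∀ n, ‖D4 (e1 n) (e2 n)‖ ≤ 1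
  td : Tendsto (fun n => D4 (f n) (g n)) atTop (𝓝 d)
  te : Tendsto (fun n => D4 (e1 n) (e2 n)) atTop (𝓝 de)

/-- u is the reduced exterior limit of the sequence F -/
structure Lim (l : ℕ) (σ : ℝ) (F : ℕ → ℝ → ℂ) (u : ℝ → ℂ) : Prop where
  smooth : ContDiffOn ℝ 10 u (Set.Ioi σ)
  slow : IntegrableOn (fun t : ℝ => t ^ (l + 13) * ‖iteratedDeriv 8 u t‖ ^ 2) (Set.Ioi (σ + 1))
  t0 : ∀ r : ℝ, 2 * Real.sqrt σ < r →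
    Tendsto (fun n => F n r) atTop (𝓝 ((r : ℂ) ^ l * u (r ^ 2 / 4)))
  t1 : ∀ r : ℝ, 2 * Real.sqrt σ < r →
    Tendsto (fun n => lad l 1 (F n) r) atTop (𝓝 ((r : ℂ) ^ (l + 1) / 2 * deriv u (r ^ 2 / 4)))

/-- every homogeneous solution vanishes -/
def Van (f g : ℝ → ℂ) : Prop := ∀ r : ℝ, 0 < r → f r = 0 ∧ g r = 0

end Vale.Agent.P139
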