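import Vale.Agent.P139.CHAX1

open Complex MeasureTheory Filter Topology
open scoped ComplexConjugate ContDiff

namespace Vale.Agent.P139

theorem cha_pt {r U J F S e H L η C1 C2 Cc : ℝ} (h1 : 0 ≤ C1) (h2 : 0 ≤ C2) (h3 : 0 ≤ Cc)
    (hL : 1 ≤ L) (he : 0 ≤ e) (hH : 0 ≤ H) (hη : 1 / L ≤ η) (r0 : 0 ≤ r) (r1 : r ≤ 3.4)
    (a1 : U ≤ S + Cc * e / L + H) (a2 : S ≤ C1 * L * F + C2 * η * e)
    (a3 : -(C2 * η * e / L) ≤ F) (a4 : F - Cc * e / L ^ 2 ≤ J) :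
    r * U ≤ 3.4 * C1 * L * J + 3.4 * (C1 + 1) * (C2 + Cc) * η * e + 4 * H := by
  have hL0 : 0 < L := by linarith
  have hη0 : 0 ≤ η := le_trans (by positivity) hη
  have b1 : Cc * e / L ≤ Cc * η * e := by
    calc Cc * e / L = Cc * (1 / L) * e := by ring
      _ ≤ _ := by gcongr
  have b2 : r * (L * F) ≤ 3.4 * (L * J + (C2 + Cc) * η * e) := by
    have c0 : 0 ≤ C2 * η * e := by positivity
    have c1 : 0 ≤ L * F + C2 * η * e := by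
      have : L * (-(C2 * η * e / L)) ≤ L * F := by gcongr
      have e1 : L * (-(C2 * η * e / L)) = -(C2 * η * e) := by field_simp
      linarith
    have c2 : L * F ≤ L * J + Cc * η * e := by
      have : L * (F - Cc * e / L ^ 2) ≤ L * J := by gcongr
      have e1 : L * (F - Cc * e / L ^ 2) = L * F - Cc * e / L := by field_simp
      linarith
    calc r * (L * F) ≤ r * (L * F + C2 * η * e) := by gcongr; linarith
      _ ≤ 3.4 * (L * F + C2 * η * e) := by gcongr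
      _ ≤ _ := by gcongr ?_ * ?_; linarith
  have b3 : C1 * (r * (L * F)) ≤ C1 * (3.4 * (L * J + (C2 + Cc) * η * e)) := by gcongr
  have b4 : r * ((C2 + Cc) * η * e) ≤ 3.4 * ((C2 + Cc) * η * e) := by gcongr
  have b5 : r * H ≤ 4 * H := by gcongr; linarith
  have b6 : r * U ≤ r * (C1 * L * F + (C2 + Cc) * η * e + H) := by gcongr; linarith
  linarith

/-- the data common to the three cases -/
structure CHAData (B L Cc K C E x y : ℝ) (ψ ρ : ℝ → ℝ) (f g A Θ : ℝ → ℂ) : Prop where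
  hB : 0 ≤ B
  hL : 1 ≤ L
  hCc : 0 ≤ Cc
  hK : 0 ≤ K
  hC : 0 ≤ C
  hE : 0 ≤ E
  hx : 0 ≤ x
  hy : 0 ≤ y
  hψ : Psi B ψ
  hρ : Continuous ρ
  hf : ContDiff ℝ 1 f
  hg : ContDiff ℝ 1 g
  hA : ContDiff ℝ 1 A
  hT : ContDiff ℝ 1 Θ
  ρ1 : ∀ r ∈ Set.Icc (3.36 : ℝ) 3.4, ρ r ≤ 1
  a3 : ∀ r ∈ Set.Icc (3.36 : ℝ) 3.4, Jf f r - Cc * ee L f g r / L ^ 2 ≤ ρ r * Jf (zp A Θ) r
  a4 : ∀ r ∈ Set.Icc (3.36 : ℝ) 3.4,
    ρ r * ‖deriv (zp A Θ) r‖ ^ 2 ≤ ‖deriv f r‖ ^ 2 + Cc * ee L f g r / L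
  a5 : ∀ r ∈ Set.Icc (3.36 : ℝ) 3.4, ρ r * ‖zp A Θ r‖ ^ 2 = ‖f r‖ ^ 2
  y1 : (∫ r in (3.36 : ℝ)..3.4, ee L f g r) ≤ K * E
  y2 : (∫ r in (3.36 : ℝ)..3.4, ee L A Θ r) ≤ K * E
  j1 : (x - 10) * E
      + y / 2 * (∫ r in (3.36 : ℝ)..3.4, (-deriv ψ r) * (r ^ 11 * ρ r * Jf (zp A Θ) r))
    ≤ C * (1 + x / L) * (∫ r in (3.36 : ℝ)..3.4, ee L A Θ r)
      + C * y / L * ∫ r in (3.36 : ℝ)..3.4, en L (zm A Θ) r

variable {B L Cc K C E x y : ℝ} {ψ ρ : ℝ → ℝ} {f g A Θ : ℝ → ℂ}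

theorem CHAData.caseD1 (h : CHAData B L Cc K C E x y ψ ρ f g A Θ) (hyx : y ≤ x)
    (l3 : 2 * (3 * C * K + B * 3.4 ^ 11 * (1 + Cc) * K / 2) ≤ L) (l4 : 2 * (10 + C * K) < x) :
    E ≤ 0 := by
  have hL := h.hL
  have hL0 : 0 < L := by linarith
  have hB := h.hB
  have hCc := h.hCc
  have hK := h.hK
  have hΦ := cha_flux (D := (1 + Cc) / L) h.hψ h.hρ (cha_Jf_cont (cha_zp_smooth h.hA h.hT))
    (cha_ee_cont L h.hf h.hg) (by positivity) (cha_ee_nonneg _ _ _) (fun r hr => by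
      have a1 := h.a3 r hr
      have a2 := cha_Jf_ge hL f g r
      have a3 := cha_ee_nonneg L f g r
      have a4 : Cc * ee L f g r / L ^ 2 ≤ Cc * ee L f g r / L := by
        gcongr; exact le_self_pow₀ hL two_ne_zero
      have a5 : (1 + Cc) / L * ee L f g r = ee L f g r / L + Cc * ee L f g r / L := by ring
      linarith)
  have hM : (∫ r in (3.36 : ℝ)..3.4, en L (zm A Θ) r) ≤ 2 * (K * E) :=
    (cha_mono (k := 2) (cha_en_cont L (cha_zm_smooth h.hA h.hT)) (cha_ee_cont L h.hA h.hT)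
      (by norm_num) fun r _ => cha_zm_le L h.hA h.hT r).trans (by gcongr; exact h.y2)
  refine cha_D1 h.hC hK (by positivity) hL h.j1 h.hy hyx (le_trans ?_ hΦ) h.y2 hM l3 l4
  rw [neg_le_neg_iff]
  calc _ ≤ B * 3.4 ^ 11 * ((1 + Cc) / L) * (K * E) := by gcongr; exact h.y1
    _ = _ := by ring

theorem cha_eta {ε x L : ℝ} (hε : 0 ≤ ε) (hx : 0 ≤ x) :
    1 / L ≤ ε + 1 / L + x / L ^ 2 := by
  have : 0 ≤ x / L ^ 2 := by positivity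
  linarith

theorem CHAData.caseD2 (h : CHAData B L Cc K C E x y ψ ρ f g A Θ) {C2 Cm ε δ : ℝ}
    (hC2 : 0 ≤ C2) (hCm : 0 ≤ Cm) (hε : 0 ≤ ε) (hδ : 0 < δ) (hyL : y ≤ L ^ 2)
    (o1 : ∀ r ∈ Set.Icc (3.36 : ℝ) 3.4,
      -(C2 * (ε + 1 / L + x / L ^ 2) * ee L f g r / L) ≤ Jf f r)
    (hM : (∫ r in (3.36 : ℝ)..3.4, en L (zm A Θ) r) ≤ Cm / L ^ 2 * (K * E)) (hx : δ * L ≤ x)
    (hε1 : B * 3.4 ^ 11 * (C2 + Cc) * K * ε ≤ δ / 2)
    (l5 : 4 * (B * 3.4 ^ 11 * (C2 + Cc) * K / 2 + C * K) ≤ L)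
    (l6 : 2 * (10 + B * 3.4 ^ 11 * (C2 + Cc) * K / 2 + C * K + C * Cm * K) < δ * L) :
    E ≤ 0 := by
  have hL := h.hL
  have hL0 : 0 < L := by linarith
  have hB := h.hB
  have hCc := h.hCc
  have hK := h.hK
  have hη1 := cha_eta (L := L) hε h.hx
  set η := ε + 1 / L + x / L ^ 2 with hη
  have hη0 : 0 ≤ η := le_trans (by positivity) hη1
  have hΦ := cha_flux (D := (C2 + Cc) * η / L) h.hψ h.hρ (cha_Jf_cont (cha_zp_smooth h.hA h.hT))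
    (cha_ee_cont L h.hf h.hg) (by positivity) (cha_ee_nonneg _ _ _) (fun r hr => by
      have a1 := h.a3 r hr
      have a2 := o1 r hr
      have a3 := cha_ee_nonneg L f g r
      have a4 : Cc * ee L f g r / L ^ 2 ≤ Cc * η * ee L f g r / L := by
        calc Cc * ee L f g r / L ^ 2 = Cc * (1 / L) * ee L f g r / L := by ring
          _ ≤ _ := by gcongr
      have a5 : (C2 + Cc) * η / L * ee L f g r
          = C2 * η * ee L f g r / L + Cc * η * ee L f g r / L := by ring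
      linarith)
  refine cha_D2 h.hC hK (by positivity) hCm hL hε hδ h.j1 h.hy hyL (le_trans ?_ hΦ) h.y2 hM hx
    hε1 l5 l6
  rw [neg_le_neg_iff, ← hη]
  calc _ ≤ B * 3.4 ^ 11 * ((C2 + Cc) * η / L) * (K * E) := by gcongr; exact h.y1
    _ = _ := by ring

theorem CHAData.caseV (h : CHAData B L Cc K C E x y ψ ρ f g A Θ) {C1 C2 Cm ε c : ℝ} {l : ℕ}
    (hC1 : 0 ≤ C1) (hC2 : 0 ≤ C2) (hCm : 0 ≤ Cm) (hε : 0 ≤ ε) (hc : 0 < c)
    (hy : c / 2 * L ^ 2 ≤ y) (hyL : y ≤ L ^ 2) (hxL : x ≤ L)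
    (o1 : ∀ r ∈ Set.Icc (3.36 : ℝ) 3.4,
      -(C2 * (ε + 1 / L + x / L ^ 2) * ee L f g r / L) ≤ Jf f r)
    (o2 : ∀ r ∈ Set.Icc (3.36 : ℝ) 3.4,
      So y l f r ≤ C1 * L * Jf f r + C2 * (ε + 1 / L + x / L ^ 2) * ee L f g r)
    (hM : (∫ r in (3.36 : ℝ)..3.4, en L (zm A Θ) r) ≤ Cm / L ^ 2 * (K * E)) :
    (∫ r in (3.36 : ℝ)..3.4, (-deriv ψ r) * (r ^ 12 * ρ r * (‖deriv (zp A Θ) r‖ ^ 2
        + (y - (l : ℝ) ^ 2 / r ^ 2) * ‖zp A Θ r‖ ^ 2 + ‖deriv (zm A Θ) r‖ ^ 2))) ≤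
      3.4 * C1 * (4 * (10 + 2 * C * K + C * Cm * K) / c) / L * E
        + B * 3.4 ^ 11 * (3.4 * (C1 + 1) * (C2 + Cc)) * K * (ε + 1 / L + x / L ^ 2) * E
        + B * 3.4 ^ 11 * 4 * Cm * K / L * E := by
  have hL := h.hL
  have hL0 : 0 < L := by linarith
  have hB := h.hB
  have hCc := h.hCc
  have hK := h.hK
  have hE := h.hE
  have hη1 := cha_eta (L := L) hε h.hx
  have v1 := cha_V1 h.hC hK hCm hL hc hE h.j1 h.hx hxL hy hyL h.y2 hM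
  set η := ε + 1 / L + x / L ^ 2 with hη
  have hη0 : 0 ≤ η := le_trans (by positivity) hη1
  have cU : ContinuousOn (fun r : ℝ => ‖deriv (zp A Θ) r‖ ^ 2
      + (y - (l : ℝ) ^ 2 / r ^ 2) * ‖zp A Θ r‖ ^ 2 + ‖deriv (zm A Θ) r‖ ^ 2)
      (Set.Icc (3.36 : ℝ) 3.4) := by
    have b1 := (cha_zp_smooth h.hA h.hT).continuous
    have b2 := (cha_zp_smooth h.hA h.hT).continuous_deriv le_rfl
    have b3 := (cha_zm_smooth h.hA h.hT).continuous_deriv le_rfl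
    refine ContinuousOn.add (ContinuousOn.add (by fun_prop) (ContinuousOn.mul
      (continuousOn_const.sub (continuousOn_const.div (by fun_prop) fun r hr => ?_))
      (by fun_prop))) (by fun_prop)
    have : 0 < r := by linarith [hr.1]
    positivity
  have v3 := cha_vir (a := 3.4 * C1 * L) (D := 3.4 * (C1 + 1) * (C2 + Cc) * η) h.hψ h.hρ
    (cha_Jf_cont (cha_zp_smooth h.hA h.hT)) (cha_ee_cont L h.hf h.hg)
    (cha_en_cont L (cha_zm_smooth h.hA h.hT)) cU (by positivity) (cha_ee_nonneg _ _ _)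
    (cha_en_nonneg _ _) (fun r hr => by
      refine cha_pt hC1 hC2 hCc hL (cha_ee_nonneg _ _ _ _) (cha_en_nonneg _ _ _) hη1
        (by linarith [hr.1]) hr.2 ?_ (o2 r hr) (o1 r hr) (h.a3 r hr)
      have a6 : ρ r * ‖deriv (zm A Θ) r‖ ^ 2 ≤ en L (zm A Θ) r := by
        have b1 : ρ r * ‖deriv (zm A Θ) r‖ ^ 2 ≤ 1 * ‖deriv (zm A Θ) r‖ ^ 2 := by
          gcongr; exact h.ρ1 r hr
        have b2 : 0 ≤ L ^ 2 * ‖zm A Θ r‖ ^ 2 := by positivity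
        unfold en
        linarith
      have a2 := h.a4 r hr
      unfold So
      rw [← h.a5 r hr]
      linarith)
  refine v3.trans (add_le_add (add_le_add ?_ ?_) ?_)
  · rw [mul_assoc (3.4 * C1)]
    calc _ ≤ 3.4 * C1 * (4 * (10 + 2 * C * K + C * Cm * K) / c / L * E) := by gcongr
      _ = _ := by ring
  · calc _ ≤ B * 3.4 ^ 11 * (3.4 * (C1 + 1) * (C2 + Cc) * η) * (K * E) := by gcongr; exact h.y1
      _ = _ := by ring
  · calc _ ≤ B * 3.4 ^ 11 * 4 * (Cm / L ^ 2 * (K * E)) := by gcongr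
      _ ≤ B * 3.4 ^ 11 * 4 * (Cm / L * (K * E)) := by
        gcongr; exact le_self_pow₀ hL two_ne_zero
      _ = _ := by ring

/-- choice of the small and large parameters -/
theorem cha_par {c a D Q : ℝ} (u1 u2 u3 u4 u5 u6 u7 u8 : ℝ) (hc : 0 < c) (ha : 0 ≤ a)
    (hD : 0 ≤ D) (hQ : 0 ≤ Q) : ∃ δ ε1 L1 : ℝ, 0 < δ ∧ δ ≤ 1 ∧ a * δ ≤ 1 / 4 ∧ 0 < ε1 ∧
      D * ε1 ≤ δ / 2 ∧ Q * ε1 ≤ 1 / 4 ∧ ∀ L, L1 ≤ L → u1 ≤ L ∧ u2 ≤ L ∧ u3 ≤ L ∧ u4 < c * L ∧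
        u5 ≤ L ∧ u6 < δ * L ∧ u7 ≤ c * L ∧ u8 ≤ L := by
  obtain ⟨δ, hδ0, hδ1, hδ2⟩ : ∃ δ : ℝ, 0 < δ ∧ δ ≤ 1 ∧ a * δ ≤ 1 / 4 := by
    refine ⟨1 / (4 * (a + 1)), by positivity, ?_, ?_⟩
    · rw [div_le_one (by positivity)]; linarith
    · rw [mul_one_div, div_le_div_iff₀ (by positivity) (by positivity)]; linarith
  obtain ⟨ε1, hε1, hε2, hε3⟩ : ∃ ε1 : ℝ, 0 < ε1 ∧ D * ε1 ≤ δ / 2 ∧ Q * ε1 ≤ 1 / 4 := by
    refine ⟨δ / (4 * (D + Q + 1)), by positivity, ?_, ?_⟩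
    · rw [← mul_div_assoc, div_le_div_iff₀ (by positivity) (by positivity)]; nlinarith
    · rw [← mul_div_assoc, div_le_div_iff₀ (by positivity) (by positivity)]; nlinarith
  have t1 : Tendsto (fun L : ℝ => c * L) atTop atTop := tendsto_id.const_mul_atTop hc
  have t2 : Tendsto (fun L : ℝ => δ * L) atTop atTop := tendsto_id.const_mul_atTop hδ0
  obtain ⟨L1, hL1⟩ := eventually_atTop.mp ((eventually_ge_atTop u1).and
    ((eventually_ge_atTop u2).and ((eventually_ge_atTop u3).and ((t1.eventually_gt_atTop u4).and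
    ((eventually_ge_atTop u5).and ((t2.eventually_gt_atTop u6).and
    ((t1.eventually_ge_atTop u7).and (eventually_ge_atTop u8))))))))
  exact ⟨δ, ε1, L1, hδ0, hδ1, hδ2, hε1, hε2, hε3, hL1⟩

end Vale.Agent.P139
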