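import Vale.Agent.P139.CDefs

open Complex MeasureTheory Filter Topology
open scoped ComplexConjugate ContDiff

namespace Vale.Agent.P139

/-- real inner product of two complex numbers -/
def ci1ip (u v : ℂ) : ℝ := u.re * v.re + u.im * v.im

theorem ci1_sq (u : ℂ) : ‖u‖ ^ 2 = ci1ip u u := by
  rw [Complex.sq_norm, Complex.normSq_apply]
  rfl

theorem ci1ip_nonneg (u : ℂ) : 0 ≤ ci1ip u u := by
  rw [← ci1_sq]
  positivity

theorem ci1_cont {f g : ℝ → ℂ} (hf : Continuous f) (hg : Continuous g) :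
    Continuous fun t => ci1ip (f t) (g t) := by
  unfold ci1ip
  fun_prop

theorem ci1_hd {f g : ℝ → ℂ} {f' g' : ℂ} {r : ℝ} (hf : HasDerivAt f f' r)
    (hg : HasDerivAt g g' r) :
    HasDerivAt (fun t => ci1ip (f t) (g t)) (ci1ip f' (g r) + ci1ip (f r) g') r := by
  have a1 : HasDerivAt (fun t => (f t).re) f'.re r :=
    Complex.reCLM.hasFDerivAt.comp_hasDerivAt r hf
  have a2 : HasDerivAt (fun t => (f t).im) f'.im r :=
    Complex.imCLM.hasFDerivAt.comp_hasDerivAt r hf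
  have a3 : HasDerivAt (fun t => (g t).re) g'.re r :=
    Complex.reCLM.hasFDerivAt.comp_hasDerivAt r hg
  have a4 : HasDerivAt (fun t => (g t).im) g'.im r :=
    Complex.imCLM.hasFDerivAt.comp_hasDerivAt r hg
  refine ((a1.mul a3).add (a2.mul a4)).congr_deriv ?_
  unfold ci1ip
  ring

theorem ci1_alg (A A1 A2 T T1 T2 z : ℂ) (m m' nk q j : ℝ)
    (e1 : (m' : ℂ) * A1 + m * A2 = ((nk + m * q : ℝ) : ℂ) * A + m * (z * T + j * T1 - 0))
    (e2 : (m' : ℂ) * T1 + m * T2 = nk * T - m * (z * A + j * A1 - 0)) :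
    m' * (ci1ip A1 (z * A) + ci1ip T1 (z * T))
      + m * (ci1ip A2 (z * A) + ci1ip A1 (z * A1) + (ci1ip T2 (z * T) + ci1ip T1 (z * T1)))
      + j * m * (ci1ip A2 A1 + ci1ip T2 T1) - nk * j * (ci1ip A1 A + ci1ip T1 T)
      - j * m * q * ci1ip A1 A
    = z.re * (m * (ci1ip A1 A1 + ci1ip T1 T1 + q * ci1ip A A) + nk * (ci1ip A A + ci1ip T T))
      - j * m' * (ci1ip A1 A1 + ci1ip T1 T1) := by
  have r1 := congrArg Complex.re e1
  have i1 := congrArg Complex.im e1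
  have r2 := congrArg Complex.re e2
  have i2 := congrArg Complex.im e2
  simp only [ci1ip, Complex.add_re, Complex.add_im, Complex.mul_re, Complex.mul_im,
    Complex.ofReal_re, Complex.ofReal_im, Complex.sub_re, Complex.sub_im, Complex.zero_re,
    Complex.zero_im] at r1 i1 r2 i2 ⊢
  linear_combination (z.re * A.re - z.im * A.im + j * A1.re) * r1
    + (z.re * A.im + z.im * A.re + j * A1.im) * i1
    + (z.re * T.re - z.im * T.im + j * T1.re) * r2
    + (z.re * T.im + z.im * T.re + j * T1.im) * i2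

/-- boundary part of the multiplier function -/
noncomputable def ci1X (ρ j : ℝ → ℝ) (z : ℂ) (A Θ : ℝ → ℂ) (t : ℝ) : ℝ :=
  t ^ 11 * ρ t * (ci1ip (deriv A t) (z * A t) + ci1ip (deriv Θ t) (z * Θ t))
    + j t * (t ^ 11 * ρ t) * (ci1ip (deriv A t) (deriv A t) + ci1ip (deriv Θ t) (deriv Θ t)) / 2

/-- signed part of the multiplier function -/
noncomputable def ci1Y (ρ j q : ℝ → ℝ) (l : ℕ) (A Θ : ℝ → ℂ) (t : ℝ) : ℝ :=
  l * (l + 10) * (t ^ 9 * ρ t * j t) * (ci1ip (A t) (A t) + ci1ip (Θ t) (Θ t)) / 2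
    + j t * (t ^ 11 * ρ t) * q t * ci1ip (A t) (A t) / 2

variable {ε a rm rp B : ℝ} {ρ n j q ψ : ℝ → ℝ} {l : ℕ} {z : ℂ} {A Θ : ℝ → ℂ}

theorem ci1_c2 {f : ℝ → ℂ} (hf : ContDiff ℝ 2 f) :
    Continuous f ∧ Continuous (deriv f) ∧ (∀ r, HasDerivAt f (deriv f r) r) ∧
      ∀ r, HasDerivAt (deriv f) (deriv (deriv f) r) r := by
  have h1 : ContDiff ℝ 1 (deriv f) := ContDiff.deriv' (n := 1) hf
  exact ⟨hf.continuous, h1.continuous,
    fun r => (hf.differentiable two_ne_zero r).hasDerivAt,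
    fun r => (h1.differentiable one_ne_zero r).hasDerivAt⟩

theorem ci1_F (hc : Cf ε a rm rp ρ n j q) (hs : ASol ρ j q l z A Θ 0 0) {r : ℝ}
    (hr : r ∈ Set.Icc (0 : ℝ) 3.46) :
    ∃ D : ℝ, HasDerivAt (fun t => ci1X ρ j z A Θ t - ci1Y ρ j q l A Θ t) D r ∧
      (z.re - 10) * dens ρ q l A Θ r ≤ D := by
  obtain ⟨-, -, dA, dA1⟩ := ci1_c2 hs.cA
  obtain ⟨-, -, dT, dT1⟩ := ci1_c2 hs.cT
  have dρ := (hc.cρ.differentiable one_ne_zero r).hasDerivAt
  have dj := (hc.cj.differentiable one_ne_zero r).hasDerivAt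
  have dq := (hc.cq.differentiable one_ne_zero r).hasDerivAt
  have eρ := hc.dρ r
  have ej := hc.dj r
  have hμ : HasDerivAt (fun t => t ^ 11 * ρ t) (r ^ 10 * ρ r * (11 + n r)) r := by
    refine ((hasDerivAt_pow 11 r).mul dρ).congr_deriv ?_
    push_cast
    linear_combination r ^ 10 * eρ
  have hjμ : HasDerivAt (fun t => j t * (t ^ 11 * ρ t)) ((6 - 2 * a) * (r ^ 11 * ρ r)) r := by
    refine (dj.mul hμ).congr_deriv ?_
    linear_combination r ^ 10 * ρ r * ej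
  have hkj : HasDerivAt (fun t => t ^ 9 * ρ t * j t)
      (r ^ 8 * ρ r * ((6 - 2 * a) * r - 2 * j r)) r := by
    refine (((hasDerivAt_pow 9 r).mul dρ).mul dj).congr_deriv ?_
    simp only [Pi.mul_apply]
    push_cast
    linear_combination r ^ 8 * j r * eρ + r ^ 8 * ρ r * ej
  have hq := hjμ.mul dq
  have e1 := (hμ.ofReal_comp.mul (dA1 r)).unique (hs.e1 r hr.1)
  have e2 := (hμ.ofReal_comp.mul (dT1 r)).unique (hs.e2 r hr.1)
  have alg := ci1_alg _ _ _ _ _ _ z (r ^ 11 * ρ r) (r ^ 10 * ρ r * (11 + n r))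
    (l * (l + 10) * r ^ 9 * ρ r) (q r) (j r) e1 e2
  have h1 := hμ.mul ((ci1_hd (dA1 r) ((dA r).const_mul z)).add
    (ci1_hd (dT1 r) ((dT r).const_mul z)))
  have h2 := (hjμ.mul ((ci1_hd (dA1 r) (dA1 r)).add (ci1_hd (dT1 r) (dT1 r)))).div_const 2
  have h3 := ((hkj.const_mul ((l : ℝ) * (l + 10))).mul
    ((ci1_hd (dA r) (dA r)).add (ci1_hd (dT r) (dT r)))).div_const 2
  have h4 := (hq.mul (ci1_hd (dA r) (dA r))).div_const 2
  refine ⟨_, (h1.add h2).sub (h3.add h4), ?_⟩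
  simp only [Pi.add_apply, Pi.mul_apply]
  unfold dens
  simp only [ci1_sq]
  have s1 : ∀ u v, ci1ip u v = ci1ip v u := fun u v => by unfold ci1ip; ring
  rw [s1 (deriv A r) (deriv (deriv A) r), s1 (deriv Θ r) (deriv (deriv Θ) r),
    s1 (A r) (deriv A r), s1 (Θ r) (deriv Θ r)]
  have p1 := ci1ip_nonneg (deriv A r)
  have p2 := ci1ip_nonneg (deriv Θ r)
  have p3 := ci1ip_nonneg (A r)
  have p4 := ci1ip_nonneg (Θ r)
  have hr0 := hr.1
  have hρ : 0 ≤ ρ r := le_trans (by norm_num) (hc.ρ0 r hr)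
  have hq0 := hc.q0 r
  have hj0 := hc.j0 r hr
  have hj1 := hc.j1 r hr
  have hn1 := hc.n1 r hr
  have hn0 := hc.n0 r hr
  have he1 := hc.e1
  have he0 := hc.e0
  have ha0 := hc.a0
  have ha1 := hc.a1
  have hq1 := hc.q1 r hr
  have hν : (0 : ℝ) ≤ l * (l + 10) := by positivity
  have c1 : 0 ≤ r ^ 10 * ρ r * ((13 - a) * r - j r * (11 + n r)) *
      (ci1ip (deriv A r) (deriv A r) + ci1ip (deriv Θ r) (deriv Θ r)) := by
    have : j r * (11 + n r) ≤ r * 12 := mul_le_mul hj1 (by linarith) (by linarith) hr0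
    have : 0 ≤ (13 - a) * r - j r * (11 + n r) := by nlinarith
    positivity
  have c2 : 0 ≤ l * (l + 10) * (r ^ 8 * ρ r * ((7 + a) * r + j r)) *
      (ci1ip (A r) (A r) + ci1ip (Θ r) (Θ r)) := by positivity
  have c3 : 0 ≤ r ^ 10 * ρ r * ((7 + a) * r * q r - j r * (r * deriv q r) / 2) *
      ci1ip (A r) (A r) := by
    have h5 : r * deriv q r ≤ 1 * q r := hq1.trans (mul_le_mul_of_nonneg_right (by linarith) hq0)
    have h6 : j r * (r * deriv q r) ≤ j r * (1 * q r) := mul_le_mul_of_nonneg_left h5 hj0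
    have h7 : j r * (1 * q r) ≤ r * (1 * q r) := mul_le_mul_of_nonneg_right hj1 (by linarith)
    have h8 : 0 ≤ r * q r := by positivity
    have : 0 ≤ (7 + a) * r * q r - j r * (r * deriv q r) / 2 := by nlinarith
    positivity
  linarith

theorem ci1_contX (hc : Cf ε a rm rp ρ n j q) (hs : ASol ρ j q l z A Θ 0 0) :
    Continuous (ci1X ρ j z A Θ) ∧ Continuous (ci1Y ρ j q l A Θ) ∧ Continuous (dens ρ q l A Θ) := by
  obtain ⟨cA, cA1, -, -⟩ := ci1_c2 hs.cA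
  obtain ⟨cT, cT1, -, -⟩ := ci1_c2 hs.cT
  have cρ := hc.cρ.continuous
  have cj := hc.cj.continuous
  have cq := hc.cq.continuous
  refine ⟨?_, ?_, ?_⟩
  · unfold ci1X ci1ip
    fun_prop
  · unfold ci1Y ci1ip
    fun_prop
  · unfold dens
    fun_prop

theorem ci1_int (hc : Cf ε a rm rp ρ n j q) (hψ : Psi B ψ) (hs : ASol ρ j q l z A Θ 0 0) :
    (z.re - 10) * Eψ ψ ρ q l A Θ
      + ∫ r in (3.36 : ℝ)..3.4, deriv ψ r * ci1X ρ j z A Θ r ≤ 0 := by
  obtain ⟨cX, cY, cD⟩ := ci1_contX hc hs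
  have cψ := hψ.c.continuous
  have cψ1 : Continuous (deriv ψ) := hψ.c.continuous_deriv le_rfl
  have c1 : Continuous fun r => (z.re - 10) * (ψ r * dens ρ q l A Θ r) := by fun_prop
  have c2 : Continuous fun r => deriv ψ r * ci1X ρ j z A Θ r := by fun_prop
  have key : ∀ r ∈ Set.Ioo (0 : ℝ) 3.4, ∃ D : ℝ,
      HasDerivAt (fun t => ψ t * (ci1X ρ j z A Θ t - ci1Y ρ j q l A Θ t)) D r ∧
      (z.re - 10) * (ψ r * dens ρ q l A Θ r) + deriv ψ r * ci1X ρ j z A Θ r ≤ D := by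
    intro r hr
    have hr' : r ∈ Set.Icc (0 : ℝ) 3.46 := ⟨hr.1.le, by linarith [hr.2]⟩
    obtain ⟨D, hD, hle⟩ := ci1_F hc hs hr'
    refine ⟨_, (hψ.c.differentiable one_ne_zero r).hasDerivAt.mul hD, ?_⟩
    have hY : 0 ≤ ci1Y ρ j q l A Θ r := by
      have p3 := ci1ip_nonneg (A r)
      have p4 := ci1ip_nonneg (Θ r)
      have hρ : 0 ≤ ρ r := le_trans (by norm_num) (hc.ρ0 r hr')
      have hq0 := hc.q0 r
      have hj0 := hc.j0 r hr'
      have hr0 := hr'.1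
      unfold ci1Y
      positivity
    have h1 := mul_le_mul_of_nonneg_left hle (hψ.nn r)
    have h2 := mul_nonneg (neg_nonneg.2 (hψ.d0 r)) hY
    linarith
  choose! D hD using key
  have h1 := intervalIntegral.integral_le_sub_of_hasDeriv_right_of_le (by norm_num)
    (cψ.mul (cX.sub cY)).continuousOn (fun r hr => (hD r hr).1.hasDerivWithinAt)
    ((c1.add c2).continuousOn.integrableOn_Icc) (fun r hr => (hD r hr).2)
  have h2 : ψ 3.4 = 0 := hψ.zero _ le_rfl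
  have h3 : ci1X ρ j z A Θ 0 - ci1Y ρ j q l A Θ 0 = 0 := by
    unfold ci1X ci1Y
    simp
  simp only [Pi.mul_apply, Pi.sub_apply, Pi.add_apply, h2, h3, zero_mul, mul_zero,
    sub_zero] at h1
  rw [intervalIntegral.integral_add (c1.intervalIntegrable _ _) (c2.intervalIntegrable _ _),
    intervalIntegral.integral_const_mul,
    ← intervalIntegral.integral_add_adjacent_intervals (c2.intervalIntegrable 0 3.36)
      (c2.intervalIntegrable 3.36 3.4)] at h1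
  have h4 : ∫ r in (0 : ℝ)..3.36, deriv ψ r * ci1X ρ j z A Θ r = 0 := by
    rw [intervalIntegral.integral_of_le (by norm_num), integral_Ioc_eq_integral_Ioo]
    refine setIntegral_eq_zero_of_forall_eq_zero fun r hr => ?_
    have : ψ =ᶠ[𝓝 r] fun _ => 1 := by
      filter_upwards [gt_mem_nhds hr.2] with t ht using hψ.one t ht.le
    rw [this.deriv_eq, deriv_const, zero_mul]
  rw [h4, zero_add] at h1
  exact h1

theorem ci1_pt (A A1 T T1 z : ℂ) (W C L j : ℝ) (hW : 0 ≤ W) (hWC : 2 * W ≤ C) (hL : 1 ≤ L)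
    (hj0 : 0 ≤ j) (hj : j ≤ 4) (hx : 0 ≤ z.re) (hy : z.im ≤ 0) :
    (-z.im) / 2 * (W * (conj (A + I * T) * (A1 + I * T1)).im)
      - C * (1 + z.re / L) * (‖A1‖ ^ 2 + L ^ 2 * ‖A‖ ^ 2 + (‖T1‖ ^ 2 + L ^ 2 * ‖T‖ ^ 2))
      - C * (-z.im) / L * (‖A1 - I * T1‖ ^ 2 + L ^ 2 * ‖A - I * T‖ ^ 2)
    ≤ -W * (ci1ip A1 (z * A) + ci1ip T1 (z * T) + j * (ci1ip A1 A1 + ci1ip T1 T1) / 2) := by
  have hL0 : 0 < L := by linarith
  obtain ⟨x, hx'⟩ : ∃ x, z.re = L * x := ⟨z.re / L, by field_simp⟩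
  obtain ⟨y, hy'⟩ : ∃ y, z.im = -(L * y) := ⟨-z.im / L, by field_simp⟩
  have hx0 : 0 ≤ x := by
    rw [hx'] at hx
    exact nonneg_of_mul_nonneg_right hx hL0
  have hy0 : 0 ≤ y := by
    rw [hy', neg_nonpos] at hy
    exact nonneg_of_mul_nonneg_right hy hL0
  have e1 : z.re / L = x := by rw [hx']; field_simp
  have e2 : C * (-z.im) / L = C * y := by rw [hy']; field_simp
  rw [e1, e2]
  set E1 := ‖A1‖ ^ 2 + L ^ 2 * ‖A‖ ^ 2 + (‖T1‖ ^ 2 + L ^ 2 * ‖T‖ ^ 2) with hE1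
  set E2 := ‖A1 - I * T1‖ ^ 2 + L ^ 2 * ‖A - I * T‖ ^ 2 with hE2
  have hE10 : 0 ≤ E1 := by positivity
  have hE20 : 0 ≤ E2 := by positivity
  have b1 : L * (ci1ip A1 A + ci1ip T1 T) ≤ E1 := by
    simp only [hE1, ci1_sq, ci1ip]
    nlinarith [sq_nonneg (A1.re - L * A.re), sq_nonneg (A1.im - L * A.im),
      sq_nonneg (T1.re - L * T.re), sq_nonneg (T1.im - L * T.im), sq_nonneg A1.re,
      sq_nonneg A1.im, sq_nonneg T1.re, sq_nonneg T1.im, sq_nonneg (L * A.re),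
      sq_nonneg (L * A.im), sq_nonneg (L * T.re), sq_nonneg (L * T.im)]
  have b2 : ci1ip A1 A1 + ci1ip T1 T1 ≤ E1 := by
    rw [← ci1_sq, ← ci1_sq, hE1]
    have : 0 ≤ L ^ 2 * ‖A‖ ^ 2 := by positivity
    have : 0 ≤ L ^ 2 * ‖T‖ ^ 2 := by positivity
    linarith
  have b3 : ∀ u v : ℂ, -(L * (conj u * v).im) ≤ ‖v‖ ^ 2 + L ^ 2 * ‖u‖ ^ 2 := fun u v => by
    simp only [ci1_sq, ci1ip, Complex.mul_im, Complex.conj_re, Complex.conj_im]
    nlinarith [sq_nonneg (v.im + L * u.re), sq_nonneg (v.re - L * u.im), sq_nonneg v.re,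
      sq_nonneg v.im, sq_nonneg (L * u.re), sq_nonneg (L * u.im)]
  have b4 := b3 (A - I * T) (A1 - I * T1)
  rw [← hE2] at b4
  have id1 : ci1ip A1 (z * A) + ci1ip T1 (z * T) = z.re * (ci1ip A1 A + ci1ip T1 T)
      + z.im * ((conj (A + I * T) * (A1 + I * T1)).im
        + (conj (A - I * T) * (A1 - I * T1)).im) / 2 := by
    simp only [ci1ip, Complex.mul_im, Complex.mul_re, Complex.conj_re, Complex.conj_im,
      Complex.add_re, Complex.add_im, Complex.sub_re, Complex.sub_im, Complex.I_re, Complex.I_im]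
    ring
  rw [id1, hx', hy']
  have p0 := add_nonneg (ci1ip_nonneg A1) (ci1ip_nonneg T1)
  generalize ci1ip A1 A1 + ci1ip T1 T1 = S at *
  generalize ci1ip A1 A + ci1ip T1 T = X at *
  generalize (conj (A + I * T) * (A1 + I * T1)).im = Jp at *
  generalize (conj (A - I * T) * (A1 - I * T1)).im = Jm at *
  have hC : 0 ≤ C := by linarith
  have f1 : W * x * (L * X) ≤ C * x * E1 :=
    (mul_le_mul_of_nonneg_left b1 (by positivity)).trans
      (mul_le_mul_of_nonneg_right (mul_le_mul_of_nonneg_right (by linarith) hx0) hE10)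
  have f2 : W * (j * S) ≤ 2 * C * E1 :=
    mul_le_mul (show W ≤ C / 2 by linarith) (mul_le_mul hj b2 p0 (by norm_num))
      (by positivity) (by linarith) |>.trans (le_of_eq (by ring))
  have f3 : W * y * (-(L * Jm)) ≤ C * y * E2 :=
    (mul_le_mul_of_nonneg_left b4 (by positivity)).trans
      (mul_le_mul_of_nonneg_right (mul_le_mul_of_nonneg_right (by linarith) hy0) hE20)
  have f4 : 0 ≤ C * y * E2 := by positivity
  linarith

/-- energy identity -/
theorem i1 (B : ℝ) (hB : 0 ≤ B) : ∃ C : ℝ, 0 ≤ C ∧ ∀ {ε a rm rp : ℝ} {ρ n j q ψ : ℝ → ℝ},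
    Cf ε a rm rp ρ n j q → Psi B ψ → ∀ {l : ℕ} {z : ℂ} {A Θ : ℝ → ℂ}, ASol ρ j q l z A Θ 0 0 →
    0 ≤ z.re → z.im ≤ 0 → ∀ L : ℝ, 1 ≤ L →
      (z.re - 10) * Eψ ψ ρ q l A Θ
        + (-z.im) / 2 * (∫ r in (3.36 : ℝ)..3.4, (-deriv ψ r) * (r ^ 11 * ρ r * Jf (zp A Θ) r))
      ≤ C * (1 + z.re / L) * (∫ r in (3.36 : ℝ)..3.4, ee L A Θ r)
        + C * (-z.im) / L * ∫ r in (3.36 : ℝ)..3.4, en L (zm A Θ) r := by
  refine ⟨2 * (B * 3.4 ^ 11), by positivity, ?_⟩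
  intro ε a rm rp ρ n j q ψ hc hψ l z A Θ hs hx hy L hL
  have h1 := ci1_int hc hψ hs
  obtain ⟨cX, -, -⟩ := ci1_contX hc hs
  obtain ⟨cA, cA1, dA, -⟩ := ci1_c2 hs.cA
  obtain ⟨cT, cT1, dT, -⟩ := ci1_c2 hs.cT
  have cρ := hc.cρ.continuous
  have cψ1 : Continuous (deriv ψ) := hψ.c.continuous_deriv le_rfl
  have dp : deriv (zp A Θ) = fun r => deriv A r + I * deriv Θ r :=
    funext fun r => ((dA r).add ((dT r).const_mul I)).deriv
  have dm : deriv (zm A Θ) = fun r => deriv A r - I * deriv Θ r :=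
    funext fun r => ((dA r).sub ((dT r).const_mul I)).deriv
  have c1 : Continuous fun r => (-deriv ψ r) * (r ^ 11 * ρ r * Jf (zp A Θ) r) := by
    unfold Jf
    rw [dp]
    unfold zp
    fun_prop
  have c2 : Continuous fun r => ee L A Θ r := by
    unfold ee en
    fun_prop
  have c3 : Continuous fun r => en L (zm A Θ) r := by
    unfold en
    rw [dm]
    unfold zm
    fun_prop
  have c4 : Continuous fun r => deriv ψ r * ci1X ρ j z A Θ r := by fun_prop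
  have c1' : Continuous fun r =>
      (-z.im) / 2 * ((-deriv ψ r) * (r ^ 11 * ρ r * Jf (zp A Θ) r)) := continuous_const.mul c1
  have c2' : Continuous fun r => 2 * (B * 3.4 ^ 11) * (1 + z.re / L) * ee L A Θ r :=
    continuous_const.mul c2
  have c3' : Continuous fun r => 2 * (B * 3.4 ^ 11) * (-z.im) / L * en L (zm A Θ) r :=
    continuous_const.mul c3
  have c12 : Continuous fun r => (-z.im) / 2 * ((-deriv ψ r) * (r ^ 11 * ρ r * Jf (zp A Θ) r))
      - 2 * (B * 3.4 ^ 11) * (1 + z.re / L) * ee L A Θ r := c1'.sub c2'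
  have h2 : ∫ r in (3.36 : ℝ)..3.4,
      ((-z.im) / 2 * ((-deriv ψ r) * (r ^ 11 * ρ r * Jf (zp A Θ) r))
        - 2 * (B * 3.4 ^ 11) * (1 + z.re / L) * ee L A Θ r
        - 2 * (B * 3.4 ^ 11) * (-z.im) / L * en L (zm A Θ) r)
      ≤ ∫ r in (3.36 : ℝ)..3.4, deriv ψ r * ci1X ρ j z A Θ r := by
    refine intervalIntegral.integral_mono_on (by norm_num)
      ((c12.sub c3').intervalIntegrable _ _) (c4.intervalIntegrable _ _) fun r hr => ?_
    have hr' : r ∈ Set.Icc (0 : ℝ) 3.46 := ⟨by linarith [hr.1], by linarith [hr.2]⟩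
    have hρ : 0 ≤ ρ r := le_trans (by norm_num) (hc.ρ0 r hr')
    have hd0 := neg_nonneg.2 (hψ.d0 r)
    have hr0 := hr'.1
    have hm : r ^ 11 * ρ r ≤ 3.4 ^ 11 * 1 :=
      mul_le_mul (pow_le_pow_left₀ hr0 hr.2 11) (hc.ρ1 r hr') hρ (by positivity)
    have hW : (-deriv ψ r) * (r ^ 11 * ρ r) ≤ B * (3.4 ^ 11 * 1) :=
      mul_le_mul (by linarith [hψ.d1 r]) hm (by positivity) hB
    have h3 := ci1_pt (A r) (deriv A r) (Θ r) (deriv Θ r) z ((-deriv ψ r) * (r ^ 11 * ρ r))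
      (2 * (B * 3.4 ^ 11)) L (j r) (by positivity) (by linarith) hL (hc.j0 r hr')
      (by linarith [hc.j1 r hr', hr.2]) hx hy
    unfold Jf ee en ci1X
    rw [dp, dm]
    unfold zp zm
    linarith
  rw [intervalIntegral.integral_sub (c12.intervalIntegrable _ _)
      (c3'.intervalIntegrable _ _),
    intervalIntegral.integral_sub (c1'.intervalIntegrable _ _) (c2'.intervalIntegrable _ _),
    intervalIntegral.integral_const_mul, intervalIntegral.integral_const_mul,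
    intervalIntegral.integral_const_mul] at h2
  linarith

end Vale.Agent.P139
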