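import Vale.Agent.P139.CDefs

open Complex MeasureTheory Filter Topology
open scoped ComplexConjugate ContDiff

namespace Vale.Agent.P139

/-- real inner product on the complex numbers -/
def ci2ip (p u : ℂ) : ℝ := p.re * u.re + p.im * u.im

theorem ci2ip_self (u : ℂ) : ci2ip u u = ‖u‖ ^ 2 := by
  rw [Complex.sq_norm, normSq_apply, ci2ip]

theorem ci2ip_abs (p u : ℂ) : |ci2ip p u| ≤ ‖p‖ * ‖u‖ := by
  have h : ci2ip p u = (p * conj u).re := by simp [ci2ip]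
  rw [h]
  refine (abs_re_le_norm _).trans (le_of_eq ?_)
  rw [norm_mul, Complex.norm_conj]

theorem ci2ip_deriv {f g : ℝ → ℂ} {f' g' : ℂ} {r : ℝ} (hf : HasDerivAt f f' r)
    (hg : HasDerivAt g g' r) :
    HasDerivAt (fun t => ci2ip (f t) (g t)) (ci2ip f' (g r) + ci2ip (f r) g') r := by
  have h1 : HasDerivAt (fun t => (f t).re) f'.re r := reCLM.hasFDerivAt.comp_hasDerivAt r hf
  have h2 : HasDerivAt (fun t => (f t).im) f'.im r := imCLM.hasFDerivAt.comp_hasDerivAt r hf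
  have h3 : HasDerivAt (fun t => (g t).re) g'.re r := reCLM.hasFDerivAt.comp_hasDerivAt r hg
  have h4 : HasDerivAt (fun t => (g t).im) g'.im r := imCLM.hasFDerivAt.comp_hasDerivAt r hg
  refine ((h1.fun_mul h3).fun_add (h2.fun_mul h4)).congr_deriv ?_
  unfold ci2ip
  ring

noncomputable def ci2F (ν r n j q : ℝ) (z u p v s : ℂ) : ℝ :=
  r ^ 2 * (ci2ip p p + ci2ip s s) / 2 - ν * (ci2ip u u + ci2ip v v) / 2
    - r ^ 2 * q * ci2ip u u / 2 + r * (13 / 2 + n) * ci2ip p u + r * (11 / 2) * ci2ip s v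
    - r ^ 2 * ci2ip (z * v) u + 11 / 2 * r * j * ci2ip u v

noncomputable def ci2D (ν r n n' j q q' a x : ℝ) (u p v s : ℂ) : ℝ :=
  (3 / 2 + n / 2) * (r ^ 2 * ci2ip p p + ν * ci2ip u u)
    + (1 / 2 - n / 2) * (r ^ 2 * ci2ip s s + ν * ci2ip v v)
    + ((1 / 2 + n / 2) * r ^ 2 * q - r ^ 3 * q' / 2) * ci2ip u u + n' * r ^ 2 * ci2ip p u
    - 2 * x * r ^ 2 * (r * ci2ip u s + 11 / 2 * ci2ip u v)
    + r ^ 2 * j * (12 + n) * ci2ip s u + 11 / 2 * (6 - 2 * a) * r ^ 2 * ci2ip u v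

theorem ci2_dF {ν r n' j' q' : ℝ} {n j q : ℝ → ℝ} {z p' s' : ℂ} {u p v s : ℝ → ℂ}
    (hn : HasDerivAt n n' r) (hj : HasDerivAt j j' r) (hq : HasDerivAt q q' r)
    (hu : HasDerivAt u (p r) r) (hp : HasDerivAt p p' r) (hv : HasDerivAt v (s r) r)
    (hs : HasDerivAt s s' r) :
    HasDerivAt (fun t => ci2F ν t (n t) (j t) (q t) z (u t) (p t) (v t) (s t))
      (r * (ci2ip (p r) (p r) + ci2ip (s r) (s r)) + r ^ 2 * (ci2ip p' (p r) + ci2ip s' (s r))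
        - ν * (ci2ip (p r) (u r) + ci2ip (s r) (v r))
        - (r * q r * ci2ip (u r) (u r) + r ^ 2 * q' * ci2ip (u r) (u r) / 2
          + r ^ 2 * q r * ci2ip (p r) (u r))
        + ((13 / 2 + n r + r * n') * ci2ip (p r) (u r)
          + r * (13 / 2 + n r) * (ci2ip p' (u r) + ci2ip (p r) (p r)))
        + (11 / 2 * ci2ip (s r) (v r) + r * (11 / 2) * (ci2ip s' (v r) + ci2ip (s r) (s r)))
        - (2 * r * ci2ip (z * v r) (u r)
          + r ^ 2 * (ci2ip (z * s r) (u r) + ci2ip (z * v r) (p r)))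
        + 11 / 2 * ((j r + r * j') * ci2ip (u r) (v r)
          + r * j r * (ci2ip (p r) (v r) + ci2ip (u r) (s r)))) r := by
  have h0 := hasDerivAt_id' r
  have h2 := hasDerivAt_pow 2 r
  have a1 := (h2.fun_mul ((ci2ip_deriv hp hp).fun_add (ci2ip_deriv hs hs))).div_const 2
  have a2 := (((ci2ip_deriv hu hu).fun_add (ci2ip_deriv hv hv)).const_mul ν).div_const 2
  have a3 := ((h2.fun_mul hq).fun_mul (ci2ip_deriv hu hu)).div_const 2
  have a4 := (h0.fun_mul (hn.const_add (13 / 2))).fun_mul (ci2ip_deriv hp hu)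
  have a5 := (h0.mul_const (11 / 2)).fun_mul (ci2ip_deriv hs hv)
  have a6 := h2.fun_mul (ci2ip_deriv (hv.const_mul z) hu)
  have a7 := ((h0.const_mul (11 / 2)).fun_mul hj).fun_mul (ci2ip_deriv hu hv)
  refine ((((((a1.fun_sub a2).fun_sub a3).fun_add a4).fun_add a5).fun_sub a6).fun_add
    a7).congr_deriv ?_
  unfold ci2ip
  push_cast
  ring

theorem ci2_eq1 {m m' c j : ℝ} {z u p p' v s : ℂ}
    (h : (m' : ℂ) * p + m * p' = c * u + m * (z * v + j * s - 0)) :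
    m' * p.re + m * p'.re = c * u.re + m * (z.re * v.re - z.im * v.im + j * s.re) ∧
      m' * p.im + m * p'.im = c * u.im + m * (z.re * v.im + z.im * v.re + j * s.im) := by
  have h1 := congrArg re h
  have h2 := congrArg im h
  simp only [add_re, add_im, mul_re, mul_im, ofReal_re, ofReal_im, sub_zero, zero_mul,
    add_zero] at h1 h2
  exact ⟨h1, h2⟩

theorem ci2_eq2 {m m' c j : ℝ} {z u p s' v s : ℂ}
    (h : (m' : ℂ) * s + m * s' = c * v - m * (z * u + j * p - 0)) :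
    m' * s.re + m * s'.re = c * v.re - m * (z.re * u.re - z.im * u.im + j * p.re) ∧
      m' * s.im + m * s'.im = c * v.im - m * (z.re * u.im + z.im * u.re + j * p.im) := by
  have h1 := congrArg re h
  have h2 := congrArg im h
  simp only [add_re, add_im, sub_re, sub_im, mul_re, mul_im, ofReal_re, ofReal_im, sub_zero,
    zero_mul, add_zero] at h1 h2
  exact ⟨h1, h2⟩

theorem ci2_d1 {f : ℝ → ℝ} (h : ContDiff ℝ 1 f) (r : ℝ) : HasDerivAt f (deriv f r) r :=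
  (h.differentiable one_ne_zero r).hasDerivAt

theorem ci2_d2 {f : ℝ → ℂ} (h : ContDiff ℝ 2 f) (r : ℝ) :
    HasDerivAt f (deriv f r) r ∧ HasDerivAt (deriv f) (deriv (deriv f) r) r := by
  have h1 : ContDiff ℝ 1 (deriv f) := (contDiff_succ_iff_deriv (n := 1).1 h).2.2
  exact ⟨(h.differentiable two_ne_zero r).hasDerivAt, (h1.differentiable one_ne_zero r).hasDerivAt⟩

theorem ci2_c2 {f : ℝ → ℂ} (h : ContDiff ℝ 2 f) : Continuous f ∧ Continuous (deriv f) :=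
  ⟨h.continuous, h.continuous_deriv one_le_two⟩

theorem ci2_dH {ε a rm rp : ℝ} {ρ n j q : ℝ → ℝ} (hc : Cf ε a rm rp ρ n j q) {l : ℕ} {z : ℂ}
    {A Θ : ℝ → ℂ} (h : ASol ρ j q l z A Θ 0 0) {r : ℝ} (hr : 0 ≤ r) :
    HasDerivAt (fun t => t ^ 10 * ρ t * ci2F (l * (l + 10)) t (n t) (j t) (q t) z (A t)
        (deriv A t) (Θ t) (deriv Θ t))
      (r ^ 9 * ρ r * ci2D (l * (l + 10)) r (n r) (deriv n r) (j r) (q r) (deriv q r) a z.re (A r)
        (deriv A r) (Θ r) (deriv Θ r)) r := by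
  have hρ := ci2_d1 hc.cρ r
  have dρ := hc.dρ r
  have dj := hc.dj r
  have k10 : HasDerivAt (fun t => t ^ 10 * ρ t) ((10 + n r) * r ^ 9 * ρ r) r := by
    refine ((hasDerivAt_pow 10 r).fun_mul hρ).congr_deriv ?_
    push_cast
    linear_combination r ^ 9 * dρ
  have k11 : HasDerivAt (fun t => t ^ 11 * ρ t) ((11 + n r) * r ^ 10 * ρ r) r := by
    refine ((hasDerivAt_pow 11 r).fun_mul hρ).congr_deriv ?_
    push_cast
    linear_combination r ^ 10 * dρ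
  obtain ⟨a1, a2⟩ := ci2_d2 h.cA r
  obtain ⟨t1, t2⟩ := ci2_d2 h.cT r
  obtain ⟨e1, e2⟩ := ci2_eq1 ((k11.ofReal_comp.fun_mul a2).unique (h.e1 r hr))
  obtain ⟨e3, e4⟩ := ci2_eq2 ((k11.ofReal_comp.fun_mul t2).unique (h.e2 r hr))
  refine (k10.fun_mul (ci2_dF (ν := l * (l + 10)) (z := z) (ci2_d1 hc.cn r) (ci2_d1 hc.cj r)
    (ci2_d1 hc.cq r) a1 a2 t1 t2)).congr_deriv ?_
  unfold ci2F ci2D ci2ip
  simp only [mul_re, mul_im]
  generalize deriv (deriv A) r = p' at *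
  generalize deriv (deriv Θ) r = s' at *
  generalize deriv A r = p at *
  generalize deriv Θ r = s at *
  linear_combination (r * p.re + (13 / 2 + n r) * (A r).re) * e1
    + (r * p.im + (13 / 2 + n r) * (A r).im) * e2
    + (r * s.re + 11 / 2 * (Θ r).re) * e3 + (r * s.im + 11 / 2 * (Θ r).im) * e4
    + r ^ 10 * ρ r * (11 / 2) * ((A r).re * (Θ r).re + (A r).im * (Θ r).im) * dj

theorem ci2_bulk {ν r n n' j q q' a x ε : ℝ} (u p v s : ℂ) (hν : 0 ≤ ν) (r0 : 0 ≤ r)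
    (r1 : r ≤ 3.4) (n0 : -2 ≤ n) (n1 : n ≤ ε) (e1 : ε ≤ 1 / 1000) (n2 : |n'| ≤ 20) (j0 : 0 ≤ j)
    (j1 : j ≤ r) (q0 : 0 ≤ q) (q1 : r * q' ≤ (n + 6 * ε) * q) (a0 : 0 < a) (a1 : a ≤ ε)
    (hx : 0 ≤ x) :
    r ^ 2 * (‖p‖ ^ 2 + ‖s‖ ^ 2 + q * ‖u‖ ^ 2) + ν * (‖u‖ ^ 2 + ‖v‖ ^ 2) ≤
      4 * ci2D ν r n n' j q q' a x u p v s
        + 200 * (1 + x) * (r ^ 2 * (‖u‖ * ‖p‖ + ‖u‖ * ‖s‖ + ‖u‖ * ‖v‖)) := by
  unfold ci2D
  rw [ci2ip_self, ci2ip_self, ci2ip_self, ci2ip_self]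
  have key : ∀ (c K : ℝ) (y w : ℂ), |c| ≤ K → -(K * (r ^ 2 * (‖y‖ * ‖w‖))) ≤
      c * r ^ 2 * ci2ip y w := by
    intro c K y w hc
    have h1 : |c * r ^ 2 * ci2ip y w| ≤ K * r ^ 2 * (‖y‖ * ‖w‖) := by
      rw [abs_mul, abs_mul, abs_of_nonneg (sq_nonneg r)]
      have := ci2ip_abs y w
      have : 0 ≤ K := (abs_nonneg c).trans hc
      gcongr
    have h2 := (abs_le.1 h1).1
    linarith
  have b1 := key n' 20 p u n2
  have b2 := key (-(2 * x * r)) (7 * x) u s (by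
    rw [abs_neg, abs_of_nonneg (by positivity)]; nlinarith)
  have b3 := key (-(11 * x)) (11 * x) u v (by rw [abs_neg, abs_of_nonneg (by positivity)])
  have b4 := key (j * (12 + n)) 45 s u (by
    rw [abs_of_nonneg (mul_nonneg j0 (by linarith))]; nlinarith)
  have b5 := key (11 / 2 * (6 - 2 * a)) 33 u v (by
    rw [abs_of_nonneg (mul_nonneg (by norm_num) (by linarith))]; linarith)
  have c1 : 0 ≤ r ^ 2 * (‖u‖ * ‖p‖) := by positivity
  have c2 : 0 ≤ r ^ 2 * (‖u‖ * ‖s‖) := by positivity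
  have c3 : 0 ≤ r ^ 2 * (‖u‖ * ‖v‖) := by positivity
  have c4 := mul_nonneg hx c1
  have c5 := mul_nonneg hx c2
  have c6 := mul_nonneg hx c3
  have d1 : 1 / 4 * (r ^ 2 * ‖p‖ ^ 2 + ν * ‖u‖ ^ 2) ≤
      (3 / 2 + n / 2) * (r ^ 2 * ‖p‖ ^ 2 + ν * ‖u‖ ^ 2) :=
    mul_le_mul_of_nonneg_right (by linarith) (by positivity)
  have d2 : 1 / 4 * (r ^ 2 * ‖s‖ ^ 2 + ν * ‖v‖ ^ 2) ≤
      (1 / 2 - n / 2) * (r ^ 2 * ‖s‖ ^ 2 + ν * ‖v‖ ^ 2) :=
    mul_le_mul_of_nonneg_right (by linarith) (by positivity)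
  have d3 : 1 / 4 * q * (r ^ 2 * ‖u‖ ^ 2) ≤
      ((1 / 2 + n / 2) * q - r * q' / 2) * (r ^ 2 * ‖u‖ ^ 2) := by
    refine mul_le_mul_of_nonneg_right ?_ (by positivity)
    have : ε * q ≤ 1 / 1000 * q := mul_le_mul_of_nonneg_right e1 q0
    linarith
  linarith

theorem ci2_key (c K : ℝ) (y w : ℂ) (hc : |c| ≤ K) : c * ci2ip y w ≤ K * (‖y‖ * ‖w‖) := by
  refine (le_abs_self _).trans ?_
  rw [abs_mul]
  exact mul_le_mul hc (ci2ip_abs y w) (abs_nonneg _) ((abs_nonneg c).trans hc)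

theorem ci2_par (z u p v s : ℂ) :
    ‖p + I * s‖ ^ 2 + ‖p - I * s‖ ^ 2 = 2 * (ci2ip p p + ci2ip s s) ∧
      4 * ci2ip (z * v) u = 4 * z.re * ci2ip u v
        + z.im * (‖u + I * v‖ ^ 2 - ‖u - I * v‖ ^ 2) := by
  constructor <;> rw [← ci2ip_self, ← ci2ip_self] <;>
    simp only [ci2ip, add_re, add_im, sub_re, sub_im, mul_re, mul_im, I_re, I_im] <;> ring

theorem ci2_amgm {L : ℝ} (hL : 0 < L) (a b c d : ℝ) :
    a * b + c * d ≤ (a ^ 2 + L ^ 2 * b ^ 2 + (c ^ 2 + L ^ 2 * d ^ 2)) / L / 2 ∧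
      b * d ≤ (a ^ 2 + L ^ 2 * b ^ 2 + (c ^ 2 + L ^ 2 * d ^ 2)) / L / L / 2 := by
  constructor
  · rw [le_div_iff₀ two_pos, le_div_iff₀ hL]
    linarith [sq_nonneg (a - L * b), sq_nonneg (c - L * d)]
  · rw [le_div_iff₀ two_pos, le_div_iff₀ hL, le_div_iff₀ hL]
    linarith [sq_nonneg (L * b - L * d), sq_nonneg a, sq_nonneg c]

theorem ci2_edge {r n j q ε L : ℝ} (l : ℕ) (z u p v s : ℂ) (r0 : 3.36 ≤ r) (r1 : r ≤ 3.4)
    (n0 : -2 ≤ n) (n1 : n ≤ ε) (e1 : ε ≤ 1 / 1000) (j0 : 0 ≤ j) (j1 : j ≤ r) (q0 : 0 ≤ q)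
    (hx : 0 ≤ z.re) (hy : z.im ≤ 0) (hL : 1 ≤ L) :
    4 * ci2F (l * (l + 10)) r n j q z u p v s ≤
      r ^ 2 * (‖p + I * s‖ ^ 2 + (-z.im - (l : ℝ) ^ 2 / r ^ 2) * ‖u + I * v‖ ^ 2 + ‖p - I * s‖ ^ 2)
        + 220 * ((1 + z.re / L) / L * (‖p‖ ^ 2 + L ^ 2 * ‖u‖ ^ 2 + (‖s‖ ^ 2 + L ^ 2 * ‖v‖ ^ 2))) := by
  have hr : 0 < r := by linarith
  have m1 : r * (13 / 2 + n) ≤ 24 := by nlinarith
  have m2 : r ^ 2 ≤ 12 := by nlinarith
  have m3 : 11 / 2 * r * j ≤ 66 := by nlinarith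
  have hL0 : 0 < L := by linarith
  have hl : (0 : ℝ) ≤ l := Nat.cast_nonneg l
  have i1 := (ci2_par z u p v s).1
  have i2 := (ci2_par z u u v v).1
  have i3 := (ci2_par z u p v s).2
  have i4 : r ^ 2 * ((l : ℝ) ^ 2 / r ^ 2) = (l : ℝ) ^ 2 := by field_simp
  obtain ⟨w1, w2⟩ := ci2_amgm hL0 ‖p‖ ‖u‖ ‖s‖ ‖v‖
  have hW0 : 0 ≤ ‖p‖ ^ 2 + L ^ 2 * ‖u‖ ^ 2 + (‖s‖ ^ 2 + L ^ 2 * ‖v‖ ^ 2) := by positivity
  generalize ‖p‖ ^ 2 + L ^ 2 * ‖u‖ ^ 2 + (‖s‖ ^ 2 + L ^ 2 * ‖v‖ ^ 2) = W at w1 w2 hW0 ⊢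
  have w3 : W / L / L ≤ W / L := div_le_self (by positivity) hL
  have w4 : (1 + z.re / L) / L * W = W / L + z.re * (W / L / L) := by field_simp
  have w5 : z.re * (‖u‖ * ‖v‖) ≤ z.re * (W / L / L / 2) := mul_le_mul_of_nonneg_left w2 hx
  have b1 := ci2_key (r * (13 / 2 + n)) 24 p u (by
    rwa [abs_of_nonneg (mul_nonneg hr.le (by linarith))])
  have b2 := ci2_key (r * (11 / 2)) 24 s v (by rw [abs_of_nonneg (by positivity)]; linarith)
  have b3 := ci2_key (-(r ^ 2 * z.re)) (12 * z.re) u v (by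
    rw [abs_neg, abs_of_nonneg (by positivity)]
    exact mul_le_mul_of_nonneg_right m2 hx)
  have b4 := ci2_key (11 / 2 * r * j) 66 u v (by rwa [abs_of_nonneg (by positivity)])
  have c1 : 0 ≤ r ^ 2 * q * ci2ip u u := by rw [ci2ip_self]; positivity
  have c2 : 0 ≤ r ^ 2 * (-z.im * ‖u - I * v‖ ^ 2) :=
    mul_nonneg (sq_nonneg r) (mul_nonneg (by linarith) (sq_nonneg _))
  have c3 : 0 ≤ (l : ℝ) * ‖u + I * v‖ ^ 2 := by positivity
  have c4 : 0 ≤ (l : ℝ) * (l + 10) * ‖u - I * v‖ ^ 2 := by positivity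
  have c5 : 0 ≤ z.re * (W / L / L) := by positivity
  have c6 : 0 ≤ W / L := by positivity
  unfold ci2F
  rw [w4]
  have f1 : r ^ 2 * (‖p + I * s‖ ^ 2 + (-z.im - (l : ℝ) ^ 2 / r ^ 2) * ‖u + I * v‖ ^ 2
      + ‖p - I * s‖ ^ 2) = r ^ 2 * (2 * (ci2ip p p + ci2ip s s))
        - z.im * r ^ 2 * ‖u + I * v‖ ^ 2 - (l : ℝ) ^ 2 * ‖u + I * v‖ ^ 2 := by
    rw [← i1]
    linear_combination (-‖u + I * v‖ ^ 2) * i4
  have f2 : (l : ℝ) * (l + 10) * (2 * (ci2ip u u + ci2ip v v)) =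
      (l : ℝ) * (l + 10) * (‖u + I * v‖ ^ 2 + ‖u - I * v‖ ^ 2) := by rw [i2]
  have f3 : r ^ 2 * (4 * ci2ip (z * v) u) = r ^ 2 * (4 * z.re * ci2ip u v
      + z.im * (‖u + I * v‖ ^ 2 - ‖u - I * v‖ ^ 2)) := by rw [i3]
  rw [f1]
  clear f1 i1 i2 i3 i4 w4
  linarith

theorem ci2_cs {w f g : ℝ → ℝ} (hw : Continuous w) (hf : Continuous f) (hg : Continuous g) {b : ℝ}
    (hb : 0 ≤ b) (h0 : ∀ r ∈ Set.Icc 0 b, 0 ≤ w r) :
    ∫ r in (0 : ℝ)..b, w r * (f r * g r) ≤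
      Real.sqrt (∫ r in (0 : ℝ)..b, w r * f r ^ 2) * Real.sqrt (∫ r in (0 : ℝ)..b, w r * g r ^ 2) := by
  have i1 : IntervalIntegrable (fun r => w r * f r ^ 2) volume 0 b :=
    Continuous.intervalIntegrable (by fun_prop) _ _
  have i2 : IntervalIntegrable (fun r => w r * (f r * g r)) volume 0 b :=
    Continuous.intervalIntegrable (by fun_prop) _ _
  have i3 : IntervalIntegrable (fun r => w r * g r ^ 2) volume 0 b :=
    Continuous.intervalIntegrable (by fun_prop) _ _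
  have ha : 0 ≤ ∫ r in (0 : ℝ)..b, w r * f r ^ 2 :=
    intervalIntegral.integral_nonneg hb fun r hr => mul_nonneg (h0 r hr) (sq_nonneg _)
  have hd := discrim_le_zero (a := ∫ r in (0 : ℝ)..b, w r * f r ^ 2)
    (b := -2 * ∫ r in (0 : ℝ)..b, w r * (f r * g r)) (c := ∫ r in (0 : ℝ)..b, w r * g r ^ 2)
    (fun t => by
      have h1 : 0 ≤ ∫ r in (0 : ℝ)..b, (t * t * (w r * f r ^ 2) + -2 * t * (w r * (f r * g r))
          + w r * g r ^ 2) := by
        refine intervalIntegral.integral_nonneg hb fun r hr => ?_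
        have := mul_nonneg (h0 r hr) (sq_nonneg (t * f r - g r))
        linarith
      rw [intervalIntegral.integral_add ((i1.const_mul _).add (i2.const_mul _)) i3,
        intervalIntegral.integral_add (i1.const_mul _) (i2.const_mul _),
        intervalIntegral.integral_const_mul, intervalIntegral.integral_const_mul] at h1
      linarith)
  rw [← Real.sqrt_mul ha]
  refine (le_abs_self _).trans (Real.abs_le_sqrt ?_)
  unfold discrim at hd
  linarith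

theorem ci2_ftc {B : ℝ} {ψ H D : ℝ → ℝ} (hψ : Psi B ψ) (hH : Continuous H) (hD : Continuous D)
    (hd : ∀ r, 0 ≤ r → HasDerivAt H (D r) r) (h0 : H 0 = 0) :
    ∫ r in (0 : ℝ)..3.4, ψ r * D r = ∫ r in (3.36 : ℝ)..3.4, (-deriv ψ r) * H r := by
  have c5 := hψ.c.continuous
  have c8 := hψ.c.continuous_deriv le_rfl
  have i1 : ∀ a b, IntervalIntegrable (fun r => deriv ψ r * H r) volume a b := fun a b =>
    (c8.mul hH).intervalIntegrable a b
  have i2 : IntervalIntegrable (fun r => ψ r * D r) volume 0 3.4 :=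
    (c5.mul hD).intervalIntegrable _ _
  have h1 := intervalIntegral.integral_eq_sub_of_hasDerivAt (a := 0) (b := 3.4)
    (f := fun r => ψ r * H r) (f' := fun r => deriv ψ r * H r + ψ r * D r)
    (fun r hr => by
      rw [Set.uIcc_of_le (by norm_num)] at hr
      exact (ci2_d1 hψ.c r).fun_mul (hd r hr.1)) ((i1 _ _).add i2)
  rw [intervalIntegral.integral_add (i1 _ _) i2, h0, hψ.zero 3.4 le_rfl,
    ← intervalIntegral.integral_add_adjacent_intervals (i1 0 3.36) (i1 3.36 3.4)] at h1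
  have h2 : ∫ r in (0 : ℝ)..3.36, deriv ψ r * H r = ∫ r in (0 : ℝ)..3.36, (0 : ℝ) := by
    refine intervalIntegral.integral_congr fun r hr => ?_
    rw [Set.uIcc_of_le (by norm_num)] at hr
    have h3 : IsLocalMax ψ r := Filter.Eventually.of_forall fun t => by
      rw [hψ.one r hr.2]; exact hψ.le t
    simp only [h3.deriv_eq_zero, zero_mul]
  rw [intervalIntegral.integral_zero] at h2
  simp only [neg_mul]
  rw [intervalIntegral.integral_neg]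
  linarith

/-- virial identity -/
theorem i2 (B : ℝ) (hB : 0 ≤ B) : ∃ C : ℝ, 0 ≤ C ∧ ∀ {ε a rm rp : ℝ} {ρ n j q ψ : ℝ → ℝ},
    Cf ε a rm rp ρ n j q → Psi B ψ → ∀ {l : ℕ} {z : ℂ} {A Θ : ℝ → ℂ}, ASol ρ j q l z A Θ 0 0 →
    0 ≤ z.re → z.im ≤ 0 → ∀ L : ℝ, 1 ≤ L →
      Eψ ψ ρ q l A Θ ≤
        (∫ r in (3.36 : ℝ)..3.4, (-deriv ψ r) * (r ^ 12 * ρ r * (‖deriv (zp A Θ) r‖ ^ 2
          + (-z.im - (l : ℝ) ^ 2 / r ^ 2) * ‖zp A Θ r‖ ^ 2 + ‖deriv (zm A Θ) r‖ ^ 2)))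
        + C * (1 + z.re) * (Real.sqrt (Nψ ψ ρ A) *
            (Real.sqrt (Eψ ψ ρ q l A Θ) + Real.sqrt (Nψ ψ ρ Θ)))
        + C * (1 + z.re / L) / L * ∫ r in (3.36 : ℝ)..3.4, ee L A Θ r := by
  refine ⟨400 + 5 * 10 ^ 7 * B, by positivity, ?_⟩
  intro ε a rm rp ρ n j q ψ hc hψ l z A Θ h hx hy L hL
  obtain ⟨cA, cA'⟩ := ci2_c2 h.cA
  obtain ⟨cT, cT'⟩ := ci2_c2 h.cT
  have c1 := hc.cρ.continuous
  have c2 := hc.cn.continuous
  have c3 := hc.cj.continuous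
  have c4 := hc.cq.continuous
  have c5 := hψ.c.continuous
  have c6 := hc.cn.continuous_deriv le_rfl
  have c7 := hc.cq.continuous_deriv le_rfl
  have c8 := hψ.c.continuous_deriv le_rfl
  have hH : Continuous fun r : ℝ => r ^ 10 * ρ r * ci2F (l * (l + 10)) r (n r) (j r)
      (q r) z (A r) (deriv A r) (Θ r) (deriv Θ r) := by
    unfold ci2F ci2ip
    fun_prop
  have hD : Continuous fun r : ℝ => r ^ 9 * ρ r * ci2D (l * (l + 10)) r (n r) (deriv n r) (j r)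
      (q r) (deriv q r) a z.re (A r) (deriv A r) (Θ r) (deriv Θ r) := by
    unfold ci2D ci2ip
    fun_prop
  have hid := ci2_ftc hψ hH hD (fun r hr => ci2_dH hc h hr) (by simp)
  have hν : (0 : ℝ) ≤ l * (l + 10) := by positivity
  have hm : ∀ r ∈ Set.Icc (0 : ℝ) 3.4, r ∈ Set.Icc (0 : ℝ) 3.46 := fun r hr =>
    ⟨hr.1, hr.2.trans (by norm_num)⟩
  have hρ : ∀ r ∈ Set.Icc (0 : ℝ) 3.4, 0 ≤ ρ r := fun r hr =>
    le_trans (by norm_num) (hc.ρ0 r (hm r hr))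
  have hw : Continuous fun r : ℝ => ψ r * (r ^ 11 * ρ r) := by fun_prop
  have hw0 : ∀ r ∈ Set.Icc (0 : ℝ) 3.4, 0 ≤ ψ r * (r ^ 11 * ρ r) := fun r hr =>
    mul_nonneg (hψ.nn r) (mul_nonneg (pow_nonneg hr.1 _) (hρ r hr))
  have cd : Continuous fun r => ψ r * dens ρ q l A Θ r := by
    unfold dens
    fun_prop
  have hN : ∀ f : ℝ → ℂ, ∫ r in (0 : ℝ)..3.4, ψ r * (r ^ 11 * ρ r) * ‖f r‖ ^ 2 = Nψ ψ ρ f :=
    fun f => by simp only [Nψ, mul_assoc]
  have hE : ∀ f : ℝ → ℂ, Continuous f →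
      (∀ r, ‖f r‖ ^ 2 ≤ ‖deriv A r‖ ^ 2 + ‖deriv Θ r‖ ^ 2) →
      ∫ r in (0 : ℝ)..3.4, ψ r * (r ^ 11 * ρ r) * (‖A r‖ * ‖f r‖) ≤
        Real.sqrt (Nψ ψ ρ A) * Real.sqrt (Eψ ψ ρ q l A Θ) := by
    intro f hf hle
    have b1 := ci2_cs hw cA.norm hf.norm (by norm_num) hw0
    rw [hN] at b1
    refine b1.trans (mul_le_mul_of_nonneg_left (Real.sqrt_le_sqrt ?_) (Real.sqrt_nonneg _))
    refine intervalIntegral.integral_mono_on (by norm_num)
      (Continuous.intervalIntegrable (by fun_prop) _ _) (cd.intervalIntegrable _ _) fun r hr => ?_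
    have d0 := hr.1
    have d1 := hρ r hr
    have d2 := hc.q0 r
    have d3 : r ^ 11 * ρ r * ‖f r‖ ^ 2 ≤
        r ^ 11 * ρ r * (‖deriv A r‖ ^ 2 + ‖deriv Θ r‖ ^ 2 + q r * ‖A r‖ ^ 2) :=
      mul_le_mul_of_nonneg_left ((hle r).trans (le_add_of_nonneg_right (by positivity)))
        (by positivity)
    rw [mul_assoc]
    exact mul_le_mul_of_nonneg_left (d3.trans (le_add_of_nonneg_right (by positivity))) (hψ.nn r)
  have s1 := hE _ cA' fun r => le_add_of_nonneg_right (sq_nonneg _)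
  have s2 := hE _ cT' fun r => le_add_of_nonneg_left (sq_nonneg _)
  have s3 := ci2_cs hw cA.norm cT.norm (by norm_num) hw0
  rw [hN, hN] at s3
  have ii : ∀ f : ℝ → ℂ, Continuous f → IntervalIntegrable
      (fun r => ψ r * (r ^ 11 * ρ r) * (‖A r‖ * ‖f r‖)) volume 0 3.4 := fun f hf =>
    Continuous.intervalIntegrable (by fun_prop) _ _
  have iD := (c5.mul hD).intervalIntegrable (μ := volume) 0 3.4
  have bulk := intervalIntegral.integral_mono_on (by norm_num : (0 : ℝ) ≤ 3.4)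
    (cd.intervalIntegrable (μ := volume) _ _) ((iD.const_mul 4).add
      ((((ii _ cA').add (ii _ cT')).add (ii _ cT)).const_mul (200 * (1 + z.re)))) (fun r hr => by
      have d1 := ci2_bulk (A r) (deriv A r) (Θ r) (deriv Θ r) hν hr.1 hr.2 (hc.n0 r (hm r hr))
        (hc.n1 r (hm r hr)) hc.e1 (hc.n2 r (hm r hr)) (hc.j0 r (hm r hr)) (hc.j1 r (hm r hr))
        (hc.q0 r) (hc.q1 r (hm r hr)) hc.a0 hc.a1 hx
      have d2 := mul_le_mul_of_nonneg_left d1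
        (mul_nonneg (hψ.nn r) (mul_nonneg (pow_nonneg hr.1 9) (hρ r hr)))
      simp only [Pi.mul_apply]
      unfold dens
      linarith)
  rw [intervalIntegral.integral_add (iD.const_mul 4)
      ((((ii _ cA').add (ii _ cT')).add (ii _ cT)).const_mul _),
    intervalIntegral.integral_const_mul, intervalIntegral.integral_const_mul,
    intervalIntegral.integral_add ((ii _ cA').add (ii _ cT')) (ii _ cT),
    intervalIntegral.integral_add (ii _ cA') (ii _ cT')] at bulk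
  simp only [Pi.mul_apply] at bulk
  rw [hid, ← intervalIntegral.integral_const_mul] at bulk
  have z1 : deriv (zp A Θ) = fun r => deriv A r + I * deriv Θ r := funext fun r =>
    ((ci2_d2 h.cA r).1.fun_add ((ci2_d2 h.cT r).1.const_mul I)).deriv
  have z2 : deriv (zm A Θ) = fun r => deriv A r - I * deriv Θ r := funext fun r =>
    ((ci2_d2 h.cA r).1.fun_sub ((ci2_d2 h.cT r).1.const_mul I)).deriv
  have hne : ∀ r ∈ Set.Icc (3.36 : ℝ) 3.4, r ^ 2 ≠ 0 := fun r hr =>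
    pow_ne_zero _ (lt_of_lt_of_le (by norm_num) hr.1 : (0 : ℝ) < r).ne'
  have j1 : IntervalIntegrable (fun r => (-deriv ψ r) * (r ^ 12 * ρ r * (‖deriv (zp A Θ) r‖ ^ 2
      + (-z.im - (l : ℝ) ^ 2 / r ^ 2) * ‖zp A Θ r‖ ^ 2 + ‖deriv (zm A Θ) r‖ ^ 2))) volume
      3.36 3.4 := by
    refine ContinuousOn.intervalIntegrable_of_Icc (by norm_num) ?_
    rw [z1, z2]
    unfold zp
    fun_prop (disch := assumption)
  have ce : Continuous (ee L A Θ) := by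
    unfold ee en
    fun_prop
  have j2 := ce.intervalIntegrable (μ := volume) 3.36 3.4
  have hL0 : 0 < L := by linarith
  have hk : 0 ≤ (1 + z.re / L) / L := by positivity
  have he : ∀ r, 0 ≤ ee L A Θ r := fun r => by unfold ee en; positivity
  have edge := intervalIntegral.integral_mono_on (by norm_num : (3.36 : ℝ) ≤ 3.4)
    (((c8.neg.mul hH).intervalIntegrable (μ := volume) _ _).const_mul 4)
    (j1.add (j2.const_mul (5 * 10 ^ 7 * B * ((1 + z.re / L) / L)))) (fun r hr => by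
      have hr0 : r ∈ Set.Icc (0 : ℝ) 3.4 := ⟨le_trans (by norm_num) hr.1, hr.2⟩
      have d1 := ci2_edge l z (A r) (deriv A r) (Θ r) (deriv Θ r) hr.1 hr.2 (hc.n0 r (hm r hr0))
        (hc.n1 r (hm r hr0)) hc.e1 (hc.j0 r (hm r hr0)) (hc.j1 r (hm r hr0)) (hc.q0 r) hx hy hL
      have d0 : 0 ≤ -deriv ψ r := neg_nonneg.2 (hψ.d0 r)
      have d2 := mul_le_mul_of_nonneg_left d1
        (mul_nonneg d0 (mul_nonneg (pow_nonneg hr0.1 10) (hρ r hr0)))
      have d3 : -deriv ψ r * (r ^ 10 * ρ r) ≤ B * (210000 * 1) :=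
        mul_le_mul (by linarith [hψ.d1 r])
          (mul_le_mul ((pow_le_pow_left₀ hr0.1 hr.2 10).trans (by norm_num))
            (hc.ρ1 r (hm r hr0)) (hρ r hr0) (by norm_num))
          (mul_nonneg (pow_nonneg hr0.1 10) (hρ r hr0)) hB
      have d4 := mul_le_mul_of_nonneg_right d3 (mul_nonneg hk (he r))
      have d5 := mul_nonneg hB (mul_nonneg hk (he r))
      rw [z1, z2]
      simp only [Pi.mul_apply, Pi.neg_apply]
      unfold zp
      unfold ee en at d4 d5 ⊢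
      generalize (1 + z.re / L) / L = k at *
      linarith)
  rw [intervalIntegral.integral_add j1 (j2.const_mul _),
    intervalIntegral.integral_const_mul (5 * 10 ^ 7 * B * ((1 + z.re / L) / L))] at edge
  simp only [Pi.mul_apply, Pi.neg_apply] at edge
  have g1 : 0 ≤ ∫ r in (3.36 : ℝ)..3.4, ee L A Θ r :=
    intervalIntegral.integral_nonneg (by norm_num) fun r _ => he r
  have g2 := mul_nonneg hk g1
  have g3 : 0 ≤ Real.sqrt (Nψ ψ ρ A) * Real.sqrt (Eψ ψ ρ q l A Θ) := by positivity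
  have g4 : 0 ≤ Real.sqrt (Nψ ψ ρ A) * Real.sqrt (Nψ ψ ρ Θ) := by positivity
  have g5 := mul_le_mul_of_nonneg_left (add_le_add (add_le_add s1 s2) s3)
    (show 0 ≤ 200 * (1 + z.re) by positivity)
  have g6 := mul_nonneg (show 0 ≤ 1 + z.re by positivity) g4
  have g7 := mul_nonneg hB (mul_nonneg (show 0 ≤ 1 + z.re by positivity) (add_nonneg g3 g4))
  rw [mul_div_assoc (400 + 5 * 10 ^ 7 * B)]
  change Eψ ψ ρ q l A Θ ≤ _ at bulk
  generalize (1 + z.re / L) / L = k at *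
  linarith

end Vale.Agent.P139
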