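import Vale.Agent.P139.CHardy
import Vale.Agent.P139.CI1

open Complex MeasureTheory Filter Topology
open scoped ComplexConjugate ContDiff

namespace Vale.Agent.P139

theorem ci3_dens_nonneg {ε a rm rp : ℝ} {ρ n j q : ℝ → ℝ} (hc : Cf ε a rm rp ρ n j q)
    (l : ℕ) (A Θ : ℝ → ℂ) {r : ℝ} (hr : r ∈ Set.Icc (0 : ℝ) 3.46) : 0 ≤ dens ρ q l A Θ r := by
  have hρ : 0 ≤ ρ r := le_trans (by norm_num) (hc.ρ0 r hr)
  have hq0 := hc.q0 r
  have hr0 := hr.1
  unfold dens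
  positivity

theorem Eψ_nonneg {ε a rm rp B : ℝ} {ρ n j q ψ : ℝ → ℝ} (hc : Cf ε a rm rp ρ n j q)
    (hψ : Psi B ψ) (l : ℕ) (A Θ : ℝ → ℂ) : 0 ≤ Eψ ψ ρ q l A Θ :=
  intervalIntegral.integral_nonneg (by norm_num) fun r hr =>
    mul_nonneg (hψ.nn r) (ci3_dens_nonneg hc l A Θ ⟨hr.1, by linarith [hr.2]⟩)

theorem Nψ_nonneg {ε a rm rp B : ℝ} {ρ n j q ψ : ℝ → ℝ} (hc : Cf ε a rm rp ρ n j q)
    (hψ : Psi B ψ) (h : ℝ → ℂ) : 0 ≤ Nψ ψ ρ h :=
  intervalIntegral.integral_nonneg (by norm_num) fun r hr => by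
    have hρ : 0 ≤ ρ r := le_trans (by norm_num) (hc.ρ0 r ⟨hr.1, by linarith [hr.2]⟩)
    have hr0 := hr.1
    have := hψ.nn r
    positivity

theorem ci3_ip_le (u v o : ℂ) (ho : ‖o‖ ≤ 1) {L : ℝ} (hL : 0 ≤ L) :
    L * |ci1ip u (o * v)| ≤ (‖u‖ ^ 2 + L ^ 2 * ‖v‖ ^ 2) / 2 := by
  have h1 : ci1ip u (o * v) = (u * conj (o * v)).re := by
    simp only [ci1ip, Complex.mul_re, Complex.conj_re, Complex.conj_im]
    ring
  have h2 : |ci1ip u (o * v)| ≤ ‖u‖ * ‖v‖ := by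
    rw [h1]
    refine (Complex.abs_re_le_norm _).trans ?_
    rw [norm_mul, Complex.norm_conj, norm_mul]
    exact mul_le_mul_of_nonneg_left (mul_le_of_le_one_left (norm_nonneg _) ho) (norm_nonneg _)
  have h3 := mul_le_mul_of_nonneg_left h2 hL
  nlinarith [sq_nonneg (‖u‖ - L * ‖v‖)]

theorem ci3_omega (z : ℂ) : ∃ o : ℂ, ‖o‖ ≤ 1 ∧ ∀ u : ℂ, ci1ip (z * u) (o * u) = ‖z‖ * ‖u‖ ^ 2 := by
  by_cases hz : z = 0
  · exact ⟨0, by simp, fun u => by simp [hz, ci1ip]⟩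
  · have h0 : ‖z‖ ≠ 0 := norm_ne_zero_iff.2 hz
    refine ⟨((‖z‖⁻¹ : ℝ) : ℂ) * z, ?_, fun u => ?_⟩
    · rw [norm_mul, Complex.norm_real, Real.norm_eq_abs, abs_inv, abs_norm, inv_mul_cancel₀ h0]
    · have h1 : ci1ip (z * u) (((‖z‖⁻¹ : ℝ) : ℂ) * z * u) = ‖z‖⁻¹ * ci1ip (z * u) (z * u) := by
        simp only [ci1ip, Complex.mul_re, Complex.mul_im, Complex.ofReal_re, Complex.ofReal_im]
        ring
      rw [h1, ← ci1_sq, norm_mul]
      field_simp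

variable {ε a rm rp B : ℝ} {ρ n j q ψ : ℝ → ℝ} {l : ℕ} {z : ℂ} {A Θ : ℝ → ℂ}

theorem ci3_zero (hψ : Psi B ψ) (X : ℝ → ℝ) :
    ∫ r in (0 : ℝ)..3.36, deriv ψ r * X r = 0 := by
  rw [intervalIntegral.integral_of_le (by norm_num), integral_Ioc_eq_integral_Ioo]
  refine setIntegral_eq_zero_of_forall_eq_zero fun r hr => ?_
  have : ψ =ᶠ[𝓝 r] fun _ => 1 := by
    filter_upwards [gt_mem_nhds hr.2] with t ht using hψ.one t ht.le
  rw [this.deriv_eq, deriv_const, zero_mul]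

theorem ci3_amp (hB : 0 ≤ B) (hc : Cf ε a rm rp ρ n j q) (hψ : Psi B ψ)
    (hs : ASol ρ j q l z A Θ 0 0) {L : ℝ} (hL : 1 ≤ L) :
    ‖z‖ * Nψ ψ ρ A ≤ 3 * Eψ ψ ρ q l A Θ + 2 * Nψ ψ ρ A
      + B * 4 ^ 12 / L * ∫ r in (3.36 : ℝ)..3.4, ee L A Θ r := by
  obtain ⟨o, ho, hoz⟩ := ci3_omega z
  obtain ⟨-, -, cD⟩ := ci1_contX hc hs
  obtain ⟨cA, cA1, dA, -⟩ := ci1_c2 hs.cA
  obtain ⟨cT, cT1, dT, -⟩ := ci1_c2 hs.cT
  have cρ := hc.cρ.continuous
  have cψ := hψ.c.continuous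
  have cψ1 : Continuous (deriv ψ) := hψ.c.continuous_deriv le_rfl
  have hL0 : 0 < L := by linarith
  set X : ℝ → ℝ := fun t => -ci1ip (((t ^ 11 * ρ t : ℝ) : ℂ) * deriv Θ t) (o * A t) with hX
  have cX : Continuous X := by
    rw [hX]
    unfold ci1ip
    fun_prop
  have c1 : Continuous fun r => (‖z‖ - 2) * (ψ r * (r ^ 11 * ρ r * ‖A r‖ ^ 2)) := by fun_prop
  have c2 : Continuous fun r => 3 * (ψ r * dens ρ q l A Θ r) := by fun_prop
  have c12 : Continuous fun r => (‖z‖ - 2) * (ψ r * (r ^ 11 * ρ r * ‖A r‖ ^ 2))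
      - 3 * (ψ r * dens ρ q l A Θ r) := c1.sub c2
  have c3 : Continuous fun r => deriv ψ r * X r := by fun_prop
  have key : ∀ r ∈ Set.Ioo (0 : ℝ) 3.4, ∃ D : ℝ, HasDerivAt (fun t => ψ t * X t) D r ∧
      (‖z‖ - 2) * (ψ r * (r ^ 11 * ρ r * ‖A r‖ ^ 2)) - 3 * (ψ r * dens ρ q l A Θ r)
        + deriv ψ r * X r ≤ D := by
    intro r hr
    have hr' : r ∈ Set.Icc (0 : ℝ) 3.46 := ⟨hr.1.le, by linarith [hr.2]⟩
    have h1 := (ci1_hd (hs.e2 r hr.1.le) ((dA r).const_mul o)).neg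
    refine ⟨_, (hψ.c.differentiable one_ne_zero r).hasDerivAt.mul h1, ?_⟩
    have e1 : ci1ip (((l * (l + 10) * r ^ 9 * ρ r : ℝ) : ℂ) * Θ r - ((r ^ 11 * ρ r : ℝ) : ℂ) *
          (z * A r + j r * deriv A r - (0 : ℝ → ℂ) r)) (o * A r)
        + ci1ip (((r ^ 11 * ρ r : ℝ) : ℂ) * deriv Θ r) (o * deriv A r)
        = l * (l + 10) * r ^ 9 * ρ r * ci1ip (Θ r) (o * A r)
          - r ^ 11 * ρ r * (ci1ip (z * A r) (o * A r) + j r * ci1ip (deriv A r) (o * A r)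
            - ci1ip (deriv Θ r) (o * deriv A r)) := by
      simp only [ci1ip, Pi.zero_apply, sub_zero, Complex.add_re, Complex.add_im, Complex.mul_re,
        Complex.mul_im, Complex.ofReal_re, Complex.ofReal_im, Complex.sub_re, Complex.sub_im]
      ring
    rw [e1, hoz]
    have b1 := ci3_ip_le (Θ r) (A r) o ho zero_le_one
    have b2 := ci3_ip_le (deriv A r) (A r) o ho zero_le_one
    have b3 := ci3_ip_le (deriv Θ r) (deriv A r) o ho zero_le_one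
    simp only [one_mul, one_pow] at b1 b2 b3
    have hρ : 0 ≤ ρ r := le_trans (by norm_num) (hc.ρ0 r hr')
    have hq0 := hc.q0 r
    have hj0 := hc.j0 r hr'
    have hj1 : j r ≤ 4 := by linarith [hc.j1 r hr', hr.2]
    have hr0 := hr'.1
    have hk : (0 : ℝ) ≤ l * (l + 10) * r ^ 9 * ρ r := by positivity
    have hm : 0 ≤ r ^ 11 * ρ r := by positivity
    have b4 : -(j r * ci1ip (deriv A r) (o * A r)) ≤ 4 * ((‖deriv A r‖ ^ 2 + ‖A r‖ ^ 2) / 2) := by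
      rw [← mul_neg]
      exact (mul_le_mul_of_nonneg_left ((neg_le_abs _).trans b2) hj0).trans
        (mul_le_mul_of_nonneg_right hj1 (by positivity))
    have b5 := mul_le_mul_of_nonneg_left ((le_abs_self _).trans b1) hk
    have b6 := mul_le_mul_of_nonneg_left (add_le_add b4 ((le_abs_self _).trans b3)) hm
    have p1 : 0 ≤ l * (l + 10) * r ^ 9 * ρ r * (‖A r‖ ^ 2 + ‖Θ r‖ ^ 2) := by positivity
    have p2 : 0 ≤ r ^ 11 * ρ r * ‖deriv A r‖ ^ 2 := by positivity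
    have p3 : 0 ≤ r ^ 11 * ρ r * ‖deriv Θ r‖ ^ 2 := by positivity
    have p4 : 0 ≤ r ^ 11 * ρ r * (q r * ‖A r‖ ^ 2) := by positivity
    have b7 : (‖z‖ - 2) * (r ^ 11 * ρ r * ‖A r‖ ^ 2) - 3 * dens ρ q l A Θ r ≤
        -(l * (l + 10) * r ^ 9 * ρ r * ci1ip (Θ r) (o * A r)
          - r ^ 11 * ρ r * (‖z‖ * ‖A r‖ ^ 2 + j r * ci1ip (deriv A r) (o * A r)
            - ci1ip (deriv Θ r) (o * deriv A r))) := by
      unfold dens
      linarith
    have b8 := mul_le_mul_of_nonneg_left b7 (hψ.nn r)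
    linarith
  choose! D hD using key
  have h1 := intervalIntegral.integral_le_sub_of_hasDeriv_right_of_le (by norm_num)
    (cψ.mul cX).continuousOn (fun r hr => (hD r hr).1.hasDerivWithinAt)
    ((c12.add c3).continuousOn.integrableOn_Icc) (fun r hr => (hD r hr).2)
  have h2 : ψ 3.4 = 0 := hψ.zero _ le_rfl
  have h3 : X 0 = 0 := by simp [hX, ci1ip]
  simp only [Pi.mul_apply, Pi.add_apply, h2, h3, zero_mul, mul_zero, sub_zero] at h1
  rw [intervalIntegral.integral_add (c12.intervalIntegrable _ _) (c3.intervalIntegrable _ _),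
    intervalIntegral.integral_sub (c1.intervalIntegrable _ _) (c2.intervalIntegrable _ _),
    intervalIntegral.integral_const_mul, intervalIntegral.integral_const_mul,
    ← intervalIntegral.integral_add_adjacent_intervals (c3.intervalIntegrable 0 3.36)
      (c3.intervalIntegrable 3.36 3.4), ci3_zero hψ, zero_add] at h1
  have c4 : Continuous fun r => ee L A Θ r := by
    unfold ee en
    fun_prop
  have c5 : Continuous fun r => -(B * 4 ^ 12 / L) * ee L A Θ r := continuous_const.mul c4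
  have h4 : ∫ r in (3.36 : ℝ)..3.4, -(B * 4 ^ 12 / L) * ee L A Θ r
      ≤ ∫ r in (3.36 : ℝ)..3.4, deriv ψ r * X r := by
    refine intervalIntegral.integral_mono_on (by norm_num) (c5.intervalIntegrable _ _)
      (c3.intervalIntegrable _ _) fun r hr => ?_
    have hr' : r ∈ Set.Icc (0 : ℝ) 3.46 := ⟨by linarith [hr.1], by linarith [hr.2]⟩
    have hρ : 0 ≤ ρ r := le_trans (by norm_num) (hc.ρ0 r hr')
    have hd0 := neg_nonneg.2 (hψ.d0 r)
    have hr0 := hr'.1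
    have hm : r ^ 11 * ρ r ≤ 4 ^ 11 * 4 :=
      mul_le_mul (pow_le_pow_left₀ hr0 (by linarith [hr.2]) 11) (by linarith [hc.ρ1 r hr']) hρ
        (by positivity)
    have hW : (-deriv ψ r) * (r ^ 11 * ρ r) ≤ B * (4 ^ 11 * 4) :=
      mul_le_mul (by linarith [hψ.d1 r]) hm (by positivity) hB
    have e1 : deriv ψ r * X r
        = (-deriv ψ r) * (r ^ 11 * ρ r) * ci1ip (deriv Θ r) (o * A r) := by
      simp only [hX, ci1ip, Complex.mul_re, Complex.mul_im, Complex.ofReal_re, Complex.ofReal_im]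
      ring
    have b1 := ci3_ip_le (deriv Θ r) (A r) o ho hL0.le
    have b2 : |ci1ip (deriv Θ r) (o * A r)| ≤ ee L A Θ r / L := by
      rw [le_div_iff₀ hL0]
      unfold ee en
      have : 0 ≤ ‖deriv A r‖ ^ 2 := by positivity
      have : 0 ≤ ‖deriv Θ r‖ ^ 2 := by positivity
      have : 0 ≤ L ^ 2 * ‖A r‖ ^ 2 := by positivity
      have : 0 ≤ L ^ 2 * ‖Θ r‖ ^ 2 := by positivity
      linarith
    have b3 := mul_le_mul hW b2 (abs_nonneg _) (by positivity)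
    have b4 := mul_le_mul_of_nonneg_left (neg_abs_le (ci1ip (deriv Θ r) (o * A r)))
      (show 0 ≤ (-deriv ψ r) * (r ^ 11 * ρ r) by positivity)
    have e2 : -(B * 4 ^ 12 / L) * ee L A Θ r = -(B * (4 ^ 11 * 4) * (ee L A Θ r / L)) := by ring
    rw [e1, e2]
    linarith
  rw [intervalIntegral.integral_const_mul] at h4
  unfold Eψ Nψ
  linarith

theorem ci3_poin (hc : Cf ε a rm rp ρ n j q) (hψ : Psi B ψ)
    (hs : ASol ρ j q l z A Θ 0 0) {L : ℝ} (hL : 1 ≤ L) :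
    Nψ ψ ρ Θ ≤ 48 * Eψ ψ ρ q l A Θ
      + 51 * 4 ^ 12 * ((∫ r in (3.32 : ℝ)..3.4, ee L A Θ r) / L ^ 2) := by
  obtain ⟨-, -, cD⟩ := ci1_contX hc hs
  obtain ⟨cA, cA1, -, -⟩ := ci1_c2 hs.cA
  obtain ⟨cT, cT1, -, -⟩ := ci1_c2 hs.cT
  have cρ := hc.cρ.continuous
  have cψ := hψ.c.continuous
  have hL0 : 0 < L := by linarith
  have c1 : Continuous fun r => ψ r * (r ^ 11 * ρ r * ‖Θ r‖ ^ 2) := by fun_prop
  have c2 : Continuous fun r => ‖Θ r‖ ^ 2 := by fun_prop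
  have c3 : Continuous fun r => ee L A Θ r / L ^ 2 := by
    unfold ee en
    fun_prop
  have c4 : Continuous fun r => 48 * (ψ r * dens ρ q l A Θ r) := by fun_prop
  have hee : ∀ r, ‖Θ r‖ ^ 2 ≤ ee L A Θ r / L ^ 2 := fun r => by
    rw [le_div_iff₀ (by positivity)]
    unfold ee en
    have : 0 ≤ ‖deriv A r‖ ^ 2 := by positivity
    have : 0 ≤ ‖deriv Θ r‖ ^ 2 := by positivity
    have : 0 ≤ L ^ 2 * ‖A r‖ ^ 2 := by positivity
    linarith
  have hI : ∀ u v : ℝ, 3.32 ≤ u → u ≤ v → v ≤ 3.4 → ∫ r in u..v, ‖Θ r‖ ^ 2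
      ≤ (∫ r in (3.32 : ℝ)..3.4, ee L A Θ r) / L ^ 2 := fun u v h1 h2 h3 => by
    rw [← intervalIntegral.integral_div]
    refine (intervalIntegral.integral_mono_interval h1 h2 h3
      (Filter.Eventually.of_forall fun r => by positivity) (c2.intervalIntegrable _ _)).trans ?_
    exact intervalIntegral.integral_mono_on (by norm_num) (c2.intervalIntegrable _ _)
      (c3.intervalIntegrable _ _) fun r _ => hee r
  set Y := (∫ r in (3.32 : ℝ)..3.4, ee L A Θ r) / L ^ 2 with hY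
  obtain ⟨r1, hr1, hmin⟩ := (isCompact_Icc (a := (3.32 : ℝ)) (b := 3.34)).exists_isMinOn
    (Set.nonempty_Icc.2 (by norm_num)) c2.continuousOn
  have h1 : ‖Θ r1‖ ^ 2 ≤ 50 * Y := by
    have h2 : ∫ _r in (3.32 : ℝ)..3.34, ‖Θ r1‖ ^ 2 ≤ ∫ r in (3.32 : ℝ)..3.34, ‖Θ r‖ ^ 2 :=
      intervalIntegral.integral_mono_on (by norm_num) intervalIntegrable_const
        (c2.intervalIntegrable _ _) fun r hr => hmin hr
    rw [intervalIntegral.integral_const, smul_eq_mul] at h2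
    have h3 := hI 3.32 3.34 le_rfl (by norm_num) (by norm_num)
    norm_num at h2 h3 ⊢
    linarith
  have hr10 : 0 ≤ r1 := by linarith [hr1.1]
  have h2 := hardy_zero Θ (hs.cT.of_le one_le_two) r1 hr10
  have h3 : ∫ r in (0 : ℝ)..r1, ψ r * (r ^ 11 * ρ r * ‖Θ r‖ ^ 2)
      ≤ ∫ r in (0 : ℝ)..r1, r ^ 11 * ‖Θ r‖ ^ 2 := by
    refine intervalIntegral.integral_mono_on hr10 (c1.intervalIntegrable _ _)
      (Continuous.intervalIntegrable (by fun_prop) _ _) fun r hr => ?_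
    have hr' : r ∈ Set.Icc (0 : ℝ) 3.46 := ⟨hr.1, by linarith [hr.2, hr1.2]⟩
    rw [hψ.one r (by linarith [hr.2, hr1.2]), one_mul]
    have hr0 := hr.1
    exact mul_le_mul_of_nonneg_right (mul_le_of_le_one_right (by positivity) (hc.ρ1 r hr'))
      (by positivity)
  have h4 : ∫ r in (0 : ℝ)..r1, r ^ 13 * ‖deriv Θ r‖ ^ 2 ≤ 48 * Eψ ψ ρ q l A Θ := by
    unfold Eψ
    rw [← intervalIntegral.integral_const_mul]
    refine le_trans ?_ (intervalIntegral.integral_mono_interval le_rfl hr10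
      (by linarith [hr1.2]) (ae_restrict_of_forall_mem measurableSet_Ioc fun r hr => ?_)
      (c4.intervalIntegrable _ _))
    · refine intervalIntegral.integral_mono_on hr10
        (Continuous.intervalIntegrable (by fun_prop) _ _) (c4.intervalIntegrable _ _)
        fun r hr => ?_
      have hr' : r ∈ Set.Icc (0 : ℝ) 3.46 := ⟨hr.1, by linarith [hr.2, hr1.2]⟩
      rw [hψ.one r (by linarith [hr.2, hr1.2]), one_mul]
      have hr0 := hr.1
      have hρ := hc.ρ0 r hr'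
      have hρ0 : 0 ≤ ρ r := by linarith
      have hq0 := hc.q0 r
      have h5 : r ^ 2 ≤ 48 * ρ r := by nlinarith [hr'.2]
      have h6 : r ^ 11 * ‖deriv Θ r‖ ^ 2 * r ^ 2 ≤ r ^ 11 * ‖deriv Θ r‖ ^ 2 * (48 * ρ r) :=
        mul_le_mul_of_nonneg_left h5 (by positivity)
      have p1 : 0 ≤ l * (l + 10) * r ^ 9 * ρ r * (‖A r‖ ^ 2 + ‖Θ r‖ ^ 2) := by positivity
      have p2 : 0 ≤ r ^ 11 * ρ r * ‖deriv A r‖ ^ 2 := by positivity
      have p4 : 0 ≤ r ^ 11 * ρ r * (q r * ‖A r‖ ^ 2) := by positivity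
      unfold dens
      linarith
    · exact mul_nonneg (by norm_num) (mul_nonneg (hψ.nn r)
        (ci3_dens_nonneg hc l A Θ ⟨hr.1.le, by linarith [hr.2]⟩))
  have h5 : ∫ r in r1..3.4, ψ r * (r ^ 11 * ρ r * ‖Θ r‖ ^ 2) ≤ 4 ^ 12 * Y := by
    refine le_trans ?_ (mul_le_mul_of_nonneg_left (hI r1 3.4 hr1.1 (by linarith [hr1.2]) le_rfl)
      (by positivity))
    rw [← intervalIntegral.integral_const_mul]
    refine intervalIntegral.integral_mono_on (by linarith [hr1.2]) (c1.intervalIntegrable _ _)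
      (Continuous.intervalIntegrable (by fun_prop) _ _) fun r hr => ?_
    have hr' : r ∈ Set.Icc (0 : ℝ) 3.46 := ⟨hr10.trans hr.1, by linarith [hr.2]⟩
    have hρ : 0 ≤ ρ r := le_trans (by norm_num) (hc.ρ0 r hr')
    have hr0 := hr'.1
    have hm : r ^ 11 * ρ r ≤ 4 ^ 11 * 4 :=
      mul_le_mul (pow_le_pow_left₀ hr0 (by linarith [hr.2]) 11) (by linarith [hc.ρ1 r hr']) hρ
        (by positivity)
    refine (mul_le_of_le_one_left (by positivity) (hψ.le r)).trans ?_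
    exact mul_le_mul_of_nonneg_right (hm.trans (by norm_num)) (by positivity)
  have h6 : r1 ^ 12 * ‖Θ r1‖ ^ 2 ≤ 4 ^ 12 * (50 * Y) :=
    mul_le_mul (pow_le_pow_left₀ hr10 (by linarith [hr1.2]) 12) h1 (by positivity)
      (by positivity)
  unfold Nψ
  rw [← intervalIntegral.integral_add_adjacent_intervals (c1.intervalIntegrable 0 r1)
    (c1.intervalIntegrable r1 3.4)]
  linarith

/-- amplitude bound and Poincare inequality -/
theorem i3 (B : ℝ) (hB : 0 ≤ B) : ∃ C : ℝ, 0 ≤ C ∧ ∀ {ε a rm rp : ℝ} {ρ n j q ψ : ℝ → ℝ},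
    Cf ε a rm rp ρ n j q → Psi B ψ → ∀ {l : ℕ} {z : ℂ} {A Θ : ℝ → ℂ}, ASol ρ j q l z A Θ 0 0 →
    ∀ L : ℝ, 1 ≤ L →
      ‖z‖ * Nψ ψ ρ A ≤ C * (Eψ ψ ρ q l A Θ + Nψ ψ ρ A
          + (∫ r in (3.36 : ℝ)..3.4, ee L A Θ r) / L) ∧
      Nψ ψ ρ Θ ≤ C * (Eψ ψ ρ q l A Θ + (∫ r in (3.32 : ℝ)..3.4, ee L A Θ r) / L ^ 2) := by
  refine ⟨48 + B * 4 ^ 12 + 51 * 4 ^ 12, by positivity, ?_⟩
  intro ε a rm rp ρ n j q ψ hc hψ l z A Θ hs L hL
  have h1 := ci3_amp hB hc hψ hs hL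
  have h2 := ci3_poin hc hψ hs hL
  have hE := Eψ_nonneg hc hψ l A Θ
  have hN := Nψ_nonneg hc hψ A
  have hee : ∀ u v : ℝ, u ≤ v → 0 ≤ ∫ r in u..v, ee L A Θ r := fun u v huv =>
    intervalIntegral.integral_nonneg huv fun r _ => by
      unfold ee en
      positivity
  have h3 : 0 ≤ (∫ r in (3.36 : ℝ)..3.4, ee L A Θ r) / L :=
    div_nonneg (hee _ _ (by norm_num)) (by linarith)
  have h4 : 0 ≤ (∫ r in (3.32 : ℝ)..3.4, ee L A Θ r) / L ^ 2 :=
    div_nonneg (hee _ _ (by norm_num)) (by positivity)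
  have e1 : B * 4 ^ 12 / L * ∫ r in (3.36 : ℝ)..3.4, ee L A Θ r
      = B * 4 ^ 12 * ((∫ r in (3.36 : ℝ)..3.4, ee L A Θ r) / L) := by ring
  rw [e1] at h1
  generalize (∫ r in (3.36 : ℝ)..3.4, ee L A Θ r) / L = X at *
  generalize (∫ r in (3.32 : ℝ)..3.4, ee L A Θ r) / L ^ 2 = Y at *
  have p1 := mul_nonneg hB hE
  have p2 := mul_nonneg hB hN
  have p3 := mul_nonneg hB h4
  constructor <;> linarith

end Vale.Agent.P139
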