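import Vale.Agent.P139.CDefs

open Complex MeasureTheory Filter Topology
open scoped ComplexConjugate ContDiff

namespace Vale.Agent.P139

theorem cloc_cont {ε a rm rp : ℝ} {ρ n j q : ℝ → ℝ} (hc : Cf ε a rm rp ρ n j q) {l : ℕ} {z : ℂ}
    {A Θ F1 F2 : ℝ → ℂ} (h : ASol ρ j q l z A Θ F1 F2) : Continuous (dens ρ q l A Θ) := by
  have h1 := h.cA.continuous
  have h2 := h.cT.continuous
  have h3 := h.cA.continuous_deriv (by norm_num)
  have h4 := h.cT.continuous_deriv (by norm_num)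
  have h5 := hc.cρ.continuous
  have h6 := hc.cq.continuous
  unfold dens
  fun_prop

theorem cloc_coef {ε a rm rp : ℝ} {ρ n j q : ℝ → ℝ} (hc : Cf ε a rm rp ρ n j q) (l : ℕ) {r : ℝ}
    (hr : r ∈ Set.Icc (3.3 : ℝ) 3.46) : 1 ≤ r ^ 11 * ρ r ∧ r ^ 11 * ρ r ≤ 4 ^ 11 ∧
      0 ≤ l * (l + 10) * r ^ 9 * ρ r ∧ q r ≤ 1 ∧ 0 ≤ j r ∧ j r ≤ 4 := by
  have hr' : r ∈ Set.Icc (0 : ℝ) 3.46 := ⟨by linarith [hr.1], hr.2⟩
  have h0 := hc.ρ0 r hr'
  have h1 := mul_le_mul (pow_le_pow_left₀ (by norm_num) (show 3 ≤ r by linarith [hr.1]) 11) h0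
    (by norm_num) (pow_nonneg hr'.1 11)
  have h2 := mul_le_mul (pow_le_pow_left₀ hr'.1 (show r ≤ 4 by linarith [hr.2]) 11)
    (hc.ρ1 r hr') (by linarith) (by positivity)
  have h3 := hr'.1
  have h4 : 0 ≤ ρ r := by linarith
  exact ⟨by linarith, by linarith, by positivity,
    by linarith [hc.q2 r ⟨hc.r3.trans hr.1, hr.2⟩, hc.e1], hc.j0 r hr',
    by linarith [hc.j1 r hr', hr.2]⟩

theorem cloc_low {x y μ : ℝ} (hx : 0.02 ≤ x) (hy : 0.02 ≤ y) (hμ : 1 ≤ μ) :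
    1 ≤ 10 ^ 7 * ((x * y) ^ 2 * μ) := by
  have h1 := pow_le_pow_left₀ (by norm_num) (mul_le_mul hx hy (by norm_num) (by linarith)) 2
  have h2 := mul_le_mul h1 hμ zero_le_one (sq_nonneg _)
  linarith

theorem cloc_chi (a b r : ℝ) : HasDerivAt (fun t : ℝ => ((((t - a) * (b - t)) ^ 2 : ℝ) : ℂ))
    ((2 * ((r - a) * (b - r)) * (a + b - 2 * r) : ℝ) : ℂ) r := by
  refine HasDerivAt.ofReal_comp ?_
  refine ((((hasDerivAt_id' r).sub_const a).mul ((hasDerivAt_id' r).const_sub b)).pow 2).congr_deriv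
    ?_
  simp only [Pi.mul_apply]
  push_cast
  ring

theorem cloc_sub {f g : ℝ → ℝ} {a b c d : ℝ} (hab : a ≤ b) (hbc : b ≤ c) (hcd : c ≤ d)
    (hf : Continuous f) (hg : Continuous g) (h0 : ∀ r ∈ Set.Icc a d, 0 ≤ g r)
    (h : ∀ r ∈ Set.Icc b c, f r ≤ g r) : ∫ r in b..c, f r ≤ ∫ r in a..d, g r :=
  (intervalIntegral.integral_mono_on hbc (hf.intervalIntegrable _ _) (hg.intervalIntegrable _ _)
    h).trans (intervalIntegral.integral_mono_interval hab hbc hcd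
      ((ae_restrict_mem measurableSet_Ioc).mono fun r hr => h0 r (Set.Ioc_subset_Icc_self hr))
      (hg.intervalIntegrable _ _))

theorem cloc_re {u : ℂ} (hu : ‖u‖ = 1) (x y : ℂ) : |(u * (x * star y)).re| ≤ ‖x‖ * ‖y‖ := by
  refine (Complex.abs_re_le_norm _).trans (le_of_eq ?_)
  rw [norm_mul, norm_mul, hu, norm_star, one_mul]

theorem cloc_alg (a a1 t t1 : ℂ) {u z : ℂ} (hu : ‖u‖ = 1) (huz : (‖z‖ : ℂ) = u * z)
    {μ P q j χ χ' : ℝ} (hμ : 0 ≤ μ) (hP : 0 ≤ P) (hq : 0 ≤ q) (hq1 : q ≤ 1) (hj0 : 0 ≤ j)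
    (hj : j ≤ 4) (h0 : 0 ≤ χ) (h1 : χ ≤ 1) (h2 : |χ'| ≤ 1) :
    (‖z‖ - 6) * (χ ^ 2 * μ * (‖a‖ ^ 2 + ‖t‖ ^ 2)) -
      3 * (μ * (‖a1‖ ^ 2 + ‖t1‖ ^ 2 + q * ‖a‖ ^ 2) + P * (‖a‖ ^ 2 + ‖t‖ ^ 2)) ≤
      (u * (((2 * χ * χ' : ℝ) : ℂ) * ((μ : ℂ) * a1 * star t - (μ : ℂ) * t1 * star a) +
        ((χ ^ 2 : ℝ) : ℂ) * (((((P + μ * q : ℝ) : ℂ) * a + (μ : ℂ) * (z * t + j * t1 - 0)) * star t +
          (μ : ℂ) * a1 * star t1) - ((((P : ℝ) : ℂ) * t - (μ : ℂ) * (z * a + j * a1 - 0)) * star a +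
          (μ : ℂ) * t1 * star a1)))).re := by
  have e1 : u * (((2 * χ * χ' : ℝ) : ℂ) * ((μ : ℂ) * a1 * star t - (μ : ℂ) * t1 * star a) +
        ((χ ^ 2 : ℝ) : ℂ) * (((((P + μ * q : ℝ) : ℂ) * a + (μ : ℂ) * (z * t + j * t1 - 0)) * star t +
          (μ : ℂ) * a1 * star t1) - ((((P : ℝ) : ℂ) * t - (μ : ℂ) * (z * a + j * a1 - 0)) * star a +
          (μ : ℂ) * t1 * star a1))) =
      ((χ ^ 2 * μ * ‖z‖ * (‖a‖ ^ 2 + ‖t‖ ^ 2) : ℝ) : ℂ) +
        ((2 * χ * χ' * μ : ℝ) : ℂ) * (u * (a1 * star t) - u * (t1 * star a)) +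
        ((χ ^ 2 * P : ℝ) : ℂ) * (u * (a * star t) - u * (t * star a)) +
        ((χ ^ 2 * μ * q : ℝ) : ℂ) * (u * (a * star t)) +
        ((χ ^ 2 * μ * j : ℝ) : ℂ) * (u * (t1 * star t) + u * (a1 * star a)) +
        ((χ ^ 2 * μ : ℝ) : ℂ) * (u * (a1 * star t1) - u * (t1 * star a1)) := by
    have e2 := Complex.mul_conj' a
    have e3 := Complex.mul_conj' t
    simp only [star_def]
    push_cast
    rw [huz, ← e2, ← e3]
    ring
  rw [e1]
  simp only [add_re, re_ofReal_mul, ofReal_re, sub_re]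
  have r1 := abs_le.1 (cloc_re hu a1 t)
  have r2 := abs_le.1 (cloc_re hu t1 a)
  have r3 := abs_le.1 (cloc_re hu a t)
  have r4 := abs_le.1 (cloc_re hu t a)
  have r5 := abs_le.1 (cloc_re hu t1 t)
  have r6 := abs_le.1 (cloc_re hu a1 a)
  have r7 := abs_le.1 (cloc_re hu a1 t1)
  have r8 := abs_le.1 (cloc_re hu t1 a1)
  generalize (u * (a1 * star t)).re = X1 at *
  generalize (u * (t1 * star a)).re = X2 at *
  generalize (u * (a * star t)).re = X3 at *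
  generalize (u * (t * star a)).re = X4 at *
  generalize (u * (t1 * star t)).re = X5 at *
  generalize (u * (a1 * star a)).re = X6 at *
  generalize (u * (a1 * star t1)).re = X7 at *
  generalize (u * (t1 * star a1)).re = X8 at *
  have n1 := norm_nonneg a
  have n2 := norm_nonneg a1
  have n3 := norm_nonneg t
  have n4 := norm_nonneg t1
  generalize ‖a‖ = x at *
  generalize ‖a1‖ = x1 at *
  generalize ‖t‖ = y at *
  generalize ‖t1‖ = y1 at *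
  have c1 : χ ^ 2 ≤ 1 := pow_le_one₀ h0 h1
  have c2 : 0 ≤ χ ^ 2 := sq_nonneg χ
  have t1 : -(x1 * y + y1 * x) ≤ χ' * (X1 - X2) := by
    refine (abs_le.1 ?_).1
    rw [abs_mul]
    exact (mul_le_of_le_one_left (abs_nonneg _) h2).trans
      (abs_le.2 ⟨by linarith [r1.1, r2.2], by linarith [r1.2, r2.1]⟩)
  have s1 := mul_le_mul_of_nonneg_left t1 (by positivity : 0 ≤ 2 * χ * μ)
  have s2 := mul_nonneg hμ (add_nonneg (sq_nonneg (x1 - χ * y)) (sq_nonneg (y1 - χ * x)))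
  have s3 := mul_le_mul_of_nonneg_left (show -(x ^ 2 + y ^ 2) ≤ X3 - X4 by
    linarith [r3.1, r4.2, sq_nonneg (x - y)]) (mul_nonneg c2 hP)
  have s4 := mul_le_mul_of_nonneg_right c1 (by positivity : 0 ≤ P * (x ^ 2 + y ^ 2))
  have s5 := mul_le_mul_of_nonneg_left (show -(x ^ 2 + y ^ 2) ≤ X3 by
    linarith [r3.1, sq_nonneg (x - y), sq_nonneg x, sq_nonneg y])
    (by positivity : 0 ≤ χ ^ 2 * μ * q)
  have s6 := mul_le_mul_of_nonneg_left hq1 (by positivity : 0 ≤ χ ^ 2 * μ * (x ^ 2 + y ^ 2))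
  have s7 := mul_le_mul_of_nonneg_left (show -(y1 * y + x1 * x) ≤ X5 + X6 by
    linarith [r5.1, r6.1]) (by positivity : 0 ≤ χ ^ 2 * μ * j)
  have s8 := mul_le_mul_of_nonneg_left hj (by positivity : 0 ≤ χ ^ 2 * μ * (y1 * y + x1 * x))
  have s9 := mul_nonneg (mul_nonneg c2 hμ)
    (add_nonneg (sq_nonneg (y1 - 2 * y)) (sq_nonneg (x1 - 2 * x)))
  have s10 := mul_le_mul_of_nonneg_left (show -(x1 ^ 2 + y1 ^ 2) ≤ X7 - X8 by
    linarith [r7.1, r8.2, sq_nonneg (x1 - y1)]) (mul_nonneg c2 hμ)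
  have s11 := mul_le_mul_of_nonneg_right c1 (by positivity : 0 ≤ μ * (x1 ^ 2 + y1 ^ 2))
  have s12 : 0 ≤ μ * (q * x ^ 2) := by positivity
  have s13 : 0 ≤ P * (x ^ 2 + y ^ 2) := by positivity
  linarith

/-- local control of the shell energy by the weighted energy -/
theorem loc (c : ℝ) (hc : 0 < c) : ∃ L0 C : ℝ, 0 ≤ C ∧
    ∀ {ε a rm rp B : ℝ} {ρ n j q ψ : ℝ → ℝ}, Cf ε a rm rp ρ n j q → Psi B ψ →
    ∀ {l : ℕ} {z : ℂ} {A Θ : ℝ → ℂ}, ASol ρ j q l z A Θ 0 0 → ∀ L : ℝ, L0 ≤ L → 1 ≤ L →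
    c * L ^ 2 ≤ ‖z‖ → (∫ r in (3.32 : ℝ)..3.34, ee L A Θ r) ≤ C * Eψ ψ ρ q l A Θ := by
  refine ⟨12 / c, 1 + 3 * (2 * 10 ^ 7 / c), by positivity, ?_⟩
  intro ε a rm rp B ρ n j q ψ hc' hψ l z A Θ h L hL0 hL hz
  obtain ⟨u, hu, huz⟩ := Complex.exists_norm_eq_mul_self z
  have hd := cloc_cont hc' h
  have hρ := hc'.cρ.continuous
  have cA := h.cA.continuous
  have cT := h.cT.continuous
  have cA' := h.cA.continuous_deriv (by norm_num)
  have cT' := h.cT.continuous_deriv (by norm_num)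
  have hz6 : c * L ^ 2 / 2 ≤ ‖z‖ - 6 := by
    rw [div_le_iff₀ hc] at hL0
    nlinarith
  obtain ⟨H, hH⟩ : ∃ H : ℝ → ℝ, H = fun t => c * L ^ 2 / 2 * (((t - 3.3) * (3.36 - t)) ^ 2 *
    (t ^ 11 * ρ t) * (‖A t‖ ^ 2 + ‖Θ t‖ ^ 2)) := ⟨_, rfl⟩
  have cH : Continuous H := by rw [hH]; fun_prop
  have hG := fun r (hr : 0 ≤ r) => Complex.reCLM.hasFDerivAt.comp_hasDerivAt r
    (((cloc_chi 3.3 3.36 r).mul
      (((h.e1 r hr).mul (h.cT.differentiable (by norm_num) r).hasDerivAt.star).sub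
        ((h.e2 r hr).mul (h.cA.differentiable (by norm_num) r).hasDerivAt.star))).const_mul u)
  have h1 := intervalIntegral.integral_le_sub_of_hasDeriv_right_of_le
    (φ := fun t => H t - 3 * dens ρ q l A Θ t) (by norm_num : (3.3 : ℝ) ≤ 3.36)
    (fun r hr => (hG r (by linarith [hr.1])).continuousAt.continuousWithinAt)
    (fun r hr => (hG r (by linarith [hr.1])).hasDerivWithinAt)
    (cH.sub (continuous_const.mul hd)).integrableOn_Icc fun r hr => by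
      have hr' : r ∈ Set.Icc (3.3 : ℝ) 3.46 := ⟨hr.1.le, by linarith [hr.2]⟩
      obtain ⟨b1, b2, b3, b4, b5, b6⟩ := cloc_coef hc' l hr'
      refine le_trans ?_ (cloc_alg (A r) (deriv A r) (Θ r) (deriv Θ r) hu huz
        (χ := (r - 3.3) * (3.36 - r)) (χ' := 3.3 + 3.36 - 2 * r) (by linarith) b3 (hc'.q0 r) b4 b5 b6
        (mul_nonneg (by linarith [hr.1]) (by linarith [hr.2]))
        (by nlinarith [hr.1, hr.2]) (abs_le.2 ⟨by linarith [hr.2], by linarith [hr.1]⟩))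
      rw [hH]
      exact sub_le_sub (mul_le_mul_of_nonneg_right hz6 (by positivity)) le_rfl
  simp only [Function.comp_apply, Pi.mul_apply, sub_self, zero_mul, mul_zero, ne_eq,
    OfNat.ofNat_ne_zero, not_false_eq_true, zero_pow, ofReal_zero, map_zero] at h1
  rw [intervalIntegral.integral_sub (cH.intervalIntegrable _ _)
    ((hd.intervalIntegrable _ _).const_mul 3), intervalIntegral.integral_const_mul] at h1
  have hK : 0 ≤ 2 * 10 ^ 7 / c := by positivity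
  have h2 := cloc_sub (f := ee L A Θ) (g := fun t => dens ρ q l A Θ t + 2 * 10 ^ 7 / c * H t)
    (a := 3.3) (b := 3.32) (c := 3.34) (d := 3.36) (by norm_num) (by norm_num) (by norm_num)
    (by unfold ee en; fun_prop) (hd.add (continuous_const.mul cH))
    (fun r hr => by
      obtain ⟨b1, b2, b3, -⟩ := cloc_coef hc' l (r := r) ⟨hr.1, by linarith [hr.2]⟩
      have b4 := hc'.q0 r
      rw [hH]
      unfold dens
      positivity)
    fun r hr => by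
      obtain ⟨b1, b2, b3, -⟩ :=
        cloc_coef hc' l (r := r) ⟨by linarith [hr.1], by linarith [hr.2]⟩
      have b4 := hc'.q0 r
      have b5 := cloc_low (x := r - 3.3) (y := 3.36 - r) (by linarith [hr.1]) (by linarith [hr.2]) b1
      have b6 := mul_le_mul_of_nonneg_right b5
        (by positivity : 0 ≤ L ^ 2 * (‖A r‖ ^ 2 + ‖Θ r‖ ^ 2))
      have b7 := mul_le_mul_of_nonneg_right b1
        (by positivity : 0 ≤ ‖deriv A r‖ ^ 2 + ‖deriv Θ r‖ ^ 2 + q r * ‖A r‖ ^ 2)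
      have b8 := mul_nonneg b3 (by positivity : 0 ≤ ‖A r‖ ^ 2 + ‖Θ r‖ ^ 2)
      have b9 := mul_nonneg b4 (sq_nonneg ‖A r‖)
      have e : 2 * 10 ^ 7 / c * H r = 10 ^ 7 * (((r - 3.3) * (3.36 - r)) ^ 2 * (r ^ 11 * ρ r)) *
          (L ^ 2 * (‖A r‖ ^ 2 + ‖Θ r‖ ^ 2)) := by
        rw [hH]
        field_simp
      rw [e]
      unfold ee en dens
      linarith
  rw [intervalIntegral.integral_add (hd.intervalIntegrable _ _)
    ((cH.intervalIntegrable _ _).const_mul _), intervalIntegral.integral_const_mul] at h2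
  have h3 := cloc_sub (f := dens ρ q l A Θ) (g := fun t => ψ t * dens ρ q l A Θ t)
    (a := 0) (b := 3.3) (c := 3.36) (d := 3.4) (by norm_num) (by norm_num) (by norm_num)
    hd (hψ.c.continuous.mul hd)
    (fun r hr => by
      have b1 := hr.1
      have b2 := hc'.q0 r
      have b3 : 0 ≤ ρ r := by linarith [hc'.ρ0 r ⟨b1, by linarith [hr.2]⟩]
      have b4 := hψ.nn r
      unfold dens
      positivity)
    fun r hr => by rw [hψ.one r hr.2, one_mul]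
  have h4 := mul_le_mul_of_nonneg_left (sub_nonpos.1 h1) hK
  have h5 := mul_le_mul_of_nonneg_left h3 (by positivity : 0 ≤ 1 + 3 * (2 * 10 ^ 7 / c))
  unfold Eψ
  linarith

theorem cloc_alg2 (a v v1 z : ℂ) {μ P q j χ χ' : ℝ} (hμ : 0 ≤ μ) (hP : 0 ≤ P) (hq : 0 ≤ q)
    (hq1 : q ≤ 1) (hj0 : 0 ≤ j) (hj : j ≤ 4) (h0 : 0 ≤ χ) (h1 : χ ≤ 1) (h2 : |χ'| ≤ 1) :
    χ ^ 2 * μ * (1 / 2 * ‖v1‖ ^ 2 + (-z.im - 17) * ‖v‖ ^ 2) - μ * (‖a‖ ^ 2 + 4 * ‖v‖ ^ 2) ≤
      (((2 * χ * χ' : ℝ) : ℂ) * ((μ : ℂ) * v1 * star v) + ((χ ^ 2 : ℝ) : ℂ) *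
        (((P : ℂ) * v + (μ : ℂ) * (q * a + I * z * v + I * j * v1)) * star v +
          (μ : ℂ) * v1 * star v1)).re := by
  have e1 : ((2 * χ * χ' : ℝ) : ℂ) * ((μ : ℂ) * v1 * star v) + ((χ ^ 2 : ℝ) : ℂ) *
        (((P : ℂ) * v + (μ : ℂ) * (q * a + I * z * v + I * j * v1)) * star v +
          (μ : ℂ) * v1 * star v1) =
      ((χ ^ 2 * (P * ‖v‖ ^ 2 + μ * ‖v1‖ ^ 2) : ℝ) : ℂ) + ((χ ^ 2 * μ * ‖v‖ ^ 2 : ℝ) : ℂ) * (I * z) +
        ((2 * χ * χ' * μ : ℝ) : ℂ) * (1 * (v1 * star v)) +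
        ((χ ^ 2 * μ * q : ℝ) : ℂ) * (1 * (a * star v)) +
        ((χ ^ 2 * μ * j : ℝ) : ℂ) * (I * (v1 * star v)) := by
    have e2 := Complex.mul_conj' v
    have e3 := Complex.mul_conj' v1
    simp only [star_def]
    push_cast
    rw [← e2, ← e3]
    ring
  rw [e1]
  simp only [add_re, re_ofReal_mul, ofReal_re]
  have r1 := cloc_re norm_one v1 v
  have r2 := abs_le.1 (cloc_re norm_one a v)
  have r3 := abs_le.1 (cloc_re norm_I v1 v)
  rw [I_mul_re z]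
  generalize (1 * (v1 * star v)).re = X1 at *
  generalize (1 * (a * star v)).re = X2 at *
  generalize (I * (v1 * star v)).re = X3 at *
  have n1 := norm_nonneg a
  have n2 := norm_nonneg v
  have n3 := norm_nonneg v1
  generalize ‖a‖ = x at *
  generalize ‖v‖ = y at *
  generalize ‖v1‖ = y1 at *
  have c1 : χ ^ 2 ≤ 1 := pow_le_one₀ h0 h1
  have c2 : 0 ≤ χ ^ 2 := sq_nonneg χ
  have t1 : -(y1 * y) ≤ χ' * X1 := by
    refine (abs_le.1 ?_).1
    rw [abs_mul]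
    exact (mul_le_of_le_one_left (abs_nonneg _) h2).trans r1
  have s1 := mul_le_mul_of_nonneg_left t1 (by positivity : 0 ≤ 2 * χ * μ)
  have s2 := mul_nonneg hμ (sq_nonneg (χ * y1 / 2 - 2 * y))
  have s5 := mul_le_mul_of_nonneg_left (show -(x ^ 2 + y ^ 2) ≤ X2 by
    linarith [r2.1, sq_nonneg (x - y), sq_nonneg x, sq_nonneg y])
    (by positivity : 0 ≤ χ ^ 2 * μ * q)
  have s6 := mul_le_mul_of_nonneg_left hq1 (by positivity : 0 ≤ χ ^ 2 * μ * (x ^ 2 + y ^ 2))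
  have s7 := mul_le_mul_of_nonneg_left r3.1 (by positivity : 0 ≤ χ ^ 2 * μ * j)
  have s8 := mul_le_mul_of_nonneg_left hj (by positivity : 0 ≤ χ ^ 2 * μ * (y1 * y))
  have s9 := mul_nonneg (mul_nonneg c2 hμ) (sq_nonneg (y1 / 2 - 4 * y))
  have s11 := mul_le_mul_of_nonneg_right c1 (by positivity : 0 ≤ μ * x ^ 2)
  have s13 : 0 ≤ χ ^ 2 * (P * y ^ 2) := by positivity
  linarith

/-- Caccioppoli for the evanescent component -/
theorem cacc_m (c : ℝ) (hc : 0 < c) : ∃ L0 C : ℝ, 0 ≤ C ∧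
    ∀ {ε a rm rp : ℝ} {ρ n j q : ℝ → ℝ}, Cf ε a rm rp ρ n j q →
    ∀ {l : ℕ} {z : ℂ} {A Θ : ℝ → ℂ}, ASol ρ j q l z A Θ 0 0 → ∀ L : ℝ, L0 ≤ L → 1 ≤ L →
    c * L ^ 2 ≤ -z.im → (∫ r in (3.36 : ℝ)..3.4, en L (zm A Θ) r)
      ≤ C / L ^ 2 * ∫ r in (3.34 : ℝ)..3.42, ee L A Θ r := by
  obtain ⟨κ, hκ, hκ1, hκ2⟩ : ∃ κ : ℝ, 0 < κ ∧ κ ≤ c / 2 ∧ κ ≤ 1 / 2 :=
    ⟨min (c / 2) (1 / 2), by positivity, min_le_left _ _, min_le_right _ _⟩
  refine ⟨34 / c, 10 ^ 7 / κ * (9 * 4 ^ 11), by positivity, ?_⟩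
  intro ε a rm rp ρ n j q hc' l z A Θ h L hL0 hL hz
  have hρ := hc'.cρ.continuous
  have cv : ContDiff ℝ 2 (zm A Θ) := h.cA.sub (contDiff_const.mul h.cT)
  have cA := h.cA.continuous
  have cT := h.cT.continuous
  have cA' := h.cA.continuous_deriv (by norm_num)
  have cT' := h.cT.continuous_deriv (by norm_num)
  have ce : Continuous (en L (zm A Θ)) := by
    have c1 := cv.continuous
    have c2 := cv.continuous_deriv (by norm_num)
    unfold en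
    fun_prop
  have cE : Continuous (ee L A Θ) := by
    unfold ee en
    fun_prop
  have hz6 : κ * L ^ 2 ≤ -z.im - 17 := by
    rw [div_le_iff₀ hc] at hL0
    nlinarith [mul_le_mul_of_nonneg_right hκ1 (sq_nonneg L)]
  have dv : ∀ t, deriv (zm A Θ) t = deriv A t - I * deriv Θ t := fun t =>
    ((h.cA.differentiable (by norm_num) t).hasDerivAt.sub
      ((h.cT.differentiable (by norm_num) t).hasDerivAt.const_mul I)).deriv
  have hv : ∀ r : ℝ, 0 ≤ r → HasDerivAt (fun t : ℝ => ((t ^ 11 * ρ t : ℝ) : ℂ) * deriv (zm A Θ) t)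
      (((l * (l + 10) * r ^ 9 * ρ r : ℝ) : ℂ) * zm A Θ r + ((r ^ 11 * ρ r : ℝ) : ℂ) *
        (q r * A r + I * z * zm A Θ r + I * j r * deriv (zm A Θ) r)) r := by
    intro r hr
    refine (((h.e1 r hr).sub ((h.e2 r hr).const_mul I)).congr_deriv ?_).congr_of_eventuallyEq
      (Eventually.of_forall fun t => ?_)
    · rw [dv, zm, Pi.zero_apply, ofReal_add, ofReal_mul _ (q r)]
      linear_combination ((r ^ 11 * ρ r : ℝ) : ℂ) * (z * Θ r + j r * deriv Θ r) * I_mul_I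
    · simp only [dv, Pi.sub_apply]
      ring
  obtain ⟨H, hH⟩ : ∃ H : ℝ → ℝ, H = fun t => κ * (((t - 3.34) * (3.42 - t)) ^ 2 *
    (t ^ 11 * ρ t) * en L (zm A Θ) t) := ⟨_, rfl⟩
  have cH : Continuous H := by rw [hH]; fun_prop
  have hG := fun r (hr : 0 ≤ r) => Complex.reCLM.hasFDerivAt.comp_hasDerivAt r
    ((cloc_chi 3.34 3.42 r).mul ((hv r hr).mul (cv.differentiable (by norm_num) r).hasDerivAt.star))
  have h1 := intervalIntegral.integral_le_sub_of_hasDeriv_right_of_le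
    (φ := fun t => H t - 9 * 4 ^ 11 / L ^ 2 * ee L A Θ t) (by norm_num : (3.34 : ℝ) ≤ 3.42)
    (fun r hr => (hG r (by linarith [hr.1])).continuousAt.continuousWithinAt)
    (fun r hr => (hG r (by linarith [hr.1])).hasDerivWithinAt)
    (cH.sub (continuous_const.mul cE)).integrableOn_Icc fun r hr => by
      have hr' : r ∈ Set.Icc (3.3 : ℝ) 3.46 := ⟨by linarith [hr.1], by linarith [hr.2]⟩
      obtain ⟨b1, b2, b3, b4, b5, b6⟩ := cloc_coef hc' l hr'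
      refine le_trans ?_ (cloc_alg2 (A r) (zm A Θ r) (deriv (zm A Θ) r) z
        (χ := (r - 3.34) * (3.42 - r)) (χ' := 3.34 + 3.42 - 2 * r) (by linarith) b3 (hc'.q0 r) b4
        b5 b6 (mul_nonneg (by linarith [hr.1]) (by linarith [hr.2]))
        (by nlinarith [hr.1, hr.2]) (abs_le.2 ⟨by linarith [hr.2], by linarith [hr.1]⟩))
      have d1 : ‖zm A Θ r‖ ≤ ‖A r‖ + ‖Θ r‖ :=
        (norm_sub_le _ _).trans (by rw [norm_mul, norm_I, one_mul])
      have d2 := pow_le_pow_left₀ (norm_nonneg _) d1 2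
      have d3 : ‖A r‖ ^ 2 + ‖Θ r‖ ^ 2 ≤ ee L A Θ r / L ^ 2 := by
        rw [le_div_iff₀ (by positivity)]
        unfold ee en
        linarith [sq_nonneg ‖deriv A r‖, sq_nonneg ‖deriv Θ r‖]
      have d4 := mul_le_mul b2 (show ‖A r‖ ^ 2 + 4 * ‖zm A Θ r‖ ^ 2 ≤ 9 * (ee L A Θ r / L ^ 2) by
        linarith [sq_nonneg (‖A r‖ - ‖Θ r‖), sq_nonneg ‖Θ r‖]) (by positivity) (by positivity)
      have d0 : 0 ≤ ((r - 3.34) * (3.42 - r)) ^ 2 * (r ^ 11 * ρ r) := by positivity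
      have d5 := mul_le_mul_of_nonneg_left
        (add_le_add (mul_le_mul_of_nonneg_right hκ2 (sq_nonneg ‖deriv (zm A Θ) r‖))
          (mul_le_mul_of_nonneg_right hz6 (sq_nonneg ‖zm A Θ r‖))) d0
      rw [hH, div_mul_eq_mul_div, mul_div_assoc]
      unfold en
      linarith
  simp only [Function.comp_apply, Pi.mul_apply, sub_self, zero_mul, mul_zero, ne_eq,
    OfNat.ofNat_ne_zero, not_false_eq_true, zero_pow, ofReal_zero, map_zero] at h1
  rw [intervalIntegral.integral_sub (cH.intervalIntegrable _ _)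
    ((cE.intervalIntegrable _ _).const_mul _), intervalIntegral.integral_const_mul] at h1
  have h2 := cloc_sub (f := en L (zm A Θ)) (g := fun t => 10 ^ 7 / κ * H t)
    (a := 3.34) (b := 3.36) (c := 3.4) (d := 3.42) (by norm_num) (by norm_num) (by norm_num)
    ce (continuous_const.mul cH)
    (fun r hr => by
      obtain ⟨b1, -⟩ := cloc_coef hc' l (r := r) ⟨by linarith [hr.1], by linarith [hr.2]⟩
      rw [hH]
      unfold en
      positivity)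
    fun r hr => by
      obtain ⟨b1, -⟩ := cloc_coef hc' l (r := r) ⟨by linarith [hr.1], by linarith [hr.2]⟩
      have b5 := cloc_low (x := r - 3.34) (y := 3.42 - r) (by linarith [hr.1])
        (by linarith [hr.2]) b1
      have b6 := mul_le_mul_of_nonneg_right b5
        (show 0 ≤ en L (zm A Θ) r by unfold en; positivity)
      have e : 10 ^ 7 / κ * H r = 10 ^ 7 * (((r - 3.34) * (3.42 - r)) ^ 2 * (r ^ 11 * ρ r)) *
          en L (zm A Θ) r := by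
        rw [hH]
        field_simp
      linarith
  rw [intervalIntegral.integral_const_mul] at h2
  refine h2.trans ((mul_le_mul_of_nonneg_left (sub_nonpos.1 h1) (by positivity)).trans
    (le_of_eq (by ring)))

end Vale.Agent.P139
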