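import Vale.Agent.P139.CUp

open Complex MeasureTheory Filter Topology
open scoped ComplexConjugate ContDiff

namespace Vale.Agent.P139

theorem COutL_alg (a b d : ℂ) (lam Ω μ : ℝ) :
    (conj b * d).im - Ω * (conj a * (b + lam * a)).im = (conj b * (d + lam * b + Ω * a)).im ∧
    ‖d‖ ^ 2 + (Ω - μ) * ‖b‖ ^ 2 - Ω * (‖b + lam * a‖ ^ 2 + (Ω - lam ^ 2) * ‖a‖ ^ 2)
      = 2 * (conj d * (d + lam * b + Ω * a)).re - ‖d + lam * b + Ω * a‖ ^ 2
        - (μ - lam ^ 2) * ‖b‖ ^ 2 := by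
  simp only [Complex.sq_norm, normSq_apply, mul_re, mul_im, add_re, add_im, conj_re, conj_im,
    ofReal_re, ofReal_im]
  constructor <;> ring

theorem COutL_lev (l : ℕ) {L : ℝ} (hL : 1 ≤ L) (f g : ℝ → ℂ) (r : ℝ) {j n : ℕ} (hj : j ≤ 8)
    (hn : n ≤ 8 - j) :
    L ^ n * ‖deriv (lad l j f) r‖ ≤ √(EE l L f g r) ∧
      L ^ n * L * ‖lad l j f r‖ ≤ √(EE l L f g r) ∧
      L ^ n * L * ‖lad l j g r‖ ≤ √(EE l L f g r) := by
  have h := ee_le_EE l L f g r j hj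
  have h0 : 0 ≤ L := zero_le_one.trans hL
  have h1 : (L ^ n) ^ 2 ≤ L ^ (2 * (8 - j)) := by
    rw [← pow_mul]
    exact pow_le_pow_right₀ hL (by omega)
  have h2 : (L ^ n) ^ 2 * ee L (lad l j f) (lad l j g) r ≤ EE l L f g r :=
    (mul_le_mul_of_nonneg_right h1 (by unfold ee en; positivity)).trans h
  unfold ee en at h2
  have p1 : 0 ≤ (L ^ n) ^ 2 * ‖deriv (lad l j f) r‖ ^ 2 := by positivity
  have p2 : 0 ≤ (L ^ n) ^ 2 * ‖deriv (lad l j g) r‖ ^ 2 := by positivity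
  have p3 : 0 ≤ (L ^ n) ^ 2 * (L ^ 2 * ‖lad l j f r‖ ^ 2) := by positivity
  have p4 : 0 ≤ (L ^ n) ^ 2 * (L ^ 2 * ‖lad l j g r‖ ^ 2) := by positivity
  refine ⟨Real.le_sqrt_of_sq_le ?_, Real.le_sqrt_of_sq_le ?_, Real.le_sqrt_of_sq_le ?_⟩ <;>
    nlinarith

theorem COutL_EE (l : ℕ) {L : ℝ} (hL : 1 ≤ L) (f g : ℝ → ℂ) (r : ℝ) : 0 ≤ EE l L f g r := by
  have h0 : 0 ≤ L := zero_le_one.trans hL
  unfold EE ee en
  positivity

/-- size of the potential terms -/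
theorem COutL_R : ∃ C : ℝ, 0 ≤ C ∧ ∀ {ε : ℝ} {m : ℕ} {om σ : ℝ} {w : ℝ → ℂ}, Ctx ε m om σ w →
    ∀ (l : ℕ) {L : ℝ} (f g : ℝ → ℂ), 1 ≤ L → ∀ r ∈ Set.Icc (3.3 : ℝ) 3.46, ∀ k < 8,
      L ^ (7 - k) * ‖Rk m w l k f g r‖ ≤ C * ε * √(EE l L f g r) := by
  obtain ⟨C, hC, h⟩ := Rk_bound
  refine ⟨C * 16, by positivity, fun {ε m om σ w} hc l L f g hL r hr k hk => ?_⟩
  have hr1 : (1 : ℝ) ≤ r := by linarith [hr.1]
  have h0 : 0 ≤ L := zero_le_one.trans hL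
  have e0 := hc.e0
  have h1 := h hc l k f g r hk.le (by linarith) (by nlinarith [hr.1, hc.e1, hc.s1])
  have h2 : ∀ i ∈ Finset.range (k + 1), L ^ (7 - k) * ((r ^ (2 + i))⁻¹ *
      (‖lad l (k - i) f r‖ + ‖lad l (k - i) g r‖)) ≤ 2 * √(EE l L f g r) := fun i _ => by
    obtain ⟨-, b1, b2⟩ := COutL_lev l hL f g r (j := k - i) (n := 7 - k) (by omega) (by omega)
    have c1 : (r ^ (2 + i))⁻¹ ≤ 1 := inv_le_one_of_one_le₀ (one_le_pow₀ hr1)
    have c2 : L ^ (7 - k) ≤ L ^ (7 - k) * L := le_mul_of_one_le_right (by positivity) hL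
    have c3 := mul_le_mul_of_nonneg_right c2 (norm_nonneg (lad l (k - i) f r))
    have c4 := mul_le_mul_of_nonneg_right c2 (norm_nonneg (lad l (k - i) g r))
    calc _ ≤ L ^ (7 - k) * (1 * (‖lad l (k - i) f r‖ + ‖lad l (k - i) g r‖)) := by gcongr
      _ ≤ _ := by linarith
  have h3 := Finset.sum_le_card_nsmul _ _ _ h2
  rw [← Finset.mul_sum, Finset.card_range, nsmul_eq_mul] at h3
  have h4 : ((k + 1 : ℕ) : ℝ) ≤ 8 := by exact_mod_cast hk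
  have h5 := Real.sqrt_nonneg (EE l L f g r)
  calc _ ≤ L ^ (7 - k) * (C * ε * ∑ i ∈ Finset.range (k + 1),
        (r ^ (2 + i))⁻¹ * (‖lad l (k - i) f r‖ + ‖lad l (k - i) g r‖)) := by gcongr
    _ = C * ε * (L ^ (7 - k) * ∑ i ∈ Finset.range (k + 1),
        (r ^ (2 + i))⁻¹ * (‖lad l (k - i) f r‖ + ‖lad l (k - i) g r‖)) := by ring
    _ ≤ C * ε * (16 * √(EE l L f g r)) := by
        refine mul_le_mul_of_nonneg_left (h3.trans ?_) (by positivity)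
        nlinarith
    _ = _ := by ring

theorem COutL_eta {ε : ℝ} (e0 : 0 < ε) (e1 : ε ≤ 1) (l : ℕ) {z : ℂ} (hz : 0 ≤ z.re) :
    ε ≤ eta ε l z ∧ 1 / Lb l z ≤ eta ε l z ∧ z.re / Lb l z ^ 2 ≤ eta ε l z ∧ eta ε l z ≤ 3 := by
  have hL := one_le_Lb l z
  have h1 : 0 ≤ 1 / Lb l z := by positivity
  have h2 : 0 ≤ z.re / Lb l z ^ 2 := by positivity
  have h3 : 1 / Lb l z ≤ 1 := (div_le_one (by linarith)).2 hL
  have h4 : z.re / Lb l z ^ 2 ≤ 1 := by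
    refine (div_le_one (by positivity)).2 ?_
    rw [Lb_sq]
    have := re_le_norm z
    have := sq_nonneg (l : ℝ)
    linarith
  unfold eta
  refine ⟨?_, ?_, ?_, ?_⟩ <;> linarith

/-- size of the remainder -/
theorem COutL_rho : ∃ C : ℝ, 0 ≤ C ∧ ∀ {ε : ℝ} {m : ℕ} {om σ : ℝ} {w : ℝ → ℂ}, Ctx ε m om σ w →
    ∀ {l : ℕ} {z : ℂ} {f g : ℝ → ℂ}, RSol m om w l z f g 0 0 → 0 ≤ z.re →
    ∀ r ∈ Set.Icc (3.3 : ℝ) 3.46, ∀ k < 8,
      Lb l z ^ (7 - k) * ‖deriv (lad l (k + 1) f) r + ((((l : ℝ) + k) / r : ℝ) : ℂ) *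
        lad l (k + 1) f r + ((-z.im : ℝ) : ℂ) * lad l k f r‖
        ≤ C * eta ε l z * √(EE l (Lb l z) f g r) := by
  obtain ⟨C, hC, h⟩ := COutL_R
  refine ⟨C + 12, by positivity, fun {ε m om σ w} hc l z f g hs hz r hr k hk => ?_⟩
  have hL := one_le_Lb l z
  have hr0 : 0 < r := by linarith [hr.1]
  have e := lad_ode hc.prof hs contDiff_const k (by omega) hr0
  have e0 : lad l k (0 : ℝ → ℂ) r = 0 := by rw [lad_zero]; rfl
  have hR := h hc l f g hL r hr k hk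
  obtain ⟨t1, t2, t3, -⟩ := COutL_eta hc.e0 (by linarith [hc.e1]) l hz
  obtain ⟨a1, a2, -⟩ := COutL_lev l hL f g r (j := k) (n := 7 - k + 1) hk.le (by omega)
  obtain ⟨-, b2, -⟩ := COutL_lev l hL f g r (j := k + 1) (n := 7 - k) hk (by omega)
  set L := Lb l z
  set S := √(EE l L f g r)
  have hS : 0 ≤ S := Real.sqrt_nonneg _
  have L0 : 0 < L := by linarith
  rw [pow_succ] at a1 a2
  set P := L ^ (7 - k)
  have P0 : 0 ≤ P := by positivity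
  have e2 : deriv (lad l (k + 1) f) r + ((((l : ℝ) + k) / r : ℝ) : ℂ) * lad l (k + 1) f r
      + ((-z.im : ℝ) : ℂ) * lad l k f r = -(((11 / r : ℝ) : ℂ) * lad l (k + 1) f r)
        - I * ((z.re + k / 2 + aa m : ℝ) : ℂ) * lad l k f r - (om : ℂ) * lad l k f r
        - I * ((r / 2 : ℝ) : ℂ) * deriv (lad l k f) r + Rk m w l k f g r := by
    rw [e, e0]
    have hz' : z = z.re + z.im * I := (re_add_im z).symm
    push_cast
    linear_combination (-I * lad l k f r) * hz' + (om - z.im) * lad l k f r * I_mul_I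
  have ha : 0 ≤ aa m ∧ aa m ≤ 1 / 2 := by
    have : (1 : ℝ) ≤ m := by exact_mod_cast hc.prof.m_pos
    unfold aa
    exact ⟨by positivity, one_div_le_one_div_of_le (by norm_num) (by linarith)⟩
  have hk' : (k : ℝ) ≤ 7 := by exact_mod_cast Nat.lt_succ_iff.1 hk
  have n1 : ‖((11 / r : ℝ) : ℂ) * lad l (k + 1) f r‖ ≤ 4 * ‖lad l (k + 1) f r‖ := by
    rw [norm_mul, norm_real, Real.norm_of_nonneg (by positivity)]
    refine mul_le_mul_of_nonneg_right ((div_le_iff₀ hr0).2 (by linarith [hr.1])) (norm_nonneg _)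
  have n2 : ‖I * ((z.re + k / 2 + aa m : ℝ) : ℂ) * lad l k f r‖ ≤ (z.re + 4) * ‖lad l k f r‖ := by
    rw [norm_mul, norm_mul, norm_I, one_mul, norm_real,
      Real.norm_of_nonneg (by have := ha.1; positivity)]
    exact mul_le_mul_of_nonneg_right (by linarith [ha.2]) (norm_nonneg _)
  have n3 : ‖(om : ℂ) * lad l k f r‖ ≤ 1 * ‖lad l k f r‖ := by
    rw [norm_mul, norm_real, Real.norm_of_nonneg (by linarith [hc.o0])]
    exact mul_le_mul_of_nonneg_right (by linarith [hc.o1]) (norm_nonneg _)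
  have n4 : ‖I * ((r / 2 : ℝ) : ℂ) * deriv (lad l k f) r‖ ≤ 2 * ‖deriv (lad l k f) r‖ := by
    rw [norm_mul, norm_mul, norm_I, one_mul, norm_real, Real.norm_of_nonneg (by positivity)]
    exact mul_le_mul_of_nonneg_right (by linarith [hr.2]) (norm_nonneg _)
  have n5 := norm_add_le_of_le (norm_sub_le_of_le (norm_sub_le_of_le (norm_sub_le_of_le
    ((norm_neg _).trans_le n1) n2) n3) n4) (le_refl ‖Rk m w l k f g r‖)
  rw [e2]
  refine (mul_le_mul_of_nonneg_left n5 P0).trans ?_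
  have c1 : P * ‖lad l (k + 1) f r‖ ≤ 1 / L * S := by
    rw [div_mul_eq_mul_div, le_div_iff₀ L0]; linarith
  have c2 : P * ‖deriv (lad l k f) r‖ ≤ 1 / L * S := by
    rw [div_mul_eq_mul_div, le_div_iff₀ L0]; linarith
  have c3 : P * ‖lad l k f r‖ ≤ 1 / L ^ 2 * S := by
    rw [div_mul_eq_mul_div, le_div_iff₀ (by positivity)]; linarith
  have c4 : 1 / L ^ 2 ≤ 1 / L := one_div_le_one_div_of_le L0 (by nlinarith)
  have c5 : z.re * (P * ‖lad l k f r‖) ≤ eta ε l z * S :=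
    (mul_le_mul_of_nonneg_left c3 hz).trans (by
      rw [← mul_assoc, mul_one_div]
      exact mul_le_mul_of_nonneg_right t3 hS)
  have c6 := mul_le_mul_of_nonneg_right t2 hS
  have c7 := mul_le_mul_of_nonneg_right c4 hS
  have c8 : C * ε * S ≤ C * eta ε l z * S := by gcongr
  have c9 : 0 ≤ eta ε l z * S := mul_nonneg (hc.e0.le.trans t1) hS
  nlinarith

/-- one ladder step for the flux and the oscillation energy -/
theorem out_step : ∃ C : ℝ, 0 ≤ C ∧ ∀ {ε : ℝ} {m : ℕ} {om σ : ℝ} {w : ℝ → ℂ}, Ctx ε m om σ w →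
    ∀ {l : ℕ} {z : ℂ} {f g : ℝ → ℂ}, RSol m om w l z f g 0 0 → 0 ≤ z.re →
    ∀ r ∈ Set.Icc (3.3 : ℝ) 3.46, ∀ k < 8,
      Lb l z ^ (2 * (7 - k)) * |Jf (lad l (k + 1) f) r - (-z.im) * Jf (lad l k f) r|
          ≤ C * eta ε l z * EE l (Lb l z) f g r / Lb l z ∧
        Lb l z ^ (2 * (7 - k)) * |So (-z.im) (l + k + 1) (lad l (k + 1) f) r
            - (-z.im) * So (-z.im) (l + k) (lad l k f) r|
          ≤ C * eta ε l z * EE l (Lb l z) f g r := by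
  obtain ⟨C, hC, h⟩ := COutL_rho
  refine ⟨2 * C + 3 * C ^ 2 + 2, by positivity,
    fun {ε m om σ w} hc l z f g hs hz r hr k hk => ?_⟩
  have hL := one_le_Lb l z
  have hr0 : 0 < r := by linarith [hr.1]
  have hρ := h hc hs hz r hr k hk
  obtain ⟨t1, t2, -, t4⟩ := COutL_eta hc.e0 (by linarith [hc.e1]) l hz
  obtain ⟨b1, b2, -⟩ := COutL_lev l hL f g r (j := k + 1) (n := 7 - k) hk (by omega)
  have hE := Real.sq_sqrt (COutL_EE l hL f g r)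
  have hd : deriv (lad l k f) r = lad l (k + 1) f r + ((((l : ℝ) + k) / r : ℝ) : ℂ) * lad l k f r := by
    rw [(lad_deriv l hs.1.1 k (by omega) hr0).deriv]
    push_cast
    rfl
  obtain ⟨g1, g2⟩ := COutL_alg (lad l k f r) (lad l (k + 1) f r) (deriv (lad l (k + 1) f) r)
    (((l : ℝ) + k) / r) (-z.im) (((l + k + 1 : ℕ) : ℝ) ^ 2 / r ^ 2)
  have hl : (l : ℝ) ≤ Lb l z := by
    refine (sq_le_sq₀ (by positivity) (by linarith)).1 ?_
    rw [Lb_sq]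
    have := norm_nonneg z
    linarith
  have hk' : (k : ℝ) ≤ 7 := by exact_mod_cast Nat.lt_succ_iff.1 hk
  have hδ : 0 ≤ ((l + k + 1 : ℕ) : ℝ) ^ 2 / r ^ 2 - (((l : ℝ) + k) / r) ^ 2 ∧
      ((l + k + 1 : ℕ) : ℝ) ^ 2 / r ^ 2 - (((l : ℝ) + k) / r) ^ 2 ≤ 2 * Lb l z := by
    have e : ((l + k + 1 : ℕ) : ℝ) ^ 2 / r ^ 2 - (((l : ℝ) + k) / r) ^ 2
        = (2 * ((l : ℝ) + k) + 1) / r ^ 2 := by
      push_cast
      field_simp
      ring
    rw [e]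
    refine ⟨by positivity, (div_le_iff₀ (by positivity)).2 ?_⟩
    have : 10 ≤ r ^ 2 := by nlinarith [hr.1]
    nlinarith
  have e3 : ((l + k : ℕ) : ℝ) ^ 2 / r ^ 2 = (((l : ℝ) + k) / r) ^ 2 := by
    push_cast
    rw [div_pow]
  unfold Jf So
  rw [hd, e3, g1, g2, mul_comm 2 (7 - k), pow_mul, ← hE]
  set ρ := deriv (lad l (k + 1) f) r + ((((l : ℝ) + k) / r : ℝ) : ℂ) * lad l (k + 1) f r
    + ((-z.im : ℝ) : ℂ) * lad l k f r
  set δ := ((l + k + 1 : ℕ) : ℝ) ^ 2 / r ^ 2 - (((l : ℝ) + k) / r) ^ 2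
  set L := Lb l z
  set S := √(EE l L f g r)
  set P := L ^ (7 - k)
  set η := eta ε l z
  set b := lad l (k + 1) f r
  set d := deriv (lad l (k + 1) f) r
  have hS : 0 ≤ S := Real.sqrt_nonneg _
  have L0 : 0 < L := by linarith
  have P0 : 0 ≤ P := by positivity
  have η0 : 0 ≤ η := hc.e0.le.trans t1
  have q0 : 0 ≤ η * S ^ 2 := by positivity
  constructor
  · have i1 : |(conj b * ρ).im| ≤ ‖b‖ * ‖ρ‖ := by
      refine (abs_im_le_norm _).trans ?_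
      rw [norm_mul, norm_conj]
    rw [le_div_iff₀ L0]
    calc P ^ 2 * |(conj b * ρ).im| * L ≤ P ^ 2 * (‖b‖ * ‖ρ‖) * L := by gcongr
      _ = (P * L * ‖b‖) * (P * ‖ρ‖) := by ring
      _ ≤ S * (C * η * S) := by gcongr
      _ ≤ _ := by nlinarith [mul_nonneg hC q0, mul_nonneg (sq_nonneg C) q0]
  · have i1 : |(conj d * ρ).re| ≤ ‖d‖ * ‖ρ‖ := by
      refine (abs_re_le_norm _).trans ?_
      rw [norm_mul, norm_conj]
    have i2 : |2 * (conj d * ρ).re - ‖ρ‖ ^ 2 - δ * ‖b‖ ^ 2|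
        ≤ 2 * (‖d‖ * ‖ρ‖) + ‖ρ‖ ^ 2 + 2 * L * ‖b‖ ^ 2 := by
      have j1 := abs_le.1 i1
      have j2 := mul_nonneg hδ.1 (sq_nonneg ‖b‖)
      have j3 := mul_le_mul_of_nonneg_right hδ.2 (sq_nonneg ‖b‖)
      have j4 := sq_nonneg ‖ρ‖
      rw [abs_le]
      constructor <;> linarith [j1.1, j1.2]
    have k1 : (P * ‖d‖) * (P * ‖ρ‖) ≤ S * (C * η * S) := by gcongr
    have k2 : (P * ‖ρ‖) ^ 2 ≤ (C * η * S) ^ 2 := by gcongr
    have k3 : (P * L * ‖b‖) ^ 2 ≤ S ^ 2 := by gcongr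
    have k4 : L * (P * ‖b‖) ^ 2 ≤ η * S ^ 2 := by
      refine le_trans ?_ (mul_le_mul_of_nonneg_right t2 (sq_nonneg S))
      rw [div_mul_eq_mul_div, le_div_iff₀ L0]
      linarith
    have k5 : C ^ 2 * (η * S ^ 2) * η ≤ C ^ 2 * (η * S ^ 2) * 3 := by gcongr
    refine (mul_le_mul_of_nonneg_left i2 (sq_nonneg P)).trans ?_
    calc _ = 2 * ((P * ‖d‖) * (P * ‖ρ‖)) + (P * ‖ρ‖) ^ 2 + 2 * (L * (P * ‖b‖) ^ 2) := by ring
      _ ≤ 2 * (S * (C * η * S)) + C ^ 2 * (η * S ^ 2) * 3 + 2 * (η * S ^ 2) := by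
          have : (C * η * S) ^ 2 = C ^ 2 * (η * S ^ 2) * η := by ring
          linarith
      _ = _ := by ring

end Vale.Agent.P139
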