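import Vale.Agent.P139.COut8
import Vale.Agent.P139.COutL
import Vale.Agent.P139.CUp

open Complex MeasureTheory Filter Topology
open scoped ComplexConjugate ContDiff

namespace Vale.Agent.P139

theorem COut_tele {a : ℕ → ℝ} {Ω L D : ℝ} (h0 : 0 ≤ Ω) (h1 : Ω ≤ L ^ 2)
    (h : ∀ k < 8, L ^ (2 * (7 - k)) * |a (k + 1) - Ω * a k| ≤ D) :
    |a 8 - Ω ^ 8 * a 0| ≤ 8 * D := by
  have key : ∀ j ≤ 8, |a 8 - Ω ^ j * a (8 - j)| ≤ j * D := by
    intro j hj
    induction j with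
    | zero => simp
    | succ j ih =>
      have h2 := h (7 - j) (by omega)
      rw [show 7 - (7 - j) = j by omega, show 7 - j + 1 = 8 - j by omega] at h2
      rw [show 8 - (j + 1) = 7 - j by omega]
      have e : a 8 - Ω ^ (j + 1) * a (7 - j) =
          (a 8 - Ω ^ j * a (8 - j)) + Ω ^ j * (a (8 - j) - Ω * a (7 - j)) := by ring
      have h3 : Ω ^ j ≤ L ^ (2 * j) := by
        rw [pow_mul]
        exact pow_le_pow_left₀ h0 h1 j
      have h4 : |Ω ^ j * (a (8 - j) - Ω * a (7 - j))| ≤ D := by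
        rw [abs_mul, abs_of_nonneg (pow_nonneg h0 j)]
        exact (mul_le_mul_of_nonneg_right h3 (abs_nonneg _)).trans h2
      rw [e]
      refine (abs_add_le _ _).trans ?_
      have := ih (by omega)
      push_cast
      linarith
  simpa using key 8 le_rfl

/-- outgoing condition at level 0 -/
theorem out0 (c : ℝ) (hc : 0 < c) : ∃ ε0 C1 C2 : ℝ, 0 < ε0 ∧ 0 ≤ C1 ∧ 0 ≤ C2 ∧
    ∀ {ε : ℝ} {m : ℕ} {om σ : ℝ} {w : ℝ → ℂ}, Ctx ε m om σ w → ε ≤ ε0 →
    ∀ {l : ℕ} {z : ℂ} {f g : ℝ → ℂ}, HSol m om w l z f g → c * Lb l z ^ 2 ≤ -z.im →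
    ∀ r ∈ Set.Icc (3.3 : ℝ) 3.46,
      -(C2 * eta ε l z * ee (Lb l z) f g r / Lb l z) ≤ Jf f r ∧
      So (-z.im) l f r ≤ C1 * Lb l z * Jf f r + C2 * eta ε l z * ee (Lb l z) f g r := by
  obtain ⟨ε0, C1, C2, hε, hC1, hC2, h8⟩ := out8 c hc
  obtain ⟨C, hC, hs⟩ := out_step
  obtain ⟨Cu, hCu, hu⟩ := EE_up
  refine ⟨ε0, C1, (8 * C * C1 + C2 + 8 * C) * Cu / c ^ 8, hε, hC1, by positivity, ?_⟩
  intro ε m om σ w hx hε0 l z f g hH hz r hr
  obtain ⟨a1, a2, -⟩ := h8 hx hε0 hH hz r hr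
  have hst := hs hx hH.sol hH.re r hr
  have hup := hu hx hH.sol contDiff_const contDiff_const r hr
  simp only [lad_zero, Pi.zero_apply, norm_zero, ne_eq, OfNat.ofNat_ne_zero, not_false_eq_true,
    zero_pow, add_zero, Finset.sum_const_zero] at hup
  have hL := one_le_Lb l z
  have hL0 : 0 < Lb l z := by linarith
  have hΩ1 : -z.im ≤ Lb l z ^ 2 := by
    rw [Lb_sq]
    have := abs_im_le_norm z
    have := neg_abs_le z.im
    have := sq_nonneg (l : ℝ)
    linarith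
  have hη : 0 ≤ eta ε l z := by
    have := hx.e0
    have := hH.re
    unfold eta
    positivity
  have hee : 0 ≤ ee (Lb l z) f g r := by
    unfold ee en
    positivity
  have hΩ0 : 0 < -z.im := lt_of_lt_of_le (by positivity) hz
  have t1 := COut_tele (a := fun k => Jf (lad l k f) r) hΩ0.le hΩ1 fun k hk => (hst k hk).1
  have t2 := COut_tele (a := fun k => So (-z.im) (l + k) (lad l k f) r) hΩ0.le hΩ1
    fun k hk => (hst k hk).2
  have e0 : lad l 0 f = f := rfl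
  simp only [e0, add_zero] at t1 t2
  generalize Jf (lad l 8 f) r = J8 at *
  generalize Jf f r = J0 at *
  generalize So (-z.im) (l + 8) (lad l 8 f) r = S8 at *
  generalize So (-z.im) l f r = S0 at *
  generalize EE l (Lb l z) f g r = A at *
  generalize ee (Lb l z) f g r = e at *
  generalize eta ε l z = η at *
  generalize Lb l z = L at *
  generalize -z.im = Ω at *
  clear hst h8 hs hu
  have hp : c ^ 8 * L ^ 16 ≤ Ω ^ 8 := by
    have := pow_le_pow_left₀ (by positivity) hz 8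
    rwa [mul_pow, ← pow_mul] at this
  have hΩ8 : 0 < Ω ^ 8 := by positivity
  have hA : η * A ≤ Ω ^ 8 * (Cu / c ^ 8 * (η * e)) := by
    have h1 : η * A ≤ η * (Cu * L ^ 16 * e) := mul_le_mul_of_nonneg_left hup hη
    have h2 : η * (Cu * L ^ 16 * e) = c ^ 8 * L ^ 16 * (Cu / c ^ 8 * (η * e)) := by
      field_simp
    rw [h2] at h1
    exact h1.trans (mul_le_mul_of_nonneg_right hp (by positivity))
  have eB : ∀ K : ℝ, K * Cu / c ^ 8 * η * e = K * (Cu / c ^ 8 * (η * e)) := fun K => by ring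
  rw [eB]
  have hB : 0 ≤ Cu / c ^ 8 * (η * e) := by positivity
  generalize Cu / c ^ 8 * (η * e) = B at *
  have eC : ∀ K : ℝ, K * η * A = K * (η * A) := fun K => by ring
  rw [eC] at a1 a2 t1 t2
  generalize η * A = X at *
  have b1 := abs_le.1 t1
  have b2 := abs_le.1 t2
  have eL : ∀ K : ℝ, L * (K / L) = K := fun K => by field_simp
  have c1 : -(C2 * X) ≤ L * J8 := by
    have := mul_le_mul_of_nonneg_left a1 hL0.le
    rwa [mul_neg, eL] at this
  have c2 : L * (J8 - Ω ^ 8 * J0) ≤ 8 * (C * X) := by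
    have := mul_le_mul_of_nonneg_left b1.2 hL0.le
    rwa [mul_left_comm, eL] at this
  have d1 : C2 * X ≤ C2 * (Ω ^ 8 * B) := mul_le_mul_of_nonneg_left hA hC2
  have d2 : C * X ≤ C * (Ω ^ 8 * B) := mul_le_mul_of_nonneg_left hA hC
  have d3 : C1 * (C * X) ≤ C1 * (C * (Ω ^ 8 * B)) := mul_le_mul_of_nonneg_left d2 hC1
  have d4 : 0 ≤ C1 * (C * (Ω ^ 8 * B)) := by positivity
  constructor
  · rw [neg_le, le_div_iff₀ hL0]
    refine le_of_mul_le_mul_left ?_ hΩ8
    nlinarith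
  · refine le_of_mul_le_mul_left ?_ hΩ8
    have c3 := mul_le_mul_of_nonneg_left c2 hC1
    nlinarith

end Vale.Agent.P139
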