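import Vale.Agent.P139.CNG
import Vale.Agent.P139.COut
import Vale.Agent.P139.CCoef
import Vale.Agent.P139.CAT
import Vale.Agent.P139.CI1
import Vale.Agent.P139.CI2
import Vale.Agent.P139.CI3
import Vale.Agent.P139.CLoc
import Vale.Agent.P139.CUniq
import Vale.Agent.P139.CHAX2

open Complex MeasureTheory Filter Topology
open scoped ComplexConjugate ContDiff

namespace Vale.Agent.P139

theorem cha_asol {m : ℕ} {om : ℝ} {w : ℝ → ℂ} (hP : Prof m om w) {l : ℕ} {z : ℂ} {f g : ℝ → ℂ}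
    (h : RSol m om w l z f g 0 0) :
    ASol (cρ w) (cj w) (cq m w) l z (cA w f g) (cT w f g) 0 0 := by
  have h1 := asol_of_sol hP h continuous_zero continuous_zero
  have e1 : cT w 0 0 = 0 := by funext r; simp [cT]
  have e2 : cA w 0 0 = 0 := by funext r; simp [cA]
  rwa [e1, e2] at h1

theorem cha_one_le (l : ℕ) (z : ℂ) : 1 ≤ Lb l z := by
  unfold Lb
  apply Real.le_sqrt_of_sq_le
  have := norm_nonneg z
  have : 0 ≤ (l : ℝ) ^ 2 := by positivity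
  linarith

theorem cha_z_le (l : ℕ) (z : ℂ) : ‖z‖ ≤ Lb l z ^ 2 := by
  unfold Lb
  rw [Real.sq_sqrt (by positivity)]
  have : 0 ≤ (l : ℝ) ^ 2 := by positivity
  linarith

/-- the shell energy is controlled by the weighted energy -/
theorem cha_X (c : ℝ) (hc : 0 < c) : ∃ ε0 L0 K : ℝ, 0 < ε0 ∧ 0 ≤ K ∧
    ∀ {ε : ℝ} {m : ℕ} {om σ : ℝ} {w : ℝ → ℂ}, Ctx ε m om σ w → ε ≤ ε0 →
    ∀ {l : ℕ} {z : ℂ} {f g : ℝ → ℂ}, HSol m om w l z f g → z.im ≤ 0 → L0 ≤ Lb l z →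
    c * Lb l z ^ 2 ≤ ‖z‖ → ∀ {B : ℝ} {ψ : ℝ → ℝ}, Psi B ψ →
      (∫ r in (3.32 : ℝ)..3.44, ee (Lb l z) f g r)
          ≤ K * Eψ ψ (cρ w) (cq m w) l (cA w f g) (cT w f g) ∧
        (∫ r in (3.32 : ℝ)..3.44, ee (Lb l z) (cA w f g) (cT w f g) r)
          ≤ K * Eψ ψ (cρ w) (cq m w) l (cA w f g) (cT w f g) ∧
        (Eψ ψ (cρ w) (cq m w) l (cA w f g) (cT w f g) ≤ 0 → Van f g) := by
  obtain ⟨Cc, hCc, hat⟩ := at_comp
  obtain ⟨εn, Ln, Cn, hεn, hCn, hng⟩ := ng c hc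
  obtain ⟨Ll, Cl, hCl, hloc⟩ := loc c hc
  refine ⟨εn, max Ln Ll, Cc * Cl * (1 + 50 * Cn) * (1 + Cc), hεn, by positivity, ?_⟩
  intro ε m om σ w hx hε l z f g hs hz hL hcz B ψ hψ
  have hA := cha_asol hx.prof hs.sol
  have hL1 := cha_one_le l z
  set L := Lb l z with hLdef
  set E := Eψ ψ (cρ w) (cq m w) l (cA w f g) (cT w f g) with hE
  have hE0 : 0 ≤ E := Eψ_nonneg hx.cf hψ _ _ _
  have hf : ContDiff ℝ 1 f := hs.sol.1.1.of_le (by norm_num)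
  have hg : ContDiff ℝ 1 g := hs.sol.2.1.1.of_le (by norm_num)
  have hA1 : ContDiff ℝ 1 (cA w f g) := hA.cA.of_le (by norm_num)
  have hT1 : ContDiff ℝ 1 (cT w f g) := hA.cT.of_le (by norm_num)
  have c1 := cha_ee_cont L hf hg
  have c2 := cha_ee_cont L hA1 hT1
  have hat' := hat hx f g (hf.differentiable one_ne_zero) (hg.differentiable one_ne_zero) L hL1
  have h1 := hloc hx.cf hψ hA L (le_trans (le_max_right _ _) hL) hL1 hcz
  have h2 : (∫ r in (3.32 : ℝ)..3.34, ee L f g r) ≤ Cc * (Cl * E) := by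
    refine (cha_mono (k := Cc) c1 c2 (by norm_num) fun r hr => ?_).trans (by gcongr)
    exact (hat' r ⟨by linarith [hr.1], by linarith [hr.2]⟩).1
  obtain ⟨r0, hr0, hmin⟩ := cha_min c1
  have h3 : ee L f g r0 ≤ 50 * (Cc * (Cl * E)) := hmin.trans (by gcongr)
  have h4 := hng hx hε hs hz (le_trans (le_max_left _ _) hL) hcz r0
    ⟨by linarith [hr0.1], by linarith [hr0.2]⟩
  have h5 : (∫ r in (3.34 : ℝ)..3.44, ee L f g r) ≤ Cn * (50 * (Cc * (Cl * E))) :=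
    ((cha_sub c1 (cha_ee_nonneg L f g) hr0.2 (by norm_num) le_rfl).trans h4).trans (by gcongr)
  have h6 : (∫ r in (3.32 : ℝ)..3.44, ee L f g r) ≤ Cc * Cl * (1 + 50 * Cn) * E := by
    rw [← intervalIntegral.integral_add_adjacent_intervals (b := 3.34)
      (c1.intervalIntegrable _ _) (c1.intervalIntegrable _ _)]
    linarith
  have h7 : (∫ r in (3.32 : ℝ)..3.44, ee L (cA w f g) (cT w f g) r)
      ≤ Cc * (Cc * Cl * (1 + 50 * Cn) * E) := by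
    refine (cha_mono (k := Cc) c2 c1 (by norm_num) fun r hr => ?_).trans (by gcongr)
    exact (hat' r ⟨by linarith [hr.1], by linarith [hr.2]⟩).2.1
  have p1 : 0 ≤ Cc * Cl * (1 + 50 * Cn) * E := by positivity
  have p2 : 0 ≤ Cc * (Cc * Cl * (1 + 50 * Cn) * E) := by positivity
  refine ⟨by linarith, by linarith, fun h0 => ?_⟩
  have hE' : E = 0 := le_antisymm h0 hE0
  rw [hE'] at h3
  exact rsol_uniq hx.prof hs.sol (r := r0) (by linarith [hr0.1]) hL1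
    (le_antisymm (by simpa using h3) (cha_ee_nonneg _ _ _ _))

theorem cha_cases {c L : ℝ} {z : ℂ} (hc : 0 < c) (hL : 1 ≤ L) (hre : 0 ≤ z.re) (hz : z.im ≤ 0)
    (hcz : c * L ^ 2 ≤ ‖z‖) : (-z.im ≤ z.re → ∀ u, 4 * u < c * L → 2 * u < z.re) ∧
      (z.re < -z.im → c / 2 * L ^ 2 ≤ -z.im) := by
  have hsum : ‖z‖ ≤ z.re + -z.im := by
    have := Complex.norm_le_abs_re_add_abs_im z
    rwa [abs_of_nonneg hre, abs_of_nonpos hz] at this
  have hcL : c * L ≤ c * L ^ 2 := by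
    gcongr; exact le_self_pow₀ hL two_ne_zero
  exact ⟨fun h u hu => by linarith, fun h => by linarith⟩

theorem regime_A (c : ℝ) (hc : 0 < c) : ∃ ε0 L0 : ℝ, 0 < ε0 ∧
    ∀ {ε : ℝ} {m : ℕ} {om σ : ℝ} {w : ℝ → ℂ}, Ctx ε m om σ w → ε ≤ ε0 →
    ∀ {l : ℕ} {z : ℂ} {f g : ℝ → ℂ}, HSol m om w l z f g → z.im ≤ 0 → L0 ≤ Lb l z →
    c * Lb l z ^ 2 ≤ ‖z‖ → Van f g := by
  obtain ⟨B, ψ, hB, hψ⟩ := exists_psi
  obtain ⟨εx, Lx, K, hεx, hK, hX⟩ := cha_X c hc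
  obtain ⟨Cc, hCc, hat⟩ := at_comp
  obtain ⟨εo, C1, C2, hεo, hC1, hC2, hout⟩ := out0 (c / 2) (by positivity)
  obtain ⟨Lm, Cm, hCm, hcm⟩ := cacc_m (c / 2) (by positivity)
  obtain ⟨C, hC, hi1⟩ := i1 B hB
  obtain ⟨C', hC', hi2⟩ := i2 B hB
  obtain ⟨C3, hC3, hi3⟩ := i3 B hB
  have pS : 0 ≤ Real.sqrt (2 * (C3 * (1 + K)) / c) * (1 + Real.sqrt (C3 * (1 + K))) := by
    positivity
  have pQ : 0 ≤ B * 3.4 ^ 11 * (3.4 * (C1 + 1) * (C2 + Cc)) * K := by positivity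
  obtain ⟨δ, ε1, L1, hδ0, hδ1, hδ2, hε1, hε2, hε3, hL1⟩ := cha_par
    (D := B * 3.4 ^ 11 * (C2 + Cc) * K) Lx Lm
    (2 * (3 * C * K + B * 3.4 ^ 11 * (1 + Cc) * K / 2)) (4 * (10 + C * K))
    (4 * (B * 3.4 ^ 11 * (C2 + Cc) * K / 2 + C * K))
    (2 * (10 + B * 3.4 ^ 11 * (C2 + Cc) * K / 2 + C * K + C * Cm * K)) (2 * C3)
    (4 * (3.4 * C1 * (4 * (10 + 2 * C * K + C * Cm * K) / c)
      + 2 * (B * 3.4 ^ 11 * (3.4 * (C1 + 1) * (C2 + Cc)) * K) + B * 3.4 ^ 11 * 4 * Cm * K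
      + C' * (Real.sqrt (2 * (C3 * (1 + K)) / c) * (1 + Real.sqrt (C3 * (1 + K))))
      + 2 * C' * K)) hc (mul_nonneg hC' pS) (by positivity) pQ
  refine ⟨min εx (min εo ε1), L1, lt_min hεx (lt_min hεo hε1), ?_⟩
  intro ε m om σ w hx hε l z f g hs hz hL hcz
  obtain ⟨l1, l2, l3, l4, l5, l6, l7, l8⟩ := hL1 _ hL
  have e1 : ε ≤ εx := hε.trans (min_le_left _ _)
  have e2 : ε ≤ εo := hε.trans ((min_le_right _ _).trans (min_le_left _ _))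
  have e3 : ε ≤ ε1 := hε.trans ((min_le_right _ _).trans (min_le_right _ _))
  obtain ⟨x1, x2, x3⟩ := hX hx e1 hs hz l1 hcz hψ
  apply x3
  have hA := cha_asol hx.prof hs.sol
  have hL1 := cha_one_le l z
  have hf : ContDiff ℝ 1 f := hs.sol.1.1.of_le (by norm_num)
  have hg : ContDiff ℝ 1 g := hs.sol.2.1.1.of_le (by norm_num)
  have hA1 : ContDiff ℝ 1 (cA w f g) := hA.cA.of_le (by norm_num)
  have hT1 : ContDiff ℝ 1 (cT w f g) := hA.cT.of_le (by norm_num)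
  have c1 := cha_ee_cont (Lb l z) hf hg
  have c2 := cha_ee_cont (Lb l z) hA1 hT1
  have hat' := hat hx f g (hf.differentiable one_ne_zero) (hg.differentiable one_ne_zero) _ hL1
  have y1 := (cha_sub c1 (cha_ee_nonneg _ _ _) (a := 3.36) (b := 3.4) (by norm_num) (by norm_num)
    (by norm_num)).trans x1
  have y2 := (cha_sub c2 (cha_ee_nonneg _ _ _) (a := 3.36) (b := 3.4) (by norm_num) (by norm_num)
    (by norm_num)).trans x2
  have y3 := (cha_sub c2 (cha_ee_nonneg _ _ _) (a := 3.32) (b := 3.4) (by norm_num) (by norm_num)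
    (by norm_num)).trans x2
  have y4 := (cha_sub c2 (cha_ee_nonneg _ _ _) (a := 3.34) (b := 3.42) (by norm_num) (by norm_num)
    (by norm_num)).trans x2
  have s1 : Set.Icc (3.36 : ℝ) 3.4 ⊆ Set.Icc 0 3.46 := Set.Icc_subset_Icc (by norm_num) (by norm_num)
  have s2 : Set.Icc (3.36 : ℝ) 3.4 ⊆ Set.Icc 3.3 3.46 :=
    Set.Icc_subset_Icc (by norm_num) (by norm_num)
  have hE0 := Eψ_nonneg hx.cf hψ l (cA w f g) (cT w f g)
  have hd : CHAData B (Lb l z) Cc K C (Eψ ψ (cρ w) (cq m w) l (cA w f g) (cT w f g)) z.re (-z.im)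
      ψ (cρ w) f g (cA w f g) (cT w f g) :=
    ⟨hB, hL1, hCc, hK, hC, hE0, hs.re, neg_nonneg.mpr hz, hψ, hx.cf.cρ.continuous, hf, hg, hA1,
      hT1, fun r hr => hx.cf.ρ1 r (s1 hr), fun r hr => (hat' r (s1 hr)).2.2.1,
      fun r hr => (hat' r (s1 hr)).2.2.2.1, fun r hr => (hat' r (s1 hr)).2.2.2.2, y1, y2,
      hi1 hx.cf hψ hA hs.re hz _ hL1⟩
  obtain ⟨z1, z2⟩ := cha_cases hc hL1 hs.re hz hcz
  rcases le_or_gt (-z.im) z.re with h1 | h1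
  · exact hd.caseD1 h1 l3 (z1 h1 _ l4)
  have hy := z2 h1
  have hyL : -z.im ≤ Lb l z ^ 2 :=
    ((neg_le_abs _).trans (Complex.abs_im_le_norm z)).trans (cha_z_le l z)
  have ho := hout hx e2 hs hy
  have hM := (hcm hx.cf hA _ l2 hL1 hy).trans
    (mul_le_mul_of_nonneg_left y4 (div_nonneg hCm (sq_nonneg _)))
  rcases le_or_gt (δ * Lb l z) z.re with h2 | h2
  · exact hd.caseD2 hC2 hCm hx.e0.le hδ0 hyL (fun r hr => (ho r (s2 hr)).1) hM h2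
      ((mul_le_mul_of_nonneg_left e3 (by positivity)).trans hε2) l5 l6
  have hxL : z.re ≤ Lb l z := h2.le.trans (mul_le_of_le_one_left (zero_le_one.trans hL1) hδ1)
  obtain ⟨k1, k2⟩ := hi3 hx.cf hψ hA _ hL1
  exact cha_V3 hC' hK pQ pS hL1 hE0 hδ1 (hi2 hx.cf hψ hA hs.re hz _ hL1) hs.re h2.le
    (hd.caseV hC1 hC2 hCm hx.e0.le hc hy hyL hxL (fun r hr => (ho r (s2 hr)).1)
      (fun r hr => (ho r (s2 hr)).2) hM)
    (cha_V2 hC3 hK hL1 hc hE0 (Nψ_nonneg hx.cf hψ _) k1 k2 y2 y3 hcz l7) y2 hδ2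
    ((mul_le_mul_of_nonneg_left e3 pQ).trans hε3) l8

end Vale.Agent.P139
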