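import Vale.Agent.P139.CDefs

open Complex MeasureTheory Filter Topology
open scoped ComplexConjugate ContDiff

namespace Vale.Agent.P139

/-! ### numerical closing arguments -/

theorem cha_D1 {E x y L Φ X M C K D : ℝ} (hC : 0 ≤ C) (hK : 0 ≤ K) (hD : 0 ≤ D) (hL : 1 ≤ L)
    (h : (x - 10) * E + y / 2 * Φ ≤ C * (1 + x / L) * X + C * y / L * M)
    (hy0 : 0 ≤ y) (hyx : y ≤ x) (hΦ : -(D / L * E) ≤ Φ) (hX : X ≤ K * E) (hM : M ≤ 2 * (K * E))
    (hL1 : 2 * (3 * C * K + D / 2) ≤ L) (hx : 2 * (10 + C * K) < x) : E ≤ 0 := by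
  by_contra hE
  push Not at hE
  have hL0 : 0 < L := by linarith
  have hx0 : 0 ≤ x := hy0.trans hyx
  set t := x / L with ht
  have ht0 : 0 ≤ t := by positivity
  have h1 : C * (1 + t) * X ≤ C * (1 + t) * (K * E) := by gcongr
  have h2 : C * y / L * M ≤ C * t * (2 * (K * E)) := by
    calc C * y / L * M ≤ C * y / L * (2 * (K * E)) := by gcongr
      _ ≤ C * x / L * (2 * (K * E)) := by gcongr
      _ = _ := by rw [ht]; ring
  have h3 : -(t * (D / 2) * E) ≤ y / 2 * Φ := by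
    calc -(t * (D / 2) * E) = x / 2 * (-(D / L * E)) := by rw [ht]; ring
      _ ≤ y / 2 * (-(D / L * E)) := by
        have : 0 ≤ D / L * E := by positivity
        nlinarith
      _ ≤ y / 2 * Φ := by gcongr
  have h4 : t * (3 * C * K + D / 2) ≤ x / 2 := by
    rw [ht, div_mul_eq_mul_div, div_le_iff₀ hL0]; nlinarith
  have h5 : t * (3 * C * K + D / 2) * E ≤ x / 2 * E := by gcongr
  nlinarith

theorem cha_D2 {E x y L Φ X M C K D Cm ε δ : ℝ} (hC : 0 ≤ C) (hK : 0 ≤ K) (hD : 0 ≤ D)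
    (hCm : 0 ≤ Cm) (hL : 1 ≤ L) (hε : 0 ≤ ε) (hδ : 0 < δ)
    (h : (x - 10) * E + y / 2 * Φ ≤ C * (1 + x / L) * X + C * y / L * M)
    (hy0 : 0 ≤ y) (hyL : y ≤ L ^ 2) (hΦ : -(D * (ε + 1 / L + x / L ^ 2) / L * E) ≤ Φ)
    (hX : X ≤ K * E) (hM : M ≤ Cm / L ^ 2 * (K * E)) (hx : δ * L ≤ x) (hε1 : D * ε ≤ δ / 2)
    (hL1 : 4 * (D / 2 + C * K) ≤ L) (hL2 : 2 * (10 + D / 2 + C * K + C * Cm * K) < δ * L) :
    E ≤ 0 := by
  by_contra hE
  push Not at hE
  have hL0 : 0 < L := by linarith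
  have hx0 : 0 ≤ x := le_trans (by positivity) hx
  set t := x / L with ht
  have ht0 : 0 ≤ t := by positivity
  have h1 : C * (1 + t) * X ≤ C * (1 + t) * (K * E) := by gcongr
  have h2 : C * y / L * M ≤ C * Cm * K * E := by
    calc C * y / L * M ≤ C * y / L * (Cm / L ^ 2 * (K * E)) := by gcongr
      _ ≤ C * L ^ 2 / 1 * (Cm / L ^ 2 * (K * E)) := by gcongr
      _ = _ := by field_simp
  have h3 : -(D / 2 * (ε * L + 1 + t) * E) ≤ y / 2 * Φ := by
    have h0 : 0 ≤ D * (ε + 1 / L + x / L ^ 2) / L * E := by positivity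
    calc -(D / 2 * (ε * L + 1 + t) * E)
        = L ^ 2 / 2 * (-(D * (ε + 1 / L + x / L ^ 2) / L * E)) := by rw [ht]; field_simp
      _ ≤ y / 2 * (-(D * (ε + 1 / L + x / L ^ 2) / L * E)) := by nlinarith
      _ ≤ y / 2 * Φ := by gcongr
  have h4 : t * (D / 2 + C * K) ≤ x / 4 := by
    rw [ht, div_mul_eq_mul_div, div_le_iff₀ hL0]; nlinarith
  have h5 : D / 2 * (ε * L) ≤ x / 4 := by nlinarith
  have h6 : t * (D / 2 + C * K) * E ≤ x / 4 * E := by gcongr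
  have h7 : D / 2 * (ε * L) * E ≤ x / 4 * E := by gcongr
  have h8 : (10 + D / 2 + C * K + C * Cm * K) * E < x / 2 * E := by
    apply mul_lt_mul_of_pos_right _ hE; linarith
  nlinarith

/-- the flux bound in the virial case -/
theorem cha_V1 {E x y L Φ X M C K Cm c : ℝ} (hC : 0 ≤ C) (hK : 0 ≤ K) (hCm : 0 ≤ Cm)
    (hL : 1 ≤ L) (hc : 0 < c) (hE : 0 ≤ E)
    (h : (x - 10) * E + y / 2 * Φ ≤ C * (1 + x / L) * X + C * y / L * M)
    (hx0 : 0 ≤ x) (hxL : x ≤ L) (hy : c / 2 * L ^ 2 ≤ y) (hyL : y ≤ L ^ 2)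
    (hX : X ≤ K * E) (hM : M ≤ Cm / L ^ 2 * (K * E)) :
    L * Φ ≤ 4 * (10 + 2 * C * K + C * Cm * K) / c / L * E := by
  have hL0 : 0 < L := by linarith
  have hy0 : 0 ≤ y := le_trans (by positivity) hy
  rcases le_or_gt Φ 0 with hΦ | hΦ
  · have h1 : L * Φ ≤ 0 := mul_nonpos_of_nonneg_of_nonpos hL0.le hΦ
    exact h1.trans (by positivity)
  have ht : x / L ≤ 1 := (div_le_one hL0).mpr hxL
  have h1 : C * (1 + x / L) * X ≤ C * (1 + 1) * (K * E) := by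
    calc C * (1 + x / L) * X ≤ C * (1 + x / L) * (K * E) := by gcongr
      _ ≤ _ := by gcongr
  have h2 : C * y / L * M ≤ C * Cm * K * E := by
    calc C * y / L * M ≤ C * y / L * (Cm / L ^ 2 * (K * E)) := by gcongr
      _ ≤ C * L ^ 2 / 1 * (Cm / L ^ 2 * (K * E)) := by gcongr
      _ = _ := by field_simp
  have h3 : c / 2 * L ^ 2 / 2 * Φ ≤ y / 2 * Φ := by gcongr
  have h4 : c / 2 * L ^ 2 / 2 * Φ ≤ (10 + 2 * C * K + C * Cm * K) * E := by
    have : 0 ≤ x * E := by positivity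
    nlinarith
  rw [div_div, div_mul_eq_mul_div, le_div_iff₀ (by positivity)]
  nlinarith

/-- the amplitude term in the virial case -/
theorem cha_V2 {E L NA NT X X' Z C3 K c : ℝ} (hC : 0 ≤ C3) (hK : 0 ≤ K) (hL : 1 ≤ L)
    (hc : 0 < c) (hE : 0 ≤ E) (hA : 0 ≤ NA)
    (h1 : Z * NA ≤ C3 * (E + NA + X / L)) (h2 : NT ≤ C3 * (E + X' / L ^ 2))
    (hX : X ≤ K * E) (hX' : X' ≤ K * E) (hZ : c * L ^ 2 ≤ Z) (hL1 : 2 * C3 ≤ c * L) :
    Real.sqrt NA * (Real.sqrt E + Real.sqrt NT) ≤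
      Real.sqrt (2 * (C3 * (1 + K)) / c) * (1 + Real.sqrt (C3 * (1 + K))) / L * E := by
  have hL0 : 0 < L := by linarith
  have hKE : 0 ≤ K * E := by positivity
  have a1 : X / L ≤ K * E := by
    rw [div_le_iff₀ hL0]; nlinarith
  have a2 : X' / L ^ 2 ≤ K * E := by
    rw [div_le_iff₀ (by positivity)]
    have : 1 ≤ L ^ 2 := one_le_pow₀ hL
    nlinarith
  have b2 : NT ≤ C3 * (1 + K) * E := by
    calc NT ≤ C3 * (E + X' / L ^ 2) := h2
      _ ≤ C3 * (E + K * E) := by gcongr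
      _ = _ := by ring
  have b1 : NA ≤ 2 * (C3 * (1 + K)) / c * E / L ^ 2 := by
    have c1 : c * L ^ 2 * NA ≤ C3 * (E + NA + K * E) := by
      calc c * L ^ 2 * NA ≤ Z * NA := by gcongr
        _ ≤ C3 * (E + NA + X / L) := h1
        _ ≤ _ := by gcongr
    have c2 : 2 * C3 ≤ c * L ^ 2 := by nlinarith
    have c3 : 2 * C3 * NA ≤ c * L ^ 2 * NA := by gcongr
    rw [le_div_iff₀ (by positivity), div_mul_eq_mul_div, le_div_iff₀ hc]
    nlinarith
  have d1 : Real.sqrt NA ≤ Real.sqrt (2 * (C3 * (1 + K)) / c) * Real.sqrt E / L := by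
    calc Real.sqrt NA ≤ Real.sqrt (2 * (C3 * (1 + K)) / c * E / L ^ 2) := Real.sqrt_le_sqrt b1
      _ = _ := by
        rw [Real.sqrt_div' _ (by positivity), Real.sqrt_mul (by positivity), Real.sqrt_sq hL0.le]
  have d2 : Real.sqrt NT ≤ Real.sqrt (C3 * (1 + K)) * Real.sqrt E := by
    calc Real.sqrt NT ≤ Real.sqrt (C3 * (1 + K) * E) := Real.sqrt_le_sqrt b2
      _ = _ := Real.sqrt_mul (by positivity) _
  calc Real.sqrt NA * (Real.sqrt E + Real.sqrt NT)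
      ≤ (Real.sqrt (2 * (C3 * (1 + K)) / c) * Real.sqrt E / L) *
        (Real.sqrt E + Real.sqrt (C3 * (1 + K)) * Real.sqrt E) := by gcongr
    _ = Real.sqrt (2 * (C3 * (1 + K)) / c) * (1 + Real.sqrt (C3 * (1 + K))) / L *
        (Real.sqrt E * Real.sqrt E) := by ring
    _ = _ := by rw [Real.mul_self_sqrt hE]

/-- closing the virial case -/
theorem cha_V3 {E x L T S X C K P Q R S0 ε δ : ℝ} (hC : 0 ≤ C) (hK : 0 ≤ K) (hQ : 0 ≤ Q)
    (hS0 : 0 ≤ S0) (hL : 1 ≤ L) (hE : 0 ≤ E) (hδ1 : δ ≤ 1)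
    (h : E ≤ T + C * (1 + x) * S + C * (1 + x / L) / L * X)
    (hx0 : 0 ≤ x) (hx : x ≤ δ * L)
    (hT : T ≤ P / L * E + Q * (ε + 1 / L + x / L ^ 2) * E + R / L * E)
    (hS : S ≤ S0 / L * E) (hX : X ≤ K * E)
    (h1 : C * S0 * δ ≤ 1 / 4) (h2 : Q * ε ≤ 1 / 4)
    (h3 : 4 * (P + 2 * Q + R + C * S0 + 2 * C * K) ≤ L) : E ≤ 0 := by
  have hL0 : 0 < L := by linarith
  have hxL : x / L ≤ 1 := by rw [div_le_one hL0]; nlinarith
  have a1 : C * (1 + x) * S ≤ C * S0 / L * E + C * S0 * δ * E := by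
    calc C * (1 + x) * S ≤ C * (1 + x) * (S0 / L * E) := by gcongr
      _ ≤ C * (1 + δ * L) * (S0 / L * E) := by gcongr
      _ = _ := by field_simp
  have a2 : C * (1 + x / L) / L * X ≤ 2 * C * K / L * E := by
    calc C * (1 + x / L) / L * X ≤ C * (1 + x / L) / L * (K * E) := by gcongr
      _ ≤ C * (1 + 1) / L * (K * E) := by gcongr
      _ = _ := by ring
  have a3 : Q * (ε + 1 / L + x / L ^ 2) * E ≤ Q * ε * E + 2 * Q / L * E := by
    have : x / L ^ 2 ≤ 1 / L := by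
      calc x / L ^ 2 = x / L / L := by ring
        _ ≤ 1 / L := by gcongr
    calc Q * (ε + 1 / L + x / L ^ 2) * E ≤ Q * (ε + 1 / L + 1 / L) * E := by gcongr
      _ = _ := by ring
  have a4 : (P + 2 * Q + R + C * S0 + 2 * C * K) / L ≤ 1 / 4 := by
    rw [div_le_iff₀ hL0]; linarith
  have a5 : (P + 2 * Q + R + C * S0 + 2 * C * K) / L * E ≤ 1 / 4 * E := by gcongr
  have a6 : C * S0 * δ * E ≤ 1 / 4 * E := by gcongr
  have a7 : Q * ε * E ≤ 1 / 4 * E := by gcongr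
  have a8 : (P + 2 * Q + R + C * S0 + 2 * C * K) / L * E = P / L * E + 2 * Q / L * E + R / L * E
      + C * S0 / L * E + 2 * C * K / L * E := by ring
  linarith

/-! ### pointwise facts -/

theorem cha_en_nonneg (L : ℝ) (f : ℝ → ℂ) (r : ℝ) : 0 ≤ en L f r := by unfold en; positivity

theorem cha_ee_nonneg (L : ℝ) (f g : ℝ → ℂ) (r : ℝ) : 0 ≤ ee L f g r :=
  add_nonneg (cha_en_nonneg _ _ _) (cha_en_nonneg _ _ _)

theorem cha_en_cont (L : ℝ) {f : ℝ → ℂ} (hf : ContDiff ℝ 1 f) : Continuous (en L f) := by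
  have h1 := hf.continuous
  have h2 := hf.continuous_deriv le_rfl
  unfold en; fun_prop

theorem cha_ee_cont (L : ℝ) {f g : ℝ → ℂ} (hf : ContDiff ℝ 1 f) (hg : ContDiff ℝ 1 g) :
    Continuous (ee L f g) := (cha_en_cont L hf).add (cha_en_cont L hg)

theorem cha_Jf_cont {f : ℝ → ℂ} (hf : ContDiff ℝ 1 f) : Continuous (Jf f) := by
  have h1 := hf.continuous
  have h2 := hf.continuous_deriv le_rfl
  unfold Jf; fun_prop

theorem cha_Jf_ge {L : ℝ} (hL : 1 ≤ L) (f g : ℝ → ℂ) (r : ℝ) : -(ee L f g r / L) ≤ Jf f r := by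
  have hL0 : 0 < L := by linarith
  have h1 : |Jf f r| ≤ ‖f r‖ * ‖deriv f r‖ := by
    unfold Jf
    calc _ ≤ ‖conj (f r) * deriv f r‖ := abs_im_le_norm _
      _ = _ := by rw [norm_mul, Complex.norm_conj]
  have h2 : ‖f r‖ * ‖deriv f r‖ ≤ ee L f g r / L := by
    rw [le_div_iff₀ hL0]
    have := cha_en_nonneg L g r
    unfold ee
    have h3 : ‖f r‖ * ‖deriv f r‖ * L ≤ en L f r := by
      unfold en
      nlinarith [sq_nonneg (‖deriv f r‖ - L * ‖f r‖), norm_nonneg (f r), norm_nonneg (deriv f r),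
        sq_nonneg ‖deriv f r‖, sq_nonneg (L * ‖f r‖)]
    linarith
  linarith [(abs_le.mp h1).1]

theorem cha_zp_smooth {A Θ : ℝ → ℂ} (hA : ContDiff ℝ 1 A) (hT : ContDiff ℝ 1 Θ) :
    ContDiff ℝ 1 (zp A Θ) := hA.add (contDiff_const.mul hT)

theorem cha_zm_smooth {A Θ : ℝ → ℂ} (hA : ContDiff ℝ 1 A) (hT : ContDiff ℝ 1 Θ) :
    ContDiff ℝ 1 (zm A Θ) := hA.sub (contDiff_const.mul hT)

theorem cha_sq_sub (a b : ℂ) : ‖a - I * b‖ ^ 2 ≤ 2 * (‖a‖ ^ 2 + ‖b‖ ^ 2) := by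
  have h := norm_sub_le a (I * b)
  rw [norm_mul, Complex.norm_I, one_mul] at h
  have h2 : ‖a - I * b‖ ^ 2 ≤ (‖a‖ + ‖b‖) ^ 2 := by gcongr
  nlinarith [sq_nonneg (‖a‖ - ‖b‖)]

theorem cha_zm_le (L : ℝ) {A Θ : ℝ → ℂ} (hA : ContDiff ℝ 1 A) (hT : ContDiff ℝ 1 Θ) (r : ℝ) :
    en L (zm A Θ) r ≤ 2 * ee L A Θ r := by
  have d : deriv (zm A Θ) r = deriv A r - I * deriv Θ r :=
    ((hA.differentiable one_ne_zero r).hasDerivAt.sub
      ((hT.differentiable one_ne_zero r).hasDerivAt.const_mul I)).deriv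
  unfold ee en
  rw [d]
  have h1 := cha_sq_sub (deriv A r) (deriv Θ r)
  have h2 := cha_sq_sub (A r) (Θ r)
  have h3 : L ^ 2 * ‖zm A Θ r‖ ^ 2 ≤ L ^ 2 * (2 * (‖A r‖ ^ 2 + ‖Θ r‖ ^ 2)) := by
    unfold zm; gcongr
  linarith

/-! ### integrals over the shell -/

theorem cha_sub {F : ℝ → ℝ} (hF : Continuous F) (h0 : ∀ r, 0 ≤ F r) {a b c d : ℝ} (hca : c ≤ a)
    (hab : a ≤ b) (hbd : b ≤ d) : ∫ r in a..b, F r ≤ ∫ r in c..d, F r :=
  intervalIntegral.integral_mono_interval hca hab hbd (Eventually.of_forall h0)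
    (hF.intervalIntegrable _ _)

theorem cha_mono {F G : ℝ → ℝ} (hF : Continuous F) (hG : Continuous G) {a b k : ℝ} (hab : a ≤ b)
    (h : ∀ r ∈ Set.Icc a b, F r ≤ k * G r) : ∫ r in a..b, F r ≤ k * ∫ r in a..b, G r := by
  rw [← intervalIntegral.integral_const_mul]
  exact intervalIntegral.integral_mono_on hab (hF.intervalIntegrable _ _)
    ((continuous_const.mul hG).intervalIntegrable _ _) h

theorem cha_min {F : ℝ → ℝ} (hF : Continuous F) :
    ∃ r ∈ Set.Icc (3.32 : ℝ) 3.34, F r ≤ 50 * ∫ t in (3.32 : ℝ)..3.34, F t := by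
  obtain ⟨r, hr, hmin⟩ := (isCompact_Icc (a := (3.32 : ℝ)) (b := 3.34)).exists_isMinOn
    ⟨3.32, by norm_num⟩ hF.continuousOn
  refine ⟨r, hr, ?_⟩
  have h := intervalIntegral.integral_mono_on (μ := volume) (a := (3.32 : ℝ)) (b := 3.34)
    (f := fun _ => F r) (g := F) (by norm_num) (continuous_const.intervalIntegrable _ _)
    (hF.intervalIntegrable _ _) (fun t ht => hmin ht)
  rw [intervalIntegral.integral_const, smul_eq_mul] at h
  norm_num at h ⊢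
  linarith

/-- lower bound for the localised flux -/
theorem cha_flux {B D : ℝ} {ψ ρ J G : ℝ → ℝ} (hψ : Psi B ψ) (hρ : Continuous ρ)
    (hJ : Continuous J) (hG : Continuous G) (hD : 0 ≤ D) (hG0 : ∀ r, 0 ≤ G r)
    (h : ∀ r ∈ Set.Icc (3.36 : ℝ) 3.4, -(D * G r) ≤ ρ r * J r) :
    -(B * 3.4 ^ 11 * D * ∫ r in (3.36 : ℝ)..3.4, G r) ≤
      ∫ r in (3.36 : ℝ)..3.4, (-deriv ψ r) * (r ^ 11 * ρ r * J r) := by
  have hd := hψ.c.continuous_deriv le_rfl
  have h1 := cha_mono (F := fun r => -((-deriv ψ r) * (r ^ 11 * ρ r * J r))) (G := G)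
    (a := 3.36) (b := 3.4) (k := B * 3.4 ^ 11 * D) (by fun_prop) hG (by norm_num) (by
      intro r hr
      have r0 : 0 ≤ r := by linarith [hr.1]
      have p0 : 0 ≤ -deriv ψ r := by linarith [hψ.d0 r]
      have p1 : -deriv ψ r ≤ B := by linarith [hψ.d1 r]
      have q1 : r ^ 11 ≤ 3.4 ^ 11 := by gcongr; exact hr.2
      have g0 := hG0 r
      calc -((-deriv ψ r) * (r ^ 11 * ρ r * J r)) = (-deriv ψ r) * r ^ 11 * (-(ρ r * J r)) := by
            ring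
        _ ≤ (-deriv ψ r) * r ^ 11 * (D * G r) := by gcongr; linarith [h r hr]
        _ ≤ B * 3.4 ^ 11 * (D * G r) := by gcongr; linarith
        _ = _ := by ring)
  rw [intervalIntegral.integral_neg] at h1
  linarith

/-- upper bound for the boundary term of the virial identity -/
theorem cha_vir {B a D : ℝ} {ψ ρ J G H U : ℝ → ℝ} (hψ : Psi B ψ) (hρ : Continuous ρ)
    (hJ : Continuous J) (hG : Continuous G) (hH : Continuous H)
    (hU : ContinuousOn U (Set.Icc (3.36 : ℝ) 3.4)) (hD : 0 ≤ D) (hG0 : ∀ r, 0 ≤ G r)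
    (hH0 : ∀ r, 0 ≤ H r)
    (h : ∀ r ∈ Set.Icc (3.36 : ℝ) 3.4, r * (ρ r * U r) ≤ a * (ρ r * J r) + D * G r + 4 * H r) :
    ∫ r in (3.36 : ℝ)..3.4, (-deriv ψ r) * (r ^ 12 * ρ r * U r) ≤
      a * (∫ r in (3.36 : ℝ)..3.4, (-deriv ψ r) * (r ^ 11 * ρ r * J r))
        + B * 3.4 ^ 11 * D * (∫ r in (3.36 : ℝ)..3.4, G r)
        + B * 3.4 ^ 11 * 4 * ∫ r in (3.36 : ℝ)..3.4, H r := by
  have hd := hψ.c.continuous_deriv le_rfl
  have i1 : IntervalIntegrable (fun r => a * ((-deriv ψ r) * (r ^ 11 * ρ r * J r))) volume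
      3.36 3.4 := Continuous.intervalIntegrable (by fun_prop) _ _
  have i2 : IntervalIntegrable (fun r => B * 3.4 ^ 11 * D * G r) volume 3.36 3.4 :=
    Continuous.intervalIntegrable (by fun_prop) _ _
  have i3 : IntervalIntegrable (fun r => B * 3.4 ^ 11 * 4 * H r) volume 3.36 3.4 :=
    Continuous.intervalIntegrable (by fun_prop) _ _
  rw [← intervalIntegral.integral_const_mul, ← intervalIntegral.integral_const_mul,
    ← intervalIntegral.integral_const_mul, ← intervalIntegral.integral_add i1 i2,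
    ← intervalIntegral.integral_add (i1.add i2) i3]
  refine intervalIntegral.integral_mono_on (by norm_num) ?_ ((i1.add i2).add i3) ?_
  · apply ContinuousOn.intervalIntegrable
    rw [Set.uIcc_of_le (by norm_num)]
    exact hd.neg.continuousOn.mul
      (((continuous_pow 12).continuousOn.mul hρ.continuousOn).mul hU)
  · intro r hr
    have r0 : 0 ≤ r := by linarith [hr.1]
    have p0 : 0 ≤ -deriv ψ r := by linarith [hψ.d0 r]
    have p1 : -deriv ψ r ≤ B := by linarith [hψ.d1 r]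
    have q1 : r ^ 11 ≤ 3.4 ^ 11 := by gcongr; exact hr.2
    have g0 := hG0 r
    have g1 := hH0 r
    have e1 : (-deriv ψ r) * r ^ 11 * (D * G r + 4 * H r)
        ≤ B * 3.4 ^ 11 * (D * G r + 4 * H r) := by gcongr; linarith
    calc (-deriv ψ r) * (r ^ 12 * ρ r * U r) = (-deriv ψ r) * r ^ 11 * (r * (ρ r * U r)) := by
          ring
      _ ≤ (-deriv ψ r) * r ^ 11 * (a * (ρ r * J r) + D * G r + 4 * H r) := by
          gcongr; exact h r hr
      _ = a * ((-deriv ψ r) * (r ^ 11 * ρ r * J r))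
          + (-deriv ψ r) * r ^ 11 * (D * G r + 4 * H r) := by ring
      _ ≤ _ := by linarith

end Vale.Agent.P139
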