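import Vale.Agent.P139.CLad

open Complex MeasureTheory Filter Topology
open scoped ComplexConjugate ContDiff

namespace Vale.Agent.P139

theorem CHardy_amgm (a b : ℂ) (c t : ℝ) (hc : 0 < c) :
    |t * (2 * inner ℝ a b)| ≤ c * ‖a‖ ^ 2 + t ^ 2 / c * ‖b‖ ^ 2 := by
  have h1 := abs_real_inner_le_norm a b
  have h2 : 0 ≤ (c * ‖a‖ - |t| * ‖b‖) ^ 2 / c := by positivity
  have h3 : (c * ‖a‖ - |t| * ‖b‖) ^ 2 / c =
      c * ‖a‖ ^ 2 + t ^ 2 / c * ‖b‖ ^ 2 - |t| * (2 * (‖a‖ * ‖b‖)) := by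
    rw [← sq_abs t]
    field_simp
    ring
  rw [abs_mul, abs_mul, abs_two]
  have h4 := mul_le_mul_of_nonneg_left (mul_le_mul_of_nonneg_left h1 zero_le_two) (abs_nonneg t)
  linarith

theorem hardy_inf (p r : ℝ) (hp : 1 / 2 ≤ |p + 1|) (hr : 0 < r) (h h' : ℝ → ℂ)
    (hd : ∀ t, r ≤ t → HasDerivAt h (h' t) t) (hc : ContinuousOn h' (Set.Ici r))
    (i1 : IntegrableOn (fun t : ℝ => t ^ p * ‖h t‖ ^ 2) (Set.Ioi r))
    (i2 : IntegrableOn (fun t : ℝ => t ^ (p + 2) * ‖h' t‖ ^ 2) (Set.Ioi r))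
    (lim : Tendsto (fun t : ℝ => t ^ (p + 1) * ‖h t‖ ^ 2) atTop (𝓝 0)) :
    ∫ t in Set.Ioi r, t ^ p * ‖h t‖ ^ 2 ≤
      4 * r ^ (p + 1) * ‖h r‖ ^ 2 + 16 * ∫ t in Set.Ioi r, t ^ (p + 2) * ‖h' t‖ ^ 2 := by
  have bd : ∀ t ∈ Set.Ioi r, ‖t ^ (p + 1) * (2 * inner ℝ (h t) (h' t))‖ ≤
      1 / 4 * (t ^ p * ‖h t‖ ^ 2) + 4 * (t ^ (p + 2) * ‖h' t‖ ^ 2) := fun t ht => by
    have t0 : 0 < t := hr.trans ht
    have h1 := mul_le_mul_of_nonneg_left (CHardy_amgm (h t) (h' t) (1 / 4) t (by norm_num))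
      (Real.rpow_nonneg t0.le p)
    rw [Real.rpow_add_one t0.ne', Real.rpow_add t0, Real.rpow_two, mul_assoc, Real.norm_eq_abs,
      abs_mul, abs_of_nonneg (Real.rpow_nonneg t0.le p)]
    linarith
  have ib := (i1.const_mul (1 / 4)).add (i2.const_mul 4)
  have hh : ContinuousOn h (Set.Ioi r) := fun t ht =>
    (hd t (le_of_lt ht)).continuousAt.continuousWithinAt
  have iz : IntegrableOn (fun t : ℝ => t ^ (p + 1) * (2 * inner ℝ (h t) (h' t))) (Set.Ioi r) := by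
    refine ib.mono' (ContinuousOn.aestronglyMeasurable ?_ measurableSet_Ioi)
      ((ae_restrict_iff' measurableSet_Ioi).2 (Eventually.of_forall bd))
    exact (continuousOn_id.rpow_const fun t ht => Or.inl (hr.trans ht).ne').mul
      (continuousOn_const.mul (hh.inner (hc.mono Set.Ioi_subset_Ici_self)))
  have key := integral_Ioi_of_hasDerivAt_of_tendsto' (a := r) (f' := fun t => (p + 1) *
    (t ^ p * ‖h t‖ ^ 2) + t ^ (p + 1) * (2 * inner ℝ (h t) (h' t))) (fun t ht => by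
      have h1 := (Real.hasDerivAt_rpow_const (p := p + 1)
        (Or.inl (hr.trans_le ht).ne')).fun_mul (hd t ht).norm_sq
      rwa [add_sub_cancel_right, mul_assoc] at h1) ((i1.const_mul (p + 1)).fun_add iz) lim
  rw [integral_add (i1.const_mul _) iz, integral_const_mul] at key
  have hz := norm_integral_le_of_norm_le ib
    ((ae_restrict_iff' measurableSet_Ioi).2 (Eventually.of_forall bd))
  simp only [Pi.add_apply] at hz
  rw [integral_add (i1.const_mul _) (i2.const_mul _), integral_const_mul, integral_const_mul,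
    Real.norm_eq_abs, abs_le] at hz
  have hX : 0 ≤ ∫ t in Set.Ioi r, t ^ p * ‖h t‖ ^ 2 :=
    setIntegral_nonneg measurableSet_Ioi fun t ht =>
      mul_nonneg (Real.rpow_nonneg (hr.trans ht).le p) (sq_nonneg _)
  have hG : 0 ≤ r ^ (p + 1) * ‖h r‖ ^ 2 := by positivity
  rcases le_abs'.1 hp with h1 | h1
  · nlinarith [mul_le_mul_of_nonneg_right h1 hX]
  · nlinarith [mul_le_mul_of_nonneg_right h1 hX]

theorem hardy_zero (h : ℝ → ℂ) (hh : ContDiff ℝ 1 h) (r : ℝ) (hr : 0 ≤ r) :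
    ∫ t in (0 : ℝ)..r, t ^ 11 * ‖h t‖ ^ 2 ≤
      r ^ 12 * ‖h r‖ ^ 2 + ∫ t in (0 : ℝ)..r, t ^ 13 * ‖deriv h t‖ ^ 2 := by
  have c0 := hh.continuous
  have c1 := hh.continuous_deriv le_rfl
  have cG : Continuous fun t : ℝ => 12 * t ^ 11 * ‖h t‖ ^ 2
      + t ^ 12 * (2 * inner ℝ (h t) (deriv h t)) := by fun_prop
  have c2 : Continuous fun t : ℝ => t ^ 11 * ‖h t‖ ^ 2 := by fun_prop
  have c3 : Continuous fun t : ℝ => t ^ 13 * ‖deriv h t‖ ^ 2 := by fun_prop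
  have key := intervalIntegral.integral_eq_sub_of_hasDerivAt (a := 0) (b := r)
    (f := fun t : ℝ => t ^ 12 * ‖h t‖ ^ 2) (fun t _ => by
      simpa using (hasDerivAt_pow 12 t).fun_mul
        (hh.differentiable one_ne_zero t).hasDerivAt.norm_sq) (cG.intervalIntegrable _ _)
  have h1 := intervalIntegral.integral_mono_on hr (c2.intervalIntegrable (μ := volume) _ _)
    ((cG.add c3).intervalIntegrable _ _) fun t ht => by
      have h2 := mul_le_mul_of_nonneg_left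
        (neg_le_of_abs_le (CHardy_amgm (h t) (deriv h t) 1 t one_pos)) (pow_nonneg ht.1 11)
      have h3 : 0 ≤ t ^ 11 * ‖h t‖ ^ 2 := mul_nonneg (pow_nonneg ht.1 11) (sq_nonneg _)
      simp only [Pi.add_apply]
      nlinarith
  simp only [Pi.add_apply] at h1
  rw [intervalIntegral.integral_add (cG.intervalIntegrable _ _) (c3.intervalIntegrable _ _),
    key] at h1
  simpa using h1

theorem CHardy_bd {l : ℕ} {f : ℝ → ℂ} (hd : Dec l f) {k : ℕ} (hk : k ≤ 10) (a : ℝ) :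
    ∃ C : ℝ, ∀ t : ℝ, 1 ≤ t → ‖t ^ a * ‖lad l k f t‖ ^ 2‖ ≤ C * t ^ (a + 1 - 2 * k) := by
  obtain ⟨C, hC⟩ := hd
  refine ⟨C ^ 2, fun t ht => ?_⟩
  have t0 : 0 < t := one_pos.trans_le ht
  have h1 := pow_le_pow_left₀ (norm_nonneg _) (hC k hk t ht) 2
  have e : t ^ (a + 1 - 2 * k) = t ^ a * (t ^ (1 / 2 - (k : ℝ))) ^ 2 := by
    rw [← Real.rpow_two, ← Real.rpow_mul t0.le, ← Real.rpow_add t0]
    exact congrArg _ (by ring)
  rw [Real.norm_of_nonneg (by positivity), e, mul_left_comm, ← mul_pow]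
  exact mul_le_mul_of_nonneg_left h1 (Real.rpow_nonneg t0.le a)

theorem CHardy_int {l : ℕ} {f : ℝ → ℂ} (hf : ContDiff ℝ 16 f) (hd : Dec l f) {r : ℝ} (hr : 1 ≤ r)
    {k : ℕ} (hk : k ≤ 10) {a : ℝ} (ha : a + 1 - 2 * k < -1) :
    IntegrableOn (fun t : ℝ => t ^ a * ‖lad l k f t‖ ^ 2) (Set.Ioi r) := by
  have r0 : 0 < r := one_pos.trans_le hr
  obtain ⟨C, hC⟩ := CHardy_bd hd hk a
  refine ((integrableOn_Ioi_rpow_of_lt ha r0).const_mul C).mono'
    (ContinuousOn.aestronglyMeasurable ?_ measurableSet_Ioi)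
    ((ae_restrict_iff' measurableSet_Ioi).2 (Eventually.of_forall fun t ht =>
      hC t (hr.trans (le_of_lt ht))))
  exact (continuousOn_id.rpow_const fun t ht => Or.inl (r0.trans ht).ne').mul
    (((lad_smooth l hf k (by omega)).continuousOn.mono (Set.Ioi_subset_Ioi r0.le)).norm.pow 2)

theorem M8_int {l : ℕ} {f : ℝ → ℂ} (hf : ContDiff ℝ 16 f) (hd : Dec l f) {r : ℝ} (hr : 1 ≤ r) :
    IntegrableOn (fun t : ℝ => t ^ 11 * ‖lad l 8 f t‖ ^ 2) (Set.Ioi r) := by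
  have h := CHardy_int hf hd hr (k := 8) (by norm_num) (a := ((11 : ℕ) : ℝ)) (by norm_num)
  simpa only [Real.rpow_natCast] using h

theorem Hi_int {l : ℕ} {f : ℝ → ℂ} (hf : ContDiff ℝ 16 f) (hd : Dec l f) {r : ℝ} (hr : 1 ≤ r)
    (i : ℕ) (hi : i ≤ 8) :
    IntegrableOn (fun t : ℝ => t ^ (21 / 2 - 2 * (i : ℝ)) * ‖lad l (8 - i) f t‖ ^ 2)
      (Set.Ioi r) :=
  CHardy_int hf hd hr (by omega) (by rw [Nat.cast_sub hi]; push_cast; linarith)

theorem CHardy_sc {t : ℝ} (ht : 0 < t) (a L : ℝ) (x : ℂ) :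
    t ^ (a + 2 * L) * ‖t ^ (-L) • x‖ ^ 2 = t ^ a * ‖x‖ ^ 2 := by
  rw [norm_smul, Real.norm_of_nonneg (Real.rpow_nonneg ht.le _), mul_pow, ← Real.rpow_two,
    ← Real.rpow_mul ht.le, ← mul_assoc, ← Real.rpow_add ht]
  exact congrArg (fun s => t ^ s * ‖x‖ ^ 2) (by ring)

theorem CHardy_step {l : ℕ} {f : ℝ → ℂ} (hf : ContDiff ℝ 16 f) (hd : Dec l f) {r : ℝ} (hr : 1 ≤ r)
    {k : ℕ} (hk : k ≤ 7) {a : ℝ} (ha : a = 2 * k - 11 / 2) :
    ∫ t in Set.Ioi r, t ^ a * ‖lad l k f t‖ ^ 2 ≤ 4 * (r ^ (a + 1) * ‖lad l k f r‖ ^ 2)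
      + 16 * ∫ t in Set.Ioi r, t ^ (a + 2) * ‖lad l (k + 1) f t‖ ^ 2 := by
  have r0 : 0 < r := one_pos.trans_le hr
  obtain ⟨L, hL⟩ : ∃ L : ℝ, L = l + k := ⟨_, rfl⟩
  have e1 : ∀ t ∈ Set.Ioi r, t ^ (a + 2 * L) * ‖t ^ (-L) • lad l k f t‖ ^ 2 =
      t ^ a * ‖lad l k f t‖ ^ 2 := fun t ht => CHardy_sc (r0.trans ht) _ _ _
  have e2 : ∀ t ∈ Set.Ioi r, t ^ (a + 2 * L + 2) * ‖t ^ (-L) • lad l (k + 1) f t‖ ^ 2 =
      t ^ (a + 2) * ‖lad l (k + 1) f t‖ ^ 2 := fun t ht => by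
    rw [add_right_comm, CHardy_sc (r0.trans ht)]
  have e3 : ∀ t, 0 < t → t ^ (a + 2 * L + 1) * ‖t ^ (-L) • lad l k f t‖ ^ 2 =
      t ^ (a + 1) * ‖lad l k f t‖ ^ 2 := fun t ht => by rw [add_right_comm, CHardy_sc ht]
  have hp : 1 / 2 ≤ |a + 2 * L + 1| := by
    rcases Nat.lt_or_ge (2 * k + l) 3 with h | h
    · have h1 : (2 * k + l : ℝ) ≤ 2 := by exact_mod_cast Nat.lt_succ_iff.1 h
      exact le_abs'.2 (Or.inl (by linarith))
    · have h1 : (3 : ℝ) ≤ 2 * k + l := by exact_mod_cast h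
      exact le_abs'.2 (Or.inr (by linarith))
  obtain ⟨C, hC⟩ := CHardy_bd hd (k := k) (by omega) (a + 1)
  have key := hardy_inf (a + 2 * L) r hp r0 (fun t => t ^ (-L) • lad l k f t)
    (fun t => t ^ (-L) • lad l (k + 1) f t) (fun t ht => by
      have t0 := r0.trans_le ht
      refine ((Real.hasDerivAt_rpow_const (p := -L) (Or.inl t0.ne')).fun_smul
        (lad_deriv l hf k (by omega) t0)).congr_deriv ?_
      rw [Real.rpow_sub_one t0.ne', hL]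
      simp only [real_smul]
      push_cast
      ring)
    ((continuousOn_id.rpow_const fun t ht => Or.inl (r0.trans_le ht).ne').smul
      ((lad_smooth l hf (k + 1) (by omega)).continuousOn.mono fun t ht => r0.trans_le ht))
    ((CHardy_int hf hd hr (by omega) (a := a) (by linarith)).congr_fun
      (fun t ht => (e1 t ht).symm) measurableSet_Ioi)
    ((CHardy_int hf hd hr (by omega) (a := a + 2) (by push_cast; linarith)).congr_fun
      (fun t ht => (e2 t ht).symm) measurableSet_Ioi)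
    (by
      have h1 := (tendsto_rpow_neg_atTop (y := 7 / 2) (by norm_num)).const_mul C
      rw [mul_zero] at h1
      refine squeeze_zero_norm' ?_ h1
      filter_upwards [eventually_ge_atTop 1] with t ht
      rw [e3 t (one_pos.trans_le ht), show -(7 / 2 : ℝ) = a + 1 + 1 - 2 * k by linarith]
      exact hC t ht)
  rwa [setIntegral_congr_fun measurableSet_Ioi e1, setIntegral_congr_fun measurableSet_Ioi e2,
    mul_assoc, e3 r r0] at key

theorem CHardy_M8 (l : ℕ) (f : ℝ → ℂ) {r : ℝ} (hr : 0 ≤ r) : 0 ≤ M8 l f r :=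
  setIntegral_nonneg measurableSet_Ioi fun _ ht =>
    mul_nonneg (pow_nonneg (hr.trans (le_of_lt ht)) _) (sq_nonneg _)

/-- Hardy chain down the ladder, uniform in l -/
theorem hardy_lad : ∃ C : ℝ, 0 ≤ C ∧ ∀ (l : ℕ) (f : ℝ → ℂ), ContDiff ℝ 16 f → Dec l f →
    ∀ r ∈ Set.Icc (3 : ℝ) 4, ∀ i ≤ 8,
      Hi l i f r ≤ C * (M8 l f r + ∑ k ∈ Finset.range 8, ‖lad l k f r‖ ^ 2) := by
  obtain ⟨D, hD⟩ : ∃ D : ℝ, D = 4 * 4 ^ 12 + 16 := ⟨_, rfl⟩
  have D1 : 1 ≤ D := by rw [hD]; norm_num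
  refine ⟨D ^ 8, by positivity, fun l f hf hd r hr i hi => ?_⟩
  have r1 : 1 ≤ r := by linarith [hr.1]
  have hM := CHardy_M8 l f (zero_le_one.trans r1)
  have hS : 0 ≤ ∑ k ∈ Finset.range 8, ‖lad l k f r‖ ^ 2 := by positivity
  refine le_trans ?_ (mul_le_mul_of_nonneg_right (pow_le_pow_right₀ D1 hi) (add_nonneg hM hS))
  induction i with
  | zero =>
    have h1 : Hi l 0 f r ≤ M8 l f r := setIntegral_mono_on (Hi_int hf hd r1 0 hi)
      (M8_int hf hd r1) measurableSet_Ioi fun t ht => by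
        rw [← Real.rpow_natCast t 11]
        exact mul_le_mul_of_nonneg_right (Real.rpow_le_rpow_of_exponent_le
          (r1.trans (le_of_lt ht)) (by norm_num)) (sq_nonneg _)
    linarith
  | succ i ih =>
    have ih := ih (by omega)
    have h1 := CHardy_step hf hd r1 (k := 8 - (i + 1)) (by omega)
      (a := 21 / 2 - 2 * ((i + 1 : ℕ) : ℝ)) (by rw [Nat.cast_sub hi]; push_cast; ring)
    have h2 : ‖lad l (8 - (i + 1)) f r‖ ^ 2 ≤ ∑ k ∈ Finset.range 8, ‖lad l k f r‖ ^ 2 :=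
      Finset.single_le_sum (f := fun k => ‖lad l k f r‖ ^ 2) (fun _ _ => sq_nonneg _)
        (Finset.mem_range.2 (by omega))
    have h3 : r ^ (21 / 2 - 2 * ((i + 1 : ℕ) : ℝ) + 1) ≤ 4 ^ 12 := by
      refine (Real.rpow_le_rpow_of_exponent_le r1 (z := (12 : ℕ)) ?_).trans ?_
      · have : (0 : ℝ) ≤ (i + 1 : ℕ) := Nat.cast_nonneg _
        rw [Nat.cast_ofNat]
        linarith
      · rw [Real.rpow_natCast]
        exact pow_le_pow_left₀ (zero_le_one.trans r1) hr.2 12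
    rw [show 8 - (i + 1) + 1 = 8 - i by omega,
      show 21 / 2 - 2 * ((i + 1 : ℕ) : ℝ) + 2 = 21 / 2 - 2 * (i : ℝ) by push_cast; ring] at h1
    have h4 := mul_le_mul h3 (h2.trans (le_add_of_nonneg_left hM)) (sq_nonneg _) (by positivity)
    have h5 := le_mul_of_one_le_left (add_nonneg hM hS) (one_le_pow₀ D1 (n := i))
    have h6 : Hi l (i + 1) f r ≤ _ + 16 * Hi l i f r := h1
    rw [pow_succ, mul_right_comm, hD]
    rw [hD] at ih h5
    linarith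

end Vale.Agent.P139
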