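import Vale.Agent.P139.CHardy

open Complex MeasureTheory Filter Topology
open scoped ComplexConjugate ContDiff

namespace Vale.Agent.P139

theorem cint_le {f g G G' : ℝ → ℝ} {x y : ℝ} (hxy : x ≤ y) (hf : Continuous f)
    (hg : Continuous g) (hG : ∀ r ∈ Set.Icc x y, HasDerivAt G (G' r) r)
    (h : ∀ r ∈ Set.Icc x y, f r ≤ G' r + g r) :
    ∫ r in x..y, f r ≤ G y - G x + ∫ r in x..y, g r := by
  have h1 : ∫ r in x..y, (f r - g r) ≤ G y - G x :=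
    intervalIntegral.integral_le_sub_of_hasDeriv_right_of_le hxy
      (fun r hr => (hG r hr).continuousAt.continuousWithinAt)
      (fun r hr => (hG r (Set.Ioo_subset_Icc_self hr)).hasDerivWithinAt)
      ((hf.sub hg).continuousOn.integrableOn_Icc)
      (fun r hr => by have := h r (Set.Ioo_subset_Icc_self hr); linarith)
  rw [intervalIntegral.integral_sub (hf.intervalIntegrable _ _) (hg.intervalIntegrable _ _)] at h1
  linarith

theorem cint_mono {f g : ℝ → ℝ} {x y : ℝ} (hxy : x ≤ y) (hf : Continuous f)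
    (hg : Continuous g) (h : ∀ r ∈ Set.Icc x y, f r ≤ g r) :
    ∫ r in x..y, f r ≤ ∫ r in x..y, g r :=
  intervalIntegral.integral_mono_on hxy (hf.intervalIntegrable _ _) (hg.intervalIntegrable _ _) h

theorem cint_mu {ε a rm rp : ℝ} {ρ n j q : ℝ → ℝ} (hc : Cf ε a rm rp ρ n j q) (r : ℝ) :
    HasDerivAt (fun t : ℝ => t ^ 11 * ρ t * j t) ((6 - 2 * a) * (r ^ 11 * ρ r)) r := by
  have d1 : HasDerivAt ρ (deriv ρ r) r := (hc.cρ.differentiable one_ne_zero r).hasDerivAt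
  have d2 : HasDerivAt j (deriv j r) r := (hc.cj.differentiable one_ne_zero r).hasDerivAt
  refine (((hasDerivAt_pow 11 r).mul d1).mul d2).congr_deriv ?_
  have e1 := hc.dρ r
  have e2 := hc.dj r
  simp only [Pi.mul_apply]
  push_cast
  linear_combination (r ^ 10 * j r) * e1 + (r ^ 10 * ρ r) * e2

/-- the boundary functional -/
noncomputable def cintG (ρ j : ℝ → ℝ) (A Θ : ℝ → ℂ) (t : ℝ) : ℂ :=
  ((t ^ 11 * ρ t : ℝ) : ℂ) * deriv A t * conj (A t)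
    + ((t ^ 11 * ρ t : ℝ) : ℂ) * deriv Θ t * conj (Θ t)
    + ((t ^ 11 * ρ t * j t : ℝ) : ℂ) * (A t * conj (Θ t))

/-- the remainder -/
noncomputable def cintR (a : ℝ) (j : ℝ → ℝ) (z : ℂ) (A Θ F1 F2 : ℝ → ℂ) (r : ℝ) : ℂ :=
  z * Θ r * conj (A r) - z * A r * conj (Θ r) + ((6 - 2 * a : ℝ) : ℂ) * A r * conj (Θ r)
    + (j r : ℂ) * deriv Θ r * conj (A r) + (j r : ℂ) * A r * conj (deriv Θ r)
    - F1 r * conj (A r) + F2 r * conj (Θ r)

theorem cint_deriv {ε a rm rp : ℝ} {ρ n j q : ℝ → ℝ} (hc : Cf ε a rm rp ρ n j q) {l : ℕ} {z : ℂ}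
    {A Θ F1 F2 : ℝ → ℂ} (hs : ASol ρ j q l z A Θ F1 F2) {r : ℝ} (hr : 0 ≤ r) :
    HasDerivAt (fun t => (cintG ρ j A Θ t).re)
      (dens ρ q l A Θ r + r ^ 11 * ρ r * (cintR a j z A Θ F1 F2 r).re) r := by
  have dA : HasDerivAt A (deriv A r) r := (hs.cA.differentiable two_ne_zero r).hasDerivAt
  have dT : HasDerivAt Θ (deriv Θ r) r := (hs.cT.differentiable two_ne_zero r).hasDerivAt
  have dA' : HasDerivAt (fun t => conj (A t)) (conj (deriv A r)) r := dA.star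
  have dT' : HasDerivAt (fun t => conj (Θ t)) (conj (deriv Θ r)) r := dT.star
  have d0 := (((hs.e1 r hr).mul dA').add ((hs.e2 r hr).mul dT')).add
    ((cint_mu hc r).ofReal_comp.mul (dA.mul dT'))
  have d1 : HasDerivAt (cintG ρ j A Θ) (((dens ρ q l A Θ r : ℝ) : ℂ)
      + ((r ^ 11 * ρ r : ℝ) : ℂ) * cintR a j z A Θ F1 F2 r) r := by
    refine HasDerivAt.congr_deriv d0 ?_
    have m1 := mul_conj' (A r)
    have m2 := mul_conj' (Θ r)
    have m3 := mul_conj' (deriv A r)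
    have m4 := mul_conj' (deriv Θ r)
    simp only [dens, cintR, Pi.mul_apply]
    push_cast
    linear_combination (l * (l + 10) * r ^ 9 * ρ r + r ^ 11 * ρ r * q r : ℂ) * m1
      + (l * (l + 10) * r ^ 9 * ρ r : ℂ) * m2 + (r ^ 11 * ρ r : ℂ) * m3 + (r ^ 11 * ρ r : ℂ) * m4
  have d2 := reCLM.hasFDerivAt.comp_hasDerivAt r d1
  refine HasDerivAt.congr_deriv d2 ?_
  rw [reCLM_apply, add_re, ofReal_re, re_ofReal_mul]

theorem cint_R {a : ℝ} {j : ℝ → ℝ} (z : ℂ) (A Θ F1 F2 : ℝ → ℂ) {r : ℝ} (ha0 : 0 ≤ a)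
    (ha1 : a ≤ 1) (hj0 : 0 ≤ j r) (hj1 : j r ≤ 7 / 2) :
    ‖cintR a j z A Θ F1 F2 r‖ ≤ (2 * ‖z‖ + 6) * (‖A r‖ * ‖Θ r‖) + 7 * (‖A r‖ * ‖deriv Θ r‖)
      + ‖F1 r‖ * ‖A r‖ + ‖F2 r‖ * ‖Θ r‖ := by
  have n1 : ‖z * Θ r * conj (A r)‖ = ‖z‖ * (‖A r‖ * ‖Θ r‖) := by
    rw [norm_mul, norm_mul, norm_conj]; ring
  have n2 : ‖z * A r * conj (Θ r)‖ = ‖z‖ * (‖A r‖ * ‖Θ r‖) := by
    rw [norm_mul, norm_mul, norm_conj]; ring
  have n3 : ‖((6 - 2 * a : ℝ) : ℂ) * A r * conj (Θ r)‖ ≤ 6 * (‖A r‖ * ‖Θ r‖) := by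
    rw [norm_mul, norm_mul, norm_conj, norm_real, Real.norm_of_nonneg (by linarith), mul_assoc]
    exact mul_le_mul_of_nonneg_right (by linarith) (by positivity)
  have n4 : ‖(j r : ℂ) * deriv Θ r * conj (A r)‖ ≤ 7 / 2 * (‖A r‖ * ‖deriv Θ r‖) := by
    rw [norm_mul, norm_mul, norm_conj, norm_real, Real.norm_of_nonneg hj0, mul_assoc,
      mul_comm ‖deriv Θ r‖]
    exact mul_le_mul_of_nonneg_right hj1 (by positivity)
  have n5 : ‖(j r : ℂ) * A r * conj (deriv Θ r)‖ ≤ 7 / 2 * (‖A r‖ * ‖deriv Θ r‖) := by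
    rw [norm_mul, norm_mul, norm_conj, norm_real, Real.norm_of_nonneg hj0, mul_assoc]
    exact mul_le_mul_of_nonneg_right hj1 (by positivity)
  have n6 : ‖F1 r * conj (A r)‖ = ‖F1 r‖ * ‖A r‖ := by rw [norm_mul, norm_conj]
  have n7 : ‖F2 r * conj (Θ r)‖ = ‖F2 r‖ * ‖Θ r‖ := by rw [norm_mul, norm_conj]
  unfold cintR
  generalize z * Θ r * conj (A r) = x1 at *
  generalize z * A r * conj (Θ r) = x2 at *
  generalize ((6 - 2 * a : ℝ) : ℂ) * A r * conj (Θ r) = x3 at *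
  generalize (j r : ℂ) * deriv Θ r * conj (A r) = x4 at *
  generalize (j r : ℂ) * A r * conj (deriv Θ r) = x5 at *
  generalize F1 r * conj (A r) = x6 at *
  generalize F2 r * conj (Θ r) = x7 at *
  have t1 := norm_add_le (x1 - x2 + x3 + x4 + x5 - x6) x7
  have t2 := norm_sub_le (x1 - x2 + x3 + x4 + x5) x6
  have t3 := norm_add_le (x1 - x2 + x3 + x4) x5
  have t4 := norm_add_le (x1 - x2 + x3) x4
  have t5 := norm_add_le (x1 - x2) x3
  have t6 := norm_sub_le x1 x2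
  linarith

theorem cint_young (Z α θ θ' φ1 φ2 : ℝ) :
    Z * (α * θ) + 7 * (α * θ') + φ1 * α + φ2 * θ ≤
      θ' ^ 2 / 4 + (θ ^ 2 / 200 + (100 * Z ^ 2 + 50) * α ^ 2 + φ1 ^ 2 + 100 * φ2 ^ 2) := by
  nlinarith [sq_nonneg (θ / 20 - 10 * Z * α), sq_nonneg (θ' / 2 - 7 * α),
    sq_nonneg (φ1 - α), sq_nonneg (θ / 20 - 10 * φ2), sq_nonneg φ1, sq_nonneg α]

theorem cint_cont {ε a rm rp : ℝ} {ρ n j q : ℝ → ℝ} (hc : Cf ε a rm rp ρ n j q) {l : ℕ} {z : ℂ}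
    {A Θ F1 F2 : ℝ → ℂ} (hs : ASol ρ j q l z A Θ F1 F2) : Continuous (dens ρ q l A Θ) := by
  have c1 := hc.cρ.continuous
  have c2 := hc.cq.continuous
  have c3 := hs.cA.continuous
  have c4 := hs.cT.continuous
  have c5 := hs.cA.continuous_deriv one_le_two
  have c6 := hs.cT.continuous_deriv one_le_two
  unfold dens
  fun_prop

/-- pointwise lower bounds for the density -/
theorem cint_dens {ε a rm rp : ℝ} {ρ n j q : ℝ → ℝ} (hc : Cf ε a rm rp ρ n j q) (l : ℕ)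
    (A Θ : ℝ → ℂ) {r : ℝ} (hr : r ∈ Set.Icc (0 : ℝ) rp) :
    r ^ 11 * ρ r * (‖deriv A r‖ ^ 2 + ‖deriv Θ r‖ ^ 2 + q r * ‖A r‖ ^ 2) ≤ dens ρ q l A Θ r := by
  have h0 := hr.1
  have h1 := hc.ρ0 r ⟨h0, by have := hr.2; have := hc.r3; linarith⟩
  have h2 : 0 ≤ ρ r := by linarith
  unfold dens
  have : 0 ≤ (l : ℝ) * (l + 10) * r ^ 9 * ρ r * (‖A r‖ ^ 2 + ‖Θ r‖ ^ 2) := by positivity
  linarith

theorem cint_dens' {ε a rm rp : ℝ} {ρ n j q : ℝ → ℝ} (hc : Cf ε a rm rp ρ n j q) (l : ℕ)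
    (A Θ : ℝ → ℂ) {r : ℝ} (hr : r ∈ Set.Icc (0 : ℝ) rp) :
    r ^ 11 * ‖deriv A r‖ ^ 2 + r ^ 11 * ‖deriv Θ r‖ ^ 2 + r ^ 11 * (q r * ‖A r‖ ^ 2)
      ≤ 4 * dens ρ q l A Θ r := by
  have h0 := hr.1
  have h1 := hc.ρ0 r ⟨h0, by have := hr.2; have := hc.r3; linarith⟩
  have h2 := cint_dens hc l A Θ hr
  have h3 := hc.q0 r
  have h4 : 0 ≤ r ^ 11 * (‖deriv A r‖ ^ 2 + ‖deriv Θ r‖ ^ 2 + q r * ‖A r‖ ^ 2) := by positivity
  have h5 := mul_le_mul_of_nonneg_left h1 h4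
  linarith

theorem cint_pow {r : ℝ} (h0 : 0 ≤ r) (h1 : r ≤ 4) (k : ℕ) : r ^ k ≤ 4 ^ k :=
  pow_le_pow_left₀ h0 h1 k

/-- the energy inequality before absorption -/
theorem cint_energy {ε a rm rp : ℝ} {ρ n j q : ℝ → ℝ} (hc : Cf ε a rm rp ρ n j q) {l : ℕ}
    {z : ℂ} {A Θ F1 F2 : ℝ → ℂ} (hs : ASol ρ j q l z A Θ F1 F2) :
    3 / 4 * ∫ r in (0 : ℝ)..rp, dens ρ q l A Θ r ≤ 3 * 4 ^ 11 * ee 1 A Θ rp
      + ((∫ r in (0 : ℝ)..rp, r ^ 11 * ‖Θ r‖ ^ 2) / 200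
        + (100 * (2 * ‖z‖ + 6) ^ 2 + 50) * (∫ r in (0 : ℝ)..rp, r ^ 11 * ‖A r‖ ^ 2)
        + (∫ r in (0 : ℝ)..rp, r ^ 11 * ‖F1 r‖ ^ 2)
        + 100 * ∫ r in (0 : ℝ)..rp, r ^ 11 * ‖F2 r‖ ^ 2) := by
  have r0 := hc.r0
  have r1 := hc.r1
  have r3 := hc.r3
  have hp : 0 ≤ rp := by linarith
  have c1 : Continuous fun r : ℝ => r ^ 11 * ‖Θ r‖ ^ 2 := by
    have := hs.cT.continuous; fun_prop
  have c2 : Continuous fun r : ℝ => r ^ 11 * ‖A r‖ ^ 2 := by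
    have := hs.cA.continuous; fun_prop
  have c3 : Continuous fun r : ℝ => r ^ 11 * ‖F1 r‖ ^ 2 := by
    have := hs.c1; fun_prop
  have c4 : Continuous fun r : ℝ => r ^ 11 * ‖F2 r‖ ^ 2 := by
    have := hs.c2; fun_prop
  set K : ℝ := 100 * (2 * ‖z‖ + 6) ^ 2 + 50 with hK
  have key := cint_le (f := fun r => 3 / 4 * dens ρ q l A Θ r)
    (g := fun r => r ^ 11 * ‖Θ r‖ ^ 2 / 200 + K * (r ^ 11 * ‖A r‖ ^ 2)
      + r ^ 11 * ‖F1 r‖ ^ 2 + 100 * (r ^ 11 * ‖F2 r‖ ^ 2)) hp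
    (continuous_const.mul (cint_cont hc hs))
    ((((c1.div_const _).add (continuous_const.mul c2)).add c3).add (continuous_const.mul c4))
    (fun r hr => cint_deriv hc hs hr.1) (fun r hr => by
      have h0 := hr.1
      have hr' : r ∈ Set.Icc (0 : ℝ) 3.46 := ⟨h0, by have := hr.2; linarith⟩
      have h1 := hc.ρ0 r hr'
      have h2 := hc.ρ1 r hr'
      have h3 : 0 ≤ r ^ 11 * ρ r := by have : 0 ≤ ρ r := by linarith
                                       positivity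
      have h4 := cint_R z A Θ F1 F2 hc.a0.le (by have := hc.a1; have := hc.e1; linarith)
        (hc.j0 r hr') (by have := hc.j1 r hr'; have := hr.2; linarith)
      have h5 := h4.trans (cint_young _ _ _ _ _ _)
      have h6 : -(cintR a j z A Θ F1 F2 r).re ≤ ‖cintR a j z A Θ F1 F2 r‖ :=
        (neg_le_abs _).trans (abs_re_le_norm _)
      have h7 := mul_le_mul_of_nonneg_left (h6.trans h5) h3
      have h8 := cint_dens hc l A Θ hr
      have h9 : 0 ≤ r ^ 11 * ρ r * (‖deriv A r‖ ^ 2 + q r * ‖A r‖ ^ 2) := by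
        have := hc.q0 r; positivity
      have h10 : 0 ≤ r ^ 11 * (‖Θ r‖ ^ 2 / 200 + K * ‖A r‖ ^ 2 + ‖F1 r‖ ^ 2
          + 100 * ‖F2 r‖ ^ 2) := by positivity
      have h11 := mul_le_mul_of_nonneg_left h2 h10
      rw [← hK] at h7
      linarith)
  have i1 := c1.intervalIntegrable (μ := volume) 0 rp
  have i2 := c2.intervalIntegrable (μ := volume) 0 rp
  have i3 := c3.intervalIntegrable (μ := volume) 0 rp
  have i4 := c4.intervalIntegrable (μ := volume) 0 rp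
  rw [intervalIntegral.integral_add (((i1.div_const _).add (i2.const_mul _)).add i3)
      (i4.const_mul _), intervalIntegral.integral_add ((i1.div_const _).add (i2.const_mul _)) i3,
    intervalIntegral.integral_add (i1.div_const _) (i2.const_mul _),
    intervalIntegral.integral_div, intervalIntegral.integral_const_mul,
    intervalIntegral.integral_const_mul, intervalIntegral.integral_const_mul] at key
  have g0 : (cintG ρ j A Θ 0).re = 0 := by simp [cintG]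
  have g1 : (cintG ρ j A Θ rp).re ≤ 3 * 4 ^ 11 * ee 1 A Θ rp := by
    have hr' : rp ∈ Set.Icc (0 : ℝ) 3.46 := ⟨hp, by linarith⟩
    have h1 := hc.ρ0 rp hr'
    have h2 := hc.ρ1 rp hr'
    have h3 := hc.j0 rp hr'
    have h4 := hc.j1 rp hr'
    have h5 : 0 ≤ rp ^ 11 * ρ rp := by have : 0 ≤ ρ rp := by linarith
                                       positivity
    have h6 : rp ^ 11 * ρ rp ≤ 4 ^ 11 := by
      have := cint_pow hp (by linarith) 11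
      have := mul_le_mul_of_nonneg_left h2 (pow_nonneg hp 11)
      linarith
    refine (re_le_norm _).trans ?_
    have e : cintG ρ j A Θ rp = ((rp ^ 11 * ρ rp : ℝ) : ℂ) * (deriv A rp * conj (A rp)
        + deriv Θ rp * conj (Θ rp) + (j rp : ℂ) * (A rp * conj (Θ rp))) := by
      unfold cintG; push_cast; ring
    have n1 : ‖deriv A rp * conj (A rp) + deriv Θ rp * conj (Θ rp)
        + (j rp : ℂ) * (A rp * conj (Θ rp))‖ ≤ 3 * ee 1 A Θ rp := by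
      refine (norm_add₃_le).trans ?_
      rw [norm_mul, norm_mul, norm_mul, norm_mul, norm_conj, norm_conj, norm_real,
        Real.norm_of_nonneg h3]
      have h7 : j rp * (‖A rp‖ * ‖Θ rp‖) ≤ 4 * (‖A rp‖ * ‖Θ rp‖) :=
        mul_le_mul_of_nonneg_right (by linarith) (by positivity)
      unfold ee en
      nlinarith [sq_nonneg (‖deriv A rp‖ - ‖A rp‖), sq_nonneg (‖deriv Θ rp‖ - ‖Θ rp‖),
        sq_nonneg (‖A rp‖ - ‖Θ rp‖), sq_nonneg ‖deriv A rp‖, sq_nonneg ‖deriv Θ rp‖,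
        sq_nonneg ‖A rp‖, sq_nonneg ‖Θ rp‖]
    rw [e, norm_mul, norm_real, Real.norm_of_nonneg h5]
    have := mul_le_mul h6 n1 (norm_nonneg _) (by positivity)
    linarith
  linarith

/-- the amplitude is small in mean square -/
theorem cint_amp {ε a rm rp : ℝ} {ρ n j q : ℝ → ℝ} (hc : Cf ε a rm rp ρ n j q) {l : ℕ}
    {z : ℂ} {A Θ F1 F2 : ℝ → ℂ} (hs : ASol ρ j q l z A Θ F1 F2) :
    ∫ r in (0 : ℝ)..rp, r ^ 11 * ‖A r‖ ^ 2 ≤
      ε * (10 * (∫ r in (0 : ℝ)..rp, dens ρ q l A Θ r) + 4 ^ 12 * ‖A rp‖ ^ 2) := by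
  have r0 := hc.r0
  have r1 := hc.r1
  have r2 := hc.r2
  have r3 := hc.r3
  have e0 := hc.e0
  have e1 := hc.e1
  have hm : 0 ≤ rm := by linarith
  have c2 : Continuous fun r : ℝ => r ^ 11 * ‖A r‖ ^ 2 := by
    have := hs.cA.continuous; fun_prop
  have cd := cint_cont hc hs
  have p1 : ∫ r in (0 : ℝ)..rm, r ^ 11 * ‖A r‖ ^ 2 ≤
      ∫ r in (0 : ℝ)..rm, 10 * ε * dens ρ q l A Θ r := by
    refine cint_mono hm c2 (continuous_const.mul cd) fun r hr => ?_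
    have h0 := hr.1
    have h1 := cint_dens' hc l A Θ (r := r) ⟨h0, hr.2.trans r1⟩
    have h2 := hc.q3 r hr
    have h3 : 0 ≤ r ^ 11 * ‖A r‖ ^ 2 := by positivity
    have h4 := mul_le_mul_of_nonneg_left h2 h3
    have h5 : 0 ≤ r ^ 11 * ‖deriv A r‖ ^ 2 + r ^ 11 * ‖deriv Θ r‖ ^ 2 := by positivity
    have h6 : r ^ 11 * (q r * ‖A r‖ ^ 2) ≤ 4 * dens ρ q l A Θ r := by linarith
    have h7 := mul_le_mul_of_nonneg_left h6 e0.le
    linarith
  have p2 := cint_le (f := fun r => 1 / 2 * (r ^ 11 * ‖A r‖ ^ 2))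
    (g := fun r => 5 * ε * dens ρ q l A Θ r)
    (G := fun r => (r - rm) * r ^ 11 * (A r * conj (A r)).re)
    (G' := fun r => (r ^ 11 + (r - rm) * (11 * r ^ 10)) * ‖A r‖ ^ 2
      + (r - rm) * r ^ 11 * (deriv A r * conj (A r) + A r * conj (deriv A r)).re) r1
    (continuous_const.mul c2) (continuous_const.mul cd) (fun r _ => by
      have dA : HasDerivAt A (deriv A r) r := (hs.cA.differentiable two_ne_zero r).hasDerivAt
      have dA' : HasDerivAt (fun t => conj (A t)) (conj (deriv A r)) r := dA.star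
      have d1 := reCLM.hasFDerivAt.comp_hasDerivAt r (dA.mul dA')
      have d2 := (((hasDerivAt_id r).sub_const rm).mul (hasDerivAt_pow 11 r)).mul d1
      refine HasDerivAt.congr_deriv d2 ?_
      have m1 : (A r * conj (A r)).re = ‖A r‖ ^ 2 := by
        rw [mul_conj', ← ofReal_pow, ofReal_re]
      simp only [Pi.mul_apply, Function.comp_apply, reCLM_apply, id, m1]
      push_cast
      ring) (fun r hr => by
      have h0 : 0 ≤ r := hm.trans hr.1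
      have h1 := cint_dens' hc l A Θ (r := r) ⟨h0, hr.2⟩
      have s0 : 0 ≤ r - rm := sub_nonneg.2 hr.1
      have s1 : r - rm ≤ 2 * ε := by have := hr.2; linarith
      have h2 : -(deriv A r * conj (A r) + A r * conj (deriv A r)).re ≤
          2 * (‖A r‖ * ‖deriv A r‖) := by
        refine ((neg_le_abs _).trans (abs_re_le_norm _)).trans ((norm_add_le _ _).trans ?_)
        rw [norm_mul, norm_mul, norm_conj, norm_conj]
        linarith
      have h3 : (r - rm) * (2 * (‖A r‖ * ‖deriv A r‖)) ≤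
          ‖A r‖ ^ 2 / 2 + ε * ‖deriv A r‖ ^ 2 := by
        have k1 : (r - rm) ^ 2 ≤ ε / 2 := by nlinarith
        have k2 := mul_le_mul_of_nonneg_right k1 (sq_nonneg ‖deriv A r‖)
        nlinarith [sq_nonneg (‖A r‖ - 2 * (r - rm) * ‖deriv A r‖)]
      have h4 := (mul_le_mul_of_nonneg_left h2 s0).trans h3
      have h5 := mul_le_mul_of_nonneg_left h4 (pow_nonneg h0 11)
      have h6 : 0 ≤ (r - rm) * (11 * r ^ 10) * ‖A r‖ ^ 2 := by positivity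
      have h7 : 0 ≤ r ^ 11 * ‖deriv Θ r‖ ^ 2 + r ^ 11 * (q r * ‖A r‖ ^ 2) := by
        have := hc.q0 r; positivity
      have h8 : r ^ 11 * ‖deriv A r‖ ^ 2 ≤ 4 * dens ρ q l A Θ r := by linarith
      have h9 := mul_le_mul_of_nonneg_left h8 e0.le
      have h10 : 0 ≤ r ^ 11 * ‖deriv A r‖ ^ 2 := by positivity
      have h11 : 0 ≤ ε * dens ρ q l A Θ r := mul_nonneg e0.le (by linarith)
      linarith)
  have m1 : (A rp * conj (A rp)).re = ‖A rp‖ ^ 2 := by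
    rw [mul_conj', ← ofReal_pow, ofReal_re]
  simp only [sub_self, zero_mul, sub_zero, m1, intervalIntegral.integral_const_mul] at p1 p2
  rw [← intervalIntegral.integral_add_adjacent_intervals (c2.intervalIntegrable 0 rm)
      (c2.intervalIntegrable rm rp), ← intervalIntegral.integral_add_adjacent_intervals
      (cd.intervalIntegrable 0 rm) (cd.intervalIntegrable rm rp)]
  have b1 : (rp - rm) * rp ^ 11 ≤ 2 * ε * 4 ^ 11 :=
    mul_le_mul (by linarith) (cint_pow (by linarith) (by linarith) 11)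
      (pow_nonneg (by linarith) 11) (by positivity)
  have b2 := mul_le_mul_of_nonneg_right b1 (sq_nonneg ‖A rp‖)
  linarith

/-- the phase is controlled by Hardy's inequality -/
theorem cint_phase {ε a rm rp : ℝ} {ρ n j q : ℝ → ℝ} (hc : Cf ε a rm rp ρ n j q) {l : ℕ}
    {z : ℂ} {A Θ F1 F2 : ℝ → ℂ} (hs : ASol ρ j q l z A Θ F1 F2) :
    ∫ r in (0 : ℝ)..rp, r ^ 11 * ‖Θ r‖ ^ 2 ≤
      44 * (∫ r in (0 : ℝ)..rp, dens ρ q l A Θ r) + 4 ^ 12 * ‖Θ rp‖ ^ 2 := by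
  have r0 := hc.r0
  have r1 := hc.r1
  have r3 := hc.r3
  have hp : 0 ≤ rp := by linarith
  have h1 := hardy_zero Θ (hs.cT.of_le one_le_two) rp hp
  have h2 : ∫ r in (0 : ℝ)..rp, r ^ 13 * ‖deriv Θ r‖ ^ 2 ≤
      ∫ r in (0 : ℝ)..rp, 44 * dens ρ q l A Θ r := by
    refine cint_mono hp (by have := hs.cT.continuous_deriv one_le_two; fun_prop)
      (continuous_const.mul (cint_cont hc hs)) fun r hr => ?_
    have h0 := hr.1
    have k1 := cint_dens' hc l A Θ hr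
    have k2 : 0 ≤ r ^ 11 * ‖deriv A r‖ ^ 2 + r ^ 11 * (q r * ‖A r‖ ^ 2) := by
      have := hc.q0 r; positivity
    have k3 : r ^ 2 ≤ 11 := by have := hr.2; nlinarith
    have k4 : 0 ≤ r ^ 11 * ‖deriv Θ r‖ ^ 2 := by positivity
    have k5 := mul_le_mul_of_nonneg_right k3 k4
    have k6 : r ^ 13 * ‖deriv Θ r‖ ^ 2 = r ^ 2 * (r ^ 11 * ‖deriv Θ r‖ ^ 2) := by ring
    linarith
  rw [intervalIntegral.integral_const_mul] at h2
  have h3 := mul_le_mul_of_nonneg_right (cint_pow hp (by linarith) 12) (sq_nonneg ‖Θ rp‖)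
  linarith

/-- interior estimates at bounded frequency -/
theorem int_en (L0 : ℝ) : ∃ ε0 C : ℝ, 0 < ε0 ∧ 0 ≤ C ∧ ∀ {ε a rm rp : ℝ} {ρ n j q : ℝ → ℝ},
    Cf ε a rm rp ρ n j q → ε ≤ ε0 → ∀ {l : ℕ} {z : ℂ} {A Θ F1 F2 : ℝ → ℂ},
    ASol ρ j q l z A Θ F1 F2 → Lb l z ≤ L0 → ∀ P : ℝ, 0 ≤ P → ee 1 A Θ rp ≤ P →
    (∫ r in (0 : ℝ)..rp, r ^ 11 * ‖F1 r‖ ^ 2) ≤ P →
    (∫ r in (0 : ℝ)..rp, r ^ 11 * ‖F2 r‖ ^ 2) ≤ ε * P →
      (∫ r in (0 : ℝ)..rp, dens ρ q l A Θ r) ≤ C * P ∧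
      (∫ r in (0 : ℝ)..rp, r ^ 11 * ‖A r‖ ^ 2) ≤ C * ε * P ∧
      (∫ r in (0 : ℝ)..rp, r ^ 11 * ‖Θ r‖ ^ 2) ≤ C * P := by
  set K0 : ℝ := 100 * (2 * L0 ^ 2 + 6) ^ 2 + 50 with hK0
  have K0p : 0 < K0 := by positivity
  refine ⟨1 / (40 * K0), 4 ^ 20, by positivity, by positivity, ?_⟩
  intro ε a rm rp ρ n j q hc hε l z A Θ F1 F2 hs hL P hP h1 h2 h3
  have e0 := hc.e0
  have e1 := hc.e1
  have hp : 0 ≤ rp := by have := hc.r0; have := hc.r1; linarith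
  have hz : ‖z‖ ≤ L0 ^ 2 := by
    have k0 : 0 ≤ 1 + ‖z‖ + (l : ℝ) ^ 2 := by positivity
    have k1 : Lb l z ^ 2 = 1 + ‖z‖ + (l : ℝ) ^ 2 := Real.sq_sqrt k0
    have k2 : Lb l z ^ 2 ≤ L0 ^ 2 := pow_le_pow_left₀ (Real.sqrt_nonneg _) hL 2
    nlinarith [sq_nonneg (l : ℝ)]
  have hK : 100 * (2 * ‖z‖ + 6) ^ 2 + 50 ≤ K0 := by
    have : (2 * ‖z‖ + 6) ^ 2 ≤ (2 * L0 ^ 2 + 6) ^ 2 :=
      pow_le_pow_left₀ (by positivity) (by linarith) 2
    linarith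
  have hKε : K0 * ε ≤ 1 / 40 := by
    have := mul_le_mul_of_nonneg_left hε K0p.le
    rwa [show K0 * (1 / (40 * K0)) = 1 / 40 by field_simp] at this
  have hA : ‖A rp‖ ^ 2 ≤ P := by
    refine le_trans ?_ h1
    unfold ee en
    nlinarith [sq_nonneg ‖deriv A rp‖, sq_nonneg ‖deriv Θ rp‖, sq_nonneg ‖Θ rp‖]
  have hT : ‖Θ rp‖ ^ 2 ≤ P := by
    refine le_trans ?_ h1
    unfold ee en
    nlinarith [sq_nonneg ‖deriv A rp‖, sq_nonneg ‖deriv Θ rp‖, sq_nonneg ‖A rp‖]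
  have E0 : 0 ≤ ∫ r in (0 : ℝ)..rp, dens ρ q l A Θ r := by
    refine intervalIntegral.integral_nonneg hp fun r hr => ?_
    have k1 := cint_dens' hc l A Θ hr
    have h0 := hr.1
    have k2 : 0 ≤ r ^ 11 * ‖deriv A r‖ ^ 2 + r ^ 11 * ‖deriv Θ r‖ ^ 2
        + r ^ 11 * (q r * ‖A r‖ ^ 2) := by have := hc.q0 r; positivity
    linarith
  have A0 : 0 ≤ ∫ r in (0 : ℝ)..rp, r ^ 11 * ‖A r‖ ^ 2 :=
    intervalIntegral.integral_nonneg hp fun r hr => by have := hr.1; positivity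
  have k1 := cint_energy hc hs
  have k2 := cint_amp hc hs
  have k3 := cint_phase hc hs
  generalize (∫ r in (0 : ℝ)..rp, dens ρ q l A Θ r) = En at *
  generalize (∫ r in (0 : ℝ)..rp, r ^ 11 * ‖A r‖ ^ 2) = NA at *
  generalize (∫ r in (0 : ℝ)..rp, r ^ 11 * ‖Θ r‖ ^ 2) = NT at *
  have k4 : NA ≤ ε * (10 * En + 4 ^ 12 * P) :=
    k2.trans (mul_le_mul_of_nonneg_left (by linarith) e0.le)
  have k5 : (100 * (2 * ‖z‖ + 6) ^ 2 + 50) * NA ≤ 1 / 40 * (10 * En + 4 ^ 12 * P) := by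
    refine (mul_le_mul hK k4 A0 K0p.le).trans ?_
    rw [← mul_assoc]
    exact mul_le_mul_of_nonneg_right hKε (by positivity)
  have k6 : ε * P ≤ 1 / 1000 * P := mul_le_mul_of_nonneg_right e1 hP
  have k7 : En ≤ 4 ^ 14 * P := by linarith
  refine ⟨by linarith, ?_, by linarith⟩
  refine k4.trans ?_
  rw [mul_comm (4 ^ 20 : ℝ) ε, mul_assoc]
  exact mul_le_mul_of_nonneg_left (by linarith) e0.le

end Vale.Agent.P139
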