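import Vale.Agent.P139.CInt

open Complex MeasureTheory Filter Topology
open scoped ComplexConjugate ContDiff

namespace Vale.Agent.P139

/-- weighted Cauchy-Schwarz inequality -/
theorem cint2_cs {u : ℝ → ℝ} (hu : Continuous u) {y : ℝ} (h0 : 0 ≤ y) (h4 : y ≤ 4) :
    (∫ t in (0 : ℝ)..y, t ^ 11 * u t) ^ 2 ≤ 4 ^ 12 * ∫ t in (0 : ℝ)..y, t ^ 11 * u t ^ 2 := by
  set X := ∫ t in (0 : ℝ)..y, t ^ 11 * u t with hX
  have c1 : Continuous fun t : ℝ => t ^ 11 * u t := by fun_prop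
  have c2 : Continuous fun t : ℝ => t ^ 11 * u t ^ 2 := by fun_prop
  have h1 := cint_mono (f := fun t => 2 * (X / 4 ^ 12) * (t ^ 11 * u t))
    (g := fun t => t ^ 11 * u t ^ 2 + (X / 4 ^ 12) ^ 2 * 4 ^ 11) h0 (continuous_const.mul c1)
    (c2.add continuous_const) fun t ht => by
      have k0 := ht.1
      have k1 := mul_le_mul_of_nonneg_left (cint_pow k0 (ht.2.trans h4) 11)
        (sq_nonneg (X / 4 ^ 12))
      have k2 : 0 ≤ t ^ 11 * (u t - X / 4 ^ 12) ^ 2 := by positivity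
      linarith
  rw [intervalIntegral.integral_add (c2.intervalIntegrable _ _) intervalIntegrable_const,
    intervalIntegral.integral_const_mul, intervalIntegral.integral_const, ← hX, smul_eq_mul,
    sub_zero] at h1
  have h2 := mul_le_mul_of_nonneg_right h4
    (by positivity : 0 ≤ (X / 4 ^ 12) ^ 2 * (4 : ℝ) ^ 11)
  linarith

/-- the boundary value of the amplitude -/
theorem cint2_amp {ε a rm rp : ℝ} {ρ n j q : ℝ → ℝ} (hc : Cf ε a rm rp ρ n j q) {l : ℕ}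
    {z : ℂ} {A Θ F1 F2 : ℝ → ℂ} (hs : ASol ρ j q l z A Θ F1 F2) {s : ℝ} (s0 : 0 < s) :
    ‖A rp‖ ^ 2 ≤ (12 + 4 / s) * (∫ r in (0 : ℝ)..rp, r ^ 11 * ‖A r‖ ^ 2)
      + 16 * s * ∫ r in (0 : ℝ)..rp, dens ρ q l A Θ r := by
  have r0 := hc.r0
  have r1 := hc.r1
  have r3 := hc.r3
  have hp : 0 ≤ rp := by linarith
  have c2 : Continuous fun r : ℝ => r ^ 11 * ‖A r‖ ^ 2 := by
    have := hs.cA.continuous; fun_prop
  have cd := cint_cont hc hs
  have p2 := cint_le (f := fun _ => 0)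
    (g := fun r => (12 + 4 / s) * (r ^ 11 * ‖A r‖ ^ 2) + 16 * s * dens ρ q l A Θ r)
    (G := fun r => -(r ^ 12 * (A r * conj (A r)).re))
    (G' := fun r => -(12 * r ^ 11 * ‖A r‖ ^ 2
      + r ^ 12 * (deriv A r * conj (A r) + A r * conj (deriv A r)).re)) hp continuous_const
    ((continuous_const.mul c2).add (continuous_const.mul cd)) (fun r _ => by
      have dA : HasDerivAt A (deriv A r) r := (hs.cA.differentiable two_ne_zero r).hasDerivAt
      have dA' : HasDerivAt (fun t => conj (A t)) (conj (deriv A r)) r := dA.star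
      have d1 := reCLM.hasFDerivAt.comp_hasDerivAt r (dA.mul dA')
      have d2 := ((hasDerivAt_pow 12 r).mul d1).neg
      refine HasDerivAt.congr_deriv d2 ?_
      have m1 : (A r * conj (A r)).re = ‖A r‖ ^ 2 := by
        rw [mul_conj', ← ofReal_pow, ofReal_re]
      simp only [Pi.mul_apply, Function.comp_apply, reCLM_apply, m1]
      push_cast
      ring) (fun r hr => by
      have h0 : 0 ≤ r := hr.1
      have h1 := cint_dens' hc l A Θ hr
      have h2 : (deriv A r * conj (A r) + A r * conj (deriv A r)).re ≤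
          2 * (‖A r‖ * ‖deriv A r‖) := by
        refine (re_le_norm _).trans ((norm_add_le _ _).trans ?_)
        rw [norm_mul, norm_mul, norm_conj, norm_conj]
        linarith
      have h3 : 2 * (‖A r‖ * ‖deriv A r‖) ≤ ‖A r‖ ^ 2 / s + s * ‖deriv A r‖ ^ 2 := by
        have k1 : 0 ≤ (‖A r‖ - s * ‖deriv A r‖) ^ 2 / s := by positivity
        have k2 : (‖A r‖ - s * ‖deriv A r‖) ^ 2 / s = ‖A r‖ ^ 2 / s + s * ‖deriv A r‖ ^ 2
            - 2 * (‖A r‖ * ‖deriv A r‖) := by field_simp; ring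
        linarith
      have h4 := mul_le_mul_of_nonneg_left (h2.trans h3) (pow_nonneg h0 12)
      have h5 : r ≤ 4 := by have := hr.2; linarith
      have h6 : 0 ≤ r ^ 11 * (‖A r‖ ^ 2 / s + s * ‖deriv A r‖ ^ 2) := by positivity
      have h7 := mul_le_mul_of_nonneg_right h5 h6
      have h8 : 0 ≤ r ^ 11 * ‖deriv Θ r‖ ^ 2 + r ^ 11 * (q r * ‖A r‖ ^ 2) := by
        have := hc.q0 r; positivity
      have h9 : r ^ 11 * ‖deriv A r‖ ^ 2 ≤ 4 * dens ρ q l A Θ r := by linarith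
      have h10 := mul_le_mul_of_nonneg_left h9 s0.le
      have e1 : r ^ 12 * (‖A r‖ ^ 2 / s + s * ‖deriv A r‖ ^ 2) =
          r * (r ^ 11 * (‖A r‖ ^ 2 / s + s * ‖deriv A r‖ ^ 2)) := by ring
      have e2 : 4 * (r ^ 11 * (‖A r‖ ^ 2 / s + s * ‖deriv A r‖ ^ 2)) =
          4 / s * (r ^ 11 * ‖A r‖ ^ 2) + 4 * (s * (r ^ 11 * ‖deriv A r‖ ^ 2)) := by ring
      have e3 : (12 + 4 / s) * (r ^ 11 * ‖A r‖ ^ 2) =
          12 * r ^ 11 * ‖A r‖ ^ 2 + 4 / s * (r ^ 11 * ‖A r‖ ^ 2) := by ring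
      rw [e3]
      linarith)
  have m1 : (A rp * conj (A rp)).re = ‖A rp‖ ^ 2 := by
    rw [mul_conj', ← ofReal_pow, ofReal_re]
  rw [intervalIntegral.integral_add ((c2.intervalIntegrable _ _).const_mul _)
    ((cd.intervalIntegrable _ _).const_mul _), intervalIntegral.integral_const_mul,
    intervalIntegral.integral_const_mul, intervalIntegral.integral_zero, m1] at p2
  have b1 : (1 : ℝ) ≤ rp ^ 12 := one_le_pow₀ (by linarith)
  have b2 := mul_le_mul_of_nonneg_right b1 (sq_nonneg ‖A rp‖)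
  have b3 : (0 : ℝ) ^ 12 * (A 0 * conj (A 0)).re = 0 := by simp
  linarith

/-- the Wronskian type functional -/
noncomputable def cint2H (ρ j : ℝ → ℝ) (l : ℕ) (A Θ : ℝ → ℂ) (t : ℝ) : ℂ :=
  ((t ^ l : ℝ) : ℂ) * (((t ^ 11 * ρ t : ℝ) : ℂ) * deriv Θ t)
    - ((l * t ^ l * t ^ 10 * ρ t : ℝ) : ℂ) * Θ t
    + ((t ^ l * (t ^ 11 * ρ t * j t) : ℝ) : ℂ) * A t

theorem cint2_deriv {ε a rm rp : ℝ} {ρ n j q : ℝ → ℝ} (hc : Cf ε a rm rp ρ n j q) {l : ℕ}
    {z : ℂ} {A Θ F1 F2 : ℝ → ℂ} (hs : ASol ρ j q l z A Θ F1 F2) {r : ℝ} (hr : 0 ≤ r) :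
    HasDerivAt (cint2H ρ j l A Θ) (((r ^ l * ρ r : ℝ) : ℂ) *
      (-(((r ^ 11 : ℝ) : ℂ) * z * A r) + ((l * r ^ 10 * j r : ℝ) : ℂ) * A r
        + (((6 - 2 * a) * r ^ 11 : ℝ) : ℂ) * A r + ((r ^ 11 : ℝ) : ℂ) * F2 r
        - ((l * r ^ 9 * n r : ℝ) : ℂ) * Θ r)) r := by
  have dA : HasDerivAt A (deriv A r) r := (hs.cA.differentiable two_ne_zero r).hasDerivAt
  have dT : HasDerivAt Θ (deriv Θ r) r := (hs.cT.differentiable two_ne_zero r).hasDerivAt
  have dρ : HasDerivAt ρ (deriv ρ r) r := (hc.cρ.differentiable one_ne_zero r).hasDerivAt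
  obtain ⟨d, hd, e0⟩ : ∃ d : ℝ, HasDerivAt (fun t : ℝ => t ^ l) d r ∧ r * d = l * r ^ l := by
    refine ⟨_, hasDerivAt_pow l r, ?_⟩
    cases l with
    | zero => simp
    | succ k => simp only [Nat.add_sub_cancel]; ring
  have d1 : HasDerivAt (fun t : ℝ => l * t ^ l * t ^ 10 * ρ t)
      (l * (l + 10) * r ^ l * r ^ 9 * ρ r + l * r ^ l * r ^ 9 * n r * ρ r) r := by
    refine (((hd.const_mul (l : ℝ)).mul (hasDerivAt_pow 10 r)).mul dρ).congr_deriv ?_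
    have e1 := hc.dρ r
    simp only [Pi.mul_apply]
    push_cast
    linear_combination (l * r ^ 9 * ρ r) * e0 + (l * r ^ l * r ^ 9) * e1
  have d2 : HasDerivAt (fun t : ℝ => t ^ l * (t ^ 11 * ρ t * j t))
      (l * r ^ l * r ^ 10 * ρ r * j r + r ^ l * ((6 - 2 * a) * (r ^ 11 * ρ r))) r := by
    refine (hd.mul (cint_mu hc r)).congr_deriv ?_
    linear_combination (r ^ 10 * ρ r * j r) * e0
  have d0 := ((hd.ofReal_comp.mul (hs.e2 r hr)).sub (d1.ofReal_comp.mul dT)).add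
    (d2.ofReal_comp.mul dA)
  refine HasDerivAt.congr_deriv d0 ?_
  have e2 : (r : ℂ) * d = l * (r : ℂ) ^ l := by exact_mod_cast e0
  push_cast
  linear_combination ((r : ℂ) ^ 10 * ρ r * deriv Θ r) * e2

theorem cint2_phase {ε a rm rp : ℝ} {ρ n j q : ℝ → ℝ} (hc : Cf ε a rm rp ρ n j q) {l : ℕ}
    {z : ℂ} {A Θ F1 F2 : ℝ → ℂ} (hs : ASol ρ j q l z A Θ F1 F2) {M : ℝ}
    (hM : ‖z‖ + l + 6 ≤ M) :
    ‖deriv Θ rp - (l : ℂ) / rp * Θ rp‖ ≤ 4 * ‖A rp‖ +
      ∫ t in (0 : ℝ)..rp, t ^ 11 * (M * ‖A t‖ + ‖F2 t‖ + 2 * ε * M * ‖Θ t‖) := by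
  have r0 := hc.r0
  have r1 := hc.r1
  have r3 := hc.r3
  have e0 := hc.e0
  have hp : 0 < rp := by linarith
  have hl : (0 : ℝ) ≤ l := Nat.cast_nonneg l
  have hz := norm_nonneg z
  have cu : Continuous fun t : ℝ => t ^ 11 * (M * ‖A t‖ + ‖F2 t‖ + 2 * ε * M * ‖Θ t‖) := by
    have := hs.cA.continuous
    have := hs.cT.continuous
    have := hs.c2
    fun_prop
  have h1 := norm_sub_le_integral_of_norm_deriv_le_of_le (f := cint2H ρ j l A Θ)
    (B := fun t => rp ^ l * (t ^ 11 * (M * ‖A t‖ + ‖F2 t‖ + 2 * ε * M * ‖Θ t‖))) hp.le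
    (fun r hr => (cint2_deriv hc hs hr.1).continuousAt.continuousWithinAt)
    (fun r hr => (cint2_deriv hc hs hr.1.le).differentiableAt.differentiableWithinAt)
    (Eventually.of_forall fun r hr => by
      have h0 := hr.1.le
      have hr' : r ∈ Set.Icc (0 : ℝ) 3.46 := ⟨h0, by have := hr.2; linarith⟩
      have k1 := hc.ρ0 r hr'
      have k2 := hc.ρ1 r hr'
      have k3 := hc.j0 r hr'
      have k4 := hc.j1 r hr'
      have k5 := hc.n3 r ⟨h0, hr.2.le⟩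
      have a0 := hc.a0
      have a1 : a ≤ 1 := by have := hc.a1; have := hc.e1; linarith
      have k6 : 0 ≤ r ^ l * ρ r := by have : 0 ≤ ρ r := by linarith
                                      positivity
      have k7 : r ^ l * ρ r ≤ rp ^ l := by
        have := pow_le_pow_left₀ h0 hr.2.le l
        have := mul_le_mul_of_nonneg_left k2 (pow_nonneg h0 l)
        linarith
      rw [(cint2_deriv hc hs h0).deriv, norm_mul, norm_real, Real.norm_of_nonneg k6]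
      refine mul_le_mul k7 ?_ (norm_nonneg _) (pow_nonneg hp.le l)
      have p11 : 0 ≤ r ^ 11 := pow_nonneg h0 11
      have n1 : ‖-(((r ^ 11 : ℝ) : ℂ) * z * A r)‖ = r ^ 11 * ‖z‖ * ‖A r‖ := by
        rw [norm_neg, norm_mul, norm_mul, norm_real, Real.norm_of_nonneg p11]
      have n2 : ‖((l * r ^ 10 * j r : ℝ) : ℂ) * A r‖ ≤ r ^ 11 * l * ‖A r‖ := by
        rw [norm_mul, norm_real, Real.norm_of_nonneg (by positivity)]
        refine mul_le_mul_of_nonneg_right ?_ (norm_nonneg _)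
        have := mul_le_mul_of_nonneg_left k4 (by positivity : 0 ≤ (l : ℝ) * r ^ 10)
        linarith
      have n3 : ‖(((6 - 2 * a) * r ^ 11 : ℝ) : ℂ) * A r‖ ≤ r ^ 11 * 6 * ‖A r‖ := by
        rw [norm_mul, norm_real, Real.norm_of_nonneg (mul_nonneg (by linarith) p11)]
        refine mul_le_mul_of_nonneg_right ?_ (norm_nonneg _)
        have := mul_nonneg a0.le p11
        linarith
      have n4 : ‖((r ^ 11 : ℝ) : ℂ) * F2 r‖ = r ^ 11 * ‖F2 r‖ := by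
        rw [norm_mul, norm_real, Real.norm_of_nonneg p11]
      have n5 : ‖((l * r ^ 9 * n r : ℝ) : ℂ) * Θ r‖ ≤ r ^ 11 * (2 * ε * M) * ‖Θ r‖ := by
        rw [norm_mul, norm_real, Real.norm_eq_abs, abs_mul,
          abs_of_nonneg (by positivity : 0 ≤ (l : ℝ) * r ^ 9)]
        refine mul_le_mul_of_nonneg_right ?_ (norm_nonneg _)
        have t1 := mul_le_mul_of_nonneg_left k5 (by positivity : 0 ≤ (l : ℝ) * r ^ 9)
        have t2 : (l : ℝ) ≤ M := by linarith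
        have t3 := mul_le_mul_of_nonneg_left t2 (by positivity : 0 ≤ r ^ 11 * (2 * ε))
        linarith
      have n6 := mul_le_mul_of_nonneg_left hM (mul_nonneg p11 (norm_nonneg (A r)))
      generalize -(((r ^ 11 : ℝ) : ℂ) * z * A r) = x1 at *
      generalize ((l * r ^ 10 * j r : ℝ) : ℂ) * A r = x2 at *
      generalize (((6 - 2 * a) * r ^ 11 : ℝ) : ℂ) * A r = x3 at *
      generalize ((r ^ 11 : ℝ) : ℂ) * F2 r = x4 at *
      generalize ((l * r ^ 9 * n r : ℝ) : ℂ) * Θ r = x5 at *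
      have t1 := norm_sub_le (x1 + x2 + x3 + x4) x5
      have t2 := norm_add_le (x1 + x2 + x3) x4
      have t3 := norm_add_le (x1 + x2) x3
      have t4 := norm_add_le x1 x2
      linarith) ((cu.intervalIntegrable _ _).const_mul _)
  have g0 : cint2H ρ j l A Θ 0 = 0 := by simp [cint2H]
  have hr' : rp ∈ Set.Icc (0 : ℝ) 3.46 := ⟨hp.le, by linarith⟩
  have k1 := hc.ρ0 rp hr'
  have k3 := hc.j0 rp hr'
  have k4 := hc.j1 rp hr'
  have g1 : cint2H ρ j l A Θ rp = ((rp ^ l * (rp ^ 11 * ρ rp) : ℝ) : ℂ) *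
      ((deriv Θ rp - (l : ℂ) / rp * Θ rp) + (j rp : ℂ) * A rp) := by
    have : (rp : ℂ) ≠ 0 := ofReal_ne_zero.2 hp.ne'
    unfold cint2H
    push_cast
    field_simp
  have m1 : 1 ≤ rp ^ 11 * ρ rp := by
    have t1 : (3 : ℝ) ^ 11 ≤ rp ^ 11 := pow_le_pow_left₀ (by norm_num) (by linarith) 11
    have t2 := mul_le_mul t1 k1 (by norm_num) (pow_nonneg hp.le 11)
    linarith
  have pl : 0 < rp ^ l := pow_pos hp l
  rw [g0, sub_zero, g1, norm_mul, norm_real,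
    Real.norm_of_nonneg (mul_nonneg pl.le (by linarith)), intervalIntegral.integral_const_mul,
    mul_assoc] at h1
  have h2 := le_of_mul_le_mul_left h1 pl
  have h3 := mul_le_mul_of_nonneg_right m1
    (norm_nonneg ((deriv Θ rp - (l : ℂ) / rp * Θ rp) + (j rp : ℂ) * A rp))
  have h4 := norm_sub_le ((deriv Θ rp - (l : ℂ) / rp * Θ rp) + (j rp : ℂ) * A rp)
    ((j rp : ℂ) * A rp)
  rw [add_sub_cancel_right, norm_mul, norm_real, Real.norm_of_nonneg k3] at h4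
  have h5 : j rp * ‖A rp‖ ≤ 4 * ‖A rp‖ :=
    mul_le_mul_of_nonneg_right (by linarith) (norm_nonneg _)
  linarith

theorem cint2_three (x y w : ℝ) : (x + y + w) ^ 2 ≤ 3 * x ^ 2 + 3 * y ^ 2 + 3 * w ^ 2 := by
  nlinarith [sq_nonneg (x - y), sq_nonneg (x - w), sq_nonneg (y - w)]

/-- approximate boundary conditions at the wall -/
theorem int_bc (L0 : ℝ) : ∃ ε0 C : ℝ, 0 < ε0 ∧ 0 ≤ C ∧ ∀ {ε a rm rp : ℝ} {ρ n j q : ℝ → ℝ},
    Cf ε a rm rp ρ n j q → ε ≤ ε0 → ∀ {l : ℕ} {z : ℂ} {A Θ F1 F2 : ℝ → ℂ},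
    ASol ρ j q l z A Θ F1 F2 → Lb l z ≤ L0 → ∀ P : ℝ, 0 ≤ P → ee 1 A Θ rp ≤ P →
    (∫ r in (0 : ℝ)..rp, r ^ 11 * ‖F1 r‖ ^ 2) ≤ P →
    (∫ r in (0 : ℝ)..rp, r ^ 11 * ‖F2 r‖ ^ 2) ≤ ε * P →
      ‖A rp‖ ^ 2 ≤ C * Real.sqrt ε * P ∧
      ‖deriv Θ rp - (l : ℂ) / rp * Θ rp‖ ^ 2 ≤ C * Real.sqrt ε * P := by
  obtain ⟨ε0, C, hε0, hC, H⟩ := int_en L0
  set M : ℝ := L0 ^ 2 + 6 with hMd
  have M0 : 0 ≤ M := by positivity
  refine ⟨ε0, 1024 * C + 6 * 4 ^ 12 * (2 * M ^ 2 * C + 1), hε0, by positivity, ?_⟩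
  intro ε a rm rp ρ n j q hc hε l z A Θ F1 F2 hs hL P hP h1 h2 h3
  obtain ⟨b1, b2, b3⟩ := H hc hε hs hL P hP h1 h2 h3
  have e0 := hc.e0
  have e1 := hc.e1
  have r3 := hc.r3
  have hp : 0 ≤ rp := by have := hc.r0; have := hc.r1; linarith
  have hM : ‖z‖ + l + 6 ≤ M := by
    have k0 : 0 ≤ 1 + ‖z‖ + (l : ℝ) ^ 2 := by positivity
    have k1 : Lb l z ^ 2 = 1 + ‖z‖ + (l : ℝ) ^ 2 := Real.sq_sqrt k0
    have k2 : Lb l z ^ 2 ≤ L0 ^ 2 := pow_le_pow_left₀ (Real.sqrt_nonneg _) hL 2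
    have k3 := sq_nonneg ((l : ℝ) - 1)
    have k4 := sq_nonneg (l : ℝ)
    have k5 : (0 : ℝ) ≤ l := Nat.cast_nonneg l
    linarith
  have s0 : 0 < Real.sqrt ε := Real.sqrt_pos.2 e0
  have ss : Real.sqrt ε * Real.sqrt ε = ε := Real.mul_self_sqrt e0.le
  have s1 : Real.sqrt ε ≤ 1 := Real.sqrt_le_one.2 (by linarith)
  have k1 := cint2_amp hc hs s0
  generalize Real.sqrt ε = s at *
  have s2 : ε ≤ s := by
    have := mul_le_mul_of_nonneg_left s1 s0.le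
    linarith
  have CP : 0 ≤ C * P := mul_nonneg hC hP
  have hA : ‖A rp‖ ^ 2 ≤ 32 * (C * s * P) := by
    have t1 := mul_le_mul_of_nonneg_left b2 (by positivity : 0 ≤ 12 + 4 / s)
    have t2 := mul_le_mul_of_nonneg_left b1 (by positivity : 0 ≤ 16 * s)
    have t3 : (12 + 4 / s) * (C * ε * P) = 12 * (ε * (C * P)) + 4 * (C * s * P) := by
      rw [← ss]; field_simp
    have t4 := mul_le_mul_of_nonneg_right s2 CP
    linarith
  have sP : 0 ≤ s * P := mul_nonneg s0.le hP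
  have CsP : 0 ≤ C * s * P := by positivity
  have MP : 0 ≤ (2 * M ^ 2 * C + 1) * s * P := by positivity
  refine ⟨by linarith, ?_⟩
  have k2 := cint2_phase hc hs hM
  have cA := hs.cA.continuous
  have cT := hs.cT.continuous
  have c2 := hs.c2
  have k3 := cint2_cs (u := fun t => M * ‖A t‖ + ‖F2 t‖ + 2 * ε * M * ‖Θ t‖) (by fun_prop) hp
    (by linarith)
  have i1 : Continuous fun r : ℝ => r ^ 11 * ‖A r‖ ^ 2 := by fun_prop
  have i2 : Continuous fun r : ℝ => r ^ 11 * ‖F2 r‖ ^ 2 := by fun_prop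
  have i3 : Continuous fun r : ℝ => r ^ 11 * ‖Θ r‖ ^ 2 := by fun_prop
  have k4 := cint_mono (f := fun t => t ^ 11 * (M * ‖A t‖ + ‖F2 t‖ + 2 * ε * M * ‖Θ t‖) ^ 2)
    (g := fun t => 3 * M ^ 2 * (t ^ 11 * ‖A t‖ ^ 2) + 3 * (t ^ 11 * ‖F2 t‖ ^ 2)
      + 12 * ε ^ 2 * M ^ 2 * (t ^ 11 * ‖Θ t‖ ^ 2)) hp (by fun_prop) (by fun_prop)
    fun t ht => by
      have t1 : (M * ‖A t‖ + ‖F2 t‖ + 2 * ε * M * ‖Θ t‖) ^ 2 ≤
          3 * (M * ‖A t‖) ^ 2 + 3 * ‖F2 t‖ ^ 2 + 3 * (2 * ε * M * ‖Θ t‖) ^ 2 := by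
        exact cint2_three _ _ _
      have t2 := mul_le_mul_of_nonneg_left t1 (pow_nonneg ht.1 11)
      linarith
  rw [intervalIntegral.integral_add (((i1.intervalIntegrable _ _).const_mul _).add
      ((i2.intervalIntegrable _ _).const_mul _)) ((i3.intervalIntegrable _ _).const_mul _),
    intervalIntegral.integral_add ((i1.intervalIntegrable _ _).const_mul _)
      ((i2.intervalIntegrable _ _).const_mul _), intervalIntegral.integral_const_mul,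
    intervalIntegral.integral_const_mul, intervalIntegral.integral_const_mul] at k4
  have t1 := mul_le_mul_of_nonneg_left b2 (by positivity : 0 ≤ 3 * M ^ 2)
  have t2 := mul_le_mul_of_nonneg_left b3 (by positivity : 0 ≤ 12 * ε ^ 2 * M ^ 2)
  have t3 : 12 * ε ^ 2 ≤ 3 * s := by
    have := mul_le_mul_of_nonneg_left e1 e0.le
    linarith
  have t4 := mul_le_mul_of_nonneg_right t3 (by positivity : 0 ≤ M ^ 2 * (C * P))
  have t5 := mul_le_mul_of_nonneg_right s2 (by positivity : 0 ≤ M ^ 2 * (C * P))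
  have t6 := mul_le_mul_of_nonneg_right s2 hP
  generalize (∫ t in (0 : ℝ)..rp, t ^ 11 * (M * ‖A t‖ + ‖F2 t‖ + 2 * ε * M * ‖Θ t‖)) = X at *
  have k5 : X ^ 2 ≤ 3 * 4 ^ 12 * ((2 * M ^ 2 * C + 1) * s * P) := by linarith
  have k6 : ‖deriv Θ rp - (l : ℂ) / rp * Θ rp‖ ^ 2 ≤ (4 * ‖A rp‖ + X) ^ 2 :=
    pow_le_pow_left₀ (norm_nonneg _) k2 2
  have k7 := sq_nonneg (4 * ‖A rp‖ - X)
  linarith

end Vale.Agent.P139
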