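import Vale.Agent.P139.CDefs

open Complex MeasureTheory Filter Topology
open scoped ComplexConjugate ContDiff

namespace Vale.Agent.P139

theorem one_le_Lb (l : ℕ) (z : ℂ) : 1 ≤ Lb l z := by
  unfold Lb
  refine Real.one_le_sqrt.2 ?_
  have := norm_nonneg z
  have := sq_nonneg (l : ℝ)
  linarith

theorem Lb_sq (l : ℕ) (z : ℂ) : Lb l z ^ 2 = 1 + ‖z‖ + (l : ℝ) ^ 2 :=
  Real.sq_sqrt (by positivity)

theorem Lb_conj (l : ℕ) (z : ℂ) : Lb l (conj z) = Lb l z := by
  simp [Lb]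

theorem CLad_cd (l : ℕ) {f : ℝ → ℂ} (hf : ContDiff ℝ 16 f) (N k : ℕ) (hk : N + k ≤ 16) :
    ContDiffOn ℝ N (lad l k f) (Set.Ioi 0) := by
  have h1 : ContDiffOn ℝ N (iteratedDeriv k (ured l f)) (Set.Ioi 0) :=
    olad_on k ((ured_smooth l hf).of_le (by exact_mod_cast hk))
  have h2 : ContDiffOn ℝ N (fun ρ : ℝ => ρ ^ 2 / 4) (Set.Ioi 0) := by fun_prop
  have h3 : ContDiffOn ℝ N (fun ρ : ℝ => (ρ : ℂ) ^ (l + k) / 2 ^ k) (Set.Ioi 0) :=
    ((ofRealCLM.contDiff.pow (l + k)).div_const _).contDiffOn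
  refine (h3.mul (h1.comp h2 fun ρ hρ => ?_)).congr fun ρ hρ => lad_eq l hf k (by omega) hρ
  have : (0 : ℝ) < ρ := hρ
  show (0 : ℝ) < ρ ^ 2 / 4
  positivity

theorem lad_smooth (l : ℕ) {f : ℝ → ℂ} (hf : ContDiff ℝ 16 f) (k : ℕ) (hk : k ≤ 14) :
    ContDiffOn ℝ 2 (lad l k f) (Set.Ioi 0) := by
  exact_mod_cast CLad_cd l hf 2 k (by omega)

theorem lad_deriv (l : ℕ) {f : ℝ → ℂ} (hf : ContDiff ℝ 16 f) (k : ℕ) (hk : k ≤ 15) {r : ℝ}
    (hr : 0 < r) :
    HasDerivAt (lad l k f) (lad l (k + 1) f r + ((l : ℂ) + k) / r * lad l k f r) r := by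
  have h := ((CLad_cd l hf 1 k (by omega)).contDiffAt (isOpen_Ioi.mem_nhds hr)).differentiableAt
    (by simp)
  refine h.hasDerivAt.congr_deriv ?_
  simp [lad]

theorem lad_conj (l k : ℕ) (f : ℝ → ℂ) :
    lad l k (fun r => conj (f r)) = fun r => conj (lad l k f r) := by
  induction k with
  | zero => rfl
  | succ k ih =>
    funext r
    have d1 : deriv (fun r => conj (lad l k f r)) r = conj (deriv (lad l k f) r) := deriv.star
    simp only [lad, ih, d1, map_sub, map_mul, map_div₀, map_add, map_natCast, conj_ofReal]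

theorem lad_smul (l k : ℕ) (c : ℂ) (f : ℝ → ℂ) :
    lad l k (fun r => c * f r) = fun r => c * lad l k f r := by
  induction k with
  | zero => rfl
  | succ k ih =>
    funext r
    simp only [lad, ih, deriv_const_mul_field]
    ring

theorem lad_zero (l k : ℕ) : lad l k (0 : ℝ → ℂ) = 0 := by
  have := lad_smul l k 0 0
  simp only [zero_mul] at this
  exact this

theorem Dec.conj {l : ℕ} {f : ℝ → ℂ} (h : Dec l f) : Dec l fun r => conj (f r) := by
  obtain ⟨C, hC⟩ := h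
  refine ⟨C, fun k hk r hr => ?_⟩
  rw [lad_conj]
  simpa using hC k hk r hr

theorem Dec.smul {l : ℕ} {f : ℝ → ℂ} (h : Dec l f) (c : ℂ) : Dec l fun r => c * f r := by
  obtain ⟨C, hC⟩ := h
  refine ⟨‖c‖ * C, fun k hk r hr => ?_⟩
  rw [lad_smul, norm_mul, mul_assoc]
  exact mul_le_mul_of_nonneg_left (hC k hk r hr) (norm_nonneg _)

theorem HSol.swap {m : ℕ} {om : ℝ} {w : ℝ → ℂ} {l : ℕ} {z : ℂ} {f g : ℝ → ℂ}
    (h : HSol m om w l z f g) :
    HSol m om w l (conj z) (fun r => conj (g r)) (fun r => conj (f r)) := by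
  refine ⟨?_, by simpa using h.re, h.dg.conj, h.df.conj⟩
  have := h.sol.swap
  simp only [Pi.zero_apply, map_zero] at this
  exact this

theorem en_conj (L : ℝ) (f : ℝ → ℂ) (r : ℝ) : en L (fun r => conj (f r)) r = en L f r := by
  have d1 : deriv (fun r => conj (f r)) r = conj (deriv f r) := deriv.star
  simp [en, d1]

theorem EE_swap (l : ℕ) (L : ℝ) (f g : ℝ → ℂ) (r : ℝ) :
    EE l L (fun r => conj (g r)) (fun r => conj (f r)) r = EE l L f g r := by
  simp only [EE, ee, lad_conj, en_conj, add_comm]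

/-- differentiating the reduced equation k times -/
theorem CLad_iter {u G : ℝ → ℂ} {b α : ℂ} (hu : ContDiffOn ℝ (16 : ℕ) u (Set.Ioi 0))
    (h : ∀ s : ℝ, 0 < s → s * deriv (deriv u) s + (b + I * s) * deriv u s + I * α * u s = G s)
    (k : ℕ) (hk : k ≤ 13) {s : ℝ} (hs : 0 < s) :
    s * iteratedDeriv (k + 2) u s + (b + k + I * s) * iteratedDeriv (k + 1) u s
      + I * (α + k) * iteratedDeriv k u s = iteratedDeriv k G s := by
  induction k generalizing s with
  | zero =>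
    have := h s hs
    simp only [zero_add, iteratedDeriv_succ, iteratedDeriv_zero, Nat.cast_zero, add_zero]
    exact this
  | succ k ih =>
    have e : (fun t : ℝ => t * iteratedDeriv (k + 2) u t + (b + k + I * t) *
        iteratedDeriv (k + 1) u t + I * (α + k) * iteratedDeriv k u t) =ᶠ[𝓝 s]
        iteratedDeriv k G := by
      filter_upwards [isOpen_Ioi.mem_nhds hs] with t ht using ih (by omega) ht
    have d0 := olad_hasDeriv (j := k) hu (by omega) hs
    have d1 := olad_hasDeriv (j := k + 1) hu (by omega) hs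
    have d2 := olad_hasDeriv (j := k + 2) hu (by omega) hs
    have c : HasDerivAt (fun t : ℝ => (t : ℂ)) 1 s := ofRealCLM.hasDerivAt
    have d := ((c.mul d2).add (((c.const_mul I).const_add (b + k)).mul d1)).add
      (d0.const_mul (I * (α + k)))
    rw [iteratedDeriv_succ (n := k) (f := G), ← e.deriv_eq]
    refine Eq.trans ?_ d.deriv.symm
    push_cast
    ring

theorem CLad_conj_ured (l : ℕ) (g : ℝ → ℂ) (s : ℝ) :
    conj (ured l (fun r => conj (g r)) s) = ured l g s := by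
  simp only [ured, map_div₀, map_pow, conj_conj, conj_ofReal]

/-- three term relation of the ladder -/
theorem CLad_three {m : ℕ} {om : ℝ} {w : ℝ → ℂ} (hP : Prof m om w) {l : ℕ} {z : ℂ}
    {f g p q : ℝ → ℂ} (h : RSol m om w l z f g p q) (hp : ContDiff ℝ 16 p) (k : ℕ) (hk : k ≤ 10)
    {r : ℝ} (hr : 0 < r) :
    lad l (k + 2) f r + (2 * ((l : ℂ) + 6 + k) / r + I * r / 2) * lad l (k + 1) f r
      + I * (z + aa m + l / 2 - I * om + k) * lad l k f r
      = Rk m w l k f g r + I * lad l k p r := by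
  have hs : 0 < r ^ 2 / 4 := by positivity
  have r0 : (r : ℂ) ≠ 0 := ofReal_ne_zero.2 hr.ne'
  have at' : ∀ {f : ℝ → ℂ}, ContDiff ℝ 16 f → ContDiffAt ℝ k (ured l f) (r ^ 2 / 4) :=
    fun hf => ((ured_smooth l hf).contDiffAt (isOpen_Ioi.mem_nhds hs)).of_le
      (by exact_mod_cast (by omega : k ≤ 16))
  have v1 : ContDiffAt ℝ k (V1 m w) (r ^ 2 / 4) :=
    hP.V_smooth.1.contDiffAt.of_le (by exact_mod_cast le_top)
  have v2 : ContDiffAt ℝ k (V2 m w) (r ^ 2 / 4) :=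
    hP.V_smooth.2.contDiffAt.of_le (by exact_mod_cast le_top)
  have e := CLad_iter (u := ured l f) (b := (l : ℂ) + 6) (α := z + aa m + l / 2 - I * om)
    (G := V1 m w * ured l f + V2 m w * ured l g + fun s => I * ured l p s)
    (by exact_mod_cast ured_smooth l h.1.1) (fun s hs => by
      have := ured_ode1 h hs
      rw [CLad_conj_ured] at this
      exact this) k (by omega) hs
  have m1 : ContDiffAt ℝ k (V1 m w * ured l f) (r ^ 2 / 4) := v1.mul (at' h.1.1)
  have m2 : ContDiffAt ℝ k (V2 m w * ured l g) (r ^ 2 / 4) := v2.mul (at' h.2.1.1)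
  have m3 : ContDiffAt ℝ k (V1 m w * ured l f + V2 m w * ured l g) (r ^ 2 / 4) := m1.add m2
  have m4 : ContDiffAt ℝ k (fun s => I * ured l p s) (r ^ 2 / 4) := contDiffAt_const.mul (at' hp)
  rw [iteratedDeriv_add m3 m4, iteratedDeriv_add m1 m2,
    iteratedDeriv_mul v1 (at' h.1.1), iteratedDeriv_mul v2 (at' h.2.1.1),
    iteratedDeriv_const_mul_field, ← Finset.sum_add_distrib] at e
  have eR : Rk m w l k f g r = (r : ℂ) ^ (l + k) / 2 ^ k * ∑ i ∈ Finset.range (k + 1),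
      ((k.choose i : ℂ) * iteratedDeriv i (V1 m w) (r ^ 2 / 4) *
        iteratedDeriv (k - i) (ured l f) (r ^ 2 / 4) +
      (k.choose i : ℂ) * iteratedDeriv i (V2 m w) (r ^ 2 / 4) *
        iteratedDeriv (k - i) (ured l g) (r ^ 2 / 4)) := by
    rw [Rk, Finset.mul_sum]
    refine Finset.sum_congr rfl fun i hi => ?_
    obtain ⟨j, rfl⟩ : ∃ j, k = i + j := ⟨k - i, by have := Finset.mem_range.1 hi; omega⟩
    rw [Nat.add_sub_cancel_left, lad_eq l h.1.1 j (by omega) hr, lad_eq l h.2.1.1 j (by omega) hr]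
    push_cast
    simp only [pow_add, div_pow]
    field_simp
  rw [eR, lad_eq l h.1.1 (k + 2) (by omega) hr, lad_eq l h.1.1 (k + 1) (by omega) hr,
    lad_eq l h.1.1 k (by omega) hr, lad_eq l hp k (by omega) hr]
  push_cast at e
  simp only [← add_assoc, pow_succ _ (l + k), pow_succ _ (l + k + 1), pow_succ _ k,
    pow_succ _ (k + 1)]
  generalize (r : ℂ) ^ (l + k) = A at e ⊢
  generalize (2 : ℂ) ^ k = B at e ⊢
  linear_combination (A / B) * e
    + (A / B * ((l : ℂ) + 6 + k) * iteratedDeriv (k + 1) (ured l f) (r ^ 2 / 4)) *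
      mul_inv_cancel₀ r0

/-- the level k equation, first order form -/
theorem lad_ode {m : ℕ} {om : ℝ} {w : ℝ → ℂ} (hP : Prof m om w) {l : ℕ} {z : ℂ}
    {f g p q : ℝ → ℂ} (h : RSol m om w l z f g p q) (hp : ContDiff ℝ 16 p) (k : ℕ) (hk : k ≤ 10)
    {r : ℝ} (hr : 0 < r) :
    deriv (lad l (k + 1) f) r = -(((l : ℂ) + k + 11) / r) * lad l (k + 1) f r
      - I * (z + k / 2 + aa m - I * om) * lad l k f r - I * r / 2 * deriv (lad l k f) r
      + Rk m w l k f g r + I * lad l k p r := by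
  have r0 : (r : ℂ) ≠ 0 := ofReal_ne_zero.2 hr.ne'
  have e := CLad_three hP h hp k hk hr
  rw [(lad_deriv l h.1.1 (k + 1) (by omega) hr).deriv, (lad_deriv l h.1.1 k (by omega) hr).deriv]
  push_cast
  linear_combination e + (I / 2 * ((l : ℂ) + k) * lad l k f r) * mul_inv_cancel₀ r0

/-- the level k equation, second order form -/
theorem lad_ode2 {m : ℕ} {om : ℝ} {w : ℝ → ℂ} (hP : Prof m om w) {l : ℕ} {z : ℂ}
    {f g p q : ℝ → ℂ} (h : RSol m om w l z f g p q) (hp : ContDiff ℝ 16 p) (k : ℕ) (hk : k ≤ 10)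
    {r : ℝ} (hr : 0 < r) :
    deriv (deriv (lad l k f)) r + 11 / r * deriv (lad l k f) r
      - ((l : ℂ) + k) * ((l : ℂ) + k + 10) / r ^ 2 * lad l k f r
      + I * (z + k / 2 + aa m - I * om) * lad l k f r + I * r / 2 * deriv (lad l k f) r
      = Rk m w l k f g r + I * lad l k p r := by
  have r0 : (r : ℂ) ≠ 0 := ofReal_ne_zero.2 hr.ne'
  have e := lad_ode hP h hp k hk hr
  have e1 : deriv (lad l k f) =ᶠ[𝓝 r] fun ρ : ℝ =>
      lad l (k + 1) f ρ + ((l : ℂ) + k) / ρ * lad l k f ρ := by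
    filter_upwards [isOpen_Ioi.mem_nhds hr] with ρ hρ using
      (lad_deriv l h.1.1 k (by omega) hρ).deriv
  have d0 := lad_deriv l h.1.1 k (by omega) hr
  have d1 := (lad_deriv l h.1.1 (k + 1) (by omega) hr).differentiableAt.hasDerivAt
  have d2 : HasDerivAt (fun ρ : ℝ => ((l : ℂ) + k) / (ρ : ℂ)) (-(((l : ℂ) + k) / (r : ℂ) ^ 2)) r :=
    (((hasDerivAt_const (r : ℂ) ((l : ℂ) + k)).div (hasDerivAt_id (r : ℂ))
      r0).comp_ofReal).congr_deriv (by simp; ring)
  have d3 := (d1.add (d2.mul d0)).deriv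
  rw [e1.deriv_eq]
  refine Eq.trans (congrArg (fun x => x + _ - _ + _ + _) d3) ?_
  rw [e, d0.deriv]
  ring

theorem Rk_cont {m : ℕ} {om : ℝ} {w : ℝ → ℂ} (hP : Prof m om w) (l k : ℕ) (hk : k ≤ 10)
    {f g : ℝ → ℂ} (hf : ContDiff ℝ 16 f) (hg : ContDiff ℝ 16 g) :
    ContinuousOn (Rk m w l k f g) (Set.Ioi 0) := by
  unfold Rk
  refine continuousOn_finsetSum _ fun i _ => ?_
  have c1 : Continuous fun r : ℝ => iteratedDeriv i (V1 m w) (r ^ 2 / 4) :=
    (hP.V_smooth.1.continuous_iteratedDeriv i (by exact_mod_cast le_top)).comp (by fun_prop)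
  have c2 : Continuous fun r : ℝ => iteratedDeriv i (V2 m w) (r ^ 2 / 4) :=
    (hP.V_smooth.2.continuous_iteratedDeriv i (by exact_mod_cast le_top)).comp (by fun_prop)
  have c3 : Continuous fun r : ℝ => (k.choose i : ℂ) * ((r / 2 : ℝ) : ℂ) ^ i := by fun_prop
  exact c3.continuousOn.mul
    ((c1.continuousOn.mul (CLad_cd l hf 0 (k - i) (by omega)).continuousOn).add
      (c2.continuousOn.mul (CLad_cd l hg 0 (k - i) (by omega)).continuousOn))

theorem Rk_bound : ∃ C : ℝ, 0 ≤ C ∧ ∀ {ε : ℝ} {m : ℕ} {om σ : ℝ} {w : ℝ → ℂ}, Ctx ε m om σ w →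
    ∀ (l k : ℕ) (f g : ℝ → ℂ) (r : ℝ), k ≤ 8 → 0 < r → σ + ε ≤ r ^ 2 / 4 →
      ‖Rk m w l k f g r‖ ≤ C * ε * ∑ i ∈ Finset.range (k + 1),
        (r ^ (2 + i))⁻¹ * (‖lad l (k - i) f r‖ + ‖lad l (k - i) g r‖) := by
  refine ⟨2 ^ 8 * 2 ^ 10, by positivity, fun {ε m om σ w} h l k f g r hk hr hs => ?_⟩
  rw [Rk, Finset.mul_sum]
  refine (norm_sum_le _ _).trans (Finset.sum_le_sum fun i hi => ?_)
  have hi' : i ≤ k := by have := Finset.mem_range.1 hi; omega
  obtain ⟨b1, b2⟩ := h.good.ext i (by omega) _ hs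
  have e0 := h.e0
  have e : (r ^ 2 / 4) ^ (-1 - (i : ℝ)) = ((r / 2) ^ i)⁻¹ * (2 ^ (2 + i) * (r ^ (2 + i))⁻¹) := by
    rw [show -1 - (i : ℝ) = -((i + 1 : ℕ) : ℝ) by push_cast; ring, Real.rpow_neg (by positivity),
      Real.rpow_natCast, show r ^ 2 / 4 = (r / 2) * (r / 2) by ring, mul_pow]
    simp only [pow_add, div_pow]
    field_simp
  rw [e] at b1 b2
  have c1 : (k.choose i : ℝ) ≤ 2 ^ 8 := by
    have : k.choose i ≤ 2 ^ 8 := (Nat.choose_le_two_pow k i).trans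
      (Nat.pow_le_pow_right (by norm_num) hk)
    exact_mod_cast this
  have c2 : (2 : ℝ) ^ (2 + i) ≤ 2 ^ 10 := pow_le_pow_right₀ (by norm_num) (by omega)
  have p1 : 0 < (r / 2) ^ i := by positivity
  have p2 : 0 < (r ^ (2 + i))⁻¹ := by positivity
  rw [norm_mul, norm_mul, norm_pow, Complex.norm_natCast, Complex.norm_real,
    Real.norm_of_nonneg (by positivity : 0 ≤ r / 2)]
  have n1 := norm_nonneg (lad l (k - i) f r)
  have n2 := norm_nonneg (lad l (k - i) g r)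
  calc _ ≤ (k.choose i : ℝ) * (r / 2) ^ i *
        (ε * (((r / 2) ^ i)⁻¹ * (2 ^ (2 + i) * (r ^ (2 + i))⁻¹)) *
          (‖lad l (k - i) f r‖ + ‖lad l (k - i) g r‖)) := by
        refine mul_le_mul_of_nonneg_left ((norm_add_le _ _).trans ?_) (by positivity)
        rw [norm_mul, norm_mul, mul_add]
        exact add_le_add (mul_le_mul_of_nonneg_right b1 n1) (mul_le_mul_of_nonneg_right b2 n2)
    _ = (k.choose i : ℝ) * 2 ^ (2 + i) * ε * ((r ^ (2 + i))⁻¹ *
          (‖lad l (k - i) f r‖ + ‖lad l (k - i) g r‖)) := by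
        field_simp
    _ ≤ _ := by gcongr

end Vale.Agent.P139
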