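import Vale.Agent.P139.CLimS
import Vale.Agent.P139.CBC
import Vale.Agent.P139.SpC

open Complex MeasureTheory Filter Topology
open scoped ComplexConjugate ContDiff

namespace Vale.Agent.P139

theorem clim_lip {a : ℕ → ℝ → ℂ} {ρ : ℕ → ℝ} {ρ' K b : ℝ} {A : ℝ → ℂ}
    (hρ : Tendsto ρ atTop (𝓝 ρ')) (hb : ρ' < b)
    (hl : ∀ n, ∀ r ∈ Set.Icc (ρ n) b, ‖a n (ρ n) - a n r‖ ≤ K * |ρ n - r|)
    (ha : ∀ r, ρ' < r → Tendsto (fun n => a n r) atTop (𝓝 (A r))) (hA : ContinuousAt A ρ') :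
    Tendsto (fun n => a n (ρ n)) atTop (𝓝 (A ρ')) := by
  refine Metric.tendsto_nhds.2 fun δ hδ => ?_
  have h1 : ContinuousAt (fun r => K * |ρ' - r| + dist (A r) (A ρ')) ρ' := by fun_prop
  obtain ⟨r, ⟨r1, r2⟩, r3⟩ := (((h1.eventually (gt_mem_nhds (by simpa using hδ))).and
    (gt_mem_nhds hb)).filter_mono (nhdsWithin_le_nhds (s := Set.Ioi ρ'))).and
      self_mem_nhdsWithin |>.exists
  filter_upwards [((((hρ.sub_const r).abs.const_mul K).add
    ((ha r r3).dist tendsto_const_nhds)).eventually (gt_mem_nhds r1)),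
    hρ.eventually (gt_mem_nhds r3)] with n h2 h3
  refine (dist_triangle _ (a n r) _).trans_lt (lt_of_le_of_lt (add_le_add ?_ le_rfl) h2)
  exact dist_eq_norm (a n (ρ n)) _ ▸ hl n r ⟨h3.le, r2.le⟩

theorem clim_zero {X : ℕ → ℂ} {ε : ℕ → ℝ} {C : ℝ} (hε : Tendsto ε atTop (𝓝 0))
    (h : ∀ᶠ n in atTop, ‖X n‖ ^ 2 ≤ C * √(ε n)) : Tendsto X atTop (𝓝 0) :=
  squeeze_zero_norm' (h.mono fun _ hn => Real.le_sqrt_of_sq_le hn)
    (by simpa using (hε.sqrt.const_mul C).sqrt)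

theorem clim_lin (l : ℕ) (t a b c d : ℂ) :
    lin4 l (t * a) (t * b) (t * c) (t * d) = t • lin4 l a b c d := by
  ext i
  fin_cases i <;> simp [lin4] <;> ring

theorem clim_lin0 (l : ℕ) : lin4 l 0 0 0 0 = 0 := by simpa using clim_lin l 0 0 0 0 0

theorem clim_jordan {a b c d a' b' c' d' A B A0 B0 W W' κ : ℂ} (hW : W ≠ 0) (hW' : W' ≠ 0)
    (h0 : A0 ≠ 0 ∨ B0 ≠ 0) (b1 : (A * a - κ * A0 * a') / W + (B * b - κ * B0 * b') / W' = 0)
    (b2 : (A * c - κ * A0 * c') / W - (B * d - κ * B0 * d') / W' = 0)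
    (b3 : A0 * a / W + B0 * b / W' = 0) (b4 : A0 * c / W - B0 * d / W' = 0)
    (hs : c' * b + c * b' + a' * d + a * d' ≠ 0) : κ = 0 ∧ ∃ t, A = t * A0 ∧ B = t * B0 := by
  obtain ⟨k0, t, t1, t2⟩ := jordan2 a b c (-d) a' b' c' (-d') (A / W) (B / W') (A0 / W) (B0 / W') κ
    (h0.imp (div_ne_zero · hW) (div_ne_zero · hW'))
    (by linear_combination b3) (by linear_combination b4) (by linear_combination b1)
    (by linear_combination b2) fun h0 => hs (by linear_combination -h0)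
  rw [← mul_div_assoc, div_left_inj' hW] at t1
  rw [← mul_div_assoc, div_left_inj' hW'] at t2
  exact ⟨k0, t, t1, t2⟩

section
variable {l : ℕ} {ε : ℕ → ℝ} {m : ℕ → ℕ} {om σ : ℕ → ℝ} {w : ℕ → ℝ → ℂ} {z κ : ℕ → ℂ}
  {f g e1 e2 : ℕ → ℝ → ℂ} {om' σ' : ℝ} {z' z0 κ' : ℂ} {d de : EuclideanSpace ℂ (Fin 4)}

theorem Seq.clim_self (h : Seq l ε m om σ w z κ f g e1 e2 om' σ' z' z0 κ' d de) :
    Seq l ε m om σ w (fun _ => z0) (fun _ => 0) e1 e2 e1 e2 om' σ' z0 z0 0 de de :=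
  ⟨h.ctx, h.tε, h.tom, h.tσ, tendsto_const_nhds, tendsto_const_nhds, h.he,
    fun n => (h.he n).sol.congr_src (by simp) (by simp), fun n => (h.he n).re,
    fun n => (h.he n).df, fun n => (h.he n).dg, by simp, h.be, h.be, h.te, h.te⟩

theorem Seq.clim_σ (h : Seq l ε m om σ w z κ f g e1 e2 om' σ' z' z0 κ' d de) :
    2.7 ≤ σ' ∧ σ' ≤ 2.71 :=
  ⟨ge_of_tendsto' h.tσ fun n => (h.ctx n).s0, le_of_tendsto' h.tσ fun n => (h.ctx n).s1⟩

theorem Seq.clim_re (h : Seq l ε m om σ w z κ f g e1 e2 om' σ' z' z0 κ' d de) :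
    (l : ℝ) / 2 ≤ (z' + l / 2 - I * om').re ∧ (l : ℝ) / 2 ≤ (conj z' + l / 2 - I * om').re := by
  simpa using ge_of_tendsto' ((continuous_re.tendsto _).comp h.tz) h.re

theorem clim_sqrt {s : ℝ} (h : s ≤ 2.8) : 2 * √s < 3.4 := by
  have : √s < 1.7 := (Real.sqrt_lt' (by norm_num)).2 (by linarith)
  linarith

theorem Lim.clim_dat {F : ℕ → ℝ → ℂ} {u : ℝ → ℂ} (h : Lim l σ' F u) (hσ : σ' ≤ 2.71) :
    Tendsto (fun n => F n 3.4) atTop (𝓝 (3.4 ^ l * u 2.89)) ∧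
      Tendsto (fun n => deriv (F n) 3.4) atTop
        (𝓝 (l / 3.4 * 3.4 ^ l * u 2.89 + 3.4 ^ (l + 1) / 2 * deriv u 2.89)) := by
  have h0 := h.t0 3.4 (clim_sqrt (by linarith))
  have h1 := h.t1 3.4 (clim_sqrt (by linarith))
  rw [show (3.4 : ℝ) ^ 2 / 4 = 2.89 by norm_num, show ((3.4 : ℝ) : ℂ) = 3.4 by norm_num] at h0 h1
  refine ⟨h0, ?_⟩
  rw [mul_assoc]
  refine ((h0.const_mul ((l : ℂ) / 3.4)).add h1).congr fun n => ?_
  simp only [lad, show ((3.4 : ℝ) : ℂ) = 3.4 by norm_num]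
  simp

theorem Seq.clim_dat (h : Seq l ε m om σ w z κ f g e1 e2 om' σ' z' z0 κ' d de) {u v : ℝ → ℂ}
    (hu : Lim l σ' f u) (hv : Lim l σ' (fun n r => conj (g n r)) v) :
    d = lin4 l (u 2.89) (deriv u 2.89) (conj (v 2.89)) (conj (deriv v 2.89)) := by
  obtain ⟨u0, u1⟩ := hu.clim_dat h.clim_σ.2
  obtain ⟨v0, v1⟩ := hv.clim_dat h.clim_σ.2
  have e : conj (3.4 : ℂ) = 3.4 := by
    rw [← show ((3.4 : ℝ) : ℂ) = 3.4 by norm_num, conj_ofReal]
  have v2 := (continuous_conj.tendsto _).comp v0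
  have v3 := (continuous_conj.tendsto _).comp v1
  have e' : ∀ n, deriv (fun r => conj (g n r)) 3.4 = conj (deriv (g n) 3.4) := fun n => deriv.star
  simp only [Function.comp_def, e', conj_conj, map_mul, map_add, map_div₀, map_pow, e,
    map_natCast, map_ofNat] at v2 v3
  refine tendsto_nhds_unique h.td (((PiLp.continuous_toLp 2 _).tendsto _).comp
    (tendsto_pi_nhds.2 fun i => ?_))
  fin_cases i
  exacts [u0, u1, v2, v3]

theorem Seq.clim_bc (h : Seq l ε m om σ w z κ f g e1 e2 om' σ' z' z0 κ' d de) {u v : ℝ → ℂ}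
    (hu : Lim l σ' f u) (hv : Lim l σ' (fun n r => conj (g n r)) v) {α β A B k k' b : ℂ}
    (hα : (l : ℝ) / 2 ≤ α.re) (hβ : (l : ℝ) / 2 ≤ β.re)
    (eu : ∀ s : ℝ, σ' < s → u s = A * UU α b s - k * pU α b s ∧
      deriv u s = A * dU α b s - k * pdU α b s)
    (ev : ∀ s : ℝ, σ' < s → v s = B * UU β b s - k' * pU β b s ∧
      deriv v s = B * dU β b s - k' * pdU β b s)
    {φ : ℕ → ℕ} (hφ : Tendsto φ atTop atTop) {W : ℂ}
    (hW : Tendsto ((fun n => w n (σ n + ε n)) ∘ φ) atTop (𝓝 W)) (W0 : W ≠ 0) :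
    (A * UU α b σ' - k * pU α b σ') / W + conj (B * UU β b σ' - k' * pU β b σ') / conj W = 0 ∧
      (A * dU α b σ' - k * pdU α b σ') / W -
        conj (B * dU β b σ' - k' * pdU β b σ') / conj W = 0 := by
  obtain ⟨s0, s1⟩ := h.clim_σ
  have s2 : 0 < σ' := by linarith
  have hα' : -1 < α.re := by linarith [Nat.cast_nonneg (α := ℝ) l]
  have hβ' : -1 < β.re := by linarith [Nat.cast_nonneg (α := ℝ) l]
  have e0 : (2 * √σ') ^ 2 / 4 = σ' := by rw [mul_pow, Real.sq_sqrt s2.le]; ring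
  have e1 : ∀ r, 2 * √σ' < r → σ' < r ^ 2 / 4 := fun r hr =>
    e0.symm.trans_lt (by gcongr)
  have e2 : ∀ {U : ℝ → ℂ} {U' : ℂ}, HasDerivAt U U' σ' →
      ContinuousAt (fun r : ℝ => U (r ^ 2 / 4)) (2 * √σ') := fun hU =>
    ContinuousAt.comp_of_eq hU.continuousAt (by fun_prop) e0
  obtain ⟨L, hL⟩ : BddAbove (Set.range fun n => Lb l (z n)) :=
    ((h.tz.norm.const_add 1).add_const _).sqrt.bddAbove_range
  have L1 : ∀ n, Lb l (z n) ≤ max L (Lb l z0) := fun n => (hL ⟨n, rfl⟩).trans (le_max_left _ _)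
  obtain ⟨C, hC, hg⟩ := gron (max L (Lb l z0))
  obtain ⟨ε0, C', hε0, -, hb⟩ := bc_approx (max L (Lb l z0))
  have hd : ∀ {f g : ℝ → ℂ}, ‖D4 f g‖ ≤ 1 → dat f g 3.4 ≤ 1 := fun h =>
    norm_D4 _ _ ▸ pow_le_one₀ (norm_nonneg _) h
  have hl := fun n => hg (h.ctx n) (h.sol n) (L1 n) (C + 1) (by linarith) (fun r hr => by
      have h1 := (hg (h.ctx n) (h.he n).sol (le_max_right _ _) 1 zero_le_one (by simp)
        (by simpa using hd (h.be n)) r hr).1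
      simp only [dat, ee, en, mul_one, one_pow, one_mul] at h1
      simp only [norm_mul]
      constructor <;> refine (mul_le_of_le_one_left (norm_nonneg _) (h.bκ n)).trans
        ((le_of_sq_le_sq (le_trans ?_ h1) hC).trans (le_add_of_nonneg_right zero_le_one))
      · exact le_add_of_le_of_nonneg (le_add_of_nonneg_left (sq_nonneg _)) (by positivity)
      · exact le_add_of_nonneg_of_le (by positivity) (le_add_of_nonneg_left (sq_nonneg _)))
    ((hd (h.bd n)).trans (one_le_pow₀ (by linarith))) (2 * √(σ n + ε n))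
    ⟨le_rfl, by linarith [clim_sqrt (s := σ n + ε n) (by linarith [(h.ctx n).s1, (h.ctx n).e1])]⟩
  have hρ : Tendsto (fun n => 2 * √(σ n + ε n)) atTop (𝓝 (2 * √σ')) := by
    simpa using (h.tσ.add h.tε).sqrt.const_mul 2
  have hρ' : 2 * √σ' < 3.46 := by linarith [clim_sqrt (s := σ') (by linarith)]
  have hc : ContinuousAt (fun r : ℝ => (r : ℂ)) (2 * √σ') := continuous_ofReal.continuousAt
  have t1 := clim_lip hρ hρ' (fun n r hr => ((hl n).2 r hr).1)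
    (fun r hr => ((eu _ (e1 r hr)).1 ▸ hu.t0 r hr :)) ((hc.pow l).mul
      (e2 (((UU_deriv hα' b s2).const_mul A).sub ((pU_deriv hα' b s2).const_mul k))))
  have t2 := clim_lip (a := fun n r => conj (g n r)) hρ hρ' (fun n r hr => by
      rw [← map_sub, norm_conj]
      exact ((hl n).2 r hr).2.1)
    (fun r hr => ((ev _ (e1 r hr)).1 ▸ hv.t0 r hr :)) ((hc.pow l).mul
      (e2 (((UU_deriv hβ' b s2).const_mul B).sub ((pU_deriv hβ' b s2).const_mul k'))))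
  have t3 := clim_lip (a := fun n => lad l 1 (f n)) hρ hρ' (fun n r hr => ((hl n).2 r hr).2.2.1)
    (fun r hr => ((eu _ (e1 r hr)).2 ▸ hu.t1 r hr :)) (((hc.pow (l + 1)).div_const 2).mul
      (e2 (((dU_deriv hα' b s2).const_mul A).sub ((spB_pdU_deriv hα' b s2).const_mul k))))
  have t4 := clim_lip (a := fun n => lad l 1 fun r => conj (g n r)) hρ hρ' (fun n r hr => by
      simp only [lad_conj]
      rw [← map_sub, norm_conj]
      exact ((hl n).2 r hr).2.2.2)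
    (fun r hr => ((ev _ (e1 r hr)).2 ▸ hv.t1 r hr :)) (((hc.pow (l + 1)).div_const 2).mul
      (e2 (((dU_deriv hβ' b s2).const_mul B).sub ((spB_pdU_deriv hβ' b s2).const_mul k'))))
  have hbc := (h.tε.eventually (ge_mem_nhds hε0)).mono fun n hn =>
    hb (h.ctx n) hn (h.he n).sol (h.sol n) (L1 n) (le_max_right _ _) (h.bκ n) (h.bd n) (h.be n)
  have cj := fun {X : ℕ → ℂ} {x : ℂ} (h : Tendsto X atTop (𝓝 x)) =>
    (continuous_conj.tendsto _).comp h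
  have W1 : conj W ≠ 0 := (map_ne_zero _).2 W0
  have f1 := tendsto_nhds_unique (((t1.comp hφ).div hW W0).add
    ((cj (t2.comp hφ)).div (cj hW) W1)) (((clim_zero h.tε (hbc.mono fun _ h => h.1)).comp
      hφ).congr fun n => by simp)
  have f2 := tendsto_nhds_unique (((t3.comp hφ).div hW W0).sub
    ((cj (t4.comp hφ)).div (cj hW) W1)) (((clim_zero h.tε (hbc.mono fun _ h => h.2)).comp
      hφ).congr fun n => by simp [lad_conj])
  have r0 : ((2 * √σ' : ℝ) : ℂ) ≠ 0 := ofReal_ne_zero.2 (by positivity)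
  simp only [e0] at f1 f2
  rw [map_mul, map_pow, conj_ofReal] at f1
  rw [map_mul, map_div₀, map_pow, conj_ofReal, map_ofNat] at f2
  exact ⟨mul_left_cancel₀ (pow_ne_zero l r0) (by linear_combination f1),
    mul_left_cancel₀ (pow_ne_zero (l + 1) r0) (by linear_combination 2 * f2)⟩

theorem Seq.clim_W (h : Seq l ε m om σ w z κ f g e1 e2 om' σ' z' z0 κ' d de) :
    ∃ W : ℂ, W ≠ 0 ∧ ∃ φ : ℕ → ℕ, Tendsto φ atTop atTop ∧
      Tendsto ((fun n => w n (σ n + ε n)) ∘ φ) atTop (𝓝 W) := by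
  have hm : ∀ n, σ n + ε n ∈ Set.Icc (0 : ℝ) 3 := fun n =>
    ⟨by linarith [(h.ctx n).s0, (h.ctx n).e0], by linarith [(h.ctx n).s1, (h.ctx n).e1]⟩
  obtain ⟨W, -, φ, h1, h2⟩ := (isCompact_closedBall (0 : ℂ) 1).tendsto_subseq
    (x := fun n => w n (σ n + ε n)) fun n => mem_closedBall_zero_iff.2 ((h.ctx n).good.hi _ (hm n))
  exact ⟨W, norm_pos_iff.1 (one_half_pos.trans_le
    (ge_of_tendsto' h2.norm fun n => (h.ctx _).good.lo _ (hm _))), φ, h1.tendsto_atTop, h2⟩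

end

/-- the limit problem: with a simple zero the data are proportional and κ = 0 -/
theorem lim_simple {l : ℕ} {ε : ℕ → ℝ} {m : ℕ → ℕ} {om σ : ℕ → ℝ} {w : ℕ → ℝ → ℂ} {z κ : ℕ → ℂ}
    {f g e1 e2 : ℕ → ℝ → ℂ} {om' σ' : ℝ} {z' κ' : ℂ} {d de : EuclideanSpace ℂ (Fin 4)}
    (h : Seq l ε m om σ w z κ f g e1 e2 om' σ' z' z' κ' d de) (hde : de ≠ 0)
    (hs : deriv (DD l om' σ') z' ≠ 0) : κ' = 0 ∧ ∃ t : ℂ, d = t • de := by
  obtain ⟨u, v, ue, ve, hu, hv, hue, hve, ode⟩ := lim_sol h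
  obtain ⟨W, W0, φ, hφ, hW⟩ := h.clim_W
  obtain ⟨a1, a2⟩ := h.clim_re
  obtain ⟨s0, s1⟩ := h.clim_σ
  have s2 : 0 < σ' := by linarith
  have s3 : σ' < 2.89 := by linarith
  obtain ⟨A0, hA0⟩ := slow_unique l _ 0 a1 σ' s2 ue hue.smooth
    (fun s hs => by simpa using (ode s hs).2.2.1) hue.slow
  obtain ⟨B0, hB0⟩ := slow_unique l _ 0 a2 σ' s2 ve hve.smooth
    (fun s hs => by simpa using (ode s hs).2.2.2) hve.slow
  obtain ⟨A, hA⟩ := slow_unique l _ (κ' * A0) a1 σ' s2 u hu.smooth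
    (fun s hs => by rw [(ode s hs).1, (hA0 s hs).1]; ring) hu.slow
  obtain ⟨B, hB⟩ := slow_unique l _ (conj κ' * B0) a2 σ' s2 v hv.smooth
    (fun s hs => by rw [(ode s hs).2.1, (hB0 s hs).1]; ring) hv.slow
  obtain ⟨b1, b2⟩ := h.clim_bc hu hv a1 a2 hA hB hφ hW W0
  obtain ⟨b3, b4⟩ := h.clim_self.clim_bc hue hve a1 a2 hA0 hB0 hφ hW W0
  have d1 := h.clim_dat hu hv
  have d2 := h.clim_self.clim_dat hue hve
  rw [(hA _ s3).2, (hA _ s3).1, (hB _ s3).2, (hB _ s3).1] at d1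
  rw [(hA0 _ s3).2, (hA0 _ s3).1, (hB0 _ s3).2, (hB0 _ s3).1] at d2
  simp only [map_sub, map_mul, conj_conj, zero_mul, sub_zero] at b1 b2 b3 b4 d1 d2
  have W1 : conj W ≠ 0 := (map_ne_zero _).2 W0
  rw [(DD_deriv l om' s2 (by simp at a1; linarith)).deriv] at hs
  obtain ⟨k0, t, t1, t2⟩ := clim_jordan W0 W1 (by
    by_contra h0
    simp only [not_or, not_not] at h0
    exact hde (by simpa [h0.1, h0.2, clim_lin0] using d2)) b1 b2 b3 b4 hs
  refine ⟨k0, t, ?_⟩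
  rw [d1, d2, ← clim_lin, t1, t2, k0]
  simp only [zero_mul, sub_zero, mul_assoc]

/-- the limit problem: away from the zeros of the dispersion function the data vanish -/
theorem lim_nz {l : ℕ} {ε : ℕ → ℝ} {m : ℕ → ℕ} {om σ : ℕ → ℝ} {w : ℕ → ℝ → ℂ} {z κ : ℕ → ℂ}
    {f g e1 e2 : ℕ → ℝ → ℂ} {om' σ' : ℝ} {z' z0 : ℂ} {d de : EuclideanSpace ℂ (Fin 4)}
    (h : Seq l ε m om σ w z κ f g e1 e2 om' σ' z' z0 0 d de) (hs : DD l om' σ' z' ≠ 0) :
    d = 0 := by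
  obtain ⟨u, v, ue, ve, hu, hv, -, -, ode⟩ := lim_sol h
  obtain ⟨W, W0, φ, hφ, hW⟩ := h.clim_W
  obtain ⟨a1, a2⟩ := h.clim_re
  obtain ⟨s0, s1⟩ := h.clim_σ
  have s2 : 0 < σ' := by linarith
  have s3 : σ' < 2.89 := by linarith
  obtain ⟨A, hA⟩ := slow_unique l _ 0 a1 σ' s2 u hu.smooth
    (fun s hs => by simpa using (ode s hs).1) hu.slow
  obtain ⟨B, hB⟩ := slow_unique l _ 0 a2 σ' s2 v hv.smooth
    (fun s hs => by simpa using (ode s hs).2.1) hv.slow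
  obtain ⟨b1, b2⟩ := h.clim_bc hu hv a1 a2 hA hB hφ hW W0
  have d1 := h.clim_dat hu hv
  rw [(hA _ s3).2, (hA _ s3).1, (hB _ s3).2, (hB _ s3).1] at d1
  simp only [map_mul, zero_mul, sub_zero] at b1 b2 d1
  have W1 : conj W ≠ 0 := (map_ne_zero _).2 W0
  have t1 : A / W = 0 := mul_left_cancel₀ hs (by
    rw [DD]
    linear_combination conj (dU (conj z' + l / 2 - I * om') (l + 6) σ') * b1 +
      conj (UU (conj z' + l / 2 - I * om') (l + 6) σ') * b2)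
  have t2 : conj B / conj W = 0 := mul_left_cancel₀ hs (by
    rw [DD]
    linear_combination dU (z' + l / 2 - I * om') (l + 6) σ' * b1 -
      UU (z' + l / 2 - I * om') (l + 6) σ' * b2)
  simp only [div_eq_zero_iff, W0, W1, or_false] at t1 t2
  simpa [t1, t2, clim_lin0] using d1

end Vale.Agent.P139
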