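import Vale.Agent.P139.Defs

open Complex MeasureTheory Filter Topology
open scoped ComplexConjugate ContDiff

namespace Vale.Agent.P139

theorem climo_fwd {F : Type} [NormedAddCommGroup F] [NormedSpace ℝ F] {f f' : ℝ → F}
    {a b δ K ε L : ℝ} (hK : 0 < K) (hε : 0 ≤ ε) (hL : b - a ≤ L)
    (hf : ∀ t ∈ Set.Icc a b, HasDerivAt f (f' t) t)
    (hb : ∀ t ∈ Set.Icc a b, ‖f' t‖ ≤ K * ‖f t‖ + ε) (h0 : ‖f a‖ ≤ δ) :
    ∀ t ∈ Set.Icc a b, ‖f t‖ ≤ (δ + ε / K) * Real.exp (K * L) := by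
  intro t ht
  have h1 := norm_le_gronwallBound_of_norm_deriv_right_le
    (fun x hx => (hf x hx).continuousAt.continuousWithinAt)
    (fun x hx => (hf x (Set.Ico_subset_Icc_self hx)).hasDerivWithinAt) h0
    (fun x hx => hb x (Set.Ico_subset_Icc_self hx)) t ht
  rw [gronwallBound_of_K_ne_0 hK.ne'] at h1
  have h2 : Real.exp (K * (t - a)) ≤ Real.exp (K * L) :=
    Real.exp_le_exp.mpr (mul_le_mul_of_nonneg_left (by linarith [ht.2]) hK.le)
  have h3 : 0 ≤ ε / K := div_nonneg hε hK.le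
  have h4 := mul_le_mul_of_nonneg_left h2 (add_nonneg ((norm_nonneg _).trans h0) h3)
  simp only at h1
  linarith

theorem climo_gron {F : Type} [NormedAddCommGroup F] [NormedSpace ℝ F] {f f' : ℝ → F}
    {a b t0 δ K ε : ℝ} (hK : 0 < K) (hε : 0 ≤ ε) (ht0 : t0 ∈ Set.Icc a b)
    (hf : ∀ t ∈ Set.Icc a b, HasDerivAt f (f' t) t)
    (hb : ∀ t ∈ Set.Icc a b, ‖f' t‖ ≤ K * ‖f t‖ + ε) (h0 : ‖f t0‖ ≤ δ) :
    ∀ t ∈ Set.Icc a b, ‖f t‖ ≤ (δ + ε / K) * Real.exp (K * (b - a)) := by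
  intro t ht
  rcases le_total t0 t with h | h
  · exact climo_fwd hK hε (a := t0) (b := b) (by linarith [ht0.1])
      (fun x hx => hf x ⟨ht0.1.trans hx.1, hx.2⟩) (fun x hx => hb x ⟨ht0.1.trans hx.1, hx.2⟩) h0 t
      ⟨h, ht.2⟩
  · have h1 : ∀ x ∈ Set.Icc (-t0) (-a), -x ∈ Set.Icc a b := fun x hx =>
      ⟨by linarith [hx.2], by linarith [hx.1, ht0.2]⟩
    have h2 := climo_fwd (f := fun x => f (-x)) (f' := fun x => -f' (-x)) hK hε (a := -t0)
      (b := -a) (L := b - a) (δ := δ) (by linarith [ht0.2])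
      (fun x hx => ((hf _ (h1 x hx)).scomp x (hasDerivAt_neg x)).congr_deriv (neg_one_smul ℝ _))
      (fun x hx => by simpa using hb _ (h1 x hx)) (by simpa using h0) (-t)
      ⟨by linarith, by linarith [ht.1]⟩
    simpa using h2

theorem climo_key {F : Type} [NormedAddCommGroup F] [NormedSpace ℝ F] {a b t0 : ℝ}
    (ht0 : t0 ∈ Set.Icc a b) {M : ℕ → ℝ → F →L[ℝ] F} {M' : ℝ → F →L[ℝ] F} {Y : ℕ → ℝ → F} {y0 : F}
    (hM' : ContinuousOn M' (Set.Icc a b)) (hM : TendstoUniformlyOn M M' atTop (Set.Icc a b))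
    (hY : ∀ n, ∀ t ∈ Set.Icc a b, HasDerivAt (Y n) (M n t (Y n t)) t)
    (h0 : Tendsto (fun n => Y n t0) atTop (𝓝 y0)) :
    ∃ K B : ℝ, 0 < K ∧ 0 < B ∧ (∀ t ∈ Set.Icc a b, ‖M' t‖ ≤ K) ∧
      (∀ᶠ n in atTop, ∀ t ∈ Set.Icc a b, ‖Y n t‖ ≤ B) ∧
      UniformCauchySeqOn Y atTop (Set.Icc a b) := by
  obtain ⟨K0, hK0⟩ := isCompact_Icc.exists_bound_of_continuousOn hM'
  have hK : 0 < K0 + 1 := by linarith [(norm_nonneg _).trans (hK0 t0 ht0)]
  obtain ⟨E, hE⟩ : ∃ E, E = Real.exp ((K0 + 1) * (b - a)) := ⟨_, rfl⟩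
  have hE0 : 0 < E := hE ▸ Real.exp_pos _
  have h1 : ∀ η : ℝ, 0 < η → ∀ᶠ n in atTop, ∀ t ∈ Set.Icc a b, ‖M n t - M' t‖ ≤ η := fun η hη =>
    (Metric.tendstoUniformlyOn_iff.mp hM η hη).mono fun n hn t ht => by
      rw [← dist_eq_norm, dist_comm]
      exact (hn t ht).le
  have h2 : ∀ᶠ n in atTop, ∀ t ∈ Set.Icc a b, ‖M n t‖ ≤ K0 + 1 :=
    (h1 1 one_pos).mono fun n hn t ht => by
      have h3 := norm_le_norm_add_norm_sub' (M n t) (M' t)
      linarith [hn t ht, hK0 t ht]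
  have h3 : ∀ η : ℝ, 0 < η → ∀ᶠ n in atTop, ‖Y n t0 - y0‖ ≤ η := fun η hη =>
    (Metric.tendsto_nhds.mp h0 η hη).mono fun n hn => by
      rw [← dist_eq_norm]
      exact hn.le
  obtain ⟨B, hB⟩ : ∃ B, B = (‖y0‖ + 1) * E := ⟨_, rfl⟩
  have hB0 : 0 < B := by
    rw [hB]
    positivity
  have h4 : ∀ᶠ n in atTop, ∀ t ∈ Set.Icc a b, ‖Y n t‖ ≤ B := by
    filter_upwards [h2, h3 1 one_pos] with n h5 h6 t ht
    have h7 := climo_gron (δ := ‖y0‖ + 1) hK le_rfl ht0 (hY n)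
      (fun x hx => by simpa using (M n x).le_of_opNorm_le (h5 x hx) (Y n x))
      (by linarith [norm_le_norm_add_norm_sub' (Y n t0) y0]) t ht
    rwa [zero_div, add_zero, ← hE, ← hB] at h7
  refine ⟨K0 + 1, B, hK, hB0, fun t ht => by linarith [hK0 t ht], h4, ?_⟩
  refine Metric.uniformCauchySeqOn_iff.mpr fun ε hε => ?_
  obtain ⟨η, hη, hηε⟩ : ∃ η : ℝ, 0 < η ∧ (2 * η + 2 * η * B / (K0 + 1)) * E < ε := by
    have h5 : 0 < (2 + 2 * B / (K0 + 1)) * E := by positivity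
    refine ⟨ε / (2 * ((2 + 2 * B / (K0 + 1)) * E)), by positivity, ?_⟩
    refine lt_of_eq_of_lt (b := ε / 2) ?_ (half_lt_self hε)
    field_simp
  obtain ⟨N, hN⟩ := eventually_atTop.mp (h2.and (h4.and ((h1 η hη).and (h3 η hη))))
  refine ⟨N, fun n hn m hm t ht => ?_⟩
  obtain ⟨a1, -, a3, a4⟩ := hN n hn
  obtain ⟨-, b2, b3, b4⟩ := hN m hm
  rw [dist_eq_norm]
  refine lt_of_le_of_lt ?_ (hE ▸ hηε)
  refine climo_gron (f := fun x => Y n x - Y m x) hK (by positivity) ht0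
    (fun x hx => (hY n x hx).fun_sub (hY m x hx)) (fun x hx => ?_) ?_ t ht
  · have e : M n x (Y n x) - M m x (Y m x) =
        M n x (Y n x - Y m x) + ((M n x - M' x) (Y m x) - (M m x - M' x) (Y m x)) := by
      simp only [map_sub, sub_apply]
      abel
    rw [e]
    refine (norm_add_le _ _).trans (add_le_add ((M n x).le_of_opNorm_le (a1 x hx) _) ?_)
    have c1 := (M n x - M' x).le_of_opNorm_le_of_le (a3 x hx) (b2 x hx)
    have c2 := (M m x - M' x).le_of_opNorm_le_of_le (b3 x hx) (b2 x hx)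
    linarith [norm_sub_le ((M n x - M' x) (Y m x)) ((M m x - M' x) (Y m x))]
  · have c1 := norm_sub_le_norm_sub_add_norm_sub (Y n t0) y0 (Y m t0)
    rw [norm_sub_rev y0] at c1
    linarith

/-- limits of solutions of linear systems -/
theorem ode_limit {F : Type} [NormedAddCommGroup F] [NormedSpace ℝ F] [CompleteSpace F]
    (R t0 : ℝ) (ht : R < t0) (M : ℕ → ℝ → F →L[ℝ] F) (M' : ℝ → F →L[ℝ] F) (Y : ℕ → ℝ → F) (y0 : F)
    (hM' : ContinuousOn M' (Set.Ioi R))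
    (hM : ∀ a b, R < a → TendstoUniformlyOn M M' atTop (Set.Icc a b))
    (hY : ∀ n t, R < t → HasDerivAt (Y n) (M n t (Y n t)) t)
    (h0 : Tendsto (fun n => Y n t0) atTop (𝓝 y0)) :
    ∃ Y' : ℝ → F, (∀ t, R < t → HasDerivAt Y' (M' t (Y' t)) t) ∧
      ∀ t, R < t → Tendsto (fun n => Y n t) atTop (𝓝 (Y' t)) := by
  have key : ∀ a b : ℝ, R < a → t0 ∈ Set.Icc a b → _ := fun a b ha hab =>
    climo_key hab (hM'.mono fun x hx => ha.trans_le hx.1) (hM a b ha)
      (fun n x hx => hY n x (ha.trans_le hx.1)) h0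
  have box : ∀ t, R < t → ∃ a b : ℝ, R < a ∧ t0 ∈ Set.Icc a b ∧ t ∈ Set.Ioo a b := fun t h => by
    obtain ⟨a, h1, h2⟩ := exists_between (lt_min h ht)
    exact ⟨a, max t t0 + 1, h1, ⟨(lt_min_iff.mp h2).2.le, by linarith [le_max_right t t0]⟩,
      (lt_min_iff.mp h2).1, by linarith [le_max_left t t0]⟩
  have lim : ∀ t, R < t → Tendsto (fun n => Y n t) atTop (𝓝 (limUnder atTop fun n => Y n t)) := by
    intro t h
    obtain ⟨a, b, h1, h2, h3⟩ := box t h
    obtain ⟨K, B, -, -, -, -, h4⟩ := key a b h1 h2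
    exact (h4.cauchySeq (Set.Ioo_subset_Icc_self h3)).tendsto_limUnder
  refine ⟨fun t => limUnder atTop fun n => Y n t, fun t h => ?_, lim⟩
  obtain ⟨a, b, h1, h2, h3⟩ := box t h
  obtain ⟨K, B, hK, hB, h4, h5, h6⟩ := key a b h1 h2
  have h7 := h6.tendstoUniformlyOn_of_tendsto fun x hx => lim x (h1.trans_le hx.1)
  refine hasDerivAt_of_tendstoUniformlyOn (l := atTop) (f := Y) (f' := fun n x => M n x (Y n x))
    (g' := fun x => M' x (limUnder atTop fun n => Y n x)) isOpen_Ioo ?_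
    (Eventually.of_forall fun n x hx => hY n x (h1.trans hx.1))
    (fun x hx => lim x (h1.trans hx.1)) h3
  refine Metric.tendstoUniformlyOn_iff.mpr fun ε hε => ?_
  filter_upwards [h5, Metric.tendstoUniformlyOn_iff.mp h7 (ε / (3 * K)) (by positivity),
    Metric.tendstoUniformlyOn_iff.mp (hM a b h1) (ε / (3 * B)) (by positivity)] with n c1 c2 c3 x hx
  have hx' := Set.Ioo_subset_Icc_self hx
  have e : M' x (limUnder atTop fun n => Y n x) - M n x (Y n x) =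
      M' x ((limUnder atTop fun n => Y n x) - Y n x) + (M' x - M n x) (Y n x) := by
    simp only [map_sub, sub_apply]
    abel
  have d1 := c2 x hx'
  have d2 := c3 x hx'
  rw [dist_eq_norm] at d1 d2 ⊢
  have d3 := (M' x).le_of_opNorm_le_of_le (h4 x hx') d1.le
  have d4 := (M' x - M n x).le_of_opNorm_le_of_le d2.le (c1 x hx')
  have d5 : K * (ε / (3 * K)) = ε / 3 := by field_simp
  have d6 : ε / (3 * B) * B = ε / 3 := by field_simp
  rw [e]
  refine (norm_add_le _ _).trans_lt ?_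
  linarith

/-- Jordan chains of a 2 x 2 matrix with a simple zero of the determinant -/
theorem jordan2 (a b c d a' b' c' d' x y x0 y0 κ : ℂ) (h0 : x0 ≠ 0 ∨ y0 ≠ 0)
    (e1 : a * x0 + b * y0 = 0) (e2 : c * x0 + d * y0 = 0)
    (f1 : a * x + b * y = κ * (a' * x0 + b' * y0)) (f2 : c * x + d * y = κ * (c' * x0 + d' * y0))
    (hs : a' * d + a * d' - b' * c - b * c' ≠ 0) : κ = 0 ∧ ∃ t : ℂ, x = t * x0 ∧ y = t * y0 := by
  have hdet : a * d - b * c = 0 := by
    rcases h0 with h | h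
    · exact (mul_eq_zero.mp (show (a * d - b * c) * x0 = 0 by
        linear_combination d * e1 - b * e2)).resolve_right h
    · exact (mul_eq_zero.mp (show (a * d - b * c) * y0 = 0 by
        linear_combination a * e2 - c * e1)).resolve_right h
  have hκ : κ = 0 := by
    refine (mul_eq_zero.mp (show κ * (a' * d + a * d' - b' * c - b * c') = 0 from ?_)).resolve_right hs
    rcases h0 with h | h
    · refine (mul_eq_zero.mp (show κ * (a' * d + a * d' - b' * c - b * c') * x0 = 0 from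
        ?_)).resolve_right h
      linear_combination b * f2 - d * f1 + x * hdet + κ * d' * e1 - κ * b' * e2
    · refine (mul_eq_zero.mp (show κ * (a' * d + a * d' - b' * c - b * c') * y0 = 0 from
        ?_)).resolve_right h
      linear_combination c * f1 - a * f2 + y * hdet + κ * a' * e2 - κ * c' * e1
  subst hκ
  have hw : x * y0 - y * x0 = 0 := by
    refine (mul_eq_zero.mp (show (a' * d + a * d' - b' * c - b * c') * (x * y0 - y * x0) = 0 from
      ?_)).resolve_left hs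
    linear_combination a' * (x * e2 - x0 * f2) + d' * (y0 * f1 - y * e1) - b' * (y0 * f2 - y * e2)
      - c' * (x * e1 - x0 * f1)
  refine ⟨rfl, ?_⟩
  rcases h0 with h | h
  · refine ⟨x / x0, (div_mul_cancel₀ x h).symm, ?_⟩
    field_simp
    linear_combination -hw
  · refine ⟨y / y0, ?_, (div_mul_cancel₀ y h).symm⟩
    field_simp
    linear_combination hw

end Vale.Agent.P139
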