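import Vale.Agent.P139.CT
import Vale.Agent.P139.CHardy

open Complex MeasureTheory Filter Topology
open scoped ComplexConjugate ContDiff

namespace Vale.Agent.P139

noncomputable def lioV (l : ℕ) (f : ℝ → ℂ) (t : ℝ) : ℂ :=
  ((t ^ (11 / 2 : ℝ) : ℝ) : ℂ) * Complex.exp (I * ((t ^ 2 / 8 : ℝ) : ℂ)) * lad l 8 f t

noncomputable def lioV1 (l : ℕ) (f : ℝ → ℂ) (t : ℝ) : ℂ :=
  ((t ^ (11 / 2 : ℝ) : ℝ) : ℂ) * Complex.exp (I * ((t ^ 2 / 8 : ℝ) : ℂ)) *
    (deriv (lad l 8 f) t + (11 / (2 * t) + I * t / 4) * lad l 8 f t)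

noncomputable def lioS (m : ℕ) (w : ℝ → ℂ) (l : ℕ) (f g p : ℝ → ℂ) (t : ℝ) : ℂ :=
  ((t ^ (11 / 2 : ℝ) : ℝ) : ℂ) * Complex.exp (I * ((t ^ 2 / 8 : ℝ) : ℂ)) *
    (Rk m w l 8 f g t + I * lad l 8 p t)

/-- the Liouville factor -/
noncomputable def CLioA (t : ℝ) : ℂ :=
  ((t ^ (11 / 2 : ℝ) : ℝ) : ℂ) * Complex.exp (I * ((t ^ 2 / 8 : ℝ) : ℂ))

theorem CLio_norm {t : ℝ} (ht : 0 < t) (x : ℂ) : ‖CLioA t * x‖ = t ^ (11 / 2 : ℝ) * ‖x‖ := by
  rw [CLioA, norm_mul, norm_mul, Complex.norm_real, mul_comm I, Complex.norm_exp_ofReal_mul_I,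
    mul_one, Real.norm_of_nonneg (Real.rpow_nonneg ht.le _)]

theorem CLio_sq {t : ℝ} (ht : 0 < t) (x : ℂ) : ‖CLioA t * x‖ ^ 2 = t ^ 11 * ‖x‖ ^ 2 := by
  rw [CLio_norm ht, mul_pow, ← Real.rpow_two, ← Real.rpow_mul ht.le, ← Real.rpow_natCast t 11]
  norm_num

theorem CLio_dA {t : ℝ} (ht : 0 < t) :
    HasDerivAt CLioA (CLioA t * (11 / (2 * t) + I * t / 4)) t := by
  have h1 := (Real.hasDerivAt_rpow_const (p := 11 / 2) (Or.inl ht.ne')).ofReal_comp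
  have h2 := ((((hasDerivAt_pow 2 t).div_const 8).ofReal_comp).const_mul I).cexp
  refine (h1.fun_mul h2).congr_deriv ?_
  rw [Real.rpow_sub_one ht.ne', CLioA]
  push_cast
  ring

theorem CLio_d (l : ℕ) {f : ℝ → ℂ} (hf : ContDiff ℝ 16 f) {t : ℝ} (ht : 0 < t) :
    HasDerivAt (lad l 8 f) (deriv (lad l 8 f) t) t ∧
      HasDerivAt (deriv (lad l 8 f)) (deriv (deriv (lad l 8 f)) t) t := by
  have h := lad_smooth l hf 8 (by norm_num)
  exact ⟨((h.differentiableOn two_ne_zero).differentiableAt (Ioi_mem_nhds ht)).hasDerivAt,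
    (((h.deriv_of_isOpen (m := 1) isOpen_Ioi (by norm_num)).differentiableOn
      one_ne_zero).differentiableAt (Ioi_mem_nhds ht)).hasDerivAt⟩

theorem CLio_dec {l : ℕ} {f : ℝ → ℂ} (hd : Dec l f) : ∃ C : ℝ, 0 ≤ C ∧ ∀ k ≤ 10, ∀ t : ℝ,
    1 ≤ t → t ^ (11 / 2 : ℝ) * ‖lad l k f t‖ ≤ C * t ^ 6 / t ^ k := by
  obtain ⟨C, hC⟩ := hd
  refine ⟨|C|, abs_nonneg C, fun k hk t ht => ?_⟩
  have t0 : 0 < t := one_pos.trans_le ht
  have e : t ^ 6 / t ^ k = t ^ (11 / 2 : ℝ) * t ^ (1 / 2 - (k : ℝ)) := by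
    rw [← Real.rpow_add t0, ← Real.rpow_natCast, ← Real.rpow_natCast, ← Real.rpow_sub t0]
    exact congrArg _ (by push_cast; ring)
  rw [mul_div_assoc, e, mul_left_comm]
  exact mul_le_mul_of_nonneg_left ((hC k hk t ht).trans (mul_le_mul_of_nonneg_right
    (le_abs_self C) (Real.rpow_nonneg t0.le _))) (Real.rpow_nonneg t0.le _)

theorem CLio_decV {l : ℕ} {f : ℝ → ℂ} (hf : ContDiff ℝ 16 f) (hd : Dec l f) :
    ∃ C : ℝ, 0 ≤ C ∧ ∀ t : ℝ, 1 ≤ t → ‖lioV l f t‖ ≤ C / t ^ 2 ∧ ‖lioV1 l f t‖ ≤ C / t := by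
  obtain ⟨C, C0, hC⟩ := CLio_dec hd
  refine ⟨C * (l + 16), by positivity, fun t ht => ?_⟩
  have t0 : 0 < t := one_pos.trans_le ht
  have l0 : (0 : ℝ) ≤ l := Nat.cast_nonneg l
  have h8 : t ^ (11 / 2 : ℝ) * ‖lad l 8 f t‖ ≤ C / t ^ 2 :=
    (hC 8 (by norm_num) t ht).trans_eq (by field_simp)
  have h9 : t ^ (11 / 2 : ℝ) * ‖lad l 9 f t‖ ≤ C / t :=
    (hC 9 (by norm_num) t ht).trans (by
      rw [show C * t ^ 6 / t ^ 9 = C / t ^ 3 by field_simp]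
      exact div_le_div_of_nonneg_left C0 t0 (le_self_pow₀ ht (by norm_num)))
  refine ⟨((CLio_norm t0 _).trans_le h8).trans
    (div_le_div_of_nonneg_right (by nlinarith) (by positivity)), ?_⟩
  have hb : ‖((l : ℂ) + (8 : ℕ)) / t + (11 / (2 * t) + I * t / 4)‖ ≤ (l + 15) * t := by
    have e : ((l : ℂ) + (8 : ℕ)) / t + (11 / (2 * t) + I * t / 4)
        = (((l + 27 / 2) / t : ℝ) : ℂ) + I * ((t / 4 : ℝ) : ℂ) := by
      push_cast
      ring
    have h1 : (l + 27 / 2) / t ≤ (l + 27 / 2) * t :=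
      (div_le_self (by positivity) ht).trans (le_mul_of_one_le_right (by positivity) ht)
    rw [e]
    refine (norm_add_le _ _).trans ?_
    rw [norm_mul, norm_I, Complex.norm_real, Complex.norm_real,
      Real.norm_of_nonneg (by positivity), Real.norm_of_nonneg (by positivity)]
    linarith
  have h1 : ‖deriv (lad l 8 f) t + (11 / (2 * t) + I * t / 4) * lad l 8 f t‖
      ≤ ‖lad l 9 f t‖ + (l + 15) * t * ‖lad l 8 f t‖ := by
    rw [(lad_deriv l hf 8 (by norm_num) t0).deriv, add_assoc, ← add_mul]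
    refine (norm_add_le _ _).trans (add_le_add le_rfl ?_)
    rw [norm_mul]
    exact mul_le_mul_of_nonneg_right hb (norm_nonneg _)
  have h2 := mul_le_mul_of_nonneg_left h8 (by positivity : 0 ≤ (l + 15 : ℝ) * t)
  have e : C * (l + 16) / t = C / t + (l + 15) * t * (C / t ^ 2) := by
    field_simp
    ring
  refine ((CLio_norm t0 _).trans_le
    (mul_le_mul_of_nonneg_left h1 (Real.rpow_nonneg t0.le _))).trans ?_
  rw [e]
  linarith

theorem CLio_ext {ε : ℝ} {m : ℕ} {om σ : ℝ} {w : ℝ → ℂ} (hc : Ctx ε m om σ w) {t : ℝ}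
    (ht : 3.3 ≤ t) : σ + ε ≤ t ^ 2 / 4 := by
  nlinarith [hc.e1, hc.s1]

theorem CLio_decS {ε : ℝ} {m : ℕ} {om σ : ℝ} {w : ℝ → ℂ} (hc : Ctx ε m om σ w) {l : ℕ}
    {f g p : ℝ → ℂ} (df : Dec l f) (dg : Dec l g) (dp : Dec l p) :
    ∃ C : ℝ, 0 ≤ C ∧ ∀ t : ℝ, 3.3 ≤ t → ‖lioS m w l f g p t‖ ≤ C / t ^ 2 := by
  obtain ⟨A, A0, hA⟩ := CLio_dec df
  obtain ⟨B, B0, hB⟩ := CLio_dec dg
  obtain ⟨P, P0, hP⟩ := CLio_dec dp
  obtain ⟨C, C0, hC⟩ := Rk_bound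
  have e0 := hc.e0
  refine ⟨C * ε * (9 * (A + B)) + P, by positivity, fun t ht => ?_⟩
  have t1 : 1 ≤ t := by linarith
  have t0 : 0 < t := one_pos.trans_le t1
  have w0 := Real.rpow_nonneg t0.le (11 / 2)
  have h8 : t ^ (11 / 2 : ℝ) * ‖lad l 8 p t‖ ≤ P / t ^ 2 :=
    (hP 8 (by norm_num) t t1).trans_eq (by field_simp)
  have h1 : t ^ (11 / 2 : ℝ) * ∑ i ∈ Finset.range (8 + 1),
      (t ^ (2 + i))⁻¹ * (‖lad l (8 - i) f t‖ + ‖lad l (8 - i) g t‖) ≤ 9 * ((A + B) / t ^ 2) := by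
    rw [Finset.mul_sum]
    refine (Finset.sum_le_card_nsmul _ _ ((A + B) / t ^ 2) fun i hi => ?_).trans_eq (by simp)
    have hi := Finset.mem_range.1 hi
    have e : (t ^ (2 + i))⁻¹ * (A * t ^ 6 / t ^ (8 - i) + B * t ^ 6 / t ^ (8 - i))
        = (A + B) / t ^ 4 := by
      have e1 : t ^ (2 + i) * t ^ (8 - i) = t ^ 4 * t ^ 6 := by
        rw [← pow_add, ← pow_add]
        exact congrArg _ (by omega)
      rw [← add_div, ← add_mul, inv_mul_eq_div, div_div, mul_comm (t ^ (8 - i)), e1,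
        mul_div_mul_right _ _ (by positivity)]
    rw [mul_left_comm, mul_add]
    refine (mul_le_mul_of_nonneg_left (add_le_add (hA _ (by omega) t t1) (hB _ (by omega) t t1))
      (by positivity)).trans (e.trans_le ?_)
    exact div_le_div_of_nonneg_left (by positivity) (by positivity)
      (pow_le_pow_right₀ t1 (by norm_num))
  have h2 := mul_le_mul_of_nonneg_left (hC hc l 8 f g t le_rfl t0 (CLio_ext hc ht)) w0
  have h3 := mul_le_mul_of_nonneg_left h1 (by positivity : 0 ≤ C * ε)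
  refine ((CLio_norm t0 _).trans_le (mul_le_mul_of_nonneg_left (norm_add_le _ _) w0)).trans ?_
  rw [norm_mul, norm_I, one_mul, add_div, mul_div_assoc, mul_div_assoc]
  linarith

theorem lio_of_sol {ε : ℝ} {m : ℕ} {om σ : ℝ} {w : ℝ → ℂ} (hc : Ctx ε m om σ w) {l : ℕ} {z : ℂ}
    {f g p q : ℝ → ℂ} (h : RSol m om w l z f g p q) (hz : 0 ≤ z.re) (hp : ContDiff ℝ 16 p)
    (df : Dec l f) (dg : Dec l g) (dp : Dec l p) {r : ℝ} (hr : 3.3 ≤ r) :
    Lio (((l : ℝ) + 13) ^ 2 - 1 / 4) (om - z.im) (z.re + 1 + aa m) r (lioV l f) (lioV1 l f)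
      (lioS m w l f g p) := by
  have hf := h.1.1
  have hg := h.2.1.1
  have l0 : (0 : ℝ) ≤ l := Nat.cast_nonneg l
  have pos : ∀ t, r ≤ t → 0 < t := fun t ht => by linarith
  refine ⟨by nlinarith, by linarith [hc.prof.aa_pos], by linarith, fun t ht => ?_,
    fun t ht => ?_, ?_, ?_⟩
  · refine ((CLio_dA (pos t ht)).fun_mul (CLio_d l hf (pos t ht)).1).congr_deriv ?_
    rw [lioV1, ← CLioA]
    ring
  · have t0 := pos t ht
    have tc : (t : ℂ) ≠ 0 := ofReal_ne_zero.2 t0.ne'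
    have o := (hasDerivAt_id' t).ofReal_comp
    have hβ := ((hasDerivAt_const t (11 : ℂ)).fun_div (o.const_mul 2)
      (mul_ne_zero two_ne_zero tc)).fun_add ((o.const_mul I).div_const 4)
    obtain ⟨d1, d2⟩ := CLio_d l hf t0
    refine ((CLio_dA t0).fun_mul (d2.fun_add (hβ.fun_mul d1))).congr_deriv ?_
    rw [lioS, lioV, ← CLioA, ← lad_ode2 hc.prof h hp 8 (by norm_num) t0]
    have e := re_add_im z
    push_cast
    linear_combination CLioA t * lad l 8 f t * ((t ^ 2 / 16 - z.im + om) * I_sq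
      + 11 * I / 4 * mul_inv_cancel₀ tc + I * e)
  · have sub : Set.Ici r ⊆ Set.Ioi 0 := fun t ht => pos t ht
    exact ContinuousOn.mul (f := CLioA)
      (fun t ht => (CLio_dA (pos t ht)).continuousAt.continuousWithinAt)
      (((Rk_cont hc.prof l 8 (by norm_num) hf hg).mono sub).add
        (continuousOn_const.mul ((lad_smooth l hp 8 (by norm_num)).continuousOn.mono sub)))
  · obtain ⟨A, A0, hA⟩ := CLio_decV hf df
    obtain ⟨B, B0, hB⟩ := CLio_decS hc df dg dp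
    refine ⟨A + B, fun t ht => ?_⟩
    have t0 := pos t ht
    obtain ⟨h1, h2⟩ := hA t (by linarith)
    exact ⟨h1.trans (div_le_div_of_nonneg_right (by linarith) (by positivity)),
      h2.trans (div_le_div_of_nonneg_right (by linarith) t0.le),
      (hB t (hr.trans ht)).trans (div_le_div_of_nonneg_right (by linarith) (by positivity))⟩

theorem lioV_sq (l : ℕ) (f : ℝ → ℂ) {t : ℝ} (ht : 0 < t) :
    ‖lioV l f t‖ ^ 2 = t ^ 11 * ‖lad l 8 f t‖ ^ 2 := CLio_sq ht _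

theorem lio_J (l : ℕ) (f : ℝ → ℂ) {t : ℝ} (ht : 0 < t) :
    (conj (lioV l f t) * lioV1 l f t).im
      = t ^ 11 * (Jf (lad l 8 f) t + t / 4 * ‖lad l 8 f t‖ ^ 2) := by
  have h1 := CLio_sq ht 1
  rw [mul_one, norm_one, one_pow, mul_one] at h1
  have h2 : conj (CLioA t) * CLioA t = ((t ^ 11 : ℝ) : ℂ) := by
    rw [conj_mul', ← h1, ofReal_pow]
  have h3 := conj_mul' (lad l 8 f t)
  have e : conj (lioV l f t) * lioV1 l f t = ((t ^ 11 : ℝ) : ℂ) *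
      (conj (lad l 8 f t) * deriv (lad l 8 f) t + ((11 / (2 * t) * ‖lad l 8 f t‖ ^ 2 : ℝ) : ℂ)
        + ((t / 4 * ‖lad l 8 f t‖ ^ 2 : ℝ) : ℂ) * I) := by
    rw [lioV, lioV1, ← CLioA, map_mul, ← h2]
    push_cast
    rw [← h3]
    ring
  rw [e, im_ofReal_mul, add_im, add_im, ofReal_im, im_ofReal_mul, I_im, add_zero, mul_one, Jf]

theorem CLio_pt {t C a b : ℝ} (ht : 1 ≤ t) {R p : ℂ} {x y : ℕ → ℝ} (ha : a ^ 2 = t ^ 11 * b ^ 2)
    (hR : ‖R‖ ≤ C * ∑ i ∈ Finset.range 9, (t ^ (2 + i))⁻¹ * (x i + y i)) :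
    a * ‖CLioA t * (R + I * p)‖ ≤ 1 / 2 * (t ^ 11 * b ^ 2) + t ^ 11 * ‖p‖ ^ 2 +
      18 * C ^ 2 * ∑ i ∈ Finset.range 9, (t ^ (21 / 2 - 2 * (i : ℝ)) * x i ^ 2
        + t ^ (21 / 2 - 2 * (i : ℝ)) * y i ^ 2) := by
  have t0 : 0 < t := one_pos.trans_le ht
  have h1 : ‖R + I * p‖ ^ 2 ≤ 2 * ‖R‖ ^ 2 + 2 * ‖p‖ ^ 2 := by
    have h := pow_le_pow_left₀ (norm_nonneg _) (norm_add_le R (I * p)) 2
    rw [norm_mul, norm_I, one_mul] at h
    nlinarith [sq_nonneg (‖R‖ - ‖p‖)]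
  have h2 : t ^ 11 * ∑ i ∈ Finset.range 9, ((t ^ (2 + i))⁻¹ * (x i + y i)) ^ 2 ≤
      2 * ∑ i ∈ Finset.range 9, (t ^ (21 / 2 - 2 * (i : ℝ)) * x i ^ 2
        + t ^ (21 / 2 - 2 * (i : ℝ)) * y i ^ 2) := by
    rw [Finset.mul_sum, Finset.mul_sum]
    refine Finset.sum_le_sum fun i _ => ?_
    have e : t ^ 11 * (t ^ (2 + i))⁻¹ ^ 2 = t ^ (((7 : ℕ) : ℝ) - ((2 * i : ℕ) : ℝ)) := by
      rw [Real.rpow_sub t0, Real.rpow_natCast, Real.rpow_natCast]
      field_simp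
      ring
    have h3 : t ^ 11 * (t ^ (2 + i))⁻¹ ^ 2 ≤ t ^ (21 / 2 - 2 * (i : ℝ)) :=
      e.trans_le (Real.rpow_le_rpow_of_exponent_le ht (by push_cast; linarith))
    have h4 := mul_le_mul h3 (by nlinarith [sq_nonneg (x i - y i)] :
      (x i + y i) ^ 2 ≤ 2 * (x i ^ 2 + y i ^ 2)) (sq_nonneg _) (Real.rpow_nonneg t0.le _)
    rw [mul_pow]
    linarith
  have h3 := pow_le_pow_left₀ (norm_nonneg _) hR 2
  have h4 := sq_sum_le_card_mul_sum_sq (s := Finset.range 9)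
    (f := fun i => (t ^ (2 + i))⁻¹ * (x i + y i))
  rw [Finset.card_range, Nat.cast_ofNat] at h4
  rw [mul_pow] at h3
  have h5 := mul_le_mul_of_nonneg_left (h3.trans (mul_le_mul_of_nonneg_left h4 (sq_nonneg C)))
    (pow_nonneg t0.le 11)
  have h6 := mul_le_mul_of_nonneg_left h2 (sq_nonneg C)
  have h7 := mul_le_mul_of_nonneg_left h1 (pow_nonneg t0.le 11)
  have h8 := CLio_sq t0 (R + I * p)
  nlinarith [sq_nonneg (a - ‖CLioA t * (R + I * p)‖)]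

theorem CLio_EE {L : ℝ} (hL : 1 ≤ L) (l : ℕ) (f g : ℝ → ℂ) (r : ℝ) :
    |Jf (lad l 8 f) r| + ‖lad l 8 f r‖ ^ 2 ≤ 2 * (EE l L f g r / L) ∧
    ∑ k ∈ Finset.range 8, ‖lad l k f r‖ ^ 2 + ∑ k ∈ Finset.range 8, ‖lad l k g r‖ ^ 2
      ≤ EE l L f g r / L := by
  have L0 : 0 < L := one_pos.trans_le hL
  have nn : ∀ k, 0 ≤ L ^ (2 * (8 - k)) * ee L (lad l k f) (lad l k g) r := fun k => by
    unfold ee en
    positivity
  rw [← mul_div_assoc, le_div_iff₀ L0, le_div_iff₀ L0, EE, Finset.sum_range_succ]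
  constructor
  · have h1 : |Jf (lad l 8 f) r| ≤ ‖lad l 8 f r‖ * ‖deriv (lad l 8 f) r‖ :=
      (abs_im_le_norm _).trans_eq (by rw [norm_mul, RCLike.norm_conj])
    have h2 := Finset.sum_nonneg fun k (_ : k ∈ Finset.range 8) => nn k
    have h3 := mul_le_mul_of_nonneg_right h1 L0.le
    have h4 := mul_le_mul_of_nonneg_left hL (mul_nonneg (sq_nonneg ‖lad l 8 f r‖) L0.le)
    have h5 : 0 ≤ en L (lad l 8 g) r := by
      unfold en
      positivity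
    rw [Nat.sub_self, mul_zero, pow_zero, one_mul, ee, en]
    nlinarith [sq_nonneg (‖deriv (lad l 8 f) r‖ - L * ‖lad l 8 f r‖)]
  · rw [← Finset.sum_add_distrib, Finset.sum_mul]
    refine le_add_of_le_of_nonneg (Finset.sum_le_sum fun k _ => ?_) (nn 8)
    refine le_trans ?_ (le_mul_of_one_le_left (by unfold ee en; positivity) (one_le_pow₀ hL))
    have h4 := mul_le_mul_of_nonneg_left hL (mul_nonneg
      (add_nonneg (sq_nonneg ‖lad l k f r‖) (sq_nonneg ‖lad l k g r‖)) L0.le)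
    rw [ee, en, en]
    nlinarith [sq_nonneg ‖deriv (lad l k f) r‖, sq_nonneg ‖deriv (lad l k g) r‖]

/-- one component -/
theorem CLio_one : ∃ C : ℝ, 0 ≤ C ∧ ∀ {ε : ℝ} {m : ℕ} {om σ : ℝ} {w : ℝ → ℂ},
    Ctx ε m om σ w → ∀ {l : ℕ} {z : ℂ} {f g p q : ℝ → ℂ}, RSol m om w l z f g p q →
    0 ≤ z.re → ContDiff ℝ 16 p → Dec l f → Dec l g → Dec l p → ∀ r ∈ Set.Icc (3.3 : ℝ) 3.46,
      M8 l f r ≤ 4 ^ 12 * (EE l (Lb l z) f g r / Lb l z) + 2 * M8 l p r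
        + C * ε ^ 2 * ∑ i ∈ Finset.range 9, (Hi l i f r + Hi l i g r) := by
  obtain ⟨C, C0, hC⟩ := Rk_bound
  refine ⟨36 * C ^ 2, by positivity, fun {ε m om σ w} hc {l z f g p q} h hz hp df dg dp r hr => ?_⟩
  have r1 : 1 ≤ r := by linarith [hr.1]
  have r0 : 0 < r := one_pos.trans_le r1
  have H := lio_of_sol hc h hz hp df dg dp hr.1
  have fl := lio_flux H
  have i1 := M8_int h.1.1 df r1
  have i2 := M8_int hp dp r1
  have i3 : ∀ i ∈ Finset.range 9, _ := fun i hi =>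
    Hi_int h.1.1 df r1 i (Nat.lt_succ_iff.1 (Finset.mem_range.1 hi))
  have i4 : ∀ i ∈ Finset.range 9, _ := fun i hi =>
    Hi_int h.2.1.1 dg r1 i (Nat.lt_succ_iff.1 (Finset.mem_range.1 hi))
  have i5 := fun i hi => (i3 i hi).fun_add (i4 i hi)
  have i6 := (integrable_finsetSum _ i5).const_mul (18 * (C * ε) ^ 2)
  have i7 := (i1.const_mul (1 / 2)).fun_add i2
  have up := integral_mono_of_nonneg
    (f := fun t => ‖lioV l f t‖ * ‖lioS m w l f g p t‖)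
    (Eventually.of_forall fun t => mul_nonneg (norm_nonneg _) (norm_nonneg _)) (i7.fun_add i6)
    ((ae_restrict_iff' measurableSet_Ioi).2 (Eventually.of_forall fun t ht =>
      CLio_pt (r1.trans (le_of_lt ht)) (lioV_sq l f (r0.trans ht))
        (hC hc l 8 f g t le_rfl (r0.trans ht) (CLio_ext hc (hr.1.trans (le_of_lt ht))))))
  rw [integral_add i7 i6, integral_add (i1.const_mul _) i2, integral_const_mul,
    integral_const_mul, integral_finsetSum _ i5,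
    Finset.sum_congr rfl fun i hi => integral_add (i3 i hi) (i4 i hi)] at up
  rw [setIntegral_congr_fun measurableSet_Ioi fun t ht => lioV_sq l f (r0.trans ht),
    lio_J l f r0] at fl
  have h1 := (CLio_EE (one_le_Lb l z) l f g r).1
  have h2 : r ^ 11 ≤ 4 ^ 11 := pow_le_pow_left₀ r0.le (by linarith [hr.2]) 11
  have h3 : Jf (lad l 8 f) r + r / 4 * ‖lad l 8 f r‖ ^ 2
      ≤ |Jf (lad l 8 f) r| + ‖lad l 8 f r‖ ^ 2 := add_le_add (le_abs_self _)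
    (mul_le_of_le_one_left (sq_nonneg _) (by linarith [hr.2]))
  have h4 := (mul_le_mul_of_nonneg_left h3 (pow_nonneg r0.le 11)).trans
    (mul_le_mul h2 h1 (by positivity) (by positivity))
  have h5 := le_mul_of_one_le_left (CHardy_M8 l f r0.le) H.hκ
  have h6 := le_of_abs_le fl
  unfold M8 at h5 ⊢
  unfold Hi
  linarith

theorem CLio_Mc (l : ℕ) (f : ℝ → ℂ) (r : ℝ) : M8 l (fun r => conj (f r)) r = M8 l f r := by
  simp only [M8, lad_conj, RCLike.norm_conj]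

theorem CLio_Hc (l i : ℕ) (f : ℝ → ℂ) (r : ℝ) : Hi l i (fun r => conj (f r)) r = Hi l i f r := by
  simp only [Hi, lad_conj, RCLike.norm_conj]

/-- global weighted bounds from the data at one point of the shell -/
theorem x1 : ∃ ε0 C : ℝ, 0 < ε0 ∧ 0 ≤ C ∧ ∀ {ε : ℝ} {m : ℕ} {om σ : ℝ} {w : ℝ → ℂ},
    Ctx ε m om σ w → ε ≤ ε0 → ∀ {l : ℕ} {z : ℂ} {f g p q : ℝ → ℂ}, RSol m om w l z f g p q →
    0 ≤ z.re → ContDiff ℝ 16 p → ContDiff ℝ 16 q → Dec l f → Dec l g → Dec l p → Dec l q →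
    ∀ r ∈ Set.Icc (3.3 : ℝ) 3.46,
      M8 l f r + M8 l g r + ∑ i ∈ Finset.range 9, (Hi l i f r + Hi l i g r)
        ≤ C * (EE l (Lb l z) f g r / Lb l z + M8 l p r + M8 l q r) := by
  obtain ⟨A, A0, hA⟩ := CLio_one
  obtain ⟨B, B0, hB⟩ := hardy_lad
  refine ⟨1 / (36 * A * B + 1), (1 + 9 * B) * (4 ^ 13 + 1) + 9 * B, by positivity, by positivity,
    fun {ε m om σ w} hc hε {l z f g p q} h hz hp hq df dg dp dq r hr => ?_⟩
  have r0 : 0 ≤ r := by linarith [hr.1]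
  have r3 : r ∈ Set.Icc (3 : ℝ) 4 := ⟨by linarith [hr.1], by linarith [hr.2]⟩
  have h1 := hA hc h hz hp df dg dp r hr
  have h2 := hA hc h.swap hz (conjCLE.contDiff.comp hq) dg.conj df.conj dq.conj r hr
  simp only [CLio_Mc, CLio_Hc, EE_swap, Lb_conj] at h2
  rw [Finset.sum_congr rfl fun i _ => add_comm (Hi l i g r) (Hi l i f r)] at h2
  have h3 := (CLio_EE (one_le_Lb l z) l f g r).2
  have E0 : 0 ≤ EE l (Lb l z) f g r / Lb l z := le_trans (by positivity) h3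
  have h4 : ∑ i ∈ Finset.range 9, (Hi l i f r + Hi l i g r) ≤
      9 * B * (M8 l f r + M8 l g r + EE l (Lb l z) f g r / Lb l z) := by
    refine (Finset.sum_le_card_nsmul _ _
      (B * (M8 l f r + M8 l g r + EE l (Lb l z) f g r / Lb l z)) fun i hi => ?_).trans_eq
      (by rw [Finset.card_range, nsmul_eq_mul, Nat.cast_ofNat, mul_assoc])
    have hi := Nat.lt_succ_iff.1 (Finset.mem_range.1 hi)
    linarith [hB l f h.1.1 df r r3 i hi, hB l g h.2.1.1 dg r r3 i hi,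
      mul_le_mul_of_nonneg_left h3 B0]
  have m1 := CHardy_M8 l f r0
  have m2 := CHardy_M8 l g r0
  have m3 := CHardy_M8 l p r0
  have m4 := CHardy_M8 l q r0
  have e0 := hc.e0
  rw [le_div_iff₀ (by positivity)] at hε
  have h5 : A * ε ^ 2 * (9 * B) ≤ 1 / 4 := by
    have := mul_le_mul_of_nonneg_left (hc.e1.trans (by norm_num : (1 : ℝ) / 1000 ≤ 1))
      (by positivity : 0 ≤ A * B * ε)
    nlinarith
  have h6 := mul_le_mul_of_nonneg_left h4 (by positivity : 0 ≤ A * ε ^ 2)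
  have h7 := mul_le_mul_of_nonneg_right h5 (add_nonneg (add_nonneg m1 m2) E0)
  have h8 : M8 l f r + M8 l g r ≤
      (4 ^ 13 + 1) * (EE l (Lb l z) f g r / Lb l z + M8 l p r + M8 l q r) := by linarith
  have h9 := mul_le_mul_of_nonneg_left h8 (by positivity : 0 ≤ 1 + 9 * B)
  nlinarith [mul_nonneg B0 (add_nonneg m3 m4)]

end Vale.Agent.P139
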