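import Vale.Agent.P139.CLimSX1
import Vale.Agent.P139.CLio
import Vale.Agent.P139.CUp
import Vale.Agent.P139.CUniq

open Complex MeasureTheory Filter Topology
open scoped ComplexConjugate ContDiff

namespace Vale.Agent.P139

/-- convergence of the ladder level k at the point r -/
def climsT (l k : ℕ) (F : ℕ → ℝ → ℂ) (u : ℝ → ℂ) (r : ℝ) : Prop :=
  Tendsto (fun n => lad l k (F n) r) atTop
    (𝓝 ((r : ℂ) ^ (l + k) / 2 ^ k * iteratedDeriv k u (r ^ 2 / 4)))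

theorem clims_aa {ε om σ : ℕ → ℝ} {m : ℕ → ℕ} {w : ℕ → ℝ → ℂ}
    (ctx : ∀ n, Ctx (ε n) (m n) (om n) (σ n) (w n)) (tε : Tendsto ε atTop (𝓝 0)) :
    Tendsto (fun n => (aa (m n) : ℂ)) atTop (𝓝 0) := by
  refine squeeze_zero_norm (fun n => ?_) tε
  have h1 := (ctx n).good.hm
  have h2 := (ctx n).prof.aa_pos
  have h3 : (0 : ℝ) < m n := by exact_mod_cast (ctx n).prof.m_pos
  rw [norm_real, Real.norm_of_nonneg h2.le, aa, div_le_iff₀ (by positivity)]
  linarith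

theorem clims_ev {ε σ : ℕ → ℝ} {σ' a : ℝ} (tε : Tendsto ε atTop (𝓝 0))
    (tσ : Tendsto σ atTop (𝓝 σ')) (ha : σ' < a) : ∀ᶠ n in atTop, σ n + ε n ≤ a :=
  (tσ.add tε).eventually_le_const (by rwa [add_zero])

theorem clims_V {ε om σ : ℕ → ℝ} {m : ℕ → ℕ} {w : ℕ → ℝ → ℂ} {σ' a δ : ℝ}
    (ctx : ∀ n, Ctx (ε n) (m n) (om n) (σ n) (w n)) (tε : Tendsto ε atTop (𝓝 0))
    (tσ : Tendsto σ atTop (𝓝 σ')) (ha : σ' < a) (ha1 : 1 ≤ a) (hδ : 0 < δ) :
    ∀ᶠ n in atTop, ∀ s, a ≤ s → ‖V1 (m n) (w n) s‖ < δ ∧ ‖V2 (m n) (w n) s‖ < δ := by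
  filter_upwards [clims_ev tε tσ ha, tε.eventually_lt_const hδ] with n h1 h2 s hs
  have h3 := (ctx n).good.ext 0 (Nat.zero_le _) s (h1.trans hs)
  have h4 : ε n * s ^ (-1 - ((0 : ℕ) : ℝ)) ≤ ε n * 1 :=
    mul_le_mul_of_nonneg_left (Real.rpow_le_one_of_one_le_of_nonpos (ha1.trans hs) (by simp))
      (ctx n).e0.le
  rw [iteratedDeriv_zero, iteratedDeriv_zero] at h3
  constructor <;> linarith [h3.1, h3.2]

theorem clims_d (l : ℕ) {f : ℝ → ℂ} (hf : ContDiff ℝ 16 f) {s : ℝ} (hs : 0 < s) :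
    HasDerivAt (ured l f) (deriv (ured l f) s) s ∧
      HasDerivAt (deriv (ured l f)) (deriv (deriv (ured l f)) s) s := by
  have h0 := olad_hasDeriv (N := 16) (j := 0) (ured_smooth l hf) (by norm_num) hs
  have h1 := olad_hasDeriv (N := 16) (j := 1) (ured_smooth l hf) (by norm_num) hs
  simp only [iteratedDeriv_succ, iteratedDeriv_zero] at h0 h1
  exact ⟨h0, h1⟩

theorem clims_ured_mul (l : ℕ) (c : ℂ) (f : ℝ → ℂ) (s : ℝ) :
    ured l (fun r => c * f r) s = c * ured l f s := mul_div_assoc _ _ _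

theorem clims_init1 (l : ℕ) {F : ℕ → ℝ → ℂ} (hF : ∀ n, ContDiff ℝ 16 (F n)) {a b : ℂ}
    (h0 : Tendsto (fun n => F n 3.4) atTop (𝓝 a))
    (h1 : Tendsto (fun n => lad l 1 (F n) 3.4) atTop (𝓝 b)) :
    ∃ c d, Tendsto (fun n => ured l (F n) (3.4 ^ 2 / 4)) atTop (𝓝 c) ∧
      Tendsto (fun n => deriv (ured l (F n)) (3.4 ^ 2 / 4)) atTop (𝓝 d) := by
  have r0 : (0 : ℝ) < 3.4 := by norm_num
  have r1 : ((3.4 : ℝ) : ℂ) ^ (l + 1) / 2 ^ 1 ≠ 0 :=
    div_ne_zero (pow_ne_zero _ (ofReal_ne_zero.2 r0.ne')) (by norm_num)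
  refine ⟨_, _, (h0.div_const (((3.4 : ℝ) : ℂ) ^ l)).congr fun n => (ured_sq l _ r0).symm,
    (h1.const_mul (((3.4 : ℝ) : ℂ) ^ (l + 1) / 2 ^ 1)⁻¹).congr fun n => ?_⟩
  rw [lad_eq l (hF n) 1 (by norm_num) r0, iteratedDeriv_one, inv_mul_cancel_left₀ r1]

theorem clims_init (l : ℕ) {F G : ℕ → ℝ → ℂ} (hF : ∀ n, ContDiff ℝ 16 (F n))
    (hG : ∀ n, ContDiff ℝ 16 fun r => conj (G n r)) {d : EuclideanSpace ℂ (Fin 4)}
    (h : Tendsto (fun n => D4 (F n) (G n)) atTop (𝓝 d)) :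
    (∃ c d, Tendsto (fun n => ured l (F n) (3.4 ^ 2 / 4)) atTop (𝓝 c) ∧
      Tendsto (fun n => deriv (ured l (F n)) (3.4 ^ 2 / 4)) atTop (𝓝 d)) ∧
    ∃ c d, Tendsto (fun n => ured l (fun r => conj (G n r)) (3.4 ^ 2 / 4)) atTop (𝓝 c) ∧
      Tendsto (fun n => deriv (ured l fun r => conj (G n r)) (3.4 ^ 2 / 4)) atTop (𝓝 d) := by
  have hi : ∀ i, Tendsto (fun n => D4 (F n) (G n) i) atTop (𝓝 (d i)) := fun i =>
    ((by fun_prop : Continuous fun x : EuclideanSpace ℂ (Fin 4) => x i).tendsto d).comp h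
  have a0 : Tendsto (fun n => F n 3.4) atTop (𝓝 (d 0)) := hi 0
  have a1 : Tendsto (fun n => deriv (F n) 3.4) atTop (𝓝 (d 1)) := hi 1
  have a2 : Tendsto (fun n => G n 3.4) atTop (𝓝 (d 2)) := hi 2
  have a3 : Tendsto (fun n => deriv (G n) 3.4) atTop (𝓝 (d 3)) := hi 3
  refine ⟨clims_init1 l hF a0 (a1.sub (a0.const_mul _)),
    clims_init1 l hG ((continuous_conj.tendsto _).comp a2)
      (b := conj (d 3 - ((l : ℂ) + (0 : ℕ)) / (3.4 : ℝ) * d 2)) ?_⟩
  simp only [lad_conj]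
  exact (continuous_conj.tendsto _).comp (a3.sub (a2.const_mul _))

theorem clims_T01 (l : ℕ) {F : ℕ → ℝ → ℂ} (hF : ∀ n, ContDiff ℝ 16 (F n)) {u : ℝ → ℂ} {r : ℝ}
    (r0 : 0 < r) (h : Tendsto (fun n => ured l (F n) (r ^ 2 / 4)) atTop (𝓝 (u (r ^ 2 / 4))) ∧
      Tendsto (fun n => deriv (ured l (F n)) (r ^ 2 / 4)) atTop (𝓝 (deriv u (r ^ 2 / 4)))) :
    climsT l 0 F u r ∧ climsT l 1 F u r := by
  unfold climsT
  constructor
  · simp only [fun n => lad_eq l (hF n) 0 (by norm_num) r0, iteratedDeriv_zero]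
    exact h.1.const_mul _
  · simp only [fun n => lad_eq l (hF n) 1 (by norm_num) r0, iteratedDeriv_one]
    exact h.2.const_mul _

theorem clims_step {ε om σ : ℕ → ℝ} {m : ℕ → ℕ} {w : ℕ → ℝ → ℂ} {σ' om' : ℝ} {l : ℕ} {z : ℕ → ℂ}
    {z' : ℂ} {F G P Q : ℕ → ℝ → ℂ} (ctx : ∀ n, Ctx (ε n) (m n) (om n) (σ n) (w n))
    (tε : Tendsto ε atTop (𝓝 0)) (tσ : Tendsto σ atTop (𝓝 σ')) (tom : Tendsto om atTop (𝓝 om'))
    (tz : Tendsto z atTop (𝓝 z'))
    (sol : ∀ n, RSol (m n) (om n) (w n) l (z n) (F n) (G n) (P n) (Q n))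
    (hP : ∀ n, ContDiff ℝ 16 (P n)) {r : ℝ} (r0 : 0 < r) (hr : σ' < r ^ 2 / 4) {k : ℕ} (hk : k ≤ 7)
    {u pu : ℝ → ℂ} {c : ℕ → ℝ} {κ : ℂ} (hF : ∀ j ≤ k + 1, climsT l j F u r)
    (hG : ∀ j ≤ k, Tendsto (fun n => ‖lad l j (G n) r‖) atTop (𝓝 (c j)))
    (hp : Tendsto (fun n => lad l k (P n) r) atTop
      (𝓝 (κ * ((r : ℂ) ^ (l + k) / 2 ^ k * iteratedDeriv k pu (r ^ 2 / 4)))))
    (hrec : (r ^ 2 / 4 : ℝ) * iteratedDeriv (k + 2) u (r ^ 2 / 4)
      + ((l : ℂ) + 6 + k + I * (r ^ 2 / 4 : ℝ)) * iteratedDeriv (k + 1) u (r ^ 2 / 4)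
      + (I * (z' + l / 2 - I * om') + I * k) * iteratedDeriv k u (r ^ 2 / 4)
        = I * κ * iteratedDeriv k pu (r ^ 2 / 4)) : climsT l (k + 2) F u r := by
  obtain ⟨C, -, hC⟩ := Rk_bound
  have tR : Tendsto (fun n => Rk (m n) (w n) l k (F n) (G n) r) atTop (𝓝 0) := by
    refine squeeze_zero_norm' ((clims_ev tε tσ hr).mono fun n hn =>
      hC (ctx n) l k (F n) (G n) r (by omega) r0 hn) ?_
    have h1 := (tε.const_mul C).mul (tendsto_finsetSum (Finset.range (k + 1)) fun i _ =>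
      ((hF (k - i) (by omega)).norm.add (hG (k - i) (by omega))).const_mul (r ^ (2 + i))⁻¹)
    rwa [mul_zero, zero_mul] at h1
  have ta := clims_aa ctx tε
  have to' : Tendsto (fun n => (om n : ℂ)) atTop (𝓝 om') := (continuous_ofReal.tendsto _).comp tom
  have a0 := hF k (by omega)
  have a1 := hF (k + 1) le_rfl
  unfold climsT at a0 a1 ⊢
  have h1 := (((((a1.const_mul (-(((l : ℂ) + k + 11) / r))).sub
    (((((tz.add_const ((k : ℂ) / 2)).add ta).sub (to'.const_mul I)).const_mul I).mul a0)).sub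
    ((a1.add (a0.const_mul (((l : ℂ) + k) / r))).const_mul (I * r / 2))).add tR).add
    (hp.const_mul I)).sub (a1.const_mul (((l : ℂ) + (k + 1 : ℕ)) / r))
  have r1 : (r : ℂ) ≠ 0 := ofReal_ne_zero.2 r0.ne'
  refine (h1.congr fun n => ?_).trans (le_of_eq (congrArg 𝓝 ?_))
  · change _ = deriv (lad l (k + 1) (F n)) r - _
    rw [lad_ode (ctx n).prof (sol n) (hP n) k (by omega) r0,
      (lad_deriv l (sol n).1.1 k (by omega) r0).deriv]
  · push_cast at hrec ⊢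
    rw [← add_assoc, ← add_assoc, pow_succ, pow_succ, pow_succ, pow_succ, pow_succ]
    field_simp
    linear_combination (-8 * (r : ℂ) ^ l * r ^ k * 2 ^ k) * hrec

theorem clims_pair {ε om σ : ℕ → ℝ} {m : ℕ → ℕ} {w : ℕ → ℝ → ℂ} {σ' om' : ℝ} {l : ℕ} {z : ℕ → ℂ}
    {z' : ℂ} {F G P Q : ℕ → ℝ → ℂ} (ctx : ∀ n, Ctx (ε n) (m n) (om n) (σ n) (w n))
    (tε : Tendsto ε atTop (𝓝 0)) (tσ : Tendsto σ atTop (𝓝 σ')) (tom : Tendsto om atTop (𝓝 om'))
    (tz : Tendsto z atTop (𝓝 z'))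
    (sol : ∀ n, RSol (m n) (om n) (w n) l (z n) (F n) (G n) (P n) (Q n))
    (hP : ∀ n, ContDiff ℝ 16 (P n)) (hQ : ∀ n, ContDiff ℝ 16 fun r => conj (Q n r)) {r : ℝ}
    (r0 : 0 < r) (hr : σ' < r ^ 2 / 4) {u v pu qu : ℝ → ℂ} {κ1 κ2 : ℂ}
    (hp : ∀ k ≤ 8, Tendsto (fun n => lad l k (P n) r) atTop
      (𝓝 (κ1 * ((r : ℂ) ^ (l + k) / 2 ^ k * iteratedDeriv k pu (r ^ 2 / 4)))))
    (hq : ∀ k ≤ 8, Tendsto (fun n => lad l k (fun r => conj (Q n r)) r) atTop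
      (𝓝 (κ2 * ((r : ℂ) ^ (l + k) / 2 ^ k * iteratedDeriv k qu (r ^ 2 / 4)))))
    (hu : ∀ k ≤ 7, (r ^ 2 / 4 : ℝ) * iteratedDeriv (k + 2) u (r ^ 2 / 4)
      + ((l : ℂ) + 6 + k + I * (r ^ 2 / 4 : ℝ)) * iteratedDeriv (k + 1) u (r ^ 2 / 4)
      + (I * (z' + l / 2 - I * om') + I * k) * iteratedDeriv k u (r ^ 2 / 4)
        = I * κ1 * iteratedDeriv k pu (r ^ 2 / 4))
    (hv : ∀ k ≤ 7, (r ^ 2 / 4 : ℝ) * iteratedDeriv (k + 2) v (r ^ 2 / 4)
      + ((l : ℂ) + 6 + k + I * (r ^ 2 / 4 : ℝ)) * iteratedDeriv (k + 1) v (r ^ 2 / 4)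
      + (I * (conj z' + l / 2 - I * om') + I * k) * iteratedDeriv k v (r ^ 2 / 4)
        = I * κ2 * iteratedDeriv k qu (r ^ 2 / 4))
    (h1 : climsT l 0 F u r ∧ climsT l 1 F u r)
    (h2 : climsT l 0 (fun n r => conj (G n r)) v r ∧ climsT l 1 (fun n r => conj (G n r)) v r) :
    ∀ k ≤ 8, climsT l k F u r ∧ climsT l k (fun n r => conj (G n r)) v r := by
  have key : ∀ k ≤ 7, ∀ j ≤ k + 1,
      climsT l j F u r ∧ climsT l j (fun n r => conj (G n r)) v r := by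
    intro k
    induction k with
    | zero =>
      intro _ j hj
      rcases Nat.le_one_iff_eq_zero_or_eq_one.1 hj with rfl | rfl
      · exact ⟨h1.1, h2.1⟩
      · exact ⟨h1.2, h2.2⟩
    | succ k ih =>
      intro hk j hj
      have ih' := ih (by omega)
      rcases Nat.le_succ_iff.1 hj with h | rfl
      · exact ih' j h
      · refine ⟨clims_step ctx tε tσ tom tz sol hP r0 hr (by omega) (fun j hj => (ih' j hj).1)
          (fun j hj => (ih' j (by omega)).2.norm.congr fun n => ?_) (hp k (by omega))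
          (hu k (by omega)),
          clims_step ctx tε tσ tom ((continuous_conj.tendsto _).comp tz) (fun n => (sol n).swap)
            hQ r0 hr (by omega) (fun j hj => (ih' j hj).2)
            (fun j hj => (ih' j (by omega)).1.norm.congr fun n => ?_) (hq k (by omega))
            (hv k (by omega))⟩
        · rw [lad_conj, Complex.norm_conj]
        · rw [lad_conj, Complex.norm_conj]
  exact fun k hk => key 7 le_rfl k hk

/-- size of a pair -/
noncomputable def climsS (l : ℕ) (f g : ℝ → ℂ) : ℝ :=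
  ∑ k ∈ Finset.range 8, (‖lad l k f 3.4‖ ^ 2 + ‖lad l k g 3.4‖ ^ 2) + (M8 l f 3.4 + M8 l g 3.4)

theorem clims_M8 (l : ℕ) (f : ℝ → ℂ) : 0 ≤ M8 l f 3.4 :=
  setIntegral_nonneg measurableSet_Ioi fun t ht =>
    mul_nonneg (pow_nonneg (le_trans (by norm_num) (le_of_lt ht)) _) (sq_nonneg _)

theorem climsS_M8 (l : ℕ) (f g : ℝ → ℂ) : M8 l f 3.4 ≤ climsS l f g ∧
    M8 l (fun r => conj (g r)) 3.4 ≤ climsS l f g := by
  have h1 := clims_M8 l f
  have h2 := clims_M8 l g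
  have h3 : 0 ≤ ∑ k ∈ Finset.range 8, (‖lad l k f 3.4‖ ^ 2 + ‖lad l k g 3.4‖ ^ 2) := by positivity
  have h4 : M8 l (fun r => conj (g r)) 3.4 = M8 l g 3.4 := by
    simp only [M8, lad_conj, Complex.norm_conj]
  unfold climsS
  constructor <;> linarith

theorem climsS_nonneg (l : ℕ) (f g : ℝ → ℂ) : 0 ≤ climsS l f g :=
  (clims_M8 l f).trans (climsS_M8 l f g).1

theorem climsS_zero (l : ℕ) : climsS l 0 0 = 0 := by simp [climsS, M8, lad_zero]

theorem climsS_smul (l : ℕ) (f g : ℝ → ℂ) {c : ℂ} (hc : ‖c‖ ≤ 1) :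
    climsS l (fun r => c * f r) (fun r => c * g r) ≤ climsS l f g := by
  have h1 : climsS l (fun r => c * f r) (fun r => c * g r) = ‖c‖ ^ 2 * climsS l f g := by
    simp only [climsS, M8, lad_smul, norm_mul, mul_pow, mul_add, Finset.mul_sum,
      ← integral_const_mul, mul_left_comm (‖c‖ ^ 2)]
  rw [h1]
  exact mul_le_of_le_one_left (climsS_nonneg l f g) (pow_le_one₀ (norm_nonneg c) hc)

theorem clims_dec0 (l : ℕ) : Dec l 0 := ⟨0, fun k _ r _ => by simp [lad_zero]⟩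

theorem clims_bound : ∃ ε0 C : ℝ, 0 < ε0 ∧ 0 ≤ C ∧ ∀ {ε : ℝ} {m : ℕ} {om σ : ℝ} {w : ℝ → ℂ},
    Ctx ε m om σ w → ε ≤ ε0 → ∀ {l : ℕ} {z : ℂ} {f g p q : ℝ → ℂ}, RSol m om w l z f g p q →
    0 ≤ z.re → ContDiff ℝ 16 p → ContDiff ℝ 16 q → Dec l f → Dec l g → Dec l p → Dec l q →
    ‖D4 f g‖ ≤ 1 → climsS l f g ≤ C * Lb l z ^ 18 * (1 + climsS l p q) := by
  obtain ⟨ε0, C1, hε0, hC1, hx⟩ := x1
  obtain ⟨C2, hC2, hu⟩ := EE_up
  refine ⟨ε0, (1 + C1) * C2 + C1, hε0, by positivity, ?_⟩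
  intro ε m om σ w hc hε l z f g p q h hz cp cq df dg dp dq hD
  have hm : (3.4 : ℝ) ∈ Set.Icc (3.3 : ℝ) 3.46 := ⟨by norm_num, by norm_num⟩
  have a1 := hx hc hε h hz cp cq df dg dp dq 3.4 hm
  have a2 := hu hc h cp cq 3.4 hm
  have hL := one_le_Lb l z
  generalize Lb l z = L at a1 a2 hL ⊢
  have hL2 : 1 ≤ L ^ 2 := one_le_pow₀ hL
  have b0 : ∀ f g : ℝ → ℂ, ‖f 3.4‖ ^ 2 + ‖g 3.4‖ ^ 2 ≤ ee L f g 3.4 := fun f g => by
    have h1 := le_mul_of_one_le_left (sq_nonneg ‖f 3.4‖) hL2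
    have h2 := le_mul_of_one_le_left (sq_nonneg ‖g 3.4‖) hL2
    have h3 := sq_nonneg ‖deriv f 3.4‖
    have h4 := sq_nonneg ‖deriv g 3.4‖
    unfold ee en
    linarith
  have b1 : ∑ k ∈ Finset.range 8, (‖lad l k f 3.4‖ ^ 2 + ‖lad l k g 3.4‖ ^ 2) ≤ EE l L f g 3.4 := by
    have h1 : ∀ k, 0 ≤ ee L (lad l k f) (lad l k g) 3.4 := fun k =>
      le_trans (by positivity) (b0 _ _)
    unfold EE
    rw [Finset.sum_range_succ _ 8]
    refine le_trans (Finset.sum_le_sum fun k _ => (b0 _ _).trans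
      (le_mul_of_one_le_left (h1 k) (one_le_pow₀ hL))) (le_add_of_nonneg_right ?_)
    exact mul_nonneg (by positivity) (h1 8)
  have b2 : 0 ≤ EE l L f g 3.4 := le_trans (by positivity) b1
  have b3 : EE l L f g 3.4 / L ≤ EE l L f g 3.4 := div_le_self b2 hL
  have b4 : 0 ≤ ∑ i ∈ Finset.range 9, (Hi l i f 3.4 + Hi l i g 3.4) := by
    have h1 : ∀ (i : ℕ) (f : ℝ → ℂ), 0 ≤ Hi l i f 3.4 := fun i f =>
      setIntegral_nonneg measurableSet_Ioi fun t ht =>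
        mul_nonneg (Real.rpow_nonneg (le_trans (by norm_num) (le_of_lt ht)) _) (sq_nonneg _)
    exact Finset.sum_nonneg fun i _ => add_nonneg (h1 i f) (h1 i g)
  have b5 : ee L f g 3.4 ≤ L ^ 2 := by
    have h0 : dat f g 3.4 ≤ 1 := by
      rw [← norm_D4]; exact pow_le_one₀ (norm_nonneg _) hD
    have h1 := le_mul_of_one_le_left (sq_nonneg ‖deriv f 3.4‖) hL2
    have h2 := le_mul_of_one_le_left (sq_nonneg ‖deriv g 3.4‖) hL2
    have h3 := mul_le_mul_of_nonneg_left h0 (sq_nonneg L)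
    unfold dat ee en at h3
    unfold ee en
    linarith
  have m1 := clims_M8 l p
  have m2 := clims_M8 l q
  have b6 : 0 ≤ ∑ k ∈ Finset.range 8, (‖lad l k p 3.4‖ ^ 2 + ‖lad l k q 3.4‖ ^ 2) := by positivity
  unfold climsS
  generalize ∑ k ∈ Finset.range 8, (‖lad l k p 3.4‖ ^ 2 + ‖lad l k q 3.4‖ ^ 2) = X at a2 b6 ⊢
  have hS : 0 ≤ X + (M8 l p 3.4 + M8 l q 3.4) := by positivity
  have b7 : EE l L f g 3.4 ≤ C2 * L ^ 18 * (1 + (X + (M8 l p 3.4 + M8 l q 3.4))) := by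
    have h1 := le_mul_of_one_le_left hS hL2
    have h2 : ee L f g 3.4 + X ≤ L ^ 2 * (1 + (X + (M8 l p 3.4 + M8 l q 3.4))) := by linarith
    have h3 := mul_le_mul_of_nonneg_left h2 (show 0 ≤ C2 * L ^ 16 by positivity)
    linarith
  have b8 : M8 l p 3.4 + M8 l q 3.4 ≤ L ^ 18 * (1 + (X + (M8 l p 3.4 + M8 l q 3.4))) :=
    le_trans (by linarith) (le_mul_of_one_le_left (by linarith) (one_le_pow₀ hL))
  have b9 := mul_le_mul_of_nonneg_left (add_le_add (b3.trans b7) b8) hC1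
  linarith

theorem clims_lim {l : ℕ} {σ' K : ℝ} {F : ℕ → ℝ → ℂ} {u : ℝ → ℂ} (s0 : 2.7 ≤ σ') (s1 : σ' ≤ 2.71)
    (hu : ContDiffOn ℝ 10 u (Set.Ioi σ')) (hF : ∀ n, ContDiff ℝ 16 (F n)) (hD : ∀ n, Dec l (F n))
    (hK : ∀ᶠ n in atTop, M8 l (F n) 3.4 ≤ K)
    (hT : ∀ r : ℝ, 0 < r → σ' < r ^ 2 / 4 → ∀ k ≤ 8, climsT l k F u r) : Lim l σ' F u := by
  have hr : ∀ r : ℝ, 2 * √σ' < r → 0 < r ∧ σ' < r ^ 2 / 4 := by
    intro r h
    have h1 : 0 < r := lt_of_le_of_lt (by positivity) h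
    have h2 := (Real.sqrt_lt' (half_pos h1)).1 (by linarith : √σ' < r / 2)
    exact ⟨h1, by linarith⟩
  refine ⟨hu, clims_change l (by linarith) (clims_fatou
    (fun n => M8_int (hF n) (hD n) (by norm_num)) (fun n t ht => ?_) hK fun t ht => ?_),
    fun r h => ?_, fun r h => ?_⟩
  · exact mul_nonneg (pow_nonneg (by linarith) _) (sq_nonneg _)
  · exact ((hT t (by linarith) (by nlinarith) 8 le_rfl).norm.pow 2).const_mul _
  · simpa [climsT, lad] using hT r (hr r h).1 (hr r h).2 0 (by norm_num)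
  · simpa only [climsT, iteratedDeriv_one, pow_one] using hT r (hr r h).1 (hr r h).2 1 (by norm_num)

theorem lim_sol {l : ℕ} {ε : ℕ → ℝ} {m : ℕ → ℕ} {om σ : ℕ → ℝ} {w : ℕ → ℝ → ℂ} {z κ : ℕ → ℂ}
    {f g e1 e2 : ℕ → ℝ → ℂ} {om' σ' : ℝ} {z' z0 κ' : ℂ} {d de : EuclideanSpace ℂ (Fin 4)}
    (h : Seq l ε m om σ w z κ f g e1 e2 om' σ' z' z0 κ' d de) :
    ∃ u v ue ve : ℝ → ℂ, Lim l σ' f u ∧ Lim l σ' (fun n r => conj (g n r)) v ∧ Lim l σ' e1 ue ∧
      Lim l σ' (fun n r => conj (e2 n r)) ve ∧ ∀ s : ℝ, σ' < s →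
        s * deriv (deriv u) s + ((l : ℂ) + 6 + I * s) * deriv u s
          + I * (z' + l / 2 - I * om') * u s = I * κ' * ue s ∧
        s * deriv (deriv v) s + ((l : ℂ) + 6 + I * s) * deriv v s
          + I * (conj z' + l / 2 - I * om') * v s = I * conj κ' * ve s ∧
        s * deriv (deriv ue) s + ((l : ℂ) + 6 + I * s) * deriv ue s
          + I * (z0 + l / 2 - I * om') * ue s = 0 ∧
        s * deriv (deriv ve) s + ((l : ℂ) + 6 + I * s) * deriv ve s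
          + I * (conj z0 + l / 2 - I * om') * ve s = 0 := by
  have s0 : 2.7 ≤ σ' := ge_of_tendsto' h.tσ fun n => (h.ctx n).s0
  have s1 : σ' ≤ 2.71 := le_of_tendsto' h.tσ fun n => (h.ctx n).s1
  have hR : 0 < σ' := by linarith
  have cf := fun n => (h.sol n).1.1
  have cg := fun n => (h.sol n).swap.1.1
  have c1 := fun n => (h.he n).sol.1.1
  have c2 := fun n => (h.he n).sol.swap.1.1
  have c2' := fun n => (h.he n).sol.2.1.1
  have ta := clims_aa h.ctx h.tε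
  have tom : Tendsto (fun n => (om n : ℂ)) atTop (𝓝 om') := (continuous_ofReal.tendsto _).comp h.tom
  have tal : ∀ {ζ : ℕ → ℂ} {ζ' : ℂ}, Tendsto ζ atTop (𝓝 ζ') →
      Tendsto (fun n => I * (ζ n + aa (m n) + l / 2 - I * om n)) atTop
        (𝓝 (I * (ζ' + l / 2 - I * om'))) := by
    intro ζ ζ' hζ
    have := ((((hζ.add ta).add_const ((l : ℂ) / 2)).sub (tom.const_mul I)).const_mul I)
    rwa [add_zero] at this
  have tc : ∀ {ζ : ℕ → ℂ} {ζ' : ℂ}, Tendsto ζ atTop (𝓝 ζ') →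
      Tendsto (fun n => conj (ζ n)) atTop (𝓝 (conj ζ')) := fun hζ =>
    (continuous_conj.tendsto _).comp hζ
  obtain ⟨u, hu, hode, hlim⟩ := clims_ode hR (t0 := 3.4 ^ 2 / 4) (by linarith) ((l : ℂ) + 6)
    ![1, 0, 3, 2] ![2, 3, 2, 3]
    (fun n => ![ured l (f n), ured l fun r => conj (g n r), ured l (e1 n),
      ured l fun r => conj (e2 n r)])
    (fun n => ![I * (z n + aa (m n) + l / 2 - I * om n),
      I * (conj (z n) + aa (m n) + l / 2 - I * om n), I * (z0 + aa (m n) + l / 2 - I * om n),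
      I * (conj z0 + aa (m n) + l / 2 - I * om n)])
    (fun n => ![I * κ n, I * conj (κ n), 0, 0])
    ![I * (z' + l / 2 - I * om'), I * (conj z' + l / 2 - I * om'), I * (z0 + l / 2 - I * om'),
      I * (conj z0 + l / 2 - I * om')] ![I * κ', I * conj κ', 0, 0]
    (fun n => V1 (m n) (w n)) (fun n => V2 (m n) (w n))
    (fun n i s hs => match i with
      | 0 => clims_d l (cf n) (hR.trans hs)
      | 1 => clims_d l (cg n) (hR.trans hs)
      | 2 => clims_d l (c1 n) (hR.trans hs)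
      | 3 => clims_d l (c2 n) (hR.trans hs))
    (fun n i s hs => match i with
      | 0 => (ured_ode1 (h.sol n) (hR.trans hs)).trans (by
          rw [clims_ured_mul, ← mul_assoc]; rfl)
      | 1 => (ured_ode2 (h.sol n) (hR.trans hs)).trans (by
          simp only [map_mul]; rw [clims_ured_mul, ← mul_assoc]; rfl)
      | 2 => (ured_ode1 (h.he n).sol (hR.trans hs)).trans (by
          refine congrArg₂ _ rfl ?_
          change _ = 0 * _
          simp [ured])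
      | 3 => (ured_ode2 (h.he n).sol (hR.trans hs)).trans (by
          refine congrArg₂ _ rfl ?_
          change _ = 0 * _
          simp [ured]))
    (tendsto_pi_nhds.2 fun i => match i with
      | 0 => tal h.tz
      | 1 => tal (tc h.tz)
      | 2 => tal tendsto_const_nhds
      | 3 => tal tendsto_const_nhds)
    (tendsto_pi_nhds.2 fun i => match i with
      | 0 => h.tκ.const_mul I
      | 1 => (tc h.tκ).const_mul I
      | 2 => tendsto_const_nhds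
      | 3 => tendsto_const_nhds)
    (fun a ha δ hδ => clims_V h.ctx h.tε h.tσ ha (by linarith) hδ)
    (fun i => match i with
      | 0 => (clims_init l cf cg h.td).1
      | 1 => (clims_init l cf cg h.td).2
      | 2 => (clims_init l c1 c2 h.te).1
      | 3 => (clims_init l c1 c2 h.te).2)
  have o0 := hode 0
  have o1 := hode 1
  have o2 := hode 2
  have o3 := hode 3
  have je : ∀ r : ℝ, 0 < r → σ' < r ^ 2 / 4 → ∀ k ≤ 8, climsT l k e1 (u 2) r ∧
      climsT l k (fun n r => conj (e2 n r)) (u 3) r := by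
    intro r r0 hr
    refine clims_pair h.ctx h.tε h.tσ h.tom tendsto_const_nhds (fun n => (h.he n).sol)
      (fun n => contDiff_const) (fun n => by simpa using contDiff_const) r0 hr
      (κ1 := 0) (κ2 := 0) (pu := u 2) (qu := u 3) (fun k _ => ?_) (fun k _ => ?_)
      (fun k hk => (clims_rec (hu 2) (hu 2) o2 k hk hr).trans (by
        change 0 * _ = _; ring))
      (fun k hk => (clims_rec (hu 3) (hu 3) o3 k hk hr).trans (by
        change 0 * _ = _; ring))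
      (clims_T01 l c1 r0 (hlim 2 _ hr)) (clims_T01 l c2 r0 (hlim 3 _ hr))
    · simp only [lad_zero, Pi.zero_apply, zero_mul]
      exact tendsto_const_nhds
    · rw [lad_conj, lad_zero, zero_mul]
      simp only [Pi.zero_apply, map_zero]
      exact tendsto_const_nhds
  have cp : ∀ n, ContDiff ℝ 16 fun r => κ n * e1 n r := fun n => contDiff_const.mul (c1 n)
  have cq : ∀ n, ContDiff ℝ 16 fun r => κ n * e2 n r := fun n => contDiff_const.mul (c2' n)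
  have jf : ∀ r : ℝ, 0 < r → σ' < r ^ 2 / 4 → ∀ k ≤ 8, climsT l k f (u 0) r ∧
      climsT l k (fun n r => conj (g n r)) (u 1) r := by
    intro r r0 hr
    refine clims_pair h.ctx h.tε h.tσ h.tom h.tz h.sol cp
      (fun n => by simpa only [map_mul] using contDiff_const.mul (c2 n)) r0 hr
      (κ1 := κ') (κ2 := conj κ') (pu := u 2) (qu := u 3) (fun k hk => ?_) (fun k hk => ?_)
      (fun k hk => clims_rec (hu 0) (hu 2) o0 k hk hr)
      (fun k hk => clims_rec (hu 1) (hu 3) o1 k hk hr)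
      (clims_T01 l cf r0 (hlim 0 _ hr)) (clims_T01 l cg r0 (hlim 1 _ hr))
    · simp only [lad_smul]
      exact h.tκ.mul (je r r0 hr k hk).1
    · simp only [map_mul, lad_smul]
      exact (tc h.tκ).mul (je r r0 hr k hk).2
  obtain ⟨ε0, C, hε0, hC, hb⟩ := clims_bound
  have be : ∀ᶠ n in atTop, climsS l (e1 n) (e2 n) ≤ C * Lb l z0 ^ 18 := by
    filter_upwards [h.tε.eventually_le_const hε0] with n hn
    have := hb (h.ctx n) hn (h.he n).sol (h.he n).re contDiff_const contDiff_const (h.he n).df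
      (h.he n).dg (clims_dec0 l) (clims_dec0 l) (h.be n)
    rwa [climsS_zero, add_zero, mul_one] at this
  have bf : ∀ᶠ n in atTop, climsS l (f n) (g n) ≤
      C * (1 + (‖z'‖ + 1) + (l : ℝ) ^ 2) ^ 9 * (1 + C * Lb l z0 ^ 18) := by
    filter_upwards [h.tε.eventually_le_const hε0, be,
      h.tz.norm.eventually_le_const (lt_add_one _)] with n hn hn1 hn2
    have a1 := hb (h.ctx n) hn (h.sol n) (h.re n) (cp n) (cq n) (h.df n) (h.dg n)
      ((h.he n).df.smul _) ((h.he n).dg.smul _) (h.bd n)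
    have a2 := climsS_smul l (e1 n) (e2 n) (h.bκ n)
    have a3 := climsS_nonneg l (fun r => κ n * e1 n r) (fun r => κ n * e2 n r)
    rw [show Lb l (z n) ^ 18 = (Lb l (z n) ^ 2) ^ 9 by ring, Lb_sq] at a1
    refine a1.trans ?_
    gcongr
    exact a2.trans hn1
  refine ⟨u 0, u 1, u 2, u 3,
    clims_lim s0 s1 (hu 0) cf h.df (bf.mono fun n hn => (climsS_M8 l _ _).1.trans hn)
      fun r r0 hr k hk => (jf r r0 hr k hk).1,
    clims_lim s0 s1 (hu 1) cg (fun n => (h.dg n).conj)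
      (bf.mono fun n hn => (climsS_M8 l _ _).2.trans hn) fun r r0 hr k hk => (jf r r0 hr k hk).2,
    clims_lim s0 s1 (hu 2) c1 (fun n => (h.he n).df)
      (be.mono fun n hn => (climsS_M8 l _ _).1.trans hn) fun r r0 hr k hk => (je r r0 hr k hk).1,
    clims_lim s0 s1 (hu 3) c2 (fun n => (h.he n).dg.conj)
      (be.mono fun n hn => (climsS_M8 l _ _).2.trans hn) fun r r0 hr k hk => (je r r0 hr k hk).2,
    fun s hs => ⟨o0 s hs, o1 s hs, (o2 s hs).trans (zero_mul _), (o3 s hs).trans (zero_mul _)⟩⟩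

end Vale.Agent.P139
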