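import Vale.Agent.P139.CLimO

open Complex MeasureTheory Filter Topology
open scoped ComplexConjugate ContDiff

namespace Vale.Agent.P139

abbrev ClimsF := (Fin 4 → ℂ) × (Fin 4 → ℂ)

abbrev ClimsP := ℂ × ℂ × ℂ × ℂ × (Fin 4 → ℂ) × (Fin 4 → ℂ)

theorem clims_N (τ ρ : Fin 4 → Fin 4) : ∃ N : ClimsP →L[ℝ] ClimsF →L[ℝ] ClimsF, ∀ a Y,
    N a Y = (fun i => a.1 * Y.2 i, fun i => a.2.1 * Y.1 i + a.2.2.1 * conj (Y.1 (τ i))
      + a.2.2.2.2.1 i * Y.1 (ρ i) - a.2.2.2.2.2 i * Y.1 i - a.2.2.2.1 * Y.2 i) := by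
  let N0 : ClimsP →ₗ[ℝ] ClimsF →ₗ[ℝ] ClimsF := LinearMap.mk₂ ℝ
    (fun a Y => (fun i => a.1 * Y.2 i, fun i => a.2.1 * Y.1 i + a.2.2.1 * conj (Y.1 (τ i))
      + a.2.2.2.2.1 i * Y.1 (ρ i) - a.2.2.2.2.2 i * Y.1 i - a.2.2.2.1 * Y.2 i))
    (fun a a' Y => by
      refine Prod.ext (funext fun i => ?_) (funext fun i => ?_) <;>
        simp only [Prod.fst_add, Prod.snd_add, Pi.add_apply] <;> ring)
    (fun c a Y => by
      refine Prod.ext (funext fun i => ?_) (funext fun i => ?_) <;>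
        simp only [Prod.smul_fst, Prod.smul_snd, Pi.smul_apply, real_smul] <;> ring)
    (fun a Y Y' => by
      refine Prod.ext (funext fun i => ?_) (funext fun i => ?_) <;>
        simp only [Prod.fst_add, Prod.snd_add, Pi.add_apply, map_add] <;> ring)
    (fun c a Y => by
      refine Prod.ext (funext fun i => ?_) (funext fun i => ?_) <;>
        simp only [Prod.smul_fst, Prod.smul_snd, Pi.smul_apply, real_smul, map_mul,
          conj_ofReal] <;> ring)
  exact ⟨LinearMap.toContinuousLinearMap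
    ((LinearMap.toContinuousLinearMap : (ClimsF →ₗ[ℝ] ClimsF) ≃ₗ[ℝ] _).toLinearMap ∘ₗ N0),
    fun a Y => rfl⟩

theorem clims_smooth {F : Type} [NormedAddCommGroup F] [NormedSpace ℝ F] {R : ℝ}
    {M : ℝ → F →L[ℝ] F} {Y : ℝ → F} (hM : ∀ n : ℕ, ContDiffOn ℝ n M (Set.Ioi R))
    (hY : ∀ t, R < t → HasDerivAt Y (M t (Y t)) t) (n : ℕ) : ContDiffOn ℝ n Y (Set.Ioi R) := by
  induction n with
  | zero => exact contDiffOn_zero.2 fun t ht => (hY t ht).continuousAt.continuousWithinAt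
  | succ n ih =>
    push_cast
    refine (contDiffOn_succ_iff_deriv_of_isOpen isOpen_Ioi).2
      ⟨fun t ht => (hY t ht).differentiableAt.differentiableWithinAt, by simp, ?_⟩
    exact ((hM n).clm_apply ih).congr fun t ht => (hY t ht).deriv

theorem clims_ode {R t0 : ℝ} (hR : 0 < R) (ht : R < t0) (b : ℂ) (τ ρ : Fin 4 → Fin 4)
    (y : ℕ → Fin 4 → ℝ → ℂ) (α k : ℕ → Fin 4 → ℂ) (α' k' : Fin 4 → ℂ) (v1 v2 : ℕ → ℝ → ℂ)
    (hy : ∀ n i s, R < s → HasDerivAt (y n i) (deriv (y n i) s) s ∧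
      HasDerivAt (deriv (y n i)) (deriv (deriv (y n i)) s) s)
    (ode : ∀ n i (s : ℝ), R < s → s * deriv (deriv (y n i)) s + (b + I * s) * deriv (y n i) s
      + α n i * y n i s = v1 n s * y n i s + v2 n s * conj (y n (τ i) s) + k n i * y n (ρ i) s)
    (hα : Tendsto α atTop (𝓝 α')) (hk : Tendsto k atTop (𝓝 k'))
    (hv : ∀ a, R < a → ∀ δ, 0 < δ → ∀ᶠ n in atTop, ∀ s, a ≤ s → ‖v1 n s‖ < δ ∧ ‖v2 n s‖ < δ)
    (h0 : ∀ i, ∃ c d, Tendsto (fun n => y n i t0) atTop (𝓝 c) ∧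
      Tendsto (fun n => deriv (y n i) t0) atTop (𝓝 d)) :
    ∃ u : Fin 4 → ℝ → ℂ, (∀ i, ContDiffOn ℝ 10 (u i) (Set.Ioi R)) ∧
      (∀ i (s : ℝ), R < s → s * deriv (deriv (u i)) s + (b + I * s) * deriv (u i) s
        + α' i * u i s = k' i * u (ρ i) s) ∧
      ∀ i s, R < s → Tendsto (fun n => y n i s) atTop (𝓝 (u i s)) ∧
        Tendsto (fun n => deriv (y n i) s) atTop (𝓝 (deriv (u i) s)) := by
  obtain ⟨N, hN⟩ := clims_N τ ρ
  choose c d hc hd using h0
  let q : ℕ → ℝ → ClimsP := fun n t => (t, v1 n t, v2 n t, b + I * t, k n, α n)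
  let q' : ℝ → ClimsP := fun t => (t, 0, 0, b + I * t, k', α')
  have hq' : ∀ n : ℕ, ContDiffOn ℝ n (fun t : ℝ => N (t⁻¹ • q' t)) (Set.Ioi R) := by
    intro n
    have h1 : ContDiff ℝ n fun t : ℝ => (t : ℂ) := ofRealCLM.contDiff
    have h2 : ContDiff ℝ n q' := h1.prodMk (contDiff_const.prodMk (contDiff_const.prodMk
      ((contDiff_const.add (contDiff_const.mul h1)).prodMk contDiff_const)))
    exact N.contDiff.comp_contDiffOn
      ((contDiffOn_id.inv fun t ht => (hR.trans ht).ne').smul h2.contDiffOn)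
  have hu : ∀ a e, R < a → TendstoUniformlyOn (fun n (t : ℝ) => t⁻¹ • q n t)
      (fun t : ℝ => t⁻¹ • q' t) atTop (Set.Icc a e) := by
    intro a e ha
    refine Metric.tendstoUniformlyOn_iff.2 fun δ hδ => ?_
    have ha0 : 0 < a := hR.trans ha
    have hδ' : 0 < a * δ := mul_pos ha0 hδ
    filter_upwards [hv a ha _ hδ', Metric.tendsto_nhds.1 hα _ hδ', Metric.tendsto_nhds.1 hk _ hδ']
      with n h1 h2 h3 t htm
    have ht0 : 0 < t := ha0.trans_le htm.1
    have h4 : dist (q' t) (q n t) < a * δ := by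
      simp only [q, q', Prod.dist_eq, dist_self, dist_zero_left, max_lt_iff]
      exact ⟨hδ', (h1 t htm.1).1, (h1 t htm.1).2, hδ', by rwa [dist_comm], by rwa [dist_comm]⟩
    rw [dist_smul₀, Real.norm_of_nonneg (inv_nonneg.2 ht0.le), inv_mul_lt_iff₀ ht0]
    exact h4.trans_le (mul_le_mul_of_nonneg_right htm.1 hδ.le)
  obtain ⟨Y, hY, hlim⟩ := ode_limit (F := ClimsF) R t0 ht (fun n t => N (t⁻¹ • q n t))
    (fun t => N (t⁻¹ • q' t)) (fun n t => (fun i => y n i t, fun i => deriv (y n i) t)) (c, d)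
    (hq' 0).continuousOn (fun a e ha => N.uniformContinuous.comp_tendstoUniformlyOn (hu a e ha))
    (fun n t htR => by
      have ht0 : (t : ℂ) ≠ 0 := ofReal_ne_zero.2 (hR.trans htR).ne'
      refine ((hasDerivAt_pi.2 fun i => (hy n i t htR).1).prodMk
        (hasDerivAt_pi.2 fun i => (hy n i t htR).2)).congr_deriv ?_
      rw [hN]
      refine Prod.ext (funext fun i => ?_) (funext fun i => ?_)
      · simp only [q, Prod.smul_fst, real_smul, ofReal_inv]
        field_simp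
      · simp only [q, Prod.smul_fst, Prod.smul_snd, Pi.smul_apply, real_smul, ofReal_inv]
        field_simp
        linear_combination ode n i t htR)
    ((tendsto_pi_nhds.2 hc).prodMk_nhds (tendsto_pi_nhds.2 hd))
  have hs := clims_smooth hq' hY 10
  have d1 : ∀ i t, R < t → HasDerivAt (fun t => (Y t).1 i) ((Y t).2 i) t := by
    intro i t htR
    have ht0 : (t : ℂ) ≠ 0 := ofReal_ne_zero.2 (hR.trans htR).ne'
    refine (hasDerivAt_pi.1 (hY t htR).fst i).congr_deriv ?_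
    rw [hN]
    simp only [q', Prod.smul_fst, real_smul, ofReal_inv]
    field_simp
  refine ⟨fun i t => (Y t).1 i, fun i => contDiffOn_pi.1 hs.fst i, fun i t htR => ?_,
    fun i t htR => ⟨tendsto_pi_nhds.1 (hlim t htR).fst_nhds i, ?_⟩⟩
  · have ht0 : (t : ℂ) ≠ 0 := ofReal_ne_zero.2 (hR.trans htR).ne'
    have e : deriv (fun t => (Y t).1 i) =ᶠ[𝓝 t] fun t => (Y t).2 i := by
      filter_upwards [isOpen_Ioi.mem_nhds htR] with s hs using (d1 i s hs).deriv
    rw [e.deriv_eq, (d1 i t htR).deriv, (hasDerivAt_pi.1 (hY t htR).snd i).deriv, hN]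
    simp only [q', Prod.smul_fst, Prod.smul_snd, Pi.smul_apply, real_smul, ofReal_inv]
    field_simp
    ring
  · rw [(d1 i t htR).deriv]
    exact tendsto_pi_nhds.1 (hlim t htR).snd_nhds i

theorem clims_on {u : ℝ → ℂ} {N : ℕ} {R : ℝ} (j : ℕ)
    (hu : ContDiffOn ℝ (N + j : ℕ) u (Set.Ioi R)) :
    ContDiffOn ℝ N (iteratedDeriv j u) (Set.Ioi R) := by
  induction j generalizing N with
  | zero => simpa using hu
  | succ j ih =>
    rw [iteratedDeriv_succ]
    exact (ih (N := N + 1) (by rwa [add_assoc, add_comm 1])).deriv_of_isOpen isOpen_Ioi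
      (by push_cast; exact le_rfl)

theorem clims_hasDeriv {u : ℝ → ℂ} {j : ℕ} {R : ℝ} (hu : ContDiffOn ℝ 10 u (Set.Ioi R))
    (hj : j < 10) {s : ℝ} (hs : R < s) :
    HasDerivAt (iteratedDeriv j u) (iteratedDeriv (j + 1) u s) s := by
  rw [iteratedDeriv_succ]
  have h := clims_on (N := 1) j (hu.of_le (by exact_mod_cast (by omega : 1 + j ≤ 10)))
  exact ((h.contDiffAt (isOpen_Ioi.mem_nhds hs)).differentiableAt (by simp)).hasDerivAt

theorem clims_rec {u p : ℝ → ℂ} {R : ℝ} (hu : ContDiffOn ℝ 10 u (Set.Ioi R))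
    (hp : ContDiffOn ℝ 10 p (Set.Ioi R)) {b α κ : ℂ}
    (ode : ∀ s : ℝ, R < s → s * deriv (deriv u) s + (b + I * s) * deriv u s + α * u s = κ * p s)
    (k : ℕ) (hk : k ≤ 7) {s : ℝ} (hs : R < s) :
    s * iteratedDeriv (k + 2) u s + (b + k + I * s) * iteratedDeriv (k + 1) u s
      + (α + I * k) * iteratedDeriv k u s = κ * iteratedDeriv k p s := by
  induction k generalizing s with
  | zero =>
    have := ode s hs
    simp only [iteratedDeriv_succ, iteratedDeriv_zero, Nat.cast_zero, add_zero, mul_zero]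
    exact this
  | succ k ih =>
    have e : (fun s : ℝ => s * iteratedDeriv (k + 2) u s
        + (b + k + I * s) * iteratedDeriv (k + 1) u s + (α + I * k) * iteratedDeriv k u s)
        =ᶠ[𝓝 s] fun s => κ * iteratedDeriv k p s := by
      filter_upwards [isOpen_Ioi.mem_nhds hs] with t ht using ih (by omega) ht
    have h0 : HasDerivAt (fun t : ℝ => (t : ℂ)) 1 s := ofRealCLM.hasDerivAt
    have h1 := ((h0.fun_mul (clims_hasDeriv hu (j := k + 2) (by omega) hs)).fun_add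
      (((h0.const_mul I).const_add (b + k)).fun_mul
        (clims_hasDeriv hu (j := k + 1) (by omega) hs))).fun_add
      ((clims_hasDeriv hu (j := k) (by omega) hs).const_mul (α + I * k))
    have h2 := (h1.congr_of_eventuallyEq e.symm).unique
      ((clims_hasDeriv hp (j := k) (by omega) hs).const_mul κ)
    push_cast
    linear_combination h2

theorem clims_fatou {G : ℕ → ℝ → ℝ} {f : ℝ → ℝ} {a K : ℝ}
    (hG : ∀ n, IntegrableOn (G n) (Set.Ioi a)) (h0 : ∀ n t, a < t → 0 ≤ G n t)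
    (hK : ∀ᶠ n in atTop, ∫ t in Set.Ioi a, G n t ≤ K)
    (hf : ∀ t, a < t → Tendsto (fun n => G n t) atTop (𝓝 (f t))) : IntegrableOn f (Set.Ioi a) := by
  refine integrable_of_tendsto (G := G) ((ae_restrict_iff' measurableSet_Ioi).2
    (Eventually.of_forall hf)) (fun n => (hG n).aestronglyMeasurable) ?_
  refine ne_top_of_le_ne_top (ENNReal.ofReal_ne_top (r := K)) (liminf_le_of_frequently_le' ?_)
  refine Eventually.frequently ?_
  filter_upwards [hK] with n hn
  rw [← ofReal_integral_norm_eq_lintegral_enorm (hG n)]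
  refine ENNReal.ofReal_le_ofReal (le_trans (le_of_eq ?_) hn)
  exact setIntegral_congr_fun measurableSet_Ioi fun t ht => Real.norm_of_nonneg (h0 n t ht)

theorem clims_change (l : ℕ) {h : ℝ → ℂ} {a : ℝ} (ha : 2.89 ≤ a)
    (hi : IntegrableOn (fun r : ℝ => r ^ 11 * ‖(r : ℂ) ^ (l + 8) / 2 ^ 8 * h (r ^ 2 / 4)‖ ^ 2)
      (Set.Ioi 3.4)) : IntegrableOn (fun t : ℝ => t ^ (l + 13) * ‖h t‖ ^ 2) (Set.Ioi a) := by
  have him : Set.Ioi a ⊆ (fun r : ℝ => r ^ 2 / 4) '' Set.Ioi 3.4 := by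
    intro t ht
    have ht' : 2.89 < t := ha.trans_lt ht
    refine ⟨2 * √t, ?_, ?_⟩
    · have : 1.7 < √t := Real.lt_sqrt_of_sq_lt (by linarith)
      exact Set.mem_Ioi.2 (by linarith)
    · simp only
      rw [mul_pow, Real.sq_sqrt (by linarith)]
      ring
  refine IntegrableOn.mono_set ?_ him
  refine (integrableOn_image_iff_integrableOn_abs_deriv_smul (f' := fun r => r / 2)
    measurableSet_Ioi (fun r _ => ?_) (fun r hr r' hr' e => ?_) _).2 ?_
  · exact (((hasDerivAt_pow 2 r).div_const 4).congr_deriv (by push_cast; ring)).hasDerivWithinAt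
  · have h1 : (3.4 : ℝ) < r := hr
    have h2 : (3.4 : ℝ) < r' := hr'
    exact (pow_left_inj₀ (by linarith) (by linarith) two_ne_zero).1 (by linarith)
  · refine IntegrableOn.congr_fun (hi.const_mul (2 ^ 15 / 4 ^ (l + 13))) (fun r hr => ?_)
      measurableSet_Ioi
    have h1 : (3.4 : ℝ) < r := hr
    have h2 : 0 < r := by linarith
    simp only [smul_eq_mul, norm_mul, norm_div, norm_pow, norm_real, Real.norm_of_nonneg h2.le,
      Complex.norm_ofNat, abs_of_pos (half_pos h2), div_pow, mul_pow]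
    ring

end Vale.Agent.P139
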