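import Vale.Agent.P139.CSrc
import Vale.Agent.P139.CUp

open Complex MeasureTheory Filter Topology
open scoped ComplexConjugate ContDiff

namespace Vale.Agent.P139

theorem COut8_le {a b : ℝ} (h : a ^ 2 ≤ b ^ 2) (hb : 0 ≤ b) : a ≤ b :=
  (le_abs_self a).trans (abs_le_of_sq_le_sq' h hb |> abs_le.2)

theorem COut8_norm (t : ℝ) (ht : 0 < t) (x : ℂ) :
    ‖((t ^ (11 / 2 : ℝ) : ℝ) : ℂ) * Complex.exp (I * ((t ^ 2 / 8 : ℝ) : ℂ)) * x‖
      = t ^ (11 / 2 : ℝ) * ‖x‖ := by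
  rw [norm_mul, norm_mul, Complex.norm_exp_I_mul_ofReal, mul_one, Complex.norm_real,
    Real.norm_of_nonneg (by positivity)]

theorem COut8_sq (t : ℝ) (ht : 0 < t) : (t ^ (11 / 2 : ℝ)) ^ 2 = t ^ 11 := by
  rw [← Real.rpow_natCast, ← Real.rpow_mul ht.le, ← Real.rpow_natCast]
  norm_num

theorem COut8_beta {r : ℝ} (h0 : 3.3 ≤ r) (h1 : r ≤ 3.46) :
    ‖(11 / (2 * r) + I * r / 4 : ℂ)‖ ≤ 3 := by
  have hr : 0 < r := by linarith
  refine (norm_add_le _ _).trans ?_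
  have e1 : ‖(11 / (2 * r) : ℂ)‖ = 11 / (2 * r) := by
    simp [abs_of_pos hr]
  have e2 : ‖(I * r / 4 : ℂ)‖ = r / 4 := by
    simp [abs_of_pos hr]
  have e3 : 11 / (2 * r) ≤ 2 := by
    rw [div_le_iff₀ (by positivity)]
    linarith
  rw [e1, e2]
  linarith

/-- elementary consequences of the energy bound -/
theorem COut8_el {x y L E : ℝ} (hL : 1 ≤ L) (h : y ^ 2 + L ^ 2 * x ^ 2 ≤ E) :
    x * y ≤ E / L / 2 ∧ L * x ^ 2 ≤ E / L ∧ x ^ 2 ≤ E / L ∧ x ^ 2 ≤ E / L / L := by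
  have hL0 : 0 < L := by linarith
  have h2 : L * x ^ 2 ≤ E / L := by
    rw [le_div_iff₀ hL0]
    nlinarith [sq_nonneg y]
  refine ⟨?_, h2, ?_, ?_⟩
  · rw [le_div_iff₀ (by norm_num), le_div_iff₀ hL0]
    nlinarith [sq_nonneg (y - L * x)]
  · nlinarith [sq_nonneg x]
  · rw [le_div_iff₀ hL0]
    linarith

theorem COut8_c1 {x y y1 : ℝ} (hx : 0 ≤ x) (hy : 0 ≤ y) (a1 : y - 3 * x ≤ y1) :
    y ^ 2 - 6 * (x * y) ≤ y1 ^ 2 := by
  rcases le_total y (3 * x) with h1 | h1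
  · nlinarith [sq_nonneg y1, mul_nonneg hx hy]
  · nlinarith [sq_nonneg x]

theorem COut8_c3 {x L r Ω om ν n : ℝ} (hL : 1 ≤ L) (r0 : 1 ≤ r) (ho : 0 ≤ om)
    (hν : ν ≤ n + 115 * L) : (Ω - n / r ^ 2) * x ^ 2 - 115 * (L * x ^ 2)
      ≤ (r ^ 2 / 16 + (om + Ω) - ν / r ^ 2) * x ^ 2 := by
  have c2 : ν / r ^ 2 ≤ n / r ^ 2 + 115 * L := by
    have : 115 * L / r ^ 2 ≤ 115 * L := div_le_self (by positivity) (one_le_pow₀ r0)
    calc ν / r ^ 2 ≤ (n + 115 * L) / r ^ 2 := by gcongr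
      _ = n / r ^ 2 + 115 * L / r ^ 2 := by ring
      _ ≤ _ := by linarith
  have : Ω - n / r ^ 2 - 115 * L ≤ r ^ 2 / 16 + (om + Ω) - ν / r ^ 2 := by
    have := sq_nonneg r
    linarith
  exact le_trans (le_of_eq (by ring)) (mul_le_mul_of_nonneg_right this (sq_nonneg x))

theorem COut8_T1 {x y1 ρ R a b q k u Sr : ℝ} (hR : ρ ^ 2 = R) (R1 : 1 ≤ R) (hu : 0 ≤ u)
    (hS : Sr ≤ u) (T : (ρ * y1) ^ 2 + a * (ρ * x) ^ 2 ≤
      2 * k * (R * b) + q * (ρ * x * (ρ * y1 + k * (ρ * x))) + (ρ * x) ^ 2 / 4 + Sr) :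
    y1 ^ 2 + a * x ^ 2 ≤ 2 * k * b + q * (x * (y1 + k * x)) + x ^ 2 / 4 + u := by
  have hS' : Sr ≤ R * u := hS.trans (le_mul_of_one_le_left hu R1)
  refine le_of_mul_le_mul_left ?_ (by linarith : 0 < R)
  have e1 : (ρ * y1) ^ 2 + a * (ρ * x) ^ 2 = R * (y1 ^ 2 + a * x ^ 2) := by rw [← hR]; ring
  have e2 : 2 * k * (R * b) + q * (ρ * x * (ρ * y1 + k * (ρ * x))) + (ρ * x) ^ 2 / 4 + R * u
      = R * (2 * k * b + q * (x * (y1 + k * x)) + x ^ 2 / 4 + u) := by rw [← hR]; ring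
  rw [← e1, ← e2]
  linarith

/-- the real inequality behind the second claim -/
theorem COut8_real {x y y1 L E ρ R r J Ω om ν n k q C D η Sr : ℝ} (hx : 0 ≤ x) (hy : 0 ≤ y)
    (hL : 1 ≤ L) (h : y ^ 2 + L ^ 2 * x ^ 2 ≤ E) (hR : ρ ^ 2 = R) (R1 : 1 ≤ R)
    (r0 : 1 ≤ r) (r1 : r ≤ 4) (a1 : y - 3 * x ≤ y1) (a2 : y1 ≤ y + 3 * x) (a3 : 0 ≤ y1)
    (ho : 0 ≤ om) (hν : ν ≤ n + 115 * L) (k0 : 0 ≤ k) (k1 : k ≤ 3 * L) (q0 : 0 ≤ q)
    (q1 : q ≤ D * η * L) (hη : 1 / L ≤ η) (hC : 0 ≤ C) (hJ : -(C * η * E / L) ≤ J)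
    (hS : Sr ≤ C * η * E)
    (T : (ρ * y1) ^ 2 + (r ^ 2 / 16 + (om + Ω) - ν / r ^ 2) * (ρ * x) ^ 2 ≤
      2 * k * (R * (J + r / 4 * x ^ 2)) + q * (ρ * x * (ρ * y1 + k * (ρ * x)))
        + (ρ * x) ^ 2 / 4 + Sr) :
    y ^ 2 + (Ω - n / r ^ 2) * x ^ 2 ≤ 6 * L * J + (125 + 7 * C + 7 * D) * η * E := by
  obtain ⟨b1, b2, b3, -⟩ := COut8_el hL h
  have hL0 : 0 < L := by linarith
  have hE : 0 ≤ E := le_trans (by positivity) h
  have hη0 : 0 ≤ η := le_trans (by positivity) hη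
  have hEL : E / L ≤ η * E := by
    rw [div_eq_mul_one_div, mul_comm]
    exact mul_le_mul_of_nonneg_right hη hE
  have T1 := COut8_T1 hR R1 (by positivity) hS T
  clear T
  have c1 := COut8_c1 hx hy a1
  have c3 := COut8_c3 (x := x) (Ω := Ω) hL r0 ho hν
  have c4 : 2 * k * J ≤ 6 * L * J + 6 * (C * η * E) := by
    have h1 : (6 * L - 2 * k) * (-(C * η * E / L)) ≤ (6 * L - 2 * k) * J :=
      mul_le_mul_of_nonneg_left hJ (by linarith)
    have h2 : (6 * L - 2 * k) * (C * η * E / L) ≤ 6 * L * (C * η * E / L) :=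
      mul_le_mul_of_nonneg_right (by linarith) (by positivity)
    have h3 : 6 * L * (C * η * E / L) = 6 * (C * η * E) := by field_simp
    linarith only [h1, h2, h3]
  have c5 : 2 * k * (r / 4 * x ^ 2) ≤ 6 * (L * x ^ 2) := by
    have h1 : r / 4 * x ^ 2 ≤ x ^ 2 := mul_le_of_le_one_left (sq_nonneg _) (by linarith)
    calc 2 * k * (r / 4 * x ^ 2) ≤ 2 * (3 * L) * x ^ 2 := by gcongr
      _ = _ := by ring
  have h2 : 0 ≤ E / L := by positivity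
  have c6 : x * (y1 + k * x) ≤ 7 * (E / L) := by
    have h1 : x * (y1 + k * x) ≤ x * (y + 3 * x + 3 * L * x) := by gcongr
    linarith only [h1, h2, b1, b2, b3]
  have c7 : q * (x * (y1 + k * x)) ≤ 7 * D * η * E := by
    calc q * (x * (y1 + k * x)) ≤ D * η * L * (7 * (E / L)) :=
          mul_le_mul q1 c6 (by positivity) (q0.trans q1)
      _ = _ := by field_simp
  linarith only [T1, c1, c3, c4, c5, c7, b1, b2, b3, hEL, h2]

theorem COut8_j1 {x J r R C ε η E L A M : ℝ} (hL : 1 ≤ L) (hE : 0 ≤ E) (hC : 0 ≤ C) (e0 : 0 ≤ ε)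
    (R1 : 1 ≤ R) (r1 : r ≤ 4) (b4 : x ^ 2 ≤ E / L / L) (η1 : ε ≤ η) (η2 : 1 / L ≤ η) (M0 : 0 ≤ M)
    (s1 : A ≤ C * ε * E / L) (fl : |M - R * (J + r / 4 * x ^ 2)| ≤ A) :
    -((C + 1) * η * E / L) ≤ J := by
  have EL : 0 ≤ E / L := by positivity
  have h1 : -(C * ε * E / L) ≤ R * (J + r / 4 * x ^ 2) := by linarith [(abs_le.1 fl).2]
  have h2 : -(C * ε * E / L) ≤ J + r / 4 * x ^ 2 := by
    have h4 : 0 ≤ C * ε * E / L := by positivity
    rcases le_total 0 (J + r / 4 * x ^ 2) with h3 | h3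
    · linarith
    · have := mul_nonneg (sub_nonneg.2 R1) (neg_nonneg.2 h3)
      linarith only [h1, this]
  have h3 : r / 4 * x ^ 2 ≤ 1 / L * (E / L) := by
    have : r / 4 * x ^ 2 ≤ x ^ 2 := mul_le_of_le_one_left (sq_nonneg _) (by linarith)
    calc _ ≤ E / L / L := this.trans b4
      _ = _ := by ring
  have h4 : C * ε * (E / L) ≤ C * η * (E / L) := by gcongr
  have h5 : 1 / L * (E / L) ≤ η * (E / L) := by gcongr
  have h6 : (C + 1) * η * E / L = C * η * (E / L) + η * (E / L) := by ring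
  have h7 : C * ε * E / L = C * ε * (E / L) := by ring
  linarith only [h2, h3, h4, h5, h6, h7]

theorem COut8_j3 {x x' y J J' r r' R R' C ε E L A : ℝ} (hL : 1 ≤ L) (hE : 0 ≤ E) (hC : 0 ≤ C)
    (e1 : ε ≤ 1) (R1 : 1 ≤ R) (R2 : R ≤ R') (r1 : r ≤ 4) (r2 : 0 ≤ r') (b1 : x * y ≤ E / L / 2)
    (b3 : x ^ 2 ≤ E / L) (hJ : J ≤ x * y) (s1 : A ≤ C * ε * E / L)
    (h1 : R' * (J' + r' / 4 * x' ^ 2) ≤ R * (J + r / 4 * x ^ 2) + A) :
    J' ≤ (2 + C) * E / L := by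
  have EL : 0 ≤ E / L := by positivity
  have h3 : J + r / 4 * x ^ 2 ≤ 2 * (E / L) := by
    have : r / 4 * x ^ 2 ≤ x ^ 2 := mul_le_of_le_one_left (sq_nonneg _) (by linarith)
    linarith
  have h4 : A ≤ R' * (C * (E / L)) := by
    have h5 : C * ε * E / L ≤ C * (E / L) := by
      calc C * ε * E / L = C * ε * (E / L) := by ring
        _ ≤ C * 1 * (E / L) := by gcongr
        _ = _ := by ring
    exact (s1.trans h5).trans (le_mul_of_one_le_left (by positivity) (R1.trans R2))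
  have h5 : R * (J + r / 4 * x ^ 2) ≤ R' * (2 * (E / L)) :=
    (mul_le_mul_of_nonneg_left h3 (by linarith)).trans
      (mul_le_mul_of_nonneg_right R2 (by positivity))
  have h6 : J' + r' / 4 * x' ^ 2 ≤ 2 * (E / L) + C * (E / L) := by
    refine le_of_mul_le_mul_left ?_ (by linarith : 0 < R')
    linarith only [h1, h4, h5]
  have h7 : 0 ≤ r' / 4 * x' ^ 2 := by positivity
  rw [mul_div_assoc]
  linarith only [h6, h7]

/-- the size of the Liouville parameters -/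
theorem COut8_par {c L N x y a om ε η r : ℝ} {l : ℕ} (hc : 0 < c) (hL : 1 ≤ L)
    (hL2 : L ^ 2 = 1 + N + (l : ℝ) ^ 2) (x0 : 0 ≤ x) (x1 : x ≤ N) (y1 : -N ≤ y) (a0 : 0 ≤ a)
    (a1 : a ≤ 1) (o0 : 0 ≤ om) (o1 : om ≤ 1) (e0 : 0 ≤ ε) (hη : η = ε + 1 / L + x / L ^ 2)
    (hz : c * L ^ 2 ≤ -y) (r0 : 0 ≤ r) (r1 : r ≤ 4) :
    ((l : ℝ) + 13) ^ 2 - 1 / 4 ≤ ((l + 8 : ℕ) : ℝ) ^ 2 + 115 * L ∧
      kk (om + -y) (x + 1 + a) r ≤ 3 * L ∧ 0 ≤ 2 * (x + 1 + a) / KK (om + -y) (x + 1 + a) ∧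
      2 * (x + 1 + a) / KK (om + -y) (x + 1 + a) ≤ 4 / √c * η * L := by
  have sc : 0 < √c := Real.sqrt_pos.2 hc
  have hL0 : 0 < L := by linarith
  have hκ : 1 ≤ x + 1 + a := by linarith
  have hK := ct_KK (om + -y) hκ
  have hk := ct_kk (om + -y) hκ r0
  have p : 0 ≤ c * L ^ 2 := by positivity
  have hΩ : 0 ≤ om + -y := by linarith
  rw [max_eq_left hΩ] at hK
  have hl : (l : ℝ) ≤ L := COut8_le (by linarith) hL0.le
  have K1 : √c * L ≤ KK (om + -y) (x + 1 + a) := by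
    refine COut8_le ?_ (by linarith [hK.2])
    rw [mul_pow, Real.sq_sqrt hc.le]
    linarith [hK.1]
  have η0 : 0 ≤ η := by rw [hη]; positivity
  refine ⟨?_, ?_, by have := hK.2; positivity, ?_⟩
  · push_cast
    linarith
  · refine COut8_le ?_ (by linarith)
    have h1 : r ^ 2 ≤ 4 ^ 2 := pow_le_pow_left₀ r0 r1 2
    have h2 := sq_nonneg (l : ℝ)
    linarith [hk.1, hK.1]
  · rw [div_le_iff₀ (by linarith [hK.2])]
    have h1 : x + 1 + a ≤ 2 * (η * L ^ 2) := by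
      have h2 : η * L ^ 2 = ε * L ^ 2 + L + x := by rw [hη]; field_simp
      have h3 : 0 ≤ ε * L ^ 2 := by positivity
      linarith
    calc 2 * (x + 1 + a) ≤ 4 / √c * η * L * (√c * L) := by
          have : 4 / √c * η * L * (√c * L) = 4 * (η * L ^ 2) := by field_simp
          linarith
      _ ≤ _ := by gcongr

theorem COut8_aa {m : ℕ} (hm : 1 ≤ m) : 0 ≤ aa m ∧ aa m ≤ 1 := by
  have : (1 : ℝ) ≤ m := by exact_mod_cast hm
  unfold aa
  refine ⟨by positivity, ?_⟩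
  rw [div_le_one (by positivity)]
  linarith

theorem COut8_E (l : ℕ) (L : ℝ) (f g : ℝ → ℂ) (r : ℝ) :
    ‖deriv (lad l 8 f) r‖ ^ 2 + L ^ 2 * ‖lad l 8 f r‖ ^ 2 ≤ EE l L f g r := by
  have h1 := ee_le_EE l L f g r 8 le_rfl
  have h2 : 0 ≤ en L (lad l 8 g) r := by unfold en; positivity
  simp only [ee, Nat.sub_self, mul_zero, pow_zero, one_mul] at h1
  unfold en at h1 h2
  linarith

/-- outgoing condition at level 8 -/
theorem out8 (c : ℝ) (hc : 0 < c) : ∃ ε0 C1 C2 : ℝ, 0 < ε0 ∧ 0 ≤ C1 ∧ 0 ≤ C2 ∧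
    ∀ {ε : ℝ} {m : ℕ} {om σ : ℝ} {w : ℝ → ℂ}, Ctx ε m om σ w → ε ≤ ε0 →
    ∀ {l : ℕ} {z : ℂ} {f g : ℝ → ℂ}, HSol m om w l z f g → c * Lb l z ^ 2 ≤ -z.im →
    ∀ r ∈ Set.Icc (3.3 : ℝ) 3.46,
      -(C2 * eta ε l z * EE l (Lb l z) f g r / Lb l z) ≤ Jf (lad l 8 f) r ∧
      So (-z.im) (l + 8) (lad l 8 f) r
        ≤ C1 * Lb l z * Jf (lad l 8 f) r + C2 * eta ε l z * EE l (Lb l z) f g r ∧
      ∀ r' ∈ Set.Icc r 3.46, Jf (lad l 8 f) r' ≤ C2 * EE l (Lb l z) f g r / Lb l z := by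
  obtain ⟨ε0, C, he0, hC, H⟩ := src_bound
  have hD : 0 ≤ 4 / √c := by positivity
  refine ⟨ε0, 6, 125 + 7 * (C + 1) + 7 * (4 / √c), he0, by norm_num, by positivity,
    fun {ε m om σ w} hx hε {l z f g} h hz r hr => ?_⟩
  obtain ⟨s1, s2, -⟩ := H hx hε h r hr
  clear H
  have d0 : Dec l (0 : ℝ → ℂ) := ⟨0, fun k _ r _ => by simp [lad_zero]⟩
  have li := lio_of_sol hx h.sol h.re contDiff_const h.df h.dg d0 hr.1
  have hr0 : 0 < r := by linarith [hr.1]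
  have r1 : r ≤ 4 := by linarith [hr.2]
  have hL := one_le_Lb l z
  have hL0 : 0 < Lb l z := by linarith
  have hE := COut8_E l (Lb l z) f g r
  obtain ⟨a0, a1⟩ := COut8_aa hx.prof.m_pos
  have e0 := hx.e0
  have hre := h.re
  have hη : eta ε l z = ε + 1 / Lb l z + z.re / Lb l z ^ 2 := rfl
  have R1 : 1 ≤ r ^ 11 := one_le_pow₀ (by linarith [hr.1])
  have M0 : 0 ≤ (z.re + 1 + aa m) * ∫ t in Set.Ioi r, ‖lioV l f t‖ ^ 2 :=
    mul_nonneg (by linarith) (integral_nonneg fun t => by positivity)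
  obtain ⟨b1, -, b3, b4⟩ := COut8_el hL hE
  have hE0 : 0 ≤ EE l (Lb l z) f g r := le_trans (by positivity) hE
  have η1 : 0 ≤ z.re / Lb l z ^ 2 := by positivity
  have η2 : 0 ≤ 1 / Lb l z := by positivity
  have η3 : ε ≤ eta ε l z := by linarith only [hη, η1, η2]
  have η4 : 1 / Lb l z ≤ eta ε l z := by linarith only [hη, η1, e0]
  have η0 : 0 ≤ eta ε l z := η2.trans η4
  have fl := lio_flux li
  rw [lio_J l f hr0] at fl
  have j1 := COut8_j1 hL hE0 hC e0.le R1 r1 b4 η3 η4 M0 s1 fl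
  refine ⟨le_trans (neg_le_neg ?_) j1, ?_, fun r' hr' => ?_⟩
  · gcongr ?_ * _ * _ / _
    linarith only [hC, hD]
  · obtain ⟨p1, p2, p3, p4⟩ := COut8_par hc hL (Lb_sq l z) hre (abs_le.1 (abs_re_le_norm z)).2
      (abs_le.1 (abs_im_le_norm z)).1 a0 a1 (by linarith [hx.o0] : 0 ≤ om) (by linarith [hx.o1])
      e0.le hη hz hr0.le r1
    have hβ := mul_le_mul_of_nonneg_right (COut8_beta hr.1 hr.2) (norm_nonneg (lad l 8 f r))
    rw [← norm_mul] at hβ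
    have Ta := lio_Ta li
    rw [lio_J l f hr0, lioV, lioV1, COut8_norm r hr0, COut8_norm r hr0, sub_eq_add_neg om] at Ta
    rw [sub_eq_add_neg om] at s2
    rw [So]
    refine COut8_real (norm_nonneg _) (norm_nonneg _) hL hE (COut8_sq r hr0) R1
      (by linarith [hr.1]) r1 ?_ ?_ (norm_nonneg _) (by linarith [hx.o0]) p1
      (Real.sqrt_nonneg _) p2 p3 p4 η4 (by linarith) j1 (s2.trans ?_) Ta
    · have := norm_sub_le (deriv (lad l 8 f) r + (11 / (2 * r) + I * r / 4) * lad l 8 f r)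
        ((11 / (2 * r) + I * r / 4) * lad l 8 f r)
      rw [add_sub_cancel_right] at this
      linarith only [this, hβ]
    · linarith only [hβ,
        norm_add_le (deriv (lad l 8 f) r) ((11 / (2 * r) + I * r / 4) * lad l 8 f r)]
    · gcongr
      linarith only
  · have hr1 : 0 < r' := by linarith [hr'.1]
    have h1 := lio_flux_mono li hr'.1
    rw [lio_J l f hr1, lio_J l f hr0] at h1
    refine (COut8_j3 hL hE0 hC (by linarith [hx.e1]) R1 (pow_le_pow_left₀ hr0.le hr'.1 11) r1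
      hr1.le b1 b3 (abs_le.1 (ct_abs_im _ _)).2 s1 h1).trans ?_
    gcongr ?_ * _ / _
    linarith only [hC, hD]

end Vale.Agent.P139
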