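import Vale.Agent.P139.CNG1
import Vale.Agent.P139.COut8

open Complex MeasureTheory Filter Topology
open scoped ComplexConjugate ContDiff

namespace Vale.Agent.P139

theorem cng_cont (l : ℕ) (L : ℝ) {f : ℝ → ℂ} (hf : ContDiff ℝ 16 f) {r s : ℝ} (hr : 0 < r)
    (hs : r ≤ s) : IntervalIntegrable (en L (lad l 8 f)) volume r s := by
  obtain ⟨c0, c1⟩ := cng1_cont l hf hr s
  exact ((c1.norm.pow 2).add (continuousOn_const.mul (c0.norm.pow 2))).intervalIntegrable_of_Icc hs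

theorem cng_nn (L : ℝ) (f : ℝ → ℂ) (r : ℝ) : 0 ≤ en L f r := by unfold en; positivity

theorem cng_EE (l : ℕ) (L : ℝ) (f g : ℝ → ℂ) (r : ℝ) : 0 ≤ EE l L f g r :=
  le_trans (by positivity) (cng1_en f g r)

theorem cng_en (c : ℝ) (hc : 0 < c) : ∃ ε0 C : ℝ, 0 < ε0 ∧ 0 ≤ C ∧
    ∀ {ε : ℝ} {m : ℕ} {om σ : ℝ} {w : ℝ → ℂ}, Ctx ε m om σ w → ε ≤ ε0 →
    ∀ {l : ℕ} {z : ℂ} {f g : ℝ → ℂ}, HSol m om w l z f g →
    (c * Lb l z ^ 2 ≤ z.re ∨ c * Lb l z ^ 2 ≤ (l : ℝ) ^ 2 ∨ c * Lb l z ^ 2 ≤ z.im) →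
    ∀ r ∈ Set.Icc (3.3 : ℝ) 3.44,
      (∫ t in r..3.44, en (Lb l z) (lad l 8 f) t) ≤ C * EE l (Lb l z) f g r := by
  obtain ⟨ε1, C1, e1, p1, h1⟩ := ng_l2 c hc
  obtain ⟨ε2, C2, e2, p2, h2⟩ := cacc8
  refine ⟨min ε1 ε2, C2 * (1 + C1) + C1, lt_min e1 e2, by positivity, ?_⟩
  intro ε m om σ w hC he l z f g h H r hr
  have hr2 : r ≤ 3.46 := by linarith [hr.2]
  have r0 : 0 < r := by linarith [hr.1]
  have k1 := h1 hC (he.trans (min_le_left _ _)) h H r ⟨hr.1, hr2⟩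
  have k2 := h2 hC (he.trans (min_le_right _ _)) h r hr
  obtain ⟨c0, c1⟩ := cng1_cont l h.sol.1.1 r0 3.44
  have j0 : IntervalIntegrable (fun t => ‖lad l 8 f t‖ ^ 2) volume r 3.46 :=
    ((cng1_cont l h.sol.1.1 r0 3.46).1.norm.pow 2).intervalIntegrable_of_Icc hr2
  have j1 : IntervalIntegrable (fun t => ‖lad l 8 f t‖ ^ 2) volume r 3.44 :=
    (c0.norm.pow 2).intervalIntegrable_of_Icc hr.2
  have j2 : IntervalIntegrable (fun t => ‖deriv (lad l 8 f) t‖ ^ 2) volume r 3.44 :=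
    (c1.norm.pow 2).intervalIntegrable_of_Icc hr.2
  have k3 := mul_le_mul_of_nonneg_left (intervalIntegral.integral_mono_interval le_rfl hr.2
    (show (3.44 : ℝ) ≤ 3.46 by norm_num) (Eventually.of_forall fun t => by positivity) j0)
    (sq_nonneg (Lb l z))
  unfold en
  rw [intervalIntegral.integral_add j2 (j1.const_mul _), intervalIntegral.integral_const_mul]
  have k4 := mul_le_mul_of_nonneg_left k1 p2
  linarith

/-- the second component -/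
theorem cng_g (c : ℝ) (hc : 0 < c) : ∃ ε0 C : ℝ, 0 < ε0 ∧ 0 ≤ C ∧
    ∀ {ε : ℝ} {m : ℕ} {om σ : ℝ} {w : ℝ → ℂ}, Ctx ε m om σ w → ε ≤ ε0 →
    ∀ {l : ℕ} {z : ℂ} {f g : ℝ → ℂ}, HSol m om w l z f g → c * Lb l z ^ 2 ≤ z.re - z.im →
    ∀ r ∈ Set.Icc (3.3 : ℝ) 3.44,
      (∫ t in r..3.44, en (Lb l z) (lad l 8 g) t) ≤ C * EE l (Lb l z) f g r := by
  obtain ⟨ε1, C1, e1, p1, h1⟩ := cng_en (c / 2) (by positivity)
  refine ⟨ε1, C1, e1, p1, ?_⟩
  intro ε m om σ w hC he l z f g h H r hr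
  have k := h1 hC he h.swap (by
    rw [Lb_conj, conj_re, conj_im]
    by_contra hn
    push Not at hn
    linarith [hn.1, hn.2.2]) r hr
  rw [Lb_conj, EE_swap, lad_conj] at k
  simpa only [en_conj] using k

theorem cng_So {c δ L Ω t : ℝ} {l : ℕ} (F : ℝ → ℂ) (hδ : δ ≤ c / 16)
    (hL : 1024 ≤ c * L ^ 2) (hl : (l : ℝ) ^ 2 ≤ δ * L ^ 2) (hΩ : c / 2 * L ^ 2 ≤ Ω) (ht : 1 ≤ t) :
    min 1 (c / 4) * en L F t ≤ So Ω (l + 8) F t := by
  have h1 : ((l + 8 : ℕ) : ℝ) ^ 2 / t ^ 2 ≤ c / 4 * L ^ 2 := by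
    refine (div_le_self (by positivity) (one_le_pow₀ ht)).trans ?_
    push_cast
    have := mul_le_mul_of_nonneg_right hδ (sq_nonneg L)
    nlinarith [sq_nonneg ((l : ℝ) - 8)]
  have h2 := mul_le_mul_of_nonneg_right (min_le_left 1 (c / 4)) (sq_nonneg ‖deriv F t‖)
  have h3 := mul_le_mul_of_nonneg_right (min_le_right 1 (c / 4))
    (show 0 ≤ L ^ 2 * ‖F t‖ ^ 2 by positivity)
  have h4 := mul_le_mul_of_nonneg_right (show c / 4 * L ^ 2 ≤ Ω - ((l + 8 : ℕ) : ℝ) ^ 2 / t ^ 2 by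
    linarith) (sq_nonneg ‖F t‖)
  unfold en So
  linarith

/-- the first component -/
theorem cng_f (c : ℝ) (hc : 0 < c) : ∃ ε0 L0 C : ℝ, 0 < ε0 ∧ 0 ≤ C ∧
    ∀ {ε : ℝ} {m : ℕ} {om σ : ℝ} {w : ℝ → ℂ}, Ctx ε m om σ w → ε ≤ ε0 →
    ∀ {l : ℕ} {z : ℂ} {f g : ℝ → ℂ}, HSol m om w l z f g → z.im ≤ 0 → L0 ≤ Lb l z →
    c * Lb l z ^ 2 ≤ ‖z‖ → ∀ r ∈ Set.Icc (3.3 : ℝ) 3.44,
      (∫ t in r..3.44, en (Lb l z) (lad l 8 f) t) ≤ C * EE l (Lb l z) f g r := by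
  obtain ⟨ε1, Cg, e1, p1, h1⟩ := cng_g c hc
  obtain ⟨ε2, C1, C2, e2, p2, p2', h2⟩ := out8 (c / 2) (by positivity)
  obtain ⟨Ld, Cd, p3, h3⟩ := EE_down c hc
  have k0 : 0 < min 1 (c / 4) := by positivity
  set k := min 1 (c / 4) with hk
  obtain ⟨θ, θ0, θ1⟩ : ∃ θ : ℝ, 0 < θ ∧ C2 * Cd * (3 * θ) ≤ k / 2 := by
    refine ⟨k / (6 * (C2 * Cd + 1)), by positivity, ?_⟩
    rw [← mul_assoc, ← mul_div_assoc, div_le_iff₀ (by positivity)]
    nlinarith [mul_nonneg p2' p3]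
  obtain ⟨ε4, C4, e4, p4, h4⟩ := cng_en (min (c / 16) θ) (by positivity)
  refine ⟨min (min ε1 ε2) (min ε4 θ), max Ld (max (1 / θ) (1024 / c)),
    C4 + (2 * (C1 * C2) / k + Cg), by positivity, by positivity, ?_⟩
  intro ε m om σ w hC he l z f g h him hL hz r hr
  simp only [le_min_iff, max_le_iff] at he hL
  have hE := cng_EE l (Lb l z) f g r
  have q0 : 0 ≤ (2 * (C1 * C2) / k + Cg) * EE l (Lb l z) f g r := by positivity
  by_cases H : min (c / 16) θ * Lb l z ^ 2 ≤ z.re ∨ min (c / 16) θ * Lb l z ^ 2 ≤ (l : ℝ) ^ 2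
  · have := h4 hC he.2.1 h (H.imp_right Or.inl) r hr
    linarith
  push Not at H
  have L1 := one_le_Lb l z
  have L0 : 0 < Lb l z := by linarith
  have z1 := norm_le_abs_re_add_abs_im z
  rw [abs_of_nonneg h.re, abs_of_nonpos him] at z1
  have d1 := mul_le_mul_of_nonneg_right (min_le_left (c / 16) θ) (sq_nonneg (Lb l z))
  have d2 := mul_le_mul_of_nonneg_right (min_le_right (c / 16) θ) (sq_nonneg (Lb l z))
  have d3 : 0 ≤ c * Lb l z ^ 2 := by positivity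
  have hΩ : c / 2 * Lb l z ^ 2 ≤ -z.im := by linarith [H.1]
  have d4 : 1024 ≤ c * Lb l z ^ 2 := by
    have := (div_le_iff₀ hc).1 hL.2.2
    nlinarith [mul_le_mul_of_nonneg_left L1 (mul_pos hc L0).le]
  have η1 : eta ε l z ≤ 3 * θ := by
    have a1 : 1 / Lb l z ≤ θ := by
      rw [div_le_iff₀ L0, mul_comm]; exact (div_le_iff₀ θ0).1 hL.2.1
    have a2 : z.re / Lb l z ^ 2 ≤ θ := by rw [div_le_iff₀ (by positivity)]; linarith [H.1]
    unfold eta; linarith [he.2.2]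
  have hr2 : r ≤ 3.46 := by linarith [hr.2]
  have r0 : 0 < r := by linarith [hr.1]
  have jg := cng_cont l (Lb l z) h.sol.2.1.1 r0 hr.2
  have key : ∫ t in r..3.44, en (Lb l z) (lad l 8 f) t ≤ ∫ t in r..3.44,
      (2 * (C1 * C2) / k * EE l (Lb l z) f g r + en (Lb l z) (lad l 8 g) t) := by
    refine intervalIntegral.integral_mono_on hr.2 (cng_cont l _ h.sol.1.1 r0 hr.2)
      (intervalIntegrable_const.add jg) fun t ht => ?_
    have ht' : t ∈ Set.Icc (3.3 : ℝ) 3.46 := ⟨hr.1.trans ht.1, by linarith [ht.2]⟩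
    have s1 := cng_So (lad l 8 f) (min_le_left _ θ) d4 H.2.le hΩ
      (show 1 ≤ t by linarith [ht'.1])
    have s2 := (h2 hC he.1.2 h hΩ t ht').2.1
    have s3 := (le_div_iff₀ L0).1 ((h2 hC he.1.2 h hΩ r ⟨hr.1, hr2⟩).2.2 t ⟨ht.1, ht'.2⟩)
    have s4 := h3 hC h.sol hL.1 hz t ht'
    have s5 := mul_le_mul_of_nonneg_left s3 p2
    have s6 := mul_le_mul (mul_le_mul_of_nonneg_left η1 p2') s4 (cng_EE _ _ _ _ _) (by positivity)
    have n1 := cng_nn (Lb l z) (lad l 8 f) t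
    have n2 := cng_nn (Lb l z) (lad l 8 g) t
    have s7 := mul_le_mul_of_nonneg_right θ1 (add_nonneg n1 n2)
    rw [ee] at s6
    rw [← hk] at s1
    rw [div_mul_eq_mul_div, div_add' _ _ _ k0.ne', le_div_iff₀ k0]
    linarith [mul_nonneg n2 k0.le]
  rw [intervalIntegral.integral_add intervalIntegrable_const jg, intervalIntegral.integral_const,
    smul_eq_mul] at key
  have k1 := h1 hC he.1.1 h (by linarith) r hr
  have k2 := mul_le_mul_of_nonneg_right (show 3.44 - r ≤ 1 by linarith [hr.1])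
    (show 0 ≤ 2 * (C1 * C2) / k * EE l (Lb l z) f g r by positivity)
  linarith [mul_nonneg p4 hE]

/-- sharp no growth at level 0 -/
theorem ng (c : ℝ) (hc : 0 < c) : ∃ ε0 L0 C : ℝ, 0 < ε0 ∧ 0 ≤ C ∧
    ∀ {ε : ℝ} {m : ℕ} {om σ : ℝ} {w : ℝ → ℂ}, Ctx ε m om σ w → ε ≤ ε0 →
    ∀ {l : ℕ} {z : ℂ} {f g : ℝ → ℂ}, HSol m om w l z f g → z.im ≤ 0 → L0 ≤ Lb l z →
    c * Lb l z ^ 2 ≤ ‖z‖ → ∀ r ∈ Set.Icc (3.3 : ℝ) 3.44,
      (∫ t in r..3.44, ee (Lb l z) f g t) ≤ C * ee (Lb l z) f g r := by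
  obtain ⟨ε1, Cg, e1, p1, h1⟩ := cng_g c hc
  obtain ⟨ε2, L2, Cf, e2, p2, h2⟩ := cng_f c hc
  obtain ⟨Ld, Cd, p3, h3⟩ := EE_down c hc
  obtain ⟨Cu, p4, h4⟩ := EE_up
  refine ⟨min ε1 ε2, max L2 Ld, Cd * (Cf + Cg) * Cu, lt_min e1 e2, by positivity, ?_⟩
  intro ε m om σ w hC he l z f g h him hL hz r hr
  simp only [le_min_iff, max_le_iff] at he hL
  have hr2 : r ≤ 3.46 := by linarith [hr.2]
  have r0 : 0 < r := by linarith [hr.1]
  have z1 := norm_le_abs_re_add_abs_im z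
  rw [abs_of_nonneg h.re, abs_of_nonpos him] at z1
  have k1 := h1 hC he.1 h (by linarith) r hr
  have k2 := h2 hC he.2 h him hL.1 hz r hr
  have k3 := h4 hC h.sol contDiff_const contDiff_const r ⟨hr.1, hr2⟩
  simp only [lad_zero, Pi.zero_apply, norm_zero, ne_eq, OfNat.ofNat_ne_zero, not_false_eq_true,
    zero_pow, add_zero, Finset.sum_const_zero] at k3
  have jf := cng_cont l (Lb l z) h.sol.1.1 r0 hr.2
  have jg := cng_cont l (Lb l z) h.sol.2.1.1 r0 hr.2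
  have ce : Continuous (ee (Lb l z) f g) := by
    have a1 := h.sol.1.1.continuous
    have a2 := h.sol.2.1.1.continuous
    have a3 := h.sol.1.1.continuous_deriv (by norm_num)
    have a4 := h.sol.2.1.1.continuous_deriv (by norm_num)
    unfold ee en
    fun_prop
  have key : ∫ t in r..3.44, Lb l z ^ 16 * ee (Lb l z) f g t ≤ ∫ t in r..3.44,
      Cd * (en (Lb l z) (lad l 8 f) t + en (Lb l z) (lad l 8 g) t) :=
    intervalIntegral.integral_mono_on hr.2 ((ce.intervalIntegrable _ _).const_mul _)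
      ((jf.add jg).const_mul _) fun t ht => (ee_le_EE l (Lb l z) f g t 0 (by norm_num)).trans
        (h3 hC h.sol hL.2 hz t ⟨hr.1.trans ht.1, by linarith [ht.2]⟩)
  rw [intervalIntegral.integral_const_mul, intervalIntegral.integral_const_mul,
    intervalIntegral.integral_add jf jg] at key
  have L0 : 0 < Lb l z ^ 16 := pow_pos (one_pos.trans_le (one_le_Lb l z)) 16
  refine le_of_mul_le_mul_left ?_ L0
  have k4 := mul_le_mul_of_nonneg_left (add_le_add k2 k1) p3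
  have k5 := mul_le_mul_of_nonneg_left k3 (show 0 ≤ Cd * (Cf + Cg) by positivity)
  linarith

end Vale.Agent.P139
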