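import Vale.Agent.P139.CT

open Complex MeasureTheory Filter Topology
open scoped ComplexConjugate ContDiff

namespace Vale.Agent.P139

theorem cng1_coef {c L l x y a om t : ℝ} (hc : 0 < c) (hL : 1 ≤ L) (hl : 0 ≤ l) (hx : 0 ≤ x)
    (hx' : x + 1 ≤ L ^ 2) (hy : -y + 1 ≤ L ^ 2) (ha : 0 < a) (ha' : a ≤ 1 / 1000)
    (ho : om ≤ 0.34) (ht : 3 ≤ t) (ht' : t ≤ 3.46)
    (H : c * L ^ 2 ≤ x ∨ c * L ^ 2 ≤ l ^ 2 ∨ c * L ^ 2 ≤ y) :
    min (c ^ 2) c / 21 * L ^ 2 ≤ 2 * ((l + 13) ^ 2 - 1 / 4) / t ^ 3 + (x + 1 + a) *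
      NNt ((l + 13) ^ 2 - 1 / 4) (om - y) (x + 1 + a) t / (2 * (t / 4 + KK (om - y) (x + 1 + a))) := by
  have hν : l ^ 2 ≤ (l + 13) ^ 2 - 1 / 4 := by nlinarith
  have hν0 : 0 ≤ (l + 13) ^ 2 - 1 / 4 := (sq_nonneg l).trans hν
  have hK : 0 ≤ KK (om - y) (x + 1 + a) := Real.sqrt_nonneg _
  have hN : 1 + (x + 1 + a) + max (-(om - y)) 0 ≤
      NNt ((l + 13) ^ 2 - 1 / 4) (om - y) (x + 1 + a) t := by
    have : 0 ≤ ((l + 13) ^ 2 - 1 / 4) / t ^ 2 := by positivity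
    unfold NNt; linarith
  have m0 := le_max_right (-(om - y)) 0
  have m1 := le_max_left (-(om - y)) 0
  have c1 := mul_le_mul_of_nonneg_right (min_le_left (c ^ 2) c) (sq_nonneg L)
  have c2 := mul_le_mul_of_nonneg_right (min_le_right (c ^ 2) c) (sq_nonneg L)
  have c3 : 0 < c * L ^ 2 := by positivity
  set N := NNt ((l + 13) ^ 2 - 1 / 4) (om - y) (x + 1 + a) t
  set K := KK (om - y) (x + 1 + a) with hKd
  have p1 : 0 ≤ 2 * ((l + 13) ^ 2 - 1 / 4) / t ^ 3 := by positivity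
  have p2 : 0 ≤ (x + 1 + a) * N / (2 * (t / 4 + K)) :=
    div_nonneg (mul_nonneg (by linarith) (by linarith)) (by positivity)
  rcases H with H | H | H
  · have k1 : K ≤ 2 * L := by
      rw [hKd, KK, Real.sqrt_le_left (by linarith)]
      have : max (om - y) 0 ≤ L ^ 2 := max_le (by linarith) (by positivity)
      nlinarith
    have k2 : c ^ 2 * L ^ 2 / 6 ≤ (x + 1 + a) * N / (2 * (t / 4 + K)) := by
      rw [le_div_iff₀ (by positivity)]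
      have k3 : c * L ^ 2 * (c * L ^ 2) ≤ (x + 1 + a) * N :=
        mul_le_mul (by linarith) (by linarith) c3.le (by linarith)
      have k4 : 2 * (t / 4 + K) ≤ 6 * L ^ 2 := by nlinarith
      nlinarith [mul_le_mul_of_nonneg_left k4 (show 0 ≤ c ^ 2 * L ^ 2 / 6 by positivity)]
    nlinarith [sq_nonneg (c * L)]
  · have k2 : c * L ^ 2 / 21 ≤ 2 * ((l + 13) ^ 2 - 1 / 4) / t ^ 3 := by
      rw [le_div_iff₀ (by positivity)]
      have k3 : t ^ 3 ≤ 42 := (pow_le_pow_left₀ (by linarith) ht' 3).trans (by norm_num)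
      nlinarith
    linarith
  · have k1 : K ≤ 2 * (x + 1 + a) := by
      rw [hKd, KK, Real.sqrt_le_left (by linarith)]
      have : max (om - y) 0 ≤ 1 := max_le (by linarith) zero_le_one
      nlinarith
    have k2 : c * L ^ 2 / 6 ≤ (x + 1 + a) * N / (2 * (t / 4 + K)) := by
      rw [le_div_iff₀ (by positivity)]
      have k3 : (x + 1 + a) * (c * L ^ 2) ≤ (x + 1 + a) * N :=
        mul_le_mul_of_nonneg_left (by linarith) (by linarith)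
      have k4 : 2 * (t / 4 + K) ≤ 6 * (x + 1 + a) := by linarith
      nlinarith [mul_le_mul_of_nonneg_left k4 c3.le]
    linarith

theorem cng1_bd {L l x y a om r u u1 W v1 : ℝ} (hL : 1 ≤ L) (hl' : l ^ 2 ≤ L ^ 2)
    (hx : 0 ≤ x) (hx' : x + 1 ≤ L ^ 2) (hy : |y| + 1 ≤ L ^ 2) (ha : 0 < a) (ha' : a ≤ 1 / 1000)
    (ho' : 0 ≤ om) (ho : om ≤ 0.34) (hr : 3 ≤ r) (hr' : r ≤ 4) (hu : 0 ≤ u) (hu1 : 0 ≤ u1)
    (hW : 0 ≤ W) (hv : v1 ≤ W * (u1 + 3 * u)) :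
    NNt ((l + 13) ^ 2 - 1 / 4) (om - y) (x + 1 + a) r * (W * u) ^ 2 +
      2 * (x + 1 + a) / KK (om - y) (x + 1 + a) *
        (W * u * (v1 + kk (om - y) (x + 1 + a) r * (W * u))) + (W * u) ^ 2 / 4 ≤
      400 * W ^ 2 * (u1 ^ 2 + L ^ 2 * u ^ 2) := by
  obtain ⟨y1, y2⟩ := abs_le.1 (show |y| ≤ L ^ 2 - 1 by linarith)
  have hL2 : 1 ≤ L ^ 2 := one_le_pow₀ hL
  have n1 : NNt ((l + 13) ^ 2 - 1 / 4) (om - y) (x + 1 + a) r ≤ 350 * L ^ 2 := by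
    have n2 : ((l + 13) ^ 2 - 1 / 4) / r ^ 2 ≤ 340 * L ^ 2 := by
      rw [div_le_iff₀ (by positivity)]
      have n3 : L ^ 2 * 1 ≤ L ^ 2 * r ^ 2 := mul_le_mul_of_nonneg_left (by nlinarith) (by linarith)
      nlinarith [sq_nonneg (l - 13)]
    have n4 : max (-(om - y)) 0 ≤ L ^ 2 := max_le (by linarith) (by linarith)
    unfold NNt; linarith
  have m0 := le_max_right (om - y) 0
  have m1 : max (om - y) 0 ≤ L ^ 2 := max_le (by linarith) (by linarith)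
  have k0 : KK (om - y) (x + 1 + a) ^ 2 = 1 + (x + 1 + a) + max (om - y) 0 :=
    Real.sq_sqrt (by linarith)
  have k1 : 0 < KK (om - y) (x + 1 + a) := Real.sqrt_pos.2 (by linarith)
  have k2 : KK (om - y) (x + 1 + a) ≤ 2 * L := by
    rw [KK, Real.sqrt_le_left (by linarith)]; nlinarith
  have k3 : 2 * (x + 1 + a) / KK (om - y) (x + 1 + a) ≤ 4 * L := by
    rw [div_le_iff₀ k1]; nlinarith
  have k4 : kk (om - y) (x + 1 + a) r ≤ 3 * L := by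
    rw [kk, Real.sqrt_le_left (by linarith)]; nlinarith
  have hWu : 0 ≤ W * u := mul_nonneg hW hu
  have k5 : v1 + kk (om - y) (x + 1 + a) r * (W * u) ≤ W * u1 + 6 * L * (W * u) := by
    have := mul_le_mul_of_nonneg_right k4 hWu
    have := mul_le_mul_of_nonneg_right hL hWu
    nlinarith
  have k6 : 2 * (x + 1 + a) / KK (om - y) (x + 1 + a) *
      (W * u * (v1 + kk (om - y) (x + 1 + a) r * (W * u))) ≤
      4 * L * (W * u * (W * u1 + 6 * L * (W * u))) :=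
    (mul_le_mul_of_nonneg_left (mul_le_mul_of_nonneg_left k5 hWu) (by positivity)).trans
      (mul_le_mul_of_nonneg_right k3 (by positivity))
  have k7 := mul_le_mul_of_nonneg_right n1 (sq_nonneg (W * u))
  have k8 := mul_le_mul_of_nonneg_right hL2 (sq_nonneg (W * u))
  nlinarith [sq_nonneg (W * u1 - L * (W * u)), sq_nonneg (W * u1), sq_nonneg (L * (W * u))]

theorem cng1_pt {F F1 F2 R ζ : ℂ} {μ t φ L : ℝ} (hμ : 0 ≤ μ) (ht : 3 ≤ t) (ht' : t ≤ 4)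
    (h0 : 0 ≤ φ) (h1 : φ ≤ 1) (hL : 1 ≤ L ^ 2) (hζ : ‖ζ‖ ≤ 5 * L ^ 2)
    (h : F2 + 11 / t * F1 - μ / t ^ 2 * F + I * ζ * F + I * t / 2 * F1 = R) :
    φ ^ 2 * ‖F1‖ ^ 2 / 2 - 38 * (L ^ 2 * ‖F‖ ^ 2) - ‖R‖ ^ 2 / 2 ≤
      -(2 * φ) * (conj F * F1).re + φ ^ 2 * (conj F1 * F1 + conj F * F2).re := by
  have t0 : 0 < t := by linarith
  have e1 : conj F * F2 = ((μ / t ^ 2 * ‖F‖ ^ 2 : ℝ) : ℂ) +
      conj F * (R - (11 / t + I * t / 2) * F1 - I * ζ * F) := by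
    push_cast
    linear_combination conj F * h + μ / t ^ 2 * conj_mul' F
  have e2 : ‖(11 / t + I * t / 2 : ℂ)‖ ≤ 6 := by
    refine (norm_add_le _ _).trans ?_
    simp only [norm_div, norm_mul, norm_I, norm_real, Real.norm_of_nonneg t0.le, norm_ofNat]
    have : 11 / t ≤ 4 := by rw [div_le_iff₀ t0]; linarith
    linarith
  have e3 : ‖R - (11 / t + I * t / 2) * F1 - I * ζ * F‖ ≤ ‖R‖ + 6 * ‖F1‖ + 5 * L ^ 2 * ‖F‖ := by
    refine (norm_sub_le _ _).trans (add_le_add ((norm_sub_le _ _).trans (add_le_add le_rfl ?_)) ?_)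
    · rw [norm_mul]; exact mul_le_mul_of_nonneg_right e2 (norm_nonneg _)
    · rw [norm_mul, norm_mul, norm_I, one_mul]; exact mul_le_mul_of_nonneg_right hζ (norm_nonneg _)
  have e4 := (abs_le.1 (abs_re_le_norm (conj F * (R - (11 / t + I * t / 2) * F1 - I * ζ * F)))).1
  have e5 := re_le_norm (conj F * F1)
  rw [norm_mul, norm_conj] at e4 e5
  have e6 := mul_le_mul_of_nonneg_left e3 (norm_nonneg F)
  have e7 : 0 ≤ μ / t ^ 2 * ‖F‖ ^ 2 := by positivity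
  have e8 : -(‖F‖ * (‖R‖ + 6 * ‖F1‖ + 5 * L ^ 2 * ‖F‖)) ≤ (conj F * F2).re := by
    rw [e1, add_re, ofReal_re]; linarith
  rw [add_re, conj_mul', ← ofReal_pow, ofReal_re]
  have e9 := mul_le_mul_of_nonneg_left e8 (sq_nonneg φ)
  have f1 := mul_le_mul_of_nonneg_left e5 h0
  have f2 : φ ^ 2 ≤ φ := by nlinarith
  have f3 := mul_le_mul_of_nonneg_right f2 (mul_nonneg (norm_nonneg F) (norm_nonneg F1))
  have f4 := mul_le_mul_of_nonneg_right (f2.trans h1) (show 0 ≤ ‖F‖ * ‖R‖ + 5 * L ^ 2 * ‖F‖ ^ 2 by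
    positivity)
  have f5 := mul_le_mul_of_nonneg_right hL (sq_nonneg ‖F‖)
  nlinarith [sq_nonneg (φ * ‖F1‖ - 8 * ‖F‖), sq_nonneg (‖F‖ - ‖R‖)]

end Vale.Agent.P139
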