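import Vale.Agent.P139.CSrc
import Vale.Agent.P139.CUp
import Vale.Agent.P139.CNG1X1

open Complex MeasureTheory Filter Topology
open scoped ComplexConjugate ContDiff

namespace Vale.Agent.P139

theorem cng1_aa {ε : ℝ} {m : ℕ} {om σ : ℝ} {w : ℝ → ℂ} (h : Ctx ε m om σ w) :
    0 < aa m ∧ aa m ≤ 1 / 1000 := by
  have h1 : (0 : ℝ) < m := by exact_mod_cast h.prof.m_pos
  refine ⟨h.prof.aa_pos, le_trans ?_ h.e1⟩
  rw [aa, div_le_iff₀ (by positivity)]
  nlinarith [h.good.hm]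

theorem cng1_en {l : ℕ} {L : ℝ} (f g : ℝ → ℂ) (r : ℝ) :
    ‖deriv (lad l 8 f) r‖ ^ 2 + L ^ 2 * ‖lad l 8 f r‖ ^ 2 ≤ EE l L f g r := by
  have h := ee_le_EE l L f g r 8 le_rfl
  have h2 : 0 ≤ en L (lad l 8 g) r := by unfold en; positivity
  rw [Nat.sub_self, mul_zero, pow_zero, one_mul, ee] at h
  exact le_trans (le_add_of_nonneg_right h2) h

theorem cng1_cont (l : ℕ) {f : ℝ → ℂ} (hf : ContDiff ℝ 16 f) {r : ℝ} (hr : 0 < r) (s : ℝ) :
    ContinuousOn (lad l 8 f) (Set.Icc r s) ∧ ContinuousOn (deriv (lad l 8 f)) (Set.Icc r s) := by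
  have h := lad_smooth l hf 8 (by norm_num)
  have hs : Set.Icc r s ⊆ Set.Ioi 0 := fun t ht => hr.trans_le ht.1
  exact ⟨h.continuousOn.mono hs,
    (h.continuousOn_deriv_of_isOpen isOpen_Ioi (by norm_num)).mono hs⟩

theorem cng1_L (l : ℕ) (z : ℂ) : (l : ℝ) ^ 2 ≤ Lb l z ^ 2 ∧ z.re + 1 ≤ Lb l z ^ 2 ∧
    |z.im| + 1 ≤ Lb l z ^ 2 ∧ -z.im + 1 ≤ Lb l z ^ 2 := by
  have hL2 := Lb_sq l z
  have z1 := re_le_norm z
  have z2 := abs_im_le_norm z
  have z3 := neg_abs_le z.im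
  have z4 := sq_nonneg (l : ℝ)
  have z5 := norm_nonneg z
  exact ⟨by linarith, by linarith, by linarith, by linarith⟩

theorem cng1_nrm {r : ℝ} (r0 : 0 < r) (u : ℂ) :
    ‖((r ^ (11 / 2 : ℝ) : ℝ) : ℂ) * Complex.exp (I * ((r ^ 2 / 8 : ℝ) : ℂ)) * u‖ =
      r ^ (11 / 2 : ℝ) * ‖u‖ := by
  rw [norm_mul, norm_mul, mul_comm I, norm_exp_ofReal_mul_I, mul_one, norm_real,
    Real.norm_of_nonneg (by positivity)]

theorem cng1_b {ε : ℝ} {m : ℕ} {om σ : ℝ} {w : ℝ → ℂ} (hC : Ctx ε m om σ w) (l : ℕ) {z : ℂ}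
    (hz : 0 ≤ z.re) (f g : ℝ → ℂ) {r : ℝ} (hr : r ∈ Set.Icc (3.3 : ℝ) 3.46) :
    NNt (((l : ℝ) + 13) ^ 2 - 1 / 4) (om - z.im) (z.re + 1 + aa m) r * ‖lioV l f r‖ ^ 2 +
      2 * (z.re + 1 + aa m) / KK (om - z.im) (z.re + 1 + aa m) * (‖lioV l f r‖ * (‖lioV1 l f r‖ +
        kk (om - z.im) (z.re + 1 + aa m) r * ‖lioV l f r‖)) + ‖lioV l f r‖ ^ 2 / 4 ≤
      400 * 4 ^ 11 * EE l (Lb l z) f g r := by
  obtain ⟨a0, a1⟩ := cng1_aa hC
  obtain ⟨z1, z2, z3, -⟩ := cng1_L l z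
  have r0 : 0 < r := by linarith [hr.1]
  have hW : (r ^ (11 / 2 : ℝ)) ^ 2 ≤ 4 ^ 11 := by
    rw [← Real.rpow_natCast, ← Real.rpow_mul r0.le]
    norm_num only
    exact_mod_cast (pow_le_pow_left₀ r0.le (show r ≤ 4 by linarith [hr.2]) 11).trans (by norm_num)
  have hv1 : ‖lioV1 l f r‖ ≤ r ^ (11 / 2 : ℝ) * (‖deriv (lad l 8 f) r‖ + 3 * ‖lad l 8 f r‖) := by
    rw [lioV1, cng1_nrm r0]
    refine mul_le_mul_of_nonneg_left ((norm_add_le _ _).trans (add_le_add le_rfl ?_))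
      (by positivity)
    rw [norm_mul]
    refine mul_le_mul_of_nonneg_right ((norm_add_le _ _).trans ?_) (norm_nonneg _)
    simp only [norm_div, norm_mul, norm_I, norm_real, Real.norm_of_nonneg r0.le, norm_ofNat]
    have : 11 / (2 * r) ≤ 2 := by rw [div_le_iff₀ (by positivity)]; linarith [hr.1]
    linarith [hr.2]
  have h3 := cng1_bd (one_le_Lb l z) z1 hz z2 z3 a0 a1 (by linarith [hC.o0]) hC.o1
    (show 3 ≤ r by linarith [hr.1]) (by linarith [hr.2]) (norm_nonneg (lad l 8 f r)) (norm_nonneg _)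
    (by positivity) hv1
  rw [← cng1_nrm r0, ← lioV] at h3
  have h5 := mul_le_mul hW (cng1_en (l := l) (L := Lb l z) f g r) (by positivity) (by positivity)
  linarith

theorem cng1_m {c : ℝ} (hc : 0 < c) {ε : ℝ} {m : ℕ} {om σ : ℝ} {w : ℝ → ℂ} (hC : Ctx ε m om σ w)
    {l : ℕ} {z : ℂ} (hz : 0 ≤ z.re) {f : ℝ → ℂ} (hf : ContDiff ℝ 16 f)
    (H : c * Lb l z ^ 2 ≤ z.re ∨ c * Lb l z ^ 2 ≤ (l : ℝ) ^ 2 ∨ c * Lb l z ^ 2 ≤ z.im) {r : ℝ}
    (hr : r ∈ Set.Icc (3.3 : ℝ) 3.46) (hv : ContinuousOn (lioV l f) (Set.Icc r 3.46)) :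
    ∫ t in r..3.46, min (c ^ 2) c / 21 * Lb l z ^ 2 * ‖lad l 8 f t‖ ^ 2 ≤
      ∫ t in r..3.46, (2 * (((l : ℝ) + 13) ^ 2 - 1 / 4) / t ^ 3 + (z.re + 1 + aa m) *
        NNt (((l : ℝ) + 13) ^ 2 - 1 / 4) (om - z.im) (z.re + 1 + aa m) t /
        (2 * (t / 4 + KK (om - z.im) (z.re + 1 + aa m)))) * ‖lioV l f t‖ ^ 2 := by
  obtain ⟨a0, a1⟩ := cng1_aa hC
  obtain ⟨-, z2, -, z4⟩ := cng1_L l z
  have r0 : 0 < r := by linarith [hr.1]
  refine intervalIntegral.integral_mono_on hr.2 ?_ ?_ fun t ht => ?_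
  · exact (continuousOn_const.mul
      ((cng1_cont l hf r0 _).1.norm.pow 2)).intervalIntegrable_of_Icc hr.2
  · refine ContinuousOn.intervalIntegrable_of_Icc hr.2 (ContinuousOn.mul ?_ (hv.norm.pow 2))
    have hK : 0 ≤ KK (om - z.im) (z.re + 1 + aa m) := Real.sqrt_nonneg _
    intro t ht
    have t0 : 0 < t := r0.trans_le ht.1
    refine ContinuousAt.continuousWithinAt ?_
    unfold NNt
    fun_prop (disch := positivity)
  · have t3 : 3 ≤ t := by linarith [hr.1, ht.1]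
    have k := cng1_coef hc (one_le_Lb l z) l.cast_nonneg hz z2 z4 a0 a1 hC.o1 t3 ht.2 H
    refine mul_le_mul k ?_ (by positivity) (le_trans (by positivity) k)
    rw [lioV_sq l f (by linarith)]
    exact le_mul_of_one_le_left (by positivity) (one_le_pow₀ (by linarith))

/-- sharp L^2 no growth at level 8 whenever one of three quantities dominates -/
theorem ng_l2 (c : ℝ) (hc : 0 < c) : ∃ ε0 C : ℝ, 0 < ε0 ∧ 0 ≤ C ∧
    ∀ {ε : ℝ} {m : ℕ} {om σ : ℝ} {w : ℝ → ℂ}, Ctx ε m om σ w → ε ≤ ε0 →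
    ∀ {l : ℕ} {z : ℂ} {f g : ℝ → ℂ}, HSol m om w l z f g →
    (c * Lb l z ^ 2 ≤ z.re ∨ c * Lb l z ^ 2 ≤ (l : ℝ) ^ 2 ∨ c * Lb l z ^ 2 ≤ z.im) →
    ∀ r ∈ Set.Icc (3.3 : ℝ) 3.46,
      Lb l z ^ 2 * (∫ t in r..3.46, ‖lad l 8 f t‖ ^ 2) ≤ C * EE l (Lb l z) f g r := by
  obtain ⟨ε0, C, e0, C0, hS⟩ := src_bound
  have c0 : 0 < min (c ^ 2) c / 21 := by positivity
  refine ⟨ε0, (400 * 4 ^ 11 + C) / (min (c ^ 2) c / 21), e0, by positivity, ?_⟩
  intro ε m om σ w hC he l z f g h H r hr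
  have hlio := lio_of_sol hC h.sol h.re contDiff_const h.df h.dg
    ⟨0, fun k _ r _ => by simp [lad_zero]⟩ hr.1
  have hT := lio_Tb hlio hr.2
  have h2 := (hS hC he h r hr).2.1
  have hE0 : 0 ≤ EE l (Lb l z) f g r := le_trans (by positivity) (cng1_en f g r)
  have h3 := cng1_b hC l h.re f g hr
  have h4 := cng1_m hc hC h.re h.sol.1.1 H hr
    fun t ht => (hlio.d0 t ht.1).continuousAt.continuousWithinAt
  rw [intervalIntegral.integral_const_mul] at h4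
  rw [div_mul_eq_mul_div, le_div_iff₀ c0]
  have h6 : C * ε * EE l (Lb l z) f g r ≤ C * 1 * EE l (Lb l z) f g r :=
    mul_le_mul_of_nonneg_right (mul_le_mul_of_nonneg_left (by linarith [hC.e1]) C0) hE0
  linarith

/-- Caccioppoli at level 8 -/
theorem cacc8 : ∃ ε0 C : ℝ, 0 < ε0 ∧ 0 ≤ C ∧
    ∀ {ε : ℝ} {m : ℕ} {om σ : ℝ} {w : ℝ → ℂ}, Ctx ε m om σ w → ε ≤ ε0 →
    ∀ {l : ℕ} {z : ℂ} {f g : ℝ → ℂ}, HSol m om w l z f g → ∀ r ∈ Set.Icc (3.3 : ℝ) 3.44,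
      (∫ t in r..3.44, ‖deriv (lad l 8 f) t‖ ^ 2) ≤
        C * (EE l (Lb l z) f g r + Lb l z ^ 2 * ∫ t in r..3.46, ‖lad l 8 f t‖ ^ 2) := by
  obtain ⟨ε0, C, e0, C0, hS⟩ := src_bound
  refine ⟨ε0, 5000 * (38 + C), e0, by positivity, ?_⟩
  intro ε m om σ w hC he l z f g h r hr
  have hr2 : r ≤ 3.46 := by linarith [hr.2]
  have r0 : 0 < r := by linarith [hr.1]
  have h2 := (hS hC he h r ⟨hr.1, hr2⟩).2.2
  obtain ⟨a0, a1⟩ := cng1_aa hC
  have hL : 1 ≤ Lb l z ^ 2 := one_le_pow₀ (one_le_Lb l z)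
  have hE := cng1_en (l := l) (L := Lb l z) f g r
  have hE0 : 0 ≤ EE l (Lb l z) f g r := le_trans (by positivity) hE
  obtain ⟨c0, c1⟩ := cng1_cont l h.sol.1.1 r0 3.46
  have cR := (Rk_cont hC.prof l 8 (by norm_num) h.sol.1.1 h.sol.2.1.1).mono
    (show Set.Icc r 3.46 ⊆ Set.Ioi 0 from fun t ht => r0.trans_le ht.1)
  set F := lad l 8 f with hF
  have hd : ∀ t, 0 < t → HasDerivAt (fun t => (3.46 - t) ^ 2 * (conj (F t) * deriv F t).re)
      (-(2 * (3.46 - t)) * (conj (F t) * deriv F t).re + (3.46 - t) ^ 2 *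
        (conj (deriv F t) * deriv F t + conj (F t) * deriv (deriv F) t).re) t := fun t ht => by
    have d0 := (lad_smooth l h.sol.1.1 8 (by norm_num)).contDiffAt (isOpen_Ioi.mem_nhds ht)
    have d1 : HasDerivAt F (deriv F t) t := (d0.differentiableAt (by norm_num)).hasDerivAt
    have d2 : HasDerivAt (deriv F) (deriv (deriv F) t) t :=
      ((((lad_smooth l h.sol.1.1 8 (by norm_num)).deriv_of_isOpen isOpen_Ioi (m := 1)
        (by norm_num)).contDiffAt (isOpen_Ioi.mem_nhds ht)).differentiableAt (by simp)).hasDerivAt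
    have d3 := reCLM.hasFDerivAt.comp_hasDerivAt t ((d1.star.mul d2))
    have d4 : HasDerivAt (fun t : ℝ => (3.46 - t) ^ 2) (-(2 * (3.46 - t))) t :=
      (((hasDerivAt_id t).const_sub 3.46).pow 2).congr_deriv (by simp)
    exact d4.mul d3
  have i1 : ContinuousOn (fun t => (3.46 - t) ^ 2 * ‖deriv F t‖ ^ 2) (Set.Icc r 3.46) :=
    ContinuousOn.mul (by fun_prop) (c1.norm.pow 2)
  have i2 : ContinuousOn (fun t => ‖F t‖ ^ 2) (Set.Icc r 3.46) := c0.norm.pow 2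
  have i3 : ContinuousOn (fun t => ‖Rk m w l 8 f g t‖ ^ 2) (Set.Icc r 3.46) := cR.norm.pow 2
  have h3 := intervalIntegral.integral_le_sub_of_hasDeriv_right_of_le hr2
    (φ := fun t => (3.46 - t) ^ 2 * ‖deriv F t‖ ^ 2 / 2 - 38 * (Lb l z ^ 2 * ‖F t‖ ^ 2) -
      ‖Rk m w l 8 f g t‖ ^ 2 / 2)
    (fun t ht => (hd t (r0.trans_le ht.1)).continuousAt.continuousWithinAt)
    (fun t ht => (hd t (r0.trans ht.1)).hasDerivWithinAt)
    (((i1.div_const 2).sub ((i2.const_smul (Lb l z ^ 2)).const_smul (38 : ℝ))).sub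
      (i3.div_const 2)).integrableOn_Icc fun t ht => by
      have o := lad_ode2 hC.prof h.sol contDiff_const 8 (by norm_num) (r0.trans ht.1)
      rw [lad_zero, Pi.zero_apply, mul_zero, add_zero] at o
      refine cng1_pt (μ := ((l : ℝ) + 8) * (l + 8 + 10)) (ζ := z + (8 : ℕ) / 2 + aa m - I * om)
        (t := t) (φ := 3.46 - t) (by positivity) (by linarith [hr.1, ht.1]) (by linarith [ht.2])
        (by linarith [ht.2]) (by linarith [hr.1, ht.1]) hL ?_ (by push_cast at o ⊢; exact o)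
      refine (norm_sub_le _ _).trans ((add_le_add norm_add₃_le le_rfl).trans ?_)
      simp only [norm_div, norm_mul, norm_I, norm_real, Real.norm_of_nonneg a0.le, norm_ofNat,
        Real.norm_of_nonneg (show 0 ≤ om by linarith [hC.o0])]
      have := Lb_sq l z
      rw [Complex.norm_natCast]
      push_cast
      nlinarith [hC.o1, norm_nonneg z]
  have j1 := i1.intervalIntegrable_of_Icc (μ := volume) hr2
  have j2 := i2.intervalIntegrable_of_Icc (μ := volume) hr2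
  have j3 := i3.intervalIntegrable_of_Icc (μ := volume) hr2
  rw [intervalIntegral.integral_sub ((j1.div_const 2).sub ((j2.const_mul _).const_mul _))
    (j3.div_const 2), intervalIntegral.integral_sub (j1.div_const 2) ((j2.const_mul _).const_mul _),
    intervalIntegral.integral_div, intervalIntegral.integral_div,
    intervalIntegral.integral_const_mul, intervalIntegral.integral_const_mul] at h3
  have s1 : Set.Icc r 3.44 ⊆ Set.Icc r 3.46 := Set.Icc_subset_Icc_right (by norm_num)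
  have h4 : ∫ t in r..3.44, ‖deriv F t‖ ^ 2 ≤
      ∫ t in r..3.44, 2500 * ((3.46 - t) ^ 2 * ‖deriv F t‖ ^ 2) :=
    intervalIntegral.integral_mono_on hr.2 (((c1.norm.pow 2).mono s1).intervalIntegrable_of_Icc hr.2)
      (((i1.mono s1).intervalIntegrable_of_Icc hr.2).const_mul _) fun t ht => by
      have := mul_le_mul_of_nonneg_right (show 1 ≤ 2500 * (3.46 - t) ^ 2 by nlinarith [ht.2])
        (sq_nonneg ‖deriv F t‖)
      linarith
  rw [intervalIntegral.integral_const_mul] at h4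
  have h5 := intervalIntegral.integral_mono_interval le_rfl hr.2 (show (3.44 : ℝ) ≤ 3.46 by norm_num)
    (Eventually.of_forall fun t => by positivity) j1
  have h6 := (abs_le.1 (abs_re_le_norm (conj (F r) * deriv F r))).1
  rw [norm_mul, norm_conj] at h6
  have h7 : (3.46 - r) ^ 2 ≤ 1 := by nlinarith [hr.1]
  have h8 := mul_le_mul_of_nonneg_left h6 (sq_nonneg (3.46 - r))
  have h9 := mul_le_mul_of_nonneg_right h7 (mul_nonneg (norm_nonneg (F r)) (norm_nonneg (deriv F r)))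
  have h10 := mul_le_mul_of_nonneg_right hL (sq_nonneg ‖F r‖)
  have h11 : 0 ≤ Lb l z ^ 2 * ∫ t in r..3.46, ‖F t‖ ^ 2 :=
    mul_nonneg (by positivity) (intervalIntegral.integral_nonneg hr2 fun t _ => by positivity)
  have h12 := mul_nonneg C0 h11
  rw [sub_self] at h3
  nlinarith [sq_nonneg (‖F r‖ - ‖deriv F r‖)]

end Vale.Agent.P139
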