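import Vale.Agent.P139.CLio

open Complex MeasureTheory Filter Topology
open scoped ComplexConjugate ContDiff

namespace Vale.Agent.P139

noncomputable def csrcH (l : ℕ) (f g : ℝ → ℂ) (t : ℝ) : ℝ :=
  ∑ i ∈ Finset.range 9, (t ^ (21 / 2 - 2 * (i : ℝ)) * ‖lad l (8 - i) f t‖ ^ 2
    + t ^ (21 / 2 - 2 * (i : ℝ)) * ‖lad l (8 - i) g t‖ ^ 2)

noncomputable def csrcG (l : ℕ) (f g : ℝ → ℂ) (t : ℝ) : ℝ :=
  t ^ 11 * ‖lad l 8 f t‖ ^ 2 + t ^ 11 * ‖lad l 8 g t‖ ^ 2 + csrcH l f g t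

theorem csrc_H0 (l : ℕ) (f g : ℝ → ℂ) {t : ℝ} (ht : 0 < t) : 0 ≤ csrcH l f g t :=
  Finset.sum_nonneg fun i _ => by positivity

theorem csrc_G0 (l : ℕ) (f g : ℝ → ℂ) {t : ℝ} (ht : 0 < t) : 0 ≤ csrcG l f g t := by
  have := csrc_H0 l f g ht
  unfold csrcG
  positivity

theorem csrc_EE0 (l : ℕ) (L : ℝ) (f g : ℝ → ℂ) (r : ℝ) : 0 ≤ EE l L f g r := by
  refine Finset.sum_nonneg fun k _ => mul_nonneg ?_ ?_
  · rw [pow_mul]
    positivity
  · unfold ee en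
    positivity

theorem csrc_Gint {l : ℕ} {f g : ℝ → ℂ} (hf : ContDiff ℝ 16 f) (hg : ContDiff ℝ 16 g)
    (df : Dec l f) (dg : Dec l g) {r : ℝ} (hr : 1 ≤ r) :
    IntegrableOn (csrcG l f g) (Set.Ioi r) ∧ ∫ t in Set.Ioi r, csrcG l f g t =
      M8 l f r + M8 l g r + ∑ i ∈ Finset.range 9, (Hi l i f r + Hi l i g r) := by
  have i1 := M8_int hf df hr
  have i2 := M8_int hg dg hr
  have i3 : ∀ i ∈ Finset.range 9, Integrable (fun t : ℝ =>
      t ^ (21 / 2 - 2 * (i : ℝ)) * ‖lad l (8 - i) f t‖ ^ 2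
        + t ^ (21 / 2 - 2 * (i : ℝ)) * ‖lad l (8 - i) g t‖ ^ 2) (volume.restrict (Set.Ioi r)) :=
    fun i hi => (Hi_int hf df hr i (by have := Finset.mem_range.1 hi; omega)).add
      (Hi_int hg dg hr i (by have := Finset.mem_range.1 hi; omega))
  have i4 : Integrable (csrcH l f g) (volume.restrict (Set.Ioi r)) := integrable_finsetSum _ i3
  have i5 : Integrable (fun t : ℝ => t ^ 11 * ‖lad l 8 f t‖ ^ 2 + t ^ 11 * ‖lad l 8 g t‖ ^ 2)
      (volume.restrict (Set.Ioi r)) := i1.add i2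
  refine ⟨i5.add i4, ?_⟩
  unfold csrcG
  rw [integral_add i5 i4, integral_add i1 i2]
  unfold csrcH
  rw [integral_finsetSum _ i3]
  refine congrArg₂ (· + ·) rfl (Finset.sum_congr rfl fun i hi => ?_)
  exact integral_add (Hi_int hf df hr i (by have := Finset.mem_range.1 hi; omega))
    (Hi_int hg dg hr i (by have := Finset.mem_range.1 hi; omega))

/-- everything dominated by the global weight is controlled by the data at r -/
theorem csrc_main : ∃ ε0 C : ℝ, 0 < ε0 ∧ 0 ≤ C ∧ ∀ {ε : ℝ} {m : ℕ} {om σ : ℝ} {w : ℝ → ℂ},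
    Ctx ε m om σ w → ε ≤ ε0 → ∀ {l : ℕ} {z : ℂ} {f g : ℝ → ℂ}, HSol m om w l z f g →
    ∀ r ∈ Set.Icc (3.3 : ℝ) 3.46, ∀ (F : ℝ → ℝ) (A : ℝ) (s : Set ℝ), MeasurableSet s →
      s ⊆ Set.Ioi r → 0 ≤ A → (∀ t ∈ s, 0 ≤ F t ∧ F t ≤ A * csrcG l f g t) →
      ∫ t in s, F t ≤ A * (C * (EE l (Lb l z) f g r / Lb l z)) := by
  obtain ⟨ε0, C, h0, hC, H⟩ := x1
  refine ⟨ε0, C, h0, hC, fun {ε m om σ w} hc he {l z f g} h r hr F A s hs hsub hA hF => ?_⟩
  have d0 : Dec l (0 : ℝ → ℂ) := ⟨0, fun k _ r _ => by simp [lad_zero]⟩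
  have h1 := H hc he h.sol h.re contDiff_const contDiff_const h.df h.dg d0 d0 r hr
  have m0 : M8 l (0 : ℝ → ℂ) r = 0 := by simp [M8, lad_zero]
  rw [m0, add_zero, add_zero] at h1
  have r1 : (1 : ℝ) ≤ r := by linarith [hr.1]
  obtain ⟨i1, i2⟩ := csrc_Gint h.sol.1.1 h.sol.2.1.1 h.df h.dg r1
  rw [← i2] at h1
  refine le_trans ?_ (mul_le_mul_of_nonneg_left h1 hA)
  have h2 : ∫ t in s, F t ≤ ∫ t in s, A * csrcG l f g t :=
    integral_mono_of_nonneg ((ae_restrict_iff' hs).mpr (Eventually.of_forall fun t ht => (hF t ht).1))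
      ((i1.mono_set hsub).const_mul A)
      ((ae_restrict_iff' hs).mpr (Eventually.of_forall fun t ht => (hF t ht).2))
  rw [integral_const_mul] at h2
  refine h2.trans (mul_le_mul_of_nonneg_left ?_ hA)
  refine setIntegral_mono_set i1 ?_ hsub.eventuallyLE
  exact (ae_restrict_iff' measurableSet_Ioi).mpr (Eventually.of_forall fun t ht =>
    csrc_G0 l f g (by linarith [Set.mem_Ioi.1 ht]))

theorem csrc_pow {t : ℝ} (ht : 1 ≤ t) (i : ℕ) :
    t ^ 12 * ((t ^ (2 + i))⁻¹) ^ 2 ≤ t ^ (21 / 2 - 2 * (i : ℝ)) := by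
  have h0 : 0 < t := by linarith
  have e : t ^ 12 * ((t ^ (2 + i))⁻¹) ^ 2 = t ^ (8 - 2 * (i : ℝ)) := by
    rw [show 8 - 2 * (i : ℝ) = ((12 : ℕ) : ℝ) - (((2 + i) * 2 : ℕ) : ℝ) by push_cast; ring,
      Real.rpow_sub h0, Real.rpow_natCast, Real.rpow_natCast, pow_mul, inv_pow, div_eq_mul_inv]
  rw [e]
  exact Real.rpow_le_rpow_of_exponent_le ht (by linarith)

theorem csrc_R : ∃ C : ℝ, 0 ≤ C ∧ ∀ {ε : ℝ} {m : ℕ} {om σ : ℝ} {w : ℝ → ℂ}, Ctx ε m om σ w →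
    ∀ (l : ℕ) (f g : ℝ → ℂ) (t : ℝ), 3.3 ≤ t →
      t ^ 12 * ‖Rk m w l 8 f g t‖ ^ 2 ≤ C * ε ^ 2 * csrcH l f g t := by
  obtain ⟨C, hC, H⟩ := Rk_bound
  refine ⟨18 * C ^ 2, by positivity, fun {ε m om σ w} hc l f g t ht => ?_⟩
  have t0 : 0 < t := by linarith
  have h1 := H hc l 8 f g t le_rfl t0 (by nlinarith [hc.s1, hc.e1])
  have h2 := pow_le_pow_left₀ (norm_nonneg _) h1 2
  have h3 := sq_sum_le_card_mul_sum_sq (s := Finset.range (8 + 1)) (f := fun i =>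
    (t ^ (2 + i))⁻¹ * (‖lad l (8 - i) f t‖ + ‖lad l (8 - i) g t‖))
  rw [Finset.card_range] at h3
  have h4 : t ^ 12 * ∑ i ∈ Finset.range (8 + 1),
      ((t ^ (2 + i))⁻¹ * (‖lad l (8 - i) f t‖ + ‖lad l (8 - i) g t‖)) ^ 2
        ≤ 2 * csrcH l f g t := by
    unfold csrcH
    rw [Finset.mul_sum, Finset.mul_sum]
    refine Finset.sum_le_sum fun i _ => ?_
    have h5 := csrc_pow (show (1 : ℝ) ≤ t by linarith) i
    have h6 : (‖lad l (8 - i) f t‖ + ‖lad l (8 - i) g t‖) ^ 2 ≤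
        2 * (‖lad l (8 - i) f t‖ ^ 2 + ‖lad l (8 - i) g t‖ ^ 2) := by
      nlinarith [sq_nonneg (‖lad l (8 - i) f t‖ - ‖lad l (8 - i) g t‖)]
    rw [mul_pow, ← mul_assoc]
    refine (mul_le_mul h5 h6 (sq_nonneg _) (by positivity)).trans (le_of_eq ?_)
    ring
  generalize ∑ i ∈ Finset.range (8 + 1),
    ((t ^ (2 + i))⁻¹ * (‖lad l (8 - i) f t‖ + ‖lad l (8 - i) g t‖)) ^ 2 = Q at h3 h4
  generalize ∑ i ∈ Finset.range (8 + 1),
    (t ^ (2 + i))⁻¹ * (‖lad l (8 - i) f t‖ + ‖lad l (8 - i) g t‖) = P at h2 h3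
  have h7 : (0 : ℝ) ≤ t ^ 12 := by positivity
  have h8 : (0 : ℝ) ≤ (C * ε) ^ 2 := sq_nonneg _
  push_cast at h3
  calc t ^ 12 * ‖Rk m w l 8 f g t‖ ^ 2 ≤ t ^ 12 * ((C * ε) ^ 2 * (9 * Q)) := by
        refine mul_le_mul_of_nonneg_left (h2.trans ?_) h7
        rw [mul_pow]
        exact mul_le_mul_of_nonneg_left (by linarith) h8
    _ = 9 * (C * ε) ^ 2 * (t ^ 12 * Q) := by ring
    _ ≤ 9 * (C * ε) ^ 2 * (2 * csrcH l f g t) := mul_le_mul_of_nonneg_left h4 (by positivity)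
    _ = _ := by ring

theorem csrc_S (m : ℕ) (w : ℝ → ℂ) (l : ℕ) (f g : ℝ → ℂ) {t : ℝ} (ht : 0 < t) :
    ‖lioS m w l f g 0 t‖ ^ 2 = t ^ 11 * ‖Rk m w l 8 f g t‖ ^ 2 := by
  have e1 : ‖Complex.exp (I * ((t ^ 2 / 8 : ℝ) : ℂ))‖ = 1 := by
    rw [mul_comm]
    exact norm_exp_ofReal_mul_I _
  have e2 : (t ^ (11 / 2 : ℝ)) ^ 2 = t ^ 11 := by
    rw [← Real.rpow_natCast, ← Real.rpow_mul ht.le, ← Real.rpow_natCast]
    norm_num
  rw [lioS, lad_zero, Pi.zero_apply, mul_zero, add_zero, norm_mul, norm_mul, e1, mul_one, mul_pow,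
    Complex.norm_real, Real.norm_eq_abs, sq_abs, e2]

theorem csrc_K {ε : ℝ} {m : ℕ} {om σ : ℝ} {w : ℝ → ℂ} (hc : Ctx ε m om σ w) (l : ℕ) {z : ℂ}
    (hz : 0 ≤ z.re) : 1 ≤ z.re + 1 + aa m ∧ KK (om - z.im) (z.re + 1 + aa m) ≤ 2 * Lb l z := by
  have m1 : (1 : ℝ) ≤ m := by exact_mod_cast hc.prof.m_pos
  have a0 : 0 ≤ aa m := by unfold aa; positivity
  have a1 : aa m ≤ 1 / 2 := by
    unfold aa
    exact one_div_le_one_div_of_le (by norm_num) (by linarith)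
  have hκ : 1 ≤ z.re + 1 + aa m := by linarith
  refine ⟨hκ, ?_⟩
  have h1 := (ct_KK (om - z.im) hκ).1
  have h2 := Lb_sq l z
  have h3 := one_le_Lb l z
  have h4 := (abs_le.1 (abs_re_le_norm z)).2
  have h5 := (abs_le.1 (abs_im_le_norm z)).1
  have h6 := norm_nonneg z
  have h7 : max (om - z.im) 0 ≤ 1 / 2 + ‖z‖ := max_le (by linarith [hc.o1]) (by linarith)
  refine (abs_le_of_sq_le_sq' ?_ (by linarith)).2
  nlinarith [sq_nonneg (l : ℝ)]

/-- source bounds for homogeneous solutions -/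
theorem src_bound : ∃ ε0 C : ℝ, 0 < ε0 ∧ 0 ≤ C ∧ ∀ {ε : ℝ} {m : ℕ} {om σ : ℝ} {w : ℝ → ℂ},
    Ctx ε m om σ w → ε ≤ ε0 → ∀ {l : ℕ} {z : ℂ} {f g : ℝ → ℂ}, HSol m om w l z f g →
    ∀ r ∈ Set.Icc (3.3 : ℝ) 3.46,
      (∫ t in Set.Ioi r, ‖lioV l f t‖ * ‖lioS m w l f g 0 t‖)
          ≤ C * ε * EE l (Lb l z) f g r / Lb l z ∧
        Src (om - z.im) (z.re + 1 + aa m) r (lioV l f) (lioS m w l f g 0)
          ≤ C * ε * EE l (Lb l z) f g r ∧
        (∫ t in r..3.46, ‖Rk m w l 8 f g t‖ ^ 2) ≤ C * EE l (Lb l z) f g r := by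
  obtain ⟨ε0, C, h0, hC, H⟩ := csrc_main
  obtain ⟨D, hD, HR⟩ := csrc_R
  refine ⟨ε0, 6 * (1 + D) * C, h0, by positivity,
    fun {ε m om σ w} hc he {l z f g} h r hr => ?_⟩
  have e0 := hc.e0
  have e1 : ε ≤ 1 := by linarith [hc.e1]
  have hL := one_le_Lb l z
  have hE := csrc_EE0 l (Lb l z) f g r
  obtain ⟨hκ, hK⟩ := csrc_K hc l h.re
  obtain ⟨hK2, hK1⟩ := ct_KK (om - z.im) hκ
  have hS : ∀ t, r < t → t * ‖lioS m w l f g 0 t‖ ^ 2 ≤ D * ε ^ 2 * csrcG l f g t := by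
    intro t ht
    have t3 : 3.3 ≤ t := hr.1.trans ht.le
    have t0 : 0 < t := by linarith
    rw [csrc_S m w l f g t0, ← mul_assoc, ← pow_succ']
    refine (HR hc l f g t t3).trans (mul_le_mul_of_nonneg_left ?_ (by positivity))
    unfold csrcG
    exact le_add_of_nonneg_left (by positivity)
  have hVS : ∀ t, r < t →
      ‖lioV l f t‖ * ‖lioS m w l f g 0 t‖ ≤ (1 + D) * ε * csrcG l f g t := by
    intro t ht
    have t3 : 3.3 ≤ t := hr.1.trans ht.le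
    have t0 : 0 < t := by linarith
    have h1 : ‖lioV l f t‖ ^ 2 ≤ csrcG l f g t := by
      rw [lioV_sq l f t0]
      have := csrc_H0 l f g t0
      unfold csrcG
      rw [add_assoc]
      exact le_add_of_nonneg_right (by positivity)
    have h2 : ‖lioS m w l f g 0 t‖ ^ 2 ≤ D * ε ^ 2 * csrcG l f g t :=
      (le_mul_of_one_le_left (sq_nonneg _) (by linarith)).trans (hS t ht)
    have h3 := csrc_G0 l f g t0
    refine le_of_mul_le_mul_left ?_ e0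
    generalize ‖lioV l f t‖ = a at h1 ⊢
    generalize ‖lioS m w l f g 0 t‖ = b at h2 ⊢
    generalize csrcG l f g t = G at h1 h2 h3 ⊢
    have h4 := mul_le_mul_of_nonneg_left h1 (sq_nonneg ε)
    have h5 : 0 ≤ ε ^ 2 * G := by positivity
    have h6 : 0 ≤ D * ε ^ 2 * G := by positivity
    nlinarith [sq_nonneg (ε * a - b)]
  have hq : 0 ≤ EE l (Lb l z) f g r / Lb l z := by positivity
  refine ⟨?_, ?_, ?_⟩
  · refine (H hc he h r hr _ ((1 + D) * ε) _ measurableSet_Ioi subset_rfl (by positivity)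
      fun t ht => ⟨by positivity, hVS t ht⟩).trans ?_
    rw [mul_div_assoc]
    have : 0 ≤ (1 + D) * ε * C * (EE l (Lb l z) f g r / Lb l z) := by positivity
    nlinarith
  · refine (H hc he h r hr _ (6 * (1 + D) * ε * Lb l z) _ measurableSet_Ioi subset_rfl
      (by positivity) fun t ht => ⟨?_, ?_⟩).trans (le_of_eq ?_)
    · have t0 : 0 < t := by linarith [hr.1, Set.mem_Ioi.1 ht]
      positivity
    · have t3 : 3.3 ≤ t := hr.1.trans (le_of_lt ht)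
      have h1 := hS t ht
      have h2 := hVS t ht
      have h3 := csrc_G0 l f g (show 0 < t by linarith)
      have h4 : 2 * (z.re + 1 + aa m) / KK (om - z.im) (z.re + 1 + aa m) ≤ 4 * Lb l z := by
        rw [div_le_iff₀ (by linarith)]
        have := le_max_right (om - z.im) 0
        nlinarith
      have h5 : t / 4 + KK (om - z.im) (z.re + 1 + aa m) ≤ Lb l z * t := by nlinarith
      have h6 : 2 * (t / 4 + KK (om - z.im) (z.re + 1 + aa m)) * ‖lioS m w l f g 0 t‖ ^ 2 /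
          (z.re + 1 + aa m) ≤ 2 * Lb l z * (t * ‖lioS m w l f g 0 t‖ ^ 2) := by
        refine (div_le_self (by positivity) hκ).trans ?_
        have := mul_le_mul_of_nonneg_right h5 (sq_nonneg ‖lioS m w l f g 0 t‖)
        linarith
      have h7 := mul_le_mul h4 h2 (by positivity) (by positivity)
      have h8 := mul_le_mul_of_nonneg_left h1 (show 0 ≤ 2 * Lb l z by positivity)
      have h9 : D * ε ^ 2 * csrcG l f g t ≤ (1 + D) * ε * csrcG l f g t :=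
        mul_le_mul_of_nonneg_right (by nlinarith [mul_nonneg hD e0.le]) h3
      have h10 := mul_le_mul_of_nonneg_left h9 (show 0 ≤ 2 * Lb l z by positivity)
      linarith
    · field_simp
  · rw [intervalIntegral.integral_of_le hr.2]
    refine (H hc he h r hr _ D _ measurableSet_Ioc Set.Ioc_subset_Ioi_self hD
      fun t ht => ⟨by positivity, ?_⟩).trans ?_
    · have t3 : 3.3 ≤ t := hr.1.trans ht.1.le
      have t0 : 0 < t := by linarith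
      have h1 := HR hc l f g t t3
      have h2 := csrc_H0 l f g t0
      have h3 : csrcH l f g t ≤ csrcG l f g t := by
        unfold csrcG
        exact le_add_of_nonneg_left (by positivity)
      have h4 : ε ^ 2 ≤ 1 := pow_le_one₀ e0.le e1
      refine (le_mul_of_one_le_left (sq_nonneg _) (one_le_pow₀ (by linarith))).trans
        (h1.trans ?_)
      rw [mul_assoc]
      exact mul_le_mul_of_nonneg_left ((mul_le_of_le_one_left h2 h4).trans h3) hD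
    · have h1 : EE l (Lb l z) f g r / Lb l z ≤ EE l (Lb l z) f g r := div_le_self hE hL
      have h2 := mul_le_mul_of_nonneg_left h1 (mul_nonneg hD hC)
      have h3 := mul_nonneg hC hE
      have h4 := mul_nonneg hD h3
      nlinarith

theorem csrc_low {t : ℝ} (h1 : 1 ≤ t) (h4 : t ≤ 4) (i : ℕ) (hi : i ≤ 8) :
    1 ≤ 4096 * t ^ (21 / 2 - 2 * (i : ℝ)) := by
  have hi' : (i : ℝ) ≤ 8 := by exact_mod_cast hi
  have a1 : t ^ (-((6 : ℕ) : ℝ)) ≤ t ^ (21 / 2 - 2 * (i : ℝ)) :=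
    Real.rpow_le_rpow_of_exponent_le h1 (by push_cast; linarith)
  rw [Real.rpow_neg (by linarith), Real.rpow_natCast] at a1
  have a2 : t ^ 6 ≤ 4 ^ 6 := pow_le_pow_left₀ (by linarith) h4 6
  have a3 : ((4 : ℝ) ^ 6)⁻¹ ≤ (t ^ 6)⁻¹ := inv_anti₀ (by positivity) a2
  norm_num at a3
  linarith

theorem csrc_en (l : ℕ) (z : ℂ) {f : ℝ → ℂ} {t : ℝ} (h1 : 1 ≤ t) :
    en (Lb l z) f t ≤ 3 * Lb l z ^ 2 * (‖lad l 1 f t‖ ^ 2 + ‖lad l 0 f t‖ ^ 2) := by
  have e : deriv f t = lad l 1 f t + (l : ℂ) / t * f t := by simp [lad]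
  have hL := one_le_Lb l z
  have hl : (l : ℝ) ^ 2 ≤ Lb l z ^ 2 := by
    rw [Lb_sq]
    linarith [norm_nonneg z]
  have a1 : ‖deriv f t‖ ≤ ‖lad l 1 f t‖ + l * ‖f t‖ := by
    rw [e]
    refine (norm_add_le _ _).trans (add_le_add le_rfl ?_)
    rw [norm_mul, norm_div, Complex.norm_natCast, Complex.norm_real, Real.norm_eq_abs,
      abs_of_nonneg (by linarith)]
    exact mul_le_mul_of_nonneg_right (div_le_self (Nat.cast_nonneg l) h1) (norm_nonneg _)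
  have a2 := pow_le_pow_left₀ (norm_nonneg _) a1 2
  have a3 : 1 ≤ Lb l z ^ 2 := one_le_pow₀ hL
  show ‖deriv f t‖ ^ 2 + Lb l z ^ 2 * ‖f t‖ ^ 2 ≤
    3 * Lb l z ^ 2 * (‖lad l 1 f t‖ ^ 2 + ‖f t‖ ^ 2)
  have a4 := mul_le_mul_of_nonneg_right hl (sq_nonneg ‖f t‖)
  have a5 := mul_le_mul_of_nonneg_right a3 (sq_nonneg ‖lad l 1 f t‖)
  nlinarith [sq_nonneg (‖lad l 1 f t‖ - l * ‖f t‖), sq_nonneg ‖lad l 1 f t‖]

/-- lossy no growth at level 0 -/
theorem ng_lossy : ∃ ε0 C : ℝ, 0 < ε0 ∧ 0 ≤ C ∧ ∀ {ε : ℝ} {m : ℕ} {om σ : ℝ} {w : ℝ → ℂ},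
    Ctx ε m om σ w → ε ≤ ε0 → ∀ {l : ℕ} {z : ℂ} {f g : ℝ → ℂ}, HSol m om w l z f g →
    ∀ r ∈ Set.Icc (3.3 : ℝ) 3.46,
      (∫ t in r..3.46, ee (Lb l z) f g t) ≤ C * Lb l z ^ 2 * EE l (Lb l z) f g r := by
  obtain ⟨ε0, C, h0, hC, H⟩ := csrc_main
  refine ⟨ε0, 3 * 4096 * C, h0, by positivity, fun {ε m om σ w} hc he {l z f g} h r hr => ?_⟩
  have hL := one_le_Lb l z
  have hE := csrc_EE0 l (Lb l z) f g r
  rw [intervalIntegral.integral_of_le hr.2]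
  refine (H hc he h r hr _ (3 * 4096 * Lb l z ^ 2) _ measurableSet_Ioc Set.Ioc_subset_Ioi_self
    (by positivity) fun t ht => ⟨by unfold ee en; positivity, ?_⟩).trans ?_
  · have t1 : 1 ≤ t := by linarith [hr.1, ht.1]
    have t4 : t ≤ 4 := by linarith [ht.2]
    have t0 : 0 < t := by linarith
    have a1 := csrc_en l z (f := f) t1
    have a2 := csrc_en l z (f := g) t1
    have a3 : ‖lad l 1 f t‖ ^ 2 + ‖lad l 0 f t‖ ^ 2 + (‖lad l 1 g t‖ ^ 2 + ‖lad l 0 g t‖ ^ 2)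
        ≤ 4096 * csrcG l f g t := by
      have b7 := csrc_low t1 t4 7 (by norm_num)
      have b8 := csrc_low t1 t4 8 le_rfl
      have b1 : 0 ≤ ∑ i ∈ Finset.range 7, (t ^ (21 / 2 - 2 * (i : ℝ)) * ‖lad l (8 - i) f t‖ ^ 2
          + t ^ (21 / 2 - 2 * (i : ℝ)) * ‖lad l (8 - i) g t‖ ^ 2) :=
        Finset.sum_nonneg fun i _ => by positivity
      have b2 : 0 ≤ t ^ 11 * ‖lad l 8 f t‖ ^ 2 + t ^ 11 * ‖lad l 8 g t‖ ^ 2 := by positivity
      unfold csrcG csrcH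
      rw [Finset.sum_range_succ, Finset.sum_range_succ]
      have c1 := mul_le_mul_of_nonneg_right b7 (sq_nonneg ‖lad l 1 f t‖)
      have c2 := mul_le_mul_of_nonneg_right b7 (sq_nonneg ‖lad l 1 g t‖)
      have c3 := mul_le_mul_of_nonneg_right b8 (sq_nonneg ‖lad l 0 f t‖)
      have c4 := mul_le_mul_of_nonneg_right b8 (sq_nonneg ‖lad l 0 g t‖)
      simp only [show 8 - 7 = 1 from rfl, show 8 - 8 = 0 from rfl]
      linarith
    have a4 := mul_le_mul_of_nonneg_left a3 (show 0 ≤ 3 * Lb l z ^ 2 by positivity)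
    unfold ee
    linarith
  · have h1 : EE l (Lb l z) f g r / Lb l z ≤ EE l (Lb l z) f g r := div_le_self hE hL
    have h2 := mul_le_mul_of_nonneg_left h1
      (show 0 ≤ 3 * 4096 * C * Lb l z ^ 2 by positivity)
    linarith

end Vale.Agent.P139
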