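import Vale.Agent.P139.CDefs

open Complex MeasureTheory Filter Topology
open scoped ComplexConjugate ContDiff

namespace Vale.Agent.P139

/-- Liouville normal form on [r, ∞) -/
structure Lio (ν Ω κ r : ℝ) (v v1 S : ℝ → ℂ) : Prop where
  hν : 0 ≤ ν
  hκ : 1 ≤ κ
  hr : 3 ≤ r
  d0 : ∀ t, r ≤ t → HasDerivAt v (v1 t) t
  d1 : ∀ t, r ≤ t → HasDerivAt v1
    (S t - (((t ^ 2 / 16 - ν / t ^ 2 + Ω : ℝ) : ℂ) + I * κ) * v t) t
  cS : ContinuousOn S (Set.Ici r)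
  dec : ∃ C : ℝ, ∀ t, r ≤ t → ‖v t‖ ≤ C / t ^ 2 ∧ ‖v1 t‖ ≤ C / t ∧ ‖S t‖ ≤ C / t ^ 2

noncomputable def KK (Ω κ : ℝ) : ℝ := Real.sqrt (1 + κ + max Ω 0)

noncomputable def kk (Ω κ t : ℝ) : ℝ := Real.sqrt (t ^ 2 / 16 + KK Ω κ ^ 2)

noncomputable def NNt (ν Ω κ t : ℝ) : ℝ := ν / t ^ 2 + 1 + κ + max (-Ω) 0

noncomputable def Src (Ω κ r : ℝ) (v S : ℝ → ℂ) : ℝ :=
  ∫ t in Set.Ioi r, (2 * (t / 4 + KK Ω κ) * ‖S t‖ ^ 2 / κ + 2 * κ / KK Ω κ * (‖v t‖ * ‖S t‖))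

theorem ct_re {f : ℝ → ℂ} {f' : ℂ} {t : ℝ} (h : HasDerivAt f f' t) :
    HasDerivAt (fun s => (f s).re) f'.re t :=
  Complex.reCLM.hasFDerivAt.comp_hasDerivAt t h

theorem ct_im {f : ℝ → ℂ} {f' : ℂ} {t : ℝ} (h : HasDerivAt f f' t) :
    HasDerivAt (fun s => (f s).im) f'.im t :=
  Complex.imCLM.hasFDerivAt.comp_hasDerivAt t h

theorem ct_sq (z : ℂ) : ‖z‖ ^ 2 = z.re ^ 2 + z.im ^ 2 := by
  rw [Complex.sq_norm, normSq_apply]
  ring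

theorem ct_abs_im (z w : ℂ) : |(conj z * w).im| ≤ ‖z‖ * ‖w‖ := by
  have h := abs_im_le_norm (conj z * w)
  rwa [norm_mul, Complex.norm_conj] at h

theorem ct_abs_re (z w : ℂ) : |(conj z * w).re| ≤ ‖z‖ * ‖w‖ := by
  have h := abs_re_le_norm (conj z * w)
  rwa [norm_mul, Complex.norm_conj] at h

theorem ct_int {r D : ℝ} (hr : 3 ≤ r) {f : ℝ → ℝ} (hf : ContinuousOn f (Set.Ici r))
    (hb : ∀ t, r ≤ t → |f t| ≤ D * (1 / t) ^ 2) : IntegrableOn f (Set.Ioi r) := by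
  have h1 : IntegrableOn (fun t : ℝ => D * t ^ (-2 : ℝ)) (Set.Ioi r) :=
    (integrableOn_Ioi_rpow_of_lt (by norm_num) (by linarith)).const_mul D
  refine Integrable.mono' h1
    ((hf.mono Set.Ioi_subset_Ici_self).aestronglyMeasurable measurableSet_Ioi) ?_
  refine (ae_restrict_iff' measurableSet_Ioi).mpr (Eventually.of_forall fun t ht => ?_)
  have h2 : (0 : ℝ) ≤ t := by linarith [Set.mem_Ioi.mp ht]
  rw [Real.rpow_neg h2, Real.rpow_two, ← inv_pow, ← one_div]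
  exact hb t (le_of_lt ht)

theorem ct_le {r R : ℝ} (hR : r ≤ R) {f : ℝ → ℝ} (hf : IntegrableOn f (Set.Ioi r))
    (h0 : ∀ t, r ≤ t → 0 ≤ f t) : ∫ t in r..R, f t ≤ ∫ t in Set.Ioi r, f t := by
  rw [intervalIntegral.integral_of_le hR]
  refine setIntegral_mono_set hf ?_ Set.Ioc_subset_Ioi_self.eventuallyLE
  exact (ae_restrict_iff' measurableSet_Ioi).mpr (Eventually.of_forall fun t ht => h0 t ht.le)

theorem ct_lim (D : ℝ) : Tendsto (fun t : ℝ => D * (1 / t) ^ 2) atTop (𝓝 0) := by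
  have h1 : Tendsto (fun t : ℝ => 1 / t) atTop (𝓝 0) := tendsto_const_nhds.div_atTop tendsto_id
  simpa using (h1.pow 2).const_mul D

namespace Lio

variable {ν Ω κ r : ℝ} {v v1 S : ℝ → ℂ}

theorem ct_cv (h : Lio ν Ω κ r v v1 S) : ContinuousOn v (Set.Ici r) :=
  fun t ht => (h.d0 t ht).continuousAt.continuousWithinAt

theorem ct_dec (h : Lio ν Ω κ r v v1 S) : ∃ C : ℝ, 0 ≤ C ∧ ∀ t, r ≤ t →
    t * ‖v t‖ ≤ C * (1 / t) ∧ ‖v t‖ ≤ C * (1 / t) ∧ ‖v1 t‖ ≤ C * (1 / t) ∧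
      t * ‖S t‖ ≤ C * (1 / t) ∧ ‖S t‖ ≤ C * (1 / t) := by
  obtain ⟨C, hC⟩ := h.dec
  have hr := h.hr
  have key : ∀ t x : ℝ, r ≤ t → 0 ≤ x → x ≤ C / t ^ 2 → t * x ≤ C * (1 / t) ∧ x ≤ C * (1 / t) := by
    intro t x ht hx h1
    have h2 : 0 < t := by linarith
    have h3 : t * x ≤ C * (1 / t) := by
      refine (mul_le_mul_of_nonneg_left h1 h2.le).trans (le_of_eq ?_)
      field_simp
    exact ⟨h3, le_trans (le_mul_of_one_le_left hx (by linarith)) h3⟩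
  refine ⟨C, ?_, fun t ht => ⟨(key t _ ht (norm_nonneg _) (hC t ht).1).1,
    (key t _ ht (norm_nonneg _) (hC t ht).1).2, by rw [mul_one_div]; exact (hC t ht).2.1,
    (key t _ ht (norm_nonneg _) (hC t ht).2.2).1, (key t _ ht (norm_nonneg _) (hC t ht).2.2).2⟩⟩
  have h1 := (norm_nonneg _).trans (hC r le_rfl).2.1
  exact (div_nonneg_iff.mp h1).elim (fun h2 => h2.1) fun h2 => absurd h2.2 (by linarith)

theorem ct_J (h : Lio ν Ω κ r v v1 S) {t : ℝ} (ht : r ≤ t) :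
    HasDerivAt (fun s => (conj (v s) * v1 s).im) ((conj (v t) * S t).im - κ * ‖v t‖ ^ 2) t := by
  have h1 := ((ct_re (h.d0 t ht)).fun_mul (ct_im (h.d1 t ht))).fun_sub
    ((ct_im (h.d0 t ht)).fun_mul (ct_re (h.d1 t ht)))
  refine (h1.congr_deriv ?_).congr_of_eventuallyEq (Eventually.of_forall fun s => ?_)
  · simp only [ct_sq, mul_im, mul_re, conj_re, conj_im, sub_re, sub_im, add_re, add_im, ofReal_re,
      ofReal_im, I_re, I_im]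
    ring
  · simp only [mul_im, conj_re, conj_im]
    ring

theorem ct_iv (h : Lio ν Ω κ r v v1 S) : IntegrableOn (fun t => ‖v t‖ ^ 2) (Set.Ioi r) := by
  obtain ⟨C, -, hC⟩ := h.ct_dec
  refine ct_int (D := C ^ 2) h.hr (h.ct_cv.norm.pow 2) fun t ht => ?_
  rw [abs_of_nonneg (sq_nonneg _), ← mul_pow]
  exact pow_le_pow_left₀ (norm_nonneg _) (hC t ht).2.1 2

theorem ct_ivS (h : Lio ν Ω κ r v v1 S) : IntegrableOn (fun t => ‖v t‖ * ‖S t‖) (Set.Ioi r) := by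
  obtain ⟨C, -, hC⟩ := h.ct_dec
  refine ct_int (D := C ^ 2) h.hr (h.ct_cv.norm.mul h.cS.norm) fun t ht => ?_
  rw [abs_of_nonneg (by positivity), ← mul_pow, sq]
  exact mul_le_mul (hC t ht).2.1 (hC t ht).2.2.2.2 (norm_nonneg _)
    ((norm_nonneg _).trans (hC t ht).2.1)

theorem ct_iim (h : Lio ν Ω κ r v v1 S) :
    IntegrableOn (fun t => (conj (v t) * S t).im) (Set.Ioi r) := by
  have h1 : ContinuousOn (fun t => (conj (v t) * S t).im) (Set.Ici r) :=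
    continuous_im.comp_continuousOn ((continuous_conj.comp_continuousOn h.ct_cv).mul h.cS)
  exact Integrable.mono' h.ct_ivS
    ((h1.mono Set.Ioi_subset_Ici_self).aestronglyMeasurable measurableSet_Ioi)
    (Eventually.of_forall fun t => ct_abs_im _ _)

end Lio

/-- flux identity between r and infinity -/
theorem lio_flux {ν Ω κ r : ℝ} {v v1 S : ℝ → ℂ} (h : Lio ν Ω κ r v v1 S) :
    |κ * (∫ t in Set.Ioi r, ‖v t‖ ^ 2) - (conj (v r) * v1 r).im|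
      ≤ ∫ t in Set.Ioi r, ‖v t‖ * ‖S t‖ := by
  obtain ⟨C, -, hC⟩ := h.ct_dec
  have h1 : Tendsto (fun s => (conj (v s) * v1 s).im) atTop (𝓝 0) := by
    refine squeeze_zero_norm' ?_ (ct_lim (C ^ 2))
    filter_upwards [eventually_ge_atTop r] with t ht
    refine (ct_abs_im _ _).trans ?_
    rw [← mul_pow, sq]
    exact mul_le_mul (hC t ht).2.1 (hC t ht).2.2.1 (norm_nonneg _)
      ((norm_nonneg _).trans (hC t ht).2.1)
  have h2 := integral_Ioi_of_hasDerivAt_of_tendsto' (fun t ht => h.ct_J ht)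
    (h.ct_iim.sub (h.ct_iv.const_mul κ)) h1
  rw [integral_sub h.ct_iim (h.ct_iv.const_mul κ), integral_const_mul] at h2
  have h3 : κ * (∫ t in Set.Ioi r, ‖v t‖ ^ 2) - (conj (v r) * v1 r).im =
      ∫ t in Set.Ioi r, (conj (v t) * S t).im := by linarith
  rw [h3]
  exact norm_integral_le_of_norm_le (f := fun t => (conj (v t) * S t).im) h.ct_ivS
    (Eventually.of_forall fun t => ct_abs_im _ _)

/-- the flux is almost decreasing -/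
theorem lio_flux_mono {ν Ω κ r : ℝ} {v v1 S : ℝ → ℂ} (h : Lio ν Ω κ r v v1 S) {r' : ℝ}
    (hr : r ≤ r') :
    (conj (v r') * v1 r').im ≤ (conj (v r) * v1 r).im + ∫ t in Set.Ioi r, ‖v t‖ * ‖S t‖ := by
  have h1 := intervalIntegral.sub_le_integral_of_hasDeriv_right_of_le hr
    (g := fun s => (conj (v s) * v1 s).im) (φ := fun t => ‖v t‖ * ‖S t‖)
    (fun t ht => (h.ct_J ht.1).continuousAt.continuousWithinAt)
    (fun t ht => (h.ct_J ht.1.le).hasDerivWithinAt)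
    (((h.ct_cv.norm.mul h.cS.norm).mono Set.Icc_subset_Ici_self).integrableOn_Icc)
    (fun t _ => by
      have h2 := (abs_le.mp (ct_abs_im (v t) (S t))).2
      have h3 : 0 ≤ κ * ‖v t‖ ^ 2 := mul_nonneg (by linarith [h.hκ]) (sq_nonneg _)
      linarith)
  have h2 := ct_le hr h.ct_ivS fun t _ => by positivity
  linarith

theorem ct_KK (Ω : ℝ) {κ : ℝ} (hκ : 1 ≤ κ) :
    KK Ω κ ^ 2 = 1 + κ + max Ω 0 ∧ 1 ≤ KK Ω κ := by
  have h1 := le_max_right Ω 0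
  exact ⟨Real.sq_sqrt (by linarith), Real.le_sqrt_of_sq_le (by linarith)⟩

theorem ct_kk (Ω : ℝ) {κ : ℝ} (hκ : 1 ≤ κ) {t : ℝ} (ht : 0 ≤ t) :
    kk Ω κ t ^ 2 = t ^ 2 / 16 + KK Ω κ ^ 2 ∧ KK Ω κ ≤ kk Ω κ t ∧ t / 4 ≤ kk Ω κ t ∧
      kk Ω κ t ≤ t / 4 + KK Ω κ := by
  have h1 := (ct_KK Ω hκ).2
  refine ⟨Real.sq_sqrt (by positivity), Real.le_sqrt_of_sq_le (by nlinarith),
    Real.le_sqrt_of_sq_le (by nlinarith), Real.sqrt_le_iff.mpr ⟨by linarith, by nlinarith⟩⟩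

noncomputable def ctU (Ω κ t : ℝ) : ℝ := (kk Ω κ t)⁻¹

noncomputable def ctB (Ω κ t : ℝ) : ℝ := κ * ctU Ω κ t + t * ctU Ω κ t ^ 2 / 16

noncomputable def ctB1 (Ω κ t : ℝ) : ℝ :=
  -(κ * (t * ctU Ω κ t ^ 3) / 16) + ctU Ω κ t ^ 2 / 16 - t ^ 2 * ctU Ω κ t ^ 4 / 128

noncomputable def ctB2 (Ω κ t : ℝ) : ℝ :=
  -(κ * ctU Ω κ t ^ 3 / 16) + 3 * κ * t ^ 2 * ctU Ω κ t ^ 5 / 256 - 3 * t * ctU Ω κ t ^ 4 / 128
    + t ^ 3 * ctU Ω κ t ^ 6 / 512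

theorem ct_dk (Ω : ℝ) {κ : ℝ} (hκ : 1 ≤ κ) (t : ℝ) :
    HasDerivAt (kk Ω κ) (t * ctU Ω κ t / 16) t := by
  have h1 := (ct_KK Ω hκ).2
  have h2 : t ^ 2 / 16 + KK Ω κ ^ 2 ≠ 0 := by positivity
  have h3 := (((hasDerivAt_pow 2 t).div_const 16).add_const (KK Ω κ ^ 2)).sqrt h2
  refine h3.congr_deriv ?_
  simp only [ctU, kk]
  ring

theorem ct_dU (Ω : ℝ) {κ : ℝ} (hκ : 1 ≤ κ) {t : ℝ} (ht : 0 ≤ t) :
    HasDerivAt (ctU Ω κ) (-(t * ctU Ω κ t ^ 3 / 16)) t := by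
  have h1 : kk Ω κ t ≠ 0 := by
    have h2 := (ct_KK Ω hκ).2
    have h3 := (ct_kk Ω hκ ht).2.1
    exact ne_of_gt (by linarith)
  refine ((ct_dk Ω hκ t).fun_inv h1).congr_deriv ?_
  simp only [ctU]
  field_simp

theorem ct_dB (Ω : ℝ) {κ : ℝ} (hκ : 1 ≤ κ) {t : ℝ} (ht : 0 ≤ t) :
    HasDerivAt (ctB Ω κ) (ctB1 Ω κ t) t := by
  have h1 := ct_dU Ω hκ ht
  refine ((h1.const_mul κ).fun_add
    (((hasDerivAt_id' t).fun_mul (h1.fun_pow 2)).div_const 16)).congr_deriv ?_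
  simp only [ctB1]
  norm_num
  ring

theorem ct_dB1 (Ω : ℝ) {κ : ℝ} (hκ : 1 ≤ κ) {t : ℝ} (ht : 0 ≤ t) :
    HasDerivAt (ctB1 Ω κ) (ctB2 Ω κ t) t := by
  have h1 := ct_dU Ω hκ ht
  refine (((((((hasDerivAt_id' t).fun_mul (h1.fun_pow 3)).const_mul κ).div_const 16).fun_neg).fun_add
    ((h1.fun_pow 2).div_const 16)).fun_sub
    (((hasDerivAt_pow 2 t).fun_mul (h1.fun_pow 4)).div_const 128)).congr_deriv ?_
  simp only [ctB2]
  norm_num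
  ring

theorem ct_U (Ω : ℝ) {κ : ℝ} (hκ : 1 ≤ κ) {t : ℝ} (ht : 0 ≤ t) :
    kk Ω κ t * ctU Ω κ t = 1 ∧ 0 < ctU Ω κ t ∧ ctU Ω κ t ≤ 1 / KK Ω κ ∧ ctU Ω κ t ≤ 1 ∧
      t * ctU Ω κ t ≤ 4 ∧ 1 / (t / 4 + KK Ω κ) ≤ ctU Ω κ t := by
  have h1 := (ct_KK Ω hκ).2
  obtain ⟨-, h2, h3, h4⟩ := ct_kk Ω hκ ht
  have h5 : 0 < kk Ω κ t := by linarith
  refine ⟨mul_inv_cancel₀ h5.ne', inv_pos.mpr h5, ?_, inv_le_one_of_one_le₀ (by linarith), ?_, ?_⟩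
  · rw [one_div]
    exact inv_anti₀ (by linarith) h2
  · rw [ctU, mul_inv_le_iff₀ h5]
    linarith
  · rw [one_div]
    exact inv_anti₀ h5 h4

theorem ct_B (Ω : ℝ) {κ : ℝ} (hκ : 1 ≤ κ) {t : ℝ} (ht : 0 ≤ t) :
    κ / (t / 4 + KK Ω κ) ≤ ctB Ω κ t ∧ ctB Ω κ t ≤ 2 * κ / KK Ω κ ∧ ctB1 Ω κ t ≤ 1 / 2 ∧
      -(κ + 1) ≤ ctB1 Ω κ t ∧ ctB2 Ω κ t ≤ ctB Ω κ t := by
  obtain ⟨-, h1, h2, h3, h4, h5⟩ := ct_U Ω hκ ht
  simp only [ctB, ctB1, ctB2]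
  generalize ctU Ω κ t = u at *
  have h6 : 0 ≤ t * u := by positivity
  have h7 : u ^ 2 ≤ 1 := pow_le_one₀ h1.le h3
  have h8 : (t * u) ^ 2 ≤ 16 := by nlinarith
  have h9 : 0 ≤ κ := by linarith
  refine ⟨?_, ?_, ?_, ?_, ?_⟩
  · have h10 := mul_le_mul_of_nonneg_left h5 h9
    have h11 : 0 ≤ t * u ^ 2 / 16 := by positivity
    rw [mul_one_div] at h10
    linarith
  · have h10 := mul_le_mul_of_nonneg_left h2 (show 0 ≤ 2 * κ by linarith)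
    have h11 : t * u * u ≤ 4 * u := mul_le_mul_of_nonneg_right h4 h1.le
    have h12 : 1 * u ≤ κ * u := mul_le_mul_of_nonneg_right hκ h1.le
    rw [mul_one_div] at h10
    nlinarith
  · have h10 : 0 ≤ κ * (t * u ^ 3) / 16 := by positivity
    have h11 : 0 ≤ t ^ 2 * u ^ 4 / 128 := by positivity
    linarith
  · have h10 : t * u * u ^ 2 ≤ 4 * 1 := mul_le_mul h4 h7 (by positivity) (by norm_num)
    have h11 : (t * u) ^ 2 * u ^ 2 ≤ 16 * 1 := mul_le_mul h8 h7 (by positivity) (by norm_num)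
    have h12 := mul_le_mul_of_nonneg_left h10 h9
    nlinarith
  · have h10 : (t * u) ^ 2 * (κ * u ^ 3) ≤ 16 * (κ * u ^ 3) :=
      mul_le_mul_of_nonneg_right h8 (by positivity)
    have h11 : (t * u) ^ 2 * (t * u ^ 4) ≤ 16 * (t * u ^ 4) :=
      mul_le_mul_of_nonneg_right h8 (by positivity)
    have h12 : u ^ 2 * (κ * u) ≤ 1 * (κ * u) := mul_le_mul_of_nonneg_right h7 (by positivity)
    have h13 : u ^ 2 * (t * u ^ 2) ≤ 1 * (t * u ^ 2) :=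
      mul_le_mul_of_nonneg_right h7 (by positivity)
    have h14 : 0 ≤ κ * u := by positivity
    have h15 : 0 ≤ t * u ^ 2 := by positivity
    nlinarith

noncomputable def ctT (ν Ω κ : ℝ) (v v1 : ℝ → ℂ) (t : ℝ) : ℝ :=
  (v1 t).re ^ 2 + (v1 t).im ^ 2 - 2 * (kk Ω κ t * ((v t).re * (v1 t).im - (v t).im * (v1 t).re))
    + (t ^ 2 / 16 - ν / t ^ 2 + Ω) * ((v t).re ^ 2 + (v t).im ^ 2)
    + ctB Ω κ t * ((v t).re * (v1 t).re + (v t).im * (v1 t).im)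
    - ctB1 Ω κ t * ((v t).re ^ 2 + (v t).im ^ 2) / 2

theorem ct_T_eq (ν Ω κ : ℝ) (v v1 : ℝ → ℂ) (t : ℝ) : ctT ν Ω κ v v1 t =
    ‖v1 t‖ ^ 2 - 2 * (kk Ω κ t * (conj (v t) * v1 t).im) + (t ^ 2 / 16 - ν / t ^ 2 + Ω) * ‖v t‖ ^ 2
      + ctB Ω κ t * (conj (v t) * v1 t).re - ctB1 Ω κ t * ‖v t‖ ^ 2 / 2 := by
  simp only [ctT, ct_sq, mul_im, mul_re, conj_re, conj_im]
  ring

theorem ct_N (ν Ω : ℝ) {κ : ℝ} (hκ : 1 ≤ κ) {t : ℝ} (ht : 0 ≤ t) :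
    kk Ω κ t ^ 2 - NNt ν Ω κ t = t ^ 2 / 16 - ν / t ^ 2 + Ω := by
  rw [(ct_kk Ω hκ ht).1, (ct_KK Ω hκ).1, NNt]
  have h1 := max_zero_sub_max_neg_zero_eq_self Ω
  linarith

namespace Lio

variable {ν Ω κ r : ℝ} {v v1 S : ℝ → ℂ}

theorem ct_dT (h : Lio ν Ω κ r v v1 S) {t : ℝ} (ht : r ≤ t) : HasDerivAt (ctT ν Ω κ v v1)
    (2 * ν / t ^ 3 * ‖v t‖ ^ 2 + ctB Ω κ t * (((v1 t).re + kk Ω κ t * (v t).im) ^ 2
        + ((v1 t).im - kk Ω κ t * (v t).re) ^ 2 + NNt ν Ω κ t * ‖v t‖ ^ 2)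
      - ctB2 Ω κ t * ‖v t‖ ^ 2 / 2 + 2 * (((v1 t).re + kk Ω κ t * (v t).im) * (S t).re
        + ((v1 t).im - kk Ω κ t * (v t).re) * (S t).im)
      + ctB Ω κ t * (conj (v t) * S t).re) t := by
  have h0 : 0 < t := by linarith [h.hr]
  have p := ct_re (h.d0 t ht)
  have q := ct_im (h.d0 t ht)
  have p1 := ct_re (h.d1 t ht)
  have q1 := ct_im (h.d1 t ht)
  have hQ : HasDerivAt (fun s : ℝ => s ^ 2 / 16 - ν / s ^ 2 + Ω) (t / 8 + 2 * ν / t ^ 3) t := by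
    refine ((((hasDerivAt_pow 2 t).div_const 16).fun_sub ((hasDerivAt_const t ν).fun_div
      (hasDerivAt_pow 2 t) (by positivity))).add_const Ω).congr_deriv ?_
    norm_num
    field_simp
    ring
  have ha := (p.fun_pow 2).fun_add (q.fun_pow 2)
  have h1 := (((((p1.fun_pow 2).fun_add (q1.fun_pow 2)).fun_sub (((ct_dk Ω h.hκ t).fun_mul
    ((p.fun_mul q1).fun_sub (q.fun_mul p1))).const_mul 2)).fun_add (hQ.fun_mul ha)).fun_add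
    ((ct_dB Ω h.hκ h0.le).fun_mul ((p.fun_mul p1).fun_add (q.fun_mul q1)))).fun_sub
    (((ct_dB1 Ω h.hκ h0.le).fun_mul ha).div_const 2)
  refine h1.congr_deriv ?_
  have h2 := ct_N ν Ω h.hκ h0.le
  have h3 : ctB Ω κ t * kk Ω κ t = κ + t * ctU Ω κ t / 16 := by
    rw [ctB]
    linear_combination (κ + t * ctU Ω κ t / 16) * (ct_U Ω h.hκ h0.le).1
  have h4 := (ct_U Ω h.hκ h0.le).1
  simp only [ct_sq, mul_im, mul_re, conj_re, conj_im, sub_re, sub_im, add_re, add_im, ofReal_re,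
    ofReal_im, I_re, I_im, ← h2]
  generalize 2 * ν / t ^ 3 = c at *
  norm_num
  linear_combination (2 * ((v t).re * (v1 t).im - (v t).im * (v1 t).re)
    - 2 * kk Ω κ t * ((v t).re ^ 2 + (v t).im ^ 2)) * h3
    - t / 8 * ((v t).re ^ 2 + (v t).im ^ 2) * h4

theorem ct_low (h : Lio ν Ω κ r v v1 S) {t : ℝ} (ht : r ≤ t) (y₁ y₂ : ℝ) :
    (2 * ν / t ^ 3 + κ * NNt ν Ω κ t / (2 * (t / 4 + KK Ω κ))) * ‖v t‖ ^ 2 -
      (2 * (t / 4 + KK Ω κ) * ‖S t‖ ^ 2 / κ + 2 * κ / KK Ω κ * (‖v t‖ * ‖S t‖)) ≤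
    2 * ν / t ^ 3 * ‖v t‖ ^ 2 + ctB Ω κ t * (y₁ ^ 2 + y₂ ^ 2 + NNt ν Ω κ t * ‖v t‖ ^ 2)
      - ctB2 Ω κ t * ‖v t‖ ^ 2 / 2 + 2 * (y₁ * (S t).re + y₂ * (S t).im)
      + ctB Ω κ t * (conj (v t) * S t).re := by
  have h0 : 0 < t := by linarith [h.hr]
  have hκ := h.hκ
  have hK := (ct_KK Ω hκ).2
  obtain ⟨b1, b2, -, -, b3⟩ := ct_B Ω hκ h0.le
  obtain ⟨l, hl⟩ : ∃ l, l = κ / (t / 4 + KK Ω κ) := ⟨_, rfl⟩
  have hl0 : 0 < l := by rw [hl]; positivity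
  have hN : 1 ≤ NNt ν Ω κ t := by
    have h1 : 0 ≤ ν / t ^ 2 := div_nonneg h.hν (sq_nonneg t)
    have h2 := le_max_right (-Ω) 0
    rw [NNt]
    linarith
  have e1 : κ * NNt ν Ω κ t / (2 * (t / 4 + KK Ω κ)) = l * NNt ν Ω κ t / 2 := by
    rw [hl]
    field_simp
  have e2 : 2 * (t / 4 + KK Ω κ) * ‖S t‖ ^ 2 / κ = 2 * (((S t).re ^ 2 + (S t).im ^ 2) / l) := by
    rw [hl, ct_sq]
    field_simp
  rw [e1, e2]
  rw [← hl] at b1
  have hB : 0 < ctB Ω κ t := hl0.trans_le b1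
  have f1 : -(2 * κ / KK Ω κ * (‖v t‖ * ‖S t‖)) ≤ ctB Ω κ t * (conj (v t) * S t).re := by
    have h1 := mul_le_mul_of_nonneg_left (abs_le.mp (ct_abs_re (v t) (S t))).1 hB.le
    have h2 := mul_le_mul_of_nonneg_right b2 (show 0 ≤ ‖v t‖ * ‖S t‖ by positivity)
    linarith
  have f2 : -(l * (y₁ ^ 2 + y₂ ^ 2)) - ((S t).re ^ 2 + (S t).im ^ 2) / l ≤
      2 * (y₁ * (S t).re + y₂ * (S t).im) := by
    have h1 : 0 ≤ ((l * y₁ + (S t).re) ^ 2 + (l * y₂ + (S t).im) ^ 2) / l := by positivity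
    have h2 : ((l * y₁ + (S t).re) ^ 2 + (l * y₂ + (S t).im) ^ 2) / l = l * (y₁ ^ 2 + y₂ ^ 2) +
        ((S t).re ^ 2 + (S t).im ^ 2) / l + 2 * (y₁ * (S t).re + y₂ * (S t).im) := by
      field_simp
      ring
    linarith
  have f3 : 0 ≤ ((S t).re ^ 2 + (S t).im ^ 2) / l := by positivity
  have f4 := mul_le_mul_of_nonneg_right b1 (show 0 ≤ y₁ ^ 2 + y₂ ^ 2 by positivity)
  have f5 := mul_le_mul_of_nonneg_right b1 (show 0 ≤ NNt ν Ω κ t * ‖v t‖ ^ 2 by positivity)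
  have f6 := mul_le_mul_of_nonneg_right (b3.trans (le_mul_of_one_le_right hB.le hN))
    (sq_nonneg ‖v t‖)
  nlinarith

theorem ct_up (h : Lio ν Ω κ r v v1 S) :
    ∃ D : ℝ, ∀ t, r ≤ t → ctT ν Ω κ v v1 t ≤ D * (1 / t) ^ 2 := by
  obtain ⟨C, hC0, hC⟩ := h.ct_dec
  have hκ := h.hκ
  have hK := (ct_KK Ω hκ).2
  refine ⟨(1 + 2 * (1 / 4 + KK Ω κ) + (1 / 16 + |Ω|) + 2 * κ / KK Ω κ + (κ + 1)) * C ^ 2,
    fun t ht => ?_⟩
  have h0 : 0 < t := by linarith [h.hr]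
  obtain ⟨c1, c2, c3, -, -⟩ := hC t ht
  obtain ⟨b1, b2, -, b3, -⟩ := ct_B Ω hκ h0.le
  obtain ⟨-, k1, -, k2⟩ := ct_kk Ω hκ h0.le
  have hB : 0 ≤ ctB Ω κ t := le_trans (by positivity) b1
  rw [ct_T_eq, mul_assoc, ← mul_pow]
  generalize C * (1 / t) = e at *
  have a0 := norm_nonneg (v t)
  have a1 := norm_nonneg (v1 t)
  have he : 0 ≤ e := a0.trans c2
  have d1 : ‖v1 t‖ ^ 2 ≤ e ^ 2 := pow_le_pow_left₀ a1 c3 2
  have d2 : ‖v t‖ ^ 2 ≤ e ^ 2 := pow_le_pow_left₀ a0 c2 2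
  have d3 : (t * ‖v t‖) ^ 2 ≤ e ^ 2 := pow_le_pow_left₀ (by positivity) c1 2
  have d4 : ‖v t‖ * ‖v1 t‖ ≤ e ^ 2 := by rw [sq]; exact mul_le_mul c2 c3 a1 he
  have d5 : t * ‖v t‖ * ‖v1 t‖ ≤ e ^ 2 := by rw [sq]; exact mul_le_mul c1 c3 a1 he
  have g1 := mul_le_mul_of_nonneg_left (abs_le.mp (ct_abs_im (v t) (v1 t))).1
    (show 0 ≤ kk Ω κ t by linarith)
  have g2 := mul_le_mul_of_nonneg_right k2 (mul_nonneg a0 a1)
  have g3 := mul_le_mul_of_nonneg_left d4 (show 0 ≤ KK Ω κ by linarith)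
  have g4 := mul_le_mul_of_nonneg_left ((abs_le.mp (ct_abs_re (v t) (v1 t))).2.trans d4) hB
  have g5 := mul_le_mul_of_nonneg_right b2 (sq_nonneg e)
  have g6 := mul_le_mul_of_nonneg_right b3 (sq_nonneg ‖v t‖)
  have g7 := mul_le_mul_of_nonneg_left d2 (show 0 ≤ κ + 1 by linarith)
  have g8 := mul_le_mul (le_abs_self Ω) d2 (sq_nonneg _) (abs_nonneg Ω)
  have g9 : 0 ≤ ν / t ^ 2 * ‖v t‖ ^ 2 := mul_nonneg (div_nonneg h.hν (sq_nonneg t)) (sq_nonneg _)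
  have g10 : 0 ≤ (κ + 1) * e ^ 2 := by positivity
  nlinarith

theorem ct_main (h : Lio ν Ω κ r v v1 S) {r' : ℝ} (hr : r ≤ r') :
    (∫ t in r..r', (2 * ν / t ^ 3 + κ * NNt ν Ω κ t / (2 * (t / 4 + KK Ω κ))) * ‖v t‖ ^ 2)
      + ctT ν Ω κ v v1 r ≤ Src Ω κ r v S := by
  have hκ := h.hκ
  have hK := (ct_KK Ω hκ).2
  have h3 := h.hr
  obtain ⟨g, hg⟩ : ∃ g : ℝ → ℝ, g = fun t =>
    (2 * ν / t ^ 3 + κ * NNt ν Ω κ t / (2 * (t / 4 + KK Ω κ))) * ‖v t‖ ^ 2 := ⟨_, rfl⟩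
  obtain ⟨s, hs⟩ : ∃ s : ℝ → ℝ, s = fun t =>
    2 * (t / 4 + KK Ω κ) * ‖S t‖ ^ 2 / κ + 2 * κ / KK Ω κ * (‖v t‖ * ‖S t‖) := ⟨_, rfl⟩
  have cv := h.ct_cv.norm
  have cS := h.cS.norm
  have cg : ContinuousOn g (Set.Ici r) := by
    rw [hg]
    refine ContinuousOn.mul (ContinuousOn.add (continuousOn_const.div (by fun_prop) fun t ht => ?_)
      (ContinuousOn.div (continuousOn_const.mul ?_) (by fun_prop) fun t ht => ?_)) (cv.pow 2)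
    · exact pow_ne_zero 3 (by linarith [Set.mem_Ici.mp ht])
    · refine ((ContinuousOn.add (continuousOn_const.div (by fun_prop) fun t ht => ?_)
        continuousOn_const).add continuousOn_const).add continuousOn_const
      exact pow_ne_zero 2 (by linarith [Set.mem_Ici.mp ht])
    · exact ne_of_gt (by linarith [Set.mem_Ici.mp ht])
  have cs : ContinuousOn s (Set.Ici r) := by
    rw [hs]
    exact ((ContinuousOn.mul (by fun_prop) (cS.pow 2)).div_const κ).add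
      (continuousOn_const.mul (cv.mul cS))
  have g0 : ∀ t, r ≤ t → 0 ≤ g t := fun t ht => by
    have h0 : 0 < t := by linarith
    have h1 := h.hν
    have h2 : 0 ≤ NNt ν Ω κ t := by
      rw [NNt]
      positivity
    rw [hg]
    positivity
  have s0 : ∀ t, r ≤ t → 0 ≤ s t := fun t ht => by
    have h0 : 0 < t := by linarith
    rw [hs]
    positivity
  have is : IntegrableOn s (Set.Ioi r) := by
    obtain ⟨C, hC0, hC⟩ := h.ct_dec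
    refine ct_int (D := (2 * (1 / 4 + KK Ω κ) / κ + 2 * κ / KK Ω κ) * C ^ 2) h3 cs fun t ht => ?_
    obtain ⟨-, c1, -, c2, c3⟩ := hC t ht
    rw [abs_of_nonneg (s0 t ht), mul_assoc, ← mul_pow, hs]
    generalize C * (1 / t) = e at *
    have he : 0 ≤ e := (norm_nonneg _).trans c1
    have d1 : ‖v t‖ * ‖S t‖ ≤ e ^ 2 := by rw [sq]; exact mul_le_mul c1 c3 (norm_nonneg _) he
    have d2 : t * ‖S t‖ * ‖S t‖ ≤ e ^ 2 := by rw [sq]; exact mul_le_mul c2 c3 (norm_nonneg _) he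
    have d3 := mul_le_mul_of_nonneg_left (pow_le_pow_left₀ (norm_nonneg _) c3 2)
      (show 0 ≤ KK Ω κ by linarith)
    rw [add_mul, div_mul_eq_mul_div]
    refine add_le_add (div_le_div_of_nonneg_right (by nlinarith) (by linarith))
      (mul_le_mul_of_nonneg_left d1 (by positivity))
  obtain ⟨D, hD⟩ := h.ct_up
  have key : ∀ R, r' ≤ R → (∫ t in r..r', g t) + ctT ν Ω κ v v1 r - ∫ t in Set.Ioi r, s t ≤
      D * (1 / R) ^ 2 := fun R hR => by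
    have hrR := hr.trans hR
    have i1 : IntervalIntegrable g volume r r' :=
      (cg.mono (by rw [Set.uIcc_of_le hr]; exact Set.Icc_subset_Ici_self)).intervalIntegrable
    have i2 : IntervalIntegrable g volume r' R :=
      (cg.mono (by rw [Set.uIcc_of_le hR]; exact fun t ht => hr.trans ht.1)).intervalIntegrable
    have i3 : IntervalIntegrable s volume r R :=
      (cs.mono (by rw [Set.uIcc_of_le hrR]; exact Set.Icc_subset_Ici_self)).intervalIntegrable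
    have h1 := intervalIntegral.integral_le_sub_of_hasDeriv_right_of_le hrR
      (g := ctT ν Ω κ v v1) (φ := fun t => g t - s t)
      (fun t ht => (h.ct_dT ht.1).continuousAt.continuousWithinAt)
      (fun t ht => (h.ct_dT ht.1.le).hasDerivWithinAt)
      ((cg.sub cs).mono Set.Icc_subset_Ici_self).integrableOn_Icc
      (fun t ht => by rw [hg, hs]; exact h.ct_low ht.1.le _ _)
    rw [intervalIntegral.integral_sub (i1.trans i2) i3,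
      ← intervalIntegral.integral_add_adjacent_intervals i1 i2] at h1
    have h2 := ct_le hrR is s0
    have h4 : 0 ≤ ∫ t in r'..R, g t :=
      intervalIntegral.integral_nonneg hR fun t ht => g0 t (hr.trans ht.1)
    linarith [hD R hrR]
  have h5 := ge_of_tendsto (ct_lim D) ((eventually_ge_atTop r').mono key)
  rw [hg, hs] at h5
  rw [Src]
  linarith

theorem ct_bd (h : Lio ν Ω κ r v v1 S) :
    ctB1 Ω κ r * ‖v r‖ ^ 2 / 2 - ctB Ω κ r * (conj (v r) * v1 r).re ≤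
      2 * κ / KK Ω κ * (‖v r‖ * (‖v1 r‖ + kk Ω κ r * ‖v r‖)) + ‖v r‖ ^ 2 / 4 := by
  have hκ := h.hκ
  have hK := (ct_KK Ω hκ).2
  have h0 : 0 < r := by linarith [h.hr]
  obtain ⟨b1, b2, b3, -, -⟩ := ct_B Ω hκ h0.le
  have hB : 0 ≤ ctB Ω κ r := le_trans (by positivity) b1
  have k1 : 0 ≤ kk Ω κ r := Real.sqrt_nonneg _
  have g1 := mul_le_mul_of_nonneg_left (abs_le.mp (ct_abs_re (v r) (v1 r))).1 hB
  have g2 := mul_le_mul_of_nonneg_right b2 (show 0 ≤ ‖v r‖ * ‖v1 r‖ by positivity)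
  have g3 := mul_le_mul_of_nonneg_right b3 (sq_nonneg ‖v r‖)
  have g4 : 0 ≤ 2 * κ / KK Ω κ * (‖v r‖ * (kk Ω κ r * ‖v r‖)) := by positivity
  nlinarith

end Lio

theorem lio_Ta {ν Ω κ r : ℝ} {v v1 S : ℝ → ℂ} (h : Lio ν Ω κ r v v1 S) :
    ‖v1 r‖ ^ 2 + (r ^ 2 / 16 + Ω - ν / r ^ 2) * ‖v r‖ ^ 2 ≤
      2 * kk Ω κ r * (conj (v r) * v1 r).im
        + 2 * κ / KK Ω κ * (‖v r‖ * (‖v1 r‖ + kk Ω κ r * ‖v r‖)) + ‖v r‖ ^ 2 / 4
        + Src Ω κ r v S := by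
  have h1 := h.ct_main le_rfl
  have h2 := h.ct_bd
  rw [intervalIntegral.integral_same, ct_T_eq] at h1
  linarith

theorem lio_Tb {ν Ω κ r : ℝ} {v v1 S : ℝ → ℂ} (h : Lio ν Ω κ r v v1 S) {r' : ℝ} (hr : r ≤ r') :
    ∫ t in r..r', (2 * ν / t ^ 3 + κ * NNt ν Ω κ t / (2 * (t / 4 + KK Ω κ))) * ‖v t‖ ^ 2 ≤
      NNt ν Ω κ r * ‖v r‖ ^ 2
        + 2 * κ / KK Ω κ * (‖v r‖ * (‖v1 r‖ + kk Ω κ r * ‖v r‖)) + ‖v r‖ ^ 2 / 4
        + Src Ω κ r v S := by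
  have h1 := h.ct_main hr
  have h2 := h.ct_bd
  have h3 := ct_N ν Ω h.hκ (show 0 ≤ r by linarith [h.hr])
  have h4 : 0 ≤ ‖v1 r‖ ^ 2 - 2 * (kk Ω κ r * (conj (v r) * v1 r).im) + kk Ω κ r ^ 2 * ‖v r‖ ^ 2 := by
    have h5 := (abs_le.mp (ct_abs_im (v r) (v1 r))).2
    have h6 := mul_le_mul_of_nonneg_left h5 (show 0 ≤ kk Ω κ r from Real.sqrt_nonneg _)
    nlinarith [sq_nonneg (‖v1 r‖ - kk Ω κ r * ‖v r‖)]
  rw [ct_T_eq, ← h3] at h1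
  linarith

end Vale.Agent.P139
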