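import Vale.Agent.P139.Inv

open Complex MeasureTheory Filter Topology
open scoped ComplexConjugate ContDiff

namespace Vale.Agent.P139

/-- the linear phase -/
noncomputable def F0lin (n : Z) : E →L[ℝ] ℂ :=
  ∑ i : Fin 12, (-I * (n i : ℂ)) • (Complex.ofRealCLM.comp (EuclideanSpace.proj (𝕜 := ℝ) i))

theorem F0lin_apply (n : Z) (x : E) :
    F0lin n x = -I * ((∑ i, (n i : ℝ) * x i : ℝ) : ℂ) := by
  simp only [F0lin, sum_apply, smul_apply,
    ContinuousLinearMap.comp_apply, Complex.ofRealCLM_apply, smul_eq_mul, Complex.ofReal_sum,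
    Complex.ofReal_mul, Complex.ofReal_intCast, Finset.mul_sum]
  refine Finset.sum_congr rfl fun i _ => ?_
  have : (EuclideanSpace.proj (𝕜 := ℝ) i : E →L[ℝ] ℝ) x = x i := rfl
  rw [this]; ring

theorem F0lin_single (n : Z) (j : Fin 12) :
    F0lin n (EuclideanSpace.single j 1) = -I * (n j : ℂ) := by
  rw [F0lin_apply]
  congr 1
  rw [Finset.sum_eq_single j]
  · simp
  · intro b _ hb
    simp [hb]
  · simp

/-- the character -/
noncomputable def F0ch (n : Z) (x : E) : ℂ := Complex.exp (F0lin n x)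

theorem F0ch_hasFDerivAt (n : Z) (x : E) :
    HasFDerivAt (F0ch n) (F0ch n x • F0lin n) x :=
  (F0lin n).hasFDerivAt.cexp

theorem F0ch_cont (n : Z) : Continuous (F0ch n) :=
  Complex.continuous_exp.comp (F0lin n).continuous

theorem F0ch_norm (n : Z) (x : E) : ‖F0ch n x‖ = 1 := by
  rw [F0ch, F0lin_apply, Complex.norm_exp]
  simp

theorem F0ch_fderiv (n : Z) (x : E) (j : Fin 12) :
    fderiv ℝ (F0ch n) x (EuclideanSpace.single j 1) = -I * (n j : ℂ) * F0ch n x := by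
  rw [(F0ch_hasFDerivAt n x).fderiv, smul_apply, F0lin_single, smul_eq_mul]
  ring

theorem F0_coef_eq (G : E → ℂ) (h0 : ∀ x, 3 < ‖x‖ → G x = 0) (n : Z) :
    coef G n = (((2 * Real.pi) ^ 12 : ℝ) : ℂ)⁻¹ * ∫ x, G x * F0ch n x := by
  unfold coef
  congr 1
  have h1 : (fun x : E => G x * Complex.exp (-I * ((∑ i, (n i : ℝ) * x i : ℝ) : ℂ)))
      = fun x => G x * F0ch n x := by
    funext x; rw [F0ch, F0lin_apply]
  rw [h1]
  apply setIntegral_eq_integral_of_forall_compl_eq_zero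
  intro x hx
  simp only [Set.mem_ofPred_eq, not_forall] at hx
  obtain ⟨i, hi⟩ := hx
  have h2 : Real.pi < |x i| := by
    by_contra hc
    exact hi (abs_le.mp (not_lt.mp hc))
  have h3 : |x i| ≤ ‖x‖ := by
    simpa using PiLp.norm_apply_le x i
  rw [h0 x (by linarith [Real.pi_gt_three]), zero_mul]

theorem F0_supp (G : E → ℂ) (h0 : ∀ x, 3 < ‖x‖ → G x = 0) : HasCompactSupport G := by
  refine HasCompactSupport.intro (isCompact_closedBall (0 : E) 3) fun x hx => h0 x ?_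
  simpa using hx

theorem F0_fderiv_zero (G : E → ℂ) (h0 : ∀ x, 3 < ‖x‖ → G x = 0) (v : E) (x : E)
    (hx : 3 < ‖x‖) : fderiv ℝ G x v = 0 := by
  have h1 : G =ᶠ[𝓝 x] fun _ => 0 := by
    have : ∀ᶠ y in 𝓝 x, 3 < ‖y‖ := (isOpen_lt continuous_const continuous_norm).mem_nhds hx
    filter_upwards [this] with y hy using h0 y hy
  rw [h1.fderiv_eq]
  simp

theorem F0_integrable (G : E → ℂ) (hG : Continuous G) (h0 : ∀ x, 3 < ‖x‖ → G x = 0) (n : Z) :
    Integrable (fun x => G x * F0ch n x) :=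
  (hG.mul (F0ch_cont n)).integrable_of_hasCompactSupport (F0_supp G h0).mul_right

theorem F0_fderiv (G : E → ℂ) (hG : ContDiff ℝ 1 G) (h0 : ∀ x, 3 < ‖x‖ → G x = 0) (j : Fin 12)
    (n : Z) : coef (fun x => fderiv ℝ G x (EuclideanSpace.single j 1)) n
      = I * (n j : ℂ) * coef G n := by
  have hc : Continuous fun x => fderiv ℝ G x (EuclideanSpace.single j (1 : ℝ)) :=
    (hG.continuous_fderiv (by norm_num)).clm_apply continuous_const
  rw [F0_coef_eq _ (F0_fderiv_zero G h0 _), F0_coef_eq G h0]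
  have h1 := integral_mul_fderiv_eq_neg_fderiv_mul_of_integrable (μ := (volume : Measure E))
    (f := G) (g := F0ch n) (v := EuclideanSpace.single j (1 : ℝ))
    (F0_integrable _ hc (F0_fderiv_zero G h0 _) n)
    (by
      simp only [F0ch_fderiv]
      have := (F0_integrable G hG.continuous h0 n).const_mul (-I * (n j : ℂ))
      refine this.congr (Eventually.of_forall fun x => ?_)
      simp only; ring)
    (F0_integrable G hG.continuous h0 n)
    (fun x _ => (hG.differentiable (by norm_num)) x)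
    (fun x _ => (F0ch_hasFDerivAt n x).differentiableAt)
  simp only [F0ch_fderiv] at h1
  have h2 : (∫ x, G x * (-I * (n j : ℂ) * F0ch n x))
      = -I * (n j : ℂ) * ∫ x, G x * F0ch n x := by
    rw [← integral_const_mul]
    congr 1; funext x; ring
  rw [h2] at h1
  have h3 : (∫ x, fderiv ℝ G x (EuclideanSpace.single j (1 : ℝ)) * F0ch n x)
      = I * (n j : ℂ) * ∫ x, G x * F0ch n x := by
    linear_combination h1
  rw [h3]; ring

theorem coef_lap (G : E → ℂ) (hG : ContDiff ℝ 2 G) (h0 : ∀ x, 3 ≤ ‖x‖ → G x = 0) (n : Z) :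
    coef (lap G) n = -(nsq n : ℂ) * coef G n := by
  have h0' : ∀ x, 3 < ‖x‖ → G x = 0 := fun x hx => h0 x hx.le
  have hD : ∀ j : Fin 12, ContDiff ℝ 1 fun x => fderiv ℝ G x (EuclideanSpace.single j (1 : ℝ)) :=
    fun j => (hG.fderiv_right (m := 1) (by norm_num)).clm_apply contDiff_const
  have hz : ∀ j : Fin 12, ∀ x : E, 3 < ‖x‖ →
      fderiv ℝ (fun x => fderiv ℝ G x (EuclideanSpace.single j (1 : ℝ))) x
        (EuclideanSpace.single j (1 : ℝ)) = 0 :=
    fun j => F0_fderiv_zero _ (F0_fderiv_zero G h0' _) _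
  have hl : ∀ x, 3 < ‖x‖ → lap G x = 0 := fun x hx => by
    unfold lap
    exact Finset.sum_eq_zero fun j _ => hz j x hx
  have h1 : coef (lap G) n = ∑ j : Fin 12, coef (fun y => fderiv ℝ
      (fun x => fderiv ℝ G x (EuclideanSpace.single j (1 : ℝ))) y
        (EuclideanSpace.single j (1 : ℝ))) n := by
    rw [F0_coef_eq _ hl]
    simp only [fun j => F0_coef_eq _ (hz j) n]
    rw [← Finset.mul_sum, ← integral_finsetSum]
    · congr 2
      funext x
      unfold lap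
      rw [Finset.sum_mul]
    · intro j _
      exact F0_integrable _ (((hD j).continuous_fderiv (by norm_num)).clm_apply continuous_const)
        (hz j) n
  rw [h1]
  have h2 : ∀ j : Fin 12, coef (fun y => fderiv ℝ
      (fun x => fderiv ℝ G x (EuclideanSpace.single j (1 : ℝ))) y
        (EuclideanSpace.single j (1 : ℝ))) n = -((n j : ℂ) ^ 2) * coef G n := by
    intro j
    rw [F0_fderiv _ (hD j) (F0_fderiv_zero G h0' _) j n,
      F0_fderiv G (hG.of_le (by norm_num)) h0' j n]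
    linear_combination ((n j : ℂ) ^ 2 * coef G n) * I_mul_I
  simp only [h2]
  rw [← Finset.sum_mul]
  congr 1
  simp [nsq]

theorem coef_fderiv (G : E → ℂ) (hG : ContDiff ℝ 1 G) (h0 : ∀ x, 3 ≤ ‖x‖ → G x = 0) (j : Fin 12)
    (n : Z) : coef (fun x => fderiv ℝ G x (EuclideanSpace.single j 1)) n
      = I * (n j : ℂ) * coef G n :=
  F0_fderiv G hG (fun x hx => h0 x hx.le) j n

/-- the trivial constant -/
noncomputable def F0c : ℝ :=
  ‖(((2 * Real.pi) ^ 12 : ℝ) : ℂ)⁻¹‖ * (volume : Measure E).real (Metric.closedBall 0 3)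

theorem F0c_nonneg : 0 ≤ F0c := mul_nonneg (norm_nonneg _) measureReal_nonneg

theorem F0_triv (G : E → ℂ) (h0 : ∀ x, 3 < ‖x‖ → G x = 0) (B : ℝ) (hB : ∀ x, ‖G x‖ ≤ B)
    (n : Z) : ‖coef G n‖ ≤ F0c * B := by
  rw [F0_coef_eq G h0, norm_mul, F0c, mul_assoc]
  refine mul_le_mul_of_nonneg_left ?_ (norm_nonneg _)
  rw [← setIntegral_eq_integral_of_forall_compl_eq_zero (s := Metric.closedBall (0 : E) 3)
    (fun x hx => by rw [h0 x (by simpa using hx), zero_mul]), mul_comm]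
  refine norm_setIntegral_le_of_norm_le_const measure_closedBall_lt_top fun x _ => ?_
  rw [norm_mul, F0ch_norm, mul_one]
  exact hB x

theorem F0_iter (j : Fin 12) (n : Z) (B : ℝ) (k : ℕ) : ∀ G : E → ℂ, ContDiff ℝ ∞ G →
    (∀ x, 3 < ‖x‖ → G x = 0) → (∀ x, ‖iteratedFDeriv ℝ k G x‖ ≤ B) →
    |(n j : ℝ)| ^ k * ‖coef G n‖ ≤ F0c * B := by
  induction k with
  | zero =>
    intro G _ h0 hB
    rw [pow_zero, one_mul]
    exact F0_triv G h0 B (fun x => by simpa using hB x) n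
  | succ k ih =>
    intro G hG h0 hB
    have hD : ContDiff ℝ ∞ (fderiv ℝ G) := hG.fderiv_right (m := ∞) (by simp)
    have h1 := ih (fun x => fderiv ℝ G x (EuclideanSpace.single j (1 : ℝ)))
      (hD.clm_apply contDiff_const) (F0_fderiv_zero G h0 _) (fun x => by
        have h2 := norm_iteratedFDeriv_clm_apply_const (𝕜 := ℝ) (f := fderiv ℝ G)
          (c := EuclideanSpace.single j (1 : ℝ)) (x := x) (N := ∞) (n := k) hD.contDiffAt
          (by exact_mod_cast le_top)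
        rw [norm_iteratedFDeriv_fderiv] at h2
        simp only [PiLp.norm_single, norm_one, one_mul] at h2
        exact h2.trans (hB x))
    rw [F0_fderiv G (hG.of_le (by exact_mod_cast le_top)) h0 j n, norm_mul, norm_mul, norm_I,
      one_mul, Complex.norm_intCast] at h1
    rw [pow_succ, mul_assoc]
    exact h1

theorem F0_max (n : Z) (hn : n ≠ 0) : ∃ j, 1 + ‖zE n‖ ≤ 13 * |(n j : ℝ)| := by
  obtain ⟨j, -, hj⟩ := Finset.exists_max_image (Finset.univ : Finset (Fin 12))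
    (fun i => |(n i : ℝ)|) Finset.univ_nonempty
  refine ⟨j, ?_⟩
  obtain ⟨i, hi⟩ := Function.ne_iff.mp hn
  have h1 : (1 : ℝ) ≤ |(n i : ℝ)| := by
    have : (1 : ℤ) ≤ |n i| := Int.one_le_abs hi
    exact_mod_cast this
  have h2 : (1 : ℝ) ≤ |(n j : ℝ)| := h1.trans (hj i (Finset.mem_univ _))
  have h3 : ‖zE n‖ ≤ 12 * |(n j : ℝ)| := by
    refine (pow_le_pow_iff_left₀ (norm_nonneg _) (by positivity) two_ne_zero).mp ?_
    rw [EuclideanSpace.real_norm_sq_eq]
    have h4 : ∑ i : Fin 12, (zE n i) ^ 2 ≤ ∑ _i : Fin 12, |(n j : ℝ)| ^ 2 := by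
      refine Finset.sum_le_sum fun i _ => ?_
      have : zE n i = (n i : ℝ) := rfl
      rw [this, ← sq_abs]
      exact pow_le_pow_left₀ (abs_nonneg _) (hj i (Finset.mem_univ _)) 2
    simp only [Finset.sum_const, Finset.card_univ, Fintype.card_fin, nsmul_eq_mul] at h4
    push_cast at h4
    nlinarith [sq_nonneg |(n j : ℝ)|]
  linarith

theorem F0_decay (J : ℕ) (G : E → ℂ) (B : ℝ) (hG : ContDiff ℝ ∞ G)
    (h0 : ∀ x, 3 < ‖x‖ → G x = 0) (hB : ∀ k ≤ J, ∀ x, ‖iteratedFDeriv ℝ k G x‖ ≤ B) (n : Z) :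
    (1 + ‖zE n‖) ^ J * ‖coef G n‖ ≤ 13 ^ J * F0c * B := by
  have hB0 : 0 ≤ B := (norm_nonneg _).trans (hB 0 (Nat.zero_le _) 0)
  have hc : 0 ≤ F0c * B := mul_nonneg F0c_nonneg hB0
  by_cases hn : n = 0
  · have h1 := F0_iter 0 n B 0 G hG h0 (hB 0 (Nat.zero_le _))
    have h2 : zE n = 0 := by
      subst hn; ext i; simp [zE]
    rw [h2, norm_zero, add_zero, one_pow, one_mul, mul_assoc]
    rw [pow_zero, one_mul] at h1
    have h3 : (1 : ℝ) ≤ 13 ^ J := one_le_pow₀ (by norm_num)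
    nlinarith
  · obtain ⟨j, hj⟩ := F0_max n hn
    have h1 := F0_iter j n B J G hG h0 (hB J le_rfl)
    calc (1 + ‖zE n‖) ^ J * ‖coef G n‖ ≤ (13 * |(n j : ℝ)|) ^ J * ‖coef G n‖ :=
          mul_le_mul_of_nonneg_right (pow_le_pow_left₀ (by positivity) hj J) (norm_nonneg _)
      _ = 13 ^ J * (|(n j : ℝ)| ^ J * ‖coef G n‖) := by rw [mul_pow, mul_assoc]
      _ ≤ 13 ^ J * (F0c * B) := mul_le_mul_of_nonneg_left h1 (by positivity)
      _ = 13 ^ J * F0c * B := by ring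

theorem f0 (K : ℕ) : ∃ (J : ℕ) (C0 : ℝ), 0 ≤ C0 ∧ ∀ (G : E → ℂ) (B M h : ℝ), ContDiff ℝ ∞ G →
    (∀ x, 3 ≤ ‖x‖ → G x = 0) → (∀ k ≤ J, ∀ x, ‖iteratedFDeriv ℝ k G x‖ ≤ B) → 1 ≤ M → 0 < h →
    h ≤ 1 → NN K M h (coef G) ≤ ENNReal.ofReal (C0 * B) := by
  have hs := summable_lat 13 (by norm_num)
  have hc := F0c_nonneg
  refine ⟨K + 13, (∑' n : Z, (1 + ‖zE n‖) ^ (-(13 : ℝ))) * (13 ^ (K + 13) * F0c), ?_, ?_⟩
  · exact mul_nonneg (tsum_nonneg fun n => by positivity) (by positivity)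
  intro G B M h hG h0 hB hM hh hh1
  have hB0 : 0 ≤ B := (norm_nonneg _).trans (hB 0 (Nat.zero_le _) 0)
  have key : ∀ n : Z, wt K M (h • zE n) * ‖coef G n‖
      ≤ (1 + ‖zE n‖) ^ (-(13 : ℝ)) * (13 ^ (K + 13) * F0c * B) := by
    intro n
    have h1 := F0_decay (K + 13) G B hG (fun x hx => h0 x hx.le) hB n
    have hp : 0 < 1 + ‖zE n‖ := by positivity
    have h2 : wt K M (h • zE n) ≤ (1 + ‖zE n‖) ^ K := by
      unfold wt
      refine pow_le_pow_left₀ (by positivity) ?_ K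
      rw [norm_smul, Real.norm_eq_abs, abs_of_pos hh]
      have h3 : h * ‖zE n‖ / M ≤ h * ‖zE n‖ := div_le_self (by positivity) hM
      have h4 : h * ‖zE n‖ ≤ ‖zE n‖ := mul_le_of_le_one_left (norm_nonneg _) hh1
      linarith
    have h5 : (1 + ‖zE n‖) ^ K = (1 + ‖zE n‖) ^ (-(13 : ℝ)) * (1 + ‖zE n‖) ^ (K + 13) := by
      rw [Real.rpow_neg hp.le, pow_add]
      have : (1 + ‖zE n‖) ^ (13 : ℝ) = (1 + ‖zE n‖) ^ (13 : ℕ) := by
        exact_mod_cast Real.rpow_natCast (1 + ‖zE n‖) 13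
      rw [this]
      field_simp
    calc wt K M (h • zE n) * ‖coef G n‖ ≤ (1 + ‖zE n‖) ^ K * ‖coef G n‖ :=
          mul_le_mul_of_nonneg_right h2 (norm_nonneg _)
      _ = (1 + ‖zE n‖) ^ (-(13 : ℝ)) * ((1 + ‖zE n‖) ^ (K + 13) * ‖coef G n‖) := by
          rw [h5, mul_assoc]
      _ ≤ _ := mul_le_mul_of_nonneg_left h1 (by positivity)
  unfold NN
  refine (ENNReal.tsum_le_tsum fun n => ENNReal.ofReal_le_ofReal (key n)).trans ?_
  rw [← ENNReal.ofReal_tsum_of_nonneg (fun n => by positivity) (hs.mul_right _), tsum_mul_right]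
  apply le_of_eq
  congr 1
  ring

theorem exists_cut : ∃ χ : E → ℝ, Cut χ := by
  let b : ContDiffBump (0 : E) := ⟨1, 2, by norm_num, by norm_num⟩
  refine ⟨b, b.contDiff, fun x hx => b.one_of_mem_closedBall (by simpa using hx), fun x hx => ?_⟩
  exact b.zero_of_le_dist (by simpa using hx)

theorem Cut.pow {χ : E → ℝ} (h : Cut χ) (k : ℕ) (hk : 1 ≤ k) : Cut (fun x => χ x ^ k) :=
  ⟨h.smooth.pow k, fun x hx => by rw [h.one x hx, one_pow],
    fun x hx => by rw [h.zero x hx, zero_pow (by omega)]⟩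

end Vale.Agent.P139
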