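import Vale.Agent.P139.Alg

open Complex MeasureTheory Filter Topology
open scoped ComplexConjugate ContDiff

namespace Vale.Agent.P139

/-- characters -/
noncomputable def invCh (n : Z) (x : E) : ℂ := Complex.exp (I * ((∑ i, (n i : ℝ) * x i : ℝ) : ℂ))

/-- the period cube -/
def invQ : Set E := {x | ∀ i, x i ∈ Set.Icc (-Real.pi) Real.pi}

theorem inv_norm_ch (n : Z) (x : E) : ‖invCh n x‖ = 1 := by
  rw [invCh, mul_comm, Complex.norm_exp_ofReal_mul_I]

theorem inv_cont_ch (n : Z) : Continuous (invCh n) := by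
  unfold invCh
  fun_prop

theorem inv_ch_add (m n : Z) (x : E) : invCh (m + n) x = invCh m x * invCh n x := by
  simp only [invCh, ← Complex.exp_add, Pi.add_apply, Int.cast_add, add_mul,
    Finset.sum_add_distrib, ofReal_add, mul_add]

theorem inv_ch_zero (x : E) : invCh 0 x = 1 := by simp [invCh]

theorem inv_ev (a : Z → ℂ) (x : E) : ev a x = ∑' n, a n * invCh n x := rfl

theorem inv_coef (f : E → ℂ) (n : Z) : coef f n =
    (((2 * Real.pi) ^ 12 : ℝ) : ℂ)⁻¹ * ∫ x in invQ, f x * invCh (-n) x := by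
  simp only [coef, invCh, invQ, Pi.neg_apply, Int.cast_neg, neg_mul, Finset.sum_neg_distrib,
    ofReal_neg, mul_neg]

theorem inv_compact : IsCompact invQ := by
  have := (EuclideanSpace.equiv (Fin 12) ℝ).toHomeomorph.isCompact_preimage.2
    (isCompact_univ_pi fun _ => isCompact_Icc (a := -Real.pi) (b := Real.pi))
  refine (congrArg _ (Set.ext fun x => ?_)).mp this
  rw [Set.mem_preimage, Set.mem_univ_pi]
  rfl

theorem inv_int {f : E → ℂ} (hf : Continuous f) : IntegrableOn f invQ :=
  hf.continuousOn.integrableOn_compact inv_compact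

theorem inv_one (m : ℤ) : ∫ t in Set.Icc (-Real.pi) Real.pi, Complex.exp (I * m * t) =
    if m = 0 then ((2 * Real.pi : ℝ) : ℂ) else 0 := by
  rw [integral_Icc_eq_integral_Ioc, ← intervalIntegral.integral_of_le (by linarith [Real.pi_pos])]
  split_ifs with h
  · simp [h, two_mul]
  · rw [integral_exp_mul_complex (mul_ne_zero I_ne_zero (Int.cast_ne_zero.2 h)),
      show I * m * (Real.pi : ℂ) = I * m * ((-Real.pi : ℝ) : ℂ) + m * (2 * Real.pi * I) by
        push_cast; ring, Complex.exp_add, Complex.exp_int_mul_two_pi_mul_I, mul_one, sub_self,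
      zero_div]

theorem inv_orth (n : Z) : ∫ x in invQ, invCh n x =
    if n = 0 then (((2 * Real.pi) ^ 12 : ℝ) : ℂ) else 0 := by
  have h1 := (PiLp.volume_preserving_toLp (Fin 12)).setIntegral_preimage_emb
    (MeasurableEquiv.toLp 2 (Fin 12 → ℝ)).measurableEmbedding (invCh n) invQ
  have h2 : (WithLp.toLp 2 : (Fin 12 → ℝ) → E) ⁻¹' invQ =
      Set.univ.pi fun _ => Set.Icc (-Real.pi) Real.pi := Set.ext fun x => Set.mem_univ_pi.symm
  have h3 : ∀ x : Fin 12 → ℝ, invCh n (WithLp.toLp 2 x) = ∏ i, Complex.exp (I * n i * x i) :=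
    fun x => by
      rw [invCh, ← Complex.exp_sum]
      simp [Finset.mul_sum, mul_assoc]
  rw [← h1, h2, volume_pi, Measure.restrict_pi_pi]
  simp only [h3]
  rw [integral_fintype_prod_eq_prod fun i (t : ℝ) => Complex.exp (I * n i * t)]
  simp only [inv_one]
  split_ifs with h
  · simp [h]
  · obtain ⟨i, hi⟩ := Function.ne_iff.1 h
    exact Finset.prod_eq_zero (Finset.mem_univ i) (if_neg hi)

theorem continuous_ev (a : Z → ℂ) (ha : Summable fun n => ‖a n‖) : Continuous (ev a) :=
  continuous_tsum (f := fun n x => a n * invCh n x)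
    (fun n => continuous_const.mul (inv_cont_ch n)) ha
    fun n x => by rw [norm_mul, inv_norm_ch, mul_one]

theorem norm_ev_le (a : Z → ℂ) (ha : Summable fun n => ‖a n‖) (x : E) :
    ‖ev a x‖ ≤ ∑' n, ‖a n‖ :=
  tsum_of_norm_bounded (f := fun n => a n * invCh n x) ha.hasSum
    fun n => by rw [norm_mul, inv_norm_ch, mul_one]

theorem coef_ev (a : Z → ℂ) (ha : Summable fun n => ‖a n‖) : coef (ev a) = a := by
  funext n
  have h := integral_tsum_of_summable_integral_norm (μ := volume.restrict invQ)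
    (F := fun k x => a k * invCh (k - n) x)
    (fun k => inv_int (continuous_const.mul (inv_cont_ch _))) (by
      simp only [norm_mul, inv_norm_ch, mul_one, integral_const, smul_eq_mul]
      exact ha.mul_left _)
  have h2 : ∀ x, ev a x * invCh (-n) x = ∑' k, a k * invCh (k - n) x := fun x => by
    simp only [inv_ev, ← tsum_mul_right, mul_assoc, ← inv_ch_add, sub_eq_add_neg]
  simp only [inv_coef, h2, ← h, integral_const_mul, inv_orth, sub_eq_zero, mul_ite, mul_zero,
    tsum_ite_eq]
  have : (((2 * Real.pi) ^ 12 : ℝ) : ℂ) ≠ 0 := ofReal_ne_zero.2 (by positivity)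
  field_simp

theorem ev_conv (a b : Z → ℂ) (ha : Summable fun n => ‖a n‖) (hb : Summable fun n => ‖b n‖)
    (x : E) : ev (conv a b) x = ev a x * ev b x := by
  have ha' : Summable fun n => ‖a n * invCh n x‖ := by simpa only [norm_mul, inv_norm_ch, mul_one]
  have hb' : Summable fun n => ‖b n * invCh n x‖ := by simpa only [norm_mul, inv_norm_ch, mul_one]
  let e : Z × Z ≃ Z × Z := ⟨fun p => (p.1 - p.2, p.2), fun p => (p.1 + p.2, p.2),
    fun p => by simp, fun p => by simp⟩
  have h1 := (e.summable_iff.2 (summable_mul_of_summable_norm ha' hb')).tsum_prod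
  rw [inv_ev a, inv_ev b, tsum_mul_tsum_of_summable_norm ha' hb', ← e.tsum_eq]
  refine Eq.trans ?_ h1.symm
  refine tsum_congr fun n => ?_
  rw [conv, ← tsum_mul_right]
  refine tsum_congr fun k => ?_
  change a (n - k) * b k * invCh n x = a (n - k) * invCh (n - k) x * (b k * invCh k x)
  rw [mul_mul_mul_comm, ← inv_ch_add, sub_add_cancel]

theorem coef_congr (f g : E → ℂ) (h : ∀ x : E, (∀ i, |x i| ≤ Real.pi) → f x = g x) :
    coef f = coef g := by
  funext n
  rw [inv_coef, inv_coef, setIntegral_congr_fun inv_compact.measurableSet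
    fun x hx => by rw [h x fun i => abs_le.2 (hx i)]]

theorem inv_cos (y x : E) (i : Fin 12) : (Real.cos (x i - y i) : ℂ) =
    invCh (-Pi.single i 1) y / 2 * invCh (Pi.single i 1) x +
      invCh (Pi.single i 1) y / 2 * invCh (-Pi.single i 1) x := by
  have h1 : ∀ x : E, invCh (Pi.single i 1) x = Complex.exp (x i * I) := fun x => by
    simp [invCh, Pi.single_apply, mul_comm]
  have h2 : ∀ x : E, invCh (-Pi.single i 1) x = Complex.exp (-x i * I) := fun x => by
    simp [invCh, Pi.single_apply, mul_comm]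
  rw [h1, h1, h2, h2, ofReal_cos, Complex.cos, div_mul_eq_mul_div, div_mul_eq_mul_div,
    ← Complex.exp_add, ← Complex.exp_add, ← add_div]
  congr 3 <;> push_cast <;> ring

theorem inv_step {D : E → ℂ} (hD : Continuous D) (h : ∀ n, ∫ x in invQ, D x * invCh n x = 0)
    (y : E) (n : Z) : ∫ x in invQ, ((∑ i, (1 + Real.cos (x i - y i))) • D x) * invCh n x = 0 := by
  have k : ∀ m, Continuous fun x => D x * invCh m x := fun m => hD.mul (inv_cont_ch m)
  have e : ∀ x, ((∑ i, (1 + Real.cos (x i - y i))) • D x) * invCh n x =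
      ∑ i, (D x * invCh n x + invCh (-Pi.single i 1) y / 2 * (D x * invCh (Pi.single i 1 + n) x) +
        invCh (Pi.single i 1) y / 2 * (D x * invCh (-Pi.single i 1 + n) x)) := fun x => by
    rw [real_smul, ofReal_sum, Finset.sum_mul, Finset.sum_mul]
    refine Finset.sum_congr rfl fun i _ => ?_
    rw [ofReal_add, inv_cos, inv_ch_add, inv_ch_add, ofReal_one]
    ring
  have k' : ∀ c m, IntegrableOn (fun x => c * (D x * invCh m x)) invQ := fun c m =>
    inv_int (continuous_const.mul (k m))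
  have k2 : ∀ c m, IntegrableOn (fun x => D x * invCh n x + c * (D x * invCh m x)) invQ :=
    fun c m => (inv_int (k n)).add (k' c m)
  simp only [e]
  rw [integral_finsetSum _ fun i _ => by exact (k2 _ _).add (k' _ _)]
  refine Finset.sum_eq_zero fun i _ => ?_
  rw [integral_add (k2 _ _) (k' _ _), integral_add (inv_int (k _)) (k' _ _), integral_const_mul,
    integral_const_mul, h, h, h]
  simp

theorem inv_unique {D : E → ℂ} (hD : Continuous D) (h : ∀ n, ∫ x in invQ, D x * invCh n x = 0)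
    (x : E) (hx : ∀ i, |x i| ≤ Real.pi) : D x = 0 := by
  have key : ∀ y : E, (∀ i, |y i| < Real.pi) → D y = 0 := fun y hy => by
    have c0 : Continuous fun x : E => ∑ i, (1 + Real.cos (x i - y i)) := by fun_prop
    have h1 : ∀ N : ℕ, ∀ n, ∫ x in invQ,
        ((∑ i, (1 + Real.cos (x i - y i))) ^ N • D x) * invCh n x = 0 := fun N => by
      induction N with
      | zero => simpa using h
      | succ N ih =>
        simp only [pow_succ', mul_smul]
        exact inv_step ((c0.pow N).smul hD) ih y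
    have h2 := tendsto_setIntegral_pow_smul_of_unique_maximum_of_isCompact_of_continuousOn
      (μ := volume) (x₀ := y) inv_compact c0.continuousOn (fun x hx hxy => ?_)
      (fun x _ => Finset.sum_nonneg fun i _ => by linarith [Real.neg_one_le_cos (x i - y i)])
      (by simp) (subset_closure (mem_interior.2 ⟨{x : E | ∀ i, |x i| < Real.pi},
        fun x hx i => abs_le.1 (hx i).le, ?_, hy⟩)) hD.continuousOn
    · have h3 := fun N => h1 N 0
      simp only [inv_ch_zero, mul_one] at h3
      simp only [h3, smul_zero] at h2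
      exact tendsto_nhds_unique h2 tendsto_const_nhds |>.symm ▸ rfl
    · obtain ⟨i, hi⟩ : ∃ i, x i ≠ y i := by
        by_contra hc
        exact hxy (PiLp.ext fun i => by_contra fun e => hc ⟨i, e⟩)
      refine Finset.sum_lt_sum (fun j _ => by simpa using Real.cos_le_one _)
        ⟨i, Finset.mem_univ _, ?_⟩
      obtain ⟨a1, a2⟩ := hx i
      obtain ⟨b1, b2⟩ := abs_lt.1 (hy i)
      rw [sub_self, Real.cos_zero, add_lt_add_iff_left]
      exact lt_of_le_of_ne (Real.cos_le_one _) fun e => hi (sub_eq_zero.1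
        ((Real.cos_eq_one_iff_of_lt_of_lt (by linarith) (by linarith)).1 e))
    · rw [Set.ofPred_forall]
      exact isOpen_iInter_of_finite fun i => isOpen_lt (by fun_prop) continuous_const
  have h1 : Tendsto (fun t : ℝ => D (t • x)) (𝓝[<] 1) (𝓝 (D ((1 : ℝ) • x))) :=
    ((hD.comp (by fun_prop : Continuous fun t : ℝ => t • x)).tendsto 1).mono_left
      nhdsWithin_le_nhds
  rw [one_smul] at h1
  refine tendsto_nhds_unique h1 (tendsto_const_nhds.congr' ?_)
  filter_upwards [Ioo_mem_nhdsLT (zero_lt_one' ℝ)] with t ht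
  refine (key _ fun i => ?_).symm
  rw [PiLp.smul_apply, smul_eq_mul, abs_mul, abs_of_pos ht.1]
  exact (mul_le_mul_of_nonneg_left (hx i) ht.1.le).trans_lt
    (mul_lt_of_lt_one_left Real.pi_pos ht.2)

/-- Fourier inversion on the period cube -/
theorem ev_coef (G : E → ℂ) (hG : Continuous G) (h0 : ∀ x, 3 ≤ ‖x‖ → G x = 0)
    (hs : Summable fun n => ‖coef G n‖) (x : E) (hx : ∀ i, |x i| ≤ Real.pi) :
    ev (coef G) x = G x := by
  have _ := h0
  have hc := continuous_ev _ hs
  refine sub_eq_zero.1 (inv_unique (hc.sub hG) (fun n => ?_) x hx)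
  have h1 := congrFun (coef_ev _ hs) (-n)
  rw [inv_coef, inv_coef G, neg_neg] at h1
  simp only [Pi.sub_apply, sub_mul]
  rw [integral_sub (by exact inv_int (hc.mul (inv_cont_ch n)))
    (by exact inv_int (hG.mul (inv_cont_ch n))),
    mul_left_cancel₀ (inv_ne_zero (ofReal_ne_zero.2 (by positivity))) h1, sub_self]

theorem summable_lat (q : ℝ) (hq : 12 < q) : Summable fun n : Z => (1 + ‖zE n‖) ^ (-q) := by
  have h1 : Summable fun n : ℤ => (1 + |(n : ℝ)|) ^ (-(q / 12)) := by
    have := (summable_nat_add_iff 1).2 (Real.summable_nat_rpow.2 (show -(q / 12) < -1 by linarith))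
    refine Summable.of_nat_of_neg ?_ ?_ <;> simpa [add_comm] using this
  have h0 : ∀ n : ℤ, 0 ≤ (1 + |(n : ℝ)|) ^ (-(q / 12)) := fun n => by positivity
  refine Summable.of_nonneg_of_le (fun n => by positivity)
    (f := fun n : Z => ∏ i, (1 + |(n i : ℝ)|) ^ (-(q / 12))) (fun n => ?_) ?_
  · rw [show -q = -(q / 12) * (12 : ℕ) by push_cast; ring, Real.rpow_mul_natCast (by positivity),
      ← Fin.prod_const]
    refine Finset.prod_le_prod (fun _ _ => by positivity) fun i _ =>
      Real.rpow_le_rpow_of_nonpos (by positivity) ?_ (by linarith)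
    simpa [zE] using PiLp.norm_apply_le (zE n) i
  · refine summable_of_sum_le (c := ∏ _ : Fin 12, ∑' n : ℤ, (1 + |(n : ℝ)|) ^ (-(q / 12)))
      (fun n => Finset.prod_nonneg fun _ _ => h0 _) fun u => ?_
    refine (Finset.sum_le_sum_of_subset_of_nonneg (t := Fintype.piFinset fun i => u.image (· i))
      (fun n hn => Fintype.mem_piFinset.2 fun i => Finset.mem_image_of_mem _ hn)
      fun n _ _ => Finset.prod_nonneg fun _ _ => h0 _).trans ?_
    rw [← Finset.prod_univ_sum (fun i => u.image (· i))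
      fun _ (m : ℤ) => (1 + |(m : ℝ)|) ^ (-(q / 12))]
    exact Finset.prod_le_prod (fun _ _ => Finset.sum_nonneg fun _ _ => h0 _)
      fun i _ => h1.sum_le_tsum _ fun _ _ => h0 _

/-- H^k embeds in l^1 for k > 6 -/
theorem l1_le_hs (k : ℕ) (hk : 6 < k) : ∃ C : ℝ, 0 ≤ C ∧ ∀ c : Z → ℂ, Summable (hs k c) →
    (Summable fun n => ‖c n‖) ∧ ∑' n, ‖c n‖ ≤ C * Real.sqrt (∑' n, hs k c n) := by
  have h0 : ∀ n : Z, 0 < 1 + nsq n := fun n => by rw [nsq_eq]; positivity
  have h1 : Summable fun n : Z => ((1 + nsq n) ^ k)⁻¹ := by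
    refine Summable.of_nonneg_of_le (fun n => by have := h0 n; positivity) (fun n => ?_)
      ((summable_lat ((2 * k : ℕ) : ℝ) (by exact_mod_cast (by omega : 12 < 2 * k))).mul_left
        (2 ^ k))
    rw [Real.rpow_neg (by positivity), Real.rpow_natCast, pow_mul, ← div_eq_mul_inv, ← div_pow,
      ← inv_pow, nsq_eq]
    refine pow_le_pow_left₀ (by positivity) ?_ _
    rw [inv_eq_one_div, div_le_div_iff₀ (by positivity) (by positivity)]
    nlinarith [sq_nonneg (1 - ‖zE n‖)]
  refine ⟨Real.sqrt (∑' n : Z, ((1 + nsq n) ^ k)⁻¹), Real.sqrt_nonneg _, fun c hc => ?_⟩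
  have h2 : ∀ n, 0 ≤ hs k c n := fun n => mul_nonneg (pow_pos (h0 n) k).le (sq_nonneg _)
  have h3 : ∀ n : Z, 0 ≤ ((1 + nsq n) ^ k)⁻¹ := fun n => (inv_pos.2 (pow_pos (h0 n) k)).le
  have h4 : ∀ u : Finset Z, ∑ n ∈ u, ‖c n‖ ≤
      Real.sqrt (∑' n : Z, ((1 + nsq n) ^ k)⁻¹) * Real.sqrt (∑' n, hs k c n) := fun u => by
    rw [← Real.sqrt_mul (tsum_nonneg h3)]
    refine Real.le_sqrt_of_sq_le ((Finset.sum_sq_le_sum_mul_sum_of_sq_le_mul u (fun n _ => h3 n)
      (fun n _ => h2 n) fun n _ => ?_).trans (mul_le_mul (h1.sum_le_tsum _ fun n _ => h3 n)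
        (hc.sum_le_tsum _ fun n _ => h2 n) (Finset.sum_nonneg fun n _ => h2 n) (tsum_nonneg h3)))
    rw [hs, inv_mul_cancel_left₀ (pow_pos (h0 n) k).ne']
  exact ⟨summable_of_sum_le (fun _ => norm_nonneg _) h4,
    Real.tsum_le_of_sum_le (fun _ => norm_nonneg _) h4⟩

end Vale.Agent.P139
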