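import Vale.Agent.P139.Defs

open Complex MeasureTheory Filter Topology
open scoped ComplexConjugate ContDiff

namespace Vale.Agent.P139

theorem SymA_le (k : ℕ) : (k : WithTop ℕ∞) ≤ ∞ := by exact_mod_cast le_top

theorem SymA_nonneg {γ : ℝ} {J : ℕ} {C : ℝ} {g : E → ℂ} (h : Sym γ J C g) : 0 ≤ C := by
  have h1 := (norm_nonneg _).trans (h.2 0 (Nat.zero_le J) 0)
  simpa using h1

theorem SymA_sum {γ γ' C C' t : ℝ} (ht : 0 ≤ t) (hC : 0 ≤ C) (hC' : 0 ≤ C') {n J : ℕ} (hn : n ≤ J)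
    (a b : ℕ → ℝ) (hb0 : ∀ i, 0 ≤ b i) (ha : ∀ i ≤ n, a i ≤ C * (1 + t) ^ (-γ - i))
    (hb : ∀ i ≤ n, b i ≤ C' * (1 + t) ^ (-γ' - i)) :
    ∑ i ∈ Finset.range (n + 1), (n.choose i : ℝ) * a i * b (n - i) ≤
      2 ^ J * C * C' * (1 + t) ^ (-(γ + γ') - n) := by
  have h1 : 0 < 1 + t := by linarith
  have key : ∀ i ∈ Finset.range (n + 1), (n.choose i : ℝ) * a i * b (n - i) ≤
      (n.choose i : ℝ) * (C * C' * (1 + t) ^ (-(γ + γ') - n)) := by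
    intro i hi
    have hi' : i ≤ n := Nat.lt_succ_iff.1 (Finset.mem_range.1 hi)
    rw [mul_assoc]
    refine mul_le_mul_of_nonneg_left ?_ (Nat.cast_nonneg _)
    refine (mul_le_mul (ha i hi') (hb (n - i) (Nat.sub_le n i)) (hb0 _) (by positivity)).trans
      (le_of_eq ?_)
    have e : -(γ + γ') - n = (-γ - i) + (-γ' - ((n - i : ℕ) : ℝ)) := by
      rw [Nat.cast_sub hi']; ring
    rw [e, Real.rpow_add h1]; ring
  refine (Finset.sum_le_sum key).trans ?_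
  rw [← Finset.sum_mul, ← Nat.cast_sum, Nat.sum_range_choose, mul_assoc ((2 : ℝ) ^ J),
    mul_assoc ((2 : ℝ) ^ J)]
  refine mul_le_mul_of_nonneg_right ?_ (by positivity)
  push_cast
  exact pow_le_pow_right₀ one_le_two hn

theorem SymA_lin {F : Type} [NormedAddCommGroup F] [NormedSpace ℝ F] (L : E →L[ℝ] F)
    (hL : ‖L‖ ≤ 1) (k : ℕ) (y : E) :
    ‖iteratedFDeriv ℝ k L y‖ ≤ 1 * (1 + ‖y‖) ^ (-(-1 : ℝ) - k) := by
  have hd : fderiv ℝ L = fun _ => L := funext fun x => L.fderiv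
  rcases k with _ | _ | k
  · rw [norm_iteratedFDeriv_zero]
    have h1 : ‖L y‖ ≤ ‖y‖ := (L.le_opNorm y).trans (mul_le_of_le_one_left (norm_nonneg _) hL)
    simp only [neg_neg, Nat.cast_zero, sub_zero, Real.rpow_one, one_mul]
    linarith
  · rw [← norm_iteratedFDeriv_fderiv, hd, norm_iteratedFDeriv_zero]
    simpa using hL
  · rw [← norm_iteratedFDeriv_fderiv, hd, iteratedFDeriv_succ_const]
    simp only [Pi.zero_apply, norm_zero]
    positivity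

theorem SymA_rpow {a b L : ℝ} (ha : 0 < a) (hb : 0 < b) (hL : 1 ≤ L) (h1 : a ≤ L * b)
    (h2 : b ≤ L * a) (e : ℝ) : a ^ e ≤ L ^ |e| * b ^ e := by
  have hL0 : 0 < L := by linarith
  rcases le_total 0 e with he | he
  · rw [abs_of_nonneg he, ← Real.mul_rpow hL0.le hb.le]
    exact Real.rpow_le_rpow ha.le h1 he
  · have h3 : L⁻¹ * b ≤ a := by rw [inv_mul_le_iff₀ hL0]; exact h2
    have h4 := Real.rpow_le_rpow_of_nonpos (by positivity) h3 he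
    rw [Real.mul_rpow (by positivity) hb.le, Real.inv_rpow hL0.le, ← Real.rpow_neg hL0.le] at h4
    rw [abs_of_nonpos he]
    exact h4

theorem SymA_clm {γ : ℝ} {J : ℕ} {C : ℝ} {f : E → ℂ} (hf : Sym γ J C f) (L : ℂ →L[ℝ] ℂ) {A : ℝ}
    (hA : ‖L‖ ≤ A) : Sym γ J (A * C) (fun y => L (f y)) := by
  refine ⟨L.contDiff.comp hf.1, fun k hk y => ?_⟩
  refine (L.norm_iteratedFDeriv_comp_left hf.1.contDiffAt (SymA_le k)).trans ?_
  rw [mul_assoc]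
  exact mul_le_mul hA (hf.2 k hk y) (norm_nonneg _) ((norm_nonneg _).trans hA)

theorem Sym.mono {γ γ' : ℝ} {J J' : ℕ} {C C' : ℝ} {g : E → ℂ} (h : Sym γ J C g) (h1 : γ' ≤ γ)
    (h2 : J' ≤ J) (h3 : C ≤ C') : Sym γ' J' C' g := by
  refine ⟨h.1, fun k hk y => (h.2 k (hk.trans h2) y).trans ?_⟩
  refine mul_le_mul h3 (Real.rpow_le_rpow_of_exponent_le ?_ (by linarith)) (by positivity)
    ((SymA_nonneg h).trans h3)
  linarith [norm_nonneg y]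

theorem Sym.add {γ : ℝ} {J : ℕ} {C C' : ℝ} {f g : E → ℂ} (hf : Sym γ J C f) (hg : Sym γ J C' g) :
    Sym γ J (C + C') (fun y => f y + g y) := by
  refine ⟨hf.1.add hg.1, fun k hk y => ?_⟩
  rw [fun_iteratedFDeriv_add_apply (hf.1.of_le (SymA_le k)).contDiffAt
    (hg.1.of_le (SymA_le k)).contDiffAt, add_mul]
  exact (norm_add_le _ _).trans (add_le_add (hf.2 k hk y) (hg.2 k hk y))

theorem Sym.smul {γ : ℝ} {J : ℕ} {C : ℝ} {f : E → ℂ} (hf : Sym γ J C f) (c : ℂ) :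
    Sym γ J (‖c‖ * C) (fun y => c * f y) :=
  SymA_clm hf (ContinuousLinearMap.mul ℝ ℂ c) (ContinuousLinearMap.opNorm_mul_apply_le ℝ ℂ c)

theorem Sym.conj {γ : ℝ} {J : ℕ} {C : ℝ} {f : E → ℂ} (hf : Sym γ J C f) :
    Sym γ J C (fun y => conj (f y)) := by
  have h := SymA_clm hf (Complex.conjCLE : ℂ →L[ℝ] ℂ) Complex.conjCLE_norm.le
  rw [one_mul] at h
  exact h

theorem Sym.mul {γ γ' : ℝ} {J : ℕ} {C C' : ℝ} {f g : E → ℂ} (hf : Sym γ J C f)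
    (hg : Sym γ' J C' g) : Sym (γ + γ') J (2 ^ J * C * C') (fun y => f y * g y) := by
  refine ⟨hf.1.mul hg.1, fun k hk y => ?_⟩
  refine (norm_iteratedFDeriv_mul_le hf.1 hg.1 y (SymA_le k)).trans ?_
  exact SymA_sum (norm_nonneg y) (SymA_nonneg hf) (SymA_nonneg hg) hk
    (fun i => ‖iteratedFDeriv ℝ i f y‖) (fun i => ‖iteratedFDeriv ℝ i g y‖)
    (fun _ => norm_nonneg _) (fun i hi => hf.2 i (hi.trans hk) y)
    (fun i hi => hg.2 i (hi.trans hk) y)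

theorem sym_coord (J : ℕ) (j : Fin 12) : Sym (-1) J 1 (fun y : E => ((y j : ℝ) : ℂ)) := by
  let L : E →L[ℝ] ℂ := Complex.ofRealCLM.comp (EuclideanSpace.proj j)
  have hL : ‖L‖ ≤ 1 := by
    refine ContinuousLinearMap.opNorm_le_bound _ zero_le_one fun y => ?_
    rw [one_mul]
    show ‖((y j : ℝ) : ℂ)‖ ≤ ‖y‖
    rw [Complex.norm_real]
    exact PiLp.norm_apply_le y j
  exact ⟨L.contDiff, fun k _ y => SymA_lin L hL k y⟩

theorem Sym.fderiv {γ : ℝ} {J : ℕ} {C : ℝ} {f : E → ℂ} (hf : Sym γ (J + 1) C f) (v : E) :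
    Sym (γ + 1) J (‖v‖ * C) (fun y => fderiv ℝ f y v) := by
  have hd : ContDiff ℝ ∞ (_root_.fderiv ℝ f) := (contDiff_infty_iff_fderiv.1 hf.1).2
  refine ⟨hd.clm_apply contDiff_const, fun k hk y => ?_⟩
  refine (norm_iteratedFDeriv_clm_apply_const hd.contDiffAt (SymA_le k)).trans ?_
  rw [norm_iteratedFDeriv_fderiv, mul_assoc]
  refine mul_le_mul_of_nonneg_left ?_ (norm_nonneg _)
  have h := hf.2 (k + 1) (Nat.succ_le_succ hk) y
  have e : -γ - ((k + 1 : ℕ) : ℝ) = -(γ + 1) - k := by push_cast; ring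
  rwa [e] at h

/-- dilation by a factor in [1/L, L] -/
theorem sym_dil (γ L : ℝ) (hL : 1 ≤ L) (J : ℕ) : ∃ C0 : ℝ, 0 ≤ C0 ∧ ∀ (g : E → ℂ) (C c : ℝ),
    Sym γ J C g → L⁻¹ ≤ c → c ≤ L → Sym γ J (C0 * C) (fun y => g (c • y)) := by
  have hL0 : 0 < L := by linarith
  refine ⟨L ^ J * L ^ (|γ| + J), by positivity, fun g C c hg h1 h2 => ?_⟩
  have hc : 0 < c := (inv_pos.2 hL0).trans_le h1
  refine ⟨hg.1.comp (contDiff_const_smul c), fun k hk y => ?_⟩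
  rw [iteratedFDeriv_comp_const_smul c (hg.1.of_le (SymA_le k))]
  show ‖c ^ k • iteratedFDeriv ℝ k g (c • y)‖ ≤ _
  have hy := norm_nonneg y
  have e1 : ‖c • y‖ = c * ‖y‖ := by rw [norm_smul, Real.norm_eq_abs, abs_of_pos hc]
  have a1 : c ^ k ≤ L ^ J := (pow_le_pow_left₀ hc.le h2 k).trans (pow_le_pow_right₀ hL hk)
  have a2 : 1 + c * ‖y‖ ≤ L * (1 + ‖y‖) := by
    have := mul_le_mul_of_nonneg_right h2 hy
    linarith
  have a3 : 1 + ‖y‖ ≤ L * (1 + c * ‖y‖) := by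
    have h3 : 1 ≤ L * c := by rw [← inv_mul_le_iff₀ hL0, mul_one]; exact h1
    have := mul_le_mul_of_nonneg_right h3 hy
    linarith
  have a4 := SymA_rpow (by positivity) (by positivity) hL a2 a3 (-γ - k)
  have a5 : L ^ |-γ - k| ≤ L ^ (|γ| + J) := by
    refine Real.rpow_le_rpow_of_exponent_le hL ((abs_sub _ _).trans ?_)
    rw [abs_neg, Nat.abs_cast]
    exact add_le_add le_rfl (Nat.cast_le.2 hk)
  have a6 := hg.2 k hk (c • y)
  rw [e1] at a6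
  have hC := SymA_nonneg hg
  rw [norm_smul, Real.norm_eq_abs, abs_of_nonneg (by positivity)]
  calc c ^ k * ‖iteratedFDeriv ℝ k g (c • y)‖
      ≤ L ^ J * (C * (L ^ (|γ| + J) * (1 + ‖y‖) ^ (-γ - k))) := by
        refine mul_le_mul a1 (a6.trans (mul_le_mul_of_nonneg_left (a4.trans ?_) hC))
          (norm_nonneg _) (by positivity)
        exact mul_le_mul_of_nonneg_right a5 (by positivity)
    _ = _ := by ring

theorem SymA_rad_smooth {g : ℝ → ℂ} (hg : ContDiff ℝ ∞ g) : ContDiff ℝ ∞ (rad g) :=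
  hg.comp ((contDiff_norm_sq ℝ).div_const 4)

theorem SymA_rad_zero (γ : ℝ) {g : ℝ → ℂ} {C : ℝ} (hC : 0 ≤ C)
    (h : ∀ s : ℝ, 0 ≤ s → ‖g s‖ ≤ C * (1 + s) ^ (-γ / 2)) (y : E) :
    ‖rad g y‖ ≤ 5 ^ |-γ / 2| * C * (1 + ‖y‖) ^ (-γ) := by
  have hy := norm_nonneg y
  refine (h (‖y‖ ^ 2 / 4) (by positivity)).trans ?_
  have a1 : 1 + ‖y‖ ^ 2 / 4 ≤ 5 * (1 + ‖y‖) ^ 2 := by nlinarith
  have a2 : (1 + ‖y‖) ^ 2 ≤ 5 * (1 + ‖y‖ ^ 2 / 4) := by nlinarith [sq_nonneg (‖y‖ / 2 - 2)]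
  have a3 := SymA_rpow (by positivity) (by positivity) (by norm_num) a1 a2 (-γ / 2)
  have e : ((1 + ‖y‖) ^ 2) ^ (-γ / 2) = (1 + ‖y‖) ^ (-γ) := by
    rw [← Real.rpow_natCast, ← Real.rpow_mul (by positivity)]
    congr 1
    push_cast; ring
  rw [e] at a3
  refine (mul_le_mul_of_nonneg_left a3 hC).trans (le_of_eq ?_)
  ring

theorem SymA_rad_fderiv {g : ℝ → ℂ} (hg : ContDiff ℝ ∞ g) :
    fderiv ℝ (rad g) = fun y => ContinuousLinearMap.smulRightL ℝ E ℂ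
      ((innerSL ℝ : E →L[ℝ] E →L[ℝ] ℝ) y) ((1 / 2 : ℂ) * rad (deriv g) y) := by
  funext y
  have h1 : HasFDerivAt (fun x : E => ‖x‖ ^ 2 / 4) ((1 / 4 : ℝ) • (2 • innerSL ℝ y)) y := by
    have h := (hasStrictFDerivAt_norm_sq y).hasFDerivAt.const_mul (1 / 4 : ℝ)
    refine h.congr_of_eventuallyEq (Eventually.of_forall fun x => ?_)
    show ‖x‖ ^ 2 / 4 = 1 / 4 * ‖x‖ ^ 2
    ring
  have h2 : HasDerivAt g (deriv g (‖y‖ ^ 2 / 4)) (‖y‖ ^ 2 / 4) :=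
    (hg.differentiable (by simp) _).hasDerivAt
  have h3 : HasFDerivAt (rad g) _ y := h2.hasFDerivAt.comp y h1
  rw [h3.fderiv]
  ext v
  simp [rad]
  ring

/-- radial lift of one dimensional symbols -/
theorem sym_rad (γ : ℝ) (J : ℕ) : ∃ C0 : ℝ, 0 ≤ C0 ∧ ∀ (g : ℝ → ℂ) (C : ℝ), ContDiff ℝ ∞ g →
    (∀ k ≤ J, ∀ s : ℝ, 0 ≤ s → ‖iteratedDeriv k g s‖ ≤ C * (1 + s) ^ (-γ / 2 - k)) →
    Sym γ J (C0 * C) (rad g) := by
  have hz : ∀ (γ : ℝ) (J : ℕ) (g : ℝ → ℂ) (C : ℝ),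
      (∀ k ≤ J, ∀ s : ℝ, 0 ≤ s → ‖iteratedDeriv k g s‖ ≤ C * (1 + s) ^ (-γ / 2 - k)) →
      0 ≤ C ∧ ∀ y, ‖iteratedFDeriv ℝ 0 (rad g) y‖ ≤
        5 ^ |-γ / 2| * C * (1 + ‖y‖) ^ (-γ - (0 : ℕ)) := by
    intro γ J g C h
    have hC : 0 ≤ C := by
      have h1 := (norm_nonneg _).trans (h 0 (Nat.zero_le J) 0 le_rfl)
      simpa using h1
    refine ⟨hC, fun y => ?_⟩
    rw [norm_iteratedFDeriv_zero, Nat.cast_zero, sub_zero]
    exact SymA_rad_zero γ hC (fun s hs => by simpa using h 0 (Nat.zero_le J) s hs) y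
  induction J generalizing γ with
  | zero =>
    refine ⟨5 ^ |-γ / 2|, by positivity, fun g C hg h => ⟨SymA_rad_smooth hg, fun k hk y => ?_⟩⟩
    obtain rfl : k = 0 := Nat.le_zero.1 hk
    exact (hz γ 0 g C h).2 y
  | succ J ih =>
    obtain ⟨C1, hC1, H⟩ := ih (γ + 2)
    refine ⟨5 ^ |-γ / 2| + 2 ^ J * (‖(1 / 2 : ℂ)‖ * C1), by positivity,
      fun g C hg h => ⟨SymA_rad_smooth hg, fun k hk y => ?_⟩⟩
    obtain ⟨hC, h0⟩ := hz γ (J + 1) g C h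
    rcases k with _ | k
    · refine (h0 y).trans (mul_le_mul_of_nonneg_right ?_ (by positivity))
      exact mul_le_mul_of_nonneg_right (le_add_of_nonneg_right (by positivity)) hC
    · have hk' : k ≤ J := Nat.le_of_succ_le_succ hk
      have hg' : ContDiff ℝ ∞ (deriv g) := (contDiff_infty_iff_deriv.1 hg).2
      have S := (H (deriv g) C hg' (fun i hi s hs => by
        have h1 := h (i + 1) (Nat.succ_le_succ hi) s hs
        have e : -γ / 2 - ((i + 1 : ℕ) : ℝ) = -(γ + 2) / 2 - i := by push_cast; ring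
        rwa [iteratedDeriv_succ', e] at h1)).smul (1 / 2)
      rw [← norm_iteratedFDeriv_fderiv, SymA_rad_fderiv hg]
      refine ((ContinuousLinearMap.smulRightL ℝ E ℂ).norm_iteratedFDeriv_le_of_bilinear_of_le_one
        (innerSL ℝ : E →L[ℝ] E →L[ℝ] ℝ).contDiff S.1 y (SymA_le k)
        ContinuousLinearMap.norm_smulRightL_le).trans ?_
      refine (SymA_sum (norm_nonneg y) zero_le_one (SymA_nonneg S) hk'
        (fun i => ‖iteratedFDeriv ℝ i (innerSL ℝ : E →L[ℝ] E →L[ℝ] ℝ) y‖)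
        (fun i => ‖iteratedFDeriv ℝ i (fun y => (1 / 2 : ℂ) * rad (deriv g) y) y‖)
        (fun _ => norm_nonneg _)
        (fun i _ => SymA_lin (innerSL ℝ : E →L[ℝ] E →L[ℝ] ℝ) (norm_innerSL_le ℝ) i y)
        (fun i hi => S.2 i (hi.trans hk') y)).trans ?_
      have e : -(-1 + (γ + 2)) - (k : ℝ) = -γ - ((k + 1 : ℕ) : ℝ) := by push_cast; ring
      rw [e]
      refine mul_le_mul_of_nonneg_right ?_ (by positivity)
      have h5 : 0 ≤ (5 : ℝ) ^ |-γ / 2| * C := by positivity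
      calc 2 ^ J * 1 * (‖(1 / 2 : ℂ)‖ * (C1 * C))
          ≤ 5 ^ |-γ / 2| * C + 2 ^ J * 1 * (‖(1 / 2 : ℂ)‖ * (C1 * C)) := le_add_of_nonneg_left h5
        _ = _ := by ring

end Vale.Agent.P139
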