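import Vale.Agent.P139.FB
import Vale.Agent.P139.Inv
import Vale.Agent.P139.SymA

open Complex MeasureTheory Filter Topology
open scoped ComplexConjugate ContDiff

namespace Vale.Agent.P139

/-- one dimensional comparison sequence -/
noncomputable def F1psi (a h : ℝ) (j : ℕ) : ℝ :=
  h * (h * (j + 1)) ^ (a - 1) * ((1 + h * (j + 1)) ^ 2)⁻¹

theorem F1psi_nonneg {a h : ℝ} (hh : 0 < h) (j : ℕ) : 0 ≤ F1psi a h j := by
  unfold F1psi; positivity

theorem F1_step {a h y : ℝ} (ha : 0 < a) (ha1 : a ≤ 1) (hh : 0 < h) (hy : 0 ≤ y) :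
    a * (h * (y + h) ^ (a - 1) * ((1 + (y + h)) ^ 2)⁻¹) ≤
      ((y + h) / (1 + (y + h))) ^ a - (y / (1 + y)) ^ a := by
  set x := y + h with hx
  have hx0 : 0 < x := by positivity
  set u := x / (1 + x) with hu
  set v := y / (1 + y) with hv
  have hu0 : 0 < u := by positivity
  have hv0 : 0 ≤ v := by positivity
  have h1 := rpow_one_add_le_one_add_mul_self (s := v / u - 1)
    (by have := div_nonneg hv0 hu0.le; linarith) ha.le ha1
  rw [add_sub_cancel, Real.div_rpow hv0 hu0.le, div_le_iff₀ (Real.rpow_pos_of_pos hu0 a)] at h1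
  have h2 : u ^ a = u ^ (a - 1) * u := by
    rw [Real.rpow_sub_one hu0.ne']; field_simp
  have h3 : x ^ (a - 1) ≤ u ^ (a - 1) := by
    refine Real.rpow_le_rpow_of_nonpos hu0 ?_ (by linarith)
    rw [hu, div_le_iff₀ (by positivity)]
    nlinarith
  have h4 : h * ((1 + x) ^ 2)⁻¹ ≤ u - v := by
    have e : u - v = h / ((1 + x) * (1 + y)) := by
      rw [hu, hv, hx]; field_simp; ring
    rw [e, ← div_eq_mul_inv]
    refine div_le_div_of_nonneg_left hh.le (by positivity) ?_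
    nlinarith
  have h5 : (1 + a * (v / u - 1)) * u ^ a = u ^ a - a * (u ^ (a - 1) * (u - v)) := by
    rw [h2]; field_simp; ring
  have h6 : x ^ (a - 1) * (h * ((1 + x) ^ 2)⁻¹) ≤ u ^ (a - 1) * (u - v) :=
    mul_le_mul h3 h4 (by positivity) (by positivity)
  have h7 := mul_le_mul_of_nonneg_left h6 ha.le
  nlinarith

theorem F1_range {a h : ℝ} (ha : 0 < a) (ha1 : a ≤ 1) (hh : 0 < h) (N : ℕ) :
    ∑ j ∈ Finset.range N, F1psi a h j ≤ a⁻¹ := by
  have key : a * ∑ j ∈ Finset.range N, F1psi a h j ≤ (h * N / (1 + h * N)) ^ a := by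
    induction N with
    | zero => simp [Real.zero_rpow ha.ne']
    | succ N ih =>
      have h1 := F1_step (y := h * N) ha ha1 hh (by positivity)
      have e : h * N + h = h * (N + 1) := by ring
      rw [e] at h1
      rw [Finset.sum_range_succ, mul_add, F1psi]
      push_cast
      linarith
  have h2 : (h * N / (1 + h * N)) ^ a ≤ 1 :=
    Real.rpow_le_one (by positivity) (by rw [div_le_one (by positivity)]; linarith) ha.le
  rw [← one_div, le_div_iff₀ ha]
  linarith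

theorem F1_nat {a h : ℝ} (ha : 0 < a) (ha1 : a ≤ 1) (hh : 0 < h) (u : Finset ℕ) :
    ∑ j ∈ u, F1psi a h j ≤ a⁻¹ :=
  (Finset.sum_le_sum_of_subset_of_nonneg (Finset.subset_range_sup_succ u)
    fun j _ _ => F1psi_nonneg hh j).trans (F1_range ha ha1 hh _)

theorem F1_int {a h : ℝ} (ha : 0 < a) (ha1 : a ≤ 1) (hh : 0 < h) (t : Finset ℤ) :
    ∑ k ∈ t, F1psi a h k.natAbs ≤ 2 * a⁻¹ := by
  rw [← Finset.sum_filter_add_sum_filter_not t (fun k => 0 ≤ k),
    ← Finset.sum_image (g := Int.natAbs) (f := F1psi a h),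
    ← Finset.sum_image (g := Int.natAbs) (f := F1psi a h)]
  · have h1 := F1_nat ha ha1 hh ((t.filter fun k => 0 ≤ k).image Int.natAbs)
    have h2 := F1_nat ha ha1 hh ((t.filter fun k => ¬ 0 ≤ k).image Int.natAbs)
    linarith
  · intro x hx y hy hxy
    simp only [Finset.coe_filter, Set.mem_ofPred_eq] at hx hy
    omega
  · intro x hx y hy hxy
    simp only [Finset.coe_filter, Set.mem_ofPred_eq] at hx hy
    omega

theorem F1_lat {a h : ℝ} (ha : 0 < a) (ha1 : a ≤ 1) (hh : 0 < h) (s : Finset Z) :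
    ∑ n ∈ s, ∏ i, F1psi a h (n i).natAbs ≤ (2 * a⁻¹) ^ 12 := by
  classical
  let t : Finset ℤ := s.biUnion fun n => Finset.univ.image n
  calc ∑ n ∈ s, ∏ i, F1psi a h (n i).natAbs
      ≤ ∑ n ∈ Fintype.piFinset fun _ : Fin 12 => t, ∏ i, F1psi a h (n i).natAbs := by
        refine Finset.sum_le_sum_of_subset_of_nonneg (fun n hn => ?_)
          fun n _ _ => Finset.prod_nonneg fun i _ => F1psi_nonneg hh _
        rw [Fintype.mem_piFinset]
        exact fun i => Finset.mem_biUnion.2 ⟨n, hn, Finset.mem_image_of_mem _ (Finset.mem_univ i)⟩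
    _ = ∏ _i : Fin 12, ∑ k ∈ t, F1psi a h k.natAbs :=
        (Finset.prod_univ_sum (fun _ : Fin 12 => t) fun _ k => F1psi a h k.natAbs).symm
    _ ≤ _ := by
        rw [Finset.prod_const, Finset.card_univ, Fintype.card_fin]
        exact pow_le_pow_left₀ (Finset.sum_nonneg fun k _ => F1psi_nonneg hh _)
          (F1_int ha ha1 hh t) 12

theorem F1_coord (n : Z) (i : Fin 12) : ((n i).natAbs : ℝ) ≤ ‖zE n‖ := by
  have h := PiLp.norm_apply_le (zE n) i
  rw [Nat.cast_natAbs, Int.cast_abs]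
  simpa [zE] using h

theorem F1_one_le {n : Z} (hn : n ≠ 0) : 1 ≤ ‖zE n‖ := by
  obtain ⟨i, hi⟩ := Function.ne_iff.1 hn
  refine le_trans ?_ (F1_coord n i)
  exact_mod_cast Int.natAbs_pos.2 hi

theorem F1_point {a h : ℝ} (ha : 0 < a) (ha1 : a ≤ 1) (hh : 0 < h) {n : Z} (hn : n ≠ 0) :
    (h * (h * ‖zE n‖) ^ (a - 1) * ((1 + h * ‖zE n‖) ^ 2)⁻¹) ^ 12 ≤
      8 ^ 12 * ∏ i, F1psi a h (n i).natAbs := by
  have h1 := F1_one_le hn
  have e : (8 : ℝ) ^ 12 * ∏ i, F1psi a h (n i).natAbs = ∏ i, 8 * F1psi a h (n i).natAbs := by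
    rw [Finset.prod_mul_distrib]; simp
  have e2 : ∀ x : ℝ, x ^ 12 = ∏ _i : Fin 12, x := fun x => by simp
  rw [e, e2]
  refine Finset.prod_le_prod (fun i _ => by positivity) fun i _ => ?_
  have h2 := F1_coord n i
  set r := h * ‖zE n‖ with hr
  set x := h * (((n i).natAbs : ℝ) + 1) with hx
  have hr0 : 0 < r := by positivity
  have hx0 : 0 < x := by positivity
  have h3 : x ≤ 2 * r := by rw [hx, hr]; nlinarith
  have h4 : r ^ (a - 1) ≤ 2 * x ^ (a - 1) := by
    have h5 : (2 * r) ^ (a - 1) ≤ x ^ (a - 1) := Real.rpow_le_rpow_of_nonpos hx0 h3 (by linarith)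
    rw [Real.mul_rpow (by norm_num) hr0.le] at h5
    have h6 : (2 : ℝ) ^ (-1 : ℝ) ≤ 2 ^ (a - 1) :=
      Real.rpow_le_rpow_of_exponent_le (by norm_num) (by linarith)
    rw [Real.rpow_neg_one] at h6
    have h7 := mul_le_mul_of_nonneg_right h6 (Real.rpow_pos_of_pos hr0 (a - 1)).le
    linarith
  have h5 : ((1 + r) ^ 2)⁻¹ ≤ 4 * ((1 + x) ^ 2)⁻¹ := by
    rw [← div_eq_mul_inv, le_div_iff₀ (by positivity), inv_mul_le_iff₀ (by positivity)]
    nlinarith
  unfold F1psi
  rw [← hx]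
  calc h * r ^ (a - 1) * ((1 + r) ^ 2)⁻¹ ≤ h * (2 * x ^ (a - 1)) * (4 * ((1 + x) ^ 2)⁻¹) := by
        gcongr
    _ = _ := by ring

theorem F1_norm_Kh (χ : E → ℝ) (hχ : Cut χ) (g : E → ℂ) {h : ℝ} (hh : 0 < h) (n : Z) :
    ‖Kh χ g h n‖ ≤ h ^ 12 * ‖ft χ g h (h • zE n)‖ := by
  rw [Kh_eq_ft χ hχ g h hh, norm_mul, norm_mul, norm_inv, Complex.norm_real, Complex.norm_real,
    Real.norm_of_nonneg (by positivity), Real.norm_of_nonneg (by positivity), mul_assoc]
  refine mul_le_of_le_one_left (by positivity) (inv_le_one_of_one_le₀ (one_le_pow₀ ?_))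
  linarith [Real.pi_gt_three]

theorem f1 (γ : ℝ) (hγ : 0 < γ) (K : ℕ) (χ : E → ℝ) (hχ : Cut χ) : ∃ (J : ℕ) (C0 : ℝ), 0 ≤ C0 ∧
    ∀ (g : E → ℂ) (C M h : ℝ), Sym γ J C g → 1 ≤ M → 0 < h → h ≤ 1 →
      NN K M h (Kh χ g h) ≤ ENNReal.ofReal (C0 * C) := by
  classical
  set b := min γ 1 with hb
  have hb0 : 0 < b := lt_min hγ one_pos
  have hb1 : b ≤ 1 := min_le_right _ _
  obtain ⟨J, C1, hC1, h1⟩ := ft_sym b hb0 (by linarith) (K + 24)
  obtain ⟨C2, hC2, h2⟩ := sym_cut χ hχ b J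
  obtain ⟨C3, hC3, h3⟩ := ft_triv χ hχ b hb0 (by linarith)
  refine ⟨J, C3 + C1 * C2 * 8 ^ 12 * (2 * (b / 12)⁻¹) ^ 12, by positivity,
    fun g C M h hg hM hh hh1 => ?_⟩
  have hC : 0 ≤ C := by
    have h4 := (norm_nonneg _).trans (hg.2 0 (Nat.zero_le _) 0)
    simpa using h4
  have hg' : Sym b J C g := hg.mono (min_le_left _ _) le_rfl le_rfl
  have hsupp : HasCompactSupport fun y => (χ (h • y) : ℂ) * g y := by
    refine HasCompactSupport.intro (isCompact_closedBall (0 : E) (2 / h)) fun y hy => ?_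
    rw [mem_closedBall_zero_iff, not_le, div_lt_iff₀ hh] at hy
    rw [hχ.zero _ (by rw [norm_smul, Real.norm_of_nonneg hh.le]; linarith)]
    simp
  have hterm : ∀ n : Z, wt K M (h • zE n) * ‖Kh χ g h n‖ ≤ (if n = 0 then C3 * C else 0) +
      C1 * C2 * 8 ^ 12 * C * ∏ i, F1psi (b / 12) h (n i).natAbs := by
    intro n
    have hp : 0 ≤ ∏ i, F1psi (b / 12) h (n i).natAbs :=
      Finset.prod_nonneg fun i _ => F1psi_nonneg hh _
    have hK := F1_norm_Kh χ hχ g hh n
    split_ifs with hn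
    · have hz : zE n = 0 := by rw [hn]; ext i; simp [zE]
      have h4 := h3 g C h (hg'.mono le_rfl (Nat.zero_le _) le_rfl) hh hh1 (h • zE n)
      have h5 : h ^ 12 * h ^ (b - 12) ≤ 1 := by
        rw [← Real.rpow_natCast, ← Real.rpow_add hh]
        exact Real.rpow_le_one hh.le hh1 (by push_cast; linarith)
      have h6 : wt K M (h • zE n) = 1 := by simp [wt, hz]
      rw [h6, one_mul]
      have h7 := mul_le_mul_of_nonneg_left h4 (show 0 ≤ h ^ 12 by positivity)
      have h8 := mul_le_mul_of_nonneg_left h5 (mul_nonneg hC3 hC)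
      have h9 : 0 ≤ C1 * C2 * 8 ^ 12 * C * ∏ i, F1psi (b / 12) h (n i).natAbs := by positivity
      nlinarith
    · have hz := F1_one_le hn
      have hr : ‖h • zE n‖ = h * ‖zE n‖ := by rw [norm_smul, Real.norm_of_nonneg hh.le]
      have hr0 : 0 < h * ‖zE n‖ := by positivity
      have h4 := h1 _ _ (h2 g C h hg' hh hh1) hsupp (h • zE n) (by
        rw [← norm_pos_iff, hr]; exact hr0)
      have h5 := F1_point (a := b / 12) (by positivity) (by linarith) hh hn
      have h6 : wt K M (h • zE n) ≤ (1 + h * ‖zE n‖) ^ K := by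
        rw [wt, hr]
        exact pow_le_pow_left₀ (by positivity)
          (by have := div_le_self hr0.le hM; linarith) K
      rw [hr] at h4
      set r := h * ‖zE n‖
      have e : (h * r ^ (b / 12 - 1) * ((1 + r) ^ 2)⁻¹) ^ 12 =
          (1 + r) ^ K * (h ^ 12 * (r ^ (b - 12) * (1 + r) ^ (-((K + 24 : ℕ) : ℝ)))) := by
        rw [Real.rpow_neg (by positivity), Real.rpow_natCast, mul_pow, mul_pow,
          ← Real.rpow_natCast (r ^ (b / 12 - 1)), ← Real.rpow_mul hr0.le]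
        have : (b / 12 - 1) * ((12 : ℕ) : ℝ) = b - 12 := by push_cast; ring
        rw [this]
        field_simp
        ring
      rw [zero_add]
      calc wt K M (h • zE n) * ‖Kh χ g h n‖
          ≤ (1 + r) ^ K * (h ^ 12 * (C1 * (C2 * C) *
            (r ^ (b - 12) * (1 + r) ^ (-((K + 24 : ℕ) : ℝ))))) := by
            refine mul_le_mul h6 (hK.trans ?_) (norm_nonneg _) (by positivity)
            exact mul_le_mul_of_nonneg_left h4 (by positivity)
        _ = C1 * C2 * C * (h * r ^ (b / 12 - 1) * ((1 + r) ^ 2)⁻¹) ^ 12 := by rw [e]; ring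
        _ ≤ C1 * C2 * C * (8 ^ 12 * ∏ i, F1psi (b / 12) h (n i).natAbs) :=
            mul_le_mul_of_nonneg_left h5 (by positivity)
        _ = _ := by ring
  rw [NN, ENNReal.tsum_eq_iSup_sum]
  refine iSup_le fun s => ?_
  rw [← ENNReal.ofReal_sum_of_nonneg fun n _ => by unfold wt; positivity]
  refine ENNReal.ofReal_le_ofReal ((Finset.sum_le_sum fun n _ => hterm n).trans ?_)
  rw [Finset.sum_add_distrib, ← Finset.mul_sum, Finset.sum_ite_eq']
  have h4 := mul_le_mul_of_nonneg_left (F1_lat (a := b / 12) (by positivity) (by linarith) hh s)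
    (show 0 ≤ C1 * C2 * 8 ^ 12 * C by positivity)
  have h5 : (if 0 ∈ s then C3 * C else 0) ≤ C3 * C := by
    split_ifs
    · exact le_rfl
    · positivity
  nlinarith

end Vale.Agent.P139
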