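import Vale.Agent.P139.FB
import Vale.Agent.P139.SymA

open Complex MeasureTheory Filter Topology FourierTransform
open scoped ComplexConjugate ContDiff SchwartzMap

namespace Vale.Agent.P139

/-- the normalising constant -/
noncomputable def F2c : ℂ := (((2 * Real.pi) ^ 12 : ℝ) : ℂ)⁻¹

/-- unnormalised Fourier transform -/
noncomputable def F2T (G : E → ℂ) (ξ : E) : ℂ :=
  ∫ y, G y * Complex.exp (-I * ((inner ℝ ξ y : ℝ) : ℂ))

theorem F2_fin : Module.finrank ℝ E = 12 := by simp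

theorem F2T_eq (G : E → ℂ) (ξ : E) : F2T G ξ = 𝓕 G ((2 * Real.pi)⁻¹ • ξ) := by
  rw [Real.fourier_eq', F2T]
  refine integral_congr_ae (Eventually.of_forall fun y => ?_)
  have hp : (2 * Real.pi) ≠ 0 := by positivity
  have h1 : -2 * Real.pi * inner ℝ y ((2 * Real.pi)⁻¹ • ξ) = -(inner ℝ ξ y : ℝ) := by
    rw [inner_smul_right, real_inner_comm]
    field_simp
  simp only [h1, smul_eq_mul]
  rw [mul_comm]
  congr 2
  push_cast
  ring

theorem F2_phys_eq (k : E → ℂ) (y : E) : phys k y = 𝓕 k (-((2 * Real.pi)⁻¹ • y)) := by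
  rw [Real.fourier_eq', phys]
  refine integral_congr_ae (Eventually.of_forall fun ξ => ?_)
  have hp : (2 * Real.pi) ≠ 0 := by positivity
  have h1 : -2 * Real.pi * inner ℝ ξ (-((2 * Real.pi)⁻¹ • y)) = (inner ℝ ξ y : ℝ) := by
    rw [inner_neg_right, inner_smul_right]
    field_simp
  simp only [h1, smul_eq_mul]
  rw [mul_comm]
  congr 2
  ring

theorem F2_phys_inj (k : E → ℂ) (hk : Integrable k) (h : phys k = 0) : k =ᵐ[volume] 0 := by
  have hp : (2 * Real.pi) ≠ 0 := by positivity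
  have hF : 𝓕 k = 0 := by
    funext w
    have h1 := F2_phys_eq k (-((2 * Real.pi) • w))
    rw [h] at h1
    simp only [smul_neg, neg_neg, smul_smul, inv_mul_cancel₀ hp, one_smul] at h1
    exact h1.symm
  refine ae_eq_zero_of_integral_contDiff_smul_eq_zero hk.locallyIntegrable fun g hg hc => ?_
  have hc' : HasCompactSupport (fun x => ((g x : ℝ) : ℂ)) :=
    hc.comp_left (g := fun r : ℝ => (r : ℂ)) (by simp)
  have hg' : ContDiff ℝ ∞ (fun x => ((g x : ℝ) : ℂ)) := Complex.ofRealCLM.contDiff.comp hg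
  set φ : 𝓢(E, ℂ) := hc'.toSchwartzMap hg' with hφ
  set ψ : 𝓢(E, ℂ) := 𝓕⁻ φ with hψ
  have h2 : ∫ ξ, 𝓕 (ψ : E → ℂ) ξ • k ξ = ∫ x, (ψ : E → ℂ) x • 𝓕 k x := by
    simpa using! VectorFourier.integral_fourierIntegral_smul_eq_flip (L := innerₗ E)
      Real.continuous_fourierChar continuous_inner ψ.integrable hk
  have h3 : 𝓕 (ψ : E → ℂ) = φ := by
    rw [← SchwartzMap.fourier_coe, hψ, FourierTransform.fourier_fourierInv_eq]
  rw [h3, hF] at h2
  simp only [Pi.zero_apply, smul_zero, integral_zero] at h2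
  rw [← h2]
  refine integral_congr_ae (Eventually.of_forall fun x => ?_)
  simp [hφ]

theorem F2T_cont (G : E → ℂ) (hG : Integrable G) : Continuous (F2T G) := by
  have : F2T G = fun ξ => 𝓕 G ((2 * Real.pi)⁻¹ • ξ) := funext (F2T_eq G)
  rw [this]
  exact (VectorFourier.fourierIntegral_continuous Real.continuous_fourierChar
    (L := innerₗ E) continuous_inner hG).comp (continuous_const_smul _)

theorem F2_inv (G : E → ℂ) (hc : Continuous G) (hG : Integrable G) (hT : Integrable (F2T G))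
    (y : E) : phys (fun ξ => F2c * F2T G ξ) y = G y := by
  have hp : (0 : ℝ) < 2 * Real.pi := by positivity
  have e1 : F2T G = fun ξ => 𝓕 G ((2 * Real.pi)⁻¹ • ξ) := funext (F2T_eq G)
  have hT' : Integrable (𝓕 G) := by
    rw [e1] at hT
    exact (integrable_comp_smul_iff volume (𝓕 G) (inv_ne_zero hp.ne')).1 hT
  have h1 := congrFun (hc.fourierInv_fourier_eq hG hT') y
  rw [Real.fourierInv_eq'] at h1
  rw [← h1, phys]
  have h2 := Measure.integral_comp_inv_smul_of_nonneg (volume : Measure E)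
    (fun v : E => Complex.exp (((2 * Real.pi * inner ℝ v y : ℝ) : ℂ) * I) • 𝓕 G v) hp.le
  have h3 : ∀ ξ : E, F2c * F2T G ξ * Complex.exp (I * ((inner ℝ ξ y : ℝ) : ℂ))
      = F2c * (Complex.exp (((2 * Real.pi * inner ℝ ((2 * Real.pi)⁻¹ • ξ) y : ℝ) : ℂ) * I)
          • 𝓕 G ((2 * Real.pi)⁻¹ • ξ)) := by
    intro ξ
    have : 2 * Real.pi * inner ℝ ((2 * Real.pi)⁻¹ • ξ) y = (inner ℝ ξ y : ℝ) := by
      rw [inner_smul_left]
      simp only [conj_trivial]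
      field_simp
    rw [this, F2T_eq, smul_eq_mul, mul_comm I]
    ring
  simp only [h3]
  rw [integral_const_mul, h2, F2_fin, F2c, Complex.real_smul, ← mul_assoc, inv_mul_cancel₀,
    one_mul]
  exact_mod_cast (pow_pos hp 12).ne'

theorem F2_cut : ∃ χ : E → ℝ, Cut χ := by
  let b : ContDiffBump (0 : E) := ⟨1, 2, one_pos, by norm_num⟩
  refine ⟨b, b.contDiff, fun x hx => b.one_of_mem_closedBall (by simpa [b] using hx),
    fun x hx => b.zero_of_le_dist (by simpa [b] using hx)⟩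

/-- the dominating weight -/
noncomputable def F2w (γ : ℝ) (N : ℕ) (ξ : E) : ℝ := ‖ξ‖ ^ (γ - 12) * (1 + ‖ξ‖) ^ (-(N : ℝ))

theorem F2w_nonneg (γ : ℝ) (N : ℕ) (ξ : E) : 0 ≤ F2w γ N ξ := by
  unfold F2w; positivity

theorem F2w_meas (γ : ℝ) (N : ℕ) : Measurable (F2w γ N) := by
  unfold F2w; fun_prop

theorem F2w_int (γ : ℝ) (h0 : 0 < γ) (h1 : γ < 12) : Integrable (F2w γ 13) := by
  rw [← integrableOn_univ, ← Set.union_compl_self (Metric.ball (0 : E) 1)]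
  refine IntegrableOn.union ?_ ?_
  · refine integrableOn_ball_of_norm_le_rpow (C := 1) (α := 12 - γ) (by rw [F2_fin]; norm_num)
      (by rw [F2_fin]; push_cast; linarith) (Eventually.of_forall fun ξ => ?_)
      (F2w_meas γ 13).aestronglyMeasurable
    rw [Real.norm_of_nonneg (F2w_nonneg _ _ _), F2w, one_mul, neg_sub]
    refine mul_le_of_le_one_right (by positivity) ?_
    exact Real.rpow_le_one_of_one_le_of_nonpos (by linarith [norm_nonneg ξ]) (by norm_num)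
  · have hi : Integrable (fun ξ : E => (1 + ‖ξ‖) ^ (-(13 : ℝ))) :=
      integrable_one_add_norm (by rw [F2_fin]; norm_num)
    refine Integrable.mono' hi.integrableOn (F2w_meas γ 13).aestronglyMeasurable ?_
    refine (ae_restrict_iff' measurableSet_ball.compl).2 (Eventually.of_forall fun ξ hξ => ?_)
    rw [Real.norm_of_nonneg (F2w_nonneg _ _ _), F2w]
    have h2 : 1 ≤ ‖ξ‖ := by simpa using hξ
    have h3 : ‖ξ‖ ^ (γ - 12) ≤ 1 := Real.rpow_le_one_of_one_le_of_nonpos h2 (by linarith)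
    have h4 : (0 : ℝ) ≤ (1 + ‖ξ‖) ^ (-((13 : ℕ) : ℝ)) := by positivity
    calc _ ≤ 1 * (1 + ‖ξ‖) ^ (-((13 : ℕ) : ℝ)) := mul_le_mul_of_nonneg_right h3 h4
      _ = _ := by norm_num

theorem F2w_mul (γ : ℝ) (K : ℕ) (ξ : E) : (1 + ‖ξ‖) ^ K * F2w γ (K + 13) ξ = F2w γ 13 ξ := by
  have h : (0 : ℝ) < 1 + ‖ξ‖ := by positivity
  unfold F2w
  rw [mul_left_comm, ← Real.rpow_natCast, ← Real.rpow_add h]
  congr 2
  push_cast
  ring

theorem F2_ae_ne : ∀ᵐ ξ : E, ξ ≠ 0 := by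
  simp [ae_iff]

theorem F2_sym_nonneg {γ : ℝ} {J : ℕ} {C : ℝ} {g : E → ℂ} (h : Sym γ J C g) : 0 ≤ C := by
  have := h.2 0 (Nat.zero_le _) 0
  simp only [norm_zero, add_zero, Real.one_rpow, mul_one] at this
  exact (norm_nonneg _).trans this

theorem F2_supp (χ : E → ℝ) (hχ : Cut χ) (g : E → ℂ) (h : ℝ) (hh : 0 < h) :
    HasCompactSupport (fun y => (χ (h • y) : ℂ) * g y) := by
  refine HasCompactSupport.intro (isCompact_closedBall (0 : E) (2 / h)) fun y hy => ?_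
  have h1 : 2 / h < ‖y‖ := by simpa using hy
  rw [hχ.zero (h • y), Complex.ofReal_zero, zero_mul]
  rw [norm_smul, Real.norm_of_nonneg hh.le]
  rw [div_lt_iff₀ hh] at h1
  linarith

theorem F2_cc (χ : E → ℝ) (hχ : Cut χ) (g : E → ℂ) (hg : Continuous g) (h : ℝ) :
    Continuous (fun y => (χ (h • y) : ℂ) * g y) :=
  (Complex.continuous_ofReal.comp (hχ.smooth.continuous.comp (continuous_const_smul h))).mul hg

theorem F2_ci (χ : E → ℝ) (hχ : Cut χ) (g : E → ℂ) (hg : Continuous g) (h : ℝ) (hh : 0 < h) :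
    Integrable (fun y => (χ (h • y) : ℂ) * g y) :=
  (F2_cc χ hχ g hg h).integrable_of_hasCompactSupport (F2_supp χ hχ g h hh)

theorem F2_ft (χ : E → ℝ) (g : E → ℂ) (h : ℝ) :
    ft χ g h = F2T (fun y => (χ (h • y) : ℂ) * g y) := rfl

theorem F2_expi (G : E → ℂ) (hG : Integrable G) (c : ℂ) (hc : c.re = 0) (ξ : E) :
    Integrable (fun y => G y * Complex.exp (c * ((inner ℝ ξ y : ℝ) : ℂ))) := by
  refine hG.mul_bdd (c := 1) (Continuous.aestronglyMeasurable (by fun_prop))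
    (Eventually.of_forall fun y => ?_)
  rw [Complex.norm_exp]
  simp [hc]

theorem F2T_sub (G H : E → ℂ) (hG : Integrable G) (hH : Integrable H) (ξ : E) :
    F2T (fun y => G y - H y) ξ = F2T G ξ - F2T H ξ := by
  unfold F2T
  rw [← integral_sub (F2_expi G hG _ (by simp) ξ) (F2_expi H hH _ (by simp) ξ)]
  simp only [sub_mul]

/-- uniform bound -/
theorem F2_A (χ : E → ℝ) (hχ : Cut χ) (γ : ℝ) (h0 : 0 < γ) (h1 : γ < 12) (N : ℕ) :
    ∃ (J : ℕ) (C0 : ℝ), 0 ≤ C0 ∧ ∀ (g : E → ℂ) (C h : ℝ), Sym γ J C g → 0 < h → h ≤ 1 →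
      ∀ ξ : E, ξ ≠ 0 → ‖ft χ g h ξ‖ ≤ C0 * C * F2w γ N ξ := by
  obtain ⟨J, C1, hC1, H1⟩ := ft_sym γ h0 h1 N
  obtain ⟨C2, hC2, H2⟩ := sym_cut χ hχ γ J
  refine ⟨J, C1 * C2, by positivity, fun g C h hg hh hh1 ξ hξ => ?_⟩
  have := H1 _ _ (H2 g C h hg hh hh1) (F2_supp χ hχ g h hh) ξ hξ
  rw [mul_assoc C1 C2 C]
  exact this

/-- two truncations are close -/
theorem F2_B (χ χ' : E → ℝ) (hχ : Cut χ) (hχ' : Cut χ') (γ : ℝ) (h0 : 0 < γ) (h1 : γ < 12)
    (g : E → ℂ) (hg : ∀ J : ℕ, ∃ C : ℝ, Sym γ J C g) :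
    ∃ C : ℝ, 0 ≤ C ∧ ∀ h h' : ℝ, 0 < h → h ≤ 1 → 0 < h' → h' ≤ 1 → ∀ ξ : E, ξ ≠ 0 →
      ‖ft χ g h ξ - ft χ' g h' ξ‖ ≤ C * (h ^ (γ / 2) + h' ^ (γ / 2)) * ‖ξ‖ ^ (γ / 2 - 12) := by
  obtain ⟨J, C1, hC1, H1⟩ := ft_sym (γ / 2) (by linarith) (by linarith) 0
  obtain ⟨C2, hC2, H2⟩ := sym_far χ hχ γ (γ / 2) (by linarith) J
  obtain ⟨C3, hC3, H3⟩ := sym_far χ' hχ' γ (γ / 2) (by linarith) J
  obtain ⟨C, hC⟩ := hg J
  have hC0 := F2_sym_nonneg hC
  have hgc : Continuous g := hC.1.continuous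
  refine ⟨C1 * ((C2 + C3) * C), by positivity, fun h h' hh hh1 hh' hh1' ξ hξ => ?_⟩
  have s1 := (H3 g C h' hC hh' hh1').add ((H2 g C h hC hh hh1).smul (-1))
  have e : (fun y => (1 - (χ' (h' • y) : ℂ)) * g y + -1 * ((1 - (χ (h • y) : ℂ)) * g y))
      = fun y => (χ (h • y) : ℂ) * g y - (χ' (h' • y) : ℂ) * g y := by
    funext y; ring
  rw [e] at s1
  have hs : HasCompactSupport fun y => (χ (h • y) : ℂ) * g y - (χ' (h' • y) : ℂ) * g y :=
    (F2_supp χ hχ g h hh).sub (F2_supp χ' hχ' g h' hh')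
  have h2 := H1 _ _ s1 hs ξ hξ
  have h3 := F2T_sub _ _ (F2_ci χ hχ g hgc h hh) (F2_ci χ' hχ' g hgc h' hh') ξ
  rw [F2_ft, F2_ft, ← h3]
  refine le_trans h2 ?_
  have e2 : γ - γ / 2 = γ / 2 := by ring
  simp only [e2, norm_neg, norm_one, one_mul, Nat.cast_zero, neg_zero, Real.rpow_zero, mul_one]
  have p1 : 0 ≤ h ^ (γ / 2) := by positivity
  have p2 : 0 ≤ h' ^ (γ / 2) := by positivity
  refine mul_le_mul_of_nonneg_right ?_ (by positivity)
  rw [mul_assoc C1]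
  refine mul_le_mul_of_nonneg_left ?_ hC1
  nlinarith [mul_nonneg (mul_nonneg hC2 hC0) p2, mul_nonneg (mul_nonneg hC3 hC0) p1]

end Vale.Agent.P139
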