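import Vale.Agent.P139.FB
import Vale.Agent.P139.Inv
import Vale.Agent.P139.F2X1

open Complex MeasureTheory Filter Topology
open scoped ComplexConjugate ContDiff

namespace Vale.Agent.P139

/-- k is the limit of the truncated transforms, with a rate -/
def F2K (γ : ℝ) (g k : E → ℂ) : Prop :=
  ∀ χ : E → ℝ, Cut χ → ∃ C : ℝ, 0 ≤ C ∧ ∀ h : ℝ, 0 < h → h ≤ 1 → ∀ ξ : E, ξ ≠ 0 →
    ‖F2c * ft χ g h ξ - k ξ‖ ≤ C * h ^ (γ / 2) * ‖ξ‖ ^ (γ / 2 - 12)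

theorem F2_rpow0 (γ : ℝ) (h0 : 0 < γ) : Tendsto (fun h : ℝ => h ^ (γ / 2)) (𝓝 0) (𝓝 0) := by
  have := (Real.continuousAt_rpow_const 0 (γ / 2) (Or.inr (by linarith))).tendsto
  rwa [Real.zero_rpow (by linarith)] at this

theorem F2_ex (γ : ℝ) (h0 : 0 < γ) (h1 : γ < 12) (g : E → ℂ)
    (hg : ∀ J : ℕ, ∃ C : ℝ, Sym γ J C g) : ∃ k : E → ℂ, Measurable k ∧ F2K γ g k := by
  obtain ⟨χ0, hχ0⟩ := F2_cut
  have hgc : Continuous g := (hg 0).choose_spec.1.continuous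
  set a : ℕ → ℝ := fun n => 1 / ((n : ℝ) + 1) with ha
  have a0 : ∀ n, 0 < a n := fun n => by simp only [ha]; positivity
  have a1 : ∀ n, a n ≤ 1 := fun n => by
    simp only [ha]
    rw [div_le_one (by positivity)]
    linarith [(Nat.cast_nonneg n : (0 : ℝ) ≤ n)]
  have am : ∀ n N, N ≤ n → a n ^ (γ / 2) ≤ a N ^ (γ / 2) := fun n N hn => by
    refine Real.rpow_le_rpow (a0 n).le ?_ (by linarith)
    simp only [ha]
    exact Nat.one_div_le_one_div hn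
  have at0 : Tendsto (fun n => a n ^ (γ / 2)) atTop (𝓝 0) :=
    (F2_rpow0 γ h0).comp tendsto_one_div_add_atTop_nhds_zero_nat
  set u : ℕ → E → ℂ := fun n => Set.indicator {0}ᶜ (fun ξ => F2c * ft χ0 g (a n) ξ) with hu
  have um : ∀ n, Measurable (u n) := fun n => by
    refine Measurable.indicator ?_ (measurableSet_singleton _).compl
    exact (continuous_const.mul (F2T_cont _ (F2_ci χ0 hχ0 g hgc _ (a0 n)))).measurable
  have uv : ∀ n ξ, ξ ≠ 0 → u n ξ = F2c * ft χ0 g (a n) ξ := fun n ξ hξ => by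
    simp only [hu]
    rw [Set.indicator_of_mem (by simpa using hξ)]
  have uc : ∀ ξ, CauchySeq fun n => u n ξ := fun ξ => by
    by_cases hξ : ξ = 0
    · subst hξ
      simp only [hu, Set.indicator_of_notMem (show (0 : E) ∉ ({0}ᶜ : Set E) by simp)]
      exact cauchySeq_const _
    obtain ⟨C, hC, H⟩ := F2_B χ0 χ0 hχ0 hχ0 γ h0 h1 g hg
    refine cauchySeq_of_le_tendsto_0
      (fun N => ‖F2c‖ * (C * (a N ^ (γ / 2) + a N ^ (γ / 2)) * ‖ξ‖ ^ (γ / 2 - 12)))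
      (fun n m N hn hm => ?_) ?_
    · rw [uv n ξ hξ, uv m ξ hξ, dist_eq_norm, ← mul_sub, norm_mul]
      refine mul_le_mul_of_nonneg_left ?_ (norm_nonneg _)
      refine (H _ _ (a0 n) (a1 n) (a0 m) (a1 m) ξ hξ).trans ?_
      have := am n N hn
      have := am m N hm
      gcongr
    · have := (((at0.add at0).const_mul C).mul_const (‖ξ‖ ^ (γ / 2 - 12))).const_mul ‖F2c‖
      simpa using this
  refine ⟨fun ξ => limUnder atTop fun n => u n ξ, ?_, fun χ hχ => ?_⟩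
  · exact measurable_of_tendsto_metrizable um
      (tendsto_pi_nhds.2 fun ξ => (uc ξ).tendsto_limUnder)
  obtain ⟨C, hC, H⟩ := F2_B χ χ0 hχ hχ0 γ h0 h1 g hg
  refine ⟨‖F2c‖ * C, by positivity, fun h hh hh1 ξ hξ => ?_⟩
  have t1 := (((uc ξ).tendsto_limUnder).const_sub (F2c * ft χ g h ξ)).norm
  have t2 := (((at0.const_add (h ^ (γ / 2))).const_mul C).mul_const
    (‖ξ‖ ^ (γ / 2 - 12))).const_mul ‖F2c‖
  have := le_of_tendsto_of_tendsto' t1 t2 fun n => by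
    rw [uv n ξ hξ, ← mul_sub, norm_mul]
    exact mul_le_mul_of_nonneg_left (H _ _ hh hh1 (a0 n) (a1 n) ξ hξ) (norm_nonneg _)
  refine this.trans (le_of_eq ?_)
  ring

theorem F2_ev01 : ∀ᶠ h : ℝ in 𝓝[>] 0, 0 < h ∧ h ≤ 1 := by
  filter_upwards [Ioc_mem_nhdsGT (zero_lt_one' ℝ)] with h hh using hh

theorem F2K.unif {γ : ℝ} (h0 : 0 < γ) (h1 : γ < 12) {g k : E → ℂ} (H : F2K γ g k) {χ : E → ℝ}
    (hχ : Cut χ) {r : ℝ} (hr : 0 < r) :
    TendstoUniformlyOn (fun h ξ => F2c * ft χ g h ξ) k (𝓝[>] 0) {ξ | r ≤ ‖ξ‖} := by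
  obtain ⟨C, hC, H⟩ := H χ hχ
  rw [Metric.tendstoUniformlyOn_iff]
  intro ε hε
  have t : Tendsto (fun h : ℝ => C * h ^ (γ / 2) * r ^ (γ / 2 - 12)) (𝓝[>] 0) (𝓝 0) := by
    have := (((F2_rpow0 γ h0).mono_left (nhdsWithin_le_nhds (s := Set.Ioi 0))).const_mul
      C).mul_const (r ^ (γ / 2 - 12))
    simpa using this
  filter_upwards [F2_ev01, t.eventually (gt_mem_nhds hε)] with h hh h2 ξ hξ
  have hξ' : r ≤ ‖ξ‖ := hξ
  have hne : ξ ≠ 0 := by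
    rintro rfl
    simp only [norm_zero] at hξ'
    linarith
  rw [dist_comm, dist_eq_norm]
  refine lt_of_le_of_lt ((H h hh.1 hh.2 ξ hne).trans ?_) h2
  have : 0 ≤ h ^ (γ / 2) := Real.rpow_nonneg hh.1.le _
  exact mul_le_mul_of_nonneg_left
    (Real.rpow_le_rpow_of_nonpos hr hξ' (by linarith)) (by positivity)

theorem F2K.tend {γ : ℝ} (h0 : 0 < γ) (h1 : γ < 12) {g k : E → ℂ} (H : F2K γ g k) {χ : E → ℝ}
    (hχ : Cut χ) {ξ : E} (hξ : ξ ≠ 0) :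
    Tendsto (fun h => F2c * ft χ g h ξ) (𝓝[>] 0) (𝓝 (k ξ)) :=
  (H.unif h0 h1 hχ (norm_pos_iff.2 hξ)).tendsto_at (show ‖ξ‖ ≤ ‖ξ‖ from le_rfl)

theorem F2K.tend' {γ : ℝ} (h0 : 0 < γ) (h1 : γ < 12) {g k : E → ℂ} (hg : Continuous g)
    (H : F2K γ g k) {χ : E → ℝ} (hχ : Cut χ) {ξ : E} (hξ : ξ ≠ 0) {η : ℝ → E}
    (hη : Tendsto η (𝓝[>] 0) (𝓝 ξ)) :
    Tendsto (fun h => F2c * ft χ g h (η h)) (𝓝[>] 0) (𝓝 (k ξ)) := by
  have hp : 0 < ‖ξ‖ := norm_pos_iff.2 hξ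
  have U := H.unif h0 h1 hχ (half_pos hp)
  have hc : ContinuousOn k {ζ | ‖ξ‖ / 2 ≤ ‖ζ‖} := by
    refine U.continuousOn (Eventually.frequently ?_)
    filter_upwards [F2_ev01] with h hh
    exact (continuous_const.mul (F2T_cont _ (F2_ci χ hχ g hg _ hh.1))).continuousOn
  refine U.tendsto_comp (hc ξ (show ‖ξ‖ / 2 ≤ ‖ξ‖ by linarith)) ?_
  refine tendsto_nhdsWithin_iff.2 ⟨hη, ?_⟩
  exact hη.norm.eventually (eventually_ge_nhds (by linarith))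

theorem F2_kb (γ : ℝ) (h0 : 0 < γ) (h1 : γ < 12) (N : ℕ) : ∃ (J : ℕ) (C0 : ℝ), 0 ≤ C0 ∧
    ∀ (g k : E → ℂ) (C : ℝ), F2K γ g k → Sym γ J C g → ∀ ξ : E, ξ ≠ 0 →
      ‖k ξ‖ ≤ C0 * C * F2w γ N ξ := by
  obtain ⟨χ0, hχ0⟩ := F2_cut
  obtain ⟨J, C0, hC0, H⟩ := F2_A χ0 hχ0 γ h0 h1 N
  refine ⟨J, ‖F2c‖ * C0, by positivity, fun g k C hk hg ξ hξ => ?_⟩
  refine le_of_tendsto (hk.tend h0 h1 hχ0 hξ).norm ?_
  filter_upwards [F2_ev01] with h hh
  rw [norm_mul, mul_assoc, mul_assoc, ← mul_assoc C0]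
  exact mul_le_mul_of_nonneg_left (H g C h hg hh.1 hh.2 ξ hξ) (norm_nonneg _)

theorem F2K.wint {γ : ℝ} (h0 : 0 < γ) (h1 : γ < 12) {g k : E → ℂ} (hm : Measurable k)
    (H : F2K γ g k) (hg : ∀ J : ℕ, ∃ C : ℝ, Sym γ J C g) (K : ℕ) :
    Integrable fun ξ => (1 + ‖ξ‖) ^ K * ‖k ξ‖ := by
  obtain ⟨J, C0, hC0, H1⟩ := F2_kb γ h0 h1 (K + 13)
  obtain ⟨C, hC⟩ := hg J
  refine Integrable.mono' ((F2w_int γ h0 h1).const_mul (C0 * C))
    (Measurable.aestronglyMeasurable (by fun_prop)) ?_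
  filter_upwards [F2_ae_ne] with ξ hξ
  rw [Real.norm_of_nonneg (by positivity), ← F2w_mul γ K, mul_left_comm]
  exact mul_le_mul_of_nonneg_left (H1 g k C H hC ξ hξ) (by positivity)

theorem F2K.int {γ : ℝ} (h0 : 0 < γ) (h1 : γ < 12) {g k : E → ℂ} (hm : Measurable k)
    (H : F2K γ g k) (hg : ∀ J : ℕ, ∃ C : ℝ, Sym γ J C g) : Integrable k := by
  have := H.wint h0 h1 hm hg 0
  simp only [pow_zero, one_mul] at this
  exact (integrable_norm_iff hm.aestronglyMeasurable).1 this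

theorem F2K.phys_eq {γ : ℝ} (h0 : 0 < γ) (h1 : γ < 12) {g k : E → ℂ}
    (H : F2K γ g k) (hg : ∀ J : ℕ, ∃ C : ℝ, Sym γ J C g) : phys k = g := by
  obtain ⟨χ0, hχ0⟩ := F2_cut
  obtain ⟨J, C0, hC0, H1⟩ := F2_A χ0 hχ0 γ h0 h1 13
  obtain ⟨C, hC⟩ := hg J
  have hgc : Continuous g := hC.1.continuous
  funext y
  have hm : ∀ h : ℝ, 0 < h → Continuous (ft χ0 g h) := fun h hh =>
    F2T_cont _ (F2_ci χ0 hχ0 g hgc _ hh)
  have t1 : Tendsto (fun h => phys (fun ξ => F2c * ft χ0 g h ξ) y) (𝓝[>] 0) (𝓝 (phys k y)) := by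
    unfold phys
    refine tendsto_integral_filter_of_dominated_convergence
      (fun ξ => ‖F2c‖ * (C0 * C * F2w γ 13 ξ)) ?_ ?_
      (((F2w_int γ h0 h1).const_mul _).const_mul _) ?_
    · filter_upwards [F2_ev01] with h hh
      have := hm h hh.1
      exact Continuous.aestronglyMeasurable (by fun_prop)
    · filter_upwards [F2_ev01] with h hh
      filter_upwards [F2_ae_ne] with ξ hξ
      rw [norm_mul, norm_mul, mul_comm I, Complex.norm_exp_ofReal_mul_I, mul_one]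
      exact mul_le_mul_of_nonneg_left (H1 g C h hC hh.1 hh.2 ξ hξ) (norm_nonneg _)
    · filter_upwards [F2_ae_ne] with ξ hξ
      exact (H.tend h0 h1 hχ0 hξ).mul_const _
  have t2 : ∀ᶠ h : ℝ in 𝓝[>] 0, g y = phys (fun ξ => F2c * ft χ0 g h ξ) y := by
    have t3 : Tendsto (fun h : ℝ => ‖h • y‖) (𝓝[>] 0) (𝓝 0) := by
      have : Tendsto (fun h : ℝ => ‖h • y‖) (𝓝 0) (𝓝 ‖(0 : ℝ) • y‖) :=
        Continuous.tendsto (by fun_prop) _
      simpa using this.mono_left nhdsWithin_le_nhds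
    filter_upwards [F2_ev01, t3.eventually (eventually_le_nhds zero_lt_one)] with h hh h2
    have hi : Integrable (ft χ0 g h) := by
      refine Integrable.mono' ((F2w_int γ h0 h1).const_mul (C0 * C))
        (hm h hh.1).aestronglyMeasurable ?_
      filter_upwards [F2_ae_ne] with ξ hξ using H1 g C h hC hh.1 hh.2 ξ hξ
    rw [F2_ft, F2_inv _ (F2_cc χ0 hχ0 g hgc h) (F2_ci χ0 hχ0 g hgc h hh.1) hi, hχ0.one _ h2]
    simp
  exact tendsto_nhds_unique t1 (tendsto_const_nhds.congr' t2)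

/-- the lattice point of the cell of ξ -/
noncomputable def F2e (h : ℝ) (ξ : E) : E := h • zE (fun i => ⌊ξ i / h⌋)

theorem F2e_near (h : ℝ) (hh : 0 < h) (ξ : E) : ‖F2e h ξ - ξ‖ ≤ 4 * h := by
  have h1 : ∀ i, ‖(F2e h ξ - ξ) i‖ ^ 2 ≤ h ^ 2 := fun i => by
    have a := Int.floor_le (ξ i / h)
    have b := Int.lt_floor_add_one (ξ i / h)
    rw [le_div_iff₀ hh] at a
    rw [div_lt_iff₀ hh] at b
    have e : (F2e h ξ - ξ) i = h * (⌊ξ i / h⌋ : ℝ) - ξ i := by simp [F2e, zE]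
    rw [e, Real.norm_eq_abs, sq_abs]
    exact sq_le_sq' (by linarith) (by linarith)
  have h2 : ‖F2e h ξ - ξ‖ ^ 2 ≤ (4 * h) ^ 2 := by
    rw [EuclideanSpace.norm_sq_eq]
    refine (Finset.sum_le_sum fun i _ => h1 i).trans ?_
    simp only [Finset.sum_const, Finset.card_univ, Fintype.card_fin, nsmul_eq_mul]
    push_cast
    nlinarith [sq_nonneg h]
  exact (pow_le_pow_iff_left₀ (norm_nonneg _) (by positivity) two_ne_zero).1 h2

theorem F2_Ih (χ : E → ℝ) (hχ : Cut χ) (g : E → ℂ) (h : ℝ) (hh : 0 < h) (ξ : E) :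
    Ih h (Kh χ g h) ξ = F2c * ft χ g h (F2e h ξ) := by
  have : ((h ^ 12 : ℝ) : ℂ) ≠ 0 := by exact_mod_cast (pow_pos hh 12).ne'
  rw [Ih, Kh_eq_ft χ hχ g h hh, F2c, F2e]
  field_simp

theorem F2_Ihm (h : ℝ) (c : Z → ℂ) : Measurable (Ih h c) := by
  unfold Ih
  refine Measurable.const_mul ((measurable_of_countable c).comp ?_) _
  exact measurable_pi_lambda _ fun i => Int.measurable_floor.comp (by fun_prop)

/-- domination of the lattice samples -/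
theorem F2_dom (χ : E → ℝ) (hχ : Cut χ) (γ : ℝ) (h0 : 0 < γ) (h1 : γ < 12) (N : ℕ) (g : E → ℂ)
    (hg : ∀ J : ℕ, ∃ C : ℝ, Sym γ J C g) : ∃ C : ℝ, 0 ≤ C ∧ ∀ h : ℝ, 0 < h → h ≤ 1 →
      ∀ ξ : E, ξ ≠ 0 → ‖ft χ g h (F2e h ξ)‖ ≤ C * F2w γ N ξ := by
  obtain ⟨J, C1, hC1, H1⟩ := F2_A χ hχ γ h0 h1 N
  obtain ⟨C2, hC2, H2⟩ := ft_triv χ hχ γ h0 h1
  obtain ⟨A, hA⟩ := hg J
  obtain ⟨B, hB⟩ := hg 0
  have hA0 := F2_sym_nonneg hA
  have hB0 := F2_sym_nonneg hB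
  set a : ℝ := (2⁻¹ : ℝ) ^ (γ - 12) * (2⁻¹ : ℝ) ^ (-(N : ℝ)) with ha
  set b : ℝ := (8⁻¹ : ℝ) ^ (γ - 12) * (9 : ℝ) ^ (N : ℝ) with hb
  have a0 : 0 ≤ a := by positivity
  have b0 : 0 ≤ b := by positivity
  refine ⟨C1 * A * a + C2 * B * b, by positivity, fun h hh hh1 ξ hξ => ?_⟩
  have hp : 0 < ‖ξ‖ := norm_pos_iff.2 hξ
  have w0 := F2w_nonneg γ N ξ
  by_cases hc : 8 * h ≤ ‖ξ‖
  · have n1 := F2e_near h hh ξ
    have n2 : 2⁻¹ * ‖ξ‖ ≤ ‖F2e h ξ‖ := by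
      have := norm_sub_norm_le ξ (F2e h ξ)
      rw [norm_sub_rev] at this
      linarith
    have ne : F2e h ξ ≠ 0 := norm_pos_iff.1 (by linarith)
    have k1 : F2w γ N (F2e h ξ) ≤ a * F2w γ N ξ := by
      have e : a * F2w γ N ξ = (2⁻¹ * ‖ξ‖) ^ (γ - 12) * (2⁻¹ * (1 + ‖ξ‖)) ^ (-(N : ℝ)) := by
        rw [Real.mul_rpow (by norm_num) hp.le, Real.mul_rpow (by norm_num) (by positivity), ha,
          F2w]
        ring
      rw [e, F2w]
      refine mul_le_mul (Real.rpow_le_rpow_of_nonpos (by positivity) n2 (by linarith))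
        (Real.rpow_le_rpow_of_nonpos (by positivity) (by linarith) (by simp)) (by positivity)
        (by positivity)
    refine (H1 g A h hA hh hh1 _ ne).trans ?_
    calc C1 * A * F2w γ N (F2e h ξ) ≤ C1 * A * (a * F2w γ N ξ) :=
          mul_le_mul_of_nonneg_left k1 (by positivity)
      _ ≤ _ := by nlinarith [mul_nonneg (mul_nonneg (mul_nonneg hC2 hB0) b0) w0]
  · push Not at hc
    have k1 : h ^ (γ - 12) ≤ b * F2w γ N ξ := by
      have e : b * F2w γ N ξ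
          = (8⁻¹ * ‖ξ‖) ^ (γ - 12) * ((9 : ℝ) ^ (N : ℝ) * (1 + ‖ξ‖) ^ (-(N : ℝ))) := by
        rw [Real.mul_rpow (by norm_num) hp.le, hb, F2w]
        ring
      have k2 : 1 ≤ (9 : ℝ) ^ (N : ℝ) * (1 + ‖ξ‖) ^ (-(N : ℝ)) := by
        rw [Real.rpow_neg (by positivity), ← div_eq_mul_inv, one_le_div (by positivity)]
        exact Real.rpow_le_rpow (by positivity) (by linarith) (by positivity)
      rw [e]
      refine le_trans ?_ (le_mul_of_one_le_right (by positivity) k2)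
      exact Real.rpow_le_rpow_of_nonpos (by positivity) (by linarith) (by linarith)
    refine (H2 g B h hB hh hh1 _).trans ?_
    calc C2 * B * h ^ (γ - 12) ≤ C2 * B * (b * F2w γ N ξ) :=
          mul_le_mul_of_nonneg_left k1 (by positivity)
      _ ≤ _ := by nlinarith [mul_nonneg (mul_nonneg (mul_nonneg hC1 hA0) a0) w0]

theorem F2K.lim {γ : ℝ} (h0 : 0 < γ) (h1 : γ < 12) {g k : E → ℂ} (hm : Measurable k)
    (H : F2K γ g k) (hg : ∀ J : ℕ, ∃ C : ℝ, Sym γ J C g) (χ : E → ℝ) (hχ : Cut χ) (K : ℕ) :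
    Tendsto (fun h : ℝ => ∫⁻ ξ, ENNReal.ofReal
      ((1 + ‖ξ‖) ^ K * ‖Ih h (Kh χ g h) ξ - k ξ‖)) (𝓝[>] 0) (𝓝 0) := by
  obtain ⟨C, hC, H1⟩ := F2_dom χ hχ γ h0 h1 (K + 13) g hg
  have hgc : Continuous g := (hg 0).choose_spec.1.continuous
  have hi : Integrable fun ξ => ‖F2c‖ * C * F2w γ 13 ξ + (1 + ‖ξ‖) ^ K * ‖k ξ‖ :=
    ((F2w_int γ h0 h1).const_mul _).add (H.wint h0 h1 hm hg K)
  have := tendsto_lintegral_filter_of_dominated_convergence (μ := (volume : Measure E))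
    (l := 𝓝[>] (0 : ℝ))
    (F := fun h ξ => ENNReal.ofReal ((1 + ‖ξ‖) ^ K * ‖Ih h (Kh χ g h) ξ - k ξ‖))
    (f := fun _ => 0)
    (fun ξ => ENNReal.ofReal (‖F2c‖ * C * F2w γ 13 ξ + (1 + ‖ξ‖) ^ K * ‖k ξ‖)) ?_ ?_
    hi.lintegral_lt_top.ne ?_
  · simpa using this
  · refine Eventually.of_forall fun h => ?_
    have := F2_Ihm h (Kh χ g h)
    fun_prop
  · filter_upwards [F2_ev01] with h hh
    filter_upwards [F2_ae_ne] with ξ hξ
    refine ENNReal.ofReal_le_ofReal ?_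
    rw [F2_Ih χ hχ g h hh.1, ← F2w_mul γ K, mul_left_comm, ← mul_add]
    refine mul_le_mul_of_nonneg_left ((norm_sub_le _ _).trans ?_) (by positivity)
    rw [norm_mul, mul_assoc]
    exact add_le_add_left
      (mul_le_mul_of_nonneg_left (H1 h hh.1 hh.2 ξ hξ) (norm_nonneg _)) _
  · filter_upwards [F2_ae_ne] with ξ hξ
    have t0 : Tendsto (fun h => F2e h ξ) (𝓝[>] 0) (𝓝 ξ) := by
      rw [tendsto_iff_norm_sub_tendsto_zero]
      have t : Tendsto (fun h : ℝ => 4 * h) (𝓝[>] 0) (𝓝 0) := by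
        have : Tendsto (fun h : ℝ => 4 * h) (𝓝 0) (𝓝 (4 * 0)) :=
          Continuous.tendsto (by fun_prop) _
        simpa using this.mono_left nhdsWithin_le_nhds
      refine squeeze_zero' (Eventually.of_forall fun _ => norm_nonneg _) ?_ t
      filter_upwards [F2_ev01] with h hh using F2e_near h hh.1 ξ
    have t1 := ((((H.tend' h0 h1 hgc hχ hξ t0).sub_const (k ξ)).norm).const_mul
      ((1 + ‖ξ‖) ^ K))
    have t2 := ENNReal.tendsto_ofReal t1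
    simp only [sub_self, norm_zero, mul_zero, ENNReal.ofReal_zero] at t2
    refine t2.congr' ?_
    filter_upwards [F2_ev01] with h hh
    rw [F2_Ih χ hχ g h hh.1]

theorem f2 (γ : ℝ) (hγ : 0 < γ) (g : E → ℂ) (hg : ∀ J : ℕ, ∃ C : ℝ, Sym γ J C g) :
    ∃ k : E → ℂ, Measurable k ∧ (∀ K : ℕ, Integrable fun ξ => (1 + ‖ξ‖) ^ K * ‖k ξ‖) ∧
      phys k = g ∧ ∀ χ : E → ℝ, Cut χ → ∀ K : ℕ,
        Tendsto (fun h : ℝ => ∫⁻ ξ, ENNReal.ofReal
          ((1 + ‖ξ‖) ^ K * ‖Ih h (Kh χ g h) ξ - k ξ‖)) (𝓝[>] 0) (𝓝 0) := by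
  have h0 : 0 < min γ 1 := lt_min hγ one_pos
  have h1 : min γ 1 < 12 := (min_le_right _ _).trans_lt (by norm_num)
  have hg' : ∀ J : ℕ, ∃ C : ℝ, Sym (min γ 1) J C g := fun J =>
    (hg J).imp fun C hC => hC.mono (min_le_left _ _) le_rfl le_rfl
  obtain ⟨k, hm, H⟩ := F2_ex _ h0 h1 g hg'
  exact ⟨k, hm, H.wint h0 h1 hm hg', H.phys_eq h0 h1 hg', H.lim h0 h1 hm hg'⟩

/-- quantitative form: the L^1 density of a symbol is bounded by the symbol constant -/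
theorem f2_bound (γ : ℝ) (hγ : 0 < γ) (K : ℕ) : ∃ (J : ℕ) (C0 : ℝ), 0 ≤ C0 ∧
    ∀ (g k : E → ℂ) (C : ℝ), (∀ J : ℕ, ∃ C : ℝ, Sym γ J C g) → Sym γ J C g → Integrable k →
      phys k = g → ∫⁻ ξ, ENNReal.ofReal ((1 + ‖ξ‖) ^ K * ‖k ξ‖) ≤ ENNReal.ofReal (C0 * C) := by
  have h0 : 0 < min γ 1 := lt_min hγ one_pos
  have h1 : min γ 1 < 12 := (min_le_right _ _).trans_lt (by norm_num)
  obtain ⟨J, C0, hC0, H1⟩ := F2_kb _ h0 h1 (K + 13)
  have w0 : 0 ≤ ∫ ξ, F2w (min γ 1) 13 ξ := integral_nonneg fun ξ => F2w_nonneg _ _ _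
  refine ⟨J, C0 * ∫ ξ, F2w (min γ 1) 13 ξ, by positivity, fun g k C hg hC hk hp => ?_⟩
  have hg' : ∀ J : ℕ, ∃ C : ℝ, Sym (min γ 1) J C g := fun J =>
    (hg J).imp fun C hC => hC.mono (min_le_left _ _) le_rfl le_rfl
  have hC' : Sym (min γ 1) J C g := hC.mono (min_le_left _ _) le_rfl le_rfl
  have c0 := F2_sym_nonneg hC
  obtain ⟨k0, hm, H⟩ := F2_ex _ h0 h1 g hg'
  have hk0 := H.int h0 h1 hm hg'
  have he : (fun ξ => k ξ - k0 ξ) =ᵐ[volume] 0 := by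
    refine F2_phys_inj _ (hk.sub hk0) ?_
    funext y
    have e1 := congrFun hp y
    have e2 := congrFun (H.phys_eq h0 h1 hg') y
    have i : ∀ u : E → ℂ, Integrable u →
        Integrable fun ξ => u ξ * Complex.exp (I * ((inner ℝ ξ y : ℝ) : ℂ)) := fun u hu => by
      simpa only [real_inner_comm] using F2_expi u hu I (by simp) y
    unfold phys at e1 e2 ⊢
    simp only [sub_mul]
    rw [integral_sub (i k hk) (i k0 hk0), e1, e2]
    simp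
  calc _ ≤ ∫⁻ ξ, ENNReal.ofReal (C0 * C * F2w (min γ 1) 13 ξ) := by
        refine lintegral_mono_ae ?_
        filter_upwards [F2_ae_ne, he] with ξ hξ h2
        have h3 : k ξ = k0 ξ := sub_eq_zero.1 h2
        refine ENNReal.ofReal_le_ofReal ?_
        rw [h3, ← F2w_mul _ K, mul_left_comm]
        exact mul_le_mul_of_nonneg_left (H1 g k0 C H hC' ξ hξ) (by positivity)
    _ = _ := by
        rw [← ofReal_integral_eq_lintegral_ofReal ((F2w_int _ h0 h1).const_mul _)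
          (Eventually.of_forall fun ξ => mul_nonneg (by positivity) (F2w_nonneg _ _ _)),
          integral_const_mul]
        congr 1
        ring

/-- injectivity of phys on L^1 -/
theorem phys_inj (k : E → ℂ) (hk : Integrable k) (h : phys k = 0) : k =ᵐ[volume] 0 :=
  F2_phys_inj k hk h

end Vale.Agent.P139
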