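import Vale.Agent.P139.SymA

open Complex MeasureTheory Filter Topology
open scoped ComplexConjugate ContDiff

namespace Vale.Agent.P139

/-- unnormalised Fourier transform of the truncated symbol -/
noncomputable def ft (χ : E → ℝ) (g : E → ℂ) (h : ℝ) (ξ : E) : ℂ :=
  ∫ y, (χ (h • y) : ℂ) * g y * Complex.exp (-I * ((inner ℝ ξ y : ℝ) : ℂ))

theorem fb_nonneg {γ C : ℝ} {J : ℕ} {g : E → ℂ} (h : Sym γ J C g) : 0 ≤ C := by
  simpa using (norm_nonneg _).trans (h.2 0 (Nat.zero_le _) 0)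

theorem fb_zero {φ : E → ℂ} {U : Set E} (hU : IsOpen U) (h : ∀ y ∈ U, φ y = 0) (k : ℕ) {y : E}
    (hy : y ∈ U) : iteratedFDeriv ℝ k φ y = 0 := by
  have e : φ =ᶠ[𝓝 y] fun _ => 0 := by filter_upwards [hU.mem_nhds hy] with x hx using h x hx
  rw [(e.iteratedFDeriv ℝ k).eq_of_nhds, iteratedFDeriv_zero_fun]
  rfl

theorem fb_chi {χ : E → ℝ} (hχ : Cut χ) (J : ℕ) : ∃ C, Sym 0 J C fun y => (χ y : ℂ) := by
  have s : ContDiff ℝ ∞ fun y => (χ y : ℂ) := ofRealCLM.contDiff.comp hχ.smooth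
  have c : HasCompactSupport fun y => (χ y : ℂ) :=
    HasCompactSupport.intro (isCompact_closedBall 0 2) fun y hy => by
      rw [hχ.zero y (le_of_lt (by simpa using hy)), ofReal_zero]
  have b : ∀ k : ℕ, ∃ B, 0 ≤ B ∧ ∀ y, ‖iteratedFDeriv ℝ k (fun y => (χ y : ℂ)) y‖ ≤
      B * (1 + ‖y‖) ^ (-0 - k : ℝ) := fun k => by
    obtain ⟨B, hB⟩ := (s.continuous_iteratedFDeriv
      (m := k) (by exact_mod_cast le_top)).bounded_above_of_compact_support (c.iteratedFDeriv k)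
    have B0 : 0 ≤ B := (norm_nonneg _).trans (hB 0)
    refine ⟨B * 3 ^ k, by positivity, fun y => ?_⟩
    rcases le_or_gt ‖y‖ 2 with hy | hy
    · rw [neg_zero, zero_sub, Real.rpow_neg (by positivity), Real.rpow_natCast, mul_assoc,
        ← div_eq_mul_inv, ← div_pow]
      refine (hB y).trans (le_mul_of_one_le_right B0 (one_le_pow₀ ?_))
      rw [le_div_iff₀ (by positivity)]; linarith
    · rw [fb_zero (isOpen_lt continuous_const continuous_norm)
        (fun y hy => by rw [hχ.zero y (le_of_lt hy), ofReal_zero]) k hy, norm_zero]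
      positivity
  choose B b0 b1 using b
  refine ⟨∑ k ∈ Finset.range (J + 1), B k, s, fun k hk y => (b1 k y).trans ?_⟩
  exact mul_le_mul_of_nonneg_right (Finset.single_le_sum (fun k _ => b0 k)
    (Finset.mem_range.2 (by omega))) (by positivity)

theorem fb_dil {φ : E → ℂ} {J : ℕ} {C h : ℝ} (hφ : Sym 0 J C φ) (h0 : 0 < h) (h1 : h ≤ 1) :
    Sym 0 J C fun y => φ (h • y) := by
  refine ⟨hφ.1.comp (contDiff_const_smul h), fun k hk y => ?_⟩
  rw [iteratedFDeriv_comp_const_smul h (hφ.1.of_le (by exact_mod_cast le_top)), norm_smul,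
    Real.norm_of_nonneg (by positivity)]
  refine (mul_le_mul_of_nonneg_left (hφ.2 k hk _) (by positivity)).trans ?_
  rw [mul_left_comm, neg_zero, zero_sub, Real.rpow_neg (by positivity),
    Real.rpow_neg (by positivity), Real.rpow_natCast, Real.rpow_natCast, ← div_eq_mul_inv,
    ← div_pow, ← inv_pow, norm_smul, Real.norm_of_nonneg h0.le]
  refine mul_le_mul_of_nonneg_left (pow_le_pow_left₀ (by positivity) ?_ k) (fb_nonneg hφ)
  rw [inv_eq_one_div, div_le_div_iff₀ (by positivity) (by positivity)]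
  linarith

theorem fb_one {χ : E → ℝ} (hχ : Cut χ) (J : ℕ) : ∃ C, Sym 0 J C fun y => 1 - (χ y : ℂ) := by
  obtain ⟨C, hC⟩ := fb_chi hχ J
  have o : Sym 0 J 1 fun _ => 1 := ⟨contDiff_const, fun k _ y => by
    rcases Nat.eq_zero_or_pos k with rfl | hk
    · simp
    · rw [iteratedFDeriv_const_of_ne hk.ne', Pi.zero_apply, norm_zero]; positivity⟩
  exact ⟨_, by simpa only [neg_one_mul, ← sub_eq_add_neg] using o.add (hC.smul (-1))⟩

/-- truncation keeps the symbol bounds -/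
theorem sym_cut (χ : E → ℝ) (hχ : Cut χ) (γ : ℝ) (J : ℕ) : ∃ C0 : ℝ, 0 ≤ C0 ∧
    ∀ (g : E → ℂ) (C h : ℝ), Sym γ J C g → 0 < h → h ≤ 1 →
      Sym γ J (C0 * C) (fun y => (χ (h • y) : ℂ) * g y) := by
  obtain ⟨B, hB⟩ := fb_chi hχ J
  have := fb_nonneg hB
  exact ⟨2 ^ J * B, by positivity, fun g C h hg h0 h1 => by
    simpa only [zero_add] using (fb_dil hB h0 h1).mul hg⟩

/-- the far part is small in a weaker class -/
theorem sym_far (χ : E → ℝ) (hχ : Cut χ) (γ γ' : ℝ) (hγ : γ' ≤ γ) (J : ℕ) : ∃ C0 : ℝ, 0 ≤ C0 ∧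
    ∀ (g : E → ℂ) (C h : ℝ), Sym γ J C g → 0 < h → h ≤ 1 →
      Sym γ' J (C0 * C * h ^ (γ - γ')) (fun y => (1 - (χ (h • y) : ℂ)) * g y) := by
  obtain ⟨B, hB⟩ := fb_one hχ J
  have B0 := fb_nonneg hB
  refine ⟨2 ^ J * B, by positivity, fun g C h hg h0 h1 => ?_⟩
  have a := (fb_dil hB h0 h1).mul hg
  have C0 := fb_nonneg hg
  refine ⟨a.1, fun k hk y => ?_⟩
  rcases lt_or_ge ‖h • y‖ 1 with hy | hy
  · rw [fb_zero (isOpen_lt (continuous_const_smul h).norm continuous_const)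
      (fun y hy => by rw [hχ.one _ (le_of_lt hy)]; simp) k hy, norm_zero]
    positivity
  · refine (a.2 k hk y).trans ?_
    rw [mul_assoc _ (h ^ _), show -γ' - k = (γ - γ') + (-(0 + γ) - k) by ring,
      Real.rpow_add (by positivity), ← mul_assoc (h ^ _),
      ← Real.mul_rpow h0.le (by positivity)]
    refine mul_le_mul_of_nonneg_left (le_mul_of_one_le_left (by positivity)
      (Real.one_le_rpow ?_ (by linarith))) (by positivity)
    rw [norm_smul, Real.norm_of_nonneg h0.le] at hy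
    linarith

theorem Kh_eq_ft (χ : E → ℝ) (hχ : Cut χ) (g : E → ℂ) (h : ℝ) (hh : 0 < h) (n : Z) :
    Kh χ g h n = (((2 * Real.pi) ^ 12 : ℝ) : ℂ)⁻¹ * ((h ^ 12 : ℝ) : ℂ) * ft χ g h (h • zE n) := by
  rw [Kh, coef, mul_assoc, setIntegral_eq_integral_of_forall_compl_eq_zero fun x hx => ?_]
  · congr 1
    have e := Measure.integral_comp_smul_of_nonneg volume (fun x : E => (χ x : ℂ) * g (h⁻¹ • x) *
      Complex.exp (-I * ((∑ i, (n i : ℝ) * x i : ℝ) : ℂ))) h (hR := hh.le)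
    rw [finrank_euclideanSpace_fin, eq_inv_smul_iff₀ (by positivity)] at e
    rw [← e, real_smul, ft]
    congr 2
    funext y
    rw [inv_smul_smul₀ hh.ne']
    congr 4
    simp [zE, PiLp.inner_apply, mul_comm, mul_left_comm, mul_assoc]
  · obtain ⟨i, hi⟩ := not_forall.1 hx
    have h1 : Real.pi < |x i| := lt_of_not_ge fun h => hi (abs_le.1 h)
    have h2 : |x i| ≤ ‖x‖ := PiLp.norm_apply_le x i
    rw [hχ.zero x (by linarith [Real.pi_gt_three]), ofReal_zero, zero_mul, zero_mul]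

theorem fb_exp (ξ y : E) : ‖Complex.exp (-I * ((inner ℝ ξ y : ℝ) : ℂ))‖ = 1 := by
  simp [norm_exp]

theorem fb_scale {ψ : E → ℝ} {h : ℝ} (h0 : 0 < h) (t : ℝ) :
    ∫ y, h ^ t * ψ (h • y) = h ^ (t - 12) * ∫ y, ψ y := by
  rw [integral_const_mul, Measure.integral_comp_smul_of_nonneg volume ψ h (hR := h0.le),
    finrank_euclideanSpace_fin, smul_eq_mul, Real.rpow_sub h0, ← mul_assoc, div_eq_mul_inv,
    ← Real.rpow_natCast]
  rfl

theorem ft_triv (χ : E → ℝ) (hχ : Cut χ) (γ : ℝ) (h0 : 0 < γ) (h1 : γ < 12) : ∃ C0 : ℝ, 0 ≤ C0 ∧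
    ∀ (g : E → ℂ) (C h : ℝ), Sym γ 0 C g → 0 < h → h ≤ 1 → ∀ ξ,
      ‖ft χ g h ξ‖ ≤ C0 * C * h ^ (γ - 12) := by
  obtain ⟨B, hB⟩ := fb_chi hχ 0
  have b : ∀ y, |χ y| ≤ B := fun y => by simpa using hB.2 0 le_rfl y
  set ψ : E → ℝ := fun y => |χ y| * ‖y‖ ^ (-γ) with hψ
  have ψ0 : ∀ y, 0 ≤ ψ y := fun y => by positivity
  have i : Integrable ψ := by
    refine (integrableOn_ball_of_norm_le_rpow (r := 2) (C := B) (α := γ) (by simp) (by simpa)
      (ae_of_all _ fun y => ?_) ?_).integrable_of_forall_notMem_eq_zero fun y hy => ?_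
    · rw [Real.norm_of_nonneg (ψ0 y)]
      exact mul_le_mul_of_nonneg_right (b y) (by positivity)
    · exact (hχ.smooth.continuous.measurable.abs.mul
        (measurable_norm.pow_const _)).aestronglyMeasurable
    · simp [hψ, hχ.zero y (by simpa using hy)]
  refine ⟨∫ y, ψ y, integral_nonneg ψ0, fun g C h hg h2 _ ξ => ?_⟩
  have C0 := fb_nonneg hg
  rw [mul_comm _ C, mul_assoc, mul_comm _ (h ^ _), ← fb_scale h2, ← integral_const_mul]
  refine norm_integral_le_of_norm_le (((i.comp_smul h2.ne').const_mul _).const_mul _) ?_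
  filter_upwards [compl_mem_ae_iff.2 (measure_singleton (0 : E))] with y hy
  have y0 : 0 < ‖y‖ := norm_pos_iff.2 hy
  have g1 : ‖g y‖ ≤ C * ‖y‖ ^ (-γ) := by
    refine le_trans (by simpa using hg.2 0 le_rfl y) (mul_le_mul_of_nonneg_left
      (Real.rpow_le_rpow_of_nonpos y0 (le_add_of_nonneg_left zero_le_one) (by linarith)) C0)
  rw [norm_mul, fb_exp, mul_one, norm_mul, norm_real, Real.norm_eq_abs]
  refine (mul_le_mul_of_nonneg_left g1 (abs_nonneg _)).trans_eq ?_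
  simp only [hψ]
  rw [norm_smul, Real.norm_of_nonneg h2.le, Real.mul_rpow h2.le y0.le, Real.rpow_neg h2.le]
  have : h ^ γ ≠ 0 := by positivity
  field_simp

theorem fb_ibp {ξ : E} (hξ : ξ ≠ 0) {R : ℝ} {φ : E → ℝ} (hφ : Integrable φ) (φ0 : ∀ y, 0 ≤ φ y)
    (n : ℕ) : ∀ (σ C : ℝ) (g : E → ℂ), Sym σ n C g → HasCompactSupport g →
      (∀ y, ‖y‖ < R → g y = 0) → (∀ y, R ≤ ‖y‖ → C * (1 + ‖y‖) ^ (-σ - n) ≤ φ y) →
      ‖∫ y, g y * Complex.exp (-I * ((inner ℝ ξ y : ℝ) : ℂ))‖ * ‖ξ‖ ^ n ≤ ∫ y, φ y := by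
  induction n with
  | zero =>
    intro σ C g hg _ h1 h2
    rw [pow_zero, mul_one]
    refine norm_integral_le_of_norm_le hφ (ae_of_all _ fun y => ?_)
    rw [norm_mul, fb_exp, mul_one]
    rcases lt_or_ge ‖y‖ R with hy | hy
    · rw [h1 y hy, norm_zero]; exact φ0 y
    · exact le_trans (by simpa using hg.2 0 le_rfl y) (h2 y hy)
  | succ n ih =>
    intro σ C g hg hc h1 h2
    have x0 : 0 < ‖ξ‖ := norm_pos_iff.2 hξ
    set v : E := ‖ξ‖⁻¹ • ξ with hv
    have v1 : ‖v‖ = 1 := norm_smul_inv_norm hξ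
    have v2 : inner ℝ ξ v = ‖ξ‖ := by
      rw [hv, inner_smul_right, real_inner_self_eq_norm_sq]; field_simp
    set e : E → ℂ := fun y => Complex.exp (-I * ((inner ℝ ξ y : ℝ) : ℂ)) with he
    have de : ∀ y, HasFDerivAt e (e y • (-I) • ofRealCLM.comp (innerSL ℝ ξ)) y := fun y =>
      ((ofRealCLM.comp (innerSL ℝ ξ)).hasFDerivAt.const_mul (-I)).cexp
    have de' : ∀ y, fderiv ℝ e y v = -I * ‖ξ‖ * e y := fun y => by
      rw [(de y).fderiv]
      simp [v2]
      ring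
    have ce : Continuous e := continuous_iff_continuousAt.2 fun y => (de y).continuousAt
    have g1 := hg.fderiv v
    have i1 : Integrable fun y => g y * e y :=
      (hg.1.continuous.mul ce).integrable_of_hasCompactSupport hc.mul_right
    have i2 : Integrable fun y => fderiv ℝ g y v * e y :=
      (g1.1.continuous.mul ce).integrable_of_hasCompactSupport (hc.fderiv_apply ℝ v).mul_right
    have i3 : Integrable fun y => g y * fderiv ℝ e y v := by
      simpa only [de', mul_left_comm] using i1.const_mul (-I * ‖ξ‖)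
    have k := integral_mul_fderiv_eq_neg_fderiv_mul_of_integrable i2 i3 i1
      (fun y _ => hg.1.differentiable (by simp) y) fun y _ => (de y).differentiableAt
    simp only [de', mul_left_comm (g _), integral_const_mul] at k
    have k2 := congrArg norm k
    rw [norm_neg, norm_mul, norm_mul, norm_neg, norm_I, one_mul, norm_real, norm_norm] at k2
    rw [pow_succ', ← mul_assoc, mul_comm _ ‖ξ‖, k2]
    refine ih _ _ _ g1 (hc.fderiv_apply ℝ v) (fun y hy => ?_) fun y hy => ?_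
    · have e : g =ᶠ[𝓝 y] fun _ => 0 := by
        filter_upwards [(isOpen_lt continuous_norm continuous_const).mem_nhds hy] with x hx
          using h1 x hx
      simp [e.fderiv_eq]
    · rw [v1, one_mul]
      refine le_trans (le_of_eq ?_) (h2 y hy)
      congr 2; push_cast; ring

theorem fb_cut : ∃ χ : E → ℝ, Cut χ := by
  let b : ContDiffBump (0 : E) := ⟨1, 2, one_pos, one_lt_two⟩
  exact ⟨b, b.contDiff, fun x hx => b.one_of_mem_closedBall (by simpa using hx),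
    fun x hx => b.zero_of_le_dist (by simpa using hx)⟩

/-- Fourier decay of compactly supported symbols, uniform in the support -/
theorem ft_sym (γ : ℝ) (h0 : 0 < γ) (h1 : γ < 12) (N : ℕ) : ∃ (J : ℕ) (C0 : ℝ), 0 ≤ C0 ∧
    ∀ (g : E → ℂ) (C : ℝ), Sym γ J C g → HasCompactSupport g → ∀ ξ : E, ξ ≠ 0 →
      ‖∫ y, g y * Complex.exp (-I * ((inner ℝ ξ y : ℝ) : ℂ))‖
        ≤ C0 * C * (‖ξ‖ ^ (γ - 12) * (1 + ‖ξ‖) ^ (-(N : ℝ))) := by
  obtain ⟨b, hχ⟩ := fb_cut
  obtain ⟨C1, c1, t1⟩ := ft_triv b hχ γ h0 h1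
  obtain ⟨C2, c2, t2⟩ := sym_far b hχ γ γ le_rfl 13
  set ψ : E → ℝ := fun y => (1 + ‖y‖) ^ (-(γ + 13)) with hψ
  have ψ0 : ∀ y, 0 ≤ ψ y := fun y => by positivity
  have i : Integrable ψ := integrable_one_add_norm (by simp; linarith)
  obtain ⟨A, hA⟩ : ∃ A, ∫ y, ψ y = A := ⟨_, rfl⟩
  have A0 : 0 ≤ A := hA ▸ integral_nonneg ψ0
  refine ⟨N + 13, (C1 + C2 * 2 ^ (γ + 13) * A + A) * 2 ^ N, by positivity,
    fun g C hg hc ξ hξ => ?_⟩
  have C0 := fb_nonneg hg
  have x0 : 0 < ‖ξ‖ := norm_pos_iff.2 hξ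
  have P0 : 0 < ‖ξ‖ ^ (γ - 12) := by positivity
  have D0 : 0 ≤ C2 * 2 ^ (γ + 13) * A := by positivity
  rw [Real.rpow_neg (by positivity), Real.rpow_natCast, ← mul_assoc, ← div_eq_mul_inv,
    le_div_iff₀ (by positivity)]
  rcases le_total ‖ξ‖ 1 with hx | hx
  · have a1 := t1 g C _ (hg.mono (J' := 0) le_rfl (Nat.zero_le _) le_rfl) x0 hx ξ
    have a2 := t2 g C _ (hg.mono (J' := 13) le_rfl (Nat.le_add_left _ _) le_rfl) x0 hx
    rw [sub_self, Real.rpow_zero, mul_one] at a2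
    have a3 := fb_ibp hξ (R := ‖ξ‖⁻¹) (φ := fun y => C2 * C * 2 ^ (γ + 13) *
      (‖ξ‖ ^ (γ + 13) * ψ (‖ξ‖ • y))) (((i.comp_smul x0.ne').const_mul _).const_mul _)
      (fun y => by have := ψ0 (‖ξ‖ • y); positivity) 13 _ _ _ a2 hc.mul_left
      (fun y hy => by
        rw [hχ.one, ofReal_one, sub_self, zero_mul]
        rw [norm_smul, norm_norm, ← le_div_iff₀' x0, one_div]
        exact hy.le)
      (fun y hy => by
        rw [mul_assoc (C2 * C)]
        refine mul_le_mul_of_nonneg_left ?_ (by positivity)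
        have y1 : 1 ≤ ‖ξ‖ * ‖y‖ := by rwa [← div_le_iff₀' x0, one_div]
        simp only [hψ]
        rw [← mul_assoc, ← Real.mul_rpow (by norm_num) x0.le, Real.rpow_neg (by positivity),
          ← div_eq_mul_inv, ← Real.div_rpow (by positivity) (by positivity),
          show -γ - (13 : ℕ) = -(γ + 13) by push_cast; ring, Real.rpow_neg (by positivity),
          ← Real.inv_rpow (by positivity), norm_smul, norm_norm]
        refine Real.rpow_le_rpow (by positivity) ?_ (by linarith)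
        rw [inv_eq_one_div, div_le_div_iff₀ (by positivity) (by positivity)]
        nlinarith)
    rw [integral_const_mul, fb_scale x0, hA, show γ + 13 - 12 = γ - 12 + (13 : ℕ) by push_cast; ring,
      Real.rpow_add x0, Real.rpow_natCast, mul_right_comm (‖ξ‖ ^ _), ← mul_assoc] at a3
    have a4 := le_of_mul_le_mul_right a3 (by positivity)
    have ce : Continuous fun y : E => Complex.exp (-I * ((inner ℝ ξ y : ℝ) : ℂ)) := by fun_prop
    have cb : Continuous fun y : E => ((b (‖ξ‖ • y) : ℝ) : ℂ) :=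
      continuous_ofReal.comp (hχ.smooth.continuous.comp (continuous_const_smul _))
    have e : ∫ y, g y * Complex.exp (-I * ((inner ℝ ξ y : ℝ) : ℂ)) = ft b g ‖ξ‖ ξ +
        ∫ y, (1 - (b (‖ξ‖ • y) : ℂ)) * g y * Complex.exp (-I * ((inner ℝ ξ y : ℝ) : ℂ)) := by
      rw [ft, ← integral_add]
      · congr 1; funext y; ring
      · exact ((cb.mul hg.1.continuous).mul ce).integrable_of_hasCompactSupport
          hc.mul_left.mul_right
      · exact (a2.1.continuous.mul ce).integrable_of_hasCompactSupport hc.mul_left.mul_right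
    have a5 : (1 + ‖ξ‖) ^ N ≤ 2 ^ N := pow_le_pow_left₀ (by positivity) (by linarith) N
    rw [e]
    calc _ ≤ (C1 * C * ‖ξ‖ ^ (γ - 12) + C2 * C * 2 ^ (γ + 13) * (‖ξ‖ ^ (γ - 12) * A)) * 2 ^ N :=
          mul_le_mul ((norm_add_le _ _).trans (add_le_add a1 a4)) a5 (by positivity)
            (by positivity)
      _ = (C1 + C2 * 2 ^ (γ + 13) * A) * (2 ^ N * C * ‖ξ‖ ^ (γ - 12)) := by ring
      _ ≤ (C1 + C2 * 2 ^ (γ + 13) * A + A) * (2 ^ N * C * ‖ξ‖ ^ (γ - 12)) :=
          mul_le_mul_of_nonneg_right (by linarith) (by positivity)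
      _ = _ := by ring
  · have a3 := fb_ibp hξ (R := 0) (φ := fun y => C * ψ y) (i.const_mul _)
      (fun y => mul_nonneg C0 (ψ0 y)) _ _ _ _ hg hc (fun y hy => absurd hy (norm_nonneg y).not_gt)
      (fun y _ => mul_le_mul_of_nonneg_left (Real.rpow_le_rpow_of_exponent_le
        (le_add_of_nonneg_right (norm_nonneg y))
        (by push_cast; linarith [Nat.cast_nonneg (α := ℝ) N])) C0)
    rw [integral_const_mul, hA] at a3
    have a5 : (1 + ‖ξ‖) ^ N ≤ 2 ^ N * ‖ξ‖ ^ (N + 13) * ‖ξ‖ ^ (γ - 12) := by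
      rw [pow_add, ← mul_assoc, ← mul_pow, mul_assoc, ← Real.rpow_natCast _ 13, ← Real.rpow_add x0]
      exact (pow_le_pow_left₀ (by positivity) (by linarith) N).trans (le_mul_of_one_le_right
        (by positivity) (Real.one_le_rpow hx (by push_cast; linarith)))
    calc _ ≤ _ := mul_le_mul_of_nonneg_left a5 (norm_nonneg _)
      _ = _ * ‖ξ‖ ^ (N + 13) * (2 ^ N * ‖ξ‖ ^ (γ - 12)) := by ring
      _ ≤ C * A * (2 ^ N * ‖ξ‖ ^ (γ - 12)) := mul_le_mul_of_nonneg_right a3 (by positivity)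
      _ = A * (2 ^ N * C * ‖ξ‖ ^ (γ - 12)) := by ring
      _ ≤ (C1 + C2 * 2 ^ (γ + 13) * A + A) * (2 ^ N * C * ‖ξ‖ ^ (γ - 12)) :=
          mul_le_mul_of_nonneg_right (by linarith) (by positivity)
      _ = _ := by ring

end Vale.Agent.P139
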