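import Vale.Agent.P139.Defs

open Complex MeasureTheory Filter Topology
open scoped ComplexConjugate ContDiff

namespace Vale.Agent.P139

/-- closeness of the profile to the hard wall limit, with wall at s = σ -/
structure Good (ε : ℝ) (m : ℕ) (om σ : ℝ) (w : ℝ → ℂ) : Prop where
  hm : 1 ≤ ε * m
  core : ∀ s ∈ Set.Icc 0 (σ - ε), 0.2 ≤ ‖w s‖ ^ (2 * m)
  flat : ∀ s ∈ Set.Icc 0 (σ + ε), ‖deriv w s‖ ≤ 2 * ε * ‖w s‖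
  lo : ∀ s ∈ Set.Icc (0 : ℝ) 3, 1 / 2 ≤ ‖w s‖
  hi : ∀ s ∈ Set.Icc (0 : ℝ) 3, ‖w s‖ ≤ 1
  slope : ∀ s ∈ Set.Icc (0 : ℝ) 3, ‖deriv w s‖ ≤ 1 / 8 * ‖w s‖
  up : ∀ s ∈ Set.Icc (0 : ℝ) 3, 2 * m * (deriv w s * conj (w s)).re ≤ ε * ‖w s‖ ^ 2
  ext : ∀ k ≤ 8, ∀ s : ℝ, σ + ε ≤ s → ‖iteratedDeriv k (V1 m w) s‖ ≤ ε * s ^ (-1 - (k : ℝ)) ∧
    ‖iteratedDeriv k (V2 m w) s‖ ≤ ε * s ^ (-1 - (k : ℝ))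
  wall : ‖WW (1 - I * om) 7 σ‖ ≤ ε

end Vale.Agent.P139
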