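import Vale.Agent.P139.LDefs

open Complex MeasureTheory Filter Topology
open scoped ComplexConjugate ContDiff

namespace Vale.Agent.P139

variable {X : Type*} [NormedAddCommGroup X] [NormedSpace ℝ X] [NormedSpace ℂ X]
  [IsScalarTower ℝ ℂ X] [CompleteSpace X]

/-- integrals of scalar multiples of points of a compact set stay in a compact set -/
theorem mazur_int {α : Type*} [MeasurableSpace α] (μ : Measure α) (Kc : Set X)
    (hK : IsCompact Kc) : ∃ K' : Set X, IsCompact K' ∧ ∀ (f : α → ℂ) (g : α → X),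
      Integrable f μ → Integrable (fun a => f a • g a) μ → ∫ a, ‖f a‖ ∂μ ≤ 1 →
      (∀ᵐ a ∂μ, g a ∈ Kc) → ∫ a, f a • g a ∂μ ∈ K' := by
  set K1 : Set X := insert 0 ((fun p : ℂ × X => p.1 • p.2) '' (Metric.closedBall 0 1 ×ˢ Kc))
    with hK1
  have c1 : IsCompact K1 :=
    (((isCompact_closedBall (0 : ℂ) 1).prod hK).image (by fun_prop)).insert 0
  refine ⟨closure (convexHull ℝ K1), ?_, fun f g hf hfg h1 hg => ?_⟩
  · exact isCompact_iff_totallyBounded_isComplete.2
      ⟨c1.totallyBounded.convexHull.closure, isClosed_closure.isComplete⟩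
  by_contra hn
  obtain ⟨l, u, hl, hu⟩ := geometric_hahn_banach_closed_point
    (convex_convexHull ℝ K1).closure isClosed_closure hn
  have sub : K1 ⊆ closure (convexHull ℝ K1) := (subset_convexHull ℝ K1).trans subset_closure
  have u0 : 0 < u := by simpa using hl 0 (sub (Set.mem_insert _ _))
  rw [← l.integral_comp_comm hfg] at hu
  have key : ∫ a, l (f a • g a) ∂μ ≤ ∫ a, ‖f a‖ * u ∂μ := by
    refine integral_mono_ae (l.integrable_comp hfg) (hf.norm.mul_const u) ?_
    filter_upwards [hg] with a ha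
    by_cases h0 : f a = 0
    · simp [h0]
    · have n0 : (‖f a‖ : ℂ) ≠ 0 := ofReal_ne_zero.2 (norm_ne_zero_iff.2 h0)
      have e : f a • g a = ‖f a‖ • ((f a / ‖f a‖) • g a) := by
        rw [← smul_assoc, real_smul, mul_div_cancel₀ _ n0]
      have m : (f a / ‖f a‖) • g a ∈ K1 := by
        refine Set.mem_insert_of_mem _ ⟨(f a / ‖f a‖, g a), ⟨?_, ha⟩, rfl⟩
        rw [mem_closedBall_zero_iff, norm_div, norm_real, norm_norm,
          div_self (norm_ne_zero_iff.2 h0)]
      rw [e, map_smul, smul_eq_mul]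
      exact mul_le_mul_of_nonneg_left (hl _ (sub m)).le (norm_nonneg _)
  rw [integral_mul_const] at key
  nlinarith

/-- a continuous function with vanishing Fourier coefficients vanishes at 0 -/
theorem fourier_zero (φ : ℝ → ℂ) (hφ : Continuous φ)
    (h : ∀ k : ℤ, ∫ σ in (0 : ℝ)..1, Complex.exp (-(2 * Real.pi * I * k) * σ) * φ σ = 0) :
    φ 0 = 0 := by
  have hL : MemLp φ 2 (volume.restrict (Set.Ioc (0 : ℝ) 1)) := by
    obtain ⟨B, hB⟩ := (isCompact_Icc (a := (0 : ℝ)) (b := 1)).exists_bound_of_continuousOn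
      hφ.continuousOn
    refine MemLp.of_bound hφ.aestronglyMeasurable B ?_
    filter_upwards [ae_restrict_mem measurableSet_Ioc] with x hx
    exact hB x (Set.Ioc_subset_Icc_self hx)
  have e := tsum_sq_fourierCoeffOn zero_lt_one hL
  have z : ∀ k : ℤ, fourierCoeffOn zero_lt_one φ k = 0 := fun k => by
    rw [fourierCoeffOn_eq_integral]
    have : ∫ x in (0 : ℝ)..1, fourier (-k) (x : AddCircle ((1 : ℝ) - 0)) • φ x
        = ∫ σ in (0 : ℝ)..1, Complex.exp (-(2 * Real.pi * I * k) * σ) * φ σ := by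
      refine intervalIntegral.integral_congr fun x _ => ?_
      simp only [fourier_coe_apply, smul_eq_mul]
      congr 2
      push_cast
      ring
    rw [this, h k, smul_zero]
  simp only [z, norm_zero, ne_eq, OfNat.ofNat_ne_zero, not_false_eq_true, zero_pow, tsum_zero,
    sub_zero, inv_one, one_smul] at e
  by_contra h0
  have := intervalIntegral.integral_pos (f := fun x => ‖φ x‖ ^ 2) zero_lt_one
    (hφ.norm.pow 2).continuousOn (fun x _ => by positivity)
    ⟨0, Set.left_mem_Icc.2 zero_le_one, by positivity⟩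
  linarith

/-- pointwise convergence of linear maps on a finite dimensional space is uniform -/
theorem lin_unif {ι V Y : Type*} [NormedAddCommGroup V] [NormedSpace ℂ V] [FiniteDimensional ℂ V]
    [NormedAddCommGroup Y] [NormedSpace ℂ Y] (l : Filter ι) (L : ι → V → Y)
    (hL : ∀ᶠ i in l, IsLinearMap ℂ (L i)) (h0 : ∀ v, Tendsto (fun i => L i v) l (𝓝 0))
    (ε : ℝ) (hε : 0 < ε) : ∀ᶠ i in l, ∀ v, ‖L i v‖ ≤ ε * ‖v‖ := by
  let b := Module.finBasis ℂ V
  let c : Fin (Module.finrank ℂ V) → V →L[ℂ] ℂ := fun j => (b.coord j).toContinuousLinearMap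
  have ht : Tendsto (fun i => ∑ j, ‖c j‖ * ‖L i (b j)‖) l (𝓝 (∑ j, ‖c j‖ * 0)) :=
    tendsto_finsetSum _ fun j _ => (by simpa using (h0 (b j)).norm :
      Tendsto (fun i => ‖L i (b j)‖) l (𝓝 0)).const_mul _
  simp only [mul_zero, Finset.sum_const_zero] at ht
  filter_upwards [hL, ht.eventually (gt_mem_nhds hε)] with i hi h2 v
  have e : L i v = ∑ j, c j v • L i (b j) := by
    have := congrArg (hi.mk' (L i)) (b.sum_repr v)
    rw [map_sum] at this
    simp only [map_smul, IsLinearMap.mk'_apply] at this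
    exact this.symm
  rw [e]
  refine (norm_sum_le _ _).trans (le_trans ?_ (mul_le_mul_of_nonneg_right h2.le (norm_nonneg v)))
  rw [Finset.sum_mul]
  refine Finset.sum_le_sum fun j _ => ?_
  rw [norm_smul, mul_right_comm]
  exact mul_le_mul_of_nonneg_right ((c j).le_opNorm v) (norm_nonneg _)

/-- bounded preimages for a linear map on a finite dimensional space -/
theorem lin_pre {V Y : Type*} [NormedAddCommGroup V] [NormedSpace ℂ V] [FiniteDimensional ℂ V]
    [NormedAddCommGroup Y] [NormedSpace ℂ Y] (L : V →ₗ[ℂ] Y) :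
    ∃ C : ℝ, 0 ≤ C ∧ ∀ e ∈ LinearMap.range L, ∃ v, L v = e ∧ ‖v‖ ≤ C * ‖e‖ := by
  obtain ⟨g, hg⟩ := L.rangeRestrict.exists_rightInverse_of_surjective L.range_rangeRestrict
  refine ⟨‖g.toContinuousLinearMap‖, g.toContinuousLinearMap.opNorm_nonneg, fun e he => ⟨g ⟨e, he⟩, ?_, ?_⟩⟩
  · exact congrArg Subtype.val (LinearMap.congr_fun hg ⟨e, he⟩)
  · exact g.toContinuousLinearMap.le_opNorm ⟨e, he⟩

theorem LA0_step (N : ℝ → ENNReal) {Q A κ θ σ : ℝ} (hQ : 0 ≤ Q) (hA : 0 ≤ A) (hκ : 2 * A ≤ κ - θ)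
    (hσ : 0 ≤ σ) (hN : ∀ s ∈ Set.Icc 0 σ, N s ≤ ENNReal.ofReal (Q * Real.exp (-θ * s))) :
    ∫⁻ s in Set.Icc 0 σ, ENNReal.ofReal (A * Real.exp (-κ * (σ - s))) * N s
      ≤ ENNReal.ofReal (Q / 2 * Real.exp (-θ * σ)) := by
  set φ : ℝ → ℝ := fun s => Q / 2 * Real.exp (-κ * σ) * (Real.exp ((κ - θ) * s) * (κ - θ)) with hφ
  have hc : Continuous φ := by rw [hφ]; fun_prop
  have d0 : 0 ≤ κ - θ := by linarith
  have a : ∫⁻ s in Set.Icc 0 σ, ENNReal.ofReal (A * Real.exp (-κ * (σ - s))) * N s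
      ≤ ∫⁻ s in Set.Icc 0 σ, ENNReal.ofReal (φ s) := by
    refine setLIntegral_mono' measurableSet_Icc fun s hs => ?_
    refine (mul_le_mul_right (hN s hs) _).trans ?_
    rw [← ENNReal.ofReal_mul (by positivity)]
    refine ENNReal.ofReal_le_ofReal ?_
    have e : Real.exp (-κ * (σ - s)) * Real.exp (-θ * s)
        = Real.exp (-κ * σ) * Real.exp ((κ - θ) * s) := by
      rw [← Real.exp_add, ← Real.exp_add]; congr 1; ring
    have p : 0 ≤ Q * (Real.exp (-κ * σ) * Real.exp ((κ - θ) * s)) := by positivity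
    calc A * Real.exp (-κ * (σ - s)) * (Q * Real.exp (-θ * s))
        = A * (Q * (Real.exp (-κ * σ) * Real.exp ((κ - θ) * s))) := by rw [← e]; ring
      _ ≤ (κ - θ) / 2 * (Q * (Real.exp (-κ * σ) * Real.exp ((κ - θ) * s))) :=
        mul_le_mul_of_nonneg_right (by linarith) p
      _ = φ s := by rw [hφ]; ring
  refine a.trans ?_
  rw [← ofReal_integral_eq_lintegral_ofReal (hc.continuousOn.integrableOn_Icc)
    (ae_of_all _ fun s => by simp only [hφ, Pi.zero_apply]; positivity)]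
  refine ENNReal.ofReal_le_ofReal ?_
  rw [integral_Icc_eq_integral_Ioc, ← intervalIntegral.integral_of_le hσ]
  have hd : ∀ s ∈ Set.uIcc 0 σ, HasDerivAt
      (fun s => Q / 2 * Real.exp (-κ * σ) * Real.exp ((κ - θ) * s)) (φ s) s := fun s _ => by
    have h1 : HasDerivAt (fun s => (κ - θ) * s) (κ - θ) s := by
      simpa using (hasDerivAt_id s).const_mul (κ - θ)
    exact h1.exp.const_mul _
  rw [intervalIntegral.integral_eq_sub_of_hasDerivAt hd (hc.intervalIntegrable _ _)]
  have e : Real.exp (-κ * σ) * Real.exp ((κ - θ) * σ) = Real.exp (-θ * σ) := by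
    rw [← Real.exp_add]; congr 1; ring
  have p : 0 ≤ Q / 2 * Real.exp (-κ * σ) * Real.exp ((κ - θ) * 0) := by positivity
  rw [mul_assoc, e]
  linarith

/-- sup argument, no measurability needed -/
theorem sup_iter (N : ℝ → ENNReal) (S B P A κ θ : ℝ) (hP : 0 ≤ P) (hA : 0 ≤ A)
    (hκ : 2 * A ≤ κ - θ) (hB : ∀ σ ∈ Set.Icc 0 S, N σ ≤ ENNReal.ofReal B)
    (h : ∀ σ ∈ Set.Icc 0 S, N σ ≤ ENNReal.ofReal (P * Real.exp (-θ * σ)) +
      ∫⁻ s in Set.Icc 0 σ, ENNReal.ofReal (A * Real.exp (-κ * (σ - s))) * N s) :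
    ∀ σ ∈ Set.Icc 0 S, N σ ≤ ENNReal.ofReal (2 * P * Real.exp (-θ * σ)) := by
  set D := max B 0 * Real.exp (|θ| * S) with hD
  have D0 : 0 ≤ D := by positivity
  have key : ∀ j : ℕ, ∀ σ ∈ Set.Icc 0 S,
      N σ ≤ ENNReal.ofReal ((2 * P + D * (1 / 2) ^ j) * Real.exp (-θ * σ)) := by
    intro j
    induction j with
    | zero =>
      intro σ hσ
      refine (hB σ hσ).trans (ENNReal.ofReal_le_ofReal ?_)
      have a : 1 ≤ Real.exp (|θ| * S) * Real.exp (-θ * σ) := by
        rw [← Real.exp_add]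
        refine Real.one_le_exp ?_
        nlinarith [le_abs_self θ, abs_nonneg θ, hσ.1, hσ.2]
      have b := mul_le_mul_of_nonneg_left a (le_max_right B 0)
      have c : 0 ≤ 2 * P * Real.exp (-θ * σ) := by positivity
      have d := le_max_left B 0
      rw [hD]
      nlinarith
    | succ j ih =>
      intro σ hσ
      have q0 : 0 ≤ 2 * P + D * (1 / 2) ^ j := by positivity
      refine (h σ hσ).trans ((add_le_add le_rfl (LA0_step N q0 hA hκ hσ.1
        fun s hs => ih s ⟨hs.1, hs.2.trans hσ.2⟩)).trans ?_)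
      rw [← ENNReal.ofReal_add (by positivity) (by positivity)]
      refine ENNReal.ofReal_le_ofReal (le_of_eq ?_)
      ring
  intro σ hσ
  have t : Tendsto (fun j : ℕ => ENNReal.ofReal ((2 * P + D * (1 / 2) ^ j) * Real.exp (-θ * σ)))
      atTop (𝓝 (ENNReal.ofReal ((2 * P + D * 0) * Real.exp (-θ * σ)))) :=
    ENNReal.tendsto_ofReal ((((tendsto_pow_atTop_nhds_zero_of_lt_one (by norm_num)
      (by norm_num)).const_mul D).const_add _).mul_const _)
  rw [mul_zero, add_zero] at t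
  exact ge_of_tendsto' t fun j => key j σ hσ

end Vale.Agent.P139
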