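import Vale.Agent.P139.LDefs

open Complex MeasureTheory Filter Topology
open scoped ComplexConjugate ContDiff

namespace Vale.Agent.P139

variable {X : Type*} [NormedAddCommGroup X] [NormedSpace ℝ X] [NormedSpace ℂ X]
  [IsScalarTower ℝ ℂ X] [CompleteSpace X]

/-- integral Gronwall inequality -/
theorem lgron (f : ℝ → ℝ) (S P A : ℝ) (hA : 0 ≤ A) (hf : ContinuousOn f (Set.Icc 0 S))
    (h : ∀ σ ∈ Set.Icc 0 S, f σ ≤ P + ∫ s in (0 : ℝ)..σ, A * f s) :
    ∀ σ ∈ Set.Icc 0 S, f σ ≤ P * Real.exp (A * σ) := by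
  intro σ hσ
  have hS : 0 ≤ S := hσ.1.trans hσ.2
  have hg : Continuous fun s => A * f (Set.projIcc 0 S hS s) :=
    continuous_const.mul (hf.domRestrict.comp continuous_projIcc)
  have he : ∀ s ∈ Set.Icc 0 S, ∫ r in (0 : ℝ)..s, A * f (Set.projIcc 0 S hS r) =
      ∫ r in (0 : ℝ)..s, A * f r := fun s hs =>
    intervalIntegral.integral_congr fun r hr => by
      rw [Set.uIcc_of_le hs.1] at hr
      simp only [Set.projIcc_of_mem hS ⟨hr.1, hr.2.trans hs.2⟩]
  have hd : ∀ s, HasDerivAt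
      (fun s => Real.exp (-A * s) * (P + ∫ r in (0 : ℝ)..s, A * f (Set.projIcc 0 S hS r)))
      (Real.exp (-A * s) * (-A * 1) * (P + ∫ r in (0 : ℝ)..s, A * f (Set.projIcc 0 S hS r)) +
        Real.exp (-A * s) * (A * f (Set.projIcc 0 S hS s))) s := fun s =>
    ((hasDerivAt_id s).const_mul (-A)).exp.mul
      ((hg.integral_hasStrictDerivAt 0 s).hasDerivAt.const_add P)
  have h1 := image_le_of_deriv_right_le_deriv_boundary (a := 0) (b := S) (B := fun _ => P)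
    (B' := fun _ => 0) (fun s _ => (hd s).continuousAt.continuousWithinAt)
    (fun s _ => (hd s).hasDerivWithinAt) (by simp) continuousOn_const
    (fun s _ => hasDerivWithinAt_const _ _ _) (fun s hs => by
      have hs' := Set.Ico_subset_Icc_self hs
      have h2 := mul_le_mul_of_nonneg_left (h s hs') (mul_nonneg (Real.exp_pos (-A * s)).le hA)
      rw [he s hs', Set.projIcc_of_mem hS hs']
      linarith) hσ
  rw [he σ hσ] at h1
  have h2 := mul_le_mul_of_nonneg_right h1 (Real.exp_pos (A * σ)).le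
  rw [mul_right_comm, ← Real.exp_add, neg_mul, neg_add_cancel, Real.exp_zero, one_mul] at h2
  exact (h σ hσ).trans h2

/-- the Duhamel integrand is continuous -/
theorem SG.contOn {Eo : ℝ → X →L[ℂ] X} {a : ℝ} (hE : SG Eo a) {y : ℝ → X} {T : Set ℝ}
    (hy : ContinuousOn y T) (σ : ℝ) : ContinuousOn (fun s => Eo (σ - s) (y s)) T := by
  exact hE.cont.comp_continuousOn ((continuousOn_const.sub continuousOn_id).prodMk hy)

omit [NormedSpace ℝ X] [IsScalarTower ℝ ℂ X] [CompleteSpace X] in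
theorem la1_norm {Eo : ℝ → X →L[ℂ] X} {a : ℝ} (hE : SG Eo a) (ha : 0 ≤ a) {s : ℝ} (hs : 0 ≤ s)
    (x : X) : ‖Eo s x‖ ≤ ‖x‖ := by
  have h1 : ‖Eo s‖ ≤ 1 := (hE.norm s hs).trans (Real.exp_le_one_iff.2 (by nlinarith))
  exact ((Eo s).le_opNorm x).trans (mul_le_of_le_one_left (norm_nonneg _) h1)

theorem la1_int {Eo : ℝ → X →L[ℂ] X} {a : ℝ} (hE : SG Eo a) {y : ℝ → X} {σ : ℝ} (hσ : 0 ≤ σ)
    (hy : ContinuousOn y (Set.Icc 0 σ)) (τ : ℝ) :
    IntervalIntegrable (fun s => Eo (τ - s) (y s)) volume 0 σ :=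
  (hE.contOn hy τ).intervalIntegrable_of_Icc hσ

/-- stability of approximate mild solutions -/
theorem mild_stab {Eo : ℝ → X →L[ℂ] X} {a : ℝ} (hE : SG Eo a) (ha : 0 ≤ a) (C : X →L[ℂ] X)
    {η : ℝ → X} (hη : Mild Eo C η) (ξ : ℝ → X) (S ε : ℝ) (hξ : ContinuousOn ξ (Set.Icc 0 S))
    (h : ∀ σ ∈ Set.Icc 0 S,
      ‖ξ σ - Eo σ (ξ 0) - ∫ s in (0 : ℝ)..σ, Eo (σ - s) (C (ξ s))‖ ≤ ε) :
    ∀ σ ∈ Set.Icc 0 S, ‖ξ σ - η σ‖ ≤ (‖ξ 0 - η 0‖ + ε) * Real.exp (‖C‖ * σ) := by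
  have hd : ContinuousOn (fun s => ξ s - η s) (Set.Icc 0 S) := hξ.sub hη.cont.continuousOn
  refine lgron (fun s => ‖ξ s - η s‖) S _ _ (norm_nonneg C) hd.norm fun σ hσ => ?_
  have hs : Set.Icc 0 σ ⊆ Set.Icc 0 S := Set.Icc_subset_Icc_right hσ.2
  have i1 := la1_int hE hσ.1 (C.continuous.comp_continuousOn (hξ.mono hs)) σ
  have i2 := la1_int hE hσ.1 (C.continuous.comp hη.cont).continuousOn σ
  simp only [Function.comp] at i1 i2
  have h1 : ξ σ - η σ = (ξ σ - Eo σ (ξ 0) - ∫ s in (0 : ℝ)..σ, Eo (σ - s) (C (ξ s))) +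
      Eo σ (ξ 0 - η 0) + ∫ s in (0 : ℝ)..σ, Eo (σ - s) (C (ξ s - η s)) := by
    simp only [map_sub]
    rw [intervalIntegral.integral_sub i1 i2, hη.eq σ hσ.1]
    abel
  have h2 : ‖∫ s in (0 : ℝ)..σ, Eo (σ - s) (C (ξ s - η s))‖ ≤
      ∫ s in (0 : ℝ)..σ, ‖C‖ * ‖ξ s - η s‖ :=
    intervalIntegral.norm_integral_le_of_norm_le hσ.1
      (Eventually.of_forall fun s hs => (la1_norm hE ha (sub_nonneg.2 hs.2) _).trans (C.le_opNorm _))
      ((continuousOn_const.mul (hd.mono hs).norm).intervalIntegrable_of_Icc hσ.1)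
  have h3 := la1_norm hE ha hσ.1 (ξ 0 - η 0)
  have h4 := h σ hσ
  rw [h1]
  refine norm_add₃_le.trans ?_
  linarith

theorem la1_cont {Eo : ℝ → X →L[ℂ] X} {a : ℝ} (hE : SG Eo a) {y : ℝ → X} (hy : Continuous y) :
    Continuous fun σ : ℝ => ∫ r in (0 : ℝ)..σ, Eo (σ - r) (y r) :=
  intervalIntegral.continuous_parametric_intervalIntegral_of_continuous
    (f := fun σ r => Eo (σ - r) (y r))
    (hE.cont.comp ((continuous_fst.sub continuous_snd).prodMk (hy.comp continuous_snd)))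
    continuous_id

theorem la1_half {Eo : ℝ → X →L[ℂ] X} {a : ℝ} (hE : SG Eo a) (ha : 0 ≤ a) (C : X →L[ℂ] X)
    {w : ℝ → X} {M σ : ℝ} (hM : ∀ r, ‖w r‖ ≤ M) (hσ : 0 ≤ σ) :
    ‖Real.exp (-((2 * ‖C‖ + 1) * σ)) • ∫ r in (0 : ℝ)..σ,
      Eo (σ - r) (C (Real.exp ((2 * ‖C‖ + 1) * r) • w r))‖ ≤ M / 2 := by
  have hC := norm_nonneg C
  have hM0 : 0 ≤ M := (norm_nonneg _).trans (hM 0)
  set L := 2 * ‖C‖ + 1 with hL
  have h1 : ‖∫ r in (0 : ℝ)..σ, Eo (σ - r) (C (Real.exp (L * r) • w r))‖ ≤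
      ∫ r in (0 : ℝ)..σ, M / 2 * (Real.exp (L * r) * (L * 1)) := by
    refine intervalIntegral.norm_integral_le_of_norm_le hσ (Eventually.of_forall fun r hr => ?_)
      (Continuous.intervalIntegrable (by fun_prop) _ _)
    refine (la1_norm hE ha (sub_nonneg.2 hr.2) _).trans ((C.le_opNorm _).trans ?_)
    rw [norm_smul, Real.norm_of_nonneg (Real.exp_pos _).le]
    have h2 := Real.exp_pos (L * r)
    have h3 := mul_le_mul_of_nonneg_left (hM r) (mul_nonneg hC h2.le)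
    nlinarith [mul_nonneg hM0 h2.le]
  rw [intervalIntegral.integral_const_mul, intervalIntegral.integral_eq_sub_of_hasDerivAt
    (f := fun r => Real.exp (L * r)) (fun r _ => ((hasDerivAt_id' r).const_mul L).exp)
    (Continuous.intervalIntegrable (by fun_prop) _ _)] at h1
  rw [norm_smul, Real.norm_of_nonneg (Real.exp_pos _).le]
  refine (mul_le_mul_of_nonneg_left h1 (Real.exp_pos _).le).trans ?_
  have h2 : Real.exp (-(L * σ)) * Real.exp (L * σ) = 1 := by rw [← Real.exp_add]; simp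
  have h3 := mul_nonneg hM0 (Real.exp_pos (-(L * σ))).le
  rw [mul_zero, Real.exp_zero]
  nlinarith

theorem exists_mild {Eo : ℝ → X →L[ℂ] X} {a : ℝ} (hE : SG Eo a) (ha : 0 ≤ a) (C : X →L[ℂ] X)
    (x : X) : ∃ η : ℝ → X, Mild Eo C η ∧ η 0 = x := by
  set L := 2 * ‖C‖ + 1 with hL
  have hL0 : 0 ≤ L := by positivity
  have hy : ∀ u : BoundedContinuousFunction ℝ X,
      Continuous fun r => C (Real.exp (L * r) • u r) := fun u => by fun_prop
  let G : BoundedContinuousFunction ℝ X → ℝ → X := fun u σ =>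
    Real.exp (-(L * σ)) • Eo σ x +
      Real.exp (-(L * σ)) • ∫ r in (0 : ℝ)..σ, Eo (σ - r) (C (Real.exp (L * r) • u r))
  have hG : ∀ u, Continuous (G u) := fun u => by
    have h1 : Continuous fun σ : ℝ => Real.exp (-(L * σ)) := by fun_prop
    exact (h1.smul (hE.cont.comp (continuous_id.prodMk continuous_const))).add
      (h1.smul (la1_cont hE (hy u)))
  have hb : ∀ u σ, 0 ≤ σ → ‖G u σ‖ ≤ ‖x‖ + ‖u‖ / 2 := fun u σ hσ => by
    refine (norm_add_le _ _).trans (add_le_add ?_ (la1_half hE ha C u.norm_coe_le_norm hσ))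
    rw [norm_smul, Real.norm_of_nonneg (Real.exp_pos _).le]
    exact (mul_le_of_le_one_left (norm_nonneg _) (Real.exp_le_one_iff.2
      (neg_nonpos.2 (mul_nonneg hL0 hσ)))).trans (la1_norm hE ha hσ x)
  let Φ : BoundedContinuousFunction ℝ X → BoundedContinuousFunction ℝ X := fun u =>
    BoundedContinuousFunction.ofNormedAddCommGroup (fun s => G u (max s 0))
      ((hG u).comp (continuous_id.max continuous_const)) _ fun s => hb u _ (le_max_right _ _)
  have hΦ : ContractingWith (1 / 2) Φ := by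
    refine ⟨by norm_num, LipschitzWith.of_dist_le_mul fun u v => ?_⟩
    refine (BoundedContinuousFunction.dist_le (by positivity)).2 fun s => ?_
    have hσ : 0 ≤ max s 0 := le_max_right _ _
    have h1 := la1_half hE ha C (u - v).norm_coe_le_norm hσ
    simp only [BoundedContinuousFunction.coe_sub, Pi.sub_apply, smul_sub, map_sub] at h1
    rw [intervalIntegral.integral_sub (la1_int hE hσ (hy u).continuousOn _)
      (la1_int hE hσ (hy v).continuousOn _), smul_sub] at h1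
    change dist (G u (max s 0)) (G v (max s 0)) ≤ _
    rw [dist_eq_norm, dist_eq_norm, add_sub_add_left_eq_sub]
    refine h1.trans_eq ?_
    push_cast
    ring
  obtain ⟨u, hu⟩ : ∃ u, Φ u = u := ⟨_, hΦ.fixedPoint_isFixedPt⟩
  have h1 : ∀ σ, 0 ≤ σ → Real.exp (L * σ) • u σ =
      Eo σ x + ∫ r in (0 : ℝ)..σ, Eo (σ - r) (C (Real.exp (L * r) • u r)) := fun σ hσ => by
    have h2 : u σ = G u (max σ 0) := by
      conv_lhs => rw [← hu]
      rfl
    rw [h2, max_eq_left hσ]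
    simp only [G]
    rw [← smul_add, smul_smul, ← Real.exp_add, add_neg_cancel, Real.exp_zero,
      one_smul]
  have h0 : Real.exp (L * 0) • u 0 = x := by
    rw [h1 0 le_rfl, intervalIntegral.integral_same, hE.zero, add_zero]
  exact ⟨fun σ => Real.exp (L * σ) • u σ, ⟨by fun_prop, fun σ hσ => by rw [h0, h1 σ hσ]⟩, h0⟩

/-- a bounded operator intertwining the data maps mild solutions to mild solutions -/
theorem Mild.map {Y : Type*} [NormedAddCommGroup Y] [NormedSpace ℝ Y] [NormedSpace ℂ Y]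
    [IsScalarTower ℝ ℂ Y] [CompleteSpace Y] {Eo : ℝ → X →L[ℂ] X} {a : ℝ} (hE : SG Eo a)
    {C : X →L[ℂ] X} {η : ℝ → X} (hη : Mild Eo C η) (J : X →L[ℂ] Y) (Eo' : ℝ → Y →L[ℂ] Y)
    (C' : Y →L[ℂ] Y) (h1 : ∀ s, 0 ≤ s → ∀ x, J (Eo s x) = Eo' s (J x))
    (h2 : ∀ x, J (C x) = C' (J x)) : Mild Eo' C' fun σ => J (η σ) := by
  refine ⟨J.continuous.comp hη.cont, fun σ hσ => ?_⟩
  rw [hη.eq σ hσ, map_add, h1 σ hσ, ← J.intervalIntegral_comp_comm
    (la1_int hE hσ (y := fun s => C (η s)) (C.continuous.comp hη.cont).continuousOn σ)]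
  congr 1
  refine intervalIntegral.integral_congr fun s hs => ?_
  rw [Set.uIcc_of_le hσ] at hs
  simp only [h1 _ (sub_nonneg.2 hs.2), h2]

end Vale.Agent.P139
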