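import Vale.Agent.P139.LA0
import Vale.Agent.P139.LA1

open Complex MeasureTheory Filter Topology
open scoped ComplexConjugate ContDiff

namespace Vale.Agent.P139

variable {X : Type*} [NormedAddCommGroup X] [NormedSpace ℝ X] [NormedSpace ℂ X]
  [IsScalarTower ℝ ℂ X] [CompleteSpace X]

theorem la2_stab {Eo : ℝ → X →L[ℂ] X} {a : ℝ} (hE : SG Eo a) (ha : 0 ≤ a) {C : X →L[ℂ] X}
    {ξ η : ℝ → X} (hξ : Mild Eo C ξ) (hη : Mild Eo C η) {σ : ℝ} (hσ : 0 ≤ σ) :
    ‖ξ σ - η σ‖ ≤ ‖ξ 0 - η 0‖ * Real.exp (‖C‖ * σ) := by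
  have := mild_stab hE ha C hη ξ σ 0 hξ.cont.continuousOn (fun s hs => by
    rw [sub_sub, ← hξ.eq s hs.1, sub_self, norm_zero]) σ ⟨hσ, le_rfl⟩
  rwa [add_zero] at this

theorem la2_uniq {Eo : ℝ → X →L[ℂ] X} {a : ℝ} (hE : SG Eo a) (ha : 0 ≤ a) {C : X →L[ℂ] X}
    {ξ η : ℝ → X} (hξ : Mild Eo C ξ) (hη : Mild Eo C η) (h : ξ 0 = η 0) {σ : ℝ} (hσ : 0 ≤ σ) :
    ξ σ = η σ := by
  have := la2_stab hE ha hξ hη hσ
  rwa [h, sub_self, norm_zero, zero_mul, norm_le_zero_iff, sub_eq_zero] at this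

theorem la2_int {Eo : ℝ → X →L[ℂ] X} {a : ℝ} (hE : SG Eo a) (D : X →L[ℂ] X) {η : ℝ → X}
    (hη : Continuous η) (τ s t : ℝ) :
    IntervalIntegrable (fun r => Eo (τ - r) (D (η r))) volume s t :=
  (continuousOn_univ.1 (hE.contOn (y := fun r => D (η r))
    (D.continuous.comp hη).continuousOn τ)).intervalIntegrable s t

theorem la2_add {Eo : ℝ → X →L[ℂ] X} {a : ℝ} (hE : SG Eo a) {C : X →L[ℂ] X}
    {ξ η : ℝ → X} (hξ : Mild Eo C ξ) (hη : Mild Eo C η) : Mild Eo C fun s => ξ s + η s := by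
  refine ⟨hξ.cont.add hη.cont, fun σ hσ => ?_⟩
  simp only [map_add]
  rw [intervalIntegral.integral_add (la2_int hE C hξ.cont _ _ _) (la2_int hE C hη.cont _ _ _),
    add_add_add_comm, ← hξ.eq σ hσ, ← hη.eq σ hσ]

theorem la2_shift {Eo : ℝ → X →L[ℂ] X} {a : ℝ} (hE : SG Eo a) {C : X →L[ℂ] X}
    {η : ℝ → X} (hη : Mild Eo C η) {t : ℝ} (ht : 0 ≤ t) : Mild Eo C fun s => η (s + t) := by
  refine ⟨hη.cont.comp (continuous_id.add continuous_const), fun σ hσ => ?_⟩
  have h1 : ∫ s in (0 : ℝ)..σ, Eo (σ - s) (C (η (s + t))) =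
      ∫ s in t..σ + t, Eo (σ + t - s) (C (η s)) := by
    have := intervalIntegral.integral_comp_add_right (a := 0) (b := σ)
      (fun s => Eo (σ + t - s) (C (η s))) t
    simpa only [add_sub_add_right_eq_sub, zero_add] using this
  have h2 : Eo σ (∫ s in (0 : ℝ)..t, Eo (t - s) (C (η s))) =
      ∫ s in (0 : ℝ)..t, Eo (σ + t - s) (C (η s)) := by
    rw [← (Eo σ).intervalIntegral_comp_comm (la2_int hE C hη.cont _ _ _)]
    refine intervalIntegral.integral_congr fun s hs => ?_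
    rw [Set.uIcc_of_le ht] at hs
    simp only [add_sub_assoc, hE.add σ _ hσ (sub_nonneg.2 hs.2)]
  rw [zero_add, h1, hη.eq t ht, map_add, h2, ← hE.add σ t hσ ht, add_assoc,
    intervalIntegral.integral_add_adjacent_intervals (la2_int hE C hη.cont _ _ _)
      (la2_int hE C hη.cont _ _ _), ← hη.eq _ (add_nonneg hσ ht)]

theorem exists_flo {Eo : ℝ → X →L[ℂ] X} {a : ℝ} (hE : SG Eo a) (ha : 0 ≤ a) (C : X →L[ℂ] X) :
    ∃ W : ℝ → X →L[ℂ] X, Flo Eo C W := by
  choose η hη h0 using exists_mild hE ha C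
  have hz : Mild Eo C fun _ => (0 : X) := ⟨continuous_const, fun σ _ => by simp⟩
  have hb : ∀ s, 0 ≤ s → ∀ x, ‖η x s‖ ≤ Real.exp (‖C‖ * s) * ‖x‖ := fun s hs x => by
    simpa [h0, mul_comm] using la2_stab hE ha (hη x) hz hs
  let W : ℝ → X →L[ℂ] X := fun s => LinearMap.mkContinuous
    { toFun := fun x => η x (max s 0)
      map_add' := fun x y => la2_uniq hE ha (hη _) (la2_add hE (hη x) (hη y)) (by simp [h0])
        (le_max_right _ _)
      map_smul' := fun c x => la2_uniq hE ha (hη _)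
        ((hη x).map hE (c • ContinuousLinearMap.id ℂ X) Eo C (by simp) (by simp)) (by simp [h0])
        (le_max_right _ _) } _ (hb _ (le_max_right _ _))
  have hW : ∀ s x, W s x = η x (max s 0) := fun s x => rfl
  refine ⟨W, fun x => ⟨?_, fun σ hσ => ?_⟩, fun x => ?_, fun σ hσ => ?_, fun s t hs ht x => ?_⟩
  · exact (hη x).cont.comp (continuous_id.max continuous_const)
  · rw [hW, hW, max_eq_left hσ, max_self, (hη x).eq σ hσ]
    congr 1
    refine intervalIntegral.integral_congr fun s hs => ?_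
    rw [Set.uIcc_of_le hσ] at hs
    simp only [hW, max_eq_left hs.1]
  · rw [hW, max_self, h0]
  · exact ContinuousLinearMap.opNorm_le_bound _ (Real.exp_pos _).le fun x => by
      rw [hW, max_eq_left hσ]
      exact hb σ hσ x
  · rw [hW, hW, hW, max_eq_left (add_nonneg hs ht), max_eq_left hs, max_eq_left ht]
    exact la2_uniq hE ha (la2_shift hE (hη x) ht) (hη _) (by simp [h0]) hs

/-- the time one map is a small operator plus a compact operator -/
theorem flo_split {Eo : ℝ → X →L[ℂ] X} {a : ℝ} (hE : SG Eo a) (ha : 0 ≤ a)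
    {C Clo Chi : X →L[ℂ] X} {W : ℝ → X →L[ℂ] X} (hW : Flo Eo C W) (hC : C = Clo + Chi)
    (hlo : IsCompactOperator Clo) {A κ : ℝ} (hA : ‖C‖ ≤ A) (hκ : 0 < κ)
    (hhi : ∀ s ∈ Set.Icc (0 : ℝ) 1, ∀ x, ‖Eo s (Chi x)‖ ≤ A * Real.exp (-κ * s) * ‖x‖) :
    ∃ R B : X →L[ℂ] X, W 1 = R + B ∧ IsCompactOperator B ∧
      ‖R‖ ≤ Real.exp (-a) + A * Real.exp A / κ := by
  have hA0 : 0 ≤ A := (norm_nonneg _).trans hA
  have hWb : ∀ s ∈ Set.Ioc (0 : ℝ) 1, ∀ x, ‖W s x‖ ≤ Real.exp A * ‖x‖ := fun s hs x =>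
    (W s).le_of_opNorm_le ((hW.norm s hs.1.le).trans (Real.exp_le_exp.2
      ((mul_le_of_le_one_right (norm_nonneg _) hs.2).trans hA))) x
  have hi : ∀ (D : X →L[ℂ] X) x, IntervalIntegrable (fun s => Eo (1 - s) (D (W s x))) volume 0 1 :=
    fun D x => la2_int hE D (hW.mild x).cont 1 0 1
  let B : X →L[ℂ] X := LinearMap.mkContinuous
    { toFun := fun x => ∫ s in (0 : ℝ)..1, Eo (1 - s) (Clo (W s x))
      map_add' := fun x y => by
        simp only [map_add]
        exact intervalIntegral.integral_add (hi _ _) (hi _ _)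
      map_smul' := fun c x => by
        simp only [map_smul, RingHom.id_apply]
        exact intervalIntegral.integral_smul _ _ } (‖Clo‖ * Real.exp A) fun x => by
      have := intervalIntegral.norm_integral_le_of_norm_le_const (a := 0) (b := 1)
        (f := fun s => Eo (1 - s) (Clo (W s x))) (C := ‖Clo‖ * (Real.exp A * ‖x‖)) fun s hs => by
          rw [Set.uIoc_of_le zero_le_one] at hs
          exact (la1_norm hE ha (sub_nonneg.2 hs.2) _).trans (Clo.le_opNorm_of_le (hWb s hs x))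
      simpa [mul_assoc] using this
  have hB : ∀ x, B x = ∫ s in (0 : ℝ)..1, Eo (1 - s) (Clo (W s x)) := fun x => rfl
  refine ⟨W 1 - B, B, by abel, ?_, ?_⟩
  · obtain ⟨K1, hK1, h1⟩ := hlo.image_closedBall_subset_compact (f := Clo.toLinearMap) (Real.exp A)
    obtain ⟨K', hK', h2⟩ := mazur_int (volume.restrict (Set.Ioc (0 : ℝ) 1)) _
      ((isCompact_Icc (a := (0 : ℝ)) (b := 1)).prod hK1 |>.image hE.cont)
    refine (isCompactOperator_iff_exists_mem_nhds_image_subset_compact B).2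
      ⟨Metric.closedBall 0 1, Metric.closedBall_mem_nhds _ one_pos, K', hK', ?_⟩
    rintro _ ⟨x, hx, rfl⟩
    have h3 := h2 (fun _ => 1) (fun s => Eo (1 - s) (Clo (W s x))) (integrable_const _)
      (by simp only [one_smul]; exact (hi Clo x).1) (by simp) ?_
    · simpa only [one_smul, hB, intervalIntegral.integral_of_le zero_le_one] using h3
    refine (ae_restrict_iff' measurableSet_Ioc).2 (Eventually.of_forall fun s hs => ?_)
    refine ⟨(1 - s, Clo (W s x)), ⟨⟨sub_nonneg.2 hs.2, sub_le_self _ hs.1.le⟩,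
      h1 ⟨W s x, ?_, rfl⟩⟩, rfl⟩
    rw [mem_closedBall_zero_iff] at hx ⊢
    exact (hWb s hs x).trans (mul_le_of_le_one_right (Real.exp_pos _).le hx)
  · refine ContinuousLinearMap.opNorm_le_bound _ (by positivity) fun x => ?_
    have h1 : (W 1 - B) x = Eo 1 x + ∫ s in (0 : ℝ)..1, Eo (1 - s) (Chi (W s x)) := by
      rw [sub_apply, hB, (hW.mild x).eq 1 zero_le_one, hW.zero]
      simp only [hC, add_apply, map_add]
      rw [intervalIntegral.integral_add (hi _ _) (hi _ _)]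
      abel
    have h2 : ‖∫ s in (0 : ℝ)..1, Eo (1 - s) (Chi (W s x))‖ ≤
        ∫ s in (0 : ℝ)..1, A * Real.exp A / κ * ‖x‖ * (Real.exp (-κ * (1 - s)) * (-κ * -1)) := by
      refine intervalIntegral.norm_integral_le_of_norm_le zero_le_one
        (Eventually.of_forall fun s hs => ?_) (Continuous.intervalIntegrable (by fun_prop) _ _)
      refine (hhi _ ⟨sub_nonneg.2 hs.2, sub_le_self _ hs.1.le⟩ _).trans
        ((mul_le_mul_of_nonneg_left (hWb s hs x) (by positivity)).trans_eq ?_)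
      field_simp
    rw [intervalIntegral.integral_const_mul, intervalIntegral.integral_eq_sub_of_hasDerivAt
      (f := fun s => Real.exp (-κ * (1 - s)))
      (fun r _ => (((hasDerivAt_id' r).const_sub 1).const_mul (-κ)).exp)
      (Continuous.intervalIntegrable (by fun_prop) _ _)] at h2
    have h3 := (Eo 1).le_of_opNorm_le (hE.norm 1 zero_le_one) x
    have h4 : 0 ≤ A * Real.exp A / κ * ‖x‖ * Real.exp (-κ * (1 - 0)) := by positivity
    rw [sub_self, mul_zero, Real.exp_zero] at h2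
    rw [mul_one] at h3
    rw [h1]
    refine (norm_add_le _ _).trans ?_
    linarith

end Vale.Agent.P139
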