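import Vale.Agent.P139.LDefs

open Complex MeasureTheory Filter Topology
open scoped ComplexConjugate ContDiff

namespace Vale.Agent.P139

/-- geometric decay of powers when the spectrum lies in the open unit disc -/
theorem la3_pow {A : Type*} [NormedRing A] [NormedAlgebra ℂ A] [CompleteSpace A] (a : A)
    (h : ∀ μ ∈ spectrum ℂ a, ‖μ‖ < 1) :
    ∃ C θ : ℝ, 0 ≤ C ∧ 0 < θ ∧ θ < 1 ∧ ∀ n : ℕ, ‖a ^ n‖ ≤ C * θ ^ n := by
  have hρ : spectralRadius ℂ a < 1 := by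
    rcases (spectrum ℂ a).eq_empty_or_nonempty with he | hne
    · simp [spectralRadius, he]
    · have := spectrum.spectralRadius_lt_of_forall_lt_of_nonempty hne (r := 1)
        (fun k hk => by exact_mod_cast h k hk)
      simpa using this
  obtain ⟨θ, hθ1, hθ2⟩ := ENNReal.lt_iff_exists_nnreal_btwn.mp hρ
  have hθ0 : (0 : ℝ) < θ := by
    have : (0 : ENNReal) < θ := lt_of_le_of_lt bot_le hθ1
    exact_mod_cast this
  have hθl : (θ : ℝ) < 1 := by exact_mod_cast hθ2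
  have hev := (spectrum.pow_norm_pow_one_div_tendsto_nhds_spectralRadius a).eventually
    (gt_mem_nhds hθ1)
  obtain ⟨N, hN⟩ := eventually_atTop.mp hev
  refine ⟨1 + ∑ k ∈ Finset.range (N + 1), ‖a ^ k‖ / (θ : ℝ) ^ k, θ, by positivity, hθ0, hθl, ?_⟩
  intro n
  have hs : 0 ≤ ∑ k ∈ Finset.range (N + 1), ‖a ^ k‖ / (θ : ℝ) ^ k := by positivity
  have hp : 0 < (θ : ℝ) ^ n := by positivity
  by_cases hn : n < N + 1
  · have h1 : ‖a ^ n‖ / (θ : ℝ) ^ n ≤ ∑ k ∈ Finset.range (N + 1), ‖a ^ k‖ / (θ : ℝ) ^ k :=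
      Finset.single_le_sum (f := fun k => ‖a ^ k‖ / (θ : ℝ) ^ k) (fun k _ => by positivity)
        (Finset.mem_range.mpr hn)
    rw [div_le_iff₀ hp] at h1
    nlinarith
  · have h1 := hN n (by omega)
    have h2 : ‖a ^ n‖ ^ (1 / n : ℝ) < θ := by
      rw [← ENNReal.ofReal_coe_nnreal] at h1
      exact (ENNReal.ofReal_lt_ofReal_iff hθ0).mp h1
    have hn0 : n ≠ 0 := by omega
    have h3 : (‖a ^ n‖ ^ (1 / n : ℝ)) ^ n ≤ (θ : ℝ) ^ n :=
      pow_le_pow_left₀ (by positivity) h2.le n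
    rw [one_div, Real.rpow_inv_natCast_pow (norm_nonneg _) hn0] at h3
    nlinarith

/-- a scalar recurrence with an unstable multiplier -/
theorem la3_seq (a : ℕ → ℂ) (μ : ℂ) (D θ : ℝ) (hμ : 1 ≤ ‖μ‖) (hθ0 : 0 < θ) (hθ1 : θ < 1)
    (hD : 0 ≤ D) (h : ∀ n, ‖a (n + 1) - μ * a n‖ ≤ D * θ ^ n) :
    ∃ b : ℂ, ∀ n, ‖a n - b * μ ^ n‖ ≤ D / (1 - θ) * θ ^ n := by
  have hm0 : 0 < ‖μ‖ := by linarith
  have hμ0 : μ ≠ 0 := norm_pos_iff.mp hm0
  set r : ℝ := θ / ‖μ‖ with hr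
  have hr0 : 0 ≤ r := by positivity
  have hrθ : r ≤ θ := div_le_self hθ0.le hμ
  have hr1 : r < 1 := lt_of_le_of_lt hrθ hθ1
  let u : ℕ → ℂ := fun n => a n / μ ^ n
  have hu : ∀ n, dist (u n) (u (n + 1)) ≤ D * r ^ n := by
    intro n
    have e1 : u (n + 1) - u n = (a (n + 1) - μ * a n) / μ ^ (n + 1) := by
      simp only [u]; field_simp; ring
    rw [dist_comm, dist_eq_norm, e1, norm_div, norm_pow, div_le_iff₀ (by positivity)]
    have e2 : D * r ^ n * ‖μ‖ ^ (n + 1) = D * θ ^ n * ‖μ‖ := by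
      rw [hr, div_pow]; field_simp; ring
    rw [e2]
    have : 0 ≤ D * θ ^ n := by positivity
    nlinarith [h n]
  obtain ⟨b, hb⟩ := cauchySeq_tendsto_of_complete (cauchySeq_of_le_geometric r D hr1 hu)
  refine ⟨b, fun n => ?_⟩
  have h1 := dist_le_of_le_geometric_of_tendsto r D hr1 hu hb n
  have e1 : a n - b * μ ^ n = (u n - b) * μ ^ n := by
    simp only [u]; field_simp
  rw [e1, norm_mul, norm_pow, ← dist_eq_norm]
  have e2 : D * r ^ n / (1 - r) * ‖μ‖ ^ n = D / (1 - r) * θ ^ n := by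
    rw [hr, div_pow]; field_simp
  calc dist (u n) b * ‖μ‖ ^ n ≤ D * r ^ n / (1 - r) * ‖μ‖ ^ n := by gcongr
    _ = D / (1 - r) * θ ^ n := e2
    _ ≤ D / (1 - θ) * θ ^ n := by
      gcongr

section aux

variable {X : Type*} [NormedAddCommGroup X] [NormedSpace ℂ X]

/-- Fredholm alternative outside the unit disc -/
theorem la3_fred [CompleteSpace X] (R B : X →L[ℂ] X) (hR : ‖R‖ < 1) (hB : IsCompactOperator B)
    (μ : ℂ) (hμ : 1 ≤ ‖μ‖) (hs : μ ∈ spectrum ℂ (R + B)) :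
    ∃ v : X, v ≠ 0 ∧ (R + B) v = μ • v := by
  have hm0 : 0 < ‖μ‖ := by linarith
  have hμ0 : μ ≠ 0 := norm_pos_iff.mp hm0
  have h1 : ‖μ⁻¹ • R‖ < 1 := by
    rw [norm_smul, norm_inv, inv_mul_lt_iff₀ hm0]; linarith
  have h2 : IsUnit (algebraMap ℂ (X →L[ℂ] X) μ - R) := by
    have h3 := isUnit_one_sub_of_norm_lt_one h1
    have h4 : IsUnit (algebraMap ℂ (X →L[ℂ] X) μ) := (IsUnit.mk0 μ hμ0).map _
    have h5 : algebraMap ℂ (X →L[ℂ] X) μ - R = algebraMap ℂ (X →L[ℂ] X) μ * (1 - μ⁻¹ • R) := by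
      rw [mul_sub, mul_one, ← Algebra.smul_def, smul_smul, mul_inv_cancel₀ hμ0, one_smul]
    rw [h5]; exact h4.mul h3
  obtain ⟨u, hu⟩ := h2
  have hK : IsCompactOperator ((↑u⁻¹ * B : X →L[ℂ] X)) := hB.clm_comp (↑u⁻¹ : X →L[ℂ] X)
  have hfac : algebraMap ℂ (X →L[ℂ] X) μ - (R + B) = ↑u * (1 - ↑u⁻¹ * B) := by
    rw [mul_sub, mul_one, ← mul_assoc, Units.mul_inv, one_mul, hu]; abel
  rcases hK.hasEigenvalue_or_mem_resolventSet (μ := 1) one_ne_zero with he | hr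
  · obtain ⟨v, hv⟩ := he.exists_hasEigenvector
    refine ⟨v, hv.2, ?_⟩
    have h6 : (↑u⁻¹ * B : X →L[ℂ] X) v = v := by simpa using hv.apply_eq_smul
    have h7 : (algebraMap ℂ (X →L[ℂ] X) μ - (R + B)) v = 0 := by
      rw [hfac, mul_apply_eq_comp, sub_apply, h6]; simp
    rw [sub_apply, sub_eq_zero] at h7
    rw [← h7]; simp [Algebra.algebraMap_eq_smul_one]
  · exfalso
    apply hs
    rw [spectrum.mem_resolventSet_iff] at hr ⊢
    rw [hfac]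
    refine u.isUnit.mul ?_
    simpa using hr

/-- decay modulo F after removing a component in G -/
def LA3Q (T : X →L[ℂ] X) (G F : Submodule ℂ X) : Prop :=
  ∃ C θ : ℝ, 0 ≤ C ∧ 0 < θ ∧ θ < 1 ∧ ∀ x, ∃ e ∈ G, ‖e‖ ≤ C * ‖x‖ ∧
    ∀ n : ℕ, ∃ f ∈ F, ‖(T ^ n) (x - e) - f‖ ≤ C * θ ^ n * ‖x‖

theorem la3_step (T : X →L[ℂ] X) (G F : Submodule ℂ X) (hF : ∀ f ∈ F, T f ∈ F) (μ : ℂ)
    (hμ : 1 ≤ ‖μ‖) (v : X) (hv : v ∈ G) (hTv : T v - μ • v ∈ F) (φ : X →L[ℂ] ℂ)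
    (hφF : ∀ f ∈ F, φ f = 0) (hφv : φ v = 1) (hQ : LA3Q T G (F ⊔ Submodule.span ℂ {v})) :
    LA3Q T G F := by
  obtain ⟨C, θ, hC, hθ0, hθ1, hQ⟩ := hQ
  have hg : ∀ n : ℕ, (T ^ n) v - μ ^ n • v ∈ F := by
    intro n
    induction n with
    | zero => simp
    | succ n ih =>
      have e : (T ^ (n + 1)) v - μ ^ (n + 1) • v
          = T ((T ^ n) v - μ ^ n • v) + μ ^ n • (T v - μ • v) := by
        rw [pow_succ', mul_apply_eq_comp, map_sub, map_smul, smul_sub, smul_smul,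
          pow_succ]
        abel
      rw [e]
      exact F.add_mem (hF _ ih) (F.smul_mem _ hTv)
  set D0 : ℝ := ‖φ‖ * (‖T‖ + ‖μ‖) * C with hD0
  have hD0n : 0 ≤ D0 := by positivity
  have h1θ : 0 < 1 - θ := by linarith
  refine ⟨C + (‖φ‖ * (1 + C) + D0 / (1 - θ)) * ‖v‖, θ, by positivity, hθ0, hθ1, fun x => ?_⟩
  obtain ⟨e, heG, hen, he⟩ := hQ x
  choose f' hf'm hf' using he
  have hdec : ∀ n, ∃ f ∈ F, ∃ c : ℂ, f' n = f + c • v := by
    intro n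
    obtain ⟨f, hf, w, hw, hfw⟩ := Submodule.mem_sup.mp (hf'm n)
    obtain ⟨c, hc⟩ := Submodule.mem_span_singleton.mp hw
    exact ⟨f, hf, c, by rw [hc, hfw]⟩
  choose f hf c hc using hdec
  have hφc : ∀ n, φ (f' n) = c n := by
    intro n; rw [hc n, map_add, map_smul, hφF _ (hf n), hφv]; simp
  have hrec : ∀ n, ‖φ ((T ^ (n + 1)) (x - e)) - μ * φ ((T ^ n) (x - e))‖
      ≤ D0 * ‖x‖ * θ ^ n := by
    intro n
    have hz : φ (T (f' n) - μ • f' n) = 0 := by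
      apply hφF
      have e1 : T (f' n) - μ • f' n = T (f n) - μ • f n + c n • (T v - μ • v) := by
        rw [hc n, map_add, map_smul, smul_add, smul_sub, smul_comm μ (c n) v]; abel
      rw [e1]
      exact F.add_mem (F.sub_mem (hF _ (hf n)) (F.smul_mem _ (hf n))) (F.smul_mem _ hTv)
    have e2 : φ ((T ^ (n + 1)) (x - e)) - μ * φ ((T ^ n) (x - e))
        = φ (T ((T ^ n) (x - e) - f' n) - μ • ((T ^ n) (x - e) - f' n)) := by
      rw [pow_succ', mul_apply_eq_comp]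
      simp only [map_sub, map_smul, smul_eq_mul] at hz ⊢
      linear_combination hz
    rw [e2]
    have h3 : ‖T ((T ^ n) (x - e) - f' n) - μ • ((T ^ n) (x - e) - f' n)‖
        ≤ (‖T‖ + ‖μ‖) * (C * θ ^ n * ‖x‖) := by
      calc _ ≤ ‖T ((T ^ n) (x - e) - f' n)‖ + ‖μ • ((T ^ n) (x - e) - f' n)‖ := norm_sub_le _ _
        _ ≤ ‖T‖ * ‖(T ^ n) (x - e) - f' n‖ + ‖μ‖ * ‖(T ^ n) (x - e) - f' n‖ := by
          rw [norm_smul]; gcongr; exact T.le_opNorm _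
        _ = (‖T‖ + ‖μ‖) * ‖(T ^ n) (x - e) - f' n‖ := by ring
        _ ≤ _ := by gcongr; exact hf' n
    calc _ ≤ ‖φ‖ * ‖T ((T ^ n) (x - e) - f' n) - μ • ((T ^ n) (x - e) - f' n)‖ := φ.le_opNorm _
      _ ≤ ‖φ‖ * ((‖T‖ + ‖μ‖) * (C * θ ^ n * ‖x‖)) := by gcongr
      _ = D0 * ‖x‖ * θ ^ n := by rw [hD0]; ring
  obtain ⟨b, hb⟩ := la3_seq (fun n => φ ((T ^ n) (x - e))) μ (D0 * ‖x‖) θ hμ hθ0 hθ1
    (by positivity) hrec
  refine ⟨e + b • v, G.add_mem heG (G.smul_mem _ hv), ?_, fun n => ?_⟩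
  · have h0 := hb 0
    simp only [pow_zero, mul_one, one_apply_eq_self] at h0
    have h4 : ‖φ (x - e)‖ ≤ ‖φ‖ * ((1 + C) * ‖x‖) := by
      calc _ ≤ ‖φ‖ * ‖x - e‖ := φ.le_opNorm _
        _ ≤ _ := by
          gcongr
          have := norm_sub_le x e
          linarith
    have h5 : ‖b‖ ≤ (‖φ‖ * (1 + C) + D0 / (1 - θ)) * ‖x‖ := by
      have e3 : b = φ (x - e) - (φ (x - e) - b) := by ring
      calc ‖b‖ = ‖φ (x - e) - (φ (x - e) - b)‖ := by rw [← e3]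
        _ ≤ ‖φ (x - e)‖ + ‖φ (x - e) - b‖ := norm_sub_le _ _
        _ ≤ ‖φ‖ * ((1 + C) * ‖x‖) + D0 * ‖x‖ / (1 - θ) := add_le_add h4 h0
        _ = _ := by ring
    calc ‖e + b • v‖ ≤ ‖e‖ + ‖b‖ * ‖v‖ := by rw [← norm_smul]; exact norm_add_le _ _
      _ ≤ C * ‖x‖ + (‖φ‖ * (1 + C) + D0 / (1 - θ)) * ‖x‖ * ‖v‖ := by gcongr
      _ = _ := by ring
  · refine ⟨f n - b • ((T ^ n) v - μ ^ n • v), F.sub_mem (hf n) (F.smul_mem _ (hg n)), ?_⟩
    have e4 : (T ^ n) (x - (e + b • v)) - (f n - b • ((T ^ n) v - μ ^ n • v))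
        = ((T ^ n) (x - e) - f' n) + (c n - b * μ ^ n) • v := by
      rw [hc n, ← sub_sub, map_sub, map_smul, smul_sub, smul_smul, sub_smul]; abel
    have h6 : ‖c n - b * μ ^ n‖ ≤ (‖φ‖ * (1 + C) + D0 / (1 - θ)) * θ ^ n * ‖x‖ := by
      have e5 : c n - b * μ ^ n
          = (φ ((T ^ n) (x - e)) - b * μ ^ n) - φ ((T ^ n) (x - e) - f' n) := by
        rw [map_sub φ, hφc]; ring
      have h7 : ‖φ ((T ^ n) (x - e) - f' n)‖ ≤ ‖φ‖ * ((1 + C) * θ ^ n * ‖x‖) := by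
        calc _ ≤ ‖φ‖ * ‖(T ^ n) (x - e) - f' n‖ := φ.le_opNorm _
          _ ≤ ‖φ‖ * (C * θ ^ n * ‖x‖) := by gcongr; exact hf' n
          _ ≤ _ := by gcongr; linarith
      rw [e5]
      calc _ ≤ ‖φ ((T ^ n) (x - e)) - b * μ ^ n‖ + ‖φ ((T ^ n) (x - e) - f' n)‖ := norm_sub_le _ _
        _ ≤ D0 * ‖x‖ / (1 - θ) * θ ^ n + ‖φ‖ * ((1 + C) * θ ^ n * ‖x‖) := add_le_add (hb n) h7
        _ = _ := by ring
    rw [e4]
    calc _ ≤ ‖(T ^ n) (x - e) - f' n‖ + ‖c n - b * μ ^ n‖ * ‖v‖ := by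
          rw [← norm_smul]; exact norm_add_le _ _
      _ ≤ C * θ ^ n * ‖x‖ + (‖φ‖ * (1 + C) + D0 / (1 - θ)) * θ ^ n * ‖x‖ * ‖v‖ := by
          gcongr; exact hf' n
      _ = _ := by ring

theorem la3_base [CompleteSpace X] (T S : X →L[ℂ] X) (G F : Submodule ℂ X)
    (hF : ∀ f ∈ F, T f ∈ F) (hS : ∀ x, S x ∈ F) (h : ∀ μ ∈ spectrum ℂ (T - S), ‖μ‖ < 1) :
    LA3Q T G F := by
  obtain ⟨C, θ, hC, hθ0, hθ1, hp⟩ := la3_pow (T - S) h
  refine ⟨C, θ, hC, hθ0, hθ1, fun x => ⟨0, G.zero_mem, by simp; positivity, fun n => ?_⟩⟩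
  refine ⟨(T ^ n) x - ((T - S) ^ n) x, ?_, ?_⟩
  · induction n with
    | zero => simp
    | succ n ih =>
      have e : (T ^ (n + 1)) x - ((T - S) ^ (n + 1)) x
          = T ((T ^ n) x - ((T - S) ^ n) x) + S (((T - S) ^ n) x) := by
        rw [pow_succ', pow_succ', mul_apply_eq_comp, mul_apply_eq_comp,
          sub_apply, map_sub]
        abel
      rw [e]
      exact F.add_mem (hF _ ih) (hS _)
  · rw [sub_zero, sub_sub_cancel]
    calc _ ≤ ‖(T - S) ^ n‖ * ‖x‖ := ((T - S) ^ n).le_opNorm _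
      _ ≤ _ := by gcongr; exact hp n

theorem la3_all [CompleteSpace X] (T R B : X →L[ℂ] X) (hT : T = R + B) (hR : ‖R‖ < 1)
    (hB : IsCompactOperator B) (G : Submodule ℂ X) [FiniteDimensional ℂ G]
    (hG : ∀ (μ : ℂ) (x : X), 1 ≤ ‖μ‖ → T x - μ • x ∈ G → x ∈ G) (k : ℕ) :
    ∀ F : Submodule ℂ X, F ≤ G → (∀ f ∈ F, T f ∈ F) →
      Module.finrank ℂ G - Module.finrank ℂ F = k → LA3Q T G F := by
  induction k using Nat.strong_induction_on with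
  | _ k ih =>
  intro F hFG hF hk
  have : FiniteDimensional ℂ F := Submodule.finiteDimensional_of_le hFG
  obtain ⟨p, hp⟩ := Submodule.ClosedComplemented.of_finiteDimensional F
  let P : X →L[ℂ] X := F.subtypeL.comp p
  have hPF : ∀ x, P x ∈ F := fun x => (p x).2
  have hPid : ∀ f ∈ F, P f = f := fun f hf => by
    have := hp ⟨f, hf⟩
    simp only [P, ContinuousLinearMap.comp_apply]
    rw [show p f = ⟨f, hf⟩ from this]; rfl
  have hPc : IsCompactOperator (P * T : X →L[ℂ] X) := by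
    have : ProperSpace F := FiniteDimensional.proper ℂ F
    have h1 : IsCompactOperator (p.comp T) := isCompactOperator_of_locallyCompactSpace_dom _
    exact h1.clm_comp F.subtypeL
  by_cases h : ∀ μ ∈ spectrum ℂ (T - P * T), ‖μ‖ < 1
  · exact la3_base T (P * T) G F hF (fun x => hPF _) h
  · push Not at h
    obtain ⟨μ, hμs, hμ⟩ := h
    have e : T - P * T = R + (B - P * T) := by rw [add_sub, ← hT]
    rw [e] at hμs
    obtain ⟨v, hv0, hv⟩ := la3_fred R (B - P * T) hR (hB.sub hPc) μ hμ hμs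
    rw [← e, sub_apply, mul_apply_eq_comp] at hv
    have hμ0 : μ ≠ 0 := norm_pos_iff.mp (by linarith)
    have hTv : T v - μ • v ∈ F := by
      rw [← hv, sub_sub_cancel]; exact hPF _
    have hPv : P v = 0 := by
      have h1 : P (μ • v) = 0 := by rw [← hv, map_sub, hPid _ (hPF _), sub_self]
      rw [map_smul] at h1
      exact (smul_eq_zero.mp h1).resolve_left hμ0
    have hvF : v ∉ F := fun hvF => hv0 (by rw [← hPid v hvF, hPv])
    have hvG : v ∈ G := hG μ v hμ (hFG hTv)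
    obtain ⟨ψ, hψ⟩ := SeparatingDual.exists_eq_one (R := ℂ) hv0
    have hle : F ⊔ Submodule.span ℂ {v} ≤ G :=
      sup_le hFG ((Submodule.span_singleton_le_iff_mem _ _).mpr hvG)
    have hlt : F < F ⊔ Submodule.span ℂ {v} := Submodule.lt_sup_iff_notMem.mpr hvF
    have : FiniteDimensional ℂ (F ⊔ Submodule.span ℂ {v} : Submodule ℂ X) :=
      Submodule.finiteDimensional_of_le hle
    have hr1 := Submodule.finrank_lt_finrank_of_lt hlt
    have hr2 := Submodule.finrank_mono hle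
    refine la3_step T G F hF μ hμ v hvG hTv (ψ.comp (1 - P)) ?_ ?_ ?_
    · intro f hf
      simp [hPid f hf]
    · simp [hPv, hψ]
    · refine ih _ (by omega) _ hle ?_ rfl
      intro f hf
      obtain ⟨g, hg, w, hw, hgw⟩ := Submodule.mem_sup.mp hf
      obtain ⟨c, hc⟩ := Submodule.mem_span_singleton.mp hw
      have e2 : T f = (T g + c • (T v - μ • v)) + (c * μ) • v := by
        rw [← hgw, ← hc, map_add, map_smul, smul_sub, smul_smul]; abel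
      rw [e2]
      exact Submodule.add_mem_sup (F.add_mem (hF g hg) (F.smul_mem _ hTv))
        (Submodule.smul_mem _ _ (Submodule.mem_span_singleton_self v))

end aux

variable {X : Type*} [NormedAddCommGroup X] [NormedSpace ℝ X] [NormedSpace ℂ X]
  [IsScalarTower ℝ ℂ X] [CompleteSpace X]

/-- stable splitting for a quasi-compact operator -/
theorem abs_split (T R B : X →L[ℂ] X) (hT : T = R + B) (hR : ‖R‖ < 1) (hB : IsCompactOperator B)
    (G : Submodule ℂ X) [FiniteDimensional ℂ G]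
    (hG : ∀ (μ : ℂ) (x : X), 1 ≤ ‖μ‖ → T x - μ • x ∈ G → x ∈ G) :
    ∃ C θ : ℝ, 0 ≤ C ∧ 0 < θ ∧ θ < 1 ∧ ∀ x, ∃ e ∈ G, ‖e‖ ≤ C * ‖x‖ ∧
      ∀ n : ℕ, ‖(T ^ n) (x - e)‖ ≤ C * θ ^ n * ‖x‖ := by
  obtain ⟨C, θ, hC, hθ0, hθ1, h⟩ := la3_all T R B hT hR hB G hG _ ⊥ bot_le
    (fun f hf => by rw [(Submodule.mem_bot ℂ).mp hf]; simp) rfl
  refine ⟨C, θ, hC, hθ0, hθ1, fun x => ?_⟩
  obtain ⟨e, heG, hen, he⟩ := h x
  refine ⟨e, heG, hen, fun n => ?_⟩
  obtain ⟨f, hf, hn⟩ := he n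
  rw [(Submodule.mem_bot ℂ).mp hf, sub_zero] at hn
  exact hn

end Vale.Agent.P139
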