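import Vale.Agent.P139.LA0
import Vale.Agent.P139.LA1

open Complex MeasureTheory Filter Topology
open scoped ComplexConjugate ContDiff

namespace Vale.Agent.P139

variable {X : Type*} [NormedAddCommGroup X] [NormedSpace ℝ X] [NormedSpace ℂ X]
  [IsScalarTower ℝ ℂ X] [CompleteSpace X]

omit [NormedSpace ℂ X] [IsScalarTower ℝ ℂ X] in
theorem LA4_int {Φ : ℝ × ℝ → X} (hΦ : Continuous Φ) :
    HasDerivAt (fun h => ∫ r in (0 : ℝ)..h, Φ (h, r)) (Φ (0, 0)) 0 := by
  rw [hasDerivAt_iff_isLittleO_nhds_zero, Asymptotics.isLittleO_iff]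
  intro ε hε
  obtain ⟨δ, hδ, hd⟩ := Metric.continuousAt_iff.1 (hΦ.continuousAt (x := (0, 0))) ε hε
  filter_upwards [Metric.ball_mem_nhds (0 : ℝ) hδ] with h hh
  rw [mem_ball_zero_iff, Real.norm_eq_abs] at hh
  have c : Continuous fun r : ℝ => Φ (h, r) := hΦ.comp (by fun_prop)
  have e : (∫ r in (0 : ℝ)..(0 + h), Φ (0 + h, r)) - (∫ r in (0 : ℝ)..0, Φ (0, r)) - h • Φ (0, 0)
      = ∫ r in (0 : ℝ)..h, (Φ (h, r) - Φ (0, 0)) := by
    rw [intervalIntegral.integral_sub (c.intervalIntegrable _ _) intervalIntegrable_const]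
    simp
  rw [e]
  have := intervalIntegral.norm_integral_le_of_norm_le_const (a := 0) (b := h) (C := ε)
    (f := fun r => Φ (h, r) - Φ (0, 0)) fun r hr => by
      rw [← dist_eq_norm]
      refine (hd ?_).le
      have h1 := Set.abs_sub_left_of_mem_uIcc (Set.uIoc_subset_uIcc hr)
      rw [sub_zero, sub_zero] at h1
      rw [Prod.dist_eq, max_lt_iff, Real.dist_eq, Real.dist_eq, sub_zero, sub_zero]
      exact ⟨hh, h1.trans_lt hh⟩
  simpa using this

theorem LA4_der {Eo : ℝ → X →L[ℂ] X} {a : ℝ} (hE : SG Eo a) {C : X →L[ℂ] X}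
    {W : ℝ → X →L[ℂ] X} (hW : Flo Eo C W) {l l' : X →L[ℂ] ℂ} (hl : Gen Eo l l') (x : X) {s : ℝ}
    (hs : 0 ≤ s) :
    HasDerivWithinAt (fun σ => l (W σ x)) (l' (W s x) + l (C (W s x))) (Set.Ici s) s := by
  set y := W s x with hy
  have hc : Continuous fun σ => W σ y := (hW.mild y).cont
  have h1 := LA4_int (Φ := fun p : ℝ × ℝ => Eo (p.1 - p.2) (C (W p.2 y)))
    (hE.cont.comp (f := fun p : ℝ × ℝ => (p.1 - p.2, C (W p.2 y))) (by fun_prop))
  simp only [sub_zero, hE.zero, hW.zero] at h1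
  have h2 := (l.restrictScalars ℝ).hasFDerivAt.comp_hasDerivAt 0 h1
  have h3 := (hl y).add h2.hasDerivWithinAt
  have h4 : HasDerivWithinAt (fun h => l (W h y)) (l' y + l (C y)) (Set.Ici 0) 0 := by
    have e : ∀ h ∈ Set.Ici (0 : ℝ), l (W h y)
        = l (Eo h y) + l (∫ r in (0 : ℝ)..h, Eo (h - r) (C (W r y))) := fun h hh => by
      have := (hW.mild y).eq h hh
      simp only [hW.zero] at this
      rw [this, map_add]
    exact h3.congr e (e 0 Set.self_mem_Ici)
  have h5 : HasDerivWithinAt (fun σ : ℝ => σ - s) 1 (Set.Ici s) s :=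
    ((hasDerivAt_id s).sub_const s).hasDerivWithinAt
  have h6 := HasDerivWithinAt.scomp_of_eq s h4 h5 (fun σ (hσ : s ≤ σ) => (sub_nonneg.2 hσ : 0 ≤ σ - s))
    (sub_self s).symm
  rw [one_smul] at h6
  have e : ∀ σ ∈ Set.Ici s, l (W σ x) = l (W (σ - s) y) := fun σ hσ => by
    rw [hy, ← hW.add _ _ (sub_nonneg.2 hσ) hs, sub_add_cancel]
  exact h6.congr e (e s Set.self_mem_Ici)

theorem LA4_lap {Eo : ℝ → X →L[ℂ] X} {a : ℝ} (hE : SG Eo a) {C : X →L[ℂ] X}
    {W : ℝ → X →L[ℂ] X} (hW : Flo Eo C W) {l l' : X →L[ℂ] ℂ} (hl : Gen Eo l l') (x : X) (z : ℂ) :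
    z * l (∫ s in (0 : ℝ)..1, Complex.exp (-z * s) • W s x)
      - l' (∫ s in (0 : ℝ)..1, Complex.exp (-z * s) • W s x)
      - l (C (∫ s in (0 : ℝ)..1, Complex.exp (-z * s) • W s x))
      = l x - Complex.exp (-z) * l (W 1 x) := by
  have hc : Continuous fun σ => W σ x := (hW.mild x).cont
  set L : X →L[ℂ] ℂ := (-z) • l + l' + l.comp C with hL
  have hi : IntervalIntegrable (fun s : ℝ => Complex.exp (-z * s) • W s x) volume 0 1 :=
    Continuous.intervalIntegrable (by fun_prop) _ _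
  have a := intervalIntegral.integral_eq_sub_of_hasDeriv_right_of_le zero_le_one
    (f := fun s : ℝ => Complex.exp (-z * s) * l (W s x))
    (f' := fun s : ℝ => L (Complex.exp (-z * s) • W s x)) (Continuous.continuousOn (by fun_prop))
    (fun s hs => ?_) (Continuous.intervalIntegrable (by fun_prop) _ _)
  · rw [L.intervalIntegral_comp_comm hi] at a
    simp only [hL, ContinuousLinearMap.add_apply, ContinuousLinearMap.smul_apply,
      ContinuousLinearMap.comp_apply, smul_eq_mul, ofReal_one, mul_one, ofReal_zero, mul_zero,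
      Complex.exp_zero, one_mul, hW.zero] at a
    linear_combination -a
  · have h1 : HasDerivAt (fun s : ℝ => Complex.exp (-z * s)) (Complex.exp (-z * s) * (-z * 1)) s :=
      (((hasDerivAt_id (s : ℂ)).const_mul (-z)).cexp).comp_ofReal
    have h2 := (h1.hasDerivWithinAt.fun_mul (LA4_der hE hW hl x hs.1.le)).mono Set.Ioi_subset_Ici_self
    refine h2.congr_deriv ?_
    simp only [hL, ContinuousLinearMap.add_apply, ContinuousLinearMap.smul_apply,
      ContinuousLinearMap.comp_apply, smul_eq_mul, map_smul]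
    ring

/-- weak mode stability of the generator passes to the time one map -/
theorem flo_eig {Eo : ℝ → X →L[ℂ] X} {a : ℝ} (hE : SG Eo a) {C : X →L[ℂ] X}
    {W : ℝ → X →L[ℂ] X} (hW : Flo Eo C W) (G : Submodule ℂ X) [FiniteDimensional ℂ G]
    (H : WMS Eo C G) (μ : ℂ) (x : X) (hμ : 1 ≤ ‖μ‖) (hx : W 1 x - μ • x ∈ G) : x ∈ G := by
  have μ0 : μ ≠ 0 := norm_pos_iff.1 (by linarith)
  have hc : Continuous fun σ => W σ x := (hW.mild x).cont
  have hF : ∀ k : ℤ, (∫ s in (0 : ℝ)..1,
      Complex.exp (-(Complex.log μ + 2 * Real.pi * I * k) * s) • W s x) ∈ G := fun k => by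
    refine H (Complex.log μ + 2 * Real.pi * I * k) _ ((-μ⁻¹) • (W 1 x - μ • x)) ?_
      (G.smul_mem _ hx) fun l l' hl => ?_
    · have := Real.log_nonneg hμ
      simpa [Complex.log_re] using this
    · rw [LA4_lap hE hW hl]
      have e : Complex.exp (-(Complex.log μ + 2 * Real.pi * I * k)) = μ⁻¹ := by
        rw [Complex.exp_neg, Complex.exp_add, Complex.exp_log μ0, mul_comm _ (k : ℂ),
          Complex.exp_int_mul_two_pi_mul_I, mul_one]
      rw [e]
      simp only [map_smul, map_sub, smul_eq_mul]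
      field_simp
      ring
  by_contra hn
  obtain ⟨ψ, u, h1, h2⟩ := RCLike.geometric_hahn_banach_closed_point (𝕜 := ℂ)
    (s := (G : Set X)) (G.restrictScalars ℝ).convex G.closed_of_finiteDimensional hn
  have z : ∀ g ∈ G, ψ g = 0 := fun g hg => by
    by_contra h0
    have := h1 _ (G.smul_mem (((|u| + 1 : ℝ) : ℂ) / ψ g) hg)
    rw [map_smul, smul_eq_mul, div_mul_cancel₀ _ h0, RCLike.re_to_complex, ofReal_re] at this
    linarith [le_abs_self u]
  have u0 : 0 < u := by simpa using h1 0 G.zero_mem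
  have key := fourier_zero (fun s => Complex.exp (-Complex.log μ * s) * ψ (W s x))
    (by fun_prop) fun k => by
      have a := z _ (hF k)
      rw [← ψ.intervalIntegral_comp_comm (Continuous.intervalIntegrable (by fun_prop) _ _)] at a
      rw [← a]
      refine intervalIntegral.integral_congr fun s _ => ?_
      simp only [map_smul, smul_eq_mul]
      rw [← mul_assoc, ← Complex.exp_add]
      congr 2
      ring
  simp only [ofReal_zero, mul_zero, Complex.exp_zero, one_mul, hW.zero] at key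
  rw [key] at h2
  simp only [map_zero] at h2
  linarith

end Vale.Agent.P139
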