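import Vale.Agent.P139.LA2
import Vale.Agent.P139.LA3
import Vale.Agent.P139.LA4

open Complex MeasureTheory Filter Topology
open scoped ComplexConjugate ContDiff

namespace Vale.Agent.P139

variable {X : Type*} [NormedAddCommGroup X] [NormedSpace ℝ X] [NormedSpace ℂ X]
  [IsScalarTower ℝ ℂ X] [CompleteSpace X]

theorem abs_main {Eo : ℝ → X →L[ℂ] X} {a : ℝ} (hE : SG Eo a) (ha : 0 ≤ a)
    {C Clo Chi : X →L[ℂ] X} (hC : C = Clo + Chi)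
    (hlo : IsCompactOperator Clo) {A κ : ℝ} (hA : ‖C‖ ≤ A) (hκ : 0 < κ)
    (hhi : ∀ s ∈ Set.Icc (0 : ℝ) 1, ∀ x, ‖Eo s (Chi x)‖ ≤ A * Real.exp (-κ * s) * ‖x‖)
    (hsm : Real.exp (-a) + A * Real.exp A / κ < 1) (G : Submodule ℂ X) [FiniteDimensional ℂ G]
    (H : WMS Eo C G) : ∃ C0 θ : ℝ, 0 ≤ C0 ∧ 0 < θ ∧ θ ≤ 1 ∧ ∀ x, ∃ e ∈ G, ‖e‖ ≤ C0 * ‖x‖ ∧
      ∃ η : ℝ → X, Mild Eo C η ∧ η 0 = x - e ∧
        ∀ σ, 0 ≤ σ → ‖η σ‖ ≤ C0 * Real.exp (-θ * σ) * ‖x‖ := by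
  obtain ⟨W, hW⟩ := exists_flo hE ha C
  obtain ⟨R, B, hT, hB, hR⟩ := flo_split hE ha hW hC hlo hA hκ hhi
  obtain ⟨C1, t, hC1, ht0, ht1, Hs⟩ := abs_split (W 1) R B hT (hR.trans_lt hsm) hB G
    fun μ x hμ hx => flo_eig hE hW G H μ x hμ hx
  have hpow : ∀ (n : ℕ) (y : X), W n y = (W 1 ^ n) y := by
    intro n
    induction n with
    | zero => intro y; simpa using hW.zero y
    | succ n ih =>
      intro y
      rw [Nat.cast_succ, add_comm, hW.add 1 n zero_le_one (Nat.cast_nonneg _), ih, pow_succ']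
      rfl
  have hlog : 0 < -Real.log t := neg_pos.2 (Real.log_neg ht0 ht1)
  set θ : ℝ := min 1 (-Real.log t) with hθ
  have hθ0 : 0 < θ := lt_min one_pos hlog
  have hθ1 : θ ≤ 1 := min_le_left _ _
  have htθ : t ≤ Real.exp (-θ) := by
    rw [← Real.exp_log ht0]
    refine Real.exp_le_exp.2 ?_
    have := min_le_right 1 (-Real.log t)
    linarith
  have e1 : 1 ≤ Real.exp (‖C‖ + 1) := Real.one_le_exp (by positivity)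
  refine ⟨Real.exp (‖C‖ + 1) * C1, θ, by positivity, hθ0, hθ1, fun x => ?_⟩
  obtain ⟨e, heG, he, hn⟩ := Hs x
  refine ⟨e, heG, he.trans ?_, fun σ => W σ (x - e), hW.mild _, hW.zero _, fun σ hσ => ?_⟩
  · gcongr
    exact le_mul_of_one_le_left hC1 e1
  · have f1 : (⌊σ⌋₊ : ℝ) ≤ σ := Nat.floor_le hσ
    have f2 : σ < ⌊σ⌋₊ + 1 := Nat.lt_floor_add_one σ
    have e2 : W σ (x - e) = W (σ - ⌊σ⌋₊) ((W 1 ^ ⌊σ⌋₊) (x - e)) := by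
      rw [← hpow, ← hW.add _ _ (by linarith) (Nat.cast_nonneg _), sub_add_cancel]
    have e3 : ‖W (σ - ⌊σ⌋₊)‖ ≤ Real.exp ‖C‖ :=
      (hW.norm _ (by linarith)).trans (Real.exp_le_exp.2
        (mul_le_of_le_one_right (norm_nonneg _) (by linarith)))
    have e4 : t ^ ⌊σ⌋₊ ≤ Real.exp 1 * Real.exp (-θ * σ) := by
      calc t ^ ⌊σ⌋₊ ≤ Real.exp (-θ) ^ ⌊σ⌋₊ := by gcongr
        _ = Real.exp (⌊σ⌋₊ * (-θ)) := (Real.exp_nat_mul _ _).symm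
        _ ≤ _ := by
          rw [← Real.exp_add]
          refine Real.exp_le_exp.2 ?_
          nlinarith
    show ‖W σ (x - e)‖ ≤ _
    rw [e2]
    calc ‖W (σ - ⌊σ⌋₊) ((W 1 ^ ⌊σ⌋₊) (x - e))‖
        ≤ ‖W (σ - ⌊σ⌋₊)‖ * ‖(W 1 ^ ⌊σ⌋₊) (x - e)‖ := (W _).le_opNorm _
      _ ≤ Real.exp ‖C‖ * (C1 * t ^ ⌊σ⌋₊ * ‖x‖) := by gcongr; exact hn _
      _ ≤ Real.exp ‖C‖ * (C1 * (Real.exp 1 * Real.exp (-θ * σ)) * ‖x‖) := by gcongr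
      _ = _ := by rw [Real.exp_add]; ring

end Vale.Agent.P139
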