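import Vale.Agent.P139.LOp
import Vale.Agent.P139.LA0

open Complex MeasureTheory Filter Topology
open scoped ComplexConjugate ContDiff

namespace Vale.Agent.P139

theorem lcv_cont {K : ℕ} {M : ℝ} (hM : 1 ≤ M) (k : XS K M) : Continuous fun η => tr K M η k :=
  (tr_cont K hM).comp (f := fun η : E => (η, k)) (continuous_id.prodMk continuous_const)

theorem lcv_bd {K : ℕ} {M : ℝ} (hM : 1 ≤ M) (k x : XS K M) (η : E) :
    ‖(x η : ℂ) • tr K M η k‖ ≤ ‖k‖ * (wt K M η * ‖x η‖) := by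
  have h1 : ‖tr K M η k‖ ≤ wt K M η * ‖k‖ :=
    (tr K M η).le_of_opNorm_le (tr_norm K hM η) k
  rw [norm_smul]
  refine (mul_le_mul_of_nonneg_left h1 (norm_nonneg _)).trans_eq ?_
  ring

theorem lcv_le {K : ℕ} {M : ℝ} (hM : 1 ≤ M) (x : XS K M) {g : E → XS K M} {S : Set E} {B : ℝ}
    (hB : 0 ≤ B) (h : ∀ᵐ η ∂(volume.restrict S), ‖g η‖ ≤ B * (wt K M η * ‖x η‖)) :
    ‖∫ η in S, g η‖ ≤ B * ‖x‖ := by
  obtain ⟨h1, h2⟩ := XS_wint hM x
  refine (norm_integral_le_of_norm_le (h1.const_mul B).integrableOn h).trans ?_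
  rw [integral_const_mul, h2]
  refine mul_le_mul_of_nonneg_left (setIntegral_le_integral h1 (Eventually.of_forall fun η => ?_))
    hB
  exact mul_nonneg (alg_wt_nonneg K (one_pos.trans_le hM) η) (norm_nonneg _)

theorem cv_int {K : ℕ} {M : ℝ} (hM : 1 ≤ M) (k x : XS K M) :
    Integrable fun η => (x η : ℂ) • tr K M η k :=
  ((XS_wint hM x).1.const_mul ‖k‖).mono'
    ((XS_aesm hM x).smul (lcv_cont hM k).aestronglyMeasurable)
    (Eventually.of_forall (lcv_bd hM k x))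

theorem cvS_spec {K : ℕ} {M : ℝ} (hM : 1 ≤ M) (k : XS K M) (S : Set E) :
    IsCv k S (cvS k S) := by
  refine Classical.epsilon_spec (p := IsCv k S) ⟨LinearMap.mkContinuous
    ⟨⟨fun x => ∫ η in S, (x η : ℂ) • tr K M η k, fun x y => ?_⟩, fun c x => ?_⟩ ‖k‖
    fun x => lcv_le hM x (norm_nonneg k) (Eventually.of_forall (lcv_bd hM k x)), fun _ => rfl⟩
  · rw [← integral_add (cv_int hM k x).integrableOn (cv_int hM k y).integrableOn]
    refine integral_congr_ae (ae_restrict_of_ae ?_)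
    filter_upwards [XS_add hM x y] with η h
    rw [h, add_smul]
  · simp only [RingHom.id_apply]
    rw [← integral_smul]
    refine integral_congr_ae (ae_restrict_of_ae ?_)
    filter_upwards [XS_smul hM c x] with η h
    rw [h, mul_smul]

theorem cvS_norm {K : ℕ} {M : ℝ} (hM : 1 ≤ M) (k : XS K M) (S : Set E) (x : XS K M) :
    ‖cvS k S x‖ ≤ ‖k‖ * ‖x‖ := by
  rw [cvS_spec hM k S x]
  exact lcv_le hM x (norm_nonneg k) (Eventually.of_forall (lcv_bd hM k x))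

theorem cvS_split {K : ℕ} {M : ℝ} (hM : 1 ≤ M) (k : XS K M) {S : Set E} (hS : MeasurableSet S) :
    cvS k Set.univ = cvS k S + cvS k Sᶜ := by
  refine ContinuousLinearMap.ext fun x => ?_
  rw [add_apply, cvS_spec hM k _ x, cvS_spec hM k _ x, cvS_spec hM k _ x,
    integral_add_compl hS (cv_int hM k x), Measure.restrict_univ]

theorem cvS_compact {K : ℕ} {M : ℝ} (hM : 1 ≤ M) (k : XS K M) (r : ℝ) :
    IsCompactOperator (cvS k (Metric.closedBall 0 r)) := by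
  obtain ⟨K', h1, h2⟩ := mazur_int (volume.restrict (Metric.closedBall (0 : E) r)) _
    ((isCompact_closedBall (0 : E) r).image (lcv_cont hM k))
  refine ⟨K', h1, mem_of_superset (Metric.closedBall_mem_nhds 0 one_pos) fun x hx => ?_⟩
  rw [Set.mem_preimage, cvS_spec hM k _ x]
  refine h2 _ _ (XS_int hM x).integrableOn (cv_int hM k x).integrableOn ?_
    (ae_restrict_of_forall_mem measurableSet_closedBall fun η hη => ⟨η, hη, rfl⟩)
  obtain ⟨h3, h4⟩ := XS_wint hM x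
  refine (setIntegral_le_integral (XS_int hM x).norm
    (Eventually.of_forall fun η => norm_nonneg _)).trans ?_
  refine (integral_mono (XS_int hM x).norm h3 fun η => ?_).trans
    (h4.symm.trans_le (mem_closedBall_zero_iff.1 hx))
  exact le_mul_of_one_le_left (norm_nonneg _) (one_le_wt K (one_pos.trans_le hM) η)

theorem cvS_high {K : ℕ} {M : ℝ} (hM : 1 ≤ M) (k : XS K M) {b : ℂ} (hb : 0 ≤ b.re) (ε : ℝ)
    {s : ℝ} (hs : s ∈ Set.Icc (0 : ℝ) 1) (x : XS K M) :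
    ‖Eop K M b ε s (cvS k (Metric.closedBall 0 (2 * M))ᶜ x)‖
      ≤ ‖k‖ * Real.exp (-(K / 4 : ℝ) * s) * ‖x‖ := by
  rw [cvS_spec hM k _ x, ← ContinuousLinearMap.integral_comp_comm _ (cv_int hM k x).integrableOn]
  refine lcv_le hM x (by positivity)
    (ae_restrict_of_forall_mem measurableSet_closedBall.compl fun η hη => ?_)
  have h1 : 2 * M < ‖η‖ := by simpa using hη
  have h2 : 1 / 2 ≤ Real.exp (-s / 2) := by linarith [Real.add_one_le_exp (-s / 2), hs.2]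
  have h3 : M ≤ ‖Real.exp (-s / 2) • η‖ := by
    rw [norm_smul, Real.norm_of_nonneg (Real.exp_pos _).le]
    nlinarith
  have h4 := (Eop_tr K hM hb ε hs.1 η k).trans
    (mul_le_mul_of_nonneg_right (wt_gain K hM hs.1 η h3) (norm_nonneg k))
  rw [map_smul, norm_smul]
  refine (mul_le_mul_of_nonneg_left h4 (norm_nonneg _)).trans_eq ?_
  ring

theorem Jop_cvS {K : ℕ} {M : ℝ} (hM : 1 ≤ M) (k : XS K M) (S : Set E) (x : XS K M) :
    Jop K M (cvS k S x) = cvS (Jop K M k) S (Jop K M x) := by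
  rw [cvS_spec hM k _ x, cvS_spec hM _ _ _,
    ← ContinuousLinearMap.integral_comp_comm _ (cv_int hM k x).integrableOn]
  refine integral_congr_ae (ae_restrict_of_ae ?_)
  filter_upwards [Jop_ae K hM x] with η h
  rw [map_smul, Jop_tr K hM, h]

theorem phys_cvS {K : ℕ} {M : ℝ} (hM : 1 ≤ M) (k x : XS K M) (y : E) :
    phys (cvS k Set.univ x) y = phys k y * phys x y := by
  obtain ⟨l, hl⟩ := exists_ev K hM y
  rw [← hl, cvS_spec hM k _ x, Measure.restrict_univ,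
    ← ContinuousLinearMap.integral_comp_comm _ (cv_int hM k x), phys.eq_1 x, ← integral_const_mul]
  refine integral_congr_ae (Eventually.of_forall fun η => ?_)
  beta_reduce
  rw [map_smul, hl, phys_tr K hM, smul_eq_mul]
  ring

theorem lcv_pair {K : ℕ} {M : ℝ} {a b : XS K M} {u : ℂ} (hu : ‖u‖ = 1) {B : ℝ} (ha : ‖a‖ ≤ B)
    (hb : ‖b‖ ≤ B) : ‖u • (a + b)‖ ≤ 2 * B := by
  rw [norm_smul, hu, one_mul]
  linarith [norm_add_le a b]

theorem CC_norm {K : ℕ} {M : ℝ} (hM : 1 ≤ M) {k1 k2 k3 : XS K M} {A : ℝ} (h1 : ‖k1‖ ≤ A)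
    (h2 : ‖k2‖ ≤ A) (h3 : ‖k3‖ ≤ A) (S : Set E) : ‖CC k1 k2 k3 S‖ ≤ 2 * A := by
  have hA := (norm_nonneg _).trans h1
  have h : ∀ {k y : XS K M} {B : ℝ}, ‖k‖ ≤ A → ‖y‖ ≤ B → ‖cvS k S y‖ ≤ A * B :=
    fun hk hy => (cvS_norm hM _ S _).trans (mul_le_mul hk hy (norm_nonneg _) hA)
  refine ContinuousLinearMap.opNorm_le_bound _ (by positivity) fun x => ?_
  rw [CC_apply, mul_assoc, norm_prod_le_iff]
  exact ⟨lcv_pair (by simp) (h h1 (norm_fst_le x)) (h h2 (norm_snd_le x)),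
    lcv_pair (by simp) (h h1 (norm_snd_le x)) (h h3 (norm_fst_le x))⟩

theorem CC_split {K : ℕ} {M : ℝ} (hM : 1 ≤ M) (k1 k2 k3 : XS K M) {S : Set E}
    (hS : MeasurableSet S) : CC k1 k2 k3 Set.univ = CC k1 k2 k3 S + CC k1 k2 k3 Sᶜ := by
  refine ContinuousLinearMap.ext fun x => ?_
  rw [add_apply, CC_apply, CC_apply, CC_apply, cvS_split hM k1 hS,
    cvS_split hM k2 hS, cvS_split hM k3 hS, Prod.mk_add_mk, ← smul_add, ← smul_add]
  simp only [add_apply]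
  rw [add_add_add_comm (cvS k1 S x.1), add_add_add_comm (cvS k1 S x.2)]

theorem CC_compact {K : ℕ} {M : ℝ} (hM : 1 ≤ M) (k1 k2 k3 : XS K M) (r : ℝ) :
    IsCompactOperator (CC k1 k2 k3 (Metric.closedBall 0 r)) := by
  have h1 := fun k : XS K M =>
    (cvS_compact hM k r).comp_clm (ContinuousLinearMap.fst ℂ (XS K M) (XS K M))
  have h2 := fun k : XS K M =>
    (cvS_compact hM k r).comp_clm (ContinuousLinearMap.snd ℂ (XS K M) (XS K M))
  obtain ⟨A, hA, hA'⟩ := ((h1 k1).add (h2 k2)).smul (-I)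
  obtain ⟨B, hB, hB'⟩ := ((h2 k1).add (h1 k3)).smul I
  exact ⟨A ×ˢ B, hA.prod hB, mem_of_superset (inter_mem hA' hB') fun x hx => hx⟩

theorem CC_high {K : ℕ} {M : ℝ} (hM : 1 ≤ M) {k1 k2 k3 : XS K M} {A : ℝ} (h1 : ‖k1‖ ≤ A)
    (h2 : ‖k2‖ ≤ A) (h3 : ‖k3‖ ≤ A) (m : ℕ) (om : ℝ) {s : ℝ} (hs : s ∈ Set.Icc (0 : ℝ) 1)
    (x : XX K M) : ‖LEE K M m om s (CC k1 k2 k3 (Metric.closedBall 0 (2 * M))ᶜ x)‖
      ≤ 2 * A * Real.exp (-(K / 4 : ℝ) * s) * ‖x‖ := by
  have hA := (norm_nonneg _).trans h1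
  have h : ∀ {k y : XS K M} {b : ℂ} {ε : ℝ}, 0 ≤ b.re → ‖k‖ ≤ A → ‖y‖ ≤ ‖x‖ →
      ‖Eop K M b ε s (cvS k (Metric.closedBall 0 (2 * M))ᶜ y)‖ ≤
        A * Real.exp (-(K / 4 : ℝ) * s) * ‖x‖ :=
    fun hb hk hy => (cvS_high hM _ hb _ hs _).trans (mul_le_mul
      (mul_le_mul_of_nonneg_right hk (Real.exp_pos _).le) hy (norm_nonneg _) (by positivity))
  have ha : 0 ≤ aa m := by
    unfold aa
    positivity
  have hb1 : 0 ≤ (b1 m om).re := by simpa [b1] using ha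
  have hb2 : 0 ≤ (b2 m om).re := by simpa [b2] using ha
  rw [EE_apply, CC_apply, mul_assoc 2, mul_assoc 2, norm_prod_le_iff]
  simp only [map_smul, map_add]
  exact ⟨lcv_pair (by simp) (h hb1 h1 (norm_fst_le x)) (h hb1 h2 (norm_snd_le x)),
    lcv_pair (by simp) (h hb2 h1 (norm_snd_le x)) (h hb2 h3 (norm_fst_le x))⟩

end Vale.Agent.P139
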