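import Vale.Agent.P139.Alg

open Complex MeasureTheory Filter Topology
open scoped ComplexConjugate ContDiff

namespace Vale.Agent.P139

/-! ### abstract semigroups -/

section Abs
variable {X : Type*} [NormedAddCommGroup X] [NormedSpace ℝ X] [NormedSpace ℂ X]

/-- jointly continuous semigroup with decay rate a -/
structure SG (Eo : ℝ → X →L[ℂ] X) (a : ℝ) : Prop where
  zero : ∀ x, Eo 0 x = x
  add : ∀ s t, 0 ≤ s → 0 ≤ t → ∀ x, Eo (s + t) x = Eo s (Eo t x)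
  cont : Continuous fun p : ℝ × X => Eo p.1 p.2
  norm : ∀ s, 0 ≤ s → ‖Eo s‖ ≤ Real.exp (-a * s)

/-- mild solution of the perturbed equation -/
structure Mild (Eo : ℝ → X →L[ℂ] X) (C : X →L[ℂ] X) (η : ℝ → X) : Prop where
  cont : Continuous η
  eq : ∀ σ, 0 ≤ σ → η σ = Eo σ (η 0) + ∫ s in (0 : ℝ)..σ, Eo (σ - s) (C (η s))

/-- the perturbed semigroup -/
structure Flo (Eo : ℝ → X →L[ℂ] X) (C : X →L[ℂ] X) (W : ℝ → X →L[ℂ] X) : Prop where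
  mild : ∀ x, Mild Eo C fun σ => W σ x
  zero : ∀ x, W 0 x = x
  norm : ∀ σ, 0 ≤ σ → ‖W σ‖ ≤ Real.exp (‖C‖ * σ)
  add : ∀ s t, 0 ≤ s → 0 ≤ t → ∀ x, W (s + t) x = W s (W t x)

/-- l' is the image of l under the adjoint generator -/
def Gen (Eo : ℝ → X →L[ℂ] X) (l l' : X →L[ℂ] ℂ) : Prop :=
  ∀ y, HasDerivWithinAt (fun h : ℝ => l (Eo h y)) (l' y) (Set.Ici 0) 0

/-- weak mode stability modulo G -/
def WMS (Eo : ℝ → X →L[ℂ] X) (C : X →L[ℂ] X) (G : Submodule ℂ X) : Prop :=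
  ∀ (z : ℂ) (F g : X), 0 ≤ z.re → g ∈ G →
    (∀ l l', Gen Eo l l' → z * l F - l' F - l (C F) = l g) → F ∈ G

end Abs

/-! ### weighted L^1 spaces -/

noncomputable def muw (K : ℕ) (M : ℝ) : Measure E :=
  volume.withDensity fun ξ => ENNReal.ofReal (wt K M ξ)

abbrev XS (K : ℕ) (M : ℝ) : Type := ↥(Lp ℂ 1 (muw K M))

abbrev XX (K : ℕ) (M : ℝ) : Type := XS K M × XS K M

/-- weighted norm of a function -/
noncomputable def wn (K : ℕ) (M : ℝ) (f : E → ℂ) : ENNReal :=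
  ∫⁻ ξ, ENNReal.ofReal (wt K M ξ * ‖f ξ‖)

open Classical in
noncomputable def toX (K : ℕ) (M : ℝ) (f : E → ℂ) : XS K M :=
  if h : MemLp f 1 (muw K M) then h.toLp f else 0

/-- T acts by x -> m(.) x(c . - η) -/
def IsW {K K' : ℕ} {M : ℝ} (m : E → ℂ) (c : ℝ) (η : E) (T : XS K M →L[ℂ] XS K' M) : Prop :=
  ∀ x : XS K M, (T x : E → ℂ) =ᵐ[volume] fun ξ => m ξ * x (c • ξ - η)

noncomputable def wco (K K' : ℕ) (M : ℝ) (m : E → ℂ) (c : ℝ) (η : E) : XS K M →L[ℂ] XS K' M :=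
  Classical.epsilon (IsW m c η)

/-- multiplier of the free flow in similarity variables -/
noncomputable def Em (b : ℂ) (ε σ : ℝ) (ξ : E) : ℂ :=
  Complex.exp (-b * σ) * ((Real.exp (6 * σ) : ℝ) : ℂ) *
    Complex.exp (-I * ((ε * (Real.exp σ - 1) * ‖ξ‖ ^ 2 : ℝ) : ℂ))

/-- free flow in similarity variables; for b = 0, ε = 0 it is the dilation -/
noncomputable def Eop (K : ℕ) (M : ℝ) (b : ℂ) (ε σ : ℝ) : XS K M →L[ℂ] XS K M :=
  wco K K M (Em b ε σ) (Real.exp (σ / 2)) 0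

/-- translation -/
noncomputable def tr (K : ℕ) (M : ℝ) (η : E) : XS K M →L[ℂ] XS K M :=
  wco K K M (fun _ => 1) 1 η

/-- forgetting the weight -/
noncomputable def Jop (K : ℕ) (M : ℝ) : XS K M →L[ℂ] XS 0 M := wco K 0 M (fun _ => 1) 1 0

def IsCv {K : ℕ} {M : ℝ} (k : XS K M) (S : Set E) (T : XS K M →L[ℂ] XS K M) : Prop :=
  ∀ x : XS K M, T x = ∫ η in S, (x η : ℂ) • tr K M η k

/-- convolution of k with the part of x in S -/
noncomputable def cvS {K : ℕ} {M : ℝ} (k : XS K M) (S : Set E) : XS K M →L[ℂ] XS K M :=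
  Classical.epsilon (IsCv k S)

noncomputable def b1 (m : ℕ) (om : ℝ) : ℂ := (aa m : ℂ) - I * om

noncomputable def b2 (m : ℕ) (om : ℝ) : ℂ := (aa m : ℂ) + I * om

noncomputable def LEE (K : ℕ) (M : ℝ) (m : ℕ) (om : ℝ) (σ : ℝ) : XX K M →L[ℂ] XX K M :=
  (Eop K M (b1 m om) 1 σ).prodMap (Eop K M (b2 m om) (-1) σ)

noncomputable def CC {K : ℕ} {M : ℝ} (k1 k2 k3 : XS K M) (S : Set E) : XX K M →L[ℂ] XX K M :=
  ((-I) • ((cvS k1 S).comp (ContinuousLinearMap.fst ℂ _ _)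
      + (cvS k2 S).comp (ContinuousLinearMap.snd ℂ _ _))).prod
    (I • ((cvS k1 S).comp (ContinuousLinearMap.snd ℂ _ _)
      + (cvS k3 S).comp (ContinuousLinearMap.fst ℂ _ _)))

theorem EE_apply (K : ℕ) (M : ℝ) (m : ℕ) (om σ : ℝ) (x : XX K M) :
    LEE K M m om σ x = (Eop K M (b1 m om) 1 σ x.1, Eop K M (b2 m om) (-1) σ x.2) := rfl

theorem CC_apply {K : ℕ} {M : ℝ} (k1 k2 k3 : XS K M) (S : Set E) (x : XX K M) :
    CC k1 k2 k3 S x = ((-I) • (cvS k1 S x.1 + cvS k2 S x.2), I • (cvS k1 S x.2 + cvS k3 S x.1)) :=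
  rfl

/-- k is the Fourier density of g (the conclusion of f2) -/
def Dens (g k : E → ℂ) : Prop :=
  Measurable k ∧ (∀ K : ℕ, Integrable fun ξ => (1 + ‖ξ‖) ^ K * ‖k ξ‖) ∧
    phys k = g ∧ ∀ χ : E → ℝ, Cut χ → ∀ K : ℕ,
      Tendsto (fun h : ℝ => ∫⁻ ξ, ENNReal.ofReal
        ((1 + ‖ξ‖) ^ K * ‖Ih h (Kh χ g h) ξ - k ξ‖)) (𝓝[>] 0) (𝓝 0)

/-- the three potentials -/
noncomputable def g1 (m : ℕ) (w : ℝ → ℂ) : E → ℂ := rad (V1 m w)

noncomputable def g2 (m : ℕ) (w : ℝ → ℂ) : E → ℂ := rad (V2 m w)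

noncomputable def g3 (m : ℕ) (w : ℝ → ℂ) : E → ℂ := fun y => conj (rad (V2 m w) y)

/-! ### torus system in similarity variables -/

noncomputable def IX (K : ℕ) (M h : ℝ) (c : Z → ℂ) : XS K M := toX K M (Ih h c)

/-- scale at similarity time σ -/
noncomputable def hsg (h σ : ℝ) : ℝ := h * Real.exp (-σ / 2)

noncomputable def tm (b : ℂ) (ε h s σ : ℝ) (n : Z) : ℂ :=
  Complex.exp (-b * ((σ - s : ℝ) : ℂ)) *
    Complex.exp (-I * ((ε * (Real.exp (-s) - Real.exp (-σ)) * (h ^ 2 * nsq n) : ℝ) : ℂ))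

/-- one component of the torus Duhamel equation in similarity time -/
structure TD (b : ℂ) (ε h S : ℝ) (c G : ℝ → Z → ℂ) : Prop where
  cc : ∀ n, ContinuousOn (fun σ => c σ n) (Set.Icc 0 S)
  cg : ∀ n, ContinuousOn (fun σ => G σ n) (Set.Icc 0 S)
  du : ∀ σ ∈ Set.Icc 0 S, ∀ n, c σ n = tm b ε h 0 σ n * c 0 n
    + ∫ s in (0 : ℝ)..σ, tm b ε h s σ n * G s n

/-- right side of one component -/
noncomputable def TG (u : ℂ) (χ : E → ℝ) (g g' : E → ℂ) (h : ℝ) (c c' f : ℝ → Z → ℂ) (s : ℝ) :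
    Z → ℂ :=
  u • (conv (Kh χ g (hsg h s)) (c s) + conv (Kh χ g' (hsg h s)) (c' s) + f s)

/-- the torus system in similarity time -/
structure TS (m : ℕ) (om : ℝ) (w : ℝ → ℂ) (χ : E → ℝ) (h S : ℝ) (c1 c2 f1 f2 : ℝ → Z → ℂ) :
    Prop where
  e1 : TD (b1 m om) 1 h S c1 (TG (-I) χ (g1 m w) (g2 m w) h c1 c2 f1)
  e2 : TD (b2 m om) (-1) h S c2 (TG I χ (g1 m w) (g3 m w) h c2 c1 f2)

/-- rescaling of a torus curve to similarity time -/
noncomputable def sim (b : ℂ) (z : ℝ → Z → ℂ) (σ : ℝ) : Z → ℂ :=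
  Complex.exp (-b * σ) • z (1 - Real.exp (-σ))

end Vale.Agent.P139
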