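import Vale.Agent.P139.LOp
import Vale.Agent.P139.F2

open Complex MeasureTheory Filter Topology
open scoped ComplexConjugate ContDiff

namespace Vale.Agent.P139

/-- the cell of a point -/
noncomputable def LI_fl (h : ℝ) (ξ : E) : Z := fun i => ⌊ξ i / h⌋

theorem LI_fl_meas (h : ℝ) : Measurable (LI_fl h) :=
  measurable_pi_lambda _ fun i => Int.measurable_floor.comp (by fun_prop)

theorem LI_cell {h : ℝ} (hh : 0 < h) (n : Z) :
    volume (LI_fl h ⁻¹' {n}) = ENNReal.ofReal (h ^ 12) := by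
  have e : LI_fl h ⁻¹' {n} = WithLp.ofLp ⁻¹'
      (Set.pi Set.univ fun i => Set.Ico ((n i : ℝ) * h) (((n i : ℝ) + 1) * h)) := by
    ext ξ
    simp only [Set.mem_preimage, Set.mem_singleton_iff, Set.mem_pi, Set.mem_univ, true_imp_iff,
      Set.mem_Ico, funext_iff, LI_fl, Int.floor_eq_iff, le_div_iff₀ hh, div_lt_iff₀ hh]
  rw [e, (PiLp.volume_preserving_ofLp (Fin 12)).measure_preimage
    (MeasurableSet.univ_pi fun i => measurableSet_Ico).nullMeasurableSet, Real.volume_pi_Ico]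
  have e2 : ∀ i : Fin 12, ((n i : ℝ) + 1) * h - (n i : ℝ) * h = h := fun i => by ring
  simp only [e2, Finset.prod_const, Finset.card_univ, Fintype.card_fin]
  rw [ENNReal.ofReal_pow hh.le]

theorem LI_core {h : ℝ} (hh : 0 < h) (F : Z → ENNReal) :
    ∫⁻ ξ, F (LI_fl h ξ) = ENNReal.ofReal (h ^ 12) * ∑' n, F n := by
  rw [← lintegral_map (measurable_of_countable F) (LI_fl_meas h), lintegral_countable',
    ← ENNReal.tsum_mul_left]
  refine tsum_congr fun n => ?_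
  rw [Measure.map_apply (LI_fl_meas h) (measurableSet_singleton n), LI_cell hh, mul_comm]

theorem LI_eq {h : ℝ} (hh : 0 < h) (w : Z → ℝ) (c : Z → ℂ) :
    ∫⁻ ξ, ENNReal.ofReal (w (LI_fl h ξ) * ‖Ih h c ξ‖) = ∑' n, ENNReal.ofReal (w n * ‖c n‖) := by
  have hp : 0 < h ^ 12 := pow_pos hh 12
  have e : ∀ ξ, ENNReal.ofReal (w (LI_fl h ξ) * ‖Ih h c ξ‖) =
      (fun n => ENNReal.ofReal (h ^ 12)⁻¹ * ENNReal.ofReal (w n * ‖c n‖)) (LI_fl h ξ) := by
    intro ξ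
    have e1 : ‖Ih h c ξ‖ = (h ^ 12)⁻¹ * ‖c (LI_fl h ξ)‖ := by
      rw [Ih, norm_mul, norm_inv, Complex.norm_real, Real.norm_of_nonneg hp.le]
      rfl
    simp only
    rw [e1, ← ENNReal.ofReal_mul (inv_nonneg.2 hp.le)]
    congr 1
    ring
  simp only [e]
  rw [LI_core hh fun n => ENNReal.ofReal (h ^ 12)⁻¹ * ENNReal.ofReal (w n * ‖c n‖),
    ENNReal.tsum_mul_left, ← mul_assoc, ← ENNReal.ofReal_mul hp.le, mul_inv_cancel₀ hp.ne',
    ENNReal.ofReal_one, one_mul]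

theorem LI_wt_near (K : ℕ) {M r : ℝ} (hM : 1 ≤ M) {ξ η : E} (h : ‖ξ - η‖ ≤ r) :
    wt K M ξ ≤ (1 + r) ^ K * wt K M η := by
  have hM0 : 0 < M := lt_of_lt_of_le one_pos hM
  have h1 := wt_add K hM0 (ξ - η) η
  rw [sub_add_cancel] at h1
  refine h1.trans (mul_le_mul_of_nonneg_right ?_ (alg_wt_nonneg K hM0 η))
  unfold wt
  have h2 : ‖ξ - η‖ / M ≤ r := (div_le_self (norm_nonneg _) hM).trans h
  exact pow_le_pow_left₀ (by positivity) (by linarith) K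

theorem LI_NN (K : ℕ) (M : ℝ) {h : ℝ} (hh : 0 < h) (c : Z → ℂ) :
    NN K M h c = ∫⁻ ξ, ENNReal.ofReal (wt K M (F2e h ξ) * ‖Ih h c ξ‖) :=
  (LI_eq hh (fun n => wt K M (h • zE n)) c).symm

theorem wn_Ih_le (K : ℕ) {M h : ℝ} (hM : 1 ≤ M) (hh : 0 < h) (c : Z → ℂ) :
    wn K M (Ih h c) ≤ ENNReal.ofReal ((1 + 4 * h) ^ K) * NN K M h c := by
  rw [LI_NN K M hh, ← lintegral_const_mul' _ _ ENNReal.ofReal_ne_top]
  refine lintegral_mono fun ξ => ?_
  rw [← ENNReal.ofReal_mul (by positivity), ← mul_assoc]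
  refine ENNReal.ofReal_le_ofReal (mul_le_mul_of_nonneg_right (LI_wt_near K hM ?_) (norm_nonneg _))
  rw [norm_sub_rev]
  exact F2e_near h hh ξ

theorem NN_le_wn (K : ℕ) {M h : ℝ} (hM : 1 ≤ M) (hh : 0 < h) (c : Z → ℂ) :
    NN K M h c ≤ ENNReal.ofReal ((1 + 4 * h) ^ K) * wn K M (Ih h c) := by
  rw [LI_NN K M hh, wn, ← lintegral_const_mul' _ _ ENNReal.ofReal_ne_top]
  refine lintegral_mono fun ξ => ?_
  rw [← ENNReal.ofReal_mul (by positivity), ← mul_assoc]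
  exact ENNReal.ofReal_le_ofReal (mul_le_mul_of_nonneg_right
    (LI_wt_near K hM (F2e_near h hh ξ)) (norm_nonneg _))

theorem NN_zero (M h : ℝ) (c : Z → ℂ) (hc : Summable fun n => ‖c n‖) :
    NN 0 M h c = ENNReal.ofReal (∑' n, ‖c n‖) := by
  rw [ENNReal.ofReal_tsum_of_nonneg (fun n => norm_nonneg _) hc, NN]
  simp only [wt, pow_zero, one_mul]

theorem NN_zero_le (K : ℕ) {M : ℝ} (hM : 1 ≤ M) (h : ℝ) (c : Z → ℂ) :
    NN 0 M h c ≤ NN K M h c := by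
  refine ENNReal.tsum_le_tsum fun n => ENNReal.ofReal_le_ofReal
    (mul_le_mul_of_nonneg_right ?_ (norm_nonneg _))
  rw [wt, pow_zero]
  exact one_le_wt K (lt_of_lt_of_le one_pos hM) _

theorem LI_wn_ne (K : ℕ) {M h : ℝ} (hM : 1 ≤ M) (hh : 0 < h) {c : Z → ℂ} (hc : NN K M h c ≠ ⊤) :
    wn K M (Ih h c) ≠ ⊤ :=
  ne_top_of_le_ne_top (ENNReal.mul_ne_top ENNReal.ofReal_ne_top hc) (wn_Ih_le K hM hh c)

theorem IX_ae (K : ℕ) {M h : ℝ} (hM : 1 ≤ M) (hh : 0 < h) {c : Z → ℂ} (hc : NN K M h c ≠ ⊤) :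
    (IX K M h c : E → ℂ) =ᵐ[volume] Ih h c :=
  toX_ae hM (F2_Ihm h c).aestronglyMeasurable (LI_wn_ne K hM hh hc)

theorem IX_norm (K : ℕ) {M h : ℝ} (hM : 1 ≤ M) (hh : 0 < h) {c : Z → ℂ} {B : ℝ} (hB : 0 ≤ B)
    (hc : NN K M h c ≤ ENNReal.ofReal B) : ‖IX K M h c‖ ≤ (1 + 4 * h) ^ K * B := by
  have hne : NN K M h c ≠ ⊤ := ne_top_of_le_ne_top ENNReal.ofReal_ne_top hc
  rw [← ENNReal.ofReal_le_ofReal_iff (by positivity), XS_norm hM, wn_congr K M (IX_ae K hM hh hne),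
    ENNReal.ofReal_mul (by positivity)]
  exact (wn_Ih_le K hM hh c).trans (mul_le_mul_right hc _)

theorem IX0_ae {M h : ℝ} (hM : 1 ≤ M) (hh : 0 < h) {c : Z → ℂ} (hc : Summable fun n => ‖c n‖) :
    (IX 0 M h c : E → ℂ) =ᵐ[volume] Ih h c :=
  IX_ae 0 hM hh (by rw [NN_zero M h c hc]; exact ENNReal.ofReal_ne_top)

theorem IX0_norm {M h : ℝ} (hM : 1 ≤ M) (hh : 0 < h) {c : Z → ℂ}
    (hc : Summable fun n => ‖c n‖) : ‖IX 0 M h c‖ = ∑' n, ‖c n‖ := by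
  rw [← ENNReal.ofReal_eq_ofReal_iff (norm_nonneg _) (tsum_nonneg fun n => norm_nonneg _),
    XS_norm hM, wn_congr 0 M (IX0_ae hM hh hc), ← NN_zero M h c hc]
  refine le_antisymm ?_ ?_
  · simpa using wn_Ih_le 0 hM hh c
  · simpa using NN_le_wn 0 hM hh c

theorem LI_sum_add {c d : Z → ℂ} (hc : Summable fun n => ‖c n‖) (hd : Summable fun n => ‖d n‖) :
    Summable fun n => ‖(c + d) n‖ :=
  Summable.of_nonneg_of_le (fun _ => norm_nonneg _) (fun n => norm_add_le (c n) (d n)) (hc.add hd)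

theorem LI_sum_sub {c d : Z → ℂ} (hc : Summable fun n => ‖c n‖) (hd : Summable fun n => ‖d n‖) :
    Summable fun n => ‖(c - d) n‖ :=
  Summable.of_nonneg_of_le (fun _ => norm_nonneg _) (fun n => norm_sub_le (c n) (d n)) (hc.add hd)

theorem LI_sum_smul (u : ℂ) {c : Z → ℂ} (hc : Summable fun n => ‖c n‖) :
    Summable fun n => ‖(u • c) n‖ := by
  simpa using hc.mul_left ‖u‖

theorem IX0_add {M h : ℝ} (hM : 1 ≤ M) (hh : 0 < h) {c d : Z → ℂ}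
    (hc : Summable fun n => ‖c n‖) (hd : Summable fun n => ‖d n‖) :
    IX 0 M h (c + d) = IX 0 M h c + IX 0 M h d := by
  refine XS_ext hM ?_
  filter_upwards [IX0_ae hM hh (LI_sum_add hc hd), XS_add hM (IX 0 M h c) (IX 0 M h d),
    IX0_ae hM hh hc, IX0_ae hM hh hd] with ξ h1 h2 h3 h4
  rw [h1, h2, h3, h4]
  simp only [Ih, Pi.add_apply, mul_add]

theorem IX0_sub {M h : ℝ} (hM : 1 ≤ M) (hh : 0 < h) {c d : Z → ℂ}
    (hc : Summable fun n => ‖c n‖) (hd : Summable fun n => ‖d n‖) :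
    IX 0 M h (c - d) = IX 0 M h c - IX 0 M h d := by
  refine XS_ext hM ?_
  filter_upwards [IX0_ae hM hh (LI_sum_sub hc hd), XS_sub hM (IX 0 M h c) (IX 0 M h d),
    IX0_ae hM hh hc, IX0_ae hM hh hd] with ξ h1 h2 h3 h4
  rw [h1, h2, h3, h4]
  simp only [Ih, Pi.sub_apply, mul_sub]

theorem IX0_smul {M h : ℝ} (hM : 1 ≤ M) (hh : 0 < h) (u : ℂ) {c : Z → ℂ}
    (hc : Summable fun n => ‖c n‖) : IX 0 M h (u • c) = u • IX 0 M h c := by
  refine XS_ext hM ?_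
  filter_upwards [IX0_ae hM hh (LI_sum_smul u hc), XS_smul hM u (IX 0 M h c),
    IX0_ae hM hh hc] with ξ h1 h2 h3
  rw [h1, h2, h3]
  simp only [Ih, Pi.smul_apply, smul_eq_mul]
  ring

theorem Jop_IX (K : ℕ) {M h : ℝ} (hM : 1 ≤ M) (hh : 0 < h) {c : Z → ℂ} (hc : NN K M h c ≠ ⊤) :
    Jop K M (IX K M h c) = IX 0 M h c :=
  Jop_toX K hM (F2_Ihm h c).aestronglyMeasurable (LI_wn_ne K hM hh hc)

theorem LI_dil (h σ : ℝ) (c : Z → ℂ) (ξ : E) :
    Ih (hsg h σ) c ξ = Em 0 0 σ ξ * Ih h c (Real.exp (σ / 2) • ξ) := by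
  have e0 : Real.exp (-σ / 2) = (Real.exp (σ / 2))⁻¹ := by rw [neg_div, Real.exp_neg]
  have e1 : (fun i => ⌊ξ i / hsg h σ⌋) = fun i => ⌊(Real.exp (σ / 2) • ξ) i / h⌋ := by
    funext i
    congr 1
    rw [hsg, e0, PiLp.smul_apply, smul_eq_mul, ← div_eq_mul_inv, div_div_eq_mul_div, mul_comm]
  have e2 : (hsg h σ ^ 12)⁻¹ = Real.exp (6 * σ) * (h ^ 12)⁻¹ := by
    rw [hsg, mul_pow, mul_inv, e0, inv_pow, inv_inv, ← Real.exp_nat_mul, mul_comm]
    congr 2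
    push_cast
    ring
  rw [Ih, Ih, e1, ← Complex.ofReal_inv, e2, Em]
  simp only [neg_zero, zero_mul, Complex.exp_zero, one_mul, Complex.ofReal_zero, mul_zero, mul_one]
  rw [Complex.ofReal_mul, Complex.ofReal_inv, mul_assoc]

/-- change of scale is a dilation -/
theorem IX0_hsg {M h : ℝ} (hM : 1 ≤ M) (hh : 0 < h) (σ : ℝ) {c : Z → ℂ}
    (hc : Summable fun n => ‖c n‖) : IX 0 M (hsg h σ) c = Eop 0 M 0 0 σ (IX 0 M h c) := by
  have hs : 0 < hsg h σ := mul_pos hh (Real.exp_pos _)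
  refine XS_ext hM ?_
  have hq := (Measure.quasiMeasurePreserving_smul (volume : Measure E)
    (Real.exp_pos (σ / 2)).ne').ae_eq_comp (IX0_ae hM hh hc)
  filter_upwards [IX0_ae hM hs hc, Eop_ae 0 hM 0 0 σ (IX 0 M h c), hq] with ξ h1 h2 h3
  rw [h1, h2, LI_dil]
  exact congrArg (fun z => Em 0 0 σ ξ * z) h3.symm

/-- l^1-continuous curves -/
theorem IX0_cont {M h : ℝ} (hM : 1 ≤ M) (hh : 0 < h) (T : Set ℝ) (g : ℝ → Z → ℂ)
    (hs : ∀ s ∈ T, Summable fun n => ‖g s n‖)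
    (hc : ∀ s ∈ T, Tendsto (fun s' => ∑' n, ‖g s' n - g s n‖) (𝓝[T] s) (𝓝 0)) :
    ContinuousOn (fun s => IX 0 M h (g s)) T := by
  intro s hsT
  refine tendsto_iff_norm_sub_tendsto_zero.2 ((hc s hsT).congr' ?_)
  filter_upwards [self_mem_nhdsWithin] with s' hs'
  rw [← IX0_sub hM hh (hs s' hs') (hs s hsT), IX0_norm hM hh (LI_sum_sub (hs s' hs') (hs s hsT))]
  rfl

/-- summable sequences -/
abbrev LI_l1 : Type := lp (fun _ : Z => ℂ) 1

theorem LI_l1_sum (f : LI_l1) : Summable fun n => ‖f n‖ := by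
  simpa using f.2.summable (p := 1) (by simp)

theorem LI_l1_norm (f : LI_l1) : ‖f‖ = ∑' n, ‖f n‖ := by
  rw [lp.norm_eq_tsum_rpow (by simp) f]
  simp

open Classical in
/-- a sequence as an element of l^1 -/
noncomputable def LI_mk (c : Z → ℂ) : LI_l1 :=
  if h : Summable fun n => ‖c n‖ then ⟨c, memℓp_gen (by simpa using h)⟩ else 0

theorem LI_mk_coe {c : Z → ℂ} (hc : Summable fun n => ‖c n‖) : (LI_mk c : Z → ℂ) = c := by
  rw [LI_mk, dif_pos hc]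

/-- the density as an operator on l^1 -/
noncomputable def LI_op {M h : ℝ} (hM : 1 ≤ M) (hh : 0 < h) : LI_l1 →L[ℂ] XS 0 M :=
  LinearMap.mkContinuous
    { toFun := fun f => IX 0 M h f
      map_add' := fun f g => IX0_add hM hh (LI_l1_sum f) (LI_l1_sum g)
      map_smul' := fun u f => IX0_smul hM hh u (LI_l1_sum f) } 1
    fun f => by
      rw [one_mul, LI_l1_norm]
      exact (IX0_norm hM hh (LI_l1_sum f)).le

theorem IX0_int {M h σ : ℝ} (hM : 1 ≤ M) (hh : 0 < h) (hσ : 0 ≤ σ) (g : ℝ → Z → ℂ)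
    (hs : ∀ s ∈ Set.Icc 0 σ, Summable fun n => ‖g s n‖)
    (hc : ∀ s ∈ Set.Icc 0 σ,
      Tendsto (fun s' => ∑' n, ‖g s' n - g s n‖) (𝓝[Set.Icc 0 σ] s) (𝓝 0)) :
    (Summable fun n => ‖∫ s in (0 : ℝ)..σ, g s n‖) ∧
      IX 0 M h (fun n => ∫ s in (0 : ℝ)..σ, g s n) = ∫ s in (0 : ℝ)..σ, IX 0 M h (g s) := by
  have hcont : ContinuousOn (fun s => LI_mk (g s)) (Set.Icc 0 σ) := by
    intro s hsT
    refine tendsto_iff_norm_sub_tendsto_zero.2 ((hc s hsT).congr' ?_)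
    filter_upwards [self_mem_nhdsWithin] with s' hs'
    rw [LI_l1_norm, lp.coeFn_sub, LI_mk_coe (hs s' hs'), LI_mk_coe (hs s hsT)]
    rfl
  have hu : Set.uIcc 0 σ = Set.Icc 0 σ := Set.uIcc_of_le hσ
  have hint : IntervalIntegrable (fun s => LI_mk (g s)) volume 0 σ :=
    ContinuousOn.intervalIntegrable (by rwa [hu])
  have hv : ((∫ s in (0 : ℝ)..σ, LI_mk (g s) : LI_l1) : Z → ℂ) =
      fun n => ∫ s in (0 : ℝ)..σ, g s n := by
    funext n
    have h1 := (lp.evalCLM ℂ (fun _ : Z => ℂ) 1 n).intervalIntegral_comp_comm hint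
    refine Eq.trans h1.symm (intervalIntegral.integral_congr fun s hsT => ?_)
    exact congrFun (LI_mk_coe (hs s (hu ▸ hsT))) n
  constructor
  · have h1 := LI_l1_sum (∫ s in (0 : ℝ)..σ, LI_mk (g s))
    rwa [hv] at h1
  · rw [← hv]
    have h1 := (LI_op hM hh).intervalIntegral_comp_comm hint
    refine Eq.trans h1.symm (intervalIntegral.integral_congr fun s hsT => ?_)
    exact congrArg (IX 0 M h) (LI_mk_coe (hs s (hu ▸ hsT)))

end Vale.Agent.P139
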