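import Vale.Agent.P139.LI
import Vale.Agent.P139.LCv
import Vale.Agent.P139.F1

open Complex MeasureTheory Filter Topology
open scoped ComplexConjugate ContDiff

namespace Vale.Agent.P139

theorem LIc_h0 {p : ℝ → Prop} (h : ∀ᶠ t in 𝓝[>] (0 : ℝ), p t) :
    ∃ h0 : ℝ, 0 < h0 ∧ ∀ t : ℝ, 0 < t → t ≤ h0 → p t := by
  obtain ⟨u, hu, H⟩ := mem_nhdsGT_iff_exists_Ioc_subset.1 h
  exact ⟨u, hu, fun t h1 h2 => H ⟨h1, h2⟩⟩

theorem LIc_dens {g k : E → ℂ} (hk : Dens g k) {χ : E → ℝ} (hχ : Cut χ) (K : ℕ) {M : ℝ}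
    (hM : 1 ≤ M) {ε : ℝ} (hε : 0 < ε) : ∀ᶠ h in 𝓝[>] (0 : ℝ),
      wn K M (fun ξ => Ih h (Kh χ g h) ξ - k ξ) ≤ ENNReal.ofReal ε :=
  ((hk.2.2.2 χ hχ K).eventually (ge_mem_nhds (ENNReal.ofReal_pos.2 hε))).mono fun _ hh =>
    (wn_le_poly hM _).trans hh

/-- torus kernels are bounded by the continuum kernels -/
theorem ker_NN {g k : E → ℂ} (hk : Dens g k) {χ : E → ℝ} (hχ : Cut χ) (K : ℕ) {M : ℝ}
    (hM : 1 ≤ M) {A : ℝ} (hA : ‖toX K M k‖ ≤ A) : ∃ h0 : ℝ, 0 < h0 ∧ ∀ h : ℝ, 0 < h → h ≤ h0 →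
      NN K M h (Kh χ g h) ≤ ENNReal.ofReal (A + 1) := by
  have hA0 : 0 ≤ A := (norm_nonneg _).trans hA
  have h1 : wn K M k ≤ ENNReal.ofReal A := by
    rw [← wn_congr K M (hk.ae K hM), ← XS_norm hM]
    exact ENNReal.ofReal_le_ofReal hA
  have h2 : ∀ᶠ h in 𝓝[>] (0 : ℝ), (1 + 4 * h) ^ K * (1 / 2 + A) ≤ A + 1 := by
    have hc : Continuous fun h : ℝ => (1 + 4 * h) ^ K * (1 / 2 + A) := by fun_prop
    refine ((hc.tendsto 0).mono_left nhdsWithin_le_nhds).eventually (ge_mem_nhds ?_)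
    simp only [mul_zero, add_zero, one_pow, one_mul]
    linarith
  refine LIc_h0 ?_
  filter_upwards [h2, LIc_dens hk hχ K hM one_half_pos, self_mem_nhdsWithin] with h h2 h3 hh
  have hh : 0 < h := hh
  have h4 := wn_add (K := K) hM (f := fun ξ => Ih h (Kh χ g h) ξ - k ξ) (g := k)
    ((F2_Ihm h _).sub hk.1).aestronglyMeasurable
  simp only [sub_add_cancel] at h4
  refine (NN_le_wn K hM hh _).trans ((mul_le_mul_right (h4.trans (add_le_add h3 h1)) _).trans ?_)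
  rw [← ENNReal.ofReal_add one_half_pos.le hA0, ← ENNReal.ofReal_mul (by positivity)]
  exact ENNReal.ofReal_le_ofReal h2

theorem LIc_sum {M h : ℝ} (hM : 1 ≤ M) (hh : 0 < h) (a : Z → Z → ℂ)
    (ha : ∀ j, Summable fun n => ‖a j n‖) (s : Finset Z) :
    (Summable fun n => ‖(∑ j ∈ s, a j) n‖) ∧ IX 0 M h (∑ j ∈ s, a j) = ∑ j ∈ s, IX 0 M h (a j) := by
  classical
  induction s using Finset.induction_on with
  | empty =>
    refine ⟨by simpa using summable_zero, ?_⟩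
    have := IX0_smul hM hh 0 (ha 0)
    simpa using this
  | insert j s hj ih =>
    rw [Finset.sum_insert hj, Finset.sum_insert hj, IX0_add hM hh (ha j) ih.1, ih.2]
    exact ⟨Summable.of_nonneg_of_le (fun n => norm_nonneg _) (fun n => norm_add_le _ _)
      ((ha j).add ih.1), rfl⟩

theorem LIc_hasSum {M h : ℝ} (hM : 1 ≤ M) (hh : 0 < h) (a : Z → Z → ℂ)
    (hs : Summable fun p : Z × Z => ‖a p.1 p.2‖) :
    HasSum (fun j => IX 0 M h (a j)) (IX 0 M h fun n => ∑' j, a j n) := by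
  have ha : ∀ j, Summable fun n => ‖a j n‖ := hs.prod_factor
  have hb : ∀ n, Summable fun j => ‖a j n‖ := hs.prod_symm.prod_factor
  have hc : Summable fun n => ‖∑' j, a j n‖ :=
    Summable.of_nonneg_of_le (fun n => norm_nonneg _) (fun n => norm_tsum_le_tsum_norm (hb n))
      hs.prod_symm.prod
  rw [HasSum, tendsto_iff_norm_sub_tendsto_zero]
  refine squeeze_zero (fun s => norm_nonneg _) (fun s => ?_)
    (tendsto_tsum_compl_atTop_zero fun j => ∑' n, ‖a j n‖)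
  have h1 := LIc_sum hM hh a ha s
  have hs' : Summable fun p : {j // j ∉ s} × Z => ‖a p.1 p.2‖ :=
    hs.comp_injective (i := Prod.map Subtype.val id)
      (Subtype.val_injective.prodMap Function.injective_id)
  have h2 : ∀ n, ‖((∑ j ∈ s, a j) - fun n => ∑' j, a j n) n‖ ≤ ∑' j : {j // j ∉ s}, ‖a j n‖ := by
    intro n
    have h3 := (hb n).of_norm.sum_add_tsum_subtype_compl s
    rw [Pi.sub_apply, Finset.sum_apply, ← h3, sub_add_cancel_left, norm_neg]
    exact norm_tsum_le_tsum_norm (hs'.prod_symm.prod_factor n)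
  have h4 : Summable fun n => ‖((∑ j ∈ s, a j) - fun n => ∑' j, a j n) n‖ :=
    Summable.of_nonneg_of_le (fun n => norm_nonneg _) h2 hs'.prod_symm.prod
  rw [← h1.2, ← IX0_sub hM hh h1.1 hc, IX0_norm hM hh h4]
  exact (h4.tsum_le_tsum h2 hs'.prod_symm.prod).trans (le_of_eq hs'.tsum_comm)

theorem LIc_tr {M : ℝ} (hM : 1 ≤ M) (η : E) (x : XS 0 M) : ‖tr 0 M η x‖ ≤ ‖x‖ := by
  have h1 := tr_norm 0 hM η
  rw [wt_zero] at h1
  exact ((tr 0 M η).le_of_opNorm_le h1 x).trans (one_mul _).le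

theorem LIc_shift {M h : ℝ} (hM : 1 ≤ M) (hh : 0 < h) {a : Z → ℂ} (ha : Summable fun n => ‖a n‖)
    (j : Z) : IX 0 M h (fun n => a (n - j)) = tr 0 M (h • zE j) (IX 0 M h a) := by
  have h1 : Summable fun n => ‖a (n - j)‖ := (Equiv.subRight j).summable_iff.2 ha
  have h2 := (measurePreserving_sub_right (volume : Measure E)
    (h • zE j)).quasiMeasurePreserving.ae_eq_comp (IX0_ae hM hh ha)
  refine XS_ext hM ((IX0_ae hM hh h1).trans (EventuallyEq.symm
    ((tr_ae 0 hM _ _).trans (h2.trans (Eventually.of_forall fun ξ => ?_)))))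
  simp only [Function.comp, Ih]
  congr 2
  funext i
  have h3 : (ξ - h • zE j) i / h = ξ i / h - j i := by
    simp only [PiLp.sub_apply, PiLp.smul_apply, zE, smul_eq_mul]
    field_simp
  rw [h3, Int.floor_sub_intCast, Pi.sub_apply]

theorem LIc_cell {M h : ℝ} (hM : 1 ≤ M) (hh : 0 < h) (k : XS 0 M) {ε : ℝ} (hε : 0 ≤ ε)
    (hk : ∀ η : E, ‖η‖ ≤ 4 * h → ‖tr 0 M η k - k‖ ≤ ε) (j : Z) :
    ‖cvS k Set.univ (IX 0 M h (Pi.single j 1)) - tr 0 M (h • zE j) k‖ ≤ ε := by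
  have hs : HasSum (fun n => ‖(Pi.single j 1 : Z → ℂ) n‖) 1 := by
    have := hasSum_single (f := fun n => ‖(Pi.single j 1 : Z → ℂ) n‖) j fun n hn => by simp [hn]
    simpa using this
  have hae := IX0_ae hM hh hs.summable
  have hn := IX0_norm hM hh hs.summable
  rw [hs.tsum_eq] at hn
  generalize IX 0 M h (Pi.single j 1) = x at hae hn
  have hw := XS_wint hM x
  simp only [wt_zero, one_mul] at hw
  have h1 : ∫ η, x η = 1 := by
    have h2 : (x : E → ℂ) =ᵐ[volume] fun η => ((‖x η‖ : ℝ) : ℂ) := by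
      filter_upwards [hae] with η hη
      rw [hη, Ih, Pi.single_apply]
      split_ifs
      · rw [mul_one, ← ofReal_inv, norm_real, Real.norm_of_nonneg (by positivity)]
      · simp
    rw [integral_congr_ae h2, integral_complex_ofReal, ← hw.2, hn]
    rfl
  have h2 : cvS k Set.univ x - tr 0 M (h • zE j) k =
      ∫ η, ((x η : ℂ) • tr 0 M η k - (x η : ℂ) • tr 0 M (h • zE j) k) := by
    rw [cvS_spec hM k Set.univ x, Measure.restrict_univ,
      integral_sub (cv_int hM k x) ((XS_int hM x).smul_const _), integral_smul_const, h1, one_smul]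
  rw [h2]
  refine (norm_integral_le_of_norm_le (hw.1.mul_const ε) ?_).trans ?_
  · filter_upwards [hae] with η hη
    rw [← smul_sub, norm_smul]
    by_cases h3 : (fun i => ⌊η i / h⌋) = j
    · refine mul_le_mul_of_nonneg_left ?_ (norm_nonneg _)
      have h4 : tr 0 M η k - tr 0 M (h • zE j) k =
          tr 0 M (h • zE j) (tr 0 M (η - h • zE j) k - k) := by
        rw [map_sub, tr_tr 0 hM, add_sub_cancel]
      rw [h4]
      refine (LIc_tr hM _ _).trans (hk _ ?_)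
      rw [norm_sub_rev, ← h3]
      exact F2e_near h hh η
    · rw [hη, Ih, Pi.single_eq_of_ne h3]
      simp
  · rw [integral_mul_const, ← hw.2, hn, one_mul]

theorem LIc_cont {M : ℝ} (hM : 1 ≤ M) (k : XS 0 M) {ε : ℝ} (hε : 0 < ε) :
    ∃ δ > 0, ∀ η : E, ‖η‖ < δ → ‖tr 0 M η k - k‖ ≤ ε := by
  have hc : Continuous ((fun q : E × XS 0 M => tr 0 M q.1 q.2) ∘ fun η : E => (η, k)) :=
    (tr_cont 0 hM).comp (continuous_id.prodMk continuous_const)
  obtain ⟨δ, hδ, H⟩ := Metric.continuous_iff.1 hc 0 ε hε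
  refine ⟨δ, hδ, fun η hη => ?_⟩
  have := H η (by simpa using hη)
  simp only [Function.comp] at this
  rw [tr_zero 0 hM, dist_eq_norm] at this
  exact this.le

/-- torus convolution against continuum convolution -/
theorem conv_err {g k : E → ℂ} (hk : Dens g k) {χ : E → ℝ} (hχ : Cut χ) {M : ℝ} (hM : 1 ≤ M)
    (ε : ℝ) (hε : 0 < ε) : ∃ h0 : ℝ, 0 < h0 ∧ ∀ h : ℝ, 0 < h → h ≤ h0 → ∀ c : Z → ℂ,
      (Summable fun n => ‖c n‖) →
      ‖IX 0 M h (conv (Kh χ g h) c) - cvS (toX 0 M k) Set.univ (IX 0 M h c)‖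
        ≤ ε * ∑' n, ‖c n‖ := by
  obtain ⟨h1, h1p, H1⟩ := ker_NN hk hχ 0 hM le_rfl
  obtain ⟨δ, hδ, H2⟩ := LIc_cont hM (toX 0 M k) (half_pos hε)
  refine LIc_h0 ?_
  filter_upwards [LIc_dens hk hχ 0 hM (half_pos hε),
    Ioc_mem_nhdsGT (lt_min h1p (show 0 < δ / 8 by positivity))] with h h3 hh c hc
  have h4 : h ≤ h1 := hh.2.trans (min_le_left _ _)
  have h5 : h ≤ δ / 8 := hh.2.trans (min_le_right _ _)
  have hκ := summable_of_NN 0 (zero_lt_one.trans_le hM) h _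
    (ne_top_of_le_ne_top ENNReal.ofReal_ne_top (H1 h hh.1 h4))
  have h6 : ‖IX 0 M h (Kh χ g h) - toX 0 M k‖ ≤ ε / 2 := by
    rw [← ENNReal.ofReal_le_ofReal_iff (half_pos hε).le, XS_norm hM]
    refine le_of_eq_of_le (wn_congr 0 M ?_) h3
    filter_upwards [XS_sub hM (IX 0 M h (Kh χ g h)) (toX 0 M k), IX0_ae hM hh.1 hκ, hk.ae 0 hM]
      with ξ e1 e2 e3
    rw [e1, e2, e3]
  generalize Kh χ g h = κ at hκ h6
  generalize toX 0 M k = k0 at H2 h6
  have s1 : Summable fun p : Z × Z => ‖κ (p.2 - p.1) * c p.1‖ := by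
    have e : Summable fun p : Z × Z => ‖c p.1‖ * ‖κ p.2‖ :=
      hc.mul_of_nonneg hκ (fun _ => norm_nonneg _) fun _ => norm_nonneg _
    refine (e.comp_injective (i := fun p : Z × Z => (p.1, p.2 - p.1)) ?_).congr fun p => ?_
    · intro p q hpq
      simp only [Prod.mk.injEq] at hpq
      refine Prod.ext hpq.1 ?_
      have := hpq.2
      rwa [hpq.1, sub_left_inj] at this
    · simp [mul_comm]
  have s0 : ∀ j : Z, HasSum (fun n => ‖(Pi.single j (c j) : Z → ℂ) n‖) ‖c j‖ := fun j => by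
    have := hasSum_single (f := fun n => ‖(Pi.single j (c j) : Z → ℂ) n‖) j fun n hn => by simp [hn]
    simpa using this
  have s2 : Summable fun p : Z × Z => ‖(Pi.single p.1 (c p.1) : Z → ℂ) p.2‖ := by
    rw [summable_prod_of_nonneg fun _ => norm_nonneg _]
    exact ⟨fun j => (s0 j).summable, hc.congr fun j => (s0 j).tsum_eq.symm⟩
  have t1 := LIc_hasSum hM hh.1 (fun j n => κ (n - j) * c j) s1
  have t2 := (LIc_hasSum hM hh.1 (fun j => Pi.single j (c j)) s2).mapL (cvS k0 Set.univ)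
  have e2 : (fun n => ∑' j, (Pi.single j (c j) : Z → ℂ) n) = c := by
    funext n
    rw [tsum_eq_single n fun j hj => Pi.single_eq_of_ne (Ne.symm hj) _, Pi.single_eq_same]
  rw [e2] at t2
  refine (t1.sub t2).norm_le_of_bounded (hc.hasSum.mul_left ε) fun j => ?_
  have e3 : (fun n => κ (n - j) * c j) = c j • fun n => κ (n - j) := by
    funext n
    simp [mul_comm]
  have e4 : (Pi.single j (c j) : Z → ℂ) = c j • (Pi.single j 1 : Z → ℂ) := by
    rw [← Pi.single_smul, smul_eq_mul, mul_one]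
  have s3 : Summable fun n => ‖(Pi.single j 1 : Z → ℂ) n‖ :=
    (hasSum_single (f := fun n => ‖(Pi.single j 1 : Z → ℂ) n‖) j fun n hn => by simp [hn]).summable
  have s4 : Summable fun n => ‖κ (n - j)‖ := (Equiv.subRight j).summable_iff.2 hκ
  rw [e3, e4, IX0_smul hM hh.1 _ s4, IX0_smul hM hh.1 _ s3,
    map_smul, ← smul_sub, norm_smul, mul_comm, LIc_shift hM hh.1 hκ]
  refine mul_le_mul_of_nonneg_right ?_ (norm_nonneg _)
  have h7 := LIc_cell hM hh.1 k0 (half_pos hε).le (fun η hη => H2 η (by linarith)) j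
  have h8 := (LIc_tr hM (h • zE j) _).trans h6
  rw [map_sub] at h8
  rw [norm_sub_rev] at h7
  linarith [norm_sub_le_norm_sub_add_norm_sub (tr 0 M (h • zE j) (IX 0 M h κ))
    (tr 0 M (h • zE j) k0) (cvS k0 Set.univ (IX 0 M h (Pi.single j 1)))]

/-- for large M the weighted norm is close to the unweighted norm -/
theorem exists_M {g k : E → ℂ} (hk : Dens g k) (K : ℕ) :
    ∀ᶠ M : ℝ in atTop, ‖toX K M k‖ ≤ (∫ ξ, ‖k ξ‖) + 1 := by
  have h1 : Tendsto (fun M : ℝ => ∫ ξ, wt K M ξ * ‖k ξ‖) atTop (𝓝 (∫ ξ, ‖k ξ‖)) := by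
    refine tendsto_integral_filter_of_dominated_convergence (fun ξ => (1 + ‖ξ‖) ^ K * ‖k ξ‖)
      (Eventually.of_forall fun M => ?_) ?_ (hk.2.1 K) (Eventually.of_forall fun ξ => ?_)
    · have hc : Continuous (wt K M) := by unfold wt; fun_prop
      exact (hc.measurable.mul hk.1.norm).aestronglyMeasurable
    · filter_upwards [eventually_ge_atTop (1 : ℝ)] with M hM
      refine Eventually.of_forall fun ξ => ?_
      have h0 := alg_wt_nonneg K (zero_lt_one.trans_le hM) ξ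
      rw [Real.norm_of_nonneg (by positivity)]
      refine mul_le_mul_of_nonneg_right ?_ (norm_nonneg _)
      refine pow_le_pow_left₀ (by positivity) ?_ K
      linarith [div_le_self (norm_nonneg ξ) hM]
    · have h2 : Tendsto (fun M : ℝ => (1 + ‖ξ‖ / M) ^ K * ‖k ξ‖) atTop
          (𝓝 ((1 + 0) ^ K * ‖k ξ‖)) :=
        (((tendsto_const_nhds.div_atTop tendsto_id).const_add 1).pow K).mul_const _
      simpa [wt] using h2
  filter_upwards [h1.eventually (ge_mem_nhds (lt_add_one _)), eventually_ge_atTop (1 : ℝ)]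
    with M h2 hM
  rw [(XS_wint hM _).2]
  refine le_of_eq_of_le (integral_congr_ae ?_) h2
  filter_upwards [hk.ae K hM] with ξ e
  rw [e]

theorem LIc_exp (α β : ℝ) : ‖Complex.exp (-I * α) - Complex.exp (-I * β)‖ ≤ |α - β| := by
  have h1 : Complex.exp (-I * α) - Complex.exp (-I * β) =
      Complex.exp (-I * α) * -(Complex.exp (I * ((α - β : ℝ) : ℂ)) - 1) := by
    rw [neg_sub, mul_sub, mul_one, ← Complex.exp_add]
    congr 2
    push_cast
    ring
  have h2 : ‖Complex.exp (-I * α)‖ = 1 := by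
    rw [Complex.norm_exp]
    simp
  rw [h1, norm_mul, h2, one_mul, norm_neg]
  exact Real.norm_exp_I_mul_ofReal_sub_one_le

theorem LIc_sq {K : ℕ} (hK : 1 ≤ K) {M h : ℝ} (hM : 1 ≤ M) (hh : 0 < h) (hh1 : h ≤ 1) {ν ξ : E}
    (h1 : ‖ν - ξ‖ ≤ 4 * h) : |‖ν‖ ^ 2 - ‖ξ‖ ^ 2| ≤ 24 * h * M * wt K M ν := by
  have h2 := (abs_norm_sub_norm_le ν ξ).trans h1
  have hν := norm_nonneg ν
  have hξ := norm_nonneg ξ
  have h3 : 1 + ‖ν‖ / M ≤ wt K M ν :=
    le_self_pow₀ (le_add_of_nonneg_right (by positivity)) (by omega)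
  have h4 : M * (1 + ‖ν‖ / M) = M + ‖ν‖ := by field_simp
  have h5 : M + ‖ν‖ ≤ M * wt K M ν := h4 ▸ mul_le_mul_of_nonneg_left h3 (by linarith)
  have h6 : ‖ν‖ + ‖ξ‖ ≤ 6 * (M * wt K M ν) := by linarith [(abs_le.1 h2).1]
  rw [sq_sub_sq, abs_mul, abs_of_nonneg (add_nonneg hν hξ)]
  calc _ ≤ 6 * (M * wt K M ν) * (4 * h) := mul_le_mul h6 h2 (abs_nonneg _) (by linarith)
    _ = _ := by ring

/-- multiplier error of the free flow -/
theorem tm_err {K : ℕ} (hK : 1 ≤ K) {M h S s σ ε : ℝ} (hM : 1 ≤ M) (hh : 0 < h) (hh1 : h ≤ 1)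
    (hs : 0 ≤ s) (hsσ : s ≤ σ) (hσ : σ ≤ S) {b : ℂ} (hb : 0 ≤ b.re) (hε : |ε| ≤ 1)
    {c : Z → ℂ} {N : ℝ} (hN : 0 ≤ N) (hc : NN K M (hsg h s) c ≤ ENNReal.ofReal N) :
    ‖IX 0 M (hsg h σ) (fun n => tm b ε h s σ n * c n) - Eop 0 M b ε (σ - s) (IX 0 M (hsg h s) c)‖
      ≤ 24 * Real.exp S * h * M * N := by
  have hM0 : 0 < M := zero_lt_one.trans_le hM
  have p1 : 0 < hsg h σ := by unfold hsg; positivity
  have p2 : 0 < hsg h s := by unfold hsg; positivity
  have p3 : hsg h s = hsg h σ * Real.exp ((σ - s) / 2) := by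
    unfold hsg
    rw [mul_assoc, ← Real.exp_add]
    congr 2
    ring
  have p4 : hsg h σ ≤ hsg h s := by
    rw [p3]
    exact le_mul_of_one_le_right p1.le (Real.one_le_exp (by linarith))
  have p5 : hsg h σ ≤ h := mul_le_of_le_one_right hh.le (Real.exp_le_one_iff.2 (by linarith))
  have p6 : (Real.exp (-s) - Real.exp (-σ)) * h ^ 2 = (Real.exp (σ - s) - 1) * hsg h σ ^ 2 := by
    unfold hsg
    rw [mul_pow, ← Real.exp_nat_mul, show ((2 : ℕ) : ℝ) * (-σ / 2) = -σ by push_cast; ring,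
      show -s = σ - s + -σ by ring, Real.exp_add]
    ring
  have hcs := summable_of_NN K hM0 _ c (ne_top_of_le_ne_top ENNReal.ofReal_ne_top hc)
  have hb1 : ‖Complex.exp (-b * ((σ - s : ℝ) : ℂ))‖ ≤ 1 := by
    rw [Complex.norm_exp, Real.exp_le_one_iff, re_mul_ofReal, neg_re]
    nlinarith
  have hts : Summable fun n => ‖tm b ε h s σ n * c n‖ := by
    refine Summable.of_nonneg_of_le (fun n => norm_nonneg _) (fun n => ?_) hcs
    have h2 : ∀ α : ℝ, ‖Complex.exp (-I * α)‖ = 1 := fun α => by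
      rw [Complex.norm_exp]
      simp
    rw [norm_mul, tm, norm_mul, h2, mul_one]
    exact mul_le_of_le_one_left (norm_nonneg _) hb1
  have hC : 0 ≤ 24 * Real.exp S * h * M := by positivity
  have hq := (Measure.quasiMeasurePreserving_smul (volume : Measure E)
    (Real.exp_pos ((σ - s) / 2)).ne').ae_eq_comp (IX0_ae hM p2 hcs)
  rw [← ENNReal.ofReal_le_ofReal_iff (mul_nonneg hC hN), XS_norm hM]
  have h1 := wn_Ih_le 0 hM p1
    (fun n => ((24 * Real.exp S * h * M * wt K M (hsg h σ • zE n) : ℝ) : ℂ) * c n)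
  have h2 := NN_scale K hM0 p2.le p1.le le_rfl (by linarith) c
  rw [one_pow, ENNReal.ofReal_one, one_mul] at h2
  rw [pow_zero, ENNReal.ofReal_one, one_mul] at h1
  refine le_trans (lintegral_mono_ae ?_) (h1.trans ?_)
  · filter_upwards [XS_sub hM (IX 0 M (hsg h σ) fun n => tm b ε h s σ n * c n)
      (Eop 0 M b ε (σ - s) (IX 0 M (hsg h s) c)), IX0_ae hM p1 hts,
      Eop_ae 0 hM b ε (σ - s) (IX 0 M (hsg h s) c), hq] with ξ e1 e2 e3 e4
    refine ENNReal.ofReal_le_ofReal (mul_le_mul_of_nonneg_left ?_ (alg_wt_nonneg 0 hM0 ξ))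
    simp only [Function.comp] at e4
    have e5 : (fun i => ⌊(Real.exp ((σ - s) / 2) • ξ) i / hsg h s⌋) = fun i => ⌊ξ i / hsg h σ⌋ := by
      funext i
      rw [p3, PiLp.smul_apply, smul_eq_mul, mul_comm (hsg h σ),
        mul_div_mul_left _ _ (Real.exp_pos _).ne']
    have e6 : ((Real.exp (6 * (σ - s)) : ℝ) : ℂ) * ((hsg h s ^ 12 : ℝ) : ℂ)⁻¹ =
        ((hsg h σ ^ 12 : ℝ) : ℂ)⁻¹ := by
      rw [← ofReal_inv, ← ofReal_inv, ← ofReal_mul, p3, mul_pow, ← Real.exp_nat_mul,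
        show ((12 : ℕ) : ℝ) * ((σ - s) / 2) = 6 * (σ - s) by push_cast; ring]
      congr 1
      field_simp
    have e7 := LIc_sq hK hM p1 (p5.trans hh1) (F2e_near _ p1 ξ)
    rw [e1, e2, e3, e4, Ih, Ih, Ih, e5, Em, tm]
    unfold F2e at e7
    generalize (fun i => ⌊ξ i / hsg h σ⌋) = n at e7 ⊢
    have e8 : ε * (Real.exp (-s) - Real.exp (-σ)) * (h ^ 2 * nsq n) =
        ε * (Real.exp (σ - s) - 1) * ‖hsg h σ • zE n‖ ^ 2 := by
      rw [norm_smul, mul_pow, Real.norm_eq_abs, sq_abs, ← nsq_eq, mul_assoc ε, ← mul_assoc _ (h ^ 2),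
        p6]
      ring
    have e9 := LIc_exp (ε * (Real.exp (σ - s) - 1) * ‖hsg h σ • zE n‖ ^ 2)
      (ε * (Real.exp (σ - s) - 1) * ‖ξ‖ ^ 2)
    have hw := alg_wt_nonneg K hM0 (hsg h σ • zE n)
    have e10 : |ε * (Real.exp (σ - s) - 1) * ‖hsg h σ • zE n‖ ^ 2 -
        ε * (Real.exp (σ - s) - 1) * ‖ξ‖ ^ 2| ≤
        24 * Real.exp S * h * M * wt K M (hsg h σ • zE n) := by
      have f1 : 1 ≤ Real.exp (σ - s) := Real.one_le_exp (by linarith)
      have f2 : Real.exp (σ - s) ≤ Real.exp S := Real.exp_le_exp.2 (by linarith)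
      rw [← mul_sub, abs_mul, abs_mul, abs_of_nonneg (sub_nonneg.2 f1)]
      calc _ ≤ 1 * Real.exp S * (24 * h * M * wt K M (hsg h σ • zE n)) :=
            mul_le_mul (mul_le_mul hε (by linarith) (by linarith) zero_le_one)
              (e7.trans (by gcongr)) (abs_nonneg _) (by positivity)
        _ = _ := by ring
    rw [e8]
    generalize Complex.exp (-I * ((ε * (Real.exp (σ - s) - 1) * ‖hsg h σ • zE n‖ ^ 2 : ℝ) : ℂ)) = u
      at e9 ⊢
    generalize Complex.exp (-I * ((ε * (Real.exp (σ - s) - 1) * ‖ξ‖ ^ 2 : ℝ) : ℂ)) = v at e9 ⊢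
    generalize Complex.exp (-b * ((σ - s : ℝ) : ℂ)) = z at hb1 ⊢
    have e11 : ((hsg h σ ^ 12 : ℝ) : ℂ)⁻¹ * (z * u * c n) -
        z * ((Real.exp (6 * (σ - s)) : ℝ) : ℂ) * v * (((hsg h s ^ 12 : ℝ) : ℂ)⁻¹ * c n) =
        ((hsg h σ ^ 12 : ℝ) : ℂ)⁻¹ * (z * (u - v) * c n) := by
      rw [← e6]
      ring
    rw [e11, norm_mul, norm_mul, norm_mul, norm_mul, norm_mul, norm_real,
      Real.norm_of_nonneg (mul_nonneg hC hw)]
    refine mul_le_mul_of_nonneg_left (mul_le_mul_of_nonneg_right ?_ (norm_nonneg _)) (norm_nonneg _)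
    exact (mul_le_of_le_one_left (norm_nonneg _) hb1).trans (e9.trans e10)
  · rw [ENNReal.ofReal_mul hC]
    refine le_trans (le_of_eq ?_) (mul_le_mul_right (h2.trans hc) _)
    unfold NN
    rw [← ENNReal.tsum_mul_left]
    refine tsum_congr fun n => ?_
    rw [← ENNReal.ofReal_mul hC, wt_zero, one_mul, norm_mul, norm_real,
      Real.norm_of_nonneg (mul_nonneg hC (alg_wt_nonneg K hM0 _)), mul_assoc]

end Vale.Agent.P139
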