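import Vale.Agent.P139.LPh
import Vale.Agent.P139.LCv
import Vale.Agent.P139.LI
import Vale.Agent.P139.F1
import Vale.Agent.P139.SymP

open Complex MeasureTheory Filter Topology
open scoped ComplexConjugate ContDiff

namespace Vale.Agent.P139

theorem LMode_add1 (m : ℕ) (om : ℝ) (w : ℝ → ℂ) (β γ : Co) :
    mode1 m om w (β + γ) = fun y => mode1 m om w β y + mode1 m om w γ y := by
  funext y
  simp only [mode1, Prod.fst_add, Prod.snd_add, Pi.add_apply, add_mul, Finset.sum_add_distrib]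
  ring

theorem LMode_add2 (m : ℕ) (om : ℝ) (w : ℝ → ℂ) (β γ : Co) :
    mode2 m om w (β + γ) = fun y => mode2 m om w β y + mode2 m om w γ y := by
  funext y
  simp only [mode2, Prod.fst_add, Prod.snd_add, Pi.add_apply, add_mul, Finset.sum_add_distrib]
  ring

theorem LMode_smul1 (m : ℕ) (om : ℝ) (w : ℝ → ℂ) (c : ℂ) (β : Co) :
    mode1 m om w (c • β) = fun y => c * mode1 m om w β y := by
  funext y
  simp only [mode1, Prod.smul_fst, Prod.smul_snd, Pi.smul_apply, smul_eq_mul, mul_add,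
    Finset.mul_sum, mul_assoc]

theorem LMode_smul2 (m : ℕ) (om : ℝ) (w : ℝ → ℂ) (c : ℂ) (β : Co) :
    mode2 m om w (c • β) = fun y => c * mode2 m om w β y := by
  funext y
  simp only [mode2, Prod.smul_fst, Prod.smul_snd, Pi.smul_apply, smul_eq_mul, mul_add,
    Finset.mul_sum, mul_assoc]

theorem LMode_phys_add {K : ℕ} {M : ℝ} (hM : 1 ≤ M) (x y : XS K M) :
    phys (x + y : XS K M) = fun z => phys x z + phys y z := by
  funext z
  obtain ⟨l, hl⟩ := exists_ev K hM z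
  rw [← hl, ← hl, ← hl, map_add]

theorem LMode_phys_smul {K : ℕ} {M : ℝ} (hM : 1 ≤ M) (c : ℂ) (x : XS K M) :
    phys (c • x : XS K M) = fun z => c * phys x z := by
  funext z
  obtain ⟨l, hl⟩ := exists_ev K hM z
  rw [← hl, ← hl, map_smul, smul_eq_mul]

theorem LMode_dens {m : ℕ} {om : ℝ} {w : ℝ → ℂ} (h : Prof m om w) (β : Co) :
    (∃ k, Dens (mode1 m om w β) k) ∧ ∃ k, Dens (mode2 m om w β) k := by
  have hγ : 0 < 2 * aa m := mul_pos two_pos h.aa_pos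
  refine ⟨f2 _ hγ _ fun J => ?_, f2 _ hγ _ fun J => ?_⟩
  · obtain ⟨C, -, H⟩ := h.sym_mode J
    exact ⟨_, (H β).1⟩
  · obtain ⟨C, -, H⟩ := h.sym_mode J
    exact ⟨_, (H β).2⟩

theorem LMode_phys_toX {g k : E → ℂ} (hd : Dens g k) (K : ℕ) {M : ℝ} (hM : 1 ≤ M) :
    phys (toX K M k) = g := by
  rw [phys_congr (hd.ae K hM)]
  exact hd.2.2.1

theorem exists_theta {m : ℕ} {om : ℝ} {w : ℝ → ℂ} (h : Prof m om w) (K : ℕ) {M : ℝ}
    (hM : 1 ≤ M) : ∃ Θ : Co →ₗ[ℂ] XX K M,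
      ∀ β, phys (Θ β).1 = mode1 m om w β ∧ phys (Θ β).2 = mode2 m om w β := by
  have H : ∀ β, ∃ e : XX K M, phys e.1 = mode1 m om w β ∧ phys e.2 = mode2 m om w β := fun β => by
    obtain ⟨⟨k1, h1⟩, ⟨k2, h2⟩⟩ := LMode_dens h β
    exact ⟨(toX K M k1, toX K M k2), LMode_phys_toX h1 K hM, LMode_phys_toX h2 K hM⟩
  choose T hT using H
  refine ⟨{ toFun := T, map_add' := fun β γ => ?_, map_smul' := fun c β => ?_ }, hT⟩
  · refine Prod.ext (XS_phys_inj hM ?_) (XS_phys_inj hM ?_)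
    · rw [Prod.fst_add, LMode_phys_add hM, (hT _).1, (hT _).1, (hT _).1, LMode_add1]
    · rw [Prod.snd_add, LMode_phys_add hM, (hT _).2, (hT _).2, (hT _).2, LMode_add2]
  · refine Prod.ext (XS_phys_inj hM ?_) (XS_phys_inj hM ?_)
    · rw [RingHom.id_apply, Prod.smul_fst, LMode_phys_smul hM, (hT _).1, (hT _).1, LMode_smul1]
    · rw [RingHom.id_apply, Prod.smul_snd, LMode_phys_smul hM, (hT _).2, (hT _).2, LMode_smul2]

theorem theta_wms {m : ℕ} {om : ℝ} {w : ℝ → ℂ} (hp : PMS m om w) {K : ℕ} (hK : 16 ≤ K) {M : ℝ}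
    (hM : 1 ≤ M) {k1 k2 k3 : XS K M} (h1 : phys k1 = g1 m w) (h2 : phys k2 = g2 m w)
    (h3 : phys k3 = g3 m w) (Θ : Co →ₗ[ℂ] XX K M)
    (hΘ : ∀ β, phys (Θ β).1 = mode1 m om w β ∧ phys (Θ β).2 = mode2 m om w β) :
    WMS (LEE K M m om) (CC k1 k2 k3 Set.univ) (LinearMap.range Θ) := by
  rintro z F g hz ⟨β, rfl⟩ H
  have hs : PSol m om w z (phys F.1) (phys F.2) (mode1 m om w β) (mode2 m om w β) := by
    refine ⟨phys_Cb hK hM _, phys_Cb hK hM _, fun y => ?_, fun y => ?_⟩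
    · obtain ⟨l, l', hg, hl, hl'⟩ := gen_ev hK hM (b1 m om) 1 y
      have e := H (l.comp (ContinuousLinearMap.fst ℂ _ _))
        (l'.comp (ContinuousLinearMap.fst ℂ _ _)) fun x => hg x.1
      have e2 : z * l F.1 - l' F.1 - l ((-I) • (cvS k1 Set.univ F.1 + cvS k2 Set.univ F.2))
        = l (Θ β).1 := e
      rw [map_smul, map_add, hl, hl, hl, hl, hl', phys_cvS hM, phys_cvS hM, h1, h2, (hΘ β).1,
        smul_eq_mul] at e2
      simp only [g1, g2, b1, ofReal_one] at e2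
      linear_combination I * e2 + (lap (phys F.1) y - rad (V1 m w) y * phys F.1 y
        - rad (V2 m w) y * phys F.2 y) * I_mul_I
    · obtain ⟨l, l', hg, hl, hl'⟩ := gen_ev hK hM (b2 m om) (-1) y
      have e := H (l.comp (ContinuousLinearMap.snd ℂ _ _))
        (l'.comp (ContinuousLinearMap.snd ℂ _ _)) fun x => hg x.2
      have e2 : z * l F.2 - l' F.2 - l (I • (cvS k1 Set.univ F.2 + cvS k3 Set.univ F.1))
        = l (Θ β).2 := e
      rw [map_smul, map_add, hl, hl, hl, hl, hl', phys_cvS hM, phys_cvS hM, h1, h3, (hΘ β).2,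
        smul_eq_mul] at e2
      simp only [g1, g3, b2, ofReal_neg, ofReal_one] at e2
      linear_combination (-I) * e2 + (lap (phys F.2) y - rad (V1 m w) y * phys F.2 y
        - conj (rad (V2 m w) y) * phys F.1 y) * I_mul_I
  obtain ⟨γ, e1, e2⟩ := hp z _ _ β hz hs
  refine ⟨γ, Prod.ext (XS_phys_inj hM ?_) (XS_phys_inj hM ?_)⟩
  · rw [(hΘ γ).1, e1]
  · rw [(hΘ γ).2, e2]

theorem LMode_NN {m : ℕ} {om : ℝ} {w : ℝ → ℂ} (h : Prof m om w) {χ : E → ℝ} (hχ : Cut χ) (K : ℕ) :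
    ∃ C : ℝ, 0 ≤ C ∧ ∀ M h : ℝ, 1 ≤ M → 0 < h → h ≤ 1 → ∀ β : Co,
      NN K M h (Kh χ (mode1 m om w β) h) ≤ ENNReal.ofReal (C * ‖β‖) ∧
      NN K M h (Kh χ (mode2 m om w β) h) ≤ ENNReal.ofReal (C * ‖β‖) := by
  obtain ⟨J, C0, hC0, H⟩ := f1 _ (mul_pos two_pos h.aa_pos) K χ hχ
  obtain ⟨C, hC, S⟩ := h.sym_mode J
  refine ⟨C0 * C, mul_nonneg hC0 hC, fun M t hM ht ht1 β => ?_⟩
  rw [mul_assoc]
  exact ⟨H _ _ M t (S β).1 hM ht ht1, H _ _ M t (S β).2 hM ht ht1⟩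

theorem LMode_Kh_add {ψ : E → ℝ} {f g : E → ℂ} (hψ : Continuous ψ) (hf : Continuous f)
    (hg : Continuous g) (h : ℝ) : Kh ψ (fun y => f y + g y) h = Kh ψ f h + Kh ψ g h := by
  have tr : ∀ {u : E → ℂ}, Continuous u → Continuous fun x : E => (ψ x : ℂ) * u (h⁻¹ • x) :=
    fun hu => (continuous_ofReal.comp hψ).mul (hu.comp (continuous_const_smul _))
  funext n
  simp only [Kh, inv_coef, Pi.add_apply, mul_add, add_mul]
  rw [integral_add (inv_int ((tr hf).fun_mul (inv_cont_ch _)))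
    (inv_int ((tr hg).fun_mul (inv_cont_ch _))), mul_add]

theorem LMode_Kh_smul (ψ : E → ℝ) (z : ℂ) (g : E → ℂ) (h : ℝ) :
    Kh ψ (fun y => z * g y) h = z • Kh ψ g h := by
  funext n
  simp only [Kh, inv_coef, Pi.smul_apply, smul_eq_mul]
  have e : (fun x : E => (ψ x : ℂ) * (z * g (h⁻¹ • x)) * invCh (-n) x)
      = fun x : E => z * ((ψ x : ℂ) * g (h⁻¹ • x) * invCh (-n) x) := by
    funext x
    ring
  rw [e, integral_const_mul]
  ring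

theorem LMode_conv {g k : E → ℂ} (hd : Dens g k) {χ : E → ℝ} (hχ : Cut χ) {M : ℝ} (hM : 1 ≤ M)
    (hs : ∀ h : ℝ, 0 < h → h ≤ 1 → Summable fun n => ‖Kh χ g h n‖) (e : XS 0 M)
    (he : phys e = g) : Tendsto (fun h : ℝ => IX 0 M h (Kh χ g h) - e) (𝓝[>] 0) (𝓝 0) := by
  have e1 : e = toX 0 M k := XS_phys_inj hM (by rw [he, LMode_phys_toX hd 0 hM])
  rw [tendsto_zero_iff_norm_tendsto_zero]
  have h1 : Tendsto (fun h : ℝ => ENNReal.ofReal ‖IX 0 M h (Kh χ g h) - e‖) (𝓝[>] 0) (𝓝 0) := by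
    refine tendsto_of_tendsto_of_tendsto_of_le_of_le' tendsto_const_nhds (hd.2.2.2 χ hχ 0)
      (Eventually.of_forall fun _ => zero_le) ?_
    filter_upwards [Ioc_mem_nhdsGT (zero_lt_one' ℝ)] with h hh
    rw [XS_norm hM]
    refine le_trans (le_of_eq (wn_congr 0 M ?_))
      (wn_le_poly hM fun ξ => Ih h (Kh χ g h) ξ - k ξ)
    filter_upwards [XS_sub hM (IX 0 M h (Kh χ g h)) e, IX0_ae hM hh.1 (hs h hh.1 hh.2),
      hd.ae 0 hM] with ξ a1 a2 a3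
    rw [a1, a2, e1, a3]
  have h2 := (ENNReal.tendsto_toReal ENNReal.zero_ne_top).comp h1
  refine h2.congr fun h => ?_
  exact ENNReal.toReal_ofReal (norm_nonneg _)

theorem LMode_unif (md : Co → E → ℂ) (ha : ∀ β γ, md (β + γ) = fun y => md β y + md γ y)
    (hsm : ∀ (c : ℂ) β, md (c • β) = fun y => c * md β y) (hc : ∀ β, Continuous (md β))
    (hd : ∀ β, ∃ k, Dens (md β) k) {χ : E → ℝ} (hχ : Cut χ) {M : ℝ} (hM : 1 ≤ M)
    (hs : ∀ β (h : ℝ), 0 < h → h ≤ 1 → Summable fun n => ‖Kh χ (md β) h n‖)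
    (T : Co →ₗ[ℂ] XS 0 M) (hT : ∀ β, phys (T β) = md β) (ε : ℝ) (hε : 0 < ε) :
    ∀ᶠ h in 𝓝[>] (0 : ℝ), ∀ β, ‖IX 0 M h (Kh χ (md β) h) - T β‖ ≤ ε * ‖β‖ := by
  refine lin_unif (𝓝[>] (0 : ℝ)) (fun h β => IX 0 M h (Kh χ (md β) h) - T β) ?_ (fun β => ?_) ε hε
  · filter_upwards [Ioc_mem_nhdsGT (zero_lt_one' ℝ)] with h hh
    refine ⟨fun β γ => ?_, fun c β => ?_⟩
    · rw [ha, LMode_Kh_add hχ.smooth.continuous (hc β) (hc γ),
        IX0_add hM hh.1 (hs β h hh.1 hh.2) (hs γ h hh.1 hh.2), map_add]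
      abel
    · rw [hsm, LMode_Kh_smul, IX0_smul hM hh.1 c (hs β h hh.1 hh.2), map_smul, smul_sub]
  · obtain ⟨k, hk⟩ := hd β
    exact LMode_conv hk hχ hM (hs β) _ (hT β)

/-- torus modes converge to the continuum modes, uniformly in the coefficients -/
theorem mode_err {m : ℕ} {om : ℝ} {w : ℝ → ℂ} (h : Prof m om w) {χ : E → ℝ} (hχ : Cut χ) {M : ℝ}
    (hM : 1 ≤ M) (ε : ℝ) (hε : 0 < ε) : ∃ h0 : ℝ, 0 < h0 ∧ ∀ h : ℝ, 0 < h → h ≤ h0 →
      ∀ (β : Co) (e : XX 0 M), phys e.1 = mode1 m om w β → phys e.2 = mode2 m om w β →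
        ‖IX 0 M h (Kh χ (mode1 m om w β) h) - e.1‖ ≤ ε * ‖β‖ ∧
        ‖IX 0 M h (Kh χ (mode2 m om w β) h) - e.2‖ ≤ ε * ‖β‖ := by
  obtain ⟨Θ, hΘ⟩ := exists_theta h 0 hM
  obtain ⟨C, -, hC⟩ := LMode_NN h hχ 0
  obtain ⟨C', -, S⟩ := h.sym_mode 0
  have hM0 : 0 < M := one_pos.trans_le hM
  have u1 := LMode_unif (mode1 m om w) (LMode_add1 m om w) (LMode_smul1 m om w)
    (fun β => (S β).1.1.continuous) (fun β => (LMode_dens h β).1) hχ hM
    (fun β t ht ht1 => summable_of_NN 0 hM0 t _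
      (ne_top_of_le_ne_top ENNReal.ofReal_ne_top (hC M t hM ht ht1 β).1))
    ((LinearMap.fst ℂ _ _).comp Θ) (fun β => (hΘ β).1) ε hε
  have u2 := LMode_unif (mode2 m om w) (LMode_add2 m om w) (LMode_smul2 m om w)
    (fun β => (S β).2.1.continuous) (fun β => (LMode_dens h β).2) hχ hM
    (fun β t ht ht1 => summable_of_NN 0 hM0 t _
      (ne_top_of_le_ne_top ENNReal.ofReal_ne_top (hC M t hM ht ht1 β).2))
    ((LinearMap.snd ℂ _ _).comp Θ) (fun β => (hΘ β).2) ε hε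
  obtain ⟨h0, hh0, hs⟩ := (mem_nhdsGT_iff_exists_Ioc_subset).1 (u1.and u2)
  refine ⟨h0, hh0, fun t ht ht0 β e e1 e2 => ?_⟩
  have a1 : e.1 = (Θ β).1 := XS_phys_inj hM (by rw [e1, (hΘ β).1])
  have a2 : e.2 = (Θ β).2 := XS_phys_inj hM (by rw [e2, (hΘ β).2])
  rw [a1, a2]
  exact ⟨(hs ⟨ht, ht0⟩).1 β, (hs ⟨ht, ht0⟩).2 β⟩

theorem mode_NN {m : ℕ} {om : ℝ} {w : ℝ → ℂ} (h : Prof m om w) {χ : E → ℝ} (hχ : Cut χ) (K : ℕ) :
    ∃ C : ℝ, 0 ≤ C ∧ ∀ M h : ℝ, 1 ≤ M → 0 < h → h ≤ 1 → ∀ β : Co,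
      NN K M h (Kh χ (mode1 m om w β) h) ≤ ENNReal.ofReal (C * ‖β‖) ∧
      NN K M h (Kh χ (mode2 m om w β) h) ≤ ENNReal.ofReal (C * ‖β‖) :=
  LMode_NN h hχ K

end Vale.Agent.P139
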