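import Vale.Agent.P139.LSp

open Complex MeasureTheory Filter Topology
open scoped ComplexConjugate ContDiff

namespace Vale.Agent.P139

theorem wt_zero (M : ℝ) (ξ : E) : wt 0 M ξ = 1 := pow_zero _

theorem wt_mono (K : ℕ) {M : ℝ} (hM : 1 ≤ M) {ξ η : E} (h : ‖ξ‖ ≤ ‖η‖) :
    wt K M ξ ≤ wt K M η := by
  have : 0 < M := by linarith
  unfold wt
  gcongr

/-- gain of the weight under contraction away from the ball of radius M -/
theorem wt_gain (K : ℕ) {M : ℝ} (hM : 1 ≤ M) {s : ℝ} (hs : 0 ≤ s) (η : E)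
    (h : M ≤ ‖Real.exp (-s / 2) • η‖) :
    wt K M (Real.exp (-s / 2) • η) ≤ Real.exp (-(K / 4 : ℝ) * s) * wt K M η := by
  have hM0 : 0 < M := by linarith
  have hu0 := Real.exp_pos (-s / 4)
  have hu1 : Real.exp (-s / 4) ≤ 1 := Real.exp_le_one_iff.2 (by linarith)
  have e1 : Real.exp (-s / 2) = Real.exp (-s / 4) ^ 2 := by
    rw [← Real.exp_nat_mul]; congr 1; push_cast; ring
  have e2 : Real.exp (-(K / 4 : ℝ) * s) = Real.exp (-s / 4) ^ K := by
    rw [← Real.exp_nat_mul]; congr 1; ring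
  rw [← one_le_div hM0] at h
  unfold wt
  rw [e2, ← mul_pow]
  rw [e1, norm_smul, Real.norm_of_nonneg (by positivity), mul_div_assoc] at h ⊢
  have hx : 0 ≤ ‖η‖ / M := by positivity
  generalize ‖η‖ / M = x at h hx
  generalize Real.exp (-s / 4) = u at h hu0 hu1
  refine pow_le_pow_left₀ (by positivity) ?_ _
  have h1 : 1 ≤ u * x := by nlinarith [mul_nonneg hu0.le hx]
  nlinarith

theorem LOp_Em (b : ℂ) (ε σ : ℝ) (ξ : E) :
    ‖Em b ε σ ξ‖ = Real.exp (-b.re * σ) * Real.exp (σ / 2) ^ 12 := by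
  rw [Em, norm_mul, norm_mul, Complex.norm_exp, Complex.norm_exp, Complex.norm_real,
    Real.norm_of_nonneg (Real.exp_pos _).le, ← Real.exp_nat_mul,
    show ((12 : ℕ) : ℝ) * (σ / 2) = 6 * σ by push_cast; ring]
  simp [-Complex.ofReal_mul]

theorem LOp_inv (σ : ℝ) (ξ : E) : Real.exp (-σ / 2) • Real.exp (σ / 2) • ξ = ξ := by
  rw [smul_smul, ← Real.exp_add, show -σ / 2 + σ / 2 = 0 by ring, Real.exp_zero, one_smul]

theorem LOp_bd (K : ℕ) {M : ℝ} (hM : 1 ≤ M) (b : ℂ) (ε σ : ℝ) (ξ : E) :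
    wt K M ξ * ‖Em b ε σ ξ‖ ≤ Real.exp (-b.re * σ) * max 1 (Real.exp (-σ / 2)) ^ K *
      Real.exp (σ / 2) ^ 12 * wt K M (Real.exp (σ / 2) • ξ - 0) := by
  have hM0 : 0 < M := by linarith
  have h : wt K M ξ ≤ max 1 (Real.exp (-σ / 2)) ^ K * wt K M (Real.exp (σ / 2) • ξ) := by
    conv_lhs => rw [← LOp_inv σ ξ]
    unfold wt
    rw [← mul_pow, norm_smul, Real.norm_of_nonneg (Real.exp_pos _).le, mul_div_assoc, mul_add,
      mul_one]
    gcongr
    exacts [le_max_left _ _, le_max_right _ _]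
  rw [LOp_Em, sub_zero]
  calc _ ≤ max 1 (Real.exp (-σ / 2)) ^ K * wt K M (Real.exp (σ / 2) • ξ) *
        (Real.exp (-b.re * σ) * Real.exp (σ / 2) ^ 12) := by gcongr
    _ = _ := by ring

theorem LOp_cont (b : ℂ) (ε : ℝ) : Continuous fun p : ℝ × E => Em b ε p.1 p.2 := by
  unfold Em
  fun_prop

theorem LOp_spec (K : ℕ) {M : ℝ} (hM : 1 ≤ M) (b : ℂ) (ε σ : ℝ) :
    IsW (Em b ε σ) (Real.exp (σ / 2)) 0 (Eop K M b ε σ) ∧
      ‖Eop K M b ε σ‖ ≤ Real.exp (-b.re * σ) * max 1 (Real.exp (-σ / 2)) ^ K :=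
  wco_spec K K hM _ ((LOp_cont b ε).comp (Continuous.prodMk_right σ)) _ (Real.exp_pos _) 0 _
    (by positivity) (LOp_bd K hM b ε σ)

theorem Eop_ae (K : ℕ) {M : ℝ} (hM : 1 ≤ M) (b : ℂ) (ε σ : ℝ) (x : XS K M) :
    (Eop K M b ε σ x : E → ℂ) =ᵐ[volume] fun ξ => Em b ε σ ξ * x (Real.exp (σ / 2) • ξ) := by
  simpa only [sub_zero] using (LOp_spec K hM b ε σ).1 x

theorem LOp_lint {c : ℝ} (hc : 0 < c) (g : E → ENNReal) :
    ∫⁻ ξ, ENNReal.ofReal (c ^ 12) * g (c • ξ) = ∫⁻ ξ, g ξ := by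
  have h := lintegral_map_equiv (μ := volume) g (MeasurableEquiv.smul₀ c hc.ne')
  rw [MeasurableEquiv.coe_smul₀, Measure.map_addHaar_smul volume hc.ne', lintegral_smul_measure,
    finrank_euclideanSpace_fin, abs_of_pos (by positivity)] at h
  rw [lintegral_const_mul' _ _ ENNReal.ofReal_ne_top, ← h, smul_eq_mul, ← mul_assoc,
    ← ENNReal.ofReal_mul (by positivity), mul_inv_cancel₀ (by positivity), ENNReal.ofReal_one,
    one_mul]

/-- weighted norm after the free flow -/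
theorem Eop_wn (K : ℕ) {M : ℝ} (hM : 1 ≤ M) (b : ℂ) (ε σ : ℝ) (x : XS K M) :
    ENNReal.ofReal ‖Eop K M b ε σ x‖ = ∫⁻ ξ, ENNReal.ofReal
      (Real.exp (-b.re * σ) * wt K M (Real.exp (-σ / 2) • ξ) * ‖x ξ‖) := by
  rw [XS_norm hM, wn_congr K M (Eop_ae K hM b ε σ x), wn, ← LOp_lint (Real.exp_pos (σ / 2))
    fun ξ => ENNReal.ofReal (Real.exp (-b.re * σ) * wt K M (Real.exp (-σ / 2) • ξ) * ‖x ξ‖)]
  refine lintegral_congr fun ξ => ?_
  rw [← ENNReal.ofReal_mul (by positivity), LOp_inv, norm_mul, LOp_Em]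
  congr 1
  ring

theorem LOp_pull {c : ℝ} (hc : 0 < c) {p : E → Prop} (h : ∀ᵐ ξ, p ξ) : ∀ᵐ ξ, p (c • ξ) :=
  (Measure.quasiMeasurePreserving_smul volume hc.ne').ae h

theorem LOp_mul (b : ℂ) (ε s t : ℝ) (ξ : E) :
    Em b ε (s + t) ξ = Em b ε s ξ * Em b ε t (Real.exp (s / 2) • ξ) := by
  have e : ‖Real.exp (s / 2) • ξ‖ ^ 2 = Real.exp s * ‖ξ‖ ^ 2 := by
    rw [norm_smul, Real.norm_of_nonneg (Real.exp_pos _).le, mul_pow, ← Real.exp_nat_mul]
    congr 2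
    push_cast
    ring
  simp only [Em, e, Real.exp_add, Complex.ofReal_exp, ← Complex.exp_add]
  congr 1
  push_cast
  ring

theorem Eop_sg (K : ℕ) {M : ℝ} (hM : 1 ≤ M) (b : ℂ) (ε : ℝ) : SG (Eop K M b ε) b.re where
  zero x := XS_ext hM (by simpa [Em] using Eop_ae K hM b ε 0 x)
  add s t _ _ x := XS_ext hM (by
    filter_upwards [Eop_ae K hM b ε (s + t) x, Eop_ae K hM b ε s (Eop K M b ε t x),
      LOp_pull (Real.exp_pos (s / 2)) (Eop_ae K hM b ε t x)] with ξ h1 h2 h3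
    rw [h1, h2, h3, LOp_mul, smul_smul, ← Real.exp_add, mul_assoc, add_div, add_comm])
  cont := wco_cont K K hM (Em b ε) (LOp_cont b ε) (fun σ => Real.exp (σ / 2)) (by fun_prop)
    (fun _ => Real.exp_pos _) (fun _ => 0) continuous_const
    (fun σ => Real.exp (-b.re * σ) * max 1 (Real.exp (-σ / 2)) ^ K) (by fun_prop)
    (fun _ => by positivity) (LOp_bd K hM b ε)
  norm s hs := by
    simpa only [max_eq_left (Real.exp_le_one_iff.2 (by linarith : -s / 2 ≤ 0)), one_pow, mul_one]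
      using (LOp_spec K hM b ε s).2

theorem EE_sg (K : ℕ) {M : ℝ} (hM : 1 ≤ M) (m : ℕ) (om : ℝ) : SG (LEE K M m om) (aa m) := by
  have h1 := Eop_sg K hM (b1 m om) 1
  have h2 := Eop_sg K hM (b2 m om) (-1)
  rw [show (b1 m om).re = aa m by simp [b1]] at h1
  rw [show (b2 m om).re = aa m by simp [b2]] at h2
  refine ⟨fun x => ?_, fun s t hs ht x => ?_, ?_, fun s hs => ?_⟩
  · rw [EE_apply, h1.zero, h2.zero]
  · rw [EE_apply, h1.add s t hs ht, h2.add s t hs ht, EE_apply, EE_apply]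
  · have c1 := h1.cont.comp (continuous_fst.prodMk (continuous_snd (X := ℝ) (Y := XX K M)).fst)
    have c2 := h2.cont.comp (continuous_fst.prodMk (continuous_snd (X := ℝ) (Y := XX K M)).snd)
    simp only [EE_apply]
    exact c1.prodMk c2
  · refine ContinuousLinearMap.opNorm_le_bound _ (Real.exp_pos _).le fun x => ?_
    rw [EE_apply, Prod.norm_mk]
    exact max_le (((Eop K M _ _ s).le_of_opNorm_le_of_le (h1.norm s hs) (norm_fst_le x)))
      (((Eop K M _ _ s).le_of_opNorm_le_of_le (h2.norm s hs) (norm_snd_le x)))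

theorem LOp_trb (K : ℕ) {M : ℝ} (hM : 1 ≤ M) (η ξ : E) :
    wt K M ξ * ‖(1 : ℂ)‖ ≤ wt K M η * 1 ^ 12 * wt K M ((1 : ℝ) • ξ - η) := by
  simpa using wt_add K (by linarith : 0 < M) η (ξ - η)

theorem LOp_trs (K : ℕ) {M : ℝ} (hM : 1 ≤ M) (η : E) :
    IsW (fun _ => 1) 1 η (tr K M η) ∧ ‖tr K M η‖ ≤ wt K M η :=
  wco_spec K K hM _ continuous_const 1 one_pos η _ (alg_wt_nonneg K (by linarith) η)
    (LOp_trb K hM η)

theorem tr_ae (K : ℕ) {M : ℝ} (hM : 1 ≤ M) (η : E) (x : XS K M) :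
    (tr K M η x : E → ℂ) =ᵐ[volume] fun ξ => x (ξ - η) := by
  simpa only [one_smul, one_mul] using (LOp_trs K hM η).1 x

theorem tr_norm (K : ℕ) {M : ℝ} (hM : 1 ≤ M) (η : E) : ‖tr K M η‖ ≤ wt K M η :=
  (LOp_trs K hM η).2

theorem tr_cont (K : ℕ) {M : ℝ} (hM : 1 ≤ M) :
    Continuous fun q : E × XS K M => tr K M q.1 q.2 :=
  wco_cont K K hM (fun _ _ => 1) continuous_const (fun _ => 1) continuous_const (fun _ => one_pos)
    (fun η => η) continuous_id (wt K M) (by unfold wt; fun_prop)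
    (alg_wt_nonneg K (by linarith)) (LOp_trb K hM)

theorem tr_zero (K : ℕ) {M : ℝ} (hM : 1 ≤ M) (x : XS K M) : tr K M 0 x = x :=
  XS_ext hM (by simpa only [sub_zero] using tr_ae K hM 0 x)

theorem LOp_shift (η : E) {p : E → Prop} (h : ∀ᵐ ξ, p ξ) : ∀ᵐ ξ, p (ξ - η) :=
  (measurePreserving_sub_right volume η).quasiMeasurePreserving.ae h

theorem tr_tr (K : ℕ) {M : ℝ} (hM : 1 ≤ M) (η η' : E) (x : XS K M) :
    tr K M η (tr K M η' x) = tr K M (η + η') x := XS_ext hM (by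
  filter_upwards [tr_ae K hM η (tr K M η' x), tr_ae K hM (η + η') x,
    LOp_shift η (tr_ae K hM η' x)] with ξ h1 h2 h3
  rw [h1, h2, h3, sub_sub])

/-- free flow of a translate -/
theorem Eop_tr (K : ℕ) {M : ℝ} (hM : 1 ≤ M) {b : ℂ} (hb : 0 ≤ b.re) (ε : ℝ) {s : ℝ} (hs : 0 ≤ s)
    (η : E) (k : XS K M) :
    ‖Eop K M b ε s (tr K M η k)‖ ≤ wt K M (Real.exp (-s / 2) • η) * ‖k‖ := by
  have hM0 : 0 < M := by linarith
  have hw := alg_wt_nonneg K hM0
  rw [← ENNReal.ofReal_le_ofReal_iff (mul_nonneg (hw _) (norm_nonneg _)), Eop_wn K hM,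
    ENNReal.ofReal_mul (hw _), XS_norm hM, wn, ← lintegral_const_mul' _ _ ENNReal.ofReal_ne_top,
    ← lintegral_sub_right_eq_self (fun ξ => ENNReal.ofReal (wt K M (Real.exp (-s / 2) • η)) *
      ENNReal.ofReal (wt K M ξ * ‖k ξ‖)) η]
  refine lintegral_mono_ae ?_
  filter_upwards [tr_ae K hM η k] with ξ h
  rw [h, ← ENNReal.ofReal_mul (hw _), ← mul_assoc]
  refine ENNReal.ofReal_le_ofReal (mul_le_mul_of_nonneg_right ?_ (norm_nonneg _))
  refine (mul_le_of_le_one_left (hw _) (Real.exp_le_one_iff.2 (by nlinarith))).trans ?_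
  conv_lhs => rw [← add_sub_cancel η ξ, smul_add]
  refine (wt_add K hM0 _ _).trans (mul_le_mul_of_nonneg_left (wt_mono K hM ?_) (hw _))
  rw [norm_smul, Real.norm_of_nonneg (Real.exp_pos _).le]
  exact mul_le_of_le_one_left (norm_nonneg _) (Real.exp_le_one_iff.2 (by linarith))

theorem phys_tr (K : ℕ) {M : ℝ} (hM : 1 ≤ M) (η : E) (k : XS K M) (y : E) :
    phys (tr K M η k) y = Complex.exp (I * ((inner ℝ η y : ℝ) : ℂ)) * phys k y := by
  rw [phys_congr (tr_ae K hM η k), phys, phys, ← integral_const_mul,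
    ← integral_add_right_eq_self _ η]
  refine integral_congr_ae (Eventually.of_forall fun ξ => ?_)
  simp only [add_sub_cancel_right, inner_add_left, Complex.ofReal_add, mul_add, Complex.exp_add]
  ring

theorem LOp_Js (K : ℕ) {M : ℝ} (hM : 1 ≤ M) :
    IsW (fun _ => 1) 1 0 (Jop K M) ∧ ‖Jop K M‖ ≤ 1 :=
  wco_spec K 0 hM _ continuous_const 1 one_pos 0 1 zero_le_one fun ξ => by
    simpa [wt_zero] using one_le_wt K (by linarith : 0 < M) ξ

theorem Jop_ae (K : ℕ) {M : ℝ} (hM : 1 ≤ M) (x : XS K M) :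
    (Jop K M x : E → ℂ) =ᵐ[volume] x := by
  simpa only [one_smul, one_mul, sub_zero] using (LOp_Js K hM).1 x

theorem Jop_norm (K : ℕ) {M : ℝ} (hM : 1 ≤ M) (x : XS K M) : ‖Jop K M x‖ ≤ ‖x‖ := by
  simpa only [one_mul] using (Jop K M).le_of_opNorm_le (LOp_Js K hM).2 x

theorem Jop_Eop (K : ℕ) {M : ℝ} (hM : 1 ≤ M) (b : ℂ) (ε σ : ℝ) (x : XS K M) :
    Jop K M (Eop K M b ε σ x) = Eop 0 M b ε σ (Jop K M x) := XS_ext hM (by
  filter_upwards [Jop_ae K hM (Eop K M b ε σ x), Eop_ae K hM b ε σ x,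
    Eop_ae 0 hM b ε σ (Jop K M x), LOp_pull (Real.exp_pos (σ / 2)) (Jop_ae K hM x)]
    with ξ h1 h2 h3 h4
  rw [h1, h2, h3, h4])

theorem Jop_tr (K : ℕ) {M : ℝ} (hM : 1 ≤ M) (η : E) (x : XS K M) :
    Jop K M (tr K M η x) = tr 0 M η (Jop K M x) := XS_ext hM (by
  filter_upwards [Jop_ae K hM (tr K M η x), tr_ae K hM η x, tr_ae 0 hM η (Jop K M x),
    LOp_shift η (Jop_ae K hM x)] with ξ h1 h2 h3 h4
  rw [h1, h2, h3, h4])

theorem Jop_toX (K : ℕ) {M : ℝ} (hM : 1 ≤ M) {f : E → ℂ} (hf : AEStronglyMeasurable f volume)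
    (h : wn K M f ≠ ⊤) : Jop K M (toX K M f) = toX 0 M f := by
  refine XS_ext hM (((Jop_ae K hM _).trans (toX_ae hM hf h)).trans (toX_ae hM hf ?_).symm)
  refine ne_top_of_le_ne_top h (lintegral_mono fun ξ => ENNReal.ofReal_le_ofReal ?_)
  rw [wt_zero]
  exact mul_le_mul_of_nonneg_right (one_le_wt K (by linarith) ξ) (norm_nonneg _)

end Vale.Agent.P139
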