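import Vale.Agent.P139.LOp
import Vale.Agent.P139.F2

open Complex MeasureTheory Filter Topology
open scoped ComplexConjugate ContDiff

namespace Vale.Agent.P139

noncomputable def LPh_L : E →L[ℝ] E →L[ℝ] ℝ := (-(2 * Real.pi)⁻¹) • innerSL ℝ

theorem LPh_La (ξ y : E) : LPh_L ξ y = -(2 * Real.pi)⁻¹ * inner ℝ ξ y := rfl

theorem LPh_eq (f : E → ℂ) :
    phys f = VectorFourier.fourierIntegral Real.fourierChar volume LPh_L.toLinearMap₁₂ f := by
  ext y
  refine integral_congr_ae (Eventually.of_forall fun ξ => ?_)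
  have h : 2 * Real.pi * -LPh_L.toLinearMap₁₂ ξ y = inner ℝ ξ y := by
    rw [show LPh_L.toLinearMap₁₂ ξ y = _ from LPh_La ξ y]
    field_simp
  simp only [Circle.smul_def, Real.fourierChar_apply, h, smul_eq_mul]
  rw [mul_comm, mul_comm I]

theorem LPh_int {F : Type*} [NormedAddCommGroup F] {f : E → ℂ} {j : ℕ}
    (h : Integrable fun ξ => (1 + ‖ξ‖) ^ j * ‖f ξ‖) {g : E → F} (hg : AEStronglyMeasurable g)
    (C : ℝ) (hC : ∀ ξ, ‖g ξ‖ ≤ C * (1 + ‖ξ‖) ^ j * ‖f ξ‖) : Integrable g :=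
  (h.const_mul C).mono' hg (Eventually.of_forall fun ξ => (hC ξ).trans_eq (mul_assoc _ _ _))

theorem LPh_mom {f : E → ℂ} (hf : AEStronglyMeasurable f) {j : ℕ}
    (h : Integrable fun ξ => (1 + ‖ξ‖) ^ j * ‖f ξ‖) {n : ℕ} (hn : n ≤ j) :
    Integrable fun ξ => ‖ξ‖ ^ n * ‖f ξ‖ := by
  refine LPh_int h ((continuous_norm.pow n).aestronglyMeasurable.mul hf.norm) 1 fun ξ => ?_
  rw [Real.norm_of_nonneg (by positivity), one_mul]
  have := norm_nonneg ξ
  exact mul_le_mul_of_nonneg_right ((pow_le_pow_left₀ this (by linarith) n).trans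
    (pow_le_pow_right₀ (by linarith) hn)) (norm_nonneg _)

theorem phys_Cb {K : ℕ} (hK : 16 ≤ K) {M : ℝ} (hM : 1 ≤ M) (x : XS K M) : Cb (phys x) := by
  have h : ∀ n : ℕ, (n : ℕ∞) ≤ (16 : ℕ) → Integrable fun ξ => ‖ξ‖ ^ n * ‖x ξ‖ := fun n hn =>
    LPh_mom (XS_aesm hM x) (XS_mom hM x hK).1 (mod_cast hn)
  rw [LPh_eq]
  refine ⟨VectorFourier.contDiff_fourierIntegral LPh_L h,
    ∑ k ∈ Finset.range 17, ∫ v, ‖VectorFourier.fourierPowSMulRight LPh_L x v k‖, fun k hk y => ?_⟩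
  rw [VectorFourier.iteratedFDeriv_fourierIntegral LPh_L h (XS_aesm hM x) (mod_cast hk)]
  exact (VectorFourier.norm_fourierIntegral_le_integral_norm _ _ _ _ _).trans
    (Finset.single_le_sum (f := fun k => ∫ v, ‖VectorFourier.fourierPowSMulRight LPh_L x v k‖)
      (fun _ _ => integral_nonneg fun _ => norm_nonneg _) (Finset.mem_range.2 (by omega)))

theorem LPh_e (ξ y : E) : ‖Complex.exp (I * ((inner ℝ ξ y : ℝ) : ℂ))‖ = 1 :=
  Complex.norm_exp_I_mul_ofReal _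

theorem LPh_ie {f : E → ℂ} (hf : Integrable f) (y : E) :
    Integrable fun ξ => f ξ * Complex.exp (I * ((inner ℝ ξ y : ℝ) : ℂ)) :=
  hf.mul_bdd (c := 1) (Continuous.aestronglyMeasurable (by fun_prop))
    (Eventually.of_forall fun ξ => (LPh_e ξ y).le)

theorem XS_phys_inj {K : ℕ} {M : ℝ} (hM : 1 ≤ M) {x y : XS K M} (h : phys x = phys y) :
    x = y := by
  refine XS_ext hM (sub_ae_eq_zero _ _ |>.1 (phys_inj _ ((XS_int hM x).sub (XS_int hM y)) ?_))
  ext z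
  simp only [phys, Pi.sub_apply, sub_mul]
  rw [integral_sub (LPh_ie (XS_int hM x) z) (LPh_ie (XS_int hM y) z)]
  exact sub_eq_zero.2 (congrFun h z)

theorem LPh_step {f : E → ℂ} (hf : AEStronglyMeasurable f) {j : ℕ}
    (h : Integrable fun ξ => (1 + ‖ξ‖) ^ (j + 1) * ‖f ξ‖) (v : E) :
    AEStronglyMeasurable (fun ξ => I * ((inner ℝ ξ v : ℝ) : ℂ) * f ξ) ∧
      Integrable fun ξ => (1 + ‖ξ‖) ^ j * ‖I * ((inner ℝ ξ v : ℝ) : ℂ) * f ξ‖ := by
  have hm : AEStronglyMeasurable (fun ξ => I * ((inner ℝ ξ v : ℝ) : ℂ) * f ξ) :=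
    (Continuous.aestronglyMeasurable (by fun_prop)).mul hf
  refine ⟨hm, LPh_int h ((Continuous.aestronglyMeasurable (by fun_prop)).mul hm.norm) ‖v‖
    fun ξ => ?_⟩
  rw [Real.norm_of_nonneg (by positivity), norm_mul, norm_mul, Complex.norm_I, one_mul,
    Complex.norm_real]
  calc _ ≤ (1 + ‖ξ‖) ^ j * (((1 + ‖ξ‖) * ‖v‖) * ‖f ξ‖) := by
        gcongr
        exact (norm_inner_le_norm ξ v).trans (by gcongr; linarith)
    _ = _ := by ring

theorem LPh_int0 {f : E → ℂ} (hf : AEStronglyMeasurable f) {j : ℕ}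
    (h : Integrable fun ξ => (1 + ‖ξ‖) ^ j * ‖f ξ‖) : Integrable f :=
  (integrable_norm_iff hf).1 (by simpa using LPh_mom hf h (Nat.zero_le _))

theorem LPh_fd {f : E → ℂ} (hf : AEStronglyMeasurable f) {j : ℕ}
    (h : Integrable fun ξ => (1 + ‖ξ‖) ^ (j + 1) * ‖f ξ‖) (y v : E) :
    fderiv ℝ (phys f) y v = phys (fun ξ => I * ((inner ℝ ξ v : ℝ) : ℂ) * f ξ) y := by
  have h1 : Integrable fun ξ => ‖ξ‖ * ‖f ξ‖ := by simpa using LPh_mom hf h (Nat.le_add_left 1 j)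
  rw [LPh_eq, LPh_eq, VectorFourier.fderiv_fourierIntegral LPh_L (LPh_int0 hf h) h1,
    Real.fourierIntegral_continuousLinearMap_apply' ((h1.const_mul (2 * Real.pi * ‖LPh_L‖)).mono'
      hf.fourierSMulRight (Eventually.of_forall fun ξ =>
        (VectorFourier.norm_fourierSMulRight_le _ _ _).trans_eq (mul_assoc _ _ _)))]
  congr 1
  ext ξ
  have : (Real.pi : ℂ) ≠ 0 := Complex.ofReal_ne_zero.2 Real.pi_ne_zero
  rw [VectorFourier.fourierSMulRight_apply, LPh_La, Complex.real_smul, smul_eq_mul]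
  push_cast
  field_simp

theorem LPh_lap {f : E → ℂ} (hf : AEStronglyMeasurable f)
    (h : Integrable fun ξ => (1 + ‖ξ‖) ^ 2 * ‖f ξ‖) (y : E) :
    lap (phys f) y = phys (fun ξ => -((‖ξ‖ ^ 2 : ℝ) : ℂ) * f ξ) y := by
  have h1 := fun v => LPh_step hf h v
  have h2 := fun v => LPh_step (h1 v).1 (h1 v).2 v
  simp only [lap, LPh_fd hf h, fun v => LPh_fd (h1 v).1 (h1 v).2]
  unfold phys
  rw [← integral_finsetSum _ fun j _ => LPh_ie (LPh_int0 (h2 _).1 (h2 _).2) y]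
  refine integral_congr_ae (Eventually.of_forall fun ξ => ?_)
  simp only [EuclideanSpace.inner_single_right, EuclideanSpace.real_norm_sq_eq]
  push_cast
  rw [← Finset.sum_neg_distrib, Finset.sum_mul, Finset.sum_mul]
  refine Finset.sum_congr rfl fun j _ => ?_
  simp only [one_mul, conj_trivial]
  linear_combination (ξ j : ℂ) ^ 2 * f ξ * Complex.exp (I * ((inner ℝ ξ y : ℝ) : ℂ)) * I_mul_I

/-- phase after the change of variables -/
noncomputable def LPh_p (b : ℂ) (ε : ℝ) (y : E) (h : ℝ) (z : E) : ℂ :=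
  -b * h + I * ((-ε * (1 - Real.exp (-h)) * ‖z‖ ^ 2 + Real.exp (-h / 2) * inner ℝ z y : ℝ) : ℂ)

noncomputable def LPh_d (b : ℂ) (ε : ℝ) (y : E) (h : ℝ) (z : E) : ℂ :=
  Complex.exp (LPh_p b ε y h z) *
    (-b + I * ((-ε * Real.exp (-h) * ‖z‖ ^ 2 - Real.exp (-h / 2) / 2 * inner ℝ z y : ℝ) : ℂ))

theorem LPh_der (b : ℂ) (ε : ℝ) (y : E) (h : ℝ) (z : E) :
    HasDerivAt (fun t => Complex.exp (LPh_p b ε y t z)) (LPh_d b ε y h z) h := by
  have h1 := (((((hasDerivAt_neg h).exp.const_sub 1).const_mul (-ε)).mul_const (‖z‖ ^ 2)).fun_add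
    (((hasDerivAt_neg h).div_const 2).exp.mul_const (inner ℝ z y))).ofReal_comp.const_mul I
  refine ((((hasDerivAt_id h).ofReal_comp.const_mul (-b)).fun_add h1).cexp).congr_deriv ?_
  simp only [LPh_d, LPh_p, id]
  congr 1
  push_cast
  ring

theorem LPh_pn (b : ℂ) (ε : ℝ) (y : E) (h : ℝ) (z : E) :
    ‖Complex.exp (LPh_p b ε y h z)‖ = Real.exp (-b.re * h) := by
  rw [LPh_p, Complex.exp_add, norm_mul, Complex.norm_exp_I_mul_ofReal, mul_one, Complex.norm_exp]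
  simp

theorem LPh_dn (b : ℂ) (ε : ℝ) (y : E) {h : ℝ} (hh : |h| ≤ 1) (z : E) :
    ‖LPh_d b ε y h z‖ ≤ Real.exp ‖b‖ * (‖b‖ + |ε| * Real.exp 1 + Real.exp 1 * ‖y‖) *
      (1 + ‖z‖) ^ 2 := by
  have hz := norm_nonneg z
  have h0 := neg_abs_le h
  have h1 : -b.re * h ≤ ‖b‖ := (le_abs_self _).trans (by
    rw [abs_mul, abs_neg]
    exact (mul_le_of_le_one_right (abs_nonneg _) hh).trans (Complex.abs_re_le_norm b))
  have h2 : |(-ε) * Real.exp (-h) * ‖z‖ ^ 2| ≤ |ε| * Real.exp 1 * (1 + ‖z‖) ^ 2 := by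
    rw [abs_mul, abs_mul, abs_neg, Real.abs_exp, abs_of_nonneg (sq_nonneg ‖z‖)]
    gcongr <;> linarith
  have h3 : |Real.exp (-h / 2) / 2 * inner ℝ z y| ≤ Real.exp 1 * ‖y‖ * (1 + ‖z‖) ^ 2 := by
    rw [abs_mul, abs_of_nonneg (by positivity), mul_assoc, mul_comm ‖y‖]
    refine mul_le_mul ((half_le_self (Real.exp_pos _).le).trans (by gcongr; linarith))
      ((abs_real_inner_le_norm z y).trans ?_) (abs_nonneg _) (Real.exp_pos _).le
    gcongr
    nlinarith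
  have h4 : ‖b‖ ≤ ‖b‖ * (1 + ‖z‖) ^ 2 := le_mul_of_one_le_right (norm_nonneg _) (by nlinarith)
  rw [LPh_d, norm_mul, LPh_pn, mul_assoc (Real.exp ‖b‖)]
  refine mul_le_mul (Real.exp_le_exp.2 h1) ((norm_add_le _ _).trans ?_) (norm_nonneg _)
    (Real.exp_pos _).le
  rw [norm_neg, norm_mul, Complex.norm_I, one_mul, Complex.norm_real, Real.norm_eq_abs]
  linarith [abs_sub ((-ε) * Real.exp (-h) * ‖z‖ ^ 2) (Real.exp (-h / 2) / 2 * inner ℝ z y)]

theorem LPh_ev {K : ℕ} {M : ℝ} (hM : 1 ≤ M) (b : ℂ) (ε : ℝ) (y : E) (h : ℝ) (x : XS K M) :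
    phys (Eop K M b ε h x) y = ∫ z, x z * Complex.exp (LPh_p b ε y h z) := by
  have hc : 0 < Real.exp (h / 2) ^ 12 := by positivity
  have e := Measure.integral_comp_smul volume (fun z => x z * Complex.exp (LPh_p b ε y h z))
    (Real.exp (h / 2))
  rw [F2_fin, abs_of_pos (inv_pos.2 hc), eq_inv_smul_iff₀ hc.ne', ← integral_smul] at e
  rw [phys_congr (Eop_ae K hM b ε h x), phys, ← e]
  refine integral_congr_ae (Eventually.of_forall fun ξ => ?_)
  have e1 : -ε * (1 - Real.exp (-h)) * ‖Real.exp (h / 2) • ξ‖ ^ 2 +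
      Real.exp (-h / 2) * inner ℝ (Real.exp (h / 2) • ξ) y =
      -(ε * (Real.exp h - 1) * ‖ξ‖ ^ 2) + inner ℝ ξ y := by
    have a1 : Real.exp (h / 2) ^ 2 = Real.exp h := by
      rw [← Real.exp_nat_mul]; congr 1; push_cast; ring
    have a2 : Real.exp (-h) * Real.exp h = 1 := by rw [← Real.exp_add]; simp
    rw [← real_inner_smul_left, LOp_inv, norm_smul, Real.norm_of_nonneg (Real.exp_pos _).le,
      mul_pow, a1]
    linear_combination ε * ‖ξ‖ ^ 2 * a2
  simp only [LPh_p, e1, Em]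
  rw [← Real.exp_nat_mul, show ((12 : ℕ) : ℝ) * (h / 2) = 6 * h by push_cast; ring,
    Complex.ofReal_add, Complex.ofReal_neg, mul_add, Complex.exp_add, Complex.exp_add, mul_neg,
    ← neg_mul I, Complex.real_smul]
  ring

/-- point evaluations are in the domain of the adjoint generator -/
theorem gen_ev {K : ℕ} (hK : 16 ≤ K) {M : ℝ} (hM : 1 ≤ M) (b : ℂ) (ε : ℝ) (y : E) :
    ∃ l l' : XS K M →L[ℂ] ℂ, Gen (Eop K M b ε) l l' ∧ (∀ x : XS K M, l x = phys x y) ∧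
      ∀ x : XS K M, l' x = -b * phys x y + I * ε * lap (phys x) y
        - 1 / 2 * fderiv ℝ (phys x) y y := by
  have hM0 : 0 < M := by linarith
  have hp : ∀ h, Continuous fun z => Complex.exp (LPh_p b ε y h z) := fun h => by
    unfold LPh_p
    fun_prop
  have hd : Continuous (LPh_d b ε y 0) := (hp 0).mul (by fun_prop)
  obtain ⟨l, hl⟩ := exists_ev K hM y
  obtain ⟨l', hl'⟩ := exists_fnl (K := K) hM _ hd (Real.exp ‖b‖ * (‖b‖ + |ε| * Real.exp 1 +
      Real.exp 1 * ‖y‖) * M ^ 2) fun ξ => (LPh_dn b ε y (by simp) ξ).trans (by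
    have h1 : (1 + ‖ξ‖) ^ 2 ≤ M ^ 2 * (1 + ‖ξ‖ / M) ^ 2 := by
      rw [← mul_pow, mul_add, mul_div_cancel₀ _ hM0.ne', mul_one]
      gcongr
    have h2 : (1 + ‖ξ‖ / M) ^ 2 ≤ wt K M ξ :=
      pow_le_pow_right₀ (le_add_of_nonneg_right (by positivity)) (by omega)
    rw [mul_assoc _ (M ^ 2)]
    exact mul_le_mul_of_nonneg_left (h1.trans (by gcongr)) (by positivity))
  refine ⟨l, l', fun x => ?_, hl, fun x => ?_⟩
  · simp only [hl, hl', LPh_ev hM]
    refine (hasDerivAt_integral_of_dominated_loc_of_deriv_le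
      (F := fun h z => x z * Complex.exp (LPh_p b ε y h z))
      (F' := fun h z => x z * LPh_d b ε y h z) (Metric.closedBall_mem_nhds 0 one_pos)
      (Eventually.of_forall fun h => (XS_aesm hM x).mul (hp h).aestronglyMeasurable)
      ((XS_int hM x).mul_bdd (hp 0).aestronglyMeasurable
        (Eventually.of_forall fun z => (LPh_pn b ε y 0 z).le))
      ((XS_aesm hM x).mul hd.aestronglyMeasurable) (Eventually.of_forall fun z h hh => ?_)
      ((XS_mom hM x (j := 2) (by omega)).1.const_mul (Real.exp ‖b‖ * (‖b‖ + |ε| * Real.exp 1 +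
        Real.exp 1 * ‖y‖)))
      (Eventually.of_forall fun z h _ => (LPh_der b ε y h z).const_mul _)).2.hasDerivWithinAt
    rw [norm_mul, mul_comm, ← mul_assoc]
    exact mul_le_mul_of_nonneg_right (LPh_dn b ε y (by simpa using hh) z) (norm_nonneg _)
  · have h0 := XS_aesm hM x
    have h2 := (XS_mom hM x (j := 2) (by omega)).1
    have i1 := (LPh_ie (XS_int hM x) y).const_mul (-b)
    have i2 : Integrable fun ξ : E => -((‖ξ‖ ^ 2 : ℝ) : ℂ) * x ξ :=
      (integrable_norm_iff ((Continuous.aestronglyMeasurable (by fun_prop)).mul h0)).1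
        (by simpa using LPh_mom h0 h2 le_rfl)
    have i3 := (LPh_ie i2 y).const_mul (I * ε)
    have i4 := (LPh_ie (LPh_int0 (LPh_step h0 h2 y).1 (LPh_step h0 h2 y).2) y).const_mul (1 / 2)
    rw [hl', LPh_lap h0 h2, LPh_fd h0 h2, phys, phys, phys, ← integral_const_mul,
      ← integral_const_mul, ← integral_const_mul, ← integral_add i1 i3]
    refine Eq.trans ?_ (integral_sub (i1.add i3) i4)
    refine integral_congr_ae (Eventually.of_forall fun ξ => ?_)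
    simp only [LPh_d, LPh_p, neg_zero, zero_div, Real.exp_zero, sub_self, mul_zero, zero_mul,
      zero_add, one_mul, mul_one, Complex.ofReal_zero]
    push_cast
    ring

end Vale.Agent.P139
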