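import Vale.Agent.P139.LMode
import Vale.Agent.P139.LA5

open Complex MeasureTheory Filter Topology
open scoped ComplexConjugate ContDiff

namespace Vale.Agent.P139

/-- stable splitting on R^12, read in the unweighted space -/
theorem lr_main {m : ℕ} {om : ℝ} {w : ℝ → ℂ} (h : Prof m om w) (hp : PMS m om w)
    {k1 k2 k3 : E → ℂ} (h1 : Dens (g1 m w) k1) (h2 : Dens (g2 m w) k2) (h3 : Dens (g3 m w) k3)
    (A : ℝ) : ∃ K0 : ℕ, ∀ K : ℕ, K0 ≤ K → ∀ M : ℝ, 1 ≤ M → ‖toX K M k1‖ ≤ A →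
      ‖toX K M k2‖ ≤ A → ‖toX K M k3‖ ≤ A → ∃ C θ : ℝ, 0 ≤ C ∧ 0 < θ ∧ θ ≤ 1 ∧
        ∀ x : XX K M, ∃ (β : Co) (e : XX 0 M) (η : ℝ → XX 0 M), ‖β‖ ≤ C * ‖x‖ ∧
          phys e.1 = mode1 m om w β ∧ phys e.2 = mode2 m om w β ∧
          Mild (LEE 0 M m om) (CC (toX 0 M k1) (toX 0 M k2) (toX 0 M k3) Set.univ) η ∧
          η 0 = (Jop K M x.1, Jop K M x.2) - e ∧
          ∀ σ, 0 ≤ σ → ‖η σ‖ ≤ C * Real.exp (-θ * σ) * ‖x‖ := by
  have ha := h.aa_pos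
  have hg : 0 < 1 - Real.exp (-aa m) := by
    have := Real.exp_lt_exp.2 (neg_neg_of_pos ha)
    rw [Real.exp_zero] at this
    linarith
  obtain ⟨n, hn⟩ := exists_nat_gt (4 * (2 * A * Real.exp (2 * A)) / (1 - Real.exp (-aa m)))
  refine ⟨n + 16, fun K hK M hM n1 n2 n3 => ?_⟩
  have hK16 : 16 ≤ K := by omega
  have hKn : (n : ℝ) ≤ K := by exact_mod_cast (by omega : n ≤ K)
  have hK0 : (0 : ℝ) < K / 4 := by
    have : (16 : ℝ) ≤ K := by exact_mod_cast hK16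
    linarith
  have hsm : Real.exp (-aa m) + 2 * A * Real.exp (2 * A) / (K / 4) < 1 := by
    have e1 := (div_lt_iff₀ hg).1 (hn.trans_le hKn)
    have e2 : 2 * A * Real.exp (2 * A) / (K / 4) < 1 - Real.exp (-aa m) := by
      rw [div_lt_iff₀ hK0]
      linarith
    linarith
  have p1 : phys (toX K M k1) = g1 m w := (phys_congr (h1.ae K hM)).trans h1.2.2.1
  have p2 : phys (toX K M k2) = g2 m w := (phys_congr (h2.ae K hM)).trans h2.2.2.1
  have p3 : phys (toX K M k3) = g3 m w := (phys_congr (h3.ae K hM)).trans h3.2.2.1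
  obtain ⟨Θ, hΘ⟩ := exists_theta h K hM
  obtain ⟨C0, θ, hC0, hθ, hθ1, H⟩ := abs_main (EE_sg K hM m om) ha.le
    (CC_split hM (toX K M k1) (toX K M k2) (toX K M k3)
      (Metric.isClosed_closedBall (x := (0 : E)) (ε := 2 * M)).measurableSet)
    (CC_compact hM _ _ _ (2 * M)) (CC_norm hM n1 n2 n3 _) hK0
    (fun s hs x => CC_high hM n1 n2 n3 m om hs x) hsm (LinearMap.range Θ)
    (theta_wms hp hK16 hM p1 p2 p3 Θ hΘ)
  obtain ⟨C1, hC1, Hp⟩ := lin_pre Θ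
  refine ⟨(C1 + 1) * C0, θ, by positivity, hθ, hθ1, fun x => ?_⟩
  obtain ⟨e, heG, he, η, hη, hη0, hdec⟩ := H x
  obtain ⟨β, rfl, hβ⟩ := Hp e heG
  have j : ∀ {g k : E → ℂ}, Dens g k → Jop K M (toX K M k) = toX 0 M k := fun hk =>
    XS_ext hM ((Jop_ae K hM _).trans ((hk.ae K hM).trans (hk.ae 0 hM).symm))
  refine ⟨β, (Jop K M (Θ β).1, Jop K M (Θ β).2),
    fun σ => (Jop K M).prodMap (Jop K M) (η σ), ?_, ?_, ?_, ?_, ?_, fun σ hσ => ?_⟩
  · calc ‖β‖ ≤ C1 * (C0 * ‖x‖) := hβ.trans (by gcongr)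
      _ ≤ (C1 + 1) * (C0 * ‖x‖) := by gcongr; linarith
      _ = _ := by ring
  · exact (phys_congr (Jop_ae K hM _)).trans (hΘ β).1
  · exact (phys_congr (Jop_ae K hM _)).trans (hΘ β).2
  · refine Mild.map (EE_sg K hM m om) hη _ _ _ (fun s _ y => ?_) fun y => ?_
    · simp only [EE_apply, ContinuousLinearMap.coe_prodMap', Prod.map, Jop_Eop K hM]
    · simp only [CC_apply, ContinuousLinearMap.coe_prodMap', Prod.map, map_smul, map_add,
        Jop_cvS hM, j h1, j h2, j h3]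
  · simp only [hη0, ContinuousLinearMap.coe_prodMap', Prod.map,
      map_sub, Prod.mk_sub_mk]
  · have e1 : ‖(Jop K M).prodMap (Jop K M) (η σ)‖ ≤ ‖η σ‖ :=
      max_le ((Jop_norm K hM _).trans (norm_fst_le _)) ((Jop_norm K hM _).trans (norm_snd_le _))
    refine e1.trans ((hdec σ hσ).trans ?_)
    gcongr
    exact le_mul_of_one_le_left hC0 (by linarith)

end Vale.Agent.P139
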