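import Vale.Agent.P139.LDefs

open Complex MeasureTheory Filter Topology
open scoped ComplexConjugate ContDiff

namespace Vale.Agent.P139

theorem lsp_cont (K : ℕ) (M : ℝ) : Continuous (wt K M) := by
  unfold wt
  fun_prop

theorem lsp_pos (K : ℕ) {M : ℝ} (hM : 1 ≤ M) (ξ : E) : 0 < wt K M ξ :=
  one_pos.trans_le (one_le_wt K (one_pos.trans_le hM) ξ)

theorem lsp_meas (K : ℕ) (M : ℝ) : Measurable fun ξ => ENNReal.ofReal (wt K M ξ) :=
  (lsp_cont K M).measurable.ennreal_ofReal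

theorem lsp_ac' (K : ℕ) (M : ℝ) : muw K M ≪ volume := withDensity_absolutelyContinuous _ _

theorem lsp_ac (K : ℕ) {M : ℝ} (hM : 1 ≤ M) : volume ≪ muw K M :=
  withDensity_absolutelyContinuous' (lsp_meas K M).aemeasurable
    (ae_of_all _ fun ξ => (ENNReal.ofReal_pos.2 (lsp_pos K hM ξ)).ne')

theorem ae_muw (K : ℕ) {M : ℝ} (hM : 1 ≤ M) : ae (muw K M) = ae (volume : Measure E) := by
  exact le_antisymm (Measure.ae_le_iff_absolutelyContinuous.2 (lsp_ac' K M))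
    (Measure.ae_le_iff_absolutelyContinuous.2 (lsp_ac K hM))

theorem XS_aesm {K : ℕ} {M : ℝ} (hM : 1 ≤ M) (x : XS K M) :
    AEStronglyMeasurable (x : E → ℂ) volume := by
  exact (Lp.aestronglyMeasurable x).mono_ac (lsp_ac K hM)

theorem XS_ext {K : ℕ} {M : ℝ} (hM : 1 ≤ M) {x y : XS K M}
    (h : (x : E → ℂ) =ᵐ[volume] y) : x = y := by
  have _ := hM
  exact Lp.ext ((lsp_ac' K M).ae_eq h)

theorem XS_add {K : ℕ} {M : ℝ} (hM : 1 ≤ M) (x y : XS K M) :
    ((x + y : XS K M) : E → ℂ) =ᵐ[volume] fun ξ => x ξ + y ξ := by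
  exact (lsp_ac K hM).ae_eq (Lp.coeFn_add x y)

theorem XS_sub {K : ℕ} {M : ℝ} (hM : 1 ≤ M) (x y : XS K M) :
    ((x - y : XS K M) : E → ℂ) =ᵐ[volume] fun ξ => x ξ - y ξ := by
  exact (lsp_ac K hM).ae_eq (Lp.coeFn_sub x y)

theorem XS_smul {K : ℕ} {M : ℝ} (hM : 1 ≤ M) (c : ℂ) (x : XS K M) :
    ((c • x : XS K M) : E → ℂ) =ᵐ[volume] fun ξ => c * x ξ := by
  exact (lsp_ac K hM).ae_eq (Lp.coeFn_smul c x)

theorem wn_congr (K : ℕ) (M : ℝ) {f g : E → ℂ} (h : f =ᵐ[volume] g) : wn K M f = wn K M g := by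
  refine lintegral_congr_ae ?_
  filter_upwards [h] with ξ hξ
  rw [hξ]

theorem wn_add {K : ℕ} {M : ℝ} (hM : 1 ≤ M) {f g : E → ℂ} (hf : AEStronglyMeasurable f volume) :
    wn K M (fun ξ => f ξ + g ξ) ≤ wn K M f + wn K M g := by
  unfold wn
  rw [← lintegral_add_left' (f := fun ξ => ENNReal.ofReal (wt K M ξ * ‖f ξ‖))
    ((lsp_cont K M).aemeasurable.mul hf.norm.aemeasurable).ennreal_ofReal]
  refine lintegral_mono fun ξ => ?_
  have h0 := (lsp_pos K hM ξ).le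
  refine le_trans (ENNReal.ofReal_le_ofReal ?_) ENNReal.ofReal_add_le
  rw [← mul_add]
  exact mul_le_mul_of_nonneg_left (norm_add_le _ _) h0

theorem lsp_eLp {K : ℕ} {M : ℝ} (hM : 1 ≤ M) (f : E → ℂ) : eLpNorm f 1 (muw K M) = wn K M f := by
  rw [eLpNorm_one_eq_lintegral_enorm, muw, lintegral_withDensity_eq_lintegral_mul_non_measurable _
    (lsp_meas K M) (ae_of_all _ fun _ => ENNReal.ofReal_lt_top)]
  refine lintegral_congr fun ξ => ?_
  rw [Pi.mul_apply, ENNReal.ofReal_mul (lsp_pos K hM ξ).le, ofReal_norm]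

theorem XS_norm {K : ℕ} {M : ℝ} (hM : 1 ≤ M) (x : XS K M) :
    ENNReal.ofReal ‖x‖ = wn K M x := by
  rw [Lp.norm_def, ENNReal.ofReal_toReal (Lp.eLpNorm_ne_top x), lsp_eLp hM]

theorem XS_wint {K : ℕ} {M : ℝ} (hM : 1 ≤ M) (x : XS K M) :
    Integrable (fun ξ => wt K M ξ * ‖x ξ‖) ∧ ‖x‖ = ∫ ξ, wt K M ξ * ‖x ξ‖ := by
  have h0 : 0 ≤ᵐ[volume] fun ξ => wt K M ξ * ‖x ξ‖ :=
    ae_of_all _ fun ξ => mul_nonneg (lsp_pos K hM ξ).le (norm_nonneg _)
  have h1 : AEStronglyMeasurable (fun ξ => wt K M ξ * ‖x ξ‖) volume :=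
    (lsp_cont K M).aestronglyMeasurable.mul (XS_aesm hM x).norm
  have h2 := XS_norm hM x
  unfold wn at h2
  refine ⟨⟨h1, (hasFiniteIntegral_iff_ofReal h0).2 (h2 ▸ ENNReal.ofReal_lt_top)⟩, ?_⟩
  rw [integral_eq_lintegral_of_nonneg_ae h0 h1, ← h2, ENNReal.toReal_ofReal (norm_nonneg _)]

theorem XS_int {K : ℕ} {M : ℝ} (hM : 1 ≤ M) (x : XS K M) : Integrable (x : E → ℂ) := by
  exact (XS_wint hM x).1.mono' (XS_aesm hM x) (ae_of_all _ fun ξ =>
    le_mul_of_one_le_left (norm_nonneg _) (one_le_wt K (one_pos.trans_le hM) ξ))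

/-- polynomial moments -/
theorem XS_mom {K : ℕ} {M : ℝ} (hM : 1 ≤ M) (x : XS K M) {j : ℕ} (hj : j ≤ K) :
    Integrable (fun ξ => (1 + ‖ξ‖) ^ j * ‖x ξ‖) ∧
      ∫ ξ, (1 + ‖ξ‖) ^ j * ‖x ξ‖ ≤ M ^ K * ‖x‖ := by
  have h1 : ∀ ξ : E, (1 + ‖ξ‖) ^ j * ‖x ξ‖ ≤ M ^ K * (wt K M ξ * ‖x ξ‖) := fun ξ => by
    rw [← mul_assoc]
    refine mul_le_mul_of_nonneg_right ((pow_le_pow_right₀
      (le_add_of_nonneg_right (norm_nonneg _)) hj).trans ?_) (norm_nonneg _)
    rw [wt, ← mul_pow, mul_add, mul_one, mul_div_cancel₀ _ (one_pos.trans_le hM).ne']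
    exact pow_le_pow_left₀ (by positivity) (by linarith) _
  have h2 := (XS_wint hM x).1.const_mul (M ^ K)
  have h3 : Integrable fun ξ => (1 + ‖ξ‖) ^ j * ‖x ξ‖ := by
    refine h2.mono' ((Continuous.aestronglyMeasurable (by fun_prop)).mul (XS_aesm hM x).norm)
      (ae_of_all _ fun ξ => ?_)
    rw [Real.norm_of_nonneg (by positivity)]
    exact h1 ξ
  refine ⟨h3, ?_⟩
  rw [(XS_wint hM x).2, ← integral_const_mul]
  exact integral_mono h3 h2 h1

theorem toX_ae {K : ℕ} {M : ℝ} (hM : 1 ≤ M) {f : E → ℂ} (hf : AEStronglyMeasurable f volume)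
    (h : wn K M f ≠ ⊤) : (toX K M f : E → ℂ) =ᵐ[volume] f := by
  have h1 : MemLp f 1 (muw K M) := ⟨hf.mono_ac (lsp_ac' K M), by
    rw [lsp_eLp hM]
    exact h.lt_top⟩
  rw [toX, dif_pos h1]
  exact (lsp_ac K hM).ae_eq h1.coeFn_toLp

theorem wn_le_poly {K : ℕ} {M : ℝ} (hM : 1 ≤ M) (f : E → ℂ) :
    wn K M f ≤ ∫⁻ ξ, ENNReal.ofReal ((1 + ‖ξ‖) ^ K * ‖f ξ‖) := by
  refine lintegral_mono fun ξ => ENNReal.ofReal_le_ofReal
    (mul_le_mul_of_nonneg_right ?_ (norm_nonneg _))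
  have h0 := one_pos.trans_le hM
  exact pow_le_pow_left₀ (by positivity) (add_le_add le_rfl (div_le_self (norm_nonneg _) hM)) _

theorem Dens.ae {g k : E → ℂ} (h : Dens g k) (K : ℕ) {M : ℝ} (hM : 1 ≤ M) :
    (toX K M k : E → ℂ) =ᵐ[volume] k := by
  exact toX_ae hM h.1.aestronglyMeasurable
    ((wn_le_poly hM k).trans_lt (h.2.1 K).lintegral_lt_top).ne

theorem phys_congr {f g : E → ℂ} (h : f =ᵐ[volume] g) : phys f = phys g := by
  funext y
  refine integral_congr_ae ?_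
  filter_upwards [h] with ξ hξ
  rw [hξ]

/-- integration against a continuous function of controlled growth -/
theorem exists_fnl {K : ℕ} {M : ℝ} (hM : 1 ≤ M) (m : E → ℂ) (hm : Continuous m) (B : ℝ)
    (hB : ∀ ξ, ‖m ξ‖ ≤ B * wt K M ξ) :
    ∃ l : XS K M →L[ℂ] ℂ, ∀ x : XS K M, l x = ∫ ξ, x ξ * m ξ := by
  have h1 : ∀ (x : XS K M) ξ, ‖x ξ * m ξ‖ ≤ B * (wt K M ξ * ‖x ξ‖) := fun x ξ => by
    rw [norm_mul, mul_comm, ← mul_assoc]
    exact mul_le_mul_of_nonneg_right (hB ξ) (norm_nonneg _)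
  have h2 : ∀ x : XS K M, Integrable fun ξ => x ξ * m ξ := fun x =>
    ((XS_wint hM x).1.const_mul B).mono' ((XS_aesm hM x).mul hm.aestronglyMeasurable)
      (ae_of_all _ (h1 x))
  refine ⟨LinearMap.mkContinuous
    { toFun := fun x => ∫ ξ, x ξ * m ξ
      map_add' := fun x y => ?_
      map_smul' := fun c x => ?_ } B fun x => ?_, fun x => rfl⟩
  · rw [← integral_add (h2 x) (h2 y)]
    refine integral_congr_ae ?_
    filter_upwards [XS_add hM x y] with ξ hξ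
    rw [hξ, add_mul]
  · rw [RingHom.id_apply, smul_eq_mul, ← integral_const_mul]
    refine integral_congr_ae ?_
    filter_upwards [XS_smul hM c x] with ξ hξ
    rw [hξ, mul_assoc]
  · rw [(XS_wint hM x).2, ← integral_const_mul]
    exact norm_integral_le_of_norm_le ((XS_wint hM x).1.const_mul B) (ae_of_all _ (h1 x))

theorem exists_ev (K : ℕ) {M : ℝ} (hM : 1 ≤ M) (y : E) :
    ∃ l : XS K M →L[ℂ] ℂ, ∀ x : XS K M, l x = phys x y := by
  refine exists_fnl hM (fun ξ => Complex.exp (I * ((inner ℝ ξ y : ℝ) : ℂ))) (by fun_prop) 1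
    fun ξ => ?_
  rw [Complex.norm_exp_I_mul_ofReal, one_mul]
  exact one_le_wt K (one_pos.trans_le hM) ξ

theorem lsp_qmp {c : ℝ} (hc : 0 < c) (η : E) :
    Measure.QuasiMeasurePreserving (fun ξ : E => c • ξ - η) volume volume :=
  (measurePreserving_sub_right volume η).quasiMeasurePreserving.comp
    (Measure.quasiMeasurePreserving_smul volume hc.ne')

theorem lsp_lint {c : ℝ} (hc : 0 < c) (η : E) (g : E → ENNReal) :
    ∫⁻ ξ, g (c • ξ - η) = ENNReal.ofReal (c ^ 12)⁻¹ * ∫⁻ ξ, g ξ := by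
  have h1 := lintegral_map_equiv (μ := volume) (fun ξ => g (ξ - η))
    (MeasurableEquiv.smul₀ (α := E) c hc.ne')
  rw [MeasurableEquiv.coe_smul₀, Measure.map_addHaar_smul volume hc.ne', lintegral_smul_measure,
    lintegral_sub_right_eq_self, finrank_euclideanSpace_fin, abs_of_pos (by positivity)] at h1
  exact h1.symm

theorem lsp_wn (K K' : ℕ) (M : ℝ) (m : E → ℂ) {c : ℝ} (hc : 0 < c) (η : E) {B : ℝ} (hB : 0 ≤ B)
    (h : ∀ ξ, wt K' M ξ * ‖m ξ‖ ≤ B * c ^ 12 * wt K M (c • ξ - η)) (f : E → ℂ) :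
    wn K' M (fun ξ => m ξ * f (c • ξ - η)) ≤ ENNReal.ofReal B * wn K M f := by
  have h1 := lsp_lint hc η fun ξ => ENNReal.ofReal (wt K M ξ * ‖f ξ‖)
  calc wn K' M (fun ξ => m ξ * f (c • ξ - η)) ≤ ∫⁻ ξ, ENNReal.ofReal (B * c ^ 12) *
        ENNReal.ofReal (wt K M (c • ξ - η) * ‖f (c • ξ - η)‖) := lintegral_mono fun ξ => by
        rw [← ENNReal.ofReal_mul (by positivity), norm_mul, ← mul_assoc, ← mul_assoc]
        exact ENNReal.ofReal_le_ofReal (mul_le_mul_of_nonneg_right (h ξ) (norm_nonneg _))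
    _ = _ := by
        rw [lintegral_const_mul' _ _ ENNReal.ofReal_ne_top, h1, ← mul_assoc,
          ← ENNReal.ofReal_mul (by positivity), mul_inv_cancel_right₀ (by positivity)]
        rfl

theorem wco_spec (K K' : ℕ) {M : ℝ} (hM : 1 ≤ M) (m : E → ℂ) (hm : Continuous m) (c : ℝ)
    (hc : 0 < c) (η : E) (B : ℝ) (hB : 0 ≤ B)
    (h : ∀ ξ, wt K' M ξ * ‖m ξ‖ ≤ B * c ^ 12 * wt K M (c • ξ - η)) :
    IsW m c η (wco K K' M m c η) ∧ ‖wco K K' M m c η‖ ≤ B := by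
  have hq := lsp_qmp hc η
  have h1 : ∀ x : XS K M, wn K' M (fun ξ => m ξ * x (c • ξ - η)) ≤ ENNReal.ofReal (B * ‖x‖) :=
    fun x => by
      rw [ENNReal.ofReal_mul hB, XS_norm hM]
      exact lsp_wn K K' M m hc η hB h x
  have h2 : ∀ T : XS K M → XS K' M,
      (∀ x, (T x : E → ℂ) =ᵐ[volume] fun ξ => m ξ * x (c • ξ - η)) → ∀ x, ‖T x‖ ≤ B * ‖x‖ := by
    intro T hT x
    rw [← ENNReal.ofReal_le_ofReal_iff (by positivity), XS_norm hM, wn_congr K' M (hT x)]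
    exact h1 x
  have h3 : ∀ x : XS K M, (toX K' M (fun ξ => m ξ * x (c • ξ - η)) : E → ℂ) =ᵐ[volume]
      fun ξ => m ξ * x (c • ξ - η) := fun x =>
    toX_ae hM (hm.aestronglyMeasurable.mul ((XS_aesm hM x).comp_quasiMeasurePreserving hq))
      (ne_top_of_le_ne_top ENNReal.ofReal_ne_top (h1 x))
  have h4 : ∃ T : XS K M →L[ℂ] XS K' M, IsW m c η T := by
    refine ⟨LinearMap.mkContinuous
      { toFun := fun x => toX K' M fun ξ => m ξ * x (c • ξ - η)
        map_add' := fun x y => XS_ext hM ?_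
        map_smul' := fun a x => XS_ext hM ?_ } B (h2 _ h3), h3⟩
    · filter_upwards [h3 (x + y), h3 x, h3 y, hq.ae (XS_add hM x y), XS_add hM
        (toX K' M fun ξ => m ξ * x (c • ξ - η)) (toX K' M fun ξ => m ξ * y (c • ξ - η))]
        with ξ e1 e2 e3 e4 e5
      rw [e1, e5, e2, e3, e4, mul_add]
    · filter_upwards [h3 (a • x), h3 x, hq.ae (XS_smul hM a x), XS_smul hM a
        (toX K' M fun ξ => m ξ * x (c • ξ - η))] with ξ e1 e2 e4 e5
      rw [RingHom.id_apply, e1, e5, e2, e4, mul_left_comm]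
  have h5 : IsW m c η (wco K K' M m c η) := Classical.epsilon_spec h4
  exact ⟨h5, ContinuousLinearMap.opNorm_le_bound _ hB (h2 _ h5)⟩

theorem lsp_dense (K : ℕ) {M : ℝ} (hM : 1 ≤ M) : Dense {x : XS K M | ∃ g : E → ℂ, Continuous g ∧
    HasCompactSupport g ∧ (x : E → ℂ) =ᵐ[volume] g} := by
  have : IsLocallyFiniteMeasure (muw K M) :=
    IsLocallyFiniteMeasure.withDensity_ofReal (lsp_cont K M)
  refine Metric.dense_iff.2 fun x r hr => ?_
  obtain ⟨g, h1, h2, h3, h4⟩ := (Lp.memLp x).exists_hasCompactSupport_eLpNorm_sub_le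
    ENNReal.one_ne_top (ENNReal.ofReal_pos.2 (half_pos hr)).ne'
  refine ⟨h4.toLp g, ?_, g, h3, h1, (lsp_ac K hM).ae_eq h4.coeFn_toLp⟩
  rw [Metric.mem_ball', Lp.dist_def, eLpNorm_congr_ae (EventuallyEq.rfl.sub h4.coeFn_toLp)]
  exact (ENNReal.toReal_le_of_le_ofReal (half_pos hr).le h2).trans_lt (half_lt_self hr)

/-- joint continuity of a family of weighted composition operators -/
theorem wco_cont {P : Type*} [TopologicalSpace P] [FirstCountableTopology P]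
    [LocallyCompactSpace P] (K K' : ℕ) {M : ℝ} (hM : 1 ≤ M) (m : P → E → ℂ)
    (hm : Continuous fun p : P × E => m p.1 p.2) (c : P → ℝ) (hc : Continuous c)
    (hc0 : ∀ p, 0 < c p) (η : P → E) (hη : Continuous η) (B : P → ℝ) (hB : Continuous B)
    (hB0 : ∀ p, 0 ≤ B p)
    (h : ∀ p ξ, wt K' M ξ * ‖m p ξ‖ ≤ B p * c p ^ 12 * wt K M (c p • ξ - η p)) :
    Continuous fun q : P × XS K M => wco K K' M (m q.1) (c q.1) (η q.1) q.2 := by
  have hs := fun p => wco_spec K K' hM (m p) (hm.comp (Continuous.prodMk_right p)) (c p) (hc0 p)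
    (η p) (B p) (hB0 p) (h p)
  have hp : ∀ p, 0 < B p + 1 := fun p => by linarith [hB0 p]
  have h1 : ∀ y ∈ {x : XS K M | ∃ g : E → ℂ, Continuous g ∧ HasCompactSupport g ∧
      (x : E → ℂ) =ᵐ[volume] g}, Continuous fun p => wco K K' M (m p) (c p) (η p) y := by
    rintro y ⟨g, hg, hgc, hy⟩
    refine continuous_iff_continuousAt.2 fun q => tendsto_iff_norm_sub_tendsto_zero.2 ?_
    obtain ⟨Q, hQ, hqQ⟩ := exists_compact_mem_nhds q
    have hk : IsCompact ((fun z : P × E => (c z.1)⁻¹ • (z.2 + η z.1)) '' Q ×ˢ tsupport g) :=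
      (hQ.prod hgc).image (((hc.comp continuous_fst).inv₀ fun z => (hc0 z.1).ne').smul
        (continuous_snd.add (hη.comp continuous_fst)))
    have hz : ∀ p ∈ Q, ∀ ξ, ξ ∉ (fun z : P × E => (c z.1)⁻¹ • (z.2 + η z.1)) '' Q ×ˢ tsupport g →
        g (c p • ξ - η p) = 0 := fun p hpQ ξ hξ => image_eq_zero_of_notMem_tsupport fun h2 =>
      hξ ⟨(p, c p • ξ - η p), ⟨hpQ, h2⟩, by simp [(hc0 p).ne']⟩
    have hF : Continuous fun z : P × E => m z.1 z.2 * g (c z.1 • z.2 - η z.1) :=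
      hm.mul (hg.comp (((hc.comp continuous_fst).smul continuous_snd).sub
        (hη.comp continuous_fst)))
    have h2 := (continuousOn_integral_of_compact_support (μ := volume) (s := Q)
      (f := fun p ξ => wt K' M ξ * ‖m p ξ * g (c p • ξ - η p) - m q ξ * g (c q • ξ - η q)‖) hk
      (((lsp_cont K' M).comp continuous_snd).mul (hF.sub
        (hF.comp (continuous_const.prodMk continuous_snd))).norm).continuousOn
      fun p ξ hpQ hξ => by
        rw [hz p hpQ ξ hξ, hz q (mem_of_mem_nhds hqQ) ξ hξ, mul_zero, mul_zero, sub_zero,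
          norm_zero, mul_zero]).continuousAt hqQ
    have h3 := h2.tendsto
    simp only [sub_self, norm_zero, mul_zero, integral_zero] at h3
    refine h3.congr fun p => ?_
    rw [(XS_wint hM _).2]
    refine integral_congr_ae ?_
    filter_upwards [XS_sub hM (wco K K' M (m p) (c p) (η p) y) (wco K K' M (m q) (c q) (η q) y),
      (hs p).1 y, (hs q).1 y, (lsp_qmp (hc0 p) (η p)).ae hy, (lsp_qmp (hc0 q) (η q)).ae hy]
      with ξ e1 e2 e3 e4 e5
    rw [e1, e2, e3, e4, e5]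
  have h2 := continuous_prod_of_dense_continuous_lipschitzWith'
    (fun q : P × XS K M => (((B q.1 + 1)⁻¹ : ℝ) : ℂ) • wco K K' M (m q.1) (c q.1) (η q.1) q.2) 1
    (lsp_dense K hM) (fun p => LipschitzWith.of_dist_le_mul fun x y => by
      rw [dist_eq_norm, dist_eq_norm, ← smul_sub, ← map_sub, norm_smul, Complex.norm_real,
        Real.norm_of_nonneg (inv_pos.2 (hp p)).le, NNReal.coe_one, one_mul,
        inv_mul_le_iff₀ (hp p)]
      exact (ContinuousLinearMap.le_opNorm _ _).trans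
        (mul_le_mul_of_nonneg_right ((hs p).2.trans (by linarith)) (norm_nonneg _)))
    fun y hy => (Complex.continuous_ofReal.comp
      ((hB.add continuous_const).inv₀ fun p => (hp p).ne')).smul (h1 y hy)
  refine ((Complex.continuous_ofReal.comp
    ((hB.add (continuous_const (y := 1))).comp continuous_fst)).smul h2).congr fun q => ?_
  have h3 : ((B q.1 + 1 : ℝ) : ℂ) ≠ 0 := Complex.ofReal_ne_zero.2 (hp q.1).ne'
  change ((B q.1 + 1 : ℝ) : ℂ) • (((B q.1 + 1)⁻¹ : ℝ) : ℂ) •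
    wco K K' M (m q.1) (c q.1) (η q.1) q.2 = _
  rw [Complex.ofReal_inv, smul_inv_smul₀ h3]

end Vale.Agent.P139
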