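import Vale.Agent.P139.LOp
import Vale.Agent.P139.LA0

open Complex MeasureTheory Filter Topology
open scoped ComplexConjugate ContDiff

namespace Vale.Agent.P139

theorem hsg_pos {h : ℝ} (hh : 0 < h) (σ : ℝ) : 0 < hsg h σ := mul_pos hh (Real.exp_pos _)

theorem hsg_zero (h : ℝ) : hsg h 0 = h := by simp [hsg]

theorem hsg_le {h s σ : ℝ} (hh : 0 < h) (hs : s ≤ σ) : hsg h σ ≤ hsg h s :=
  mul_le_mul_of_nonneg_left (Real.exp_le_exp.2 (by linarith)) hh.le

theorem NN_hsg (K : ℕ) {M h s σ : ℝ} (hM : 1 ≤ M) (hh : 0 < h) (hs : s ≤ σ) (c : Z → ℂ) :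
    NN K M (hsg h σ) c ≤ NN K M (hsg h s) c := by
  have := NN_scale K (M := M) (by linarith) (hsg_pos hh s).le (hsg_pos hh σ).le (L := 1) le_rfl
    (by rw [one_mul]; exact hsg_le hh hs) c
  simpa using this

theorem tm_norm {b : ℂ} (hb : 0 ≤ b.re) (ε h : ℝ) {s σ : ℝ} (hs : s ≤ σ) (n : Z) :
    ‖tm b ε h s σ n‖ ≤ 1 := by
  unfold tm
  rw [norm_mul, Complex.norm_exp, Complex.norm_exp]
  have h1 : (-b * ((σ - s : ℝ) : ℂ)).re = -(b.re * (σ - s)) := by
    rw [Complex.mul_re, Complex.ofReal_re, Complex.ofReal_im, Complex.neg_re]; ring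
  have h2 : (-I * ((ε * (Real.exp (-s) - Real.exp (-σ)) * (h ^ 2 * nsq n) : ℝ) : ℂ)).re = 0 := by
    rw [Complex.mul_re, Complex.ofReal_re, Complex.ofReal_im, Complex.neg_re, Complex.I_re]; ring
  rw [h1, h2, Real.exp_zero, mul_one, Real.exp_le_one_iff]
  have := mul_nonneg hb (sub_nonneg.2 hs)
  linarith

theorem tm_cont (b : ℂ) (ε h σ : ℝ) (n : Z) : Continuous fun s => tm b ε h s σ n := by
  unfold tm
  fun_prop

theorem NN_TG (K : ℕ) {M h A : ℝ} (hM : 1 ≤ M) {u : ℂ} (hu : ‖u‖ = 1) (χ : E → ℝ) (g g' : E → ℂ)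
    (c c' f : ℝ → Z → ℂ) (s : ℝ) (h1 : NN K M (hsg h s) (Kh χ g (hsg h s)) ≤ ENNReal.ofReal A)
    (h2 : NN K M (hsg h s) (Kh χ g' (hsg h s)) ≤ ENNReal.ofReal A) :
    NN K M (hsg h s) (TG u χ g g' h c c' f s) ≤
      ENNReal.ofReal A * (NN K M (hsg h s) (c s) + NN K M (hsg h s) (c' s))
        + NN K M (hsg h s) (f s) := by
  have hM0 : 0 < M := by linarith
  unfold TG
  rw [NN_smul K hM0, hu, ENNReal.ofReal_one, one_mul, mul_add]
  refine (NN_add K hM0 _ _ _).trans (add_le_add ?_ le_rfl)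
  refine (NN_add K hM0 _ _ _).trans (add_le_add ?_ ?_)
  · exact (NN_conv K hM0 _ _ _).trans (mul_le_mul' h1 le_rfl)
  · exact (NN_conv K hM0 _ _ _).trans (mul_le_mul' h2 le_rfl)

theorem ltw_gen (K : ℕ) {M h S ε : ℝ} (hM : 1 ≤ M) {b : ℂ}
    {c G : ℝ → Z → ℂ} (H : TD b ε h S c G) {σ : ℝ} (hσ : σ ∈ Set.Icc 0 S) (p : Z → ℂ)
    (κ : ℝ → ENNReal)
    (hp : ∀ s ∈ Set.Icc 0 σ, ∀ a : Z → ℂ,
      NN K M (hsg h σ) (fun n => p n * (tm b ε h s σ n * a n)) ≤ κ s * NN K M (hsg h s) a) :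
    NN K M (hsg h σ) (fun n => p n * c σ n) ≤ κ 0 * NN K M h (c 0)
      + ∫⁻ s in Set.Icc 0 σ, κ s * NN K M (hsg h s) (G s) := by
  have hM0 : 0 < M := by linarith
  have e : (fun n => p n * c σ n) = (fun n => p n * (tm b ε h 0 σ n * c 0 n))
      + fun n => ∫ s in (0 : ℝ)..σ, p n * (tm b ε h s σ n * G s n) := by
    funext n
    rw [Pi.add_apply, intervalIntegral.integral_const_mul, H.du σ hσ n, mul_add]
  rw [e]
  refine (NN_add K hM0 _ _ _).trans (add_le_add ?_ ?_)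
  · have := hp 0 ⟨le_rfl, hσ.1⟩ (c 0)
    rwa [hsg_zero] at this
  · refine (NN_integral K hM0 _ σ hσ.1 (fun s n => p n * (tm b ε h s σ n * G s n)) ?_).trans ?_
    · intro n
      exact continuousOn_const.mul ((tm_cont b ε h σ n).continuousOn.mul
        ((H.cg n).mono (Set.Icc_subset_Icc le_rfl hσ.2)))
    · exact setLIntegral_mono' measurableSet_Icc fun s hs => hp s hs (G s)

theorem ltw_le (K K' : ℕ) {M h h' κ : ℝ} (hκ : 0 ≤ κ) (a a' : Z → ℂ)
    (H : ∀ n, wt K M (h • zE n) * ‖a n‖ ≤ κ * (wt K' M (h' • zE n) * ‖a' n‖)) :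
    NN K M h a ≤ ENNReal.ofReal κ * NN K' M h' a' := by
  unfold NN
  rw [← ENNReal.tsum_mul_left]
  refine ENNReal.tsum_le_tsum fun n => ?_
  rw [← ENNReal.ofReal_mul hκ]
  exact ENNReal.ofReal_le_ofReal (H n)

theorem ltw_smul (h s σ : ℝ) (ξ : E) :
    hsg h σ • ξ = Real.exp (-(σ - s) / 2) • (hsg h s • ξ) := by
  rw [smul_smul]
  congr 1
  unfold hsg
  rw [mul_left_comm, ← Real.exp_add]
  congr 2
  ring

/-- plain weighted Duhamel estimate -/
theorem TD.wa (K : ℕ) {M h S ε : ℝ} (hM : 1 ≤ M) (hh : 0 < h) {b : ℂ} (hb : 0 ≤ b.re)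
    {c G : ℝ → Z → ℂ} (H : TD b ε h S c G) {σ : ℝ} (hσ : σ ∈ Set.Icc 0 S) :
    NN K M (hsg h σ) (c σ) ≤ NN K M h (c 0) + ∫⁻ s in Set.Icc 0 σ, NN K M (hsg h s) (G s) := by
  have hM0 : 0 < M := by linarith
  have := ltw_gen K hM H hσ (fun _ => 1) (fun _ => 1) (fun s hs a => by
    rw [one_mul]
    refine le_trans ?_ (NN_hsg K hM hh hs.2 a)
    have h1 := ltw_le K K (M := M) (h := hsg h σ) (h' := hsg h σ) zero_le_one
      (fun n => 1 * (tm b ε h s σ n * a n)) a (fun n => by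
        rw [one_mul, one_mul, norm_mul]
        refine mul_le_mul_of_nonneg_left ?_ (alg_wt_nonneg K hM0 _)
        exact mul_le_of_le_one_left (norm_nonneg _) (tm_norm hb ε h hs.2 n))
    rwa [ENNReal.ofReal_one, one_mul] at h1)
  simpa only [one_mul] using this

open Classical in
/-- weighted Duhamel estimate with gain at high frequency -/
theorem TD.wb (K : ℕ) {M h S ε : ℝ} (hM : 1 ≤ M) (hh : 0 < h) {b : ℂ} (hb : 0 ≤ b.re)
    {c G : ℝ → Z → ℂ} (H : TD b ε h S c G) {σ : ℝ} (hσ : σ ∈ Set.Icc 0 S) :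
    NN K M (hsg h σ) (c σ) ≤ ENNReal.ofReal (2 ^ K) * NN 0 M h (c σ)
      + ENNReal.ofReal (Real.exp (-(K / 4 : ℝ) * σ)) * NN K M h (c 0)
      + ∫⁻ s in Set.Icc 0 σ,
        ENNReal.ofReal (Real.exp (-(K / 4 : ℝ) * (σ - s))) * NN K M (hsg h s) (G s) := by
  have hM0 : 0 < M := by linarith
  set p : Z → ℂ := fun n => if M ≤ ‖hsg h σ • zE n‖ then 1 else 0 with hpd
  have hhi := ltw_gen K hM H hσ p
    (fun s => ENNReal.ofReal (Real.exp (-(K / 4 : ℝ) * (σ - s)))) (fun s hs a => by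
      refine ltw_le K K (Real.exp_pos _).le _ _ fun n => ?_
      by_cases hn : M ≤ ‖hsg h σ • zE n‖
      · have hp1 : p n = 1 := by simp only [hpd, if_pos hn]
        rw [hp1, one_mul, norm_mul, ← mul_assoc (Real.exp _)]
        rw [ltw_smul h s σ] at hn ⊢
        refine mul_le_mul (wt_gain K hM (sub_nonneg.2 hs.2) _ hn) ?_ (by positivity) ?_
        · exact mul_le_of_le_one_left (norm_nonneg _) (tm_norm hb ε h hs.2 n)
        · exact mul_nonneg (Real.exp_pos _).le (alg_wt_nonneg K hM0 _)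
      · have hp0 : p n = 0 := by simp only [hpd, if_neg hn]
        rw [hp0, zero_mul, norm_zero, mul_zero]
        exact mul_nonneg (Real.exp_pos _).le
          (mul_nonneg (alg_wt_nonneg K hM0 _) (norm_nonneg _)))
  have hlo : NN K M (hsg h σ) (fun n => (1 - p n) * c σ n) ≤
      ENNReal.ofReal (2 ^ K) * NN 0 M h (c σ) := by
    refine ltw_le K 0 (by positivity) _ _ fun n => ?_
    rw [wt_zero, one_mul]
    by_cases hn : M ≤ ‖hsg h σ • zE n‖
    · have hp1 : p n = 1 := by simp only [hpd, if_pos hn]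
      rw [hp1, sub_self, zero_mul, norm_zero, mul_zero]
      positivity
    · have hp0 : p n = 0 := by simp only [hpd, if_neg hn]
      rw [hp0, sub_zero, one_mul]
      refine mul_le_mul_of_nonneg_right ?_ (norm_nonneg _)
      unfold wt
      refine pow_le_pow_left₀ (by positivity) ?_ K
      have : ‖hsg h σ • zE n‖ / M ≤ 1 := (div_le_one hM0).2 (not_le.1 hn).le
      linarith
  have e : c σ = (fun n => (1 - p n) * c σ n) + fun n => p n * c σ n := by
    funext n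
    rw [Pi.add_apply]; ring
  have h1 : NN K M (hsg h σ) (c σ) ≤ NN K M (hsg h σ) (fun n => (1 - p n) * c σ n)
      + NN K M (hsg h σ) (fun n => p n * c σ n) := by
    conv_lhs => rw [e]
    exact NN_add K hM0 _ _ _
  refine h1.trans ?_
  rw [add_assoc]
  refine add_le_add hlo ?_
  simpa only [sub_zero] using hhi

end Vale.Agent.P139
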