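import Vale.Agent.P139.LIc
import Vale.Agent.P139.LTw
import Vale.Agent.P139.LA1

open Complex MeasureTheory Filter Topology
open scoped ComplexConjugate ContDiff

namespace Vale.Agent.P139

theorem LTc_mono (K : ℕ) {M : ℝ} (hM : 0 < M) (h : ℝ) {a b : Z → ℂ} (hab : ∀ n, ‖a n‖ ≤ ‖b n‖) :
    NN K M h a ≤ NN K M h b :=
  ENNReal.tsum_le_tsum fun n => ENNReal.ofReal_le_ofReal
    (mul_le_mul_of_nonneg_left (hab n) (alg_wt_nonneg K hM _))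

theorem LTc_sum {K : ℕ} {M h N : ℝ} (hM : 1 ≤ M) {c : Z → ℂ}
    (hc : NN K M h c ≤ ENNReal.ofReal N) : Summable fun n => ‖c n‖ :=
  summable_of_NN K (zero_lt_one.trans_le hM) h c (ne_top_of_le_ne_top ENNReal.ofReal_ne_top hc)

theorem LTc_l1 {K : ℕ} {M h N : ℝ} (hM : 1 ≤ M) (hN : 0 ≤ N) {c : Z → ℂ}
    (hc : NN K M h c ≤ ENNReal.ofReal N) : ∑' n, ‖c n‖ ≤ N := by
  have h1 := (NN_zero_le K hM h c).trans hc
  rw [NN_zero M h c (LTc_sum hM hc)] at h1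
  exact (ENNReal.ofReal_le_ofReal_iff hN).1 h1

theorem LTc_l1c {K : ℕ} (hK : 1 ≤ K) {M h S N : ℝ} (hM : 1 ≤ M) (hh : 0 < h) {z : ℝ → Z → ℂ}
    (hz : ∀ n, ContinuousOn (fun σ => z σ n) (Set.Icc 0 S))
    (hB : ∀ s ∈ Set.Icc 0 S, NN K M (hsg h s) (z s) ≤ ENNReal.ofReal N) :
    ∀ s ∈ Set.Icc 0 S, Tendsto (fun s' => ∑' n, ‖z s' n - z s n‖) (𝓝[Set.Icc 0 S] s) (𝓝 0) :=
  l1_cont K hK (zero_lt_one.trans_le hM) (hsg_pos hh S) _ z N hz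
    fun t ht => (NN_hsg K hM hh ht.2 (z t)).trans (hB t ht)

theorem LTc_cont {K : ℕ} (hK : 1 ≤ K) {M h S N : ℝ} (hM : 1 ≤ M) (hh : 0 < h) {z : ℝ → Z → ℂ}
    (hz : ∀ n, ContinuousOn (fun σ => z σ n) (Set.Icc 0 S))
    (hB : ∀ s ∈ Set.Icc 0 S, NN K M (hsg h s) (z s) ≤ ENNReal.ofReal N) :
    ContinuousOn (fun σ => IX 0 M (hsg h σ) (z σ)) (Set.Icc 0 S) := by
  have h1 := IX0_cont hM hh _ z (fun s hs => LTc_sum hM (hB s hs)) (LTc_l1c hK hM hh hz hB)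
  exact ((Eop_sg 0 hM 0 0).cont.comp_continuousOn (continuousOn_id.prodMk h1)).congr
    fun s hs => IX0_hsg hM hh s (LTc_sum hM (hB s hs))

theorem LTc_int {X : Type*} [NormedAddCommGroup X] [NormedSpace ℝ X] {f g : ℝ → X} {σ S D : ℝ}
    (hσ : σ ∈ Set.Icc 0 S) (hD : 0 ≤ D) (hf : ContinuousOn f (Set.Icc 0 σ))
    (hg : ContinuousOn g (Set.Icc 0 σ)) (h : ∀ s ∈ Set.Icc 0 σ, ‖f s - g s‖ ≤ D) :
    ‖(∫ s in (0 : ℝ)..σ, f s) - ∫ s in (0 : ℝ)..σ, g s‖ ≤ S * D := by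
  rw [← intervalIntegral.integral_sub (hf.intervalIntegrable_of_Icc hσ.1)
    (hg.intervalIntegrable_of_Icc hσ.1)]
  refine (intervalIntegral.norm_integral_le_of_norm_le_const (C := D) fun s hs => ?_).trans ?_
  · rw [Set.uIoc_of_le hσ.1] at hs
    exact h s ⟨hs.1.le, hs.2⟩
  · rw [sub_zero, abs_of_nonneg hσ.1, mul_comm]
    exact mul_le_mul_of_nonneg_right hσ.2 hD

/-- one component: the torus Duhamel formula read in L^1 -/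
theorem TD.cmp {K : ℕ} (hK : 1 ≤ K) {M h S ε N N' : ℝ} (hM : 1 ≤ M) (hh : 0 < h) (hh1 : h ≤ 1)
    {b : ℂ} (hb : 0 ≤ b.re) (hε : |ε| ≤ 1) (hN : 0 ≤ N) (hN' : 0 ≤ N') {c G : ℝ → Z → ℂ}
    (H : TD b ε h S c G) (hc : ∀ s ∈ Set.Icc 0 S, NN K M (hsg h s) (c s) ≤ ENNReal.ofReal N)
    (hG : ∀ s ∈ Set.Icc 0 S, NN K M (hsg h s) (G s) ≤ ENNReal.ofReal N') :
    ContinuousOn (fun σ => IX 0 M (hsg h σ) (c σ)) (Set.Icc 0 S) ∧
    ContinuousOn (fun σ => IX 0 M (hsg h σ) (G σ)) (Set.Icc 0 S) ∧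
    ∀ σ ∈ Set.Icc 0 S, ‖IX 0 M (hsg h σ) (c σ) - Eop 0 M b ε σ (IX 0 M h (c 0))
        - ∫ s in (0 : ℝ)..σ, Eop 0 M b ε (σ - s) (IX 0 M (hsg h s) (G s))‖
      ≤ 24 * Real.exp S * h * M * (N + S * N') := by
  have hM0 : 0 < M := zero_lt_one.trans_le hM
  have cG := LTc_cont hK hM hh H.cg hG
  refine ⟨LTc_cont hK hM hh H.cc hc, cG, fun σ hσ => ?_⟩
  have sub : Set.Icc 0 σ ⊆ Set.Icc 0 S := Set.Icc_subset_Icc_right hσ.2
  have mul : ∀ s ≤ σ, ∀ a : Z → ℂ, NN K M (hsg h s) (fun n => tm b ε h s σ n * a n)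
      ≤ NN K M (hsg h s) a := fun s hs a => LTc_mono K hM0 _ fun n => by
    rw [norm_mul]
    exact mul_le_of_le_one_left (norm_nonneg _) (tm_norm hb ε h hs n)
  have gB : ∀ s ∈ Set.Icc 0 σ, NN K M (hsg h s) (fun n => tm b ε h s σ n * G s n)
      ≤ ENNReal.ofReal N' := fun s hs => (mul s hs.2 _).trans (hG s (sub hs))
  have gc : ∀ n, ContinuousOn (fun s => tm b ε h s σ n * G s n) (Set.Icc 0 σ) := fun n =>
    (tm_cont b ε h σ n).continuousOn.mul ((H.cg n).mono sub)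
  have gl := LTc_l1c hK hM hh (z := fun s n => tm b ε h s σ n * G s n) gc gB
  have gs := fun s hs => LTc_sum hM (gB s hs)
  obtain ⟨i1, i2⟩ := IX0_int hM (hsg_pos hh σ) hσ.1 (fun s n => tm b ε h s σ n * G s n) gs gl
  have h0 : (0 : ℝ) ∈ Set.Icc 0 S := ⟨le_rfl, hσ.1.trans hσ.2⟩
  have e : c σ = (fun n => tm b ε h 0 σ n * c 0 n) +
      fun n => ∫ s in (0 : ℝ)..σ, tm b ε h s σ n * G s n := funext (H.du σ hσ)
  have t1 := tm_err hK hM hh hh1 le_rfl hσ.1 hσ.2 hb hε hN (hc 0 h0)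
  rw [sub_zero, hsg_zero] at t1
  have hD : 0 ≤ 24 * Real.exp S * h * M * N' := by positivity
  have t2 := LTc_int hσ hD
    (IX0_cont hM (hsg_pos hh σ) _ (fun s n => tm b ε h s σ n * G s n) gs gl)
    ((Eop_sg 0 hM b ε).contOn (cG.mono sub) σ)
    fun s hs => tm_err hK hM hh hh1 hs.1 hs.2 hσ.2 hb hε hN' (hG s (sub hs))
  rw [e, IX0_add hM (hsg_pos hh σ) (LTc_sum hM ((mul 0 hσ.1 _).trans (hc 0 h0))) i1, i2,
    sub_sub, add_sub_add_comm]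
  refine (norm_add_le _ _).trans ((add_le_add t1 t2).trans_eq ?_)
  ring

/-- the two kernel properties at all scales below h -/
def LTcK (K : ℕ) (M h A δ : ℝ) (χ : E → ℝ) (g : E → ℂ) (k : XS 0 M) : Prop :=
  ∀ h' : ℝ, 0 < h' → h' ≤ h → NN K M h' (Kh χ g h') ≤ ENNReal.ofReal A ∧
    ∀ c : Z → ℂ, (Summable fun n => ‖c n‖) →
      ‖IX 0 M h' (conv (Kh χ g h') c) - cvS k Set.univ (IX 0 M h' c)‖ ≤ δ * ∑' n, ‖c n‖

theorem LTc_ker {g k : E → ℂ} (hk : Dens g k) {χ : E → ℝ} (hχ : Cut χ) (K : ℕ) {M : ℝ}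
    (hM : 1 ≤ M) {A : ℝ} (hA : ‖toX K M k‖ ≤ A) {δ : ℝ} (hδ : 0 < δ) :
    ∃ h0 : ℝ, 0 < h0 ∧ ∀ h ≤ h0, LTcK K M h (A + 1) δ χ g (toX 0 M k) := by
  obtain ⟨a, a0, ha⟩ := conv_err hk hχ hM δ hδ
  obtain ⟨b, b0, hb⟩ := ker_NN hk hχ K hM hA
  exact ⟨min a b, lt_min a0 b0, fun h hh h' p q =>
    ⟨hb h' p (q.trans (hh.trans (min_le_right _ _))),
      ha h' p (q.trans (hh.trans (min_le_left _ _)))⟩⟩

theorem LTc_pt {K : ℕ} {M h h' A δ N φ : ℝ} (hM : 1 ≤ M) (hh : 0 < h') (hh' : h' ≤ h)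
    (hδ : 0 ≤ δ) (hN : 0 ≤ N) (hφ : 0 ≤ φ) {u : ℂ} (hu : ‖u‖ = 1) {χ : E → ℝ} {g g' : E → ℂ}
    {k k' : XS 0 M} (hk : LTcK K M h A δ χ g k) (hk' : LTcK K M h A δ χ g' k') {c c' f : Z → ℂ}
    (hc : NN K M h' c ≤ ENNReal.ofReal N) (hc' : NN K M h' c' ≤ ENNReal.ofReal N)
    (hf : NN K M h' f ≤ ENNReal.ofReal φ) :
    ‖IX 0 M h' (u • (conv (Kh χ g h') c + conv (Kh χ g' h') c' + f)) -
      u • (cvS k Set.univ (IX 0 M h' c) + cvS k' Set.univ (IX 0 M h' c'))‖ ≤ 2 * δ * N + φ := by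
  have hM0 : 0 < M := zero_lt_one.trans_le hM
  have sm : ∀ a c : Z → ℂ, NN K M h' a ≤ ENNReal.ofReal A → NN K M h' c ≤ ENNReal.ofReal N →
      Summable fun n => ‖conv a c n‖ := fun a c p q =>
    summable_of_NN K hM0 h' _ (ne_top_of_le_ne_top
      (ENNReal.mul_ne_top ENNReal.ofReal_ne_top ENNReal.ofReal_ne_top)
      ((NN_conv K hM0 h' a c).trans (mul_le_mul' p q)))
  have ad : ∀ a c : Z → ℂ, (Summable fun n => ‖a n‖) → (Summable fun n => ‖c n‖) →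
      Summable fun n => ‖(a + c) n‖ := fun a c p q =>
    (p.add q).of_nonneg_of_le (fun _ => norm_nonneg _) fun n => norm_add_le _ _
  obtain ⟨p1, q1⟩ := hk h' hh hh'
  obtain ⟨p2, q2⟩ := hk' h' hh hh'
  have s1 := sm _ _ p1 hc
  have s2 := sm _ _ p2 hc'
  have s3 := LTc_sum hM hf
  have e1 := (q1 c (LTc_sum hM hc)).trans (mul_le_mul_of_nonneg_left (LTc_l1 hM hN hc) hδ)
  have e2 := (q2 c' (LTc_sum hM hc')).trans (mul_le_mul_of_nonneg_left (LTc_l1 hM hN hc') hδ)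
  have e3 := (IX0_norm hM hh s3).trans_le (LTc_l1 hM hφ hf)
  rw [IX0_smul hM hh u (ad _ _ (ad _ _ s1 s2) s3), IX0_add hM hh (ad _ _ s1 s2) s3,
    IX0_add hM hh s1 s2, ← smul_sub, norm_smul, hu, one_mul, add_sub_right_comm,
    add_sub_add_comm]
  refine (norm_add_le _ _).trans (add_le_add ((norm_add_le _ _).trans ?_) e3)
  linarith

theorem LTc_comp {K : ℕ} (hK : 1 ≤ K) {M h S ε A δ N φ : ℝ} (hM : 1 ≤ M) (hh : 0 < h)
    (hh1 : h ≤ 1) {b : ℂ} (hb : 0 ≤ b.re) (hε : |ε| ≤ 1) (hA : 0 ≤ A) (hδ : 0 ≤ δ) (hN : 0 ≤ N)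
    (hφ : 0 ≤ φ) {u : ℂ} (hu : ‖u‖ = 1) {χ : E → ℝ} {g g' : E → ℂ} {k k' : XS 0 M}
    (hk : LTcK K M h A δ χ g k) (hk' : LTcK K M h A δ χ g' k') {c c' f : ℝ → Z → ℂ}
    (H : TD b ε h S c (TG u χ g g' h c c' f))
    (hc : ∀ s ∈ Set.Icc 0 S, NN K M (hsg h s) (c s) ≤ ENNReal.ofReal N)
    (hc' : ∀ s ∈ Set.Icc 0 S, NN K M (hsg h s) (c' s) ≤ ENNReal.ofReal N)
    (hf : ∀ s ∈ Set.Icc 0 S, NN K M (hsg h s) (f s) ≤ ENNReal.ofReal φ)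
    (cc' : ContinuousOn (fun σ => IX 0 M (hsg h σ) (c' σ)) (Set.Icc 0 S)) :
    ∀ σ ∈ Set.Icc 0 S, ‖IX 0 M (hsg h σ) (c σ) - Eop 0 M b ε σ (IX 0 M h (c 0))
        - ∫ s in (0 : ℝ)..σ, Eop 0 M b ε (σ - s) (u • (cvS k Set.univ (IX 0 M (hsg h s) (c s))
          + cvS k' Set.univ (IX 0 M (hsg h s) (c' s))))‖
      ≤ 24 * Real.exp S * h * M * (N + S * (A * (N + N) + φ)) + S * (2 * δ * N + φ) := by
  have hl : ∀ s ∈ Set.Icc 0 S, hsg h s ≤ h := fun s hs => (hsg_le hh hs.1).trans_eq (hsg_zero h)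
  have hG : ∀ s ∈ Set.Icc 0 S, NN K M (hsg h s) (TG u χ g g' h c c' f s)
      ≤ ENNReal.ofReal (A * (N + N) + φ) := fun s hs => by
    rw [ENNReal.ofReal_add (by positivity) hφ, ENNReal.ofReal_mul hA, ENNReal.ofReal_add hN hN]
    exact (NN_TG K hM hu χ g g' c c' f s (hk _ (hsg_pos hh s) (hl s hs)).1
      (hk' _ (hsg_pos hh s) (hl s hs)).1).trans
      (add_le_add (mul_le_mul' le_rfl (add_le_add (hc s hs) (hc' s hs))) (hf s hs))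
  obtain ⟨cc, cG, hr⟩ := H.cmp hK hM hh hh1 hb hε hN (by positivity) hc hG
  intro σ hσ
  have sub : Set.Icc 0 σ ⊆ Set.Icc 0 S := Set.Icc_subset_Icc_right hσ.2
  have sg := Eop_sg 0 hM b ε
  have c2 : ContinuousOn (fun s => u • (cvS k Set.univ (IX 0 M (hsg h s) (c s))
      + cvS k' Set.univ (IX 0 M (hsg h s) (c' s)))) (Set.Icc 0 S) :=
    (((cvS k Set.univ).continuous.comp_continuousOn cc).add
      ((cvS k' Set.univ).continuous.comp_continuousOn cc')).const_smul u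
  have t2 := LTc_int hσ (by positivity : 0 ≤ 2 * δ * N + φ) (sg.contOn (cG.mono sub) σ)
    (sg.contOn (c2.mono sub) σ) fun s hs => by
      have h1 : ‖Eop 0 M b ε (σ - s)‖ ≤ 1 := (sg.norm _ (sub_nonneg.2 hs.2)).trans
        (Real.exp_le_one_iff.2 (by nlinarith [hs.2]))
      rw [← map_sub]
      refine ((ContinuousLinearMap.le_opNorm _ _).trans
        (mul_le_of_le_one_left (norm_nonneg _) h1)).trans ?_
      exact LTc_pt hM (hsg_pos hh s) (hl s (sub hs)) hδ hN hφ hu hk hk' (hc s (sub hs))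
        (hc' s (sub hs)) (hf s (sub hs))
  exact (norm_sub_le_norm_sub_add_norm_sub _ _ _).trans (add_le_add (hr σ hσ) t2)

theorem LTc_prod {X : Type*} [NormedAddCommGroup X] [NormedSpace ℝ X] [CompleteSpace X]
    {F : ℝ → X × X} {σ : ℝ} (hF : IntervalIntegrable F volume 0 σ) :
    ∫ s in (0 : ℝ)..σ, F s = (∫ s in (0 : ℝ)..σ, (F s).1, ∫ s in (0 : ℝ)..σ, (F s).2) :=
  Prod.ext ((ContinuousLinearMap.fst ℝ X X).intervalIntegral_comp_comm hF).symm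
    ((ContinuousLinearMap.snd ℝ X X).intervalIntegral_comp_comm hF).symm

/-- comparison of the torus flow with the flow on R^12 -/
theorem tc_main {m : ℕ} {om : ℝ} {w : ℝ → ℂ} {χ : E → ℝ} (hχ : Cut χ) {k1 k2 k3 : E → ℂ}
    (h1 : Dens (g1 m w) k1) (h2 : Dens (g2 m w) k2) (h3 : Dens (g3 m w) k3) {K : ℕ} (hK : 1 ≤ K)
    {M : ℝ} (hM : 1 ≤ M) (S : ℝ) (hS : 0 ≤ S) : ∃ C : ℝ, 0 ≤ C ∧ ∀ ε : ℝ, 0 < ε →
      ∃ h0 : ℝ, 0 < h0 ∧ ∀ h : ℝ, 0 < h → h ≤ h0 → ∀ (c1 c2 f1 f2 : ℝ → Z → ℂ) (N φ : ℝ)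
        (η : ℝ → XX 0 M), 0 ≤ N → 0 ≤ φ → TS m om w χ h S c1 c2 f1 f2 →
        (∀ s ∈ Set.Icc 0 S, NN K M (hsg h s) (c1 s) ≤ ENNReal.ofReal N ∧
          NN K M (hsg h s) (c2 s) ≤ ENNReal.ofReal N ∧ NN K M (hsg h s) (f1 s) ≤ ENNReal.ofReal φ ∧
          NN K M (hsg h s) (f2 s) ≤ ENNReal.ofReal φ) →
        Mild (LEE 0 M m om) (CC (toX 0 M k1) (toX 0 M k2) (toX 0 M k3) Set.univ) η →
        ∀ σ ∈ Set.Icc 0 S,
          ‖((IX 0 M (hsg h σ) (c1 σ), IX 0 M (hsg h σ) (c2 σ)) : XX 0 M) - η σ‖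
            ≤ C * (‖((IX 0 M h (c1 0), IX 0 M h (c2 0)) : XX 0 M) - η 0‖ + ε * N + φ) := by
  have hM0 : 0 < M := zero_lt_one.trans_le hM
  obtain ⟨A, hA, a1, a2, a3⟩ : ∃ A : ℝ, 0 ≤ A ∧ ‖toX K M k1‖ ≤ A ∧ ‖toX K M k2‖ ≤ A ∧
      ‖toX K M k3‖ ≤ A := ⟨max ‖toX K M k1‖ (max ‖toX K M k2‖ ‖toX K M k3‖),
    le_max_of_le_left (norm_nonneg _), le_max_left _ _,
    le_max_of_le_right (le_max_left _ _), le_max_of_le_right (le_max_right _ _)⟩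
  obtain ⟨L, hL⟩ : ∃ L, L = 24 * Real.exp S * M := ⟨_, rfl⟩
  have hL0 : 0 < L := by rw [hL]; positivity
  obtain ⟨C0, hC⟩ : ∃ C0, C0 = CC (toX 0 M k1) (toX 0 M k2) (toX 0 M k3) Set.univ := ⟨_, rfl⟩
  refine ⟨(1 + 2 * S + L * S) * Real.exp (‖C0‖ * S), by positivity, fun ε hε => ?_⟩
  obtain ⟨p1, q1, r1⟩ := LTc_ker h1 hχ K hM a1 hε
  obtain ⟨p2, q2, r2⟩ := LTc_ker h2 hχ K hM a2 hε
  obtain ⟨p3, q3, r3⟩ := LTc_ker h3 hχ K hM a3 hε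
  have hQ : 0 < L * (1 + 2 * S * (A + 1)) := by positivity
  refine ⟨min (min (min p1 p2) p3) (min 1 (ε / (L * (1 + 2 * S * (A + 1))))), by positivity,
    fun h hh hle c1 c2 f1 f2 N φ η hN hφ H hB hη σ hσ => ?_⟩
  simp only [le_min_iff] at hle
  obtain ⟨⟨⟨l1, l2⟩, l3⟩, l4, l5⟩ := hle
  rw [le_div_iff₀ hQ] at l5
  have ha : 0 ≤ aa m := by unfold aa; positivity
  have hb1 : 0 ≤ (b1 m om).re := by simpa [b1] using ha
  have hb2 : 0 ≤ (b2 m om).re := by simpa [b2] using ha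
  have cc1 := LTc_cont hK hM hh H.e1.cc fun s hs => (hB s hs).1
  have cc2 := LTc_cont hK hM hh H.e2.cc fun s hs => (hB s hs).2.1
  have t1 := LTc_comp hK hM hh l4 hb1 (by simp) (by positivity) hε.le hN hφ (by simp)
    (r1 h l1) (r2 h l2) H.e1 (fun s hs => (hB s hs).1) (fun s hs => (hB s hs).2.1)
    (fun s hs => (hB s hs).2.2.1) cc2
  have t2 := LTc_comp hK hM hh l4 hb2 (by simp) (by positivity) hε.le hN hφ (by simp)
    (r1 h l1) (r3 h l3) H.e2 (fun s hs => (hB s hs).2.1) (fun s hs => (hB s hs).1)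
    (fun s hs => (hB s hs).2.2.2) cc1
  have hR : 24 * Real.exp S * h * M * (N + S * ((A + 1) * (N + N) + φ)) + S * (2 * ε * N + φ)
      ≤ (1 + 2 * S + L * S) * (ε * N + φ) := by
    have e : 24 * Real.exp S * h * M = h * L := by rw [hL]; ring
    have u1 := mul_le_mul_of_nonneg_right l5 hN
    have u2 := mul_le_mul_of_nonneg_right l4 (by positivity : 0 ≤ L * S * φ)
    have u3 : 0 ≤ L * S * (ε * N) := by positivity
    have u4 : 0 ≤ S * φ := by positivity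
    rw [e]
    nlinarith
  have cξ := cc1.prodMk cc2
  have sg := EE_sg 0 hM m om
  rw [← hC] at hη
  have key := mild_stab sg ha C0 hη
    (fun σ => ((IX 0 M (hsg h σ) (c1 σ), IX 0 M (hsg h σ) (c2 σ)) : XX 0 M)) S
    ((1 + 2 * S + L * S) * (ε * N + φ)) cξ (fun τ hτ => by
      have ci := (sg.contOn ((C0.continuous.comp_continuousOn cξ).mono
        (Set.Icc_subset_Icc_right hτ.2)) τ).intervalIntegrable_of_Icc (μ := volume) hτ.1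
      refine le_trans ?_ hR
      simp only [Function.comp_def] at ci
      rw [LTc_prod ci, hsg_zero, hC]
      exact norm_prod_le_iff.2 ⟨t1 τ hτ, t2 τ hτ⟩) σ hσ
  rw [hsg_zero] at key
  refine key.trans ?_
  rw [mul_assoc, mul_left_comm, mul_comm]
  refine mul_le_mul (Real.exp_le_exp.2 (mul_le_mul_of_nonneg_left hσ.2 (norm_nonneg _))) ?_
    (by positivity) (by positivity)
  have u := mul_nonneg (by positivity : 0 ≤ 2 * S + L * S)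
    (norm_nonneg (((IX 0 M h (c1 0), IX 0 M h (c2 0)) : XX 0 M) - η 0))
  linarith

end Vale.Agent.P139
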