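import Vale.Agent.P139.LTw

open Complex MeasureTheory Filter Topology
open scoped ComplexConjugate ContDiff

namespace Vale.Agent.P139

theorem LTe_aa (m : ℕ) : 0 ≤ aa m := by
  unfold aa
  positivity

theorem LTe_b1 (m : ℕ) (om : ℝ) : 0 ≤ (b1 m om).re := by simpa [b1] using LTe_aa m

theorem LTe_b2 (m : ℕ) (om : ℝ) : 0 ≤ (b2 m om).re := by simpa [b2] using LTe_aa m

/-- the two Duhamel integrals together -/
theorem LTe_int {A φ κ σ : ℝ} (hA : 0 ≤ A) (hφ : 0 ≤ φ) (hκ : 0 ≤ κ) (hσ : 0 ≤ σ)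
    (N G1 G2 : ℝ → ENNReal)
    (h1 : ∀ s ∈ Set.Icc 0 σ, G1 s ≤ ENNReal.ofReal A * N s + ENNReal.ofReal φ)
    (h2 : ∀ s ∈ Set.Icc 0 σ, G2 s ≤ ENNReal.ofReal A * N s + ENNReal.ofReal φ) :
    (∫⁻ s in Set.Icc 0 σ, ENNReal.ofReal (Real.exp (-κ * (σ - s))) * G1 s)
      + (∫⁻ s in Set.Icc 0 σ, ENNReal.ofReal (Real.exp (-κ * (σ - s))) * G2 s)
      ≤ ENNReal.ofReal (2 * φ * σ)
        + ∫⁻ s in Set.Icc 0 σ, ENNReal.ofReal (2 * A * Real.exp (-κ * (σ - s))) * N s := by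
  refine (le_lintegral_add _ _).trans ?_
  have e : ENNReal.ofReal (2 * φ * σ) = ∫⁻ _ in Set.Icc 0 σ, ENNReal.ofReal (2 * φ) := by
    rw [setLIntegral_const, Real.volume_Icc, sub_zero, ENNReal.ofReal_mul (by positivity)]
  rw [e, ← lintegral_add_left measurable_const]
  refine setLIntegral_mono' measurableSet_Icc fun s hs => ?_
  have e1 : ENNReal.ofReal (Real.exp (-κ * (σ - s))) ≤ 1 := by
    rw [ENNReal.ofReal_le_one]
    refine Real.exp_le_one_iff.2 ?_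
    have := mul_nonneg hκ (sub_nonneg.2 hs.2)
    linarith
  set u := ENNReal.ofReal (Real.exp (-κ * (σ - s))) with hu
  have e2 : ENNReal.ofReal (2 * A * Real.exp (-κ * (σ - s))) = 2 * ENNReal.ofReal A * u := by
    rw [ENNReal.ofReal_mul (by positivity), ENNReal.ofReal_mul (by positivity)]
    simp [hu]
  have e3 : ENNReal.ofReal (2 * φ) = 2 * ENNReal.ofReal φ := by
    rw [ENNReal.ofReal_mul (by positivity)]
    simp
  rw [e2, e3]
  calc u * G1 s + u * G2 s ≤ u * (ENNReal.ofReal A * N s + ENNReal.ofReal φ)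
        + u * (ENNReal.ofReal A * N s + ENNReal.ofReal φ) := by
        gcongr
        · exact h1 s hs
        · exact h2 s hs
    _ = 2 * (u * ENNReal.ofReal φ) + 2 * ENNReal.ofReal A * u * N s := by ring
    _ ≤ _ := by
        gcongr
        exact mul_le_of_le_one_left' e1

theorem LTe_G {m : ℕ} {w : ℝ → ℂ} {χ : E → ℝ} (K : ℕ) {M h A φ s : ℝ} (hM : 1 ≤ M)
    {c1 c2 f1 f2 : ℝ → Z → ℂ}
    (hk : NN K M (hsg h s) (Kh χ (g1 m w) (hsg h s)) ≤ ENNReal.ofReal A ∧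
      NN K M (hsg h s) (Kh χ (g2 m w) (hsg h s)) ≤ ENNReal.ofReal A ∧
      NN K M (hsg h s) (Kh χ (g3 m w) (hsg h s)) ≤ ENNReal.ofReal A)
    (h1 : NN K M (hsg h s) (f1 s) ≤ ENNReal.ofReal φ)
    (h2 : NN K M (hsg h s) (f2 s) ≤ ENNReal.ofReal φ) :
    NN K M (hsg h s) (TG (-I) χ (g1 m w) (g2 m w) h c1 c2 f1 s) ≤ ENNReal.ofReal A *
      (NN K M (hsg h s) (c1 s) + NN K M (hsg h s) (c2 s)) + ENNReal.ofReal φ ∧
    NN K M (hsg h s) (TG I χ (g1 m w) (g3 m w) h c2 c1 f2 s) ≤ ENNReal.ofReal A *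
      (NN K M (hsg h s) (c1 s) + NN K M (hsg h s) (c2 s)) + ENNReal.ofReal φ := by
  constructor
  · exact (NN_TG K hM (by simp) χ _ _ c1 c2 f1 s hk.1 hk.2.1).trans (by gcongr)
  · refine (NN_TG K hM (by simp) χ _ _ c2 c1 f2 s hk.1 hk.2.2).trans ?_
    rw [add_comm (NN K M (hsg h s) (c2 s))]
    gcongr

theorem LTe_two {x y : ENNReal} {B : ℝ} (h1 : x ≤ ENNReal.ofReal B) (h2 : y ≤ ENNReal.ofReal B) :
    x + y ≤ ENNReal.ofReal (2 * |B|) := by
  rw [two_mul, ENNReal.ofReal_add (abs_nonneg _) (abs_nonneg _)]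
  have := ENNReal.ofReal_le_ofReal (le_abs_self B)
  exact add_le_add (h1.trans this) (h2.trans this)



/-- a priori bound on the window -/
theorem TS.apriori {m : ℕ} {om : ℝ} {w : ℝ → ℂ} {χ : E → ℝ} (K : ℕ) {M h S A B φ N0 : ℝ}
    (hM : 1 ≤ M) (hh : 0 < h) (hA : 0 ≤ A) (hφ : 0 ≤ φ) (hN0 : 0 ≤ N0)
    {c1 c2 f1 f2 : ℝ → Z → ℂ} (H : TS m om w χ h S c1 c2 f1 f2)
    (hk : ∀ s ∈ Set.Icc 0 S, NN K M (hsg h s) (Kh χ (g1 m w) (hsg h s)) ≤ ENNReal.ofReal A ∧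
      NN K M (hsg h s) (Kh χ (g2 m w) (hsg h s)) ≤ ENNReal.ofReal A ∧
      NN K M (hsg h s) (Kh χ (g3 m w) (hsg h s)) ≤ ENNReal.ofReal A)
    (hB : ∀ s ∈ Set.Icc 0 S, NN K M (hsg h s) (c1 s) ≤ ENNReal.ofReal B ∧
      NN K M (hsg h s) (c2 s) ≤ ENNReal.ofReal B ∧ NN K M (hsg h s) (f1 s) ≤ ENNReal.ofReal φ ∧
      NN K M (hsg h s) (f2 s) ≤ ENNReal.ofReal φ)
    (h0 : NN K M h (c1 0) ≤ ENNReal.ofReal N0 ∧ NN K M h (c2 0) ≤ ENNReal.ofReal N0) :
    ∀ σ ∈ Set.Icc 0 S, NN K M (hsg h σ) (c1 σ) + NN K M (hsg h σ) (c2 σ)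
      ≤ ENNReal.ofReal (4 * (N0 + φ * S) * Real.exp (4 * A * S)) := by
  intro σ hσ
  have hS : 0 ≤ S := hσ.1.trans hσ.2
  have key := sup_iter (fun s => NN K M (hsg h s) (c1 s) + NN K M (hsg h s) (c2 s)) S (2 * |B|)
    (2 * N0 + 2 * φ * S) (2 * A) 0 (-(4 * A)) (by positivity) (by positivity) (by linarith)
    (fun s hs => LTe_two (hB s hs).1 (hB s hs).2.1) (fun τ hτ => by
      have hs : ∀ s ∈ Set.Icc 0 τ, s ∈ Set.Icc 0 S := fun s hs => ⟨hs.1, hs.2.trans hτ.2⟩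
      have i := LTe_int hA hφ le_rfl hτ.1
        (fun s => NN K M (hsg h s) (c1 s) + NN K M (hsg h s) (c2 s)) _ _
        (fun s hs' => (LTe_G K hM (hk s (hs s hs')) (hB s (hs s hs')).2.2.1
          (hB s (hs s hs')).2.2.2).1)
        (fun s hs' => (LTe_G K hM (hk s (hs s hs')) (hB s (hs s hs')).2.2.1
          (hB s (hs s hs')).2.2.2).2)
      simp only [neg_zero, zero_mul, Real.exp_zero, ENNReal.ofReal_one, one_mul] at i
      simp only [neg_zero, zero_mul, Real.exp_zero]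
      refine (add_le_add (H.e1.wa K hM hh (LTe_b1 m om) hτ)
        (H.e2.wa K hM hh (LTe_b2 m om) hτ)).trans ?_
      rw [add_add_add_comm]
      refine (add_le_add (add_le_add h0.1 h0.2) i).trans ?_
      rw [← add_assoc, ← ENNReal.ofReal_add hN0 hN0,
        ← ENNReal.ofReal_add (by positivity) (by have := hτ.1; positivity)]
      gcongr
      have e1 : 1 ≤ Real.exp (-(-(4 * A)) * τ) := Real.one_le_exp (by have := hτ.1; nlinarith)
      have e2 : φ * τ ≤ φ * S := mul_le_mul_of_nonneg_left hτ.2 hφ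
      calc N0 + N0 + 2 * φ * τ ≤ 2 * N0 + 2 * φ * S := by linarith
        _ ≤ _ := le_mul_of_one_le_right (by positivity) e1) σ hσ
  refine key.trans (ENNReal.ofReal_le_ofReal ?_)
  have e1 : Real.exp (-(-(4 * A)) * σ) ≤ Real.exp (4 * A * S) := by
    refine Real.exp_le_exp.2 ?_
    have := mul_le_mul_of_nonneg_left hσ.2 hA
    linarith
  calc 2 * (2 * N0 + 2 * φ * S) * Real.exp (-(-(4 * A)) * σ)
      ≤ 2 * (2 * N0 + 2 * φ * S) * Real.exp (4 * A * S) := by gcongr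
    _ = _ := by ring

/-- weighted decay from unweighted decay -/
theorem TS.decay {m : ℕ} {om : ℝ} {w : ℝ → ℂ} {χ : E → ℝ} (K : ℕ) {M h S A B φ N0 P θ : ℝ}
    (hM : 1 ≤ M) (hh : 0 < h) (hS : 0 ≤ S) (hA : 0 ≤ A) (hφ : 0 ≤ φ) (hN0 : 0 ≤ N0) (hP : 0 ≤ P)
    (hθ : 0 ≤ θ) (hK : 4 * A + θ ≤ K / 4)
    {c1 c2 f1 f2 : ℝ → Z → ℂ} (H : TS m om w χ h S c1 c2 f1 f2)
    (hk : ∀ s ∈ Set.Icc 0 S, NN K M (hsg h s) (Kh χ (g1 m w) (hsg h s)) ≤ ENNReal.ofReal A ∧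
      NN K M (hsg h s) (Kh χ (g2 m w) (hsg h s)) ≤ ENNReal.ofReal A ∧
      NN K M (hsg h s) (Kh χ (g3 m w) (hsg h s)) ≤ ENNReal.ofReal A)
    (hB : ∀ s ∈ Set.Icc 0 S, NN K M (hsg h s) (c1 s) ≤ ENNReal.ofReal B ∧
      NN K M (hsg h s) (c2 s) ≤ ENNReal.ofReal B ∧ NN K M (hsg h s) (f1 s) ≤ ENNReal.ofReal φ ∧
      NN K M (hsg h s) (f2 s) ≤ ENNReal.ofReal φ)
    (h0 : NN K M h (c1 0) ≤ ENNReal.ofReal N0 ∧ NN K M h (c2 0) ≤ ENNReal.ofReal N0)
    (hY : ∀ σ ∈ Set.Icc 0 S, NN 0 M h (c1 σ) ≤ ENNReal.ofReal (P * Real.exp (-θ * σ)) ∧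
      NN 0 M h (c2 σ) ≤ ENNReal.ofReal (P * Real.exp (-θ * σ))) :
    NN K M (hsg h S) (c1 S) + NN K M (hsg h S) (c2 S)
      ≤ ENNReal.ofReal (4 * (2 ^ K * P + N0) * Real.exp (-θ * S) + 4 * φ * S) := by
  have hκ : (0 : ℝ) ≤ K / 4 := by positivity
  have key := sup_iter (fun s => NN K M (hsg h s) (c1 s) + NN K M (hsg h s) (c2 s)) S (2 * |B|)
    (2 * 2 ^ K * P + 2 * N0 + 2 * φ * S * Real.exp (θ * S)) (2 * A) (K / 4) θ (by positivity)
    (by positivity) (by linarith)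
    (fun s hs => LTe_two (hB s hs).1 (hB s hs).2.1) (fun τ hτ => by
      have hτ0 := hτ.1
      have hs : ∀ s ∈ Set.Icc 0 τ, s ∈ Set.Icc 0 S := fun s hs => ⟨hs.1, hs.2.trans hτ.2⟩
      have i := LTe_int hA hφ hκ hτ.1
        (fun s => NN K M (hsg h s) (c1 s) + NN K M (hsg h s) (c2 s)) _ _
        (fun s hs' => (LTe_G K hM (hk s (hs s hs')) (hB s (hs s hs')).2.2.1
          (hB s (hs s hs')).2.2.2).1)
        (fun s hs' => (LTe_G K hM (hk s (hs s hs')) (hB s (hs s hs')).2.2.1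
          (hB s (hs s hs')).2.2.2).2)
      refine (add_le_add (H.e1.wb K hM hh (LTe_b1 m om) hτ)
        (H.e2.wb K hM hh (LTe_b2 m om) hτ)).trans ?_
      rw [add_add_add_comm]
      have e0 : Real.exp (-(K / 4 : ℝ) * τ) ≤ Real.exp (-θ * τ) := by
        refine Real.exp_le_exp.2 ?_
        have := mul_le_mul_of_nonneg_right (show θ ≤ K / 4 by linarith) hτ0
        linarith
      have j : ∀ x y : ENNReal, x ≤ ENNReal.ofReal (P * Real.exp (-θ * τ)) →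
          y ≤ ENNReal.ofReal N0 →
          ENNReal.ofReal (2 ^ K) * x + ENNReal.ofReal (Real.exp (-(K / 4 : ℝ) * τ)) * y
            ≤ ENNReal.ofReal ((2 ^ K * P + N0) * Real.exp (-θ * τ)) := by
        intro x y hx hy
        calc _ ≤ ENNReal.ofReal (2 ^ K) * ENNReal.ofReal (P * Real.exp (-θ * τ))
              + ENNReal.ofReal (Real.exp (-θ * τ)) * ENNReal.ofReal N0 := by gcongr
          _ = _ := by
            rw [← ENNReal.ofReal_mul (by positivity), ← ENNReal.ofReal_mul (by positivity),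
              ← ENNReal.ofReal_add (by positivity) (by positivity)]
            congr 1
            ring
      refine (add_le_add (add_le_add (j _ _ (hY τ hτ).1 h0.1) (j _ _ (hY τ hτ).2 h0.2)) i).trans ?_
      rw [← add_assoc, ← ENNReal.ofReal_add (by positivity) (by positivity),
        ← ENNReal.ofReal_add (by positivity) (by positivity)]
      gcongr
      have e1 : 1 ≤ Real.exp (θ * S) * Real.exp (-θ * τ) := by
        rw [← Real.exp_add]
        refine Real.one_le_exp ?_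
        have := mul_le_mul_of_nonneg_left hτ.2 hθ
        linarith
      have e2 : φ * τ ≤ φ * S := mul_le_mul_of_nonneg_left hτ.2 hφ
      have e3 : φ * S ≤ φ * S * (Real.exp (θ * S) * Real.exp (-θ * τ)) :=
        le_mul_of_one_le_right (by positivity) e1
      linarith) S ⟨hS, le_rfl⟩
  refine key.trans (ENNReal.ofReal_le_ofReal (le_of_eq ?_))
  have t6 : Real.exp (θ * S) * Real.exp (-θ * S) = 1 := by
    rw [← Real.exp_add]; simp
  linear_combination (4 * φ * S) * t6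

end Vale.Agent.P139
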