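import Vale.Agent.P139.LDefs
import Vale.Agent.P139.F1
import Vale.Agent.P139.SymP

open Complex MeasureTheory Filter Topology
open scoped ComplexConjugate ContDiff

namespace Vale.Agent.P139

theorem LTs_coef_mul (c : ℂ) (f : E → ℂ) : coef (fun x => c * f x) = c • coef f := by
  funext n
  simp only [coef, Pi.smul_apply, smul_eq_mul, mul_assoc]
  rw [integral_const_mul]
  ring

theorem LTs_arg {h : ℝ} (hh : 0 < h) (s : ℝ) (x : E) :
    ‖h⁻¹ • x‖ ^ 2 / 4 / Real.exp (-s) = ‖(hsg h s)⁻¹ • x‖ ^ 2 / 4 := by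
  have h1 : Real.exp (-s) = Real.exp (-s / 2) ^ 2 := by
    rw [← Real.exp_nat_mul]
    congr 1
    push_cast
    ring
  have h2 : 0 < Real.exp (-s / 2) := Real.exp_pos _
  unfold hsg
  rw [norm_smul, norm_smul, norm_inv, norm_inv, Real.norm_of_nonneg hh.le,
    Real.norm_of_nonneg (by positivity), h1]
  field_simp

theorem LTs_cpow (s : ℝ) (c : ℂ) : ((Real.exp (-s) : ℝ) : ℂ) ^ c = Complex.exp (-c * s) := by
  have h0 : ((Real.exp (-s) : ℝ) : ℂ) ≠ 0 := Complex.ofReal_ne_zero.2 (Real.exp_pos _).ne'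
  rw [Complex.cpow_def_of_ne_zero h0, ← Complex.ofReal_log (Real.exp_pos _).le, Real.log_exp]
  congr 1
  push_cast
  ring

theorem LTs_Kh (χ : E → ℝ) (g g' : E → ℂ) (c : ℂ) {h h' : ℝ}
    (e : ∀ x : E, g (h⁻¹ • x) = c * g' (h'⁻¹ • x)) : Kh χ g h = c • Kh χ g' h' := by
  unfold Kh
  rw [← LTs_coef_mul]
  congr 1
  funext x
  rw [e]
  ring

theorem Kh_P1 (χ : E → ℝ) (m : ℕ) (w : ℝ → ℂ) {h : ℝ} (hh : 0 < h) (s : ℝ) :
    Kh χ (P1 m w (Real.exp (-s))) h = Complex.exp s • Kh χ (g1 m w) (hsg h s) := by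
  refine LTs_Kh χ _ _ _ fun x => ?_
  unfold P1 g1 rad
  rw [LTs_arg hh, Complex.ofReal_exp, ← Complex.exp_neg]
  congr 2
  push_cast
  ring

theorem Kh_P2 (χ : E → ℝ) (m : ℕ) (om : ℝ) (w : ℝ → ℂ) {h : ℝ} (hh : 0 < h) (s : ℝ) :
    Kh χ (P2 m om w (Real.exp (-s))) h
      = Complex.exp ((1 - 2 * I * om) * s) • Kh χ (g2 m w) (hsg h s) := by
  refine LTs_Kh χ _ _ _ fun x => ?_
  unfold P2 g2 rad
  rw [LTs_arg hh, LTs_cpow]
  congr 2
  ring

theorem Kh_P3 (χ : E → ℝ) (m : ℕ) (om : ℝ) (w : ℝ → ℂ) {h : ℝ} (hh : 0 < h) (s : ℝ) :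
    Kh χ (fun y => conj (P2 m om w (Real.exp (-s)) y)) h
      = Complex.exp ((1 + 2 * I * om) * s) • Kh χ (g3 m w) (hsg h s) := by
  refine LTs_Kh χ _ _ _ fun x => ?_
  unfold P2 g3 rad
  rw [LTs_arg hh, LTs_cpow, map_mul, ← Complex.exp_conj]
  congr 2
  simp only [map_mul, map_neg, map_add, map_one, Complex.conj_I, Complex.conj_ofReal, map_ofNat]
  ring

theorem LTs_coef_cont {T : ℝ} {G : ℝ → E → ℂ}
    (hG : ContinuousOn (fun p : ℝ × E => G p.1 p.2) (Set.Icc 0 T ×ˢ Set.univ)) :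
    (∀ n, ContinuousOn (fun t => coef (G t) n) (Set.Icc 0 T)) ∧
      ∃ A : ℝ, ∀ t ∈ Set.Icc 0 T, ∀ n, ‖coef (G t) n‖ ≤ A := by
  constructor
  · intro n
    rw [continuousOn_iff_continuous_domRestrict]
    have h1 : Continuous fun p : Set.Icc (0 : ℝ) T × E => G p.1 p.2 :=
      hG.comp_continuous (f := fun p : Set.Icc (0 : ℝ) T × E => ((p.1 : ℝ), p.2))
        (by fun_prop) fun p => ⟨p.1.2, Set.mem_univ _⟩
    have h2 : Continuous (Function.uncurry fun (t : Set.Icc (0 : ℝ) T) (x : E) =>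
        G t x * invCh (-n) x) := h1.mul ((inv_cont_ch (-n)).comp continuous_snd)
    have h3 := (continuous_parametric_integral_of_continuous (μ := volume) h2 inv_compact).const_mul
      ((((2 * Real.pi) ^ 12 : ℝ) : ℂ)⁻¹)
    refine h3.congr fun t => ?_
    simp only [Set.domRestrict_apply]
    rw [inv_coef]
  · obtain ⟨C, hC⟩ := (isCompact_Icc.prod inv_compact).exists_bound_of_continuousOn
      (hG.mono (Set.prod_mono le_rfl (Set.subset_univ invQ)))
    refine ⟨‖(((2 * Real.pi) ^ 12 : ℝ) : ℂ)⁻¹‖ * (C * volume.real invQ), fun t ht n => ?_⟩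
    rw [inv_coef, norm_mul]
    refine mul_le_mul_of_nonneg_left ?_ (norm_nonneg _)
    refine norm_setIntegral_le_of_norm_le_const inv_compact.measure_lt_top fun x hx => ?_
    rw [norm_mul, inv_norm_ch, mul_one]
    exact hC (t, x) ⟨ht, hx⟩

theorem LTs_conv_cont {S : Set ℝ} {κ c : ℝ → Z → ℂ} {A : ℝ}
    (hκ : ∀ n, ContinuousOn (fun t => κ t n) S) (hA : ∀ t ∈ S, ∀ n, ‖κ t n‖ ≤ A)
    (hs : ∀ t ∈ S, Summable fun n => ‖c t n‖)
    (hc : ∀ t ∈ S, Tendsto (fun s => ∑' n, ‖c s n - c t n‖) (𝓝[S] t) (𝓝 0)) (n : Z) :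
    ContinuousOn (fun t => conv (κ t) (c t) n) S := by
  intro t ht
  have h1 : Tendsto (fun s => ∑' k, κ s (n - k) * c t k) (𝓝[S] t)
      (𝓝 (∑' k, κ t (n - k) * c t k)) := by
    refine tendsto_tsum_of_dominated_convergence (bound := fun k => A * ‖c t k‖)
      ((hs t ht).mul_left A) (fun k => ((hκ (n - k)) t ht).tendsto.mul_const _) ?_
    filter_upwards [self_mem_nhdsWithin] with s hsS k
    rw [norm_mul]
    exact mul_le_mul_of_nonneg_right (hA s hsS _) (norm_nonneg _)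
  have hsum : ∀ s ∈ S, ∀ r ∈ S, Summable fun k => ‖κ s (n - k) * c r k‖ := fun s hsS r hr =>
    Summable.of_nonneg_of_le (fun k => norm_nonneg _) (fun k => by
      rw [norm_mul]
      exact mul_le_mul_of_nonneg_right (hA s hsS _) (norm_nonneg _)) ((hs r hr).mul_left A)
  have h2 : Tendsto (fun s => conv (κ s) (c s) n - ∑' k, κ s (n - k) * c t k) (𝓝[S] t) (𝓝 0) := by
    have h3 := (hc t ht).const_mul A
    rw [mul_zero] at h3
    refine squeeze_zero_norm' ?_ h3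
    filter_upwards [self_mem_nhdsWithin] with s hsS
    have hd : Summable fun k => ‖c s k - c t k‖ :=
      Summable.of_nonneg_of_le (fun k => norm_nonneg _) (fun k => norm_sub_le _ _)
        ((hs s hsS).add (hs t ht))
    unfold conv
    rw [← Summable.tsum_sub (hsum s hsS s hsS).of_norm (hsum s hsS t ht).of_norm,
      ← tsum_mul_left]
    refine tsum_of_norm_bounded (hd.mul_left A).hasSum fun k => ?_
    rw [← mul_sub, norm_mul]
    exact mul_le_mul_of_nonneg_right (hA s hsS _) (norm_nonneg _)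
  have h4 := h2.add h1
  simp only [sub_add_cancel, zero_add] at h4
  exact h4

theorem LTs_maps {S σ : ℝ} (hσ : σ ∈ Set.Icc 0 S) :
    1 - Real.exp (-σ) ∈ Set.Icc 0 (1 - Real.exp (-S)) := by
  have h1 : Real.exp (-σ) ≤ 1 := Real.exp_le_one_iff.2 (by linarith [hσ.1])
  have h2 : Real.exp (-S) ≤ Real.exp (-σ) := Real.exp_le_exp.2 (by linarith [hσ.2])
  constructor <;> linarith

theorem LTs_sim_cont {S : ℝ} (b : ℂ) {z : ℝ → Z → ℂ} {n : Z}
    (hz : ContinuousOn (fun t => z t n) (Set.Icc 0 (1 - Real.exp (-S)))) :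
    ContinuousOn (fun σ => sim b z σ n) (Set.Icc 0 S) := by
  have h1 : ContinuousOn (fun σ : ℝ => z (1 - Real.exp (-σ)) n) (Set.Icc 0 S) :=
    hz.comp (f := fun σ : ℝ => 1 - Real.exp (-σ)) (by fun_prop) fun σ hσ => LTs_maps hσ
  have h2 : Continuous fun σ : ℝ => Complex.exp (-b * σ) := by fun_prop
  exact h2.continuousOn.mul h1

/-- one component -/
theorem LTs_one (b : ℂ) (ε h : ℝ) {S : ℝ} {z G : ℝ → Z → ℂ}
    (hz : ∀ n, ContinuousOn (fun t => z t n) (Set.Icc 0 (1 - Real.exp (-S))))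
    (hG : ∀ n, ContinuousOn (fun t => G t n) (Set.Icc 0 (1 - Real.exp (-S))))
    (hd : ∀ t ∈ Set.Icc 0 (1 - Real.exp (-S)), ∀ n, z t n =
      Complex.exp (-I * ((ε * t * (h ^ 2 * nsq n) : ℝ) : ℂ)) * z 0 n +
        ∫ r in (0 : ℝ)..t, Complex.exp (-I * ((ε * (t - r) * (h ^ 2 * nsq n) : ℝ) : ℂ)) * G r n) :
    TD b ε h S (sim b z) (sim (1 + b) G) := by
  refine ⟨fun n => LTs_sim_cont b (hz n), fun n => LTs_sim_cont (1 + b) (hG n), ?_⟩
  intro σ hσ n
  have hsub : Set.uIcc 0 σ ⊆ Set.Icc 0 S := by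
    rw [Set.uIcc_of_le hσ.1]
    exact Set.Icc_subset_Icc le_rfl hσ.2
  have hcv := intervalIntegral.integral_deriv_smul_comp'' (a := 0) (b := σ)
    (f := fun s : ℝ => 1 - Real.exp (-s)) (f' := fun s => Real.exp (-s))
    (g := fun r : ℝ => Complex.exp (-I * ((ε * ((1 - Real.exp (-σ)) - r) * (h ^ 2 * nsq n) : ℝ) : ℂ))
      * G r n) (by fun_prop)
    (fun x _ => by
      have h1 := ((hasDerivAt_neg' x).exp).const_sub 1
      simp only [mul_neg, mul_one, neg_neg] at h1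
      exact h1.hasDerivWithinAt)
    (by fun_prop)
    (by
      refine ContinuousOn.mul (by fun_prop) ((hG n).mono ?_)
      rintro _ ⟨s, hs, rfl⟩
      exact LTs_maps (hsub hs))
  simp only [neg_zero, Real.exp_zero, sub_self] at hcv
  have h0 : sim b z 0 n = z 0 n := by simp [sim]
  rw [h0]
  unfold sim
  simp only [Pi.smul_apply, smul_eq_mul]
  rw [hd _ (LTs_maps hσ) n, ← hcv, mul_add, ← intervalIntegral.integral_const_mul]
  congr 1
  · unfold tm
    simp only [neg_zero, Real.exp_zero, sub_zero]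
    ring
  · refine intervalIntegral.integral_congr fun s _ => ?_
    simp only [Function.comp_apply, Complex.real_smul, tm]
    have e1 : Complex.exp (-b * σ) * ((Real.exp (-s) : ℝ) : ℂ) =
        Complex.exp (-b * ((σ - s : ℝ) : ℂ)) * Complex.exp (-(1 + b) * s) := by
      rw [Complex.ofReal_exp, ← Complex.exp_add, ← Complex.exp_add]
      congr 1
      push_cast
      ring
    have e2 : ε * (1 - Real.exp (-σ) - (1 - Real.exp (-s))) * (h ^ 2 * nsq n) =
        ε * (Real.exp (-s) - Real.exp (-σ)) * (h ^ 2 * nsq n) := by ring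
    rw [e2, ← mul_assoc, e1]
    ring

theorem LTs_conv_smul (u v : ℂ) (a c : Z → ℂ) : conv (u • a) (v • c) = (u * v) • conv a c := by
  funext n
  simp only [conv, Pi.smul_apply, smul_eq_mul]
  rw [← tsum_mul_left]
  exact tsum_congr fun k => by ring

theorem LTs_conv_left (u : ℂ) (a c : Z → ℂ) : conv (u • a) c = u • conv a c := by
  have := LTs_conv_smul u 1 a c
  rwa [one_smul, mul_one] at this

theorem LTs_conv_right (v : ℂ) (a c : Z → ℂ) : conv a (v • c) = v • conv a c := by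
  have := LTs_conv_smul 1 v a c
  rwa [one_smul, one_mul] at this

theorem LTs_pos {S t : ℝ} (ht : t ∈ Set.Icc 0 (1 - Real.exp (-S))) : 0 < 1 - t := by
  have := Real.exp_pos (-S)
  linarith [ht.2]

theorem LTs_cont_P {S h : ℝ} {χ : E → ℝ} (hχ : Cut χ) {V : ℝ → ℂ} (hV : Continuous V)
    {a : ℝ → ℂ} (ha : ContinuousOn a (Set.Ioi 0)) :
    ContinuousOn (fun p : ℝ × E => (χ p.2 : ℂ) * (a (1 - p.1) * V (‖h⁻¹ • p.2‖ ^ 2 / 4 / (1 - p.1))))
      (Set.Icc 0 (1 - Real.exp (-S)) ×ˢ Set.univ) := by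
  have h1 : Continuous fun p : ℝ × E => (χ p.2 : ℂ) :=
    Complex.continuous_ofReal.comp (hχ.smooth.continuous.comp continuous_snd)
  refine h1.continuousOn.mul (ContinuousOn.mul ?_ (hV.comp_continuousOn ?_))
  · exact ha.comp (f := fun p : ℝ × E => 1 - p.1) (by fun_prop) fun p hp => LTs_pos hp.1
  · exact ContinuousOn.div (by fun_prop) (by fun_prop) fun p hp => (LTs_pos hp.1).ne'

theorem LTs_cont_inv : ContinuousOn (fun ρ : ℝ => (ρ : ℂ)⁻¹) (Set.Ioi 0) :=
  Complex.continuous_ofReal.continuousOn.inv₀ fun _ hρ => Complex.ofReal_ne_zero.2 (ne_of_gt hρ)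

theorem LTs_cont_cpow (c : ℂ) : ContinuousOn (fun ρ : ℝ => (ρ : ℂ) ^ c) (Set.Ioi 0) :=
  Complex.continuous_ofReal.continuousOn.cpow_const fun _ hρ =>
    Complex.ofReal_mem_slitPlane.2 hρ

theorem LTs_Kh_cont {S h : ℝ} {χ : E → ℝ} (hχ : Cut χ) {V : ℝ → ℂ} (hV : Continuous V)
    {a : ℝ → ℂ} (ha : ContinuousOn a (Set.Ioi 0)) {P : ℝ → E → ℂ}
    (hP : ∀ ρ y, P ρ y = a ρ * V (‖y‖ ^ 2 / 4 / ρ)) {z : ℝ → Z → ℂ} {K : ℕ} (hK : 1 ≤ K)
    {M B : ℝ} (hM : 0 < M) (hh : 0 < h)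
    (hz : ∀ n, ContinuousOn (fun t => z t n) (Set.Icc 0 (1 - Real.exp (-S))))
    (hB : ∀ t ∈ Set.Icc 0 (1 - Real.exp (-S)), NN K M h (z t) ≤ ENNReal.ofReal B) (n : Z) :
    ContinuousOn (fun t => conv (Kh χ (P (1 - t)) h) (z t) n) (Set.Icc 0 (1 - Real.exp (-S))) := by
  obtain ⟨k, A, hA⟩ := LTs_coef_cont (T := 1 - Real.exp (-S))
    (G := fun t x => (χ x : ℂ) * P (1 - t) (h⁻¹ • x))
    ((LTs_cont_P (S := S) (h := h) hχ hV ha).congr fun p _ => by simp only [hP])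
  exact LTs_conv_cont (κ := fun t => Kh χ (P (1 - t)) h) k hA
    (fun t ht => summable_of_NN K hM h _ (ne_top_of_le_ne_top ENNReal.ofReal_ne_top (hB t ht)))
    (l1_cont K hK hM hh _ z B hz hB) n

theorem LTs_TG (u b b' c : ℂ) (χ : E → ℝ) (g g' : E → ℂ) (h : ℝ) (P P' : ℝ → E → ℂ)
    (z z' F : ℝ → Z → ℂ)
    (hP : ∀ s : ℝ, Kh χ (P (Real.exp (-s))) h = Complex.exp s • Kh χ g (hsg h s))
    (hP' : ∀ s : ℝ, Kh χ (P' (Real.exp (-s))) h = Complex.exp (c * s) • Kh χ g' (hsg h s))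
    (hb : b' = 1 + b - c) :
    sim (1 + b) (fun r => u • (conv (Kh χ (P (1 - r)) h) (z r) +
        conv (Kh χ (P' (1 - r)) h) (z' r) + F r)) =
      TG u χ g g' h (sim b z) (sim b' z') (sim (1 + b) F) := by
  funext s
  have e1 : Complex.exp (-(1 + b) * s) * Complex.exp s = Complex.exp (-b * s) := by
    rw [← Complex.exp_add]
    congr 1
    ring
  have e2 : Complex.exp (-(1 + b) * s) * Complex.exp (c * s) = Complex.exp (-b' * s) := by
    rw [← Complex.exp_add, hb]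
    congr 1
    ring
  unfold TG sim
  simp only [sub_sub_cancel]
  rw [hP, hP', LTs_conv_left, LTs_conv_left, LTs_conv_right, LTs_conv_right, ← e1, ← e2]
  funext n
  simp only [Pi.smul_apply, Pi.add_apply, smul_eq_mul]
  ring

/-- passage to similarity time -/
theorem tlin_ts {m : ℕ} {om : ℝ} {w : ℝ → ℂ} (hw : Prof m om w) {χ : E → ℝ} (hχ : Cut χ)
    {K : ℕ} (hK : 1 ≤ K) {M h S B : ℝ} (hM : 1 ≤ M) (hh : 0 < h) (hh1 : h ≤ 1) (hS : 0 ≤ S)
    {z1 z2 F1 F2 : ℝ → Z → ℂ} (H : TLin m om w χ h (1 - Real.exp (-S)) z1 z2 F1 F2)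
    (hB : ∀ t ∈ Set.Icc 0 (1 - Real.exp (-S)), NN K M h (z1 t) ≤ ENNReal.ofReal B ∧
      NN K M h (z2 t) ≤ ENNReal.ofReal B) :
    TS m om w χ h S (sim (b1 m om) z1) (sim (b2 m om) z2) (sim (1 + b1 m om) F1)
      (sim (1 + b2 m om) F2) := by
  have _ := hh1
  have _ := hS
  have hM0 : 0 < M := by linarith
  have hV1 := hw.V_smooth.1.continuous
  have hV2 := hw.V_smooth.2.continuous
  have c11 := LTs_Kh_cont hχ hV1 LTs_cont_inv (P := P1 m w) (fun _ _ => rfl) hK hM0 hh H.c1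
    fun t ht => (hB t ht).1
  have c12 := LTs_Kh_cont hχ hV1 LTs_cont_inv (P := P1 m w) (fun _ _ => rfl) hK hM0 hh H.c2
    fun t ht => (hB t ht).2
  have c22 := LTs_Kh_cont hχ hV2 (LTs_cont_cpow (-1 + 2 * I * om)) (P := P2 m om w)
    (fun _ _ => rfl) hK hM0 hh H.c2 fun t ht => (hB t ht).2
  have c31 := LTs_Kh_cont hχ (Complex.continuous_conj.comp hV2)
    (Complex.continuous_conj.comp_continuousOn (LTs_cont_cpow (-1 + 2 * I * om)))
    (P := fun ρ y => conj (P2 m om w ρ y))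
    (fun _ _ => by simp only [P2, map_mul, Function.comp_apply]) hK hM0 hh H.c1
    fun t ht => (hB t ht).1
  constructor
  · rw [← LTs_TG (-I) (b1 m om) (b2 m om) (1 - 2 * I * om) χ (g1 m w) (g2 m w) h (P1 m w)
      (P2 m om w) z1 z2 F1 (Kh_P1 χ m w hh) (Kh_P2 χ m om w hh) (by
        unfold b1 b2
        ring)]
    refine LTs_one (b1 m om) 1 h H.c1
      (fun n => continuousOn_const.mul (((c11 n).add (c22 n)).add (H.c3 n))) (fun t ht n => ?_)
    rw [H.d1 t ht n, sub_eq_add_neg, ← neg_mul, ← intervalIntegral.integral_const_mul]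
    simp only [one_mul, Pi.smul_apply, Pi.add_apply, smul_eq_mul]
    congr 1
    exact intervalIntegral.integral_congr fun s _ => by ring
  · rw [← LTs_TG I (b2 m om) (b1 m om) (1 + 2 * I * om) χ (g1 m w) (g3 m w) h (P1 m w)
      (fun ρ y => conj (P2 m om w ρ y)) z2 z1 F2 (Kh_P1 χ m w hh) (Kh_P3 χ m om w hh) (by
        unfold b1 b2
        ring)]
    refine LTs_one (b2 m om) (-1) h H.c2
      (fun n => continuousOn_const.mul (((c12 n).add (c31 n)).add (H.c4 n))) (fun t ht n => ?_)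
    rw [H.d2 t ht n, ← intervalIntegral.integral_const_mul]
    simp only [Pi.smul_apply, Pi.add_apply, smul_eq_mul]
    have e : ∀ x : ℝ, -I * ((-1 * x * (h ^ 2 * nsq n) : ℝ) : ℂ) =
        I * ((x * (h ^ 2 * nsq n) : ℝ) : ℂ) := fun x => by
      push_cast
      ring
    simp only [e]
    congr 1
    exact intervalIntegral.integral_congr fun s _ => by ring

end Vale.Agent.P139
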