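import Vale.Agent.P139.MC

/-! Algebra of Kh and of the dilations.
Hints: Complex.cpow_add (base ≠ 0), Complex.conj_cpow / cpow_conj (arg of a positive real is 0),
Complex.norm_cpow_eq_rpow_re_of_pos, mul_inv, smul_smul. ev_Kh is ev_coef; conv_Kh_left:
coef_ev_mul, coef_congr, ev_Kh; conv_Kh: conv_Kh_left, coef_congr, ev_Kh. -/

open Complex MeasureTheory Filter Topology Set
open scoped ComplexConjugate ContDiff

namespace Vale.Agent.P139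

variable {ψ ψ' χ χ' : E → ℝ} {f g : E → ℂ} {ρ : ℝ}

theorem dil_one (κ : ℂ) (g : E → ℂ) : dil 1 κ g = g := by
  funext y
  simp [dil]
theorem continuous_dil (hg : Continuous g) (ρ : ℝ) (κ : ℂ) : Continuous (dil ρ κ g) :=
  continuous_const.mul (hg.comp (continuous_const_smul _))
theorem contDiff_dil (hg : ContDiff ℝ ∞ g) (ρ : ℝ) (κ : ℂ) : ContDiff ℝ ∞ (dil ρ κ g) :=
  contDiff_const.mul (hg.comp (contDiff_const_smul _))
theorem dil_mul (hρ : 0 < ρ) (κ κ' : ℂ) (f g : E → ℂ) (y : E) :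
    dil ρ κ f y * dil ρ κ' g y = dil ρ (κ + κ') (fun y => f y * g y) y := by
  have h0 : (ρ : ℂ) ≠ 0 := ofReal_ne_zero.2 hρ.ne'
  simp only [dil, neg_add, cpow_add _ _ h0]
  ring
theorem conj_dil (hρ : 0 < ρ) (κ : ℂ) (g : E → ℂ) (y : E) :
    conj (dil ρ κ g y) = dil ρ (conj κ) (fun y => conj (g y)) y := by
  have h0 : (ρ : ℂ).arg ≠ Real.pi := by
    rw [arg_ofReal_of_nonneg hρ.le]
    exact Real.pi_pos.ne
  have h1 := conj_cpow (ρ : ℂ) (-conj κ) h0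
  rw [conj_ofReal, map_neg, conj_conj] at h1
  simp only [dil, map_mul, h1]
theorem dil_add (ρ : ℝ) (κ : ℂ) (f g : E → ℂ) (y : E) :
    dil ρ κ (fun y => f y + g y) y = dil ρ κ f y + dil ρ κ g y := by
  simp only [dil, mul_add]
theorem dil_smul (ρ : ℝ) (κ z : ℂ) (g : E → ℂ) (y : E) :
    dil ρ κ (fun y => z * g y) y = z * dil ρ κ g y := by
  simp only [dil]
  ring
theorem dil_rad (hρ : 0 < ρ) (κ : ℂ) (g : ℝ → ℂ) (y : E) :
    dil ρ κ (rad g) y = (ρ : ℂ) ^ (-κ) * g (‖y‖ ^ 2 / 4 / ρ) := by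
  simp only [dil, rad]
  rw [norm_smul, mul_pow, norm_inv, Real.norm_of_nonneg (Real.sqrt_nonneg _), inv_pow,
    Real.sq_sqrt hρ.le]
  congr 2
  ring

theorem re_sg (m : ℕ) (om : ℝ) : (sg m om).re = aa m := by
  simp [sg]
theorem norm_cpow_sg (hρ : 0 < ρ) (m : ℕ) (om : ℝ) : ‖(ρ : ℂ) ^ sg m om‖ = ρ ^ aa m := by
  rw [norm_cpow_eq_rpow_re_of_pos hρ, re_sg]
theorem norm_cpow_sg_pow (hρ : 0 < ρ) {m : ℕ} (hm : 1 ≤ m) (om : ℝ) :
    ‖(ρ : ℂ) ^ sg m om‖ ^ (2 * m) = ρ := by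
  have h0 : (m : ℝ) ≠ 0 := by
    have : (1 : ℝ) ≤ m := by exact_mod_cast hm
    linarith
  rw [norm_cpow_sg hρ, ← Real.rpow_natCast, ← Real.rpow_mul hρ.le,
    show aa m * ((2 * m : ℕ) : ℝ) = 1 by unfold aa; push_cast; field_simp, Real.rpow_one]
theorem aa_le_half {m : ℕ} (hm : 1 ≤ m) : aa m ≤ 1 / 2 := by
  have : (1 : ℝ) ≤ m := by exact_mod_cast hm
  exact one_div_le_one_div_of_le two_pos (by linarith)
theorem cpow_mul_neg (hρ : 0 < ρ) (κ : ℂ) : (ρ : ℂ) ^ κ * (ρ : ℂ) ^ (-κ) = 1 := by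
  rw [← cpow_add _ _ (ofReal_ne_zero.2 hρ.ne'), add_neg_cancel, cpow_zero]
theorem cpow_mul_neg_add (hρ : 0 < ρ) (κ : ℂ) (l : ℝ) :
    (ρ : ℂ) ^ κ * (ρ : ℂ) ^ (-(κ + l)) = ((ρ ^ (-l) : ℝ) : ℂ) := by
  rw [← cpow_add _ _ (ofReal_ne_zero.2 hρ.ne'), ofReal_cpow hρ.le]
  congr 1
  push_cast
  ring
theorem cpow_mul_real (hρ : 0 < ρ) {ρ' : ℝ} (hρ' : 0 < ρ') (κ : ℂ) :
    ((ρ * ρ' : ℝ) : ℂ) ^ κ = (ρ : ℂ) ^ κ * (ρ' : ℂ) ^ κ := by
  rw [ofReal_mul, mul_cpow_ofReal_nonneg hρ.le hρ'.le]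

theorem continuous_trunc (hψ : Continuous ψ) (hg : Continuous g) (h : ℝ) :
    Continuous fun x : E => (ψ x : ℂ) * g (h⁻¹ • x) :=
  (continuous_ofReal.comp hψ).mul (hg.comp (continuous_const_smul _))
theorem Kh_add (hψ : Continuous ψ) (hf : Continuous f) (hg : Continuous g) (h : ℝ) :
    Kh ψ (fun y => f y + g y) h = Kh ψ f h + Kh ψ g h := by
  simp only [Kh, mul_add]
  exact coef_add (continuous_trunc hψ hf h) (continuous_trunc hψ hg h)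
theorem Kh_smul (ψ : E → ℝ) (z : ℂ) (g : E → ℂ) (h : ℝ) :
    Kh ψ (fun y => z * g y) h = z • Kh ψ g h := by
  simp only [Kh, ← coef_smul, mul_left_comm]
theorem Kh_sum (hψ : Continuous ψ) {ι : Type} (s : Finset ι) {g : ι → E → ℂ}
    (hg : ∀ i ∈ s, Continuous (g i)) (h : ℝ) :
    Kh ψ (fun y => ∑ i ∈ s, g i y) h = ∑ i ∈ s, Kh ψ (g i) h := by
  simp only [Kh, Finset.mul_sum]
  exact coef_sum s fun i hi => continuous_trunc hψ (hg i hi) h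
theorem Kh_sub_cut (hψ : Continuous ψ) (hψ' : Continuous ψ') (hg : Continuous g) (h : ℝ) :
    Kh ψ g h - Kh ψ' g h = Kh (fun x => ψ x - ψ' x) g h := by
  simp only [Kh, ofReal_sub, sub_mul]
  exact (coef_sub (continuous_trunc hψ hg h) (continuous_trunc hψ' hg h)).symm
theorem refl_Kh (ψ : E → ℝ) (g : E → ℂ) (h : ℝ) :
    refl (Kh ψ g h) = Kh ψ (fun y => conj (g y)) h := by
  simp only [Kh, ← coef_conj, map_mul, conj_ofReal]
theorem Kh_dil (ψ : E → ℝ) (g : E → ℂ) (ρ : ℝ) (κ : ℂ) (h : ℝ) :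
    Kh ψ (dil ρ κ g) h = (ρ : ℂ) ^ (-κ) • Kh ψ g (h * Real.sqrt ρ) := by
  simp only [Kh, dil, ← coef_smul, smul_smul, mul_inv]
  congr 1
  funext x
  rw [mul_left_comm, mul_comm (Real.sqrt ρ)⁻¹]

theorem Cut.mul (hχ : Cut χ) (hχ' : Cut χ') : Cut fun x => χ x * χ' x :=
  ⟨hχ.smooth.mul hχ'.smooth, fun x hx => by rw [hχ.one x hx, hχ'.one x hx, one_mul],
    fun x hx => by rw [hχ.zero x hx, zero_mul]⟩
theorem ev_Kh (hχ : Cut χ) (hg : Continuous g) {h : ℝ} (hs : S1 (Kh χ g h)) (x : E)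
    (hx : ∀ i, |x i| ≤ Real.pi) : ev (Kh χ g h) x = χ x * g (h⁻¹ • x) :=
  ev_coef _ (continuous_trunc hχ.smooth.continuous hg h)
    (fun y hy => by rw [hχ.zero y (by linarith), ofReal_zero, zero_mul]) hs x hx
theorem conv_Kh_left (hχ : Cut χ) (hg : Continuous g) {h : ℝ} (hs : S1 (Kh χ g h)) {a : Z → ℂ}
    (ha : S1 a) : conv (Kh χ g h) a = coef fun x => χ x * g (h⁻¹ • x) * ev a x := by
  rw [← coef_ev_mul hs ha]
  exact coef_congr _ _ fun x hx => by rw [ev_Kh hχ hg hs x hx]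
theorem conv_Kh (hχ : Cut χ) (hχ' : Cut χ') (hf : Continuous f) (hg : Continuous g) {h : ℝ}
    (hs : S1 (Kh χ f h)) (hs' : S1 (Kh χ' g h)) :
    conv (Kh χ f h) (Kh χ' g h) = Kh (fun x => χ x * χ' x) (fun y => f y * g y) h := by
  rw [conv_Kh_left hχ hf hs hs']
  refine coef_congr _ _ fun x hx => ?_
  rw [ev_Kh hχ' hg hs' x hx]
  push_cast
  ring

end Vale.Agent.P139
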