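import Vale.Agent.P139.MC
import Vale.Agent.P139.MKa

/-! Duhamel formulas.
Hints: integrands are ContinuousOn (Icc 0 t), hence IntervalIntegrable
(ContinuousOn.intervalIntegrable_of_Icc); intervalIntegral.integral_add/sub/const_mul/congr.
of_ode: s ↦ exp (-I (t-s) k) z s n has derivative exp (..) * (-I * H s n); integral_eq_sub_of_hasDerivAt.
norm_le: z t = (unimodular factor) * z 0 + (-I) • (fun n => integral); NW_le_of_norm, NW_add, NW_smul,
NW_integral. shift: write exp (-I (t-s) k) = exp (-I t k) * exp (I s k) and pull the first factor out;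
subtract the formulas at t0 + ρ t and t0 (integral_interval_sub_left or add_adjacent), substitute
s = t0 + ρ u (intervalIntegral.integral_comp_mul_add or smul_integral_comp_mul_add);
(h * sqrt ρ)^2 = h^2 * ρ. tlin_of_duh: evaluate the second formula at -n and conjugate
(nsq (-n) = nsq n, intervalIntegral integral_conj or unfold to integral_conj, refl_conv, refl_refl,
refl_Kh, conj (P1 ..) = P1 ..). -/

open Complex MeasureTheory Filter Topology Set
open scoped ComplexConjugate ContDiff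

namespace Vale.Agent.P139

variable {h T : ℝ} {z z' H H' : ℝ → Z → ℂ}

theorem MD_int {f g : ℝ → ℂ} (hf : ContinuousOn f (Icc 0 T)) (hg : Continuous g) {a b : ℝ}
    (ha : a ∈ Icc 0 T) (hb : b ∈ Icc 0 T) :
    IntervalIntegrable (fun s => g s * f s) volume a b :=
  ((hg.continuousOn.mul hf).mono (uIcc_subset_Icc ha hb)).intervalIntegrable

theorem MD_conj (f : ℝ → ℂ) (a b : ℝ) : conj (∫ s in a..b, f s) = ∫ s in a..b, conj (f s) := by
  simp only [intervalIntegral, map_sub, integral_conj]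

theorem MD_zero {t : ℝ} (ht : t ∈ Icc 0 T) : (0 : ℝ) ∈ Icc 0 T := ⟨le_rfl, ht.1.trans ht.2⟩

theorem Duh.add (a : Duh h T z H) (b : Duh h T z' H') :
    Duh h T (fun s => z s + z' s) (fun s => H s + H' s) := by
  refine ⟨fun n => (a.cz n).add (b.cz n), fun n => (a.cH n).add (b.cH n), fun t ht n => ?_⟩
  simp only [Pi.add_apply, mul_add]
  rw [intervalIntegral.integral_add (MD_int (a.cH n) (by fun_prop) (MD_zero ht) ht)
    (MD_int (b.cH n) (by fun_prop) (MD_zero ht) ht), a.eq t ht n, b.eq t ht n]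
  ring
theorem Duh.sub (a : Duh h T z H) (b : Duh h T z' H') :
    Duh h T (fun s => z s - z' s) (fun s => H s - H' s) := by
  refine ⟨fun n => (a.cz n).sub (b.cz n), fun n => (a.cH n).sub (b.cH n), fun t ht n => ?_⟩
  simp only [Pi.sub_apply, mul_sub]
  rw [intervalIntegral.integral_sub (MD_int (a.cH n) (by fun_prop) (MD_zero ht) ht)
    (MD_int (b.cH n) (by fun_prop) (MD_zero ht) ht), a.eq t ht n, b.eq t ht n]
  ring

theorem MD_mul (a : Duh h T z H) (c : Z → ℂ) :
    Duh h T (fun s n => c n * z s n) (fun s n => c n * H s n) := by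
  refine ⟨fun n => continuousOn_const.mul (a.cz n), fun n => continuousOn_const.mul (a.cH n),
    fun t ht n => ?_⟩
  simp only [mul_left_comm _ (c n)]
  rw [intervalIntegral.integral_const_mul, a.eq t ht n]
  ring

theorem Duh.smul (a : Duh h T z H) (c : ℂ) : Duh h T (fun s => c • z s) (fun s => c • H s) :=
  MD_mul a fun _ => c
theorem duh_sum {ι : Type} (s : Finset ι) {y G : ι → ℝ → Z → ℂ}
    (hy : ∀ i ∈ s, Duh h T (y i) (G i)) :
    Duh h T (fun t => ∑ i ∈ s, y i t) (fun t => ∑ i ∈ s, G i t) := by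
  classical
  induction s using Finset.induction_on with
  | empty => exact ⟨fun _ => continuousOn_const, fun _ => continuousOn_const, fun _ _ _ => by simp⟩
  | insert i s hi ih =>
    simp only [Finset.sum_insert hi]
    exact (hy i (Finset.mem_insert_self _ _)).add
      (ih fun j hj => hy j (Finset.mem_insert_of_mem hj))
theorem Duh.congr (a : Duh h T z H) (hH : ∀ s ∈ Icc 0 T, H' s = H s) : Duh h T z H' := by
  refine ⟨a.cz, fun n => (a.cH n).congr fun s hs => congrFun (hH s hs) n, fun t ht n => ?_⟩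
  rw [a.eq t ht n, intervalIntegral.integral_congr fun s hs => ?_]
  simp only [hH s (uIcc_subset_Icc (MD_zero ht) ht hs)]
theorem Duh.mu (a : Duh h T z H) (θ : ℝ) (x : E) :
    Duh h T (fun s => mu θ x (z s)) (fun s => mu θ x (H s)) :=
  MD_mul a _

theorem duh_of_ode (hz : ∀ n, ∀ t ∈ Icc 0 T, HasDerivAt (fun s => z s n)
      (-I * ((h ^ 2 * nsq n : ℝ) : ℂ) * z t n - I * H t n) t)
    (cH : ∀ n, ContinuousOn (fun t => H t n) (Icc 0 T)) : Duh h T z H := by
  refine ⟨fun n t ht => (hz n t ht).continuousAt.continuousWithinAt, cH, fun t ht n => ?_⟩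
  have h1 := hz n
  generalize h ^ 2 * nsq n = k at h1 ⊢
  rw [intervalIntegral.integral_eq_sub_of_hasDerivAt
    (f := fun s => I * (Complex.exp (-I * (((t - s) * k : ℝ) : ℂ)) * z s n)) (fun s hs => ?_)
    (MD_int (cH n) (by fun_prop) (MD_zero ht) ht)]
  · simp only [sub_self, zero_mul, ofReal_zero, mul_zero, Complex.exp_zero, sub_zero]
    linear_combination (z t n - Complex.exp (-I * ((t * k : ℝ) : ℂ)) * z 0 n) * I_mul_I
  · refine ((((((hasDerivAt_id' s).const_sub t).mul_const k).ofReal_comp.const_mul (-I)).cexp.mul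
      (h1 s (uIcc_subset_Icc (MD_zero ht) ht hs))).const_mul I).congr_deriv ?_
    push_cast
    linear_combination (-Complex.exp (-I * ((t - s) * k)) * H s n) * I_mul_I

theorem Duh.norm_le (a : Duh h T z H) {q : Z → ℝ} (hq : GW q) {t : ℝ} (ht : t ∈ Icc 0 T) :
    NW q (z t) ≤ NW q (z 0) + ∫⁻ s in Icc 0 t, NW q (H s) := by
  have e : z t = (fun n => Complex.exp (-I * ((t * (h ^ 2 * nsq n) : ℝ) : ℂ)) * z 0 n) +
      (-I) • fun n => ∫ s in (0 : ℝ)..t,
        Complex.exp (-I * (((t - s) * (h ^ 2 * nsq n) : ℝ) : ℂ)) * H s n := by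
    ext n
    rw [a.eq t ht n, sub_eq_add_neg, ← neg_mul]
    rfl
  have h1 : ∀ (r : ℝ) (u : ℂ), ‖Complex.exp (-I * r) * u‖ ≤ ‖u‖ := fun r u => by
    simp [norm_exp]
  rw [e]
  refine (NW_add hq _ _).trans (add_le_add (NW_le_of_norm hq fun n => h1 _ _) ?_)
  rw [NW_smul, norm_neg, norm_I, ENNReal.ofReal_one, one_mul]
  refine (NW_integral hq t ht.1 _ fun n => (Continuous.continuousOn (by fun_prop)).mul
    ((a.cH n).mono (Icc_subset_Icc_right ht.2))).trans
    (lintegral_mono fun s => NW_le_of_norm hq fun n => h1 _ _)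

theorem Duh.shift (a : Duh h T z H) {t0 ρ T' : ℝ} (ht : 0 ≤ t0) (hρ : 0 < ρ)
    (hT : t0 + ρ * T' ≤ T) :
    Duh (h * Real.sqrt ρ) T' (fun s => z (t0 + ρ * s)) (fun s => (ρ : ℂ) • H (t0 + ρ * s)) := by
  have hm : MapsTo (fun s => t0 + ρ * s) (Icc 0 T') (Icc 0 T) := fun s hs =>
    ⟨add_nonneg ht (mul_nonneg hρ.le hs.1),
      (add_le_add le_rfl (mul_le_mul_of_nonneg_left hs.2 hρ.le)).trans hT⟩
  refine ⟨fun n => (a.cz n).comp (by fun_prop) hm,
    fun n => continuousOn_const.mul ((a.cH n).comp (by fun_prop) hm), fun t h1 n => ?_⟩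
  have h2 := hm h1
  have h3 := hm (MD_zero h1)
  simp only [mul_zero, add_zero] at h2 h3 ⊢
  rw [a.eq _ h2 n, a.eq _ h3 n, mul_pow, Real.sq_sqrt hρ.le, mul_right_comm (h ^ 2)]
  generalize h ^ 2 * nsq n = k
  have e1 := intervalIntegral.smul_integral_comp_add_mul (a := 0) (b := t)
    (fun s : ℝ => Complex.exp (-I * (((t0 + ρ * t - s) * k : ℝ) : ℂ)) * H s n) ρ t0
  have e2 : ∀ s : ℝ, Complex.exp (-I * (((t - s) * (k * ρ) : ℝ) : ℂ)) * ((ρ : ℂ) • H (t0 + ρ * s)) n
      = ρ • (Complex.exp (-I * (((t0 + ρ * t - (t0 + ρ * s)) * k : ℝ) : ℂ)) * H (t0 + ρ * s) n) :=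
    fun s => by
      rw [show (t0 + ρ * t - (t0 + ρ * s)) * k = (t - s) * (k * ρ) by ring, real_smul,
        Pi.smul_apply, smul_eq_mul, mul_left_comm]
  have e3 : ∀ s : ℝ, Complex.exp (-I * (((t0 + ρ * t - s) * k : ℝ) : ℂ)) =
      Complex.exp (-I * ((t * (k * ρ) : ℝ) : ℂ)) * Complex.exp (-I * (((t0 - s) * k : ℝ) : ℂ)) :=
    fun s => by
      rw [← Complex.exp_add]
      congr 1
      push_cast
      ring
  have e4 := e3 0
  simp only [sub_zero] at e4
  simp only [e2, intervalIntegral.integral_smul, e1, mul_zero, add_zero]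
  rw [← intervalIntegral.integral_add_adjacent_intervals
    (MD_int (a.cH n) (by fun_prop) (MD_zero h2) h3) (MD_int (a.cH n) (by fun_prop) h3 h2), e4,
    intervalIntegral.integral_congr (a := 0) (b := t0) (fun s _ => by rw [e3, mul_assoc]),
    intervalIntegral.integral_const_mul]
  ring

theorem tlin_of_duh {m : ℕ} {om : ℝ} {w : ℝ → ℂ} {χ1 : E → ℝ} {F F' : ℝ → Z → ℂ}
    (cF : ∀ n, ContinuousOn (fun t => F t n) (Icc 0 T))
    (cF' : ∀ n, ContinuousOn (fun t => F' t n) (Icc 0 T))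
    (a : Duh h T z fun s => Lin m om w χ1 h s (z s) (refl (z' s)) + F s)
    (b : Duh h T z' fun s => Lin m om w χ1 h s (z' s) (refl (z s)) + F' s) :
    TLin m om w χ1 h T z (fun s => refl (z' s)) F (fun s => refl (F' s)) := by
  refine ⟨a.cz, fun n => continuous_conj.comp_continuousOn (b.cz (-n)), cF,
    fun n => continuous_conj.comp_continuousOn (cF' (-n)), a.eq, fun t ht n => ?_⟩
  have e : nsq (-n) = nsq n := by simp [nsq]
  have e1 : ∀ s, (fun y => conj (P1 m w (1 - s) y)) = P1 m w (1 - s) := fun s => by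
    ext y
    simp [P1, V1, mul_comm]
  have e2 : ∀ s, conj ((Lin m om w χ1 h s (z' s) (refl (z s)) + F' s) (-n)) =
      conv (Kh χ1 (P1 m w (1 - s)) h) (refl (z' s)) n +
        conv (Kh χ1 (fun y => conj (P2 m om w (1 - s) y)) h) (z s) n + refl (F' s) n := fun s => by
    show refl _ n = _
    rw [refl_add, Lin, refl_add, refl_conv, refl_conv, refl_refl, refl_Kh, refl_Kh, e1]
    rfl
  show conj (z' t (-n)) = _
  rw [b.eq t ht (-n), e, map_sub, map_mul, map_mul, MD_conj]
  simp only [map_mul, e2, ← exp_conj, map_neg, conj_I, conj_ofReal, neg_neg, neg_mul,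
    sub_neg_eq_add]
  rfl

end Vale.Agent.P139
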