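import Vale.Agent.P139.MK
import Vale.Agent.P139.MD

/-! Truncated self-similar solutions satisfy a Duhamel formula with a commutator error.
Hints: lap f y = ∑ j, dj j (dj j f) y by rfl. dj_mul (product rule, as an equality of functions),
dj of x ↦ g (c • x) is c * (dj j g) (c • x), dj of the complexified χ is the complexification of dj j χ
(Complex.ofRealCLM). dil ρ κ g (h⁻¹ • x) = ρ^(-κ) g (c • x) with c = (sqrt ρ)⁻¹ h⁻¹,
ρ^(-(κ+1/2)) = ρ^(-κ) (sqrt ρ)⁻¹, ρ^(-(κ+1)) = ρ^(-κ) ρ⁻¹.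
duh_dil: duh_of_ode; derivative of s ↦ Kh χ (dil (1-s) κ g) h n is Kh χ (dil ρ (κ+1) (Lg κ g)) h n
(hasDerivAt_Kh_dil composed with 1 - s); coef_lap, lap_trunc, coef_add/sum/smul give
-(h^2 nsq n) Z = Kh χ (dil ρ (κ+1) (lap g)) h n + Er, and G = lap g + I * Lg (Kh_add, Kh_smul, dil_add,
dil_smul); I * I = -1. -/

open Complex MeasureTheory Filter Topology Set
open scoped ComplexConjugate ContDiff

namespace Vale.Agent.P139

variable {χ : E → ℝ} {g G : E → ℂ} {ρ h : ℝ}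

theorem contDiff_lap (hg : ContDiff ℝ ∞ g) : ContDiff ℝ ∞ (lap g) := by
  exact ContDiff.sum fun j _ => contDiff_dj (contDiff_dj hg j) j

theorem contDiff_lapR (hχ : ContDiff ℝ ∞ χ) : ContDiff ℝ ∞ (lapR χ) := by
  exact ContDiff.sum fun j _ => contDiff_dj (contDiff_dj hχ j) j

theorem MLap_ofReal_diff (hχ : ContDiff ℝ ∞ χ) : Differentiable ℝ fun x => (χ x : ℂ) :=
  (ofRealCLM.contDiff.comp hχ).differentiable (by simp)

theorem MLap_smul_diff (hg : ContDiff ℝ ∞ g) (c : ℝ) : Differentiable ℝ fun x : E => g (c • x) :=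
  (hg.differentiable (by simp)).comp (differentiable_id.const_smul c)

theorem MLap_mul {a b : E → ℂ} (ha : Differentiable ℝ a) (hb : Differentiable ℝ b) (j : Fin 12)
    (x : E) : dj j (fun x => a x * b x) x = a x * dj j b x + dj j a x * b x := by
  unfold dj
  rw [((ha x).hasFDerivAt.fun_mul (hb x).hasFDerivAt).fderiv]
  simp [mul_comm]

theorem MLap_add {a b : E → ℂ} (ha : Differentiable ℝ a) (hb : Differentiable ℝ b) (j : Fin 12)
    (x : E) : dj j (fun x => a x + b x) x = dj j a x + dj j b x := by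
  unfold dj
  rw [((ha x).hasFDerivAt.fun_add (hb x).hasFDerivAt).fderiv]
  simp

theorem MLap_cmul {a : E → ℂ} (ha : Differentiable ℝ a) (c : ℂ) (j : Fin 12)
    (x : E) : dj j (fun x => c * a x) x = c * dj j a x := by
  unfold dj
  rw [((ha x).hasFDerivAt.const_mul c).fderiv]
  simp

theorem MLap_ofReal (hχ : ContDiff ℝ ∞ χ) (j : Fin 12) (x : E) :
    dj j (fun x => (χ x : ℂ)) x = ((dj j χ x : ℝ) : ℂ) := by
  have h : HasFDerivAt (fun x => (χ x : ℂ)) (ofRealCLM.comp (fderiv ℝ χ x)) x :=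
    ofRealCLM.hasFDerivAt.comp x (hχ.differentiable (by simp) x).hasFDerivAt
  unfold dj
  rw [h.fderiv]
  simp

theorem MLap_scale (hg : ContDiff ℝ ∞ g) (c : ℝ) (j : Fin 12) (x : E) :
    dj j (fun x => g (c • x)) x = (c : ℂ) * dj j g (c • x) := by
  have h : HasFDerivAt (fun x => g (c • x))
      ((fderiv ℝ g (c • x)).comp (c • ContinuousLinearMap.id ℝ E)) x :=
    (hg.differentiable (by simp) (c • x)).hasFDerivAt.comp x ((hasFDerivAt_id x).const_smul c)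
  unfold dj
  rw [h.fderiv]
  simp

theorem dj_trunc (hχ : ContDiff ℝ ∞ χ) (hg : ContDiff ℝ ∞ g) (hh : 0 < h) (j : Fin 12) (x : E) :
    (h : ℂ) * dj j (fun x => (χ x : ℂ) * g (h⁻¹ • x)) x
      = (χ x : ℂ) * dj j g (h⁻¹ • x) + (h : ℂ) * ((dj j χ x : ℝ) * g (h⁻¹ • x)) := by
  have hh' : (h : ℂ) ≠ 0 := ofReal_ne_zero.2 hh.ne'
  rw [MLap_mul (MLap_ofReal_diff hχ) (MLap_smul_diff hg _), MLap_ofReal hχ, MLap_scale hg]
  push_cast
  field_simp

theorem dj_dil (hg : ContDiff ℝ ∞ g) (hρ : 0 < ρ) (κ : ℂ) (j : Fin 12) :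
    dj j (dil ρ κ g) = dil ρ (κ + 1 / 2) (dj j g) := by
  funext y
  have hρ' : (ρ : ℂ) ≠ 0 := ofReal_ne_zero.2 hρ.ne'
  have e : (ρ : ℂ) ^ (-(κ + 1 / 2)) = (ρ : ℂ) ^ (-κ) * (((Real.sqrt ρ)⁻¹ : ℝ) : ℂ) := by
    rw [neg_add, cpow_add _ _ hρ', Real.sqrt_eq_rpow, ← Real.rpow_neg hρ.le, ofReal_cpow hρ.le]
    push_cast
    rfl
  change dj j (fun y => (ρ : ℂ) ^ (-κ) * g ((Real.sqrt ρ)⁻¹ • y)) y = _
  rw [MLap_cmul (MLap_smul_diff hg _), MLap_scale hg]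
  unfold dil
  rw [e, mul_assoc]

theorem MLap_two (hχ : ContDiff ℝ ∞ χ) (hg : ContDiff ℝ ∞ g) (hh : 0 < h) (j : Fin 12) (x : E) :
    ((h ^ 2 : ℝ) : ℂ) * dj j (dj j fun x => (χ x : ℂ) * g (h⁻¹ • x)) x
      = (χ x : ℂ) * dj j (dj j g) (h⁻¹ • x)
        + (((2 * h : ℝ) : ℂ) * ((dj j χ x : ℝ) * dj j g (h⁻¹ • x))
        + ((h ^ 2 : ℝ) : ℂ) * ((dj j (dj j χ) x : ℝ) * g (h⁻¹ • x))) := by
  have hF : ContDiff ℝ ∞ fun x => (χ x : ℂ) * g (h⁻¹ • x) :=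
    (ofRealCLM.contDiff.comp hχ).mul (hg.comp (contDiff_id.const_smul h⁻¹))
  have e : (fun x => (h : ℂ) * dj j (fun x => (χ x : ℂ) * g (h⁻¹ • x)) x) = fun x =>
      (χ x : ℂ) * dj j g (h⁻¹ • x) + (h : ℂ) * ((dj j χ x : ℝ) * g (h⁻¹ • x)) :=
    funext fun x => dj_trunc hχ hg hh j x
  have e1 := MLap_cmul ((contDiff_dj hF j).differentiable (by simp)) (h : ℂ) j x
  have d1 : Differentiable ℝ fun x => (χ x : ℂ) * dj j g (h⁻¹ • x) :=
    (MLap_ofReal_diff hχ).mul (MLap_smul_diff (contDiff_dj hg j) _)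
  have d2 : Differentiable ℝ fun x => ((dj j χ x : ℝ) : ℂ) * g (h⁻¹ • x) :=
    (MLap_ofReal_diff (contDiff_dj hχ j)).mul (MLap_smul_diff hg _)
  rw [e, MLap_add d1 (d2.const_mul _), MLap_cmul d2] at e1
  have t1 := dj_trunc hχ (contDiff_dj hg j) hh j x
  have t2 := dj_trunc (contDiff_dj hχ j) hg hh j x
  push_cast
  linear_combination (-(h : ℂ)) * e1 + t1 + (h : ℂ) * t2

theorem lap_trunc (hχ : ContDiff ℝ ∞ χ) (hg : ContDiff ℝ ∞ g) (hρ : 0 < ρ) (hh : 0 < h) (κ : ℂ)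
    (x : E) : ((h ^ 2 : ℝ) : ℂ) * lap (fun x => (χ x : ℂ) * dil ρ κ g (h⁻¹ • x)) x
      = (χ x : ℂ) * dil ρ (κ + 1) (lap g) (h⁻¹ • x)
        + (∑ j, ((2 * h : ℝ) : ℂ) * ((dj j χ x : ℝ) * dil ρ (κ + 1 / 2) (dj j g) (h⁻¹ • x))
        + ((h ^ 2 : ℝ) : ℂ) * ((lapR χ x : ℝ) * dil ρ κ g (h⁻¹ • x))) := by
  have hd := contDiff_dil hg ρ κ
  have key : ∀ j : Fin 12, ((h ^ 2 : ℝ) : ℂ) *
      dj j (dj j fun x => (χ x : ℂ) * dil ρ κ g (h⁻¹ • x)) x
      = (χ x : ℂ) * dil ρ (κ + 1) (dj j (dj j g)) (h⁻¹ • x)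
        + (((2 * h : ℝ) : ℂ) * ((dj j χ x : ℝ) * dil ρ (κ + 1 / 2) (dj j g) (h⁻¹ • x))
        + ((h ^ 2 : ℝ) : ℂ) * ((dj j (dj j χ) x : ℝ) * dil ρ κ g (h⁻¹ • x))) := fun j => by
    rw [MLap_two hχ hd hh j x, dj_dil hg hρ, dj_dil (contDiff_dj hg j) hρ]
    have e : κ + 1 / 2 + 1 / 2 = κ + 1 := by ring
    rw [e]
  change ((h ^ 2 : ℝ) : ℂ) * ∑ j, dj j (dj j fun x => (χ x : ℂ) * dil ρ κ g (h⁻¹ • x)) x = _
  rw [Finset.mul_sum, Finset.sum_congr rfl fun j _ => key j, Finset.sum_add_distrib,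
    Finset.sum_add_distrib]
  congr 1
  · change _ = (χ x : ℂ) * ((ρ : ℂ) ^ (-(κ + 1)) *
      ∑ j, dj j (dj j g) ((Real.sqrt ρ)⁻¹ • h⁻¹ • x))
    rw [Finset.mul_sum, Finset.mul_sum]
    rfl
  · congr 1
    unfold lapR
    rw [ofReal_sum, Finset.sum_mul, Finset.mul_sum]

theorem cont_Er (hχ : ContDiff ℝ ∞ χ) (hg : ContDiff ℝ ∞ g) (κ : ℂ) (h : ℝ) (n : Z) {T : ℝ}
    (hT : T < 1) : ContinuousOn (fun s => Er χ κ g h (1 - s) n) (Icc 0 T) := by
  simp only [Er, Pi.add_apply, Finset.sum_apply, Pi.smul_apply, smul_eq_mul]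
  refine ContinuousOn.add (continuousOn_finsetSum _ fun j _ => continuousOn_const.mul ?_)
    (continuousOn_const.mul ?_)
  · exact cont_Kh_dil' (contDiff_dj hχ j).continuous (contDiff_dj hg j).continuous _ h n hT
  · exact cont_Kh_dil' (contDiff_lapR hχ).continuous hg.continuous _ h n hT

theorem MLap_coef (hχ : Cut χ) (hg : ContDiff ℝ ∞ g) (hρ : 0 < ρ) (hh : 0 < h) (κ : ℂ) (n : Z) :
    -((h ^ 2 * nsq n : ℝ) : ℂ) * Kh χ (dil ρ κ g) h n
      = Kh χ (dil ρ (κ + 1) (lap g)) h n + Er χ κ g h ρ n := by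
  have hF : ContDiff ℝ ∞ fun x => (χ x : ℂ) * dil ρ κ g (h⁻¹ • x) :=
    (ofRealCLM.contDiff.comp hχ.smooth).mul
      ((contDiff_dil hg ρ κ).comp (contDiff_id.const_smul h⁻¹))
  have a := coef_lap _ (contDiff_infty.1 hF 2) (fun x hx => by
    rw [hχ.zero x (by linarith)]; simp) n
  have b := congrFun (coef_smul ((h ^ 2 : ℝ) : ℂ)
    (lap fun x => (χ x : ℂ) * dil ρ κ g (h⁻¹ • x))) n
  have c1 := continuous_trunc hχ.smooth.continuous
    (continuous_dil (contDiff_lap hg).continuous ρ (κ + 1)) h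
  have c2 : ∀ j : Fin 12, Continuous fun x : E => ((2 * h : ℝ) : ℂ) *
      ((dj j χ x : ℝ) * dil ρ (κ + 1 / 2) (dj j g) (h⁻¹ • x)) := fun j =>
    continuous_const.mul (continuous_trunc (contDiff_dj hχ.smooth j).continuous
      (continuous_dil (contDiff_dj hg j).continuous ρ _) h)
  have c3 : Continuous fun x : E => ((h ^ 2 : ℝ) : ℂ) * ((lapR χ x : ℝ) * dil ρ κ g (h⁻¹ • x)) :=
    continuous_const.mul (continuous_trunc (contDiff_lapR hχ.smooth).continuous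
      (continuous_dil hg.continuous ρ _) h)
  have c4 : Continuous fun x : E => ∑ j : Fin 12, ((2 * h : ℝ) : ℂ) *
      ((dj j χ x : ℝ) * dil ρ (κ + 1 / 2) (dj j g) (h⁻¹ • x)) :=
    continuous_finsetSum _ fun j _ => c2 j
  rw [funext fun x => lap_trunc hχ.smooth hg hρ hh κ x,
    coef_add c1 (c4.fun_add c3), coef_add c4 c3, coef_sum _ fun j _ => c2 j,
    Finset.sum_congr rfl fun j _ => coef_smul _ _, coef_smul] at b
  rw [Pi.smul_apply, a, smul_eq_mul] at b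
  refine Eq.trans ?_ b.symm
  unfold Kh
  push_cast
  ring

theorem duh_dil (hχ : Cut χ) (hg : ContDiff ℝ ∞ g) (hG : Continuous G) {κ : ℂ}
    (pde : ∀ y, lap g y + I * Lg κ g y = G y) (hh : 0 < h) {T : ℝ} (hT : T < 1) :
    Duh h T (fun s => Kh χ (dil (1 - s) κ g) h)
      (fun s => Kh χ (dil (1 - s) (κ + 1) G) h + Er χ κ g h (1 - s)) := by
  refine duh_of_ode (fun n t ht => ?_) fun n => ?_
  · have hρ : 0 < 1 - t := by linarith [ht.2]
    have h1 := hasDerivAt_Kh_dil hχ.smooth.continuous hg hρ κ h n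
    have h2 : HasDerivAt (fun s : ℝ => 1 - s) (-1) t := (hasDerivAt_id t).const_sub 1
    have h3 := HasDerivAt.scomp (h := fun s : ℝ => 1 - s) t h1 h2
    refine HasDerivAt.congr_deriv h3 ?_
    have a := MLap_coef hχ hg hρ hh κ n
    have hG' : dil (1 - t) (κ + 1) G = fun y => dil (1 - t) (κ + 1) (lap g) y
        + I * dil (1 - t) (κ + 1) (Lg κ g) y := by
      funext y
      rw [← dil_smul, ← dil_add]
      congr 1
      exact funext fun y => (pde y).symm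
    have b : Kh χ (dil (1 - t) (κ + 1) G) h = Kh χ (dil (1 - t) (κ + 1) (lap g)) h
        + I • Kh χ (dil (1 - t) (κ + 1) (Lg κ g)) h := by
      rw [hG', Kh_add hχ.smooth.continuous (continuous_dil (contDiff_lap hg).continuous _ _)
        (continuous_const.fun_mul (continuous_dil (contDiff_Lg hg κ).continuous _ _)), Kh_smul]
    simp only [Pi.add_apply, b, Pi.smul_apply, smul_eq_mul, neg_smul, one_smul, neg_neg]
    linear_combination (-I) * a + (Kh χ (dil (1 - t) (κ + 1) (Lg κ g)) h n) * I_mul_I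
  · exact (cont_Kh_dil' hχ.smooth.continuous hG _ h n hT).add (cont_Er hχ.smooth hg κ h n hT)

end Vale.Agent.P139
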