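import Vale.Agent.P139.MC

/-! The nonlinearity in the Wiener algebra.
Hints: Wb q f B says f = ev a with NW q a ≤ B; it is closed under sums, products (conv, ev_conv,
NW_conv_le), constants (Pi.single 0 1 has NW q = ofReal (q 0); avoid it by doing the inductions on
(u conj u)^k u, k ≥ 0), conj (refl, ev_refl); Wb.coef by coef_ev. Nl_spec: take q = 1.
Nl_smul_mu: Nl m a = N with ev N known, ev (mu θ x0 N) by ev_mu, then coef_ev; use
z * conj z = ‖z‖^2 and exp (I θ) * conj (exp (I θ)) = 1.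
Nl_taylor: call (F, F0, F1) good with constant C (independent of q, a, e, δ) if Wb q F0 C,
Wb q F1 (C δ), Wb q (F - F0 - F1) (C δ^2) (then Wb q F (3 C)). (u+e, u, e) and its conjugate are good;
products of good triples are good with F0 G0, F0 G1 + F1 G0 because
F G - F0 G0 - (F0 G1 + F1 G0) = (F - F0 - F1) G + (F0 + F1) (G - G0 - G1) + F1 G1.
Induct on k for F_k = ((u+e) conj (u+e))^k (u+e) with first order part
(k+1) (u conj u)^k e + k (u conj u)^(k-1) u^2 conj e (cases k for the k - 1; ring). Finally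
Nl (a+e) - Nl a - DNl a e = coef of the remainder (coef_sub, continuity from continuous_ev, ev_add). -/

open Complex MeasureTheory Filter Topology Set
open scoped ComplexConjugate ContDiff

namespace Vale.Agent.P139

variable {q : Z → ℝ}

def Wb (q : Z → ℝ) (f : E → ℂ) (B : ℝ) : Prop :=
  0 ≤ B ∧ ∃ a : Z → ℂ, NW q a ≤ ENNReal.ofReal B ∧ ∀ x, ev a x = f x

theorem Wb.coef (hq : GW q) {f : E → ℂ} {B : ℝ} (h : Wb q f B) :
    NW q (coef f) ≤ ENNReal.ofReal B ∧ ∀ x, ev (coef f) x = f x := by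
  obtain ⟨_, a, ha, e⟩ := h
  have e' : f = ev a := funext fun x => (e x).symm
  rw [e', coef_ev a (S1_of_le hq ha)]
  exact ⟨ha, fun _ => rfl⟩

theorem MN_of {a : Z → ℂ} {B : ℝ} (hB : 0 ≤ B) (h : NW q a ≤ ENNReal.ofReal B) :
    Wb q (ev a) B := ⟨hB, a, h, fun _ => rfl⟩

theorem MN_congr {f g : E → ℂ} {B B' : ℝ} (h : Wb q f B) (hB : B ≤ B') (e : ∀ x, f x = g x) :
    Wb q g B' := by
  obtain ⟨h0, a, ha, e'⟩ := h
  exact ⟨h0.trans hB, a, ha.trans (ENNReal.ofReal_le_ofReal hB), fun x => (e' x).trans (e x)⟩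

theorem MN_zero (q : Z → ℝ) : Wb q (fun _ => 0) 0 :=
  ⟨le_rfl, 0, by rw [NW_zero]; exact zero_le, fun x => by simp [ev]⟩

theorem MN_add (hq : GW q) {f g : E → ℂ} {A B : ℝ} (hf : Wb q f A) (hg : Wb q g B) :
    Wb q (fun x => f x + g x) (A + B) := by
  obtain ⟨hA, a, ha, ea⟩ := hf
  obtain ⟨hB, b, hb, eb⟩ := hg
  exact ⟨add_nonneg hA hB, a + b, NW_add_le hq hA hB ha hb, fun x => by
    rw [ev_add (S1_of_le hq ha) (S1_of_le hq hb), ea, eb]⟩

theorem MN_mul (hq : GW q) {f g : E → ℂ} {A B : ℝ} (hf : Wb q f A) (hg : Wb q g B) :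
    Wb q (fun x => f x * g x) (A * B) := by
  obtain ⟨hA, a, ha, ea⟩ := hf
  obtain ⟨hB, b, hb, eb⟩ := hg
  exact ⟨mul_nonneg hA hB, conv a b, NW_conv_le hq hA ha hb, fun x => by
    rw [ev_conv a b (S1_of_le hq ha) (S1_of_le hq hb), ea, eb]⟩

theorem MN_conj (hq : GW q) {f : E → ℂ} {A : ℝ} (hf : Wb q f A) :
    Wb q (fun x => conj (f x)) A := by
  obtain ⟨hA, a, ha, ea⟩ := hf
  exact ⟨hA, refl a, (NW_refl hq a).le.trans ha, fun x => by rw [ev_refl, ea]⟩

theorem MN_pow (hq : GW q) {f : E → ℂ} {A : ℝ} (hf : Wb q f A) (m : ℕ) :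
    Wb q (fun x => (f x * conj (f x)) ^ m * f x) ((A * A) ^ m * A) := by
  induction m with
  | zero => exact MN_congr hf (by simp) fun x => by simp
  | succ k ih =>
    exact MN_congr (MN_mul hq (MN_mul hq hf (MN_conj hq hf)) ih) (le_of_eq (by ring))
      fun x => by ring

/-- first order expansions in the Wiener algebra -/
structure MNGood (q : Z → ℝ) (C δ : ℝ) (F F0 F1 : E → ℂ) : Prop where
  h0 : Wb q F0 C
  h1 : Wb q F1 (C * δ)
  h2 : Wb q (fun x => F x - F0 x - F1 x) (C * δ ^ 2)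

theorem MNGood.congr {C δ : ℝ} {F F0 F1 G G0 G1 : E → ℂ} (h : MNGood q C δ F F0 F1)
    (e : ∀ x, F x = G x) (e0 : ∀ x, F0 x = G0 x) (e1 : ∀ x, F1 x = G1 x) :
    MNGood q C δ G G0 G1 :=
  ⟨MN_congr h.h0 le_rfl e0, MN_congr h.h1 le_rfl e1,
    MN_congr h.h2 le_rfl fun x => by rw [e, e0, e1]⟩

theorem MNGood.conj (hq : GW q) {C δ : ℝ} {F F0 F1 : E → ℂ} (h : MNGood q C δ F F0 F1) :
    MNGood q C δ (fun x => conj (F x)) (fun x => conj (F0 x)) (fun x => conj (F1 x)) :=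
  ⟨MN_conj hq h.h0, MN_conj hq h.h1,
    MN_congr (MN_conj hq h.h2) le_rfl fun x => by rw [map_sub, map_sub]⟩

theorem MNGood.mul (hq : GW q) {C D δ : ℝ} (hδ : 0 ≤ δ) (hδ1 : δ ≤ 1) {F F0 F1 G G0 G1 : E → ℂ}
    (h : MNGood q C δ F F0 F1) (g : MNGood q D δ G G0 G1) :
    MNGood q (6 * (C * D)) δ (fun x => F x * G x) (fun x => F0 x * G0 x)
      (fun x => F0 x * G1 x + F1 x * G0 x) := by
  have hC := h.h0.1
  have hD := g.h0.1
  have hCD := mul_nonneg hC hD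
  have hd2 : δ ^ 2 ≤ 1 := pow_le_one₀ hδ hδ1
  have hG : Wb q G (3 * D) := by
    refine MN_congr (MN_add hq (MN_add hq g.h0 g.h1) g.h2) ?_ fun x => by ring
    have a1 := mul_le_mul_of_nonneg_left hδ1 hD
    have a2 := mul_le_mul_of_nonneg_left hd2 hD
    linarith
  have hF : Wb q (fun x => F0 x + F1 x) (2 * C) := by
    refine MN_congr (MN_add hq h.h0 h.h1) ?_ fun _ => rfl
    have a1 := mul_le_mul_of_nonneg_left hδ1 hC
    linarith
  refine ⟨MN_congr (MN_mul hq h.h0 g.h0) (by linarith) fun _ => rfl,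
    MN_congr (MN_add hq (MN_mul hq h.h0 g.h1) (MN_mul hq h.h1 g.h0)) ?_ fun _ => rfl,
    MN_congr (MN_add hq (MN_add hq (MN_mul hq h.h2 hG) (MN_mul hq hF g.h2))
      (MN_mul hq h.h1 g.h1)) (le_of_eq (by ring)) fun x => by ring⟩
  have a1 := mul_nonneg hCD hδ
  linarith

theorem MN_base {L δ : ℝ} (hδ : 0 ≤ δ) {u e : E → ℂ} (hu : Wb q u L) (he : Wb q e δ) :
    MNGood q (L + 1) δ (fun x => u x + e x) u e := by
  have hL := hu.1
  refine ⟨MN_congr hu (by linarith) fun _ => rfl, MN_congr he ?_ fun _ => rfl,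
    MN_congr (MN_zero q) (by positivity) fun x => by ring⟩
  have := mul_nonneg hL hδ
  linarith

theorem MN_ind (m : ℕ) (L : ℝ) (hL : 0 ≤ L) : ∃ C : ℝ, 0 ≤ C ∧ ∀ q : Z → ℝ, GW q →
    ∀ (u e : E → ℂ) (δ : ℝ), 0 ≤ δ → δ ≤ 1 → Wb q u L → Wb q e δ →
      MNGood q C δ (fun x => ((u x + e x) * conj (u x + e x)) ^ m * (u x + e x))
        (fun x => (u x * conj (u x)) ^ m * u x)
        (fun x => ((m : ℂ) + 1) * (u x * conj (u x)) ^ m * e x
          + (m : ℂ) * (u x * conj (u x)) ^ (m - 1) * u x ^ 2 * conj (e x)) := by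
  induction m with
  | zero =>
    refine ⟨L + 1, by linarith, fun q _ u e δ h0 _ hu he => ?_⟩
    exact (MN_base h0 hu he).congr (fun x => by simp) (fun x => by simp) fun x => by simp
  | succ k ih =>
    obtain ⟨C, hC, ih⟩ := ih
    refine ⟨6 * (C * (6 * ((L + 1) * (L + 1)))), by positivity, fun q hq u e δ h0 h1 hu he => ?_⟩
    have b := MN_base h0 hu he
    refine ((ih q hq u e δ h0 h1 hu he).mul hq h0 h1 (b.mul hq h0 h1 (b.conj hq))).congr
      (fun x => by ring) (fun x => by ring) fun x => ?_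
    cases k with
    | zero => simp only [Nat.cast_zero, zero_add, Nat.cast_one, Nat.sub_self, pow_zero]; ring
    | succ j =>
      simp only [Nat.add_sub_cancel]
      push_cast
      ring

theorem Nl_spec (m : ℕ) {a : Z → ℂ} (ha : S1 a) :
    S1 (Nl m a) ∧ ∀ x, ev (Nl m a) x = (ev a x * conj (ev a x)) ^ m * ev a x := by
  have h := NW_le_l1 (q := fun _ => 1) (R := 1) (fun _ => le_rfl) zero_le_one ha
  have h2 := (MN_pow gw_one (MN_of (mul_nonneg zero_le_one (l1_nonneg a)) h) m).coef gw_one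
  exact ⟨S1_of_le gw_one h2.1, h2.2⟩

theorem Nl_smul_mu (m : ℕ) (z : ℂ) (θ : ℝ) (x0 : E) {a : Z → ℂ} (ha : S1 a) :
    Nl m (z • mu θ x0 a) = (((‖z‖ ^ (2 * m) : ℝ) : ℂ) * z) • mu θ x0 (Nl m a) := by
  obtain ⟨h1, h2⟩ := Nl_spec m ha
  rw [← coef_ev _ ((h1.mu θ x0).smul (((‖z‖ ^ (2 * m) : ℝ) : ℂ) * z))]
  refine congrArg coef (funext fun x => ?_)
  rw [ev_smul, ev_smul, ev_mu, ev_mu, h2]
  have e1 : z * conj z = ((‖z‖ ^ 2 : ℝ) : ℂ) := by rw [Complex.mul_conj, Complex.normSq_eq_norm_sq]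
  have e2 : Complex.exp (I * θ) * conj (Complex.exp (I * θ)) = 1 := by
    rw [← Complex.exp_conj, ← Complex.exp_add]
    simp
  have e3 : z * (Complex.exp (I * θ) * ev a (x + x0)) *
      conj (z * (Complex.exp (I * θ) * ev a (x + x0))) =
      ((‖z‖ ^ 2 : ℝ) : ℂ) * (ev a (x + x0) * conj (ev a (x + x0))) := by
    rw [map_mul, map_mul, ← e1]
    linear_combination (z * conj z * (ev a (x + x0) * conj (ev a (x + x0)))) * e2
  rw [e3, mul_pow, pow_mul]
  push_cast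
  ring

theorem Nl_taylor (m : ℕ) (L : ℝ) (hL : 0 ≤ L) : ∃ C : ℝ, 0 ≤ C ∧ ∀ q : Z → ℝ, GW q →
    ∀ (a e : Z → ℂ) (δ : ℝ), 0 ≤ δ → δ ≤ 1 → NW q a ≤ ENNReal.ofReal L →
      NW q e ≤ ENNReal.ofReal δ →
      NW q (Nl m (a + e) - Nl m a - DNl m a e) ≤ ENNReal.ofReal (C * δ ^ 2) := by
  obtain ⟨C, hC, h⟩ := MN_ind m L hL
  refine ⟨C, hC, fun q hq a e δ h0 h1 ha he => ?_⟩
  have g := ((h q hq (ev a) (ev e) δ h0 h1 (MN_of hL ha) (MN_of h0 he)).h2.coef hq).1
  have sa := S1_of_le hq ha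
  have se := S1_of_le hq he
  have ca := continuous_ev a sa
  have ce := continuous_ev e se
  have e1 : ev (a + e) = fun x => ev a x + ev e x := funext (ev_add sa se)
  unfold Nl DNl
  rw [e1, ← coef_sub (by fun_prop) (by fun_prop), ← coef_sub (by fun_prop) (by fun_prop)]
  exact g

end Vale.Agent.P139
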