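import Vale.Agent.P139.MP3
import Vale.Agent.P139.MLap
import Vale.Agent.P139.MN

/-! The approximate solution and the linearised operator. -/

open Complex MeasureTheory Filter Topology Set
open scoped ComplexConjugate ContDiff

namespace Vale.Agent.P139

variable {m : ℕ} {om : ℝ} {w : ℝ → ℂ} {χ χ1 : E → ℝ} {h T : ℝ}

theorem MA1_mem {ρ0 s : ℝ} (hs : s ∈ Icc 0 (1 - ρ0)) : 1 - s ∈ Icc ρ0 2 :=
  ⟨by linarith [hs.2], by linarith [hs.1]⟩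

theorem l1c_ker (hp : Prof m om w) (h1 : Cut χ1) (hh : 0 < h) (hh1 : h ≤ 1) (hT : T < 1) :
    L1C T (fun s => Kh χ1 (P1 m w (1 - s)) h) ∧ L1C T (fun s => Kh χ1 (P2 m om w (1 - s)) h) :=
  ⟨(l1c_Kh_dil h1 two_pos hp.symA_V1 1 hh hh1 hT).congr fun s hs => by
      rw [P1_eq (by linarith [hs.2])],
    (l1c_Kh_dil h1 two_pos hp.symA_V2 (1 - 2 * I * om) hh hh1 hT).congr fun s hs => by
      rw [P2_eq (by linarith [hs.2])]⟩

theorem lin_bound (hp : Prof m om w) (h1 : Cut χ1) (K : ℕ) {ρ0 : ℝ} (h0 : 0 < ρ0) :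
    ∃ L : ℝ, 0 ≤ L ∧ ∀ M h : ℝ, 1 ≤ M → 0 < h → h ≤ 1 → ∀ q : Z → ℝ, GW q →
      (∀ n, q n ≤ wq K M h n) → ∀ s ∈ Icc 0 (1 - ρ0), ∀ (a b : Z → ℂ) (x : ℝ), 0 ≤ x →
        NW q a ≤ ENNReal.ofReal x → NW q b ≤ ENNReal.ofReal x →
        NW q (Lin m om w χ1 h s a b) ≤ ENNReal.ofReal (L * x) := by
  obtain ⟨C1, c1, H1⟩ := NN_Kh_dil h1 two_pos hp.symA_V1 1 K h0
  obtain ⟨C2, c2, H2⟩ := NN_Kh_dil h1 two_pos hp.symA_V2 (1 - 2 * I * om) K h0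
  refine ⟨C1 + C2, add_nonneg c1 c2, fun M h hM hh hh1 q hq hle s hs a b x hx ha hb => ?_⟩
  have hs' := MA1_mem hs
  have hρ : 0 < 1 - s := h0.trans_le hs'.1
  have k1 := (NW_mono hle _).trans (H1 M h hM hh hh1 _ hs')
  have k2 := (NW_mono hle _).trans (H2 M h hM hh hh1 _ hs')
  rw [← P1_eq hρ] at k1
  rw [← P2_eq hρ] at k2
  rw [add_mul]
  exact NW_add_le hq (mul_nonneg c1 hx) (mul_nonneg c2 hx) (NW_conv_le hq c1 k1 ha)
    (NW_conv_le hq c2 k2 hb)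

theorem lin_cont (hp : Prof m om w) (h1 : Cut χ1) (hh : 0 < h) (hh1 : h ≤ 1) (hT : T < 1)
    {a b : ℝ → Z → ℂ} (ha : L1C T a) (hb : L1C T b) (n : Z) :
    ContinuousOn (fun s => Lin m om w χ1 h s (a s) (b s) n) (Icc 0 T) :=
  ((l1c_ker hp h1 hh hh1 hT).1.conv_cont ha n).add ((l1c_ker hp h1 hh hh1 hT).2.conv_cont hb n)

theorem l1c_Ap (hp : Prof m om w) (hχ : Cut χ) (hh : 0 < h) (hh1 : h ≤ 1) (hT : T < 1) :
    L1C T (Ap m om w χ h) :=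
  l1c_Kh_dil hχ (mul_pos two_pos hp.aa_pos) hp.symA_w (sg m om) hh hh1 hT

theorem Ap_zero : Ap m om w χ h 0 = Kh χ (rad w) h := by
  unfold Ap
  rw [sub_zero, dil_one]

theorem MA1_ev (hp : Prof m om w) (hχ : Cut χ) {s : ℝ} (h1 : S1 (Ap m om w χ h s)) (x : E)
    (hx : ∀ i, |x i| ≤ Real.pi) :
    ev (Ap m om w χ h s) x = χ x * dil (1 - s) (sg m om) (rad w) (h⁻¹ • x) :=
  ev_Kh hχ (continuous_dil hp.symA_w.contDiff.continuous _ _) h1 x hx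

theorem Nl_Ap (hp : Prof m om w) (hχ : Cut χ) {s : ℝ} (hs : s < 1) (h1 : S1 (Ap m om w χ h s)) :
    Nl m (Ap m om w χ h s)
      = Kh (fun x => χ x ^ (2 * m + 1)) (dil (1 - s) (sg m om + 1) (G0 m w)) h := by
  refine coef_congr _ _ fun x hx => ?_
  rw [MA1_ev hp hχ h1 x hx, ← (hp.U_nl (sub_pos.2 hs) _).1, map_mul, conj_ofReal]
  push_cast
  simp only [mul_pow]
  ring

theorem DNl_Ap (hp : Prof m om w) (hχ : Cut χ) (hh : 0 < h) (hh1 : h ≤ 1) {s : ℝ} (hs0 : 0 ≤ s)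
    (hs : s < 1) {e : Z → ℂ} (he : S1 e) :
    DNl m (Ap m om w χ h s) e = Lin m om w (fun x => χ x ^ (2 * m)) h s e (refl e) := by
  have hm := hp.m_pos
  have hc : Cut fun x => χ x ^ (2 * m) := hχ.pow _ (by omega)
  have hss : s ∈ Icc 0 s := ⟨hs0, le_rfl⟩
  have hρ : 0 < 1 - s := sub_pos.2 hs
  have h1 := (l1c_Ap hp hχ hh hh1 hs).sum s hss
  obtain ⟨k1, k2⟩ := l1c_ker hp hc hh hh1 hs
  have c1 : Continuous (P1 m w (1 - s)) := by
    rw [P1_eq hρ]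
    exact continuous_dil hp.symA_V1.contDiff.continuous _ _
  have c2 : Continuous (P2 m om w (1 - s)) := by
    rw [P2_eq hρ]
    exact continuous_dil hp.symA_V2.contDiff.continuous _ _
  unfold Lin
  rw [conv_Kh_left hc c1 (k1.sum s hss) he, conv_Kh_left hc c2 (k2.sum s hss) he.refl,
    ← coef_add ((continuous_trunc hc.smooth.continuous c1 h).fun_mul (continuous_ev e he))
      ((continuous_trunc hc.smooth.continuous c2 h).fun_mul (continuous_ev _ he.refl))]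
  refine coef_congr _ _ fun x hx => ?_
  rw [MA1_ev hp hχ h1 x hx, ← (hp.U_nl hρ _).2.1, ← (hp.U_nl hρ _).2.2, ev_refl, map_mul,
    conj_ofReal]
  obtain ⟨k, rfl⟩ : ∃ k, m = k + 1 := ⟨m - 1, by omega⟩
  push_cast
  simp only [mul_pow, Nat.add_sub_cancel]
  ring

/-- the approximate solution solves the equation up to a small error -/
theorem Ap_duh (hp : Prof m om w) (hχ : Cut χ) (K : ℕ) {ρ0 : ℝ} (h0 : 0 < ρ0) :
    ∃ C : ℝ, 0 ≤ C ∧ ∀ M h : ℝ, 1 ≤ M → 0 < h → h ≤ 1 → ∃ R : ℝ → Z → ℂ,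
      Duh h (1 - ρ0) (Ap m om w χ h) (fun s => Nl m (Ap m om w χ h s) - R s) ∧
      ∀ s ∈ Icc 0 (1 - ρ0), NN K M h (Ap m om w χ h s) ≤ ENNReal.ofReal C ∧
        NN K M h (R s) ≤ ENNReal.ofReal (C * h ^ (2 * aa m)) := by
  have ha : 0 < 2 * aa m := mul_pos two_pos hp.aa_pos
  have hc : Cut fun x => χ x ^ (2 * m + 1) := hχ.pow _ (by omega)
  have hG : Continuous (G0 m w) := hp.symA_G0.contDiff.continuous
  obtain ⟨C1, c1, H1⟩ := NN_Kh_dil hχ ha hp.symA_w (sg m om) K h0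
  obtain ⟨C2, c2, H2⟩ := far_dil (hc.ann_sub hχ) ha.le hp.symA_G0 (sg m om + 1) K h0
  obtain ⟨C3, c3, H3⟩ := NN_Er hχ ha.le hp.symA_w (sg m om) K h0
  refine ⟨C1 + (C2 + C3), by positivity, fun M h hM hh hh1 => ⟨fun s =>
    Kh (fun x => χ x ^ (2 * m + 1) - χ x) (dil (1 - s) (sg m om + 1) (G0 m w)) h
      - Er χ (sg m om) (rad w) h (1 - s), ?_, fun s hs => ⟨?_, ?_⟩⟩⟩
  · have hT : 1 - ρ0 < 1 := by linarith
    refine (duh_dil hχ hp.symA_w.contDiff hG hp.pde0 hh hT).congr fun s hs => ?_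
    beta_reduce
    rw [Nl_Ap hp hχ (hs.2.trans_lt hT) ((l1c_Ap hp hχ hh hh1 hT).sum s hs),
      ← Kh_sub_cut hc.smooth.continuous hχ.smooth.continuous (continuous_dil hG _ _)]
    abel
  · exact (H1 M h hM hh hh1 _ (MA1_mem hs)).trans (ENNReal.ofReal_le_ofReal (by linarith))
  · have hr : 0 ≤ h ^ (2 * aa m) := Real.rpow_nonneg hh.le _
    refine (NW_sub_le (gw_wq K (by linarith) h) (mul_nonneg c2 hr) (mul_nonneg c3 hr)
      (H2 M h hM hh hh1 _ (MA1_mem hs)) (H3 M h hM hh hh1 _ (MA1_mem hs))).trans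
      (ENNReal.ofReal_le_ofReal ?_)
    nlinarith [mul_nonneg c1 hr]

end Vale.Agent.P139
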