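import Vale.Agent.P139.MC

/-! Continuous curves in l^1.
Hints: squeeze_zero' with eventually_mem_nhdsWithin (self_mem_nhdsWithin). bdd: s ↦ l1 (z s) is
ContinuousOn (|l1 a - l1 b| ≤ l1 (a - b)), IsCompact.exists_bound_of_continuousOn.
conv_cont: conv a b - conv a' b' = conv (a - a') b + conv a' (b - b'), norm_le_l1, l1_conv_le.
Nl_cont: Nl a n - Nl b n = coef (difference) n (coef_sub), norm_coef_le, the map
u ↦ (u conj u)^m u is uniformly continuous on the closed ball of radius B (or Lipschitz), and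
‖ev a x - ev b x‖ ≤ l1 (a - b), ‖ev a x‖ ≤ B (norm_ev_le, ev_sub).
of_NN: l1_cont, summable_of_NN. shift: the affine map sends 𝓝[Icc 0 T'] s to 𝓝[Icc 0 T] (t0+ρ s);
mu_sub, l1_mu, l1_smul. -/

open Complex MeasureTheory Filter Topology Set
open scoped ComplexConjugate ContDiff

namespace Vale.Agent.P139

variable {T : ℝ} {z z' : ℝ → Z → ℂ}

theorem ML_cont {f : ℝ → ℂ} {g : ℝ → ℝ → ℝ} (h : ∀ s ∈ Icc 0 T, ∀ t ∈ Icc 0 T, ‖f s - f t‖ ≤ g s t)
    (hg : ∀ t ∈ Icc 0 T, Tendsto (fun s => g s t) (𝓝[Icc 0 T] t) (𝓝 0)) :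
    ContinuousOn f (Icc 0 T) := fun t ht =>
  tendsto_iff_norm_sub_tendsto_zero.2 (squeeze_zero' (Eventually.of_forall fun _ => norm_nonneg _)
    (eventually_mem_nhdsWithin.mono fun s hs => h s hs t ht) (hg t ht))

theorem ML_l1c {g : ℝ → ℝ → ℝ} (h0 : ∀ t ∈ Icc 0 T, S1 (z t))
    (h : ∀ s ∈ Icc 0 T, ∀ t ∈ Icc 0 T, l1 (z s - z t) ≤ g s t)
    (hg : ∀ t ∈ Icc 0 T, Tendsto (fun s => g s t) (𝓝[Icc 0 T] t) (𝓝 0)) : L1C T z :=
  ⟨h0, fun t ht => squeeze_zero' (Eventually.of_forall fun _ => l1_nonneg _)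
    (eventually_mem_nhdsWithin.mono fun s hs => h s hs t ht) (hg t ht)⟩

theorem L1C.coef_cont (hz : L1C T z) (n : Z) : ContinuousOn (fun s => z s n) (Icc 0 T) :=
  ML_cont (fun s hs t ht => norm_le_l1 ((hz.sum s hs).sub (hz.sum t ht)) n) hz.cont
theorem L1C.add (hz : L1C T z) (hz' : L1C T z') : L1C T fun s => z s + z' s :=
  ML_l1c (g := fun s t => l1 (z s - z t) + l1 (z' s - z' t))
    (fun t ht => (hz.sum t ht).add (hz'.sum t ht))
    (fun s hs t ht => by
      rw [add_sub_add_comm]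
      exact l1_add_le ((hz.sum s hs).sub (hz.sum t ht)) ((hz'.sum s hs).sub (hz'.sum t ht)))
    fun t ht => by simpa only [add_zero] using (hz.cont t ht).add (hz'.cont t ht)
theorem L1C.sub (hz : L1C T z) (hz' : L1C T z') : L1C T fun s => z s - z' s :=
  ML_l1c (g := fun s t => l1 (z s - z t) + l1 (z' s - z' t))
    (fun t ht => (hz.sum t ht).sub (hz'.sum t ht))
    (fun s hs t ht => by
      rw [sub_sub_sub_comm]
      exact l1_sub_le ((hz.sum s hs).sub (hz.sum t ht)) ((hz'.sum s hs).sub (hz'.sum t ht)))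
    fun t ht => by simpa only [add_zero] using (hz.cont t ht).add (hz'.cont t ht)
theorem L1C.smul (hz : L1C T z) (c : ℂ) : L1C T fun s => c • z s :=
  ⟨fun t ht => (hz.sum t ht).smul c, fun t ht => by
    simpa only [← smul_sub, l1_smul, mul_zero] using (hz.cont t ht).const_mul ‖c‖⟩
theorem L1C.refl (hz : L1C T z) : L1C T fun s => refl (z s) :=
  ⟨fun t ht => (hz.sum t ht).refl, fun t ht => by
    simpa only [← refl_sub, l1_refl] using hz.cont t ht⟩
theorem L1C.congr (hz : L1C T z) (h : ∀ s ∈ Icc 0 T, z' s = z s) : L1C T z' :=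
  ML_l1c (g := fun s t => l1 (z s - z t)) (fun t ht => h t ht ▸ hz.sum t ht)
    (fun s hs t ht => by rw [h s hs, h t ht]) hz.cont
theorem l1c_sum {ι : Type} (s : Finset ι) {y : ι → ℝ → Z → ℂ} (hy : ∀ i ∈ s, L1C T (y i)) :
    L1C T fun t => ∑ i ∈ s, y i t := by
  classical
  induction s using Finset.induction_on with
  | empty => exact ⟨fun _ _ => S1_zero, fun _ _ => by simpa [l1] using tendsto_const_nhds⟩
  | insert i s hi ih =>
    simp only [Finset.sum_insert hi]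
    exact (hy i (Finset.mem_insert_self _ _)).add
      (ih fun j hj => hy j (Finset.mem_insert_of_mem hj))
theorem L1C.bdd (hz : L1C T z) : ∃ B : ℝ, ∀ t ∈ Icc 0 T, l1 (z t) ≤ B := by
  have h : ∀ s ∈ Icc 0 T, ∀ t ∈ Icc 0 T, l1 (z s) - l1 (z t) ≤ l1 (z s - z t) := fun s hs t ht => by
    have := l1_add_le ((hz.sum s hs).sub (hz.sum t ht)) (hz.sum t ht)
    rw [sub_add_cancel] at this
    linarith
  obtain ⟨B, hB⟩ := isCompact_Icc.exists_bound_of_continuousOn
    (ML_cont (f := fun s => (l1 (z s) : ℂ)) (fun s hs t ht => by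
      rw [← ofReal_sub, norm_real]
      exact abs_sub_le_iff.2 ⟨h s hs t ht, l1_sub_comm (z s) _ ▸ h t ht s hs⟩) hz.cont)
  exact ⟨B, fun t ht => (le_abs_self _).trans (by simpa using hB t ht)⟩
theorem L1C.conv_cont (hz : L1C T z) (hz' : L1C T z') (n : Z) :
    ContinuousOn (fun s => conv (z s) (z' s) n) (Icc 0 T) := by
  obtain ⟨B, hB⟩ := hz'.bdd
  refine ML_cont (g := fun s t => l1 (z s - z t) * B + l1 (z t) * l1 (z' s - z' t))
    (fun s hs t ht => ?_) fun t ht => by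
      simpa only [zero_mul, mul_zero, add_zero] using
        ((hz.cont t ht).mul_const B).add ((hz'.cont t ht).const_mul (l1 (z t)))
  have h1 := (hz.sum s hs).sub (hz.sum t ht)
  have h2 := (hz'.sum s hs).sub (hz'.sum t ht)
  have e : conv (z s) (z' s) n - conv (z t) (z' t) n =
      conv (z s - z t) (z' s) n + conv (z t) (z' s - z' t) n := by
    rw [conv_sub_left (hz.sum s hs) (hz.sum t ht) (hz'.sum s hs),
      conv_sub_right (hz.sum t ht) (hz'.sum s hs) (hz'.sum t ht), Pi.sub_apply, Pi.sub_apply,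
      sub_add_sub_cancel]
  rw [e]
  exact (norm_add_le _ _).trans (add_le_add
    ((norm_le_l1 (h1.conv (hz'.sum s hs)) n).trans ((l1_conv_le h1 (hz'.sum s hs)).trans
      (mul_le_mul_of_nonneg_left (hB s hs) (l1_nonneg _))))
    ((norm_le_l1 ((hz.sum t ht).conv h2) n).trans (l1_conv_le (hz.sum t ht) h2)))
theorem L1C.Nl_cont (hz : L1C T z) (m : ℕ) (n : Z) :
    ContinuousOn (fun s => Nl m (z s) n) (Icc 0 T) := by
  obtain ⟨B, hB⟩ := hz.bdd
  have hc : Continuous fun u : ℂ => (u * conj u) ^ m * u := by fun_prop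
  have hu := Metric.uniformContinuousOn_iff_le.1
    ((isCompact_closedBall (0 : ℂ) B).uniformContinuousOn_of_continuous hc.continuousOn)
  refine fun t ht => Metric.tendsto_nhds.2 fun ε hε => ?_
  obtain ⟨δ, hδ, h⟩ := hu (ε / 2) (half_pos hε)
  filter_upwards [eventually_mem_nhdsWithin, (hz.cont t ht).eventually (ge_mem_nhds hδ)]
    with s hs h1
  have e := congrFun (coef_sub (hc.comp (continuous_ev _ (hz.sum s hs)))
    (hc.comp (continuous_ev _ (hz.sum t ht)))) n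
  rw [dist_eq_norm]
  refine lt_of_eq_of_lt (congrArg norm e.symm) ((norm_coef_le (fun x => ?_) n).trans_lt
    (half_lt_self hε))
  rw [← dist_eq_norm]
  refine h _ (mem_closedBall_zero_iff.2 ((norm_ev_le _ (hz.sum s hs) x).trans (hB s hs))) _
    (mem_closedBall_zero_iff.2 ((norm_ev_le _ (hz.sum t ht) x).trans (hB t ht))) ?_
  rw [dist_eq_norm, ← ev_sub (hz.sum s hs) (hz.sum t ht)]
  exact (norm_ev_le _ ((hz.sum s hs).sub (hz.sum t ht)) x).trans h1
theorem l1c_of_NN {M h B : ℝ} (hM : 0 < M) (hh : 0 < h)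
    (hc : ∀ n, ContinuousOn (fun t => z t n) (Icc 0 T))
    (hB : ∀ t ∈ Icc 0 T, NN 1 M h (z t) ≤ ENNReal.ofReal B) : L1C T z :=
  ⟨fun t ht => summable_of_NN 1 hM h _ ((hB t ht).trans_lt ENNReal.ofReal_lt_top).ne,
    l1_cont 1 le_rfl hM hh _ z B hc hB⟩
theorem L1C.shift (hz : L1C T z) {t0 ρ T' : ℝ} (ht : 0 ≤ t0) (hρ : 0 < ρ) (hT : t0 + ρ * T' ≤ T)
    (c : ℂ) (θ : ℝ) (x : E) : L1C T' fun s => c • mu θ x (z (t0 + ρ * s)) := by
  have hm : MapsTo (fun s => t0 + ρ * s) (Icc 0 T') (Icc 0 T) := fun s hs =>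
    ⟨add_nonneg ht (mul_nonneg hρ.le hs.1),
      (add_le_add le_rfl (mul_le_mul_of_nonneg_left hs.2 hρ.le)).trans hT⟩
  refine L1C.smul ⟨fun t h => (hz.sum _ (hm h)).mu θ x, fun t h => ?_⟩ c
  simp only [← mu_sub, l1_mu]
  exact (hz.cont _ (hm h)).comp
    ((Continuous.continuousWithinAt (by fun_prop)).tendsto_nhdsWithin hm)

end Vale.Agent.P139
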