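import Vale.Agent.P139.MD
import Vale.Agent.P139.ML

/-! The bootstrap argument.
Hints: boot: pick d' > d with d' exp L < 1. The set of t in [0,T] with f s ≤ d' exp (L s) for all
s in [0,t] is closed and reaches T (IsClosed.Icc_subset_of_forall_exists_gt, or take the infimum of the
bad times): at such t, f t ≤ d + ∫ L d' exp (L s) = d - d' + d' exp (L t) < d' exp (L t), and
continuity extends the inequality to the right. Let d' decrease to d (le_of_forall_pos_le_add).
apriori: NW_le_of_trunc; for R ≥ 1 and q' = min q R put f s = (NW q' (z s)).toReal (finite by NW_le_l1,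
continuous by L1C.cont_NW), Duh.norm_le, lintegral ≤ ofReal (∫ (L f s + φ)) (setLIntegral_mono',
ofReal_integral_eq_lintegral_ofReal, integral_Icc_eq_integral_Ioc), t ≤ 1. -/

open Complex MeasureTheory Filter Topology Set
open scoped ComplexConjugate ContDiff

namespace Vale.Agent.P139

theorem MB_int (L d t : ℝ) :
    ∫ s in (0 : ℝ)..t, L * (d * Real.exp (L * s)) = d * Real.exp (L * t) - d := by
  have h1 : ∀ s ∈ uIcc (0 : ℝ) t,
      HasDerivAt (fun s => d * Real.exp (L * s)) (L * (d * Real.exp (L * s))) s := fun s _ => by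
    have := (((hasDerivAt_id s).const_mul L).exp).const_mul d
    simp only [id, mul_one] at this
    exact this.congr_deriv (by ring)
  rw [intervalIntegral.integral_eq_sub_of_hasDerivAt h1
    (Continuous.intervalIntegrable (by fun_prop) _ _)]
  simp

theorem MB_step {f : ℝ → ℝ} {T L d d' : ℝ} (hT : T ≤ 1) (hL : 0 ≤ L) (hd : 0 ≤ d) (hd' : d < d')
    (hf : ContinuousOn f (Icc 0 T)) (h0 : f 0 ≤ d)
    (h : ∀ t ∈ Icc 0 T, (∀ s ∈ Icc 0 t, f s ≤ 1) → f t ≤ d + ∫ s in (0 : ℝ)..t, L * f s)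
    (hs : d' * Real.exp L < 1) : ∀ t ∈ Icc 0 T, f t < d' * Real.exp (L * t) := by
  by_contra hc
  push Not at hc
  have hg : Continuous fun s => d' * Real.exp (L * s) := by fun_prop
  have hcl : IsClosed (Icc 0 T ∩ (fun s => f s - d' * Real.exp (L * s)) ⁻¹' Ici 0) :=
    (hf.sub hg.continuousOn).preimage_isClosed_of_isClosed isClosed_Icc isClosed_Ici
  obtain ⟨t1, ht1, hb1⟩ := hc
  obtain ⟨t0, ⟨ht0, hb0⟩, hmin⟩ := (isCompact_Icc.of_isClosed_subset hcl
    inter_subset_left).exists_isLeast ⟨t1, ht1, mem_Ici.2 (sub_nonneg.2 hb1)⟩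
  have hb0' : d' * Real.exp (L * t0) ≤ f t0 := sub_nonneg.1 hb0
  have hlt : ∀ s ∈ Ico 0 t0, f s ≤ d' * Real.exp (L * s) := fun s hs => by
    by_contra h1
    have h2 : t0 ≤ s := hmin ⟨⟨hs.1, hs.2.le.trans ht0.2⟩,
      mem_Ici.2 (sub_nonneg.2 (not_le.1 h1).le)⟩
    linarith [hs.2]
  have hf0 : ContinuousOn f (Icc 0 t0) := hf.mono (Icc_subset_Icc_right ht0.2)
  rcases eq_or_lt_of_le ht0.1 with h1 | h1
  · rw [← h1, mul_zero, Real.exp_zero] at hb0'
    linarith
  have hle : ∀ s ∈ Icc 0 t0, f s ≤ d' * Real.exp (L * s) := fun s hs =>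
    le_on_closure hlt (by rw [closure_Ico h1.ne]; exact hf0) hg.continuousOn
      (by rw [closure_Ico h1.ne]; exact hs)
  have h2 := h t0 ht0 fun s hs' => by
    have a1 : Real.exp (L * s) ≤ Real.exp L :=
      Real.exp_le_exp.2 (by nlinarith [hs'.2, ht0.2, hs'.1])
    have a2 := mul_le_mul_of_nonneg_left a1 (show 0 ≤ d' by linarith)
    linarith [hle s hs']
  have h3 : ∫ s in (0 : ℝ)..t0, L * f s ≤ ∫ s in (0 : ℝ)..t0, L * (d' * Real.exp (L * s)) :=
    intervalIntegral.integral_mono_on h1.le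
      ((continuousOn_const.mul hf0).intervalIntegrable_of_Icc h1.le)
      (Continuous.intervalIntegrable (by fun_prop) _ _)
      fun s hs => mul_le_mul_of_nonneg_left (hle s hs) hL
  rw [MB_int] at h3
  linarith

theorem boot {f : ℝ → ℝ} {T L d : ℝ} (hT : T ≤ 1) (hL : 0 ≤ L) (hd : 0 ≤ d)
    (hf : ContinuousOn f (Icc 0 T)) (h0 : f 0 ≤ d)
    (h : ∀ t ∈ Icc 0 T, (∀ s ∈ Icc 0 t, f s ≤ 1) → f t ≤ d + ∫ s in (0 : ℝ)..t, L * f s)
    (hs : d * Real.exp L < 1) : ∀ t ∈ Icc 0 T, f t ≤ d * Real.exp L := by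
  intro t ht
  by_contra hc
  have he := Real.exp_pos L
  have hm : d * Real.exp L < min (f t) ((d * Real.exp L + 1) / 2) :=
    lt_min (not_le.1 hc) (by linarith)
  have h1 : min (f t) ((d * Real.exp L + 1) / 2) / Real.exp L * Real.exp L
      = min (f t) ((d * Real.exp L + 1) / 2) := div_mul_cancel₀ _ he.ne'
  have h2 : d < min (f t) ((d * Real.exp L + 1) / 2) / Real.exp L := by
    rw [lt_div_iff₀ he]; exact hm
  have h3 := MB_step hT hL hd h2 hf h0 h
    (by rw [h1]; linarith [min_le_right (f t) ((d * Real.exp L + 1) / 2)]) t ht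
  have a1 : Real.exp (L * t) ≤ Real.exp L :=
    Real.exp_le_exp.2 (by nlinarith [ht.2, ht.1])
  have a2 := mul_le_mul_of_nonneg_left a1 (hd.trans h2.le)
  linarith [min_le_left (f t) ((d * Real.exp L + 1) / 2)]

theorem apriori {q : Z → ℝ} (hq : GW q) {h T δ φ L : ℝ} {z H : ℝ → Z → ℂ} (hT : T ≤ 1)
    (hL : 0 ≤ L) (hδ : 0 ≤ δ) (hφ : 0 ≤ φ) (hd : Duh h T z H) (hz : L1C T z)
    (h0 : NW q (z 0) ≤ ENNReal.ofReal δ)
    (hH : ∀ q' : Z → ℝ, GW q' → (∀ n, q' n ≤ q n) → ∀ s ∈ Icc 0 T, ∀ x : ℝ, 0 ≤ x → x ≤ 1 →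
      NW q' (z s) ≤ ENNReal.ofReal x → NW q' (H s) ≤ ENNReal.ofReal (L * x + φ))
    (hs : (δ + φ) * Real.exp L < 1) :
    ∀ t ∈ Icc 0 T, NW q (z t) ≤ ENNReal.ofReal ((δ + φ) * Real.exp L) := by
  intro t ht
  refine NW_le_of_trunc hq fun R hR => ?_
  have hq' := hq.trunc hR
  have hle : ∀ n, (fun n => min (q n) R) n ≤ q n := fun n => min_le_left _ _
  have hR' : ∀ n, (fun n => min (q n) R) n ≤ R := fun n => min_le_right _ _
  generalize (fun n => min (q n) R) = q' at hq' hle hR' ⊢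
  have hfin : ∀ s ∈ Icc 0 T, NW q' (z s) = ENNReal.ofReal (NW q' (z s)).toReal := fun s hs =>
    (ENNReal.ofReal_toReal (ne_top_of_le_ne_top ENNReal.ofReal_ne_top
      (NW_le_l1 hR' (by linarith) (hz.sum s hs)))).symm
  have hc := L1C.cont_NW hq' hR' hz
  have h0' : NW q' (z 0) ≤ ENNReal.ofReal δ := (NW_mono hle _).trans h0
  have hb := boot (f := fun s => (NW q' (z s)).toReal) (d := δ + φ) hT hL (by linarith) hc
    ((ENNReal.toReal_le_of_le_ofReal hδ h0').trans (by linarith)) (fun u hu h1 => ?_) hs t ht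
  · rw [hfin t ht]
    exact ENNReal.ofReal_le_ofReal hb
  have hcu : ContinuousOn (fun s => L * (NW q' (z s)).toReal) (Icc 0 u) :=
    continuousOn_const.mul (hc.mono (Icc_subset_Icc_right hu.2))
  have hnn : ∀ s, 0 ≤ L * (NW q' (z s)).toReal := fun s => mul_nonneg hL ENNReal.toReal_nonneg
  have hI : 0 ≤ ∫ s in (0 : ℝ)..u, L * (NW q' (z s)).toReal :=
    intervalIntegral.integral_nonneg hu.1 fun s _ => hnn s
  have a1 : ∫⁻ s in Icc 0 u, NW q' (H s)
      ≤ ∫⁻ s in Icc 0 u, ENNReal.ofReal (L * (NW q' (z s)).toReal + φ) :=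
    setLIntegral_mono' measurableSet_Icc fun s hs =>
      hH q' hq' hle s ⟨hs.1, hs.2.trans hu.2⟩ _ ENNReal.toReal_nonneg (h1 s hs)
        (hfin s ⟨hs.1, hs.2.trans hu.2⟩).le
  have i1 : IntegrableOn (fun s => L * (NW q' (z s)).toReal) (Icc 0 u) :=
    hcu.integrableOn_compact isCompact_Icc
  have i2 : IntegrableOn (fun _ : ℝ => φ) (Icc 0 u) :=
    continuousOn_const.integrableOn_compact isCompact_Icc
  have i3 : IntegrableOn (fun s => L * (NW q' (z s)).toReal + φ) (Icc 0 u) := i1.add i2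
  rw [← ofReal_integral_eq_lintegral_ofReal i3
    (Eventually.of_forall fun s => add_nonneg (hnn s) hφ), integral_add i1 i2,
    integral_Icc_eq_integral_Ioc, ← intervalIntegral.integral_of_le hu.1, setIntegral_const,
    Real.volume_real_Icc_of_le hu.1, smul_eq_mul] at a1
  have a2 : (u - 0) * φ ≤ φ := by nlinarith [hu.2, hu.1]
  have a3 : 0 ≤ (u - 0) * φ := mul_nonneg (by linarith [hu.1]) hφ
  refine ENNReal.toReal_le_of_le_ofReal (by linarith) ((hd.norm_le hq' hu).trans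
    ((add_le_add h0' a1).trans ?_))
  rw [← ENNReal.ofReal_add hδ (by linarith)]
  exact ENNReal.ofReal_le_ofReal (by linarith)

end Vale.Agent.P139
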