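import Vale.Agent.P139.MA1
import Vale.Agent.P139.MB

/-! The perturbation on one window.
Hints: e s = v s - Ap s, H s = Nl (v s) - (Nl (Ap s) - R s) (Duh.sub), F s = H s - Lin s (e s) (refl (e s))
= (Nl (Ap s + e s) - Nl (Ap s) - DNl (Ap s) (e s)) + R s by DNl_Ap. For q' ≤ wq and NW q' (e s) ≤ x ≤ 1:
NW q' F ≤ C1 x^2 + C h^(2a) (Nl_taylor, NW_mono), NW q' (Lin ..) ≤ L x (lin_bound, NW_refl); apriori with
L + C1 and φ = C h^(2a). Choose d0 with (1 + C) d0 exp (L + C1) < 1. Then x = (δ+φ) exp (..) ≤ 1 and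
(δ + h^(2a))^2 ≤ 2 δ^2 + 2 h^(2a) since h^(2a) ≤ 1. -/

open Complex MeasureTheory Filter Topology Set
open scoped ComplexConjugate ContDiff

namespace Vale.Agent.P139

variable {m : ℕ} {om : ℝ} {w : ℝ → ℂ} {χ : E → ℝ}

theorem window (hp : Prof m om w) (hχ : Cut χ) (K : ℕ) {ρ0 : ℝ} (h0 : 0 < ρ0) (h1 : ρ0 ≤ 1) :
    ∃ C d0 : ℝ, 0 ≤ C ∧ 0 < d0 ∧ ∀ (M h δ : ℝ) (v : ℝ → Z → ℂ), 1 ≤ M → 0 < h → h ≤ 1 → 0 ≤ δ →
      δ + h ^ (2 * aa m) ≤ d0 → SolH m h v →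
      NN K M h (v 0 - Kh χ (rad w) h) ≤ ENNReal.ofReal δ →
      ∃ F : ℝ → Z → ℂ,
        RL m om w (fun x => χ x ^ (2 * m)) h (1 - ρ0) (fun s => v s - Ap m om w χ h s) F ∧
        ∀ s ∈ Icc 0 (1 - ρ0),
          NN K M h (v s - Ap m om w χ h s) ≤ ENNReal.ofReal (C * (δ + h ^ (2 * aa m))) ∧
          NN K M h (F s) ≤ ENNReal.ofReal (C * (δ ^ 2 + h ^ (2 * aa m))) := by
  have hχ1 : Cut fun x => χ x ^ (2 * m) := hχ.pow _ (by have := hp.m_pos; omega)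
  obtain ⟨C0, hC0, hA⟩ := Ap_duh hp hχ K h0
  obtain ⟨L, hL, hLb⟩ := lin_bound hp hχ1 K h0
  obtain ⟨C1, hC1, hTay⟩ := Nl_taylor m C0 hC0
  have hX : 0 < Real.exp (L + C1) := Real.exp_pos _
  obtain ⟨Y, hY⟩ : ∃ Y, Y = (1 + C0) * Real.exp (L + C1) := ⟨_, rfl⟩
  have hY0 : 0 < Y := by rw [hY]; positivity
  refine ⟨Y + (2 * C1 * Y ^ 2 + C0), 1 / (2 * Y), by positivity, by positivity, ?_⟩
  intro M h δ v hM hh hh1 hδ hd hv hv0
  have hT0 : 0 ≤ 1 - ρ0 := by linarith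
  have hT1 : 1 - ρ0 < 1 := by linarith
  obtain ⟨R, hR, hRb⟩ := hA M h hM hh hh1
  obtain ⟨v1, v2⟩ := hv _ hT0
  have hq := gw_wq K (lt_of_lt_of_le one_pos hM) h
  have e1 := v1.sub (l1c_Ap hp hχ hh hh1 hT1)
  have e2 := v2.sub hR
  have g0 : 0 ≤ h ^ (2 * aa m) := by positivity
  have g1 : h ^ (2 * aa m) ≤ 1 := Real.rpow_le_one hh.le hh1 (by have := hp.aa_pos; positivity)
  generalize h ^ (2 * aa m) = g at *
  obtain ⟨F, hF⟩ : ∃ F : ℝ → Z → ℂ, F = fun s => Nl m (v s) - (Nl m (Ap m om w χ h s) - R s) -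
    Lin m om w (fun x => χ x ^ (2 * m)) h s (v s - Ap m om w χ h s)
      (refl (v s - Ap m om w χ h s)) := ⟨_, rfl⟩
  have hH : ∀ s, Nl m (v s) - (Nl m (Ap m om w χ h s) - R s) =
      Lin m om w (fun x => χ x ^ (2 * m)) h s (v s - Ap m om w χ h s)
        (refl (v s - Ap m om w χ h s)) + F s := fun s => by
    rw [hF]
    exact (add_sub_cancel _ _).symm
  have hFb : ∀ q' : Z → ℝ, GW q' → (∀ n, q' n ≤ wq K M h n) → ∀ s ∈ Icc 0 (1 - ρ0), ∀ x : ℝ,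
      0 ≤ x → x ≤ 1 → NW q' (v s - Ap m om w χ h s) ≤ ENNReal.ofReal x →
      NW q' (F s) ≤ ENNReal.ofReal (C1 * x ^ 2 + C0 * g) := by
    intro q' hq' hle s hs x x0 x1 hx
    have a1 : F s = (Nl m (Ap m om w χ h s + (v s - Ap m om w χ h s)) - Nl m (Ap m om w χ h s)
        - DNl m (Ap m om w χ h s) (v s - Ap m om w χ h s)) + R s := by
      rw [DNl_Ap hp hχ hh hh1 hs.1 (hs.2.trans_lt hT1) (e1.sum s hs), hF, add_sub_cancel]
      beta_reduce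
      abel
    rw [a1]
    exact NW_add_le hq' (by positivity) (by positivity)
      (hTay q' hq' _ _ x x0 x1 ((NW_mono hle _).trans (hRb s hs).1) hx)
      ((NW_mono hle _).trans (hRb s hs).2)
  have hx1 : (δ + C0 * g) * Real.exp (L + C1) ≤ Y * (δ + g) := by
    rw [hY]
    have : δ + C0 * g ≤ (1 + C0) * (δ + g) := by nlinarith
    nlinarith
  have hx2 : Y * (δ + g) ≤ 1 / 2 := by
    refine (mul_le_mul_of_nonneg_left hd hY0.le).trans (le_of_eq ?_)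
    field_simp
  have hap := apriori hq (δ := δ) (φ := C0 * g) (L := L + C1) hT1.le (by positivity) hδ
    (by positivity) e2 e1 (by rw [Ap_zero]; exact hv0) ?_ (by linarith)
  · refine ⟨F, ⟨e1, fun n => ?_, e2.congr fun s _ => (hH s).symm⟩, fun s hs => ?_⟩
    · rw [hF]
      exact (e2.cH n).sub (lin_cont hp hχ1 hh hh1 hT1 e1 e1.refl n)
    · have b1 := (hap s hs).trans (ENNReal.ofReal_le_ofReal hx1)
      refine ⟨b1.trans (ENNReal.ofReal_le_ofReal ?_),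
        (hFb _ hq (fun _ => le_rfl) s hs _ (by positivity) (by linarith) b1).trans
          (ENNReal.ofReal_le_ofReal ?_)⟩
      · have : 0 ≤ (2 * C1 * Y ^ 2 + C0) * (δ + g) := by positivity
        nlinarith
      · have c1 : (δ + g) ^ 2 ≤ 2 * (δ ^ 2 + g) := by nlinarith [sq_nonneg (δ - g)]
        have c2 : C1 * Y ^ 2 * (δ + g) ^ 2 ≤ C1 * Y ^ 2 * (2 * (δ ^ 2 + g)) :=
          mul_le_mul_of_nonneg_left c1 (by positivity)
        have c3 : 0 ≤ Y * (δ ^ 2 + g) := by positivity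
        have c4 : 0 ≤ C0 * δ ^ 2 := by positivity
        nlinarith
  · intro q' hq' hle s hs x x0 x1 hx
    rw [hH]
    refine (NW_add_le hq' (by positivity) (by positivity)
      (hLb M h hM hh hh1 q' hq' hle s hs _ _ x x0 hx (by rw [NW_refl hq']; exact hx))
      (hFb q' hq' hle s hs x x0 x1 hx)).trans (ENNReal.ofReal_le_ofReal ?_)
    have : C1 * x ^ 2 ≤ C1 * x := mul_le_mul_of_nonneg_left (by nlinarith) hC1
    linarith

end Vale.Agent.P139
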