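import Vale.Agent.P139.MW

/-! Algebra of summable sequences, of ev and of coef.
Hints: S1.conv and l1_conv_le from NW_conv_le with the weight 1 (gw_one, NW_le_l1 with R = 1,
S1_of_le, l1_le_of_NW). The series of conv is summable since ‖a (n-k) * b k‖ ≤ l1 a * ‖b k‖.
coef_add: continuous functions are integrable on the compact cube (isCompact via
(EuclideanSpace.equiv ..) or closed and bounded; ContinuousOn.integrableOn_compact).
norm_coef_le: the cube has volume (2 pi)^12 (PiLp.volume_preserving_toLp or ofLp, Real.volume_Icc_pi);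
alternatively coef_ev for the sequence Pi.single 0 1 computes the volume.
coef_ev_mul: ev_conv, coef_ev, S1.conv. -/

open Complex MeasureTheory Filter Topology Set
open scoped ComplexConjugate ContDiff

namespace Vale.Agent.P139

variable {a b c : Z → ℂ}

theorem MC_norm_mu (θ : ℝ) (x : E) (a : Z → ℂ) (n : Z) : ‖mu θ x a n‖ = ‖a n‖ := by
  rw [mu, norm_mul, mul_comm I, Complex.norm_exp_ofReal_mul_I, one_mul]

theorem MC_NW (ha : S1 a) : NW (fun _ => 1) a ≤ ENNReal.ofReal (l1 a) := by
  have h := NW_le_l1 (q := fun _ => 1) (R := 1) (fun _ => le_rfl) zero_le_one ha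
  rwa [one_mul] at h

theorem S1_zero : S1 0 := by
  simp [S1]
theorem S1.add (ha : S1 a) (hb : S1 b) : S1 (a + b) := by
  exact Summable.of_nonneg_of_le (fun _ => norm_nonneg _) (fun n => norm_add_le (a n) (b n))
    (Summable.add ha hb)
theorem S1.sub (ha : S1 a) (hb : S1 b) : S1 (a - b) := by
  exact Summable.of_nonneg_of_le (fun _ => norm_nonneg _) (fun n => norm_sub_le (a n) (b n))
    (Summable.add ha hb)
theorem S1.smul (ha : S1 a) (z : ℂ) : S1 (z • a) := by
  refine (Summable.mul_left ‖z‖ ha).congr fun n => ?_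
  rw [Pi.smul_apply, norm_smul]
theorem S1.refl (ha : S1 a) : S1 (refl a) := by
  refine ((Equiv.neg Z).summable_iff.2 ha).congr fun n => ?_
  simp [P139.refl]
theorem S1.conv (ha : S1 a) (hb : S1 b) : S1 (conv a b) := by
  exact S1_of_le gw_one (NW_conv_le gw_one (tsum_nonneg fun _ => norm_nonneg _) (MC_NW ha)
    (MC_NW hb))
theorem S1.mu (ha : S1 a) (θ : ℝ) (x : E) : S1 (mu θ x a) := by
  exact Summable.congr ha fun n => (MC_norm_mu θ x a n).symm
theorem S1_sum {ι : Type} (s : Finset ι) {a : ι → Z → ℂ} (ha : ∀ i ∈ s, S1 (a i)) :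
    S1 (∑ i ∈ s, a i) := by
  classical
  induction s using Finset.induction_on with
  | empty => simpa using S1_zero
  | insert i s hi ih =>
    rw [Finset.sum_insert hi]
    exact (ha i (Finset.mem_insert_self _ _)).add
      (ih fun j hj => ha j (Finset.mem_insert_of_mem hj))

theorem l1_nonneg (a : Z → ℂ) : 0 ≤ l1 a := by
  exact tsum_nonneg fun _ => norm_nonneg _
theorem l1_add_le (ha : S1 a) (hb : S1 b) : l1 (a + b) ≤ l1 a + l1 b := by
  unfold l1
  rw [← Summable.tsum_add ha hb]
  exact Summable.tsum_le_tsum (fun n => norm_add_le (a n) (b n)) (ha.add hb) (Summable.add ha hb)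
theorem l1_sub_le (ha : S1 a) (hb : S1 b) : l1 (a - b) ≤ l1 a + l1 b := by
  unfold l1
  rw [← Summable.tsum_add ha hb]
  exact Summable.tsum_le_tsum (fun n => norm_sub_le (a n) (b n)) (ha.sub hb) (Summable.add ha hb)
theorem l1_sub_comm (a b : Z → ℂ) : l1 (a - b) = l1 (b - a) := by
  exact tsum_congr fun n => norm_sub_rev (a n) (b n)
theorem l1_smul (z : ℂ) (a : Z → ℂ) : l1 (z • a) = ‖z‖ * l1 a := by
  unfold l1
  rw [← tsum_mul_left]
  exact tsum_congr fun n => by rw [Pi.smul_apply, norm_smul]
theorem l1_refl (a : Z → ℂ) : l1 (refl a) = l1 a := by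
  unfold l1
  rw [← (Equiv.neg Z).tsum_eq fun n => ‖a n‖]
  exact tsum_congr fun n => by simp [refl]
theorem l1_mu (θ : ℝ) (x : E) (a : Z → ℂ) : l1 (mu θ x a) = l1 a := by
  exact tsum_congr fun n => MC_norm_mu θ x a n
theorem l1_conv_le (ha : S1 a) (hb : S1 b) : l1 (conv a b) ≤ l1 a * l1 b := by
  exact l1_le_of_NW gw_one (mul_nonneg (l1_nonneg a) (l1_nonneg b))
    (NW_conv_le gw_one (l1_nonneg a) (MC_NW ha) (MC_NW hb))
theorem norm_le_l1 (ha : S1 a) (n : Z) : ‖a n‖ ≤ l1 a := by
  exact Summable.le_tsum ha n fun _ _ => norm_nonneg _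

theorem MC_sum (ha : S1 a) (hb : S1 b) (n : Z) : Summable fun k => a (n - k) * b k := by
  refine Summable.of_norm_bounded (Summable.mul_left (l1 a) hb) fun k => ?_
  rw [norm_mul]
  exact mul_le_mul_of_nonneg_right (norm_le_l1 ha _) (norm_nonneg _)

theorem conv_add_right (ha : S1 a) (hb : S1 b) (hc : S1 c) :
    conv a (b + c) = conv a b + conv a c := by
  funext n
  simp only [conv, Pi.add_apply, mul_add]
  exact (MC_sum ha hb n).tsum_add (MC_sum ha hc n)
theorem conv_sub_right (ha : S1 a) (hb : S1 b) (hc : S1 c) :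
    conv a (b - c) = conv a b - conv a c := by
  funext n
  simp only [conv, Pi.sub_apply, mul_sub]
  exact (MC_sum ha hb n).tsum_sub (MC_sum ha hc n)
theorem conv_sub_left (ha : S1 a) (hb : S1 b) (hc : S1 c) :
    conv (a - b) c = conv a c - conv b c := by
  funext n
  simp only [conv, Pi.sub_apply, sub_mul]
  exact (MC_sum ha hc n).tsum_sub (MC_sum hb hc n)
theorem conv_smul_right (z : ℂ) (a b : Z → ℂ) : conv a (z • b) = z • conv a b := by
  funext n
  simp only [conv, Pi.smul_apply, smul_eq_mul]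
  rw [← tsum_mul_left]
  exact tsum_congr fun k => by ring
theorem conv_sum_right (ha : S1 a) {ι : Type} (s : Finset ι) {b : ι → Z → ℂ}
    (hb : ∀ i ∈ s, S1 (b i)) : conv a (∑ i ∈ s, b i) = ∑ i ∈ s, conv a (b i) := by
  classical
  induction s using Finset.induction_on with
  | empty =>
    funext n
    simp [conv]
  | insert i s hi ih =>
    have h1 : ∀ j ∈ s, S1 (b j) := fun j hj => hb j (Finset.mem_insert_of_mem hj)
    rw [Finset.sum_insert hi, Finset.sum_insert hi,
      conv_add_right ha (hb i (Finset.mem_insert_self _ _)) (S1_sum s h1), ih h1]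

theorem MC_ev (ha : S1 a) (x : E) : Summable fun n => a n * invCh n x := by
  refine Summable.of_norm ?_
  simp only [norm_mul, inv_norm_ch, mul_one]
  exact ha

theorem ev_add (ha : S1 a) (hb : S1 b) (x : E) : ev (a + b) x = ev a x + ev b x := by
  simp only [inv_ev, Pi.add_apply, add_mul]
  exact (MC_ev ha x).tsum_add (MC_ev hb x)
theorem ev_sub (ha : S1 a) (hb : S1 b) (x : E) : ev (a - b) x = ev a x - ev b x := by
  simp only [inv_ev, Pi.sub_apply, sub_mul]
  exact (MC_ev ha x).tsum_sub (MC_ev hb x)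
theorem ev_smul (z : ℂ) (a : Z → ℂ) (x : E) : ev (z • a) x = z * ev a x := by
  simp only [inv_ev, Pi.smul_apply, smul_eq_mul, mul_assoc]
  exact tsum_mul_left
theorem ev_mu (θ : ℝ) (x0 : E) (a : Z → ℂ) (x : E) :
    ev (mu θ x0 a) x = Complex.exp (I * θ) * ev a (x + x0) := by
  simp only [ev, mu]
  rw [← tsum_mul_left]
  refine tsum_congr fun n => ?_
  rw [mul_left_comm, mul_right_comm, mul_comm, ← Complex.exp_add, ← Complex.exp_add]
  congr 2
  simp only [PiLp.add_apply, mul_add, Finset.sum_add_distrib]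
  push_cast
  ring
theorem ev_single (x : E) : ev (Pi.single 0 1 : Z → ℂ) x = 1 := by
  rw [inv_ev, tsum_eq_single 0 fun n hn => by rw [Pi.single_eq_of_ne hn, zero_mul]]
  rw [Pi.single_eq_same, inv_ch_zero, one_mul]

theorem refl_refl (a : Z → ℂ) : refl (refl a) = a := by
  funext n
  simp [refl]
theorem refl_add (a b : Z → ℂ) : refl (a + b) = refl a + refl b := by
  funext n
  simp [refl]
theorem refl_sub (a b : Z → ℂ) : refl (a - b) = refl a - refl b := by
  funext n
  simp [refl]
theorem refl_smul (z : ℂ) (a : Z → ℂ) : refl (z • a) = conj z • refl a := by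
  funext n
  simp [refl]
theorem refl_sum {ι : Type} (s : Finset ι) (a : ι → Z → ℂ) :
    refl (∑ i ∈ s, a i) = ∑ i ∈ s, refl (a i) := by
  funext n
  simp [refl, Finset.sum_apply]

theorem mu_sub (θ : ℝ) (x : E) (a b : Z → ℂ) : mu θ x (a - b) = mu θ x a - mu θ x b := by
  funext n
  simp only [mu, Pi.sub_apply, mul_sub]
theorem mu_smul (θ : ℝ) (x : E) (z : ℂ) (a : Z → ℂ) : mu θ x (z • a) = z • mu θ x a := by
  funext n
  simp only [mu, Pi.smul_apply, smul_eq_mul]
  ring
theorem mu_neg_mu (θ : ℝ) (x : E) (a : Z → ℂ) : mu (-θ) (-x) (mu θ x a) = a := by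
  funext n
  simp only [mu]
  rw [← mul_assoc, ← Complex.exp_add, ← mul_add, ← Complex.ofReal_add]
  have : (-θ + ∑ i, (n i : ℝ) * (-x) i) + (θ + ∑ i, (n i : ℝ) * x i) = 0 := by
    simp only [PiLp.neg_apply, mul_neg, Finset.sum_neg_distrib]
    ring
  rw [this]
  simp
theorem mu_zero (a : Z → ℂ) : mu 0 0 a = a := by
  funext n
  simp [mu]

theorem isCompact_cube : IsCompact {x : E | ∀ i, x i ∈ Icc (-Real.pi) Real.pi} := by
  exact inv_compact
theorem coef_add {f g : E → ℂ} (hf : Continuous f) (hg : Continuous g) :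
    coef (fun x => f x + g x) = coef f + coef g := by
  funext n
  simp only [inv_coef, Pi.add_apply, add_mul]
  rw [integral_add (inv_int (hf.fun_mul (inv_cont_ch _))) (inv_int (hg.fun_mul (inv_cont_ch _))), mul_add]
theorem coef_sub {f g : E → ℂ} (hf : Continuous f) (hg : Continuous g) :
    coef (fun x => f x - g x) = coef f - coef g := by
  funext n
  simp only [inv_coef, Pi.sub_apply, sub_mul]
  rw [integral_sub (inv_int (hf.fun_mul (inv_cont_ch _))) (inv_int (hg.fun_mul (inv_cont_ch _))), mul_sub]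
theorem coef_smul (z : ℂ) (f : E → ℂ) : coef (fun x => z * f x) = z • coef f := by
  funext n
  simp only [inv_coef, Pi.smul_apply, smul_eq_mul, mul_assoc]
  rw [integral_const_mul]
  ring
theorem coef_sum {ι : Type} (s : Finset ι) {f : ι → E → ℂ} (hf : ∀ i ∈ s, Continuous (f i)) :
    coef (fun x => ∑ i ∈ s, f i x) = ∑ i ∈ s, coef (f i) := by
  classical
  induction s using Finset.induction_on with
  | empty =>
    funext n
    simp [inv_coef]
  | insert i s hi ih =>
    have h1 : ∀ j ∈ s, Continuous (f j) := fun j hj => hf j (Finset.mem_insert_of_mem hj)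
    simp only [Finset.sum_insert hi]
    rw [coef_add (hf i (Finset.mem_insert_self _ _)) (continuous_finsetSum s h1), ih h1]
theorem norm_coef_le {f : E → ℂ} {B : ℝ} (hf : ∀ x, ‖f x‖ ≤ B) (n : Z) : ‖coef f n‖ ≤ B := by
  have hv : (volume : Measure E).real invQ = (2 * Real.pi) ^ 12 := by
    have h := inv_orth 0
    simp only [inv_ch_zero, if_true, integral_const, MeasurableSet.univ,
      measureReal_restrict_apply, univ_inter, real_smul, mul_one] at h
    exact_mod_cast h
  have hp : (0 : ℝ) < (2 * Real.pi) ^ 12 := by positivity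
  have h1 := norm_setIntegral_le_of_norm_le_const (μ := volume) (s := invQ)
    (f := fun x => f x * invCh (-n) x) (C := B) inv_compact.measure_lt_top fun x _ => by
      rw [norm_mul, inv_norm_ch, mul_one]; exact hf x
  rw [hv] at h1
  rw [inv_coef, norm_mul, norm_inv, Complex.norm_real, Real.norm_of_nonneg hp.le,
    inv_mul_le_iff₀ hp, mul_comm]
  exact h1
theorem coef_ev_mul (ha : S1 a) (hb : S1 b) : coef (fun x => ev a x * ev b x) = conv a b := by
  rw [← coef_ev (conv a b) (ha.conv hb)]
  congr 1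
  funext x
  exact (ev_conv a b ha hb x).symm

end Vale.Agent.P139
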