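import Vale.Agent.P139.F1
import Vale.Agent.P139.F0
import Vale.Agent.P139.SymP

/-! Definitions for part M (nonlinear stability on the torus, modulation, Gaussian support). -/

open Complex MeasureTheory Filter Topology Set
open scoped ComplexConjugate ContDiff

namespace Vale.Agent.P139

/-- the complex scaling exponent a - i om -/
noncomputable def sg (m : ℕ) (om : ℝ) : ℂ := (aa m : ℂ) - I * om

/-- the nonlinearity on the Fourier side -/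
noncomputable def Nl (m : ℕ) (c : Z → ℂ) : Z → ℂ :=
  coef fun x => (ev c x * conj (ev c x)) ^ m * ev c x

/-- its derivative at a in the direction e -/
noncomputable def DNl (m : ℕ) (a e : Z → ℂ) : Z → ℂ :=
  coef fun x => ((m : ℂ) + 1) * (ev a x * conj (ev a x)) ^ m * ev e x
    + (m : ℂ) * (ev a x * conj (ev a x)) ^ (m - 1) * ev a x ^ 2 * conj (ev e x)

/-- weighted Wiener norm for a general weight -/
noncomputable def NW (q : Z → ℝ) (c : Z → ℂ) : ENNReal := ∑' n, ENNReal.ofReal (q n * ‖c n‖)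

/-- admissible weights -/
structure GW (q : Z → ℝ) : Prop where
  one : ∀ n, 1 ≤ q n
  mul : ∀ a b, q (a + b) ≤ q a * q b
  neg : ∀ n, q (-n) = q n

noncomputable def wq (K : ℕ) (M h : ℝ) (n : Z) : ℝ := wt K M (h • zE n)

theorem NN_eq (K : ℕ) (M h : ℝ) (c : Z → ℂ) : NN K M h c = NW (wq K M h) c := rfl

def S1 (c : Z → ℂ) : Prop := Summable fun n => ‖c n‖

noncomputable def l1 (c : Z → ℂ) : ℝ := ∑' n, ‖c n‖

/-- continuous curves in l^1 on [0, T] -/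
structure L1C (T : ℝ) (z : ℝ → Z → ℂ) : Prop where
  sum : ∀ t ∈ Icc 0 T, S1 (z t)
  cont : ∀ t ∈ Icc 0 T, Tendsto (fun s => l1 (z s - z t)) (𝓝[Icc 0 T] t) (𝓝 0)

/-- Duhamel formula at scale h with forcing H on [0, T] -/
structure Duh (h T : ℝ) (z H : ℝ → Z → ℂ) : Prop where
  cz : ∀ n, ContinuousOn (fun t => z t n) (Icc 0 T)
  cH : ∀ n, ContinuousOn (fun t => H t n) (Icc 0 T)
  eq : ∀ t ∈ Icc 0 T, ∀ n, z t n =
    Complex.exp (-I * ((t * (h ^ 2 * nsq n) : ℝ) : ℂ)) * z 0 n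
    - I * ∫ s in (0 : ℝ)..t, Complex.exp (-I * (((t - s) * (h ^ 2 * nsq n) : ℝ) : ℂ)) * H s n

/-- global solutions of the equation at scale h -/
def SolH (m : ℕ) (h : ℝ) (v : ℝ → Z → ℂ) : Prop :=
  ∀ T : ℝ, 0 ≤ T → L1C T v ∧ Duh h T v (fun s => Nl m (v s))

/-- phase rotation and translation -/
noncomputable def mu (θ : ℝ) (x : E) (c : Z → ℂ) (n : Z) : ℂ :=
  Complex.exp (I * ((θ + ∑ i, (n i : ℝ) * x i : ℝ) : ℂ)) * c n

/-- its first order part -/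
noncomputable def phs (θ : ℝ) (x : E) (c : Z → ℂ) (n : Z) : ℂ :=
  I * ((θ + ∑ i, (n i : ℝ) * x i : ℝ) : ℂ) * c n

/-- self-similar dilation -/
noncomputable def dil (ρ : ℝ) (κ : ℂ) (g : E → ℂ) (y : E) : ℂ :=
  (ρ : ℂ) ^ (-κ) * g ((Real.sqrt ρ)⁻¹ • y)

/-- minus the generator of the dilations -/
noncomputable def Lg (κ : ℂ) (g : E → ℂ) (y : E) : ℂ := κ * g y + 1 / 2 * fderiv ℝ g y y

def SymA (γ : ℝ) (g : E → ℂ) : Prop := ∀ J : ℕ, ∃ C : ℝ, Sym γ J C g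

noncomputable def dj {F : Type} [NormedAddCommGroup F] [NormedSpace ℝ F] (j : Fin 12) (f : E → F)
    (y : E) : F := fderiv ℝ f y (EuclideanSpace.single j 1)

noncomputable def lapR (χ : E → ℝ) (x : E) : ℝ := ∑ j, dj j (dj j χ) x

/-- commutator of the cut-off with the Laplacian -/
noncomputable def Er (χ : E → ℝ) (κ : ℂ) (g : E → ℂ) (h ρ : ℝ) : Z → ℂ :=
  ∑ j, ((2 * h : ℝ) : ℂ) • Kh (dj j χ) (dil ρ (κ + 1 / 2) (dj j g)) h
    + ((h ^ 2 : ℝ) : ℂ) • Kh (lapR χ) (dil ρ κ g) h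

/-- smooth functions supported in the annulus -/
structure Ann (ψ : E → ℝ) : Prop where
  smooth : ContDiff ℝ ∞ ψ
  inn : ∀ x, ‖x‖ < 1 → ψ x = 0
  out : ∀ x, 2 < ‖x‖ → ψ x = 0

/-- index set of the symmetry modes: phase, time, translations -/
abbrev Ix := Option (Option (Fin 12))

noncomputable def em (m : ℕ) (om : ℝ) (w : ℝ → ℂ) : Ix → E → ℂ
  | none => fun y => I * rad w y
  | some none => rad (Lam m om w)
  | some (some j) => fun y => ((y j / 2 : ℝ) : ℂ) * rad (deriv w) y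

noncomputable def lam : Ix → ℝ
  | none => 0
  | some none => 1
  | some (some _) => 1 / 2

def co (β : Co) : Ix → ℂ
  | none => β.1
  | some none => β.2.1
  | some (some j) => β.2.2 j

noncomputable def G0 (m : ℕ) (w : ℝ → ℂ) (y : E) : ℂ := (rad w y * conj (rad w y)) ^ m * rad w y

/-- the approximate solution -/
noncomputable def Ap (m : ℕ) (om : ℝ) (w : ℝ → ℂ) (χ : E → ℝ) (h s : ℝ) : Z → ℂ :=
  Kh χ (dil (1 - s) (sg m om) (rad w)) h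

/-- the mode trajectories -/
noncomputable def Ym (m : ℕ) (om : ℝ) (w : ℝ → ℂ) (χ : E → ℝ) (h : ℝ) (i : Ix) (s : ℝ) : Z → ℂ :=
  Kh χ (dil (1 - s) (sg m om + lam i) (em m om w i)) h

noncomputable def Lin (m : ℕ) (om : ℝ) (w : ℝ → ℂ) (χ1 : E → ℝ) (h s : ℝ) (a b : Z → ℂ) : Z → ℂ :=
  conv (Kh χ1 (P1 m w (1 - s)) h) a + conv (Kh χ1 (P2 m om w (1 - s)) h) b

/-- forced solutions of the real-linear linearised equation -/
structure RL (m : ℕ) (om : ℝ) (w : ℝ → ℂ) (χ1 : E → ℝ) (h T : ℝ) (z F : ℝ → Z → ℂ) : Prop where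
  l1c : L1C T z
  cF : ∀ n, ContinuousOn (fun t => F t n) (Icc 0 T)
  duh : Duh h T z (fun s => Lin m om w χ1 h s (z s) (refl (z s)) + F s)

/-- the inner statement of LW -/
def LWin (m : ℕ) (om : ℝ) (w : ℝ → ℂ) (χ χ1 : E → ℝ) (K : ℕ) (M η ρ0 C h : ℝ) : Prop :=
  ∀ (ζ1 ζ2 : Z → ℂ) (δ : ℝ), 0 ≤ δ → NN K M h ζ1 ≤ ENNReal.ofReal δ →
    NN K M h ζ2 ≤ ENNReal.ofReal δ →
    ∃ β : Co, ‖β‖ ≤ C * δ ∧ ∀ (z1 z2 F1 F2 : ℝ → Z → ℂ) (B φ : ℝ), 0 ≤ φ →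
      TLin m om w χ1 h (1 - ρ0) z1 z2 F1 F2 →
      z1 0 = ζ1 - Kh χ (mode1 m om w β) h → z2 0 = ζ2 - Kh χ (mode2 m om w β) h →
      (∀ t ∈ Set.Icc 0 (1 - ρ0), NN K M h (z1 t) ≤ ENNReal.ofReal B ∧
        NN K M h (z2 t) ≤ ENNReal.ofReal B ∧ NN K M h (F1 t) ≤ ENNReal.ofReal φ ∧
        NN K M h (F2 t) ≤ ENNReal.ofReal φ) →
      NN K M (h * Real.sqrt ρ0) (z1 (1 - ρ0)) ≤
          ENNReal.ofReal (ρ0 ^ (-(aa m)) * (η * δ + C * φ)) ∧
        NN K M (h * Real.sqrt ρ0) (z2 (1 - ρ0)) ≤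
          ENNReal.ofReal (ρ0 ^ (-(aa m)) * (η * δ + C * φ))

/-- one renormalisation step -/
def StepP (m : ℕ) (om : ℝ) (w : ℝ → ℂ) (χ : E → ℝ) (K : ℕ) (M δ h0 : ℝ) : Prop :=
  ∀ (h : ℝ) (v : ℝ → Z → ℂ), 0 < h → h ≤ h0 → SolH m h v →
    NN K M h (v 0 - Kh χ (rad w) h) ≤ ENNReal.ofReal δ →
    ∃ (t ρ θ : ℝ) (x : E), 0 ≤ t ∧ t ≤ 1 ∧ 0 < ρ ∧ ρ ≤ 1 / 2 ∧
      NN K M (h * Real.sqrt ρ) ((ρ : ℂ) ^ sg m om • mu θ x (v t)
        - Kh χ (rad w) (h * Real.sqrt ρ)) ≤ ENNReal.ofReal δ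

end Vale.Agent.P139
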