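import Vale.Agent.P139.MK
import Vale.Agent.P139.ML

/-! Symbol classes, uniform bounds of Kh, terms supported in the annulus.
Hints: SymA closure from SymA.lean (Sym.add, smul, conj, mul, fderiv, sym_coord, mono). SymA.lg:
fderiv g y y = ∑ j, y j * dj j g y (EuclideanSpace.basisFun repr / map_sum), each term has order
(-1) + (γ+1); finite sums by induction. symA_dil: sym_dil with L ≥ sqrt 2, L ≥ (sqrt ρ0)⁻¹,
‖ρ^(-κ)‖ = ρ^(-re κ) is bounded on [ρ0, 2] (continuity on a compact set). NN_Kh_dil: f1.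
far: f0 with G x = ψ x * g (h⁻¹ • x). For ‖x‖ < 1 G vanishes near x so all derivatives vanish
(Filter.EventuallyEq.iteratedFDeriv or iteratedFDeriv_congr); for 1 ≤ ‖x‖ use norm_iteratedFDeriv_mul_le,
‖D^k (g (h⁻¹ • .)) x‖ ≤ h^(-k) C (1 + ‖x‖/h)^(-γ-k) ≤ C h^γ (iteratedFDeriv_comp_const_smul or
ContinuousLinearMap.iteratedFDeriv_comp_right), derivatives of ψ are bounded (compact support).
NN_Er: NW_add_le, NW_sum_le, NW_smul_le, far_dil (SymA.mono to order γ; h ≤ 1).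
l1c_Kh_dil: l1c_of_NN, cont_Kh_dil', NN_Kh_dil with ρ0 = 1 - T, K = 1, M = 1. -/

open Complex MeasureTheory Filter Topology Set
open scoped ComplexConjugate ContDiff

namespace Vale.Agent.P139

variable {γ γ' : ℝ} {f g : E → ℂ} {χ χ' ψ : E → ℝ}

theorem SymA.contDiff (hg : SymA γ g) : ContDiff ℝ ∞ g := (hg 0).choose_spec.1

theorem SymA.mono (hg : SymA γ g) (h : γ' ≤ γ) : SymA γ' g := fun J =>
  let ⟨C, hC⟩ := hg J
  ⟨C, hC.mono h le_rfl le_rfl⟩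

theorem SymA.add (hf : SymA γ f) (hg : SymA γ g) : SymA γ fun y => f y + g y := fun J =>
  let ⟨_, hC⟩ := hf J
  let ⟨_, hC'⟩ := hg J
  ⟨_, hC.add hC'⟩

theorem SymA.smul (hg : SymA γ g) (c : ℂ) : SymA γ fun y => c * g y := fun J =>
  let ⟨_, hC⟩ := hg J
  ⟨_, hC.smul c⟩

theorem SymA.conj (hg : SymA γ g) : SymA γ fun y => conj (g y) := fun J =>
  let ⟨_, hC⟩ := hg J
  ⟨_, hC.conj⟩

theorem SymA.mul (hf : SymA γ f) (hg : SymA γ' g) : SymA (γ + γ') fun y => f y * g y := fun J =>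
  let ⟨_, hC⟩ := hf J
  let ⟨_, hC'⟩ := hg J
  ⟨_, hC.mul hC'⟩

theorem SymA.dj (hg : SymA γ g) (j : Fin 12) : SymA (γ + 1) (dj j g) := fun J =>
  let ⟨_, hC⟩ := hg (J + 1)
  ⟨_, hC.fderiv _⟩

theorem MFar_fderiv_self (g : E → ℂ) (y : E) :
    fderiv ℝ g y y = ∑ j, ((y j : ℝ) : ℂ) * dj j g y := by
  have h1 : y = ∑ j, y j • (EuclideanSpace.single j 1 : E) := by
    have h := (EuclideanSpace.basisFun (Fin 12) ℝ).sum_repr y
    simp only [EuclideanSpace.basisFun_repr, EuclideanSpace.basisFun_apply] at h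
    exact h.symm
  calc fderiv ℝ g y y = fderiv ℝ g y (∑ j, y j • (EuclideanSpace.single j 1 : E)) := by
        rw [← h1]
    _ = _ := by
        rw [map_sum]
        refine Finset.sum_congr rfl fun j _ => ?_
        rw [map_smul, Complex.real_smul]
        rfl

theorem SymA.lg (hg : SymA γ g) (κ : ℂ) : SymA γ (Lg κ g) := by
  have h1 : ∀ j : Fin 12, SymA γ fun y => ((y j : ℝ) : ℂ) * P139.dj j g y := fun j => by
    have h2 : SymA (-1) fun y : E => ((y j : ℝ) : ℂ) := fun J => ⟨1, sym_coord J j⟩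
    exact (h2.mul (hg.dj j)).mono (by linarith)
  have h3 : SymA γ fun y => ∑ j, ((y j : ℝ) : ℂ) * P139.dj j g y := fun J => by
    choose C hC using fun j => h1 j J
    exact ⟨_, symP_sum Finset.univ C _ fun j _ => hC j⟩
  have h4 := (hg.smul κ).add (h3.smul (1 / 2))
  have e : Lg κ g = fun y => κ * g y + 1 / 2 * ∑ j, ((y j : ℝ) : ℂ) * P139.dj j g y := by
    funext y
    rw [Lg, MFar_fderiv_self]
  rw [e]
  exact h4

theorem symA_dil (hg : SymA γ g) (κ : ℂ) {ρ0 : ℝ} (h0 : 0 < ρ0) (J : ℕ) : ∃ C : ℝ, 0 ≤ C ∧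
    ∀ ρ ∈ Icc ρ0 2, Sym γ J C (dil ρ κ g) := by
  obtain ⟨C, hC⟩ := hg J
  have hs0 : 0 < Real.sqrt ρ0 := Real.sqrt_pos.2 h0
  have hi0 : 0 < (Real.sqrt ρ0)⁻¹ := inv_pos.2 hs0
  obtain ⟨C0, hC0, H⟩ := sym_dil γ (2 + (Real.sqrt ρ0)⁻¹) (by linarith) J
  have hc : ContinuousOn (fun ρ : ℝ => (ρ : ℂ) ^ (-κ)) (Icc ρ0 2) := fun ρ hρ =>
    (symP_cpow (-κ) ρ (h0.trans_le hρ.1)).continuousAt.continuousWithinAt
  obtain ⟨B, hB⟩ := isCompact_Icc.exists_bound_of_continuousOn hc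
  have hC1 := SymA_nonneg hC
  refine ⟨|B| * (C0 * C), by positivity, fun ρ hρ => ?_⟩
  have hρ0 : 0 < ρ := h0.trans_le hρ.1
  have hs : 0 < Real.sqrt ρ := Real.sqrt_pos.2 hρ0
  have a1 : Real.sqrt ρ ≤ 2 := Real.sqrt_le_iff.2 ⟨by norm_num, by linarith [hρ.2]⟩
  have a2 : (2 + (Real.sqrt ρ0)⁻¹)⁻¹ ≤ (Real.sqrt ρ)⁻¹ := inv_anti₀ hs (by linarith)
  have a3 : (Real.sqrt ρ)⁻¹ ≤ (Real.sqrt ρ0)⁻¹ := inv_anti₀ hs0 (Real.sqrt_le_sqrt hρ.1)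
  have S := (H g C _ hC a2 (by linarith)).smul ((ρ : ℂ) ^ (-κ))
  exact S.mono le_rfl le_rfl
    (mul_le_mul_of_nonneg_right ((hB ρ hρ).trans (le_abs_self B)) (by positivity))

theorem NN_Kh_dil (hχ : Cut χ) (hγ : 0 < γ) (hg : SymA γ g) (κ : ℂ) (K : ℕ) {ρ0 : ℝ}
    (h0 : 0 < ρ0) : ∃ C : ℝ, 0 ≤ C ∧ ∀ M h : ℝ, 1 ≤ M → 0 < h → h ≤ 1 → ∀ ρ ∈ Icc ρ0 2,
      NN K M h (Kh χ (dil ρ κ g) h) ≤ ENNReal.ofReal C := by
  obtain ⟨J, C0, hC0, H⟩ := f1 γ hγ K χ hχ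
  obtain ⟨C, hC, S⟩ := symA_dil hg κ h0 J
  exact ⟨C0 * C, by positivity, fun M h hM hh hh1 ρ hρ => H _ C M h (S ρ hρ) hM hh hh1⟩

theorem MFar_bdd (hψ : Ann ψ) (J : ℕ) : ∃ A : ℝ, 0 ≤ A ∧ ∀ k ≤ J, ∀ x,
    ‖iteratedFDeriv ℝ k (fun x => ((ψ x : ℝ) : ℂ)) x‖ ≤ A := by
  have hs : ContDiff ℝ ∞ fun x => ((ψ x : ℝ) : ℂ) := Complex.ofRealCLM.contDiff.comp hψ.smooth
  have hc : HasCompactSupport fun x => ((ψ x : ℝ) : ℂ) :=
    F0_supp _ fun x hx => by rw [hψ.out x (by linarith), Complex.ofReal_zero]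
  refine symP_unif (fun k A => ∀ x, ‖iteratedFDeriv ℝ k (fun x => ((ψ x : ℝ) : ℂ)) x‖ ≤ A)
    (fun _ _ _ h1 h2 x => (h2 x).trans h1) (fun k => ?_) J
  exact (hs.continuous_iteratedFDeriv (SymA_le k)).bounded_above_of_compact_support
    (hc.iteratedFDeriv k)

theorem MFar_scale (hγ : 0 ≤ γ) {J : ℕ} {C h : ℝ} (hg : Sym γ J C g) (hh : 0 < h) {k : ℕ}
    (hk : k ≤ J) {x : E} (hx : 1 ≤ ‖x‖) :
    ‖iteratedFDeriv ℝ k (fun x : E => g (h⁻¹ • x)) x‖ ≤ C * h ^ γ := by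
  have hi : 0 < h⁻¹ := inv_pos.2 hh
  have hC := SymA_nonneg hg
  rw [iteratedFDeriv_comp_const_smul h⁻¹ (hg.1.of_le (SymA_le k))]
  show ‖h⁻¹ ^ k • iteratedFDeriv ℝ k g (h⁻¹ • x)‖ ≤ _
  rw [norm_smul, Real.norm_eq_abs, abs_of_nonneg (by positivity)]
  have a1 : h⁻¹ ≤ 1 + ‖h⁻¹ • x‖ := by
    rw [norm_smul, Real.norm_eq_abs, abs_of_pos hi]
    nlinarith
  have hk0 : (0 : ℝ) ≤ k := Nat.cast_nonneg k
  have a2 : (1 + ‖h⁻¹ • x‖) ^ (-γ - k) ≤ h⁻¹ ^ (-γ - k) :=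
    Real.rpow_le_rpow_of_nonpos hi a1 (by linarith)
  have a3 : h⁻¹ ^ k * h⁻¹ ^ (-γ - k) = h ^ γ := by
    rw [← Real.rpow_natCast, ← Real.rpow_add hi, Real.inv_rpow hh.le, ← Real.rpow_neg hh.le]
    congr 1
    ring
  calc h⁻¹ ^ k * ‖iteratedFDeriv ℝ k g (h⁻¹ • x)‖ ≤ h⁻¹ ^ k * (C * h⁻¹ ^ (-γ - k)) :=
        mul_le_mul_of_nonneg_left ((hg.2 k hk _).trans (mul_le_mul_of_nonneg_left a2 hC))
          (by positivity)
    _ = C * (h⁻¹ ^ k * h⁻¹ ^ (-γ - k)) := by ring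
    _ = _ := by rw [a3]

theorem MFar_in {x : E} (hx : ‖x‖ < 1) : ∀ᶠ y : E in 𝓝 x, ‖y‖ < 1 :=
  (isOpen_lt continuous_norm continuous_const).mem_nhds hx

theorem MFar_out {x : E} (hx : 2 < ‖x‖) : ∀ᶠ y : E in 𝓝 x, 2 < ‖y‖ :=
  (isOpen_lt continuous_const continuous_norm).mem_nhds hx

theorem far (hψ : Ann ψ) (hγ : 0 ≤ γ) (K : ℕ) : ∃ (J : ℕ) (C0 : ℝ), 0 ≤ C0 ∧
    ∀ (g : E → ℂ) (C M h : ℝ), Sym γ J C g → 1 ≤ M → 0 < h → h ≤ 1 →
      NN K M h (Kh ψ g h) ≤ ENNReal.ofReal (C0 * C * h ^ γ) := by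
  obtain ⟨J, C0, hC0, H⟩ := f0 K
  obtain ⟨A, hA, HA⟩ := MFar_bdd hψ J
  refine ⟨J, C0 * (2 ^ J * A), by positivity, fun g C M h hg hM hh hh1 => ?_⟩
  have hC := SymA_nonneg hg
  have hs : ContDiff ℝ ∞ fun x => ((ψ x : ℝ) : ℂ) := Complex.ofRealCLM.contDiff.comp hψ.smooth
  have hg' : ContDiff ℝ ∞ fun x : E => g (h⁻¹ • x) := hg.1.comp (contDiff_const_smul h⁻¹)
  have key := H (fun x => (ψ x : ℂ) * g (h⁻¹ • x)) (2 ^ J * A * (C * h ^ γ)) M h (hs.mul hg')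
    (fun x hx => by rw [hψ.out x (by linarith), Complex.ofReal_zero, zero_mul])
    (fun k hk x => ?_) hM hh hh1
  · refine key.trans (le_of_eq ?_)
    congr 1
    ring
  rcases lt_or_ge ‖x‖ 1 with hx | hx
  · have e : (fun x => (ψ x : ℂ) * g (h⁻¹ • x)) =ᶠ[𝓝 x] fun _ => 0 := by
      filter_upwards [MFar_in hx] with y hy
      rw [hψ.inn y hy, Complex.ofReal_zero, zero_mul]
    rw [(e.iteratedFDeriv ℝ k).eq_of_nhds, iteratedFDeriv_fun_zero]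
    simp only [Pi.zero_apply, norm_zero]
    positivity
  · refine (norm_iteratedFDeriv_mul_le hs hg' x (SymA_le k)).trans ?_
    have h1 := SymA_sum (γ := 0) (γ' := 0) (t := 0) le_rfl hA
      (show 0 ≤ C * h ^ γ by positivity) hk
      (fun i => ‖iteratedFDeriv ℝ i (fun x => ((ψ x : ℝ) : ℂ)) x‖)
      (fun i => ‖iteratedFDeriv ℝ i (fun x : E => g (h⁻¹ • x)) x‖) (fun _ => norm_nonneg _)
      (fun i hi => by rw [add_zero, Real.one_rpow, mul_one]; exact HA i (hi.trans hk) x)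
      (fun i hi => by
        rw [add_zero, Real.one_rpow, mul_one]; exact MFar_scale hγ hg hh (hi.trans hk) hx)
    rw [add_zero (1 : ℝ), Real.one_rpow, mul_one] at h1
    exact h1

theorem far_dil (hψ : Ann ψ) (hγ : 0 ≤ γ) (hg : SymA γ g) (κ : ℂ) (K : ℕ) {ρ0 : ℝ}
    (h0 : 0 < ρ0) : ∃ C : ℝ, 0 ≤ C ∧ ∀ M h : ℝ, 1 ≤ M → 0 < h → h ≤ 1 → ∀ ρ ∈ Icc ρ0 2,
      NN K M h (Kh ψ (dil ρ κ g) h) ≤ ENNReal.ofReal (C * h ^ γ) := by
  obtain ⟨J, C0, hC0, H⟩ := far hψ hγ K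
  obtain ⟨C, hC, S⟩ := symA_dil hg κ h0 J
  exact ⟨C0 * C, by positivity, fun M h hM hh hh1 ρ hρ => H _ C M h (S ρ hρ) hM hh hh1⟩

theorem MFar_dj_zero {x : E} {c : ℝ} (j : Fin 12) (h : ψ =ᶠ[𝓝 x] fun _ => c) : dj j ψ x = 0 := by
  rw [dj, h.fderiv_eq]
  simp

theorem MFar_ann_dj (hψ : Ann ψ) (j : Fin 12) : Ann (dj j ψ) where
  smooth := contDiff_dj hψ.smooth j
  inn := fun _ hx => MFar_dj_zero j ((MFar_in hx).mono fun y hy => hψ.inn y hy)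
  out := fun _ hx => MFar_dj_zero j ((MFar_out hx).mono fun y hy => hψ.out y hy)

theorem Cut.ann_dj (hχ : Cut χ) (j : Fin 12) : Ann (dj j χ) where
  smooth := contDiff_dj hχ.smooth j
  inn := fun _ hx => MFar_dj_zero j ((MFar_in hx).mono fun y hy => hχ.one y hy.le)
  out := fun _ hx => MFar_dj_zero j ((MFar_out hx).mono fun y hy => hχ.zero y hy.le)

theorem Cut.ann_lapR (hχ : Cut χ) : Ann (lapR χ) where
  smooth := ContDiff.sum fun j _ => (MFar_ann_dj (hχ.ann_dj j) j).smooth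
  inn := fun x hx => Finset.sum_eq_zero fun j _ => (MFar_ann_dj (hχ.ann_dj j) j).inn x hx
  out := fun x hx => Finset.sum_eq_zero fun j _ => (MFar_ann_dj (hχ.ann_dj j) j).out x hx

theorem Cut.ann_sub (hχ : Cut χ) (hχ' : Cut χ') : Ann fun x => χ x - χ' x where
  smooth := hχ.smooth.sub hχ'.smooth
  inn := fun x hx => by rw [hχ.one x hx.le, hχ'.one x hx.le, sub_self]
  out := fun x hx => by rw [hχ.zero x hx.le, hχ'.zero x hx.le, sub_self]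

theorem NN_Er (hχ : Cut χ) (hγ : 0 ≤ γ) (hg : SymA γ g) (κ : ℂ) (K : ℕ) {ρ0 : ℝ}
    (h0 : 0 < ρ0) : ∃ C : ℝ, 0 ≤ C ∧ ∀ M h : ℝ, 1 ≤ M → 0 < h → h ≤ 1 → ∀ ρ ∈ Icc ρ0 2,
      NN K M h (Er χ κ g h ρ) ≤ ENNReal.ofReal (C * h ^ γ) := by
  choose C hC H using fun j : Fin 12 =>
    far_dil (hχ.ann_dj j) hγ ((hg.dj j).mono (by linarith)) (κ + 1 / 2) K h0
  obtain ⟨C', hC', H'⟩ := far_dil hχ.ann_lapR hγ hg κ K h0
  have hS : 0 ≤ ∑ j, C j := Finset.sum_nonneg fun j _ => hC j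
  refine ⟨12 * (2 * ∑ j, C j) + C', by positivity, fun M h hM hh hh1 ρ hρ => ?_⟩
  have hq := gw_wq K (show 0 < M by linarith) h
  have hp : 0 ≤ h ^ γ := by positivity
  have n1 : ‖((2 * h : ℝ) : ℂ)‖ ≤ 2 := by
    rw [Complex.norm_real, Real.norm_of_nonneg (by positivity)]
    linarith
  have n2 : ‖((h ^ 2 : ℝ) : ℂ)‖ ≤ 1 := by
    rw [Complex.norm_real, Real.norm_of_nonneg (by positivity)]
    exact pow_le_one₀ hh.le hh1
  have b1 : ∀ j : Fin 12, NW (wq K M h) (((2 * h : ℝ) : ℂ) •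
      Kh (dj j χ) (dil ρ (κ + 1 / 2) (dj j g)) h) ≤
        ENNReal.ofReal (2 * ((∑ j, C j) * h ^ γ)) := fun j =>
    NW_smul_le n1 ((H j M h hM hh hh1 ρ hρ).trans (ENNReal.ofReal_le_ofReal
      (mul_le_mul_of_nonneg_right
        (Finset.single_le_sum (f := C) (fun i _ => hC i) (Finset.mem_univ j)) hp)))
  have b2 := NW_sum_le hq (by positivity) b1
  have b3 := NW_smul_le (q := wq K M h) n2 (H' M h hM hh hh1 ρ hρ)
  refine (NW_add_le hq (by positivity) (by positivity) b2 b3).trans (le_of_eq ?_)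
  congr 1
  rw [Fintype.card_fin]
  push_cast
  ring

theorem l1c_Kh_dil (hχ : Cut χ) (hγ : 0 < γ) (hg : SymA γ g) (κ : ℂ) {h T : ℝ} (hh : 0 < h)
    (hh1 : h ≤ 1) (hT : T < 1) : L1C T fun s => Kh χ (dil (1 - s) κ g) h := by
  obtain ⟨C, -, H⟩ := NN_Kh_dil hχ hγ hg κ 1 (show 0 < 1 - T by linarith)
  exact l1c_of_NN one_pos hh
    (fun n => cont_Kh_dil' hχ.smooth.continuous hg.contDiff.continuous κ h n hT)
    fun t ht => H 1 h le_rfl hh hh1 (1 - t) ⟨by linarith [ht.2], by linarith [ht.1]⟩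

end Vale.Agent.P139
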