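import Vale.Agent.P139.MDefs

/-! The complex Gaussian law charges balls and has a finite first moment. -/

open Complex MeasureTheory Filter Topology Set
open scoped ComplexConjugate ContDiff

namespace Vale.Agent.P139

theorem mg1_cont : Continuous fun z : ℝ × ℝ => (z.1 : ℂ) + (z.2 : ℂ) * I := by fun_prop

theorem mg1_norm (x y : ℝ) : ‖(x : ℂ) + (y : ℂ) * I‖ ≤ |x| + |y| := by
  refine (norm_add_le _ _).trans_eq ?_
  simp

theorem mg1_pos {v : NNReal} (hv : 0 < v) (a : ℝ) {r : ℝ} (hr : 0 < r) :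
    ProbabilityTheory.gaussianReal 0 v (Metric.closedBall a r) ≠ 0 := fun h =>
  (Metric.measure_closedBall_pos volume a hr).ne'
    (ProbabilityTheory.gaussianReal_absolutelyContinuous' 0 hv.ne' h)

theorem cgauss_ball {v : NNReal} (hv : 0 < v) (z : ℂ) {r : ℝ} (hr : 0 < r) :
    0 < cgauss v (Metric.closedBall z r) := by
  rw [cgauss, Measure.map_apply mg1_cont.measurable Metric.isClosed_closedBall.measurableSet]
  refine lt_of_lt_of_le ?_ (measure_mono
    (s := Metric.closedBall z.re (r / 2) ×ˢ Metric.closedBall z.im (r / 2)) fun w hw => ?_)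
  · rw [Measure.prod_prod]
    exact ENNReal.mul_pos (mg1_pos hv _ (half_pos hr)) (mg1_pos hv _ (half_pos hr))
  · have h1 : |w.1 - z.re| ≤ r / 2 := hw.1
    have h2 : |w.2 - z.im| ≤ r / 2 := hw.2
    have h3 := mg1_norm (w.1 - z.re) (w.2 - z.im)
    have e : (w.1 : ℂ) + (w.2 : ℂ) * I - z = ((w.1 - z.re : ℝ) : ℂ) + ((w.2 - z.im : ℝ) : ℂ) * I := by
      apply Complex.ext <;> simp
    rw [mem_preimage, mem_closedBall_iff_norm, e]
    linarith

theorem cgauss_moment (v : NNReal) : ∫⁻ z, ENNReal.ofReal ‖z‖ ∂(cgauss v) ≠ ⊤ := by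
  have h1 : Integrable (fun x : ℝ => |x|) (ProbabilityTheory.gaussianReal 0 v) :=
    (memLp_one_iff_integrable.1 (ProbabilityTheory.memLp_id_gaussianReal (μ := 0) (v := v) 1)).abs
  have h2 := (h1.comp_fst (ProbabilityTheory.gaussianReal 0 v)).add
    (h1.comp_snd (ProbabilityTheory.gaussianReal 0 v))
  rw [cgauss, lintegral_map measurable_norm.ennreal_ofReal mg1_cont.measurable]
  refine ne_top_of_le_ne_top h2.lintegral_lt_top.ne (lintegral_mono fun w => ?_)
  exact ENNReal.ofReal_le_ofReal (mg1_norm w.1 w.2)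

theorem summable_weight (K : ℕ) {M h α : ℝ} (hM : 1 ≤ M) (hh : 0 < h) (hh1 : h ≤ 1)
    (hα : (K : ℝ) + 12 < α) :
    Summable fun n : Z => wq K M h n * (1 + nsq n) ^ (-α / 2) := by
  have hK : (0 : ℝ) ≤ K := Nat.cast_nonneg K
  refine Summable.of_nonneg_of_le (fun n => ?_) (fun n => ?_)
    ((summable_lat (α - K) (by linarith)).mul_left (2 ^ (α / 2)))
  · rw [wq, wt, nsq_eq]
    positivity
  · rw [wq, wt, nsq_eq, norm_smul, Real.norm_of_nonneg hh.le]
    have ht := norm_nonneg (zE n)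
    generalize ‖zE n‖ = t at ht
    have h1 : h * t / M ≤ t := (div_le_self (by positivity) hM).trans (mul_le_of_le_one_left ht hh1)
    have h2 : (1 + h * t / M) ^ K ≤ (1 + t) ^ K := by gcongr
    have h3 : (1 + t ^ 2) ^ (-α / 2) ≤ ((1 + t) ^ 2 / 2) ^ (-α / 2) :=
      Real.rpow_le_rpow_of_nonpos (by positivity) (by nlinarith [sq_nonneg (1 - t)]) (by linarith)
    refine (mul_le_mul h2 h3 (by positivity) (by positivity)).trans_eq ?_
    rw [Real.div_rpow (by positivity) (by norm_num), ← Real.rpow_natCast, ← Real.rpow_natCast,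
      ← Real.rpow_mul (by positivity), ← mul_div_assoc, ← Real.rpow_add (by positivity), neg_div,
      Real.rpow_neg (by norm_num), div_inv_eq_mul, mul_comm]
    congr 2
    push_cast
    ring

end Vale.Agent.P139
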