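import Vale.Agent.P139.MDefs

/-! Weighted Wiener norms for general admissible weights. -/

open Complex MeasureTheory Filter Topology Set
open scoped ComplexConjugate ContDiff

namespace Vale.Agent.P139

variable {q : Z → ℝ}

theorem GW.mw_nonneg (hq : GW q) (n : Z) : 0 ≤ q n := zero_le_one.trans (hq.one n)

theorem gw_wq (K : ℕ) {M : ℝ} (hM : 0 < M) (h : ℝ) : GW (wq K M h) := by
  refine ⟨fun n => one_le_wt K hM _, fun a b => ?_, fun n => ?_⟩
  · unfold wq
    rw [zE_add, smul_add]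
    exact wt_add K hM _ _
  · unfold wq wt
    rw [alg_zE_neg, smul_neg, norm_neg]

theorem gw_one : GW fun _ => 1 := ⟨fun _ => le_rfl, fun _ _ => by simp, fun _ => rfl⟩

theorem GW.trunc (hq : GW q) {R : ℝ} (hR : 1 ≤ R) : GW fun n => min (q n) R := by
  refine ⟨fun n => le_min (hq.one n) hR, fun a b => ?_, fun n => by rw [hq.neg]⟩
  have ha : 1 ≤ min (q a) R := le_min (hq.one a) hR
  have hb : 1 ≤ min (q b) R := le_min (hq.one b) hR
  rcases le_total R (q a) with h1 | h1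
  · rw [min_eq_right h1]
    exact (min_le_right _ _).trans (le_mul_of_one_le_right (by linarith) hb)
  · rcases le_total R (q b) with h2 | h2
    · rw [min_eq_right h2]
      exact (min_le_right _ _).trans (le_mul_of_one_le_left (by linarith) ha)
    · rw [min_eq_left h1, min_eq_left h2]
      exact (min_le_left _ _).trans (hq.mul a b)

theorem NW_zero (q : Z → ℝ) : NW q 0 = 0 := by simp [NW]

theorem NW_mono {q q' : Z → ℝ} (h : ∀ n, q n ≤ q' n) (c : Z → ℂ) : NW q c ≤ NW q' c :=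
  ENNReal.tsum_le_tsum fun n =>
    ENNReal.ofReal_le_ofReal (mul_le_mul_of_nonneg_right (h n) (norm_nonneg _))

theorem NW_le_of_norm (hq : GW q) {a b : Z → ℂ} (h : ∀ n, ‖a n‖ ≤ ‖b n‖) : NW q a ≤ NW q b :=
  ENNReal.tsum_le_tsum fun n =>
    ENNReal.ofReal_le_ofReal (mul_le_mul_of_nonneg_left (h n) (hq.mw_nonneg n))

theorem NW_add (hq : GW q) (a b : Z → ℂ) : NW q (a + b) ≤ NW q a + NW q b := by
  unfold NW
  rw [← ENNReal.tsum_add]
  refine ENNReal.tsum_le_tsum fun n => le_trans ?_ ENNReal.ofReal_add_le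
  rw [← mul_add]
  exact ENNReal.ofReal_le_ofReal (mul_le_mul_of_nonneg_left (norm_add_le _ _) (hq.mw_nonneg n))

theorem NW_sub (hq : GW q) (a b : Z → ℂ) : NW q (a - b) ≤ NW q a + NW q b := by
  unfold NW
  rw [← ENNReal.tsum_add]
  refine ENNReal.tsum_le_tsum fun n => le_trans ?_ ENNReal.ofReal_add_le
  rw [← mul_add]
  exact ENNReal.ofReal_le_ofReal (mul_le_mul_of_nonneg_left (norm_sub_le _ _) (hq.mw_nonneg n))

theorem NW_smul (q : Z → ℝ) (z : ℂ) (a : Z → ℂ) :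
    NW q (z • a) = ENNReal.ofReal ‖z‖ * NW q a := by
  unfold NW
  rw [← ENNReal.tsum_mul_left]
  refine tsum_congr fun n => ?_
  rw [← ENNReal.ofReal_mul (norm_nonneg _), Pi.smul_apply, smul_eq_mul, norm_mul, mul_left_comm]

theorem NW_sum (hq : GW q) {ι : Type} (s : Finset ι) (a : ι → Z → ℂ) :
    NW q (∑ i ∈ s, a i) ≤ ∑ i ∈ s, NW q (a i) := by
  classical
  induction s using Finset.induction_on with
  | empty => simp [NW_zero]
  | insert i s hi ih =>
    rw [Finset.sum_insert hi, Finset.sum_insert hi]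
    exact (NW_add hq _ _).trans (add_le_add le_rfl ih)

theorem NW_conv (hq : GW q) (a b : Z → ℂ) : NW q (conv a b) ≤ NW q a * NW q b := by
  unfold NW
  calc ∑' n, ENNReal.ofReal (q n * ‖conv a b n‖)
      ≤ ∑' n, ∑' k, ENNReal.ofReal (q (n - k) * ‖a (n - k)‖) * ENNReal.ofReal (q k * ‖b k‖) := by
        refine ENNReal.tsum_le_tsum fun n => ?_
        rw [ENNReal.ofReal_mul (hq.mw_nonneg n)]
        refine (mul_le_mul_right (alg_enorm_tsum_le _) _).trans ?_
        rw [← ENNReal.tsum_mul_left]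
        refine ENNReal.tsum_le_tsum fun k => ?_
        rw [← ENNReal.ofReal_mul (hq.mw_nonneg n),
          ← ENNReal.ofReal_mul (mul_nonneg (hq.mw_nonneg _) (norm_nonneg _))]
        refine ENNReal.ofReal_le_ofReal ?_
        have hw := hq.mul (n - k) k
        rw [sub_add_cancel] at hw
        rw [norm_mul, mul_mul_mul_comm]
        exact mul_le_mul_of_nonneg_right hw (by positivity)
    _ = ∑' k, ∑' n, ENNReal.ofReal (q (n - k) * ‖a (n - k)‖) * ENNReal.ofReal (q k * ‖b k‖) :=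
        ENNReal.tsum_comm
    _ = ∑' k, (∑' n, ENNReal.ofReal (q n * ‖a n‖)) * ENNReal.ofReal (q k * ‖b k‖) := by
        refine tsum_congr fun k => ?_
        rw [ENNReal.tsum_mul_right]
        congr 1
        exact (Equiv.subRight k).tsum_eq fun n => ENNReal.ofReal (q n * ‖a n‖)
    _ = _ := ENNReal.tsum_mul_left

theorem NW_refl (hq : GW q) (a : Z → ℂ) : NW q (refl a) = NW q a := by
  unfold NW
  rw [← (Equiv.neg Z).tsum_eq fun n => ENNReal.ofReal (q n * ‖a n‖)]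
  refine tsum_congr fun n => ?_
  simp [refl, hq.neg]

theorem NW_mu (q : Z → ℝ) (θ : ℝ) (x : E) (a : Z → ℂ) : NW q (mu θ x a) = NW q a := by
  unfold NW mu
  refine tsum_congr fun n => ?_
  rw [norm_mul, mul_comm I, Complex.norm_exp_ofReal_mul_I, one_mul]

theorem NW_add_le (hq : GW q) {a b : Z → ℂ} {A B : ℝ} (hA : 0 ≤ A) (hB : 0 ≤ B)
    (ha : NW q a ≤ ENNReal.ofReal A) (hb : NW q b ≤ ENNReal.ofReal B) :
    NW q (a + b) ≤ ENNReal.ofReal (A + B) := by
  rw [ENNReal.ofReal_add hA hB]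
  exact (NW_add hq a b).trans (add_le_add ha hb)

theorem NW_sub_le (hq : GW q) {a b : Z → ℂ} {A B : ℝ} (hA : 0 ≤ A) (hB : 0 ≤ B)
    (ha : NW q a ≤ ENNReal.ofReal A) (hb : NW q b ≤ ENNReal.ofReal B) :
    NW q (a - b) ≤ ENNReal.ofReal (A + B) := by
  rw [ENNReal.ofReal_add hA hB]
  exact (NW_sub hq a b).trans (add_le_add ha hb)

theorem NW_smul_le {a : Z → ℂ} {z : ℂ} {r A : ℝ} (hz : ‖z‖ ≤ r) (ha : NW q a ≤ ENNReal.ofReal A) :
    NW q (z • a) ≤ ENNReal.ofReal (r * A) := by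
  rw [NW_smul, ENNReal.ofReal_mul ((norm_nonneg z).trans hz)]
  exact mul_le_mul' (ENNReal.ofReal_le_ofReal hz) ha

theorem NW_conv_le (hq : GW q) {a b : Z → ℂ} {A B : ℝ} (hA : 0 ≤ A)
    (ha : NW q a ≤ ENNReal.ofReal A) (hb : NW q b ≤ ENNReal.ofReal B) :
    NW q (conv a b) ≤ ENNReal.ofReal (A * B) := by
  rw [ENNReal.ofReal_mul hA]
  exact (NW_conv hq a b).trans (mul_le_mul' ha hb)

theorem NW_sum_le (hq : GW q) {ι : Type} [Fintype ι] {a : ι → Z → ℂ} {A : ℝ} (hA : 0 ≤ A)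
    (ha : ∀ i, NW q (a i) ≤ ENNReal.ofReal A) :
    NW q (∑ i, a i) ≤ ENNReal.ofReal (Fintype.card ι * A) := by
  refine (NW_sum hq _ a).trans ((Finset.sum_le_sum fun i _ => ha i).trans (le_of_eq ?_))
  rw [Finset.sum_const, nsmul_eq_mul, Finset.card_univ, ENNReal.ofReal_mul (Nat.cast_nonneg _),
    ENNReal.ofReal_natCast]

theorem S1_of_NW (hq : GW q) {a : Z → ℂ} (ha : NW q a ≠ ⊤) : S1 a := by
  refine Summable.of_nonneg_of_le (fun n => norm_nonneg _) (fun n => ?_)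
    (ENNReal.summable_toReal ha)
  rw [ENNReal.toReal_ofReal (mul_nonneg (hq.mw_nonneg n) (norm_nonneg _))]
  exact le_mul_of_one_le_left (norm_nonneg _) (hq.one n)

theorem S1_of_le (hq : GW q) {a : Z → ℂ} {B : ℝ} (ha : NW q a ≤ ENNReal.ofReal B) : S1 a :=
  S1_of_NW hq (ne_top_of_le_ne_top ENNReal.ofReal_ne_top ha)

theorem l1_le_of_NW (hq : GW q) {a : Z → ℂ} {B : ℝ} (hB : 0 ≤ B)
    (ha : NW q a ≤ ENNReal.ofReal B) : l1 a ≤ B := by
  rw [← ENNReal.ofReal_le_ofReal_iff hB, l1,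
    ENNReal.ofReal_tsum_of_nonneg (fun n => norm_nonneg _) (S1_of_le hq ha)]
  refine le_trans (ENNReal.tsum_le_tsum fun n => ENNReal.ofReal_le_ofReal ?_) ha
  exact le_mul_of_one_le_left (norm_nonneg _) (hq.one n)

theorem NW_le_l1 {R : ℝ} (hR : ∀ n, q n ≤ R) (hR0 : 0 ≤ R) {a : Z → ℂ} (ha : S1 a) :
    NW q a ≤ ENNReal.ofReal (R * l1 a) := by
  rw [l1, ← tsum_mul_left,
    ENNReal.ofReal_tsum_of_nonneg (fun n => by positivity) (Summable.mul_left R ha)]
  exact NW_mono hR a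

theorem NW_integral (hq : GW q) (t : ℝ) (ht : 0 ≤ t) (F : ℝ → Z → ℂ)
    (hF : ∀ n, ContinuousOn (fun s => F s n) (Icc 0 t)) :
    NW q (fun n => ∫ s in (0 : ℝ)..t, F s n) ≤ ∫⁻ s in Icc 0 t, NW q (F s) := by
  unfold NW
  rw [lintegral_tsum]
  · refine ENNReal.tsum_le_tsum fun n => ?_
    simp_rw [ENNReal.ofReal_mul (hq.mw_nonneg n)]
    rw [lintegral_const_mul' _ _ ENNReal.ofReal_ne_top]
    refine mul_le_mul_right ?_ _
    rw [intervalIntegral.integral_of_le ht, ← integral_Icc_eq_integral_Ioc]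
    simp only [ofReal_norm]
    exact enorm_integral_le_lintegral_enorm _
  · intro n
    have h1 : ContinuousOn (fun s => q n * ‖F s n‖) (Icc 0 t) :=
      continuousOn_const.mul (hF n).norm
    exact (h1.aemeasurable measurableSet_Icc).ennreal_ofReal

theorem NW_le_of_trunc (hq : GW q) {a : Z → ℂ} {X : ENNReal}
    (h : ∀ R : ℝ, 1 ≤ R → NW (fun n => min (q n) R) a ≤ X) : NW q a ≤ X := by
  rw [NW, ENNReal.tsum_eq_iSup_sum]
  refine iSup_le fun s => ?_
  have h0 : 0 ≤ ∑ n ∈ s, q n := Finset.sum_nonneg fun n _ => hq.mw_nonneg n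
  refine le_trans ?_ (h (1 + ∑ n ∈ s, q n) (by linarith))
  refine le_trans (le_of_eq (Finset.sum_congr rfl fun n hn => ?_)) (ENNReal.sum_le_tsum s)
  have h1 := Finset.single_le_sum (fun n _ => hq.mw_nonneg n) hn
  beta_reduce
  rw [min_eq_left (by linarith)]

theorem L1C.cont_NW (hq : GW q) {R : ℝ} (hR : ∀ n, q n ≤ R) {T : ℝ} {z : ℝ → Z → ℂ}
    (hz : L1C T z) : ContinuousOn (fun s => (NW q (z s)).toReal) (Icc 0 T) := by
  have hR0 : 0 ≤ R := (hq.mw_nonneg 0).trans (hR 0)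
  have hl : ∀ a : Z → ℂ, 0 ≤ R * l1 a := fun a =>
    mul_nonneg hR0 (tsum_nonneg fun n => norm_nonneg _)
  have key : ∀ a b : Z → ℂ, S1 a → S1 b →
      (NW q a).toReal ≤ (NW q b).toReal + R * l1 (a - b) := by
    intro a b ha hb
    have hs : S1 (a - b) := Summable.of_nonneg_of_le (fun n => norm_nonneg _)
      (fun n => norm_sub_le _ _) (Summable.add ha hb)
    have hb' : NW q b ≠ ⊤ := ne_top_of_le_ne_top ENNReal.ofReal_ne_top (NW_le_l1 hR hR0 hb)
    have h1 := NW_add hq b (a - b)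
    rw [add_sub_cancel] at h1
    have h2 := ENNReal.toReal_mono (ENNReal.add_ne_top.2 ⟨hb', ENNReal.ofReal_ne_top⟩)
      (h1.trans (add_le_add le_rfl (NW_le_l1 hR hR0 hs)))
    rwa [ENNReal.toReal_add hb' ENNReal.ofReal_ne_top, ENNReal.toReal_ofReal (hl _)] at h2
  intro t ht
  refine tendsto_iff_norm_sub_tendsto_zero.2 (squeeze_zero' (Eventually.of_forall fun s =>
    norm_nonneg _) ?_ (by simpa using (hz.cont t ht).const_mul R))
  filter_upwards [self_mem_nhdsWithin] with s hs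
  have h1 := key _ _ (hz.sum s hs) (hz.sum t ht)
  have h2 := key _ _ (hz.sum t ht) (hz.sum s hs)
  have e : l1 (z t - z s) = l1 (z s - z t) := tsum_congr fun n => norm_sub_rev _ _
  rw [e] at h2
  rw [Real.norm_eq_abs, abs_le]
  constructor <;> linarith

end Vale.Agent.P139
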