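import Vale.Agent.P139.MG1
import Vale.Agent.P139.MW

/-! Gaussian series charge every ball of a weighted Wiener space.
Hints: a n = (1 + nsq n)^(-α/2) > 0. Choose a finite set B with ∑ over the complement of
ofReal (q n ‖cs n‖) ≤ δ/3 and of ofReal (q n a n) * m1 ≤ δ/6, m1 = first moment
(ENNReal.tendsto_tsum_compl_atTop_zero). S1 = ⋂ n ∈ B, g n ⁻¹' closedBall (cs n / a n) (r n) with
q n a n r n = δ / (3 (card B + 1)); P S1 = ∏ > 0 (iIndepFun.measure_inter_preimage_eq_mul or meas_biInter,
Measure.map_apply). Tl x = ∑' n, if n ∈ B then 0 else ofReal (q n a n) * ofReal ‖g n x‖ is measurable,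
∫⁻ over S1 of Tl ≤ P S1 * δ/6: lintegral_tsum and, for n ∉ B, independence of the indicator of S1 and g n
(iIndepFun.indepFun_finset B {n}, IndepFun.comp, lintegral_mul_eq_lintegral_mul_lintegral_of_indepFun).
Markov (mul_meas_ge_le_lintegral for P.restrict S1) gives P (S1 ∩ {δ/3 ≤ Tl}) ≤ P S1 / 2, so
S = S1 ∩ {Tl < δ/3} has positive measure. On S split the sum over B and its complement. -/

open Complex MeasureTheory Filter Topology Set
open scoped ComplexConjugate ContDiff

namespace Vale.Agent.P139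

theorem MG2.map_restrict {ι Ω : Type} [MeasurableSpace Ω] {P : Measure Ω} {g : ι → Ω → ℂ}
    (hm : ∀ n, Measurable (g n)) (hi : ProbabilityTheory.iIndepFun g P) (B : Finset ι)
    {A : ι → Set ℂ} (hA : ∀ i, MeasurableSet (A i)) {n : ι} (hn : n ∉ B) :
    (P.restrict (⋂ i ∈ B, g i ⁻¹' A i)).map (g n) = P (⋂ i ∈ B, g i ⁻¹' A i) • P.map (g n) := by
  classical
  ext T hT
  rw [Measure.map_apply (hm n) hT, Measure.restrict_apply (hm n hT), Measure.smul_apply,
    Measure.map_apply (hm n) hT, smul_eq_mul]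
  have h1 := hi.measure_inter_preimage_eq_mul (insert n B) (sets := Function.update A n T)
    (fun i _ => by
      by_cases h : i = n
      · rw [h, Function.update_self]
        exact hT
      · rw [Function.update_of_ne h]
        exact hA i)
  have h2 := hi.measure_inter_preimage_eq_mul B (sets := A) (fun i _ => hA i)
  have e : ∀ i ∈ B, Function.update A n T i = A i := fun i hi' =>
    Function.update_of_ne (fun h : i = n => hn (h ▸ hi')) _ _
  rw [Finset.set_biInter_insert, Finset.prod_insert hn, Function.update_self,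
    iInter₂_congr fun i hi' => congrArg (fun U => g i ⁻¹' U) (e i hi'),
    Finset.prod_congr rfl fun i hi' => congrArg (fun U => P (g i ⁻¹' U)) (e i hi'), ← h2] at h1
  rw [h1, mul_comm]

theorem gauss_ball {q a : Z → ℝ} (hq : ∀ n, 0 < q n) (ha : ∀ n, 0 < a n)
    (hs : Summable fun n => q n * a n) {v : NNReal} (hv : 0 < v) {Ω : Type} [MeasurableSpace Ω]
    (P : Measure Ω) [IsProbabilityMeasure P] (g : Z → Ω → ℂ) (hm : ∀ n, Measurable (g n))
    (hi : ProbabilityTheory.iIndepFun g P) (hg : ∀ n, P.map (g n) = cgauss v) {cs : Z → ℂ}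
    (hc : NW q cs ≠ ⊤) {δ : ℝ} (hδ : 0 < δ) :
    ∃ S : Set Ω, MeasurableSet S ∧ 0 < P S ∧ ∀ x ∈ S,
      NW q ((fun n => g n x * (a n : ℂ)) - cs) ≤ ENNReal.ofReal δ := by
  classical
  have hd : 0 < ENNReal.ofReal (δ / 3) := ENNReal.ofReal_pos.2 (by positivity)
  have hm1 := cgauss_moment v
  set m1 := ∫⁻ z, ENNReal.ofReal ‖z‖ ∂(cgauss v) with hm1d
  have h2 : ∑' n, ENNReal.ofReal (q n * a n) * m1 ≠ ⊤ := by
    rw [ENNReal.tsum_mul_right]
    exact ENNReal.mul_ne_top hs.tsum_ofReal_ne_top hm1
  have t1 := (ENNReal.tendsto_tsum_compl_atTop_zero hc).eventually (gt_mem_nhds hd)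
  have t2 := (ENNReal.tendsto_tsum_compl_atTop_zero h2).eventually (gt_mem_nhds hd)
  obtain ⟨B, b1, b2⟩ := (t1.and t2).exists
  have hη : 0 < δ / 3 / (B.card + 1) := by positivity
  set A : Z → Set ℂ := fun n =>
    Metric.closedBall (cs n / a n) (δ / 3 / (B.card + 1) / (q n * a n)) with hA
  have hAm : ∀ n, MeasurableSet (A n) := fun n => Metric.isClosed_closedBall.measurableSet
  set S1 : Set Ω := ⋂ i ∈ B, g i ⁻¹' A i with hS1
  have S1m : MeasurableSet S1 := Finset.measurableSet_biInter B fun i _ => hm i (hAm i)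
  have S1p : P S1 ≠ 0 := by
    rw [hS1, hi.measure_inter_preimage_eq_mul B (sets := A) (fun i _ => hAm i)]
    refine Finset.prod_ne_zero_iff.2 fun i _ => ?_
    rw [← Measure.map_apply (hm i) (hAm i), hg i]
    exact (cgauss_ball hv _ (div_pos hη (mul_pos (hq i) (ha i)))).ne'
  set Tl : Ω → ENNReal := fun x => ∑' n : {n // n ∉ B},
    ENNReal.ofReal (q n * a n) * ENNReal.ofReal ‖g n x‖ with hTl
  have nm : Measurable fun z : ℂ => ENNReal.ofReal ‖z‖ := measurable_norm.ennreal_ofReal
  have tm : ∀ n : Z, Measurable fun x => ENNReal.ofReal (q n * a n) * ENNReal.ofReal ‖g n x‖ :=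
    fun n => (nm.comp (hm n)).const_mul _
  have Tm : Measurable Tl := Measurable.ennreal_tsum fun n => tm n
  have hint : ∫⁻ x in S1, Tl x ∂P
      = P S1 * ∑' n : {n // n ∉ B}, ENNReal.ofReal (q n * a n) * m1 := by
    simp only [hTl]
    rw [lintegral_tsum fun n : {n // n ∉ B} => (tm n).aemeasurable, ← ENNReal.tsum_mul_left]
    refine tsum_congr fun n => ?_
    rw [lintegral_const_mul _ (f := fun x => ENNReal.ofReal ‖g n x‖) (nm.comp (hm n)),
      ← lintegral_map nm (hm n), hS1, MG2.map_restrict hm hi B hAm n.2, lintegral_smul_measure,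
      hg n, smul_eq_mul, ← hm1d, mul_left_comm]
  have Um : MeasurableSet {x | Tl x < ENNReal.ofReal (δ / 3)} :=
    measurableSet_lt Tm measurable_const
  refine ⟨{x | Tl x < ENNReal.ofReal (δ / 3)} ∩ S1, Um.inter S1m, ?_, fun x hx => ?_⟩
  · refine pos_iff_ne_zero.2 fun h0 => ?_
    have mk := mul_meas_ge_le_lintegral (μ := P.restrict S1) Tm (ENNReal.ofReal (δ / 3))
    have e : {x | ENNReal.ofReal (δ / 3) ≤ Tl x} = {x | Tl x < ENNReal.ofReal (δ / 3)}ᶜ := by
      ext x
      simp
    have e2 := measure_add_measure_compl (μ := P.restrict S1) Um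
    rw [Measure.restrict_apply Um, h0, zero_add, Measure.restrict_apply_univ] at e2
    rw [e, e2, hint, mul_comm] at mk
    exact absurd mk (not_le.2 (ENNReal.mul_lt_mul_right S1p (measure_ne_top P S1) b2))
  · unfold NW
    rw [← ENNReal.sum_add_tsum_compl B]
    have e3 : ENNReal.ofReal δ
        = ENNReal.ofReal (δ / 3) + (ENNReal.ofReal (δ / 3) + ENNReal.ofReal (δ / 3)) := by
      rw [← ENNReal.ofReal_add (by positivity) (by positivity),
        ← ENNReal.ofReal_add (by positivity) (by positivity)]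
      congr 1
      ring
    rw [e3]
    refine add_le_add ?_ ?_
    · have hb : ∀ n ∈ B, ENNReal.ofReal (q n * ‖((fun n => g n x * (a n : ℂ)) - cs) n‖)
          ≤ ENNReal.ofReal (δ / 3 / (B.card + 1)) := by
        intro n hn
        refine ENNReal.ofReal_le_ofReal ?_
        have h1 : g n x ∈ A n := mem_iInter₂.1 hx.2 n hn
        have h3 : ‖g n x - cs n / a n‖ ≤ δ / 3 / (B.card + 1) / (q n * a n) := by
          rw [← dist_eq_norm]
          exact h1
        have an : (a n : ℂ) ≠ 0 := ofReal_ne_zero.2 (ha n).ne'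
        have e : ((fun n => g n x * (a n : ℂ)) - cs) n = (g n x - cs n / a n) * a n := by
          simp only [Pi.sub_apply]
          field_simp
        rw [e, norm_mul, norm_real, Real.norm_eq_abs, abs_of_pos (ha n)]
        rw [le_div_iff₀ (mul_pos (hq n) (ha n))] at h3
        linarith
      refine (Finset.sum_le_card_nsmul _ _ _ hb).trans ?_
      rw [nsmul_eq_mul, ← ENNReal.ofReal_natCast, ← ENNReal.ofReal_mul (Nat.cast_nonneg _)]
      refine ENNReal.ofReal_le_ofReal ?_
      rw [← mul_div_assoc, div_le_iff₀ (by positivity)]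
      nlinarith
    · have hb : ∀ n : Z, ENNReal.ofReal (q n * ‖((fun n => g n x * (a n : ℂ)) - cs) n‖)
          ≤ ENNReal.ofReal (q n * a n) * ENNReal.ofReal ‖g n x‖ + ENNReal.ofReal (q n * ‖cs n‖) := by
        intro n
        have q0 := (hq n).le
        have a0 := (ha n).le
        rw [← ENNReal.ofReal_mul (by positivity),
          ← ENNReal.ofReal_add (by positivity) (by positivity)]
        refine ENNReal.ofReal_le_ofReal ?_
        have h1 : ‖((fun n => g n x * (a n : ℂ)) - cs) n‖ ≤ ‖g n x‖ * a n + ‖cs n‖ := by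
          refine (norm_sub_le _ _).trans (le_of_eq ?_)
          rw [norm_mul, norm_real, Real.norm_eq_abs, abs_of_nonneg a0]
        nlinarith [mul_le_mul_of_nonneg_left h1 q0]
      refine (ENNReal.tsum_le_tsum fun n : ↥((B : Set Z)ᶜ) => hb n).trans ?_
      rw [ENNReal.tsum_add]
      exact add_le_add (le_of_lt hx.1) b1.le

end Vale.Agent.P139
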