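import Vale.Agent.P139.MDefs

/-! One dimensional identities for the profile.
Hints: ode0 for s > 0 is h.ode with (‖w‖^(2m) : ℝ) = (w conj w)^m (Complex.mul_conj, normSq_eq_norm_sq,
pow_mul); both sides are continuous, extend to s = 0 (closure of Ioi 0, or ContinuousWithinAt /
tendsto_nhds_unique along 𝓝[>] 0). ode1: on s > 0 the two sides of ode0 agree near s, take HasDerivAt of
both (conj ∘ w has derivative conj (deriv w s): HasDerivAt.star); the derivative of (w conj w)^m w is
V1 w' + V2 conj w' (write m = k + 1; ring). ode2: deriv Lam = (sg+1) w' + s w'',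
deriv deriv Lam = (sg+2) w'' + s w'''; the claim is (sg + 1) * ode0 + s * ode1 together with
V1 * (sg w) + V2 * conj (sg w) = (sg + 1) (w conj w)^m w, since (m+1) sg + m conj sg = sg + 2 m a = sg + 1
(use linear_combination). -/

open Complex MeasureTheory Filter Topology Set
open scoped ComplexConjugate ContDiff

namespace Vale.Agent.P139

variable {m : ℕ} {om : ℝ} {w : ℝ → ℂ}

theorem MP2_ext {F G : ℝ → ℂ} (hF : Continuous F) (hG : Continuous G)
    (h : ∀ s : ℝ, 0 < s → F s = G s) (s : ℝ) (hs : 0 ≤ s) : F s = G s := by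
  have h1 : closure (Ioi (0 : ℝ)) ⊆ {s | F s = G s} :=
    closure_minimal (fun s hs => h s hs) (isClosed_eq hF hG)
  rw [closure_Ioi] at h1
  exact h1 hs

theorem MP2_sd {w : ℝ → ℂ} (h : ContDiff ℝ ∞ w) : ContDiff ℝ ∞ (deriv w) :=
  (contDiff_infty_iff_deriv.1 h).2

theorem MP2_hd {w : ℝ → ℂ} (h : ContDiff ℝ ∞ w) (s : ℝ) : HasDerivAt w (deriv w s) s :=
  ((contDiff_infty_iff_deriv.1 h).1 s).hasDerivAt

theorem MP2_re (s : ℝ) : HasDerivAt (fun s : ℝ => (s : ℂ)) 1 s := by
  simpa using (hasDerivAt_id s).ofReal_comp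

theorem MP2_norm (u : ℂ) (m : ℕ) : ((‖u‖ ^ (2 * m) : ℝ) : ℂ) = (u * conj u) ^ m := by
  rw [Complex.mul_conj, Complex.normSq_eq_norm_sq, pow_mul]
  push_cast
  rfl

theorem Prof.smooth_deriv (h : Prof m om w) : ContDiff ℝ ∞ (deriv w) := MP2_sd h.smooth

theorem Prof.smooth_Lam (h : Prof m om w) : ContDiff ℝ ∞ (Lam m om w) := by
  unfold Lam
  exact (contDiff_const.mul h.smooth).add (Complex.ofRealCLM.contDiff.mul h.smooth_deriv)

theorem Prof.ode0 (h : Prof m om w) (s : ℝ) (hs : 0 ≤ s) :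
    (s : ℂ) * deriv (deriv w) s + (6 + I * s) * deriv w s + I * sg m om * w s
      = (w s * conj (w s)) ^ m * w s := by
  have c0 := h.smooth.continuous
  have c1 := h.smooth_deriv.continuous
  have c2 := (MP2_sd h.smooth_deriv).continuous
  refine MP2_ext (F := fun s : ℝ => (s : ℂ) * deriv (deriv w) s + (6 + I * s) * deriv w s
    + I * sg m om * w s) (G := fun s => (w s * conj (w s)) ^ m * w s) (by fun_prop)
    (by fun_prop) (fun s hs => ?_) s hs
  rw [← MP2_norm]
  exact h.ode s hs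

theorem Prof.ode1 (h : Prof m om w) (s : ℝ) (hs : 0 ≤ s) :
    (s : ℂ) * deriv (deriv (deriv w)) s + (7 + I * s) * deriv (deriv w) s
      + I * (sg m om + 1) * deriv w s = V1 m w s * deriv w s + V2 m w s * conj (deriv w s) := by
  have c0 := h.smooth.continuous
  have c1 := h.smooth_deriv.continuous
  have c2 := (MP2_sd h.smooth_deriv).continuous
  have c3 := (MP2_sd (MP2_sd h.smooth_deriv)).continuous
  refine MP2_ext (F := fun s : ℝ => (s : ℂ) * deriv (deriv (deriv w)) s
    + (7 + I * s) * deriv (deriv w) s + I * (sg m om + 1) * deriv w s)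
    (G := fun s => V1 m w s * deriv w s + V2 m w s * conj (deriv w s)) (by fun_prop)
    (by unfold V1 V2; fun_prop) (fun s hs => ?_) s hs
  have d0 := MP2_hd h.smooth s
  have d1 := MP2_hd h.smooth_deriv s
  have d2 := MP2_hd (MP2_sd h.smooth_deriv) s
  have dc : HasDerivAt (fun s => conj (w s)) (conj (deriv w s)) s := d0.star
  have a1 := (((MP2_re s).fun_mul d2).fun_add
    ((((MP2_re s).const_mul I).const_add 6).fun_mul d1)).fun_add (d0.const_mul (I * sg m om))
  have a2 := ((d0.fun_mul dc).fun_pow m).fun_mul d0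
  have he : (fun s : ℝ => (w s * conj (w s)) ^ m * w s) =ᶠ[𝓝 s] fun s : ℝ =>
      (s : ℂ) * deriv (deriv w) s + (6 + I * s) * deriv w s + I * sg m om * w s :=
    eventually_of_mem (Ioi_mem_nhds hs) fun t ht => (h.ode0 t (le_of_lt ht)).symm
  have a3 := (a1.congr_of_eventuallyEq he).unique a2
  obtain ⟨k, rfl⟩ : ∃ k, m = k + 1 := ⟨m - 1, by have := h.m_pos; omega⟩
  simp only [V1, V2, Nat.add_sub_cancel] at a3 ⊢
  push_cast at a3 ⊢
  linear_combination a3

theorem Prof.V_phase (h : Prof m om w) (s : ℝ) :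
    V1 m w s * (I * w s) + V2 m w s * conj (I * w s) = I * ((w s * conj (w s)) ^ m * w s) := by
  obtain ⟨k, rfl⟩ : ∃ k, m = k + 1 := ⟨m - 1, by have := h.m_pos; omega⟩
  simp only [V1, V2, Nat.add_sub_cancel, map_mul, Complex.conj_I]
  push_cast
  ring

theorem Prof.ode2 (h : Prof m om w) (s : ℝ) (hs : 0 ≤ s) :
    (s : ℂ) * deriv (deriv (Lam m om w)) s + (6 + I * s) * deriv (Lam m om w) s
      + I * (sg m om + 1) * Lam m om w s
      = V1 m w s * Lam m om w s + V2 m w s * conj (Lam m om w s) := by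
  have e1 : deriv (Lam m om w) = fun s : ℝ =>
      (sg m om + 1) * deriv w s + (s : ℂ) * deriv (deriv w) s := by
    funext t
    have a := ((MP2_hd h.smooth t).const_mul (sg m om)).fun_add
      ((MP2_re t).fun_mul (MP2_hd h.smooth_deriv t))
    refine a.deriv.trans ?_
    ring
  have e2 : deriv (deriv (Lam m om w)) s =
      (sg m om + 2) * deriv (deriv w) s + (s : ℂ) * deriv (deriv (deriv w)) s := by
    rw [e1]
    have a := ((MP2_hd h.smooth_deriv s).const_mul (sg m om + 1)).fun_add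
      ((MP2_re s).fun_mul (MP2_hd (MP2_sd h.smooth_deriv) s))
    refine a.deriv.trans ?_
    ring
  have o0 := h.ode0 s hs
  have o1 := h.ode1 s hs
  have e3 : Lam m om w s = sg m om * w s + s * deriv w s := rfl
  have e4 : conj (sg m om) = (aa m : ℂ) + I * om := by
    simp [sg]
  have e5 : (2 * (m : ℂ)) * (aa m : ℂ) = 1 := by
    have : (m : ℂ) ≠ 0 := by have := h.m_pos; exact_mod_cast (by omega : m ≠ 0)
    unfold aa
    push_cast
    field_simp
  have e6 : sg m om = (aa m : ℂ) - I * om := rfl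
  rw [e2, e1, e3]
  simp only [map_add, map_mul, Complex.conj_ofReal, e4]
  obtain ⟨k, rfl⟩ : ∃ k, m = k + 1 := ⟨m - 1, by have := h.m_pos; omega⟩
  simp only [V1, V2, Nat.add_sub_cancel] at o1 ⊢
  push_cast at o1 e5 ⊢
  rw [e6] at o0 o1 ⊢
  linear_combination ((aa (k + 1) : ℂ) - I * om + 1) * o0 + (s : ℂ) * o1
    - (w s * conj (w s)) ^ (k + 1) * w s * e5

theorem mode1_eq (β : Co) : mode1 m om w β = fun y => ∑ i, co β i * em m om w i y := by
  funext y
  simp only [mode1, Fintype.sum_option, co, em, add_assoc]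

theorem mode2_eq (β : Co) : mode2 m om w β = fun y => ∑ i, co β i * conj (em m om w i y) := by
  funext y
  simp only [mode2, Fintype.sum_option, co, em, add_assoc]

theorem norm_co_le (β : Co) (i : Ix) : ‖co β i‖ ≤ ‖β‖ := by
  rcases i with _ | _ | j
  · exact norm_fst_le β
  · exact (norm_fst_le β.2).trans (norm_snd_le β)
  · exact (norm_le_pi_norm β.2.2 j).trans ((norm_snd_le β.2).trans (norm_snd_le β))

theorem card_Ix : Fintype.card Ix = 14 := by simp [Ix]

theorem lam_mem (i : Ix) : 0 ≤ lam i ∧ lam i ≤ 1 := by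
  rcases i with _ | _ | j <;> simp only [lam] <;> norm_num

end Vale.Agent.P139
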