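import Vale.Agent.P139.MP1
import Vale.Agent.P139.MP2
import Vale.Agent.P139.MFar

/-! The profile and the modes solve their equations on E; symbol bounds; behaviour under dilation.
Hints: pde0, pde_em from lap_rad, Lg_rad, lap_coord, Lg_coord, lap_const_mul, Lg_const_mul and
ode0, ode1, ode2, V_phase (rcases i with _ | _ | j; simp only [em, lam, rad]; linear_combination).
symA_em: em none = I * rad w, em (some none) = Lg sg (rad w), em (some (some j)) = dj j (rad w).
symA_G0: ((m+1) : ℂ) * G0 = rad V1 * rad w. P1_eq, P2_eq: dil_rad, Complex.cpow_neg_one.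
U_nl: with z = ρ^(-sg): z * conj z = ρ^(-2a) (conj_dil, dil_mul, or conj of cpow), (z conj z)^m = ρ⁻¹
(2 m a = 1), Complex.cpow_add, cpow_nat_mul. em_lin: P1_eq, P2_eq, conj_dil, dil_mul, dil_add;
conj (sg + lam) = a + I om + lam. -/

open Complex MeasureTheory Filter Topology Set
open scoped ComplexConjugate ContDiff

namespace Vale.Agent.P139

variable {m : ℕ} {om : ℝ} {w : ℝ → ℂ} {ρ : ℝ}

theorem Prof.pde0 (h : Prof m om w) (y : E) :
    lap (rad w) y + I * Lg (sg m om) (rad w) y = G0 m w y := by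
  rw [lap_rad h.smooth, Lg_rad (h.smooth.differentiable (by simp))]
  simp only [G0, rad]
  linear_combination h.ode0 (‖y‖ ^ 2 / 4) (by positivity)

theorem Prof.pde_em (h : Prof m om w) (i : Ix) (y : E) :
    lap (em m om w i) y + I * Lg (sg m om + lam i) (em m om w i) y
      = rad (V1 m w) y * em m om w i y + rad (V2 m w) y * conj (em m om w i y) := by
  have hs : (0 : ℝ) ≤ ‖y‖ ^ 2 / 4 := by positivity
  rcases i with _ | _ | j
  · simp only [em, lam]
    rw [lap_const_mul (contDiff_rad h.smooth),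
      Lg_const_mul ((contDiff_rad h.smooth).differentiable (by simp)), ofReal_zero, add_zero]
    have h1 := h.pde0 y
    have h2 := h.V_phase (‖y‖ ^ 2 / 4)
    simp only [G0, rad] at h1 h2 ⊢
    linear_combination I * h1 - h2
  · simp only [em, lam]
    rw [lap_rad h.smooth_Lam, Lg_rad (h.smooth_Lam.differentiable (by simp)), ofReal_one]
    simp only [rad]
    linear_combination h.ode2 _ hs
  · simp only [em, lam]
    rw [lap_coord h.smooth_deriv, Lg_coord (h.smooth_deriv.differentiable (by simp)), map_mul,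
      conj_ofReal, show ((1 / 2 : ℝ) : ℂ) = 1 / 2 by push_cast; rfl]
    simp only [rad]
    linear_combination ((y j / 2 : ℝ) : ℂ) * h.ode1 _ hs

theorem Prof.Lg_w (h : Prof m om w) : Lg (sg m om) (rad w) = em m om w (some none) :=
  funext fun y => Lg_rad (h.smooth.differentiable (by simp)) _ y

theorem Prof.dj_w (h : Prof m om w) (j : Fin 12) : dj j (rad w) = em m om w (some (some j)) :=
  dj_rad (h.smooth.differentiable (by simp)) j

theorem Prof.symA_w (h : Prof m om w) : SymA (2 * aa m) (rad w) := h.sym_w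

theorem Prof.symA_em (h : Prof m om w) (i : Ix) : SymA (2 * aa m) (em m om w i) := by
  rcases i with _ | _ | j
  · exact h.symA_w.smul I
  · exact h.Lg_w ▸ h.symA_w.lg _
  · exact h.dj_w j ▸ (h.symA_w.dj j).mono (by linarith)

theorem Prof.symA_V1 (h : Prof m om w) : SymA 2 (rad (V1 m w)) := h.sym_V1
theorem Prof.symA_V2 (h : Prof m om w) : SymA 2 (rad (V2 m w)) := h.sym_V2

theorem Prof.symA_G0 (h : Prof m om w) : SymA (2 * aa m) (G0 m w) := by
  have e : G0 m w = fun y => ((m : ℂ) + 1)⁻¹ * (rad (V1 m w) y * rad w y) := funext fun y => by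
    have : (m : ℂ) + 1 ≠ 0 := Nat.cast_add_one_ne_zero m
    simp only [G0, rad, V1]
    field_simp
  rw [e]
  exact ((h.symA_V1.mul h.symA_w).mono (by linarith)).smul _

theorem Prof.symA_lin (h : Prof m om w) (i : Ix) : SymA (2 * aa m)
    fun y => rad (V1 m w) y * em m om w i y + rad (V2 m w) y * conj (em m om w i y) :=
  ((h.symA_V1.mul (h.symA_em i)).add (h.symA_V2.mul (h.symA_em i).conj)).mono (by linarith)

theorem P1_eq (hρ : 0 < ρ) : P1 m w ρ = dil ρ 1 (rad (V1 m w)) :=
  funext fun y => by rw [dil_rad hρ, Complex.cpow_neg_one, P1]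

theorem P2_eq (hρ : 0 < ρ) : P2 m om w ρ = dil ρ (1 - 2 * I * om) (rad (V2 m w)) :=
  funext fun y => by rw [dil_rad hρ, P2, neg_sub', sub_neg_eq_add]

theorem MP3_pow (ρ : ℝ) (κ : ℂ) (f : E → ℂ) (n : ℕ) (y : E) :
    dil ρ κ f y ^ n = dil ρ (n * κ) (fun y => f y ^ n) y := by
  simp only [dil]
  rw [mul_pow, ← Complex.cpow_nat_mul, mul_neg]

theorem MP3_conj (m : ℕ) (om l : ℝ) : conj (sg m om + l) = aa m + I * om + l := by
  simp [sg]

theorem Prof.U_nl (h : Prof m om w) (hρ : 0 < ρ) (y : E) :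
    (dil ρ (sg m om) (rad w) y * conj (dil ρ (sg m om) (rad w) y)) ^ m * dil ρ (sg m om) (rad w) y
        = dil ρ (sg m om + 1) (G0 m w) y ∧
      ((m : ℂ) + 1) * (dil ρ (sg m om) (rad w) y * conj (dil ρ (sg m om) (rad w) y)) ^ m
        = P1 m w ρ y ∧
      (m : ℂ) * (dil ρ (sg m om) (rad w) y * conj (dil ρ (sg m om) (rad w) y)) ^ (m - 1)
        * dil ρ (sg m om) (rad w) y ^ 2 = P2 m om w ρ y := by
  have hm : (m : ℂ) ≠ 0 := Nat.cast_ne_zero.2 (Nat.one_le_iff_ne_zero.1 h.m_pos)
  have ha : (m : ℂ) * (2 * aa m) = 1 := by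
    rw [aa]
    push_cast
    field_simp
  have hc : sg m om + conj (sg m om) = 2 * aa m := by
    have := MP3_conj m om 0
    rw [ofReal_zero, add_zero] at this
    rw [this, sg]
    ring
  rw [conj_dil hρ, dil_mul hρ, hc, MP3_pow, MP3_pow, MP3_pow, ha, P1_eq hρ, P2_eq hρ, dil_mul hρ,
    mul_assoc, dil_mul hρ, ← dil_smul, ← dil_smul, add_comm 1,
    show ((m - 1 : ℕ) : ℂ) * (2 * aa m) + (2 : ℕ) * sg m om = 1 - 2 * I * om by
      rw [Nat.cast_sub h.m_pos, sg]
      push_cast
      linear_combination ha]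
  refine ⟨rfl, rfl, congrArg (fun f => dil ρ _ f y) (funext fun x => ?_)⟩
  simp only [rad, V2, mul_assoc]

theorem em_lin (hρ : 0 < ρ) (i : Ix) (y : E) :
    P1 m w ρ y * dil ρ (sg m om + lam i) (em m om w i) y
      + P2 m om w ρ y * conj (dil ρ (sg m om + lam i) (em m om w i) y)
      = dil ρ (sg m om + lam i + 1) (fun y => rad (V1 m w) y * em m om w i y
          + rad (V2 m w) y * conj (em m om w i y)) y := by
  rw [P1_eq hρ, P2_eq hρ, conj_dil hρ, dil_mul hρ, dil_mul hρ, dil_add, MP3_conj, add_comm 1,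
    show 1 - 2 * I * om + (aa m + I * om + lam i) = sg m om + lam i + 1 by rw [sg]; ring]

end Vale.Agent.P139
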