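import Vale.Agent.P139.MS
import Vale.Agent.P139.MP3

/-! Iteration of the step contradicts global existence. -/

open Complex MeasureTheory Filter Topology Set
open scoped ComplexConjugate ContDiff

namespace Vale.Agent.P139

variable {m : ℕ} {om : ℝ} {w : ℝ → ℂ} {χ : E → ℝ}

theorem MIter_lower (hp : Prof m om w) (hχ : Cut χ) {K : ℕ} {M δ h : ℝ} (hM : 1 ≤ M)
    (hδ0 : 0 ≤ δ) (hh : 0 < h) (hh1 : h ≤ 1) {d : Z → ℂ} (hd : S1 d)
    (hi : NN K M h (d - Kh χ (rad w) h) ≤ ENNReal.ofReal δ) : ‖w 0‖ ≤ l1 d + δ := by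
  have hq := gw_wq K (one_pos.trans_le hM) h
  obtain ⟨C, -, hC⟩ := NN_Kh_dil hχ (mul_pos two_pos hp.aa_pos) hp.symA_w 0 K one_pos
  have hA := hC M h hM hh hh1 1 ⟨le_rfl, one_le_two⟩
  rw [dil_one] at hA
  have sA : S1 (Kh χ (rad w) h) := S1_of_le hq hA
  have e1 := ev_Kh hχ hp.symA_w.contDiff.continuous sA 0 (fun i => by simpa using Real.pi_pos.le)
  rw [hχ.one 0 (by simp), smul_zero] at e1
  have e2 : ev (Kh χ (rad w) h) 0 = w 0 := by rw [e1]; simp [rad]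
  have e3 := ev_sub hd sA 0
  have h1 := norm_ev_le d hd 0
  have h2 := (norm_ev_le _ (hd.sub sA) 0).trans (l1_le_of_NW hq hδ0 hi)
  have e4 : w 0 = ev d 0 - ev (d - Kh χ (rad w) h) 0 := by rw [e3, e2]; ring
  rw [e4]
  exact (norm_sub_le _ _).trans (add_le_add h1 h2)

theorem no_global (hp : Prof m om w) (hχ : Cut χ) {K : ℕ} {M δ h0 : ℝ} (hM : 1 ≤ M) (hδ0 : 0 < δ)
    (hδ : δ ≤ ‖w 0‖ / 2) (hh : 0 < h0) (hh1 : h0 ≤ 1) (hs : StepP m om w χ K M δ h0)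
    {c : ℝ → Z → ℂ} (hc : SolH m 1 c)
    (hi : NN K M h0 (((h0 ^ 2 : ℝ) : ℂ) ^ sg m om • c 0 - Kh χ (rad w) h0) ≤ ENNReal.ofReal δ) :
    False := by
  have ha := hp.aa_pos
  have hh2 : (0 : ℝ) < h0 ^ 2 := by positivity
  set κ : ℝ := (1 / 2 : ℝ) ^ aa m with hκ
  have hκ0 : 0 ≤ κ := by positivity
  have hκ1 : κ < 1 := Real.rpow_lt_one (by norm_num) (by norm_num) ha
  have key : ∀ j : ℕ, ∃ (h t : ℝ) (v : ℝ → Z → ℂ), 0 < h ∧ h ≤ h0 ∧ (h ^ 2) ^ aa m ≤ κ ^ j ∧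
      0 ≤ t ∧ t + 2 * h ^ 2 ≤ 2 ∧ SolH m h v ∧
      NN K M h (v 0 - Kh χ (rad w) h) ≤ ENNReal.ofReal δ ∧
      ∀ s, l1 (v s) = (h ^ 2) ^ aa m * l1 (c (t + h ^ 2 * s)) := by
    intro j
    induction j with
    | zero =>
      have h1 := hc.rescale hp.m_pos om (le_refl 0) hh2 0 0
      rw [one_mul, Real.sqrt_sq hh.le] at h1
      refine ⟨h0, 0, _, hh, le_rfl, ?_, le_rfl, by nlinarith, h1, ?_, fun s => ?_⟩
      · rw [pow_zero]; exact Real.rpow_le_one hh2.le (by nlinarith) ha.le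
      · simpa only [mul_zero, add_zero, mu_zero] using hi
      · rw [l1_smul, l1_mu, norm_cpow_sg hh2]
    | succ j ih =>
      obtain ⟨h, t, v, p1, p2, p3, p4, p5, p6, p7, p8⟩ := ih
      obtain ⟨t1, ρ, θ, x, q1, q2, q3, q4, q5⟩ := hs h v p1 p2 p6 p7
      have hsq : (h * Real.sqrt ρ) ^ 2 = h ^ 2 * ρ := by rw [mul_pow, Real.sq_sqrt q3.le]
      have hs1 : Real.sqrt ρ ≤ 1 := Real.sqrt_le_one.2 (by linarith)
      have hp2 : 0 < h ^ 2 := by positivity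
      have hm : (h ^ 2 * ρ) ^ aa m = (h ^ 2) ^ aa m * ρ ^ aa m := Real.mul_rpow hp2.le q3.le
      refine ⟨h * Real.sqrt ρ, t + h ^ 2 * t1, _, mul_pos p1 (Real.sqrt_pos.2 q3),
        (mul_le_of_le_one_right p1.le hs1).trans p2, ?_, by positivity, ?_,
        p6.rescale hp.m_pos om q1 q3 θ x, ?_, fun s => ?_⟩
      · rw [hsq, hm, pow_succ κ j]
        exact mul_le_mul p3 (Real.rpow_le_rpow q3.le q4 ha.le) (by positivity) (by positivity)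
      · rw [hsq]; nlinarith
      · simpa only [mul_zero, add_zero] using q5
      · rw [l1_smul, l1_mu, norm_cpow_sg q3, p8, hsq, hm]
        have e : t + h ^ 2 * (t1 + ρ * s) = t + h ^ 2 * t1 + h ^ 2 * ρ * s := by ring
        rw [e]; ring
  obtain ⟨B, hB⟩ := (hc 2 (by norm_num)).1.bdd
  have hB0 : 0 ≤ B := (l1_nonneg _).trans (hB 0 ⟨le_rfl, by norm_num⟩)
  obtain ⟨j, hj⟩ := exists_pow_lt_of_lt_one (div_pos hδ0 (by linarith : 0 < B + 1)) hκ1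
  obtain ⟨h, t, v, p1, p2, p3, p4, p5, p6, p7, p8⟩ := key j
  have h1 := MIter_lower hp hχ hM hδ0.le p1 (p2.trans hh1)
    ((p6 0 le_rfl).1.sum 0 ⟨le_rfl, le_rfl⟩) p7
  have h2 := p8 0
  rw [mul_zero, add_zero] at h2
  have h3 := hB t ⟨p4, by nlinarith [sq_nonneg h]⟩
  have h4 : l1 (v 0) ≤ κ ^ j * B := by
    rw [h2]; exact mul_le_mul p3 h3 (l1_nonneg _) (by positivity)
  have h5 : κ ^ j * (B + 1) < δ := (lt_div_iff₀ (by linarith)).1 hj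
  have h6 : 0 ≤ κ ^ j := by positivity
  nlinarith

end Vale.Agent.P139
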