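import Vale.Agent.P139.MKa

/-! Dependence of Kh on the dilation parameter.
Hints: hasDerivAt_dil: HasDerivAt of r ↦ (r : ℂ)^(-κ) (hasDerivAt_ofReal_cpow_const or
exp (-κ log r)), of r ↦ (sqrt r)⁻¹ (derivative -(1/2) ρ⁻¹ (sqrt ρ)⁻¹), chain rule
HasFDerivAt.comp_hasDerivAt; (ρ:ℂ)^(-(κ+1)) = ρ^(-κ) * ρ⁻¹. (r, y) ↦ dil r κ g y is jointly
continuous on Ioi 0 × E. The cube is compact (isCompact_cube), so on [ρ/2, 2ρ] × cube the integrands are
bounded: continuousAt_of_dominated / hasDerivAt_integral_of_dominated_loc_of_deriv_le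
(or reparametrise r = exp u and use continuous_parametric_integral_of_continuous). -/

open Complex MeasureTheory Filter Topology Set
open scoped ComplexConjugate ContDiff

namespace Vale.Agent.P139

variable {ψ : E → ℝ} {g : E → ℂ} {ρ : ℝ}

theorem hasDerivAt_dil (hg : Differentiable ℝ g) (hρ : 0 < ρ) (κ : ℂ) (y : E) :
    HasDerivAt (fun r => dil r κ g y) (-dil ρ (κ + 1) (Lg κ g) y) ρ := by
  have hρ' : (ρ : ℂ) ≠ 0 := ofReal_ne_zero.2 hρ.ne'
  have hs : Real.sqrt ρ ≠ 0 := (Real.sqrt_pos.2 hρ).ne'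
  have h1 : HasDerivAt (fun r : ℝ => (r : ℂ) ^ (-κ)) (-κ * (ρ : ℂ) ^ (-κ - 1) * 1) ρ :=
    ((hasDerivAt_id (ρ : ℂ)).cpow_const (c := -κ) (ofReal_mem_slitPlane.2 hρ)).comp_ofReal
  have h2 : HasDerivAt (fun r : ℝ => (Real.sqrt r)⁻¹ • y)
      ((-(1 / (2 * Real.sqrt ρ)) / Real.sqrt ρ ^ 2) • y) ρ :=
    ((Real.hasDerivAt_sqrt hρ.ne').fun_inv hs).smul_const y
  have h3 := (hg ((Real.sqrt ρ)⁻¹ • y)).hasFDerivAt.comp_hasDerivAt ρ h2
  have h4 := h1.mul h3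
  refine HasDerivAt.congr_deriv h4 ?_
  have e1 : (ρ : ℂ) ^ (-κ - 1) = (ρ : ℂ) ^ (-κ) * (ρ : ℂ)⁻¹ := by
    rw [cpow_sub _ _ hρ', cpow_one, div_eq_mul_inv]
  have e2 : (ρ : ℂ) ^ (-(κ + 1)) = (ρ : ℂ) ^ (-κ) * (ρ : ℂ)⁻¹ := by
    rw [← e1]; congr 1; ring
  have e3 : (-(1 / (2 * Real.sqrt ρ)) / Real.sqrt ρ ^ 2) = -(1 / 2) * ρ⁻¹ * (Real.sqrt ρ)⁻¹ := by
    rw [Real.sq_sqrt hρ.le]; field_simp
  simp only [dil, Lg, Function.comp, e1, e2, e3, map_smul, real_smul]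
  push_cast
  ring

theorem continuousOn_dil (hg : Continuous g) (κ : ℂ) :
    ContinuousOn (fun p : ℝ × E => dil p.1 κ g p.2) (Ioi 0 ×ˢ univ) := by
  have h0 : ContinuousOn (fun p : ℝ × E => (Real.sqrt p.1)⁻¹) (Ioi 0 ×ˢ univ) :=
    ContinuousOn.inv₀ (by fun_prop) fun p hp => (Real.sqrt_pos.2 hp.1).ne'
  have h1 : ContinuousOn (fun p : ℝ × E => (Real.sqrt p.1)⁻¹ • p.2) (Ioi 0 ×ˢ univ) :=
    h0.smul continuousOn_snd
  refine ContinuousOn.mul ?_ (hg.comp_continuousOn h1)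
  · intro p hp
    refine ContinuousAt.continuousWithinAt ?_
    have h : ContinuousAt (fun p : ℝ × E => (p.1 : ℂ)) p := by fun_prop
    exact h.cpow continuousAt_const (ofReal_mem_slitPlane.2 hp.1)

theorem contDiff_Lg (hg : ContDiff ℝ ∞ g) (κ : ℂ) : ContDiff ℝ ∞ (Lg κ g) := by
  have h : ContDiff ℝ ∞ (fderiv ℝ g) := (contDiff_infty_iff_fderiv.1 hg).2
  exact (contDiff_const.mul hg).add (contDiff_const.mul (h.clm_apply contDiff_id))

theorem contDiff_dj {F : Type} [NormedAddCommGroup F] [NormedSpace ℝ F] {f : E → F}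
    (hf : ContDiff ℝ ∞ f) (j : Fin 12) : ContDiff ℝ ∞ (dj j f) := by
  have h : ContDiff ℝ ∞ (fderiv ℝ f) := (contDiff_infty_iff_fderiv.1 hf).2
  exact h.clm_apply contDiff_const

/-- the integrand of the coefficient -/
noncomputable def MKf (ψ : E → ℝ) (g : E → ℂ) (κ : ℂ) (h : ℝ) (n : Z) (r : ℝ) (x : E) : ℂ :=
  (ψ x : ℂ) * dil r κ g (h⁻¹ • x) * Complex.exp (-I * ((∑ i, (n i : ℝ) * x i : ℝ) : ℂ))

theorem MK_joint (hψ : Continuous ψ) (hg : Continuous g) (κ : ℂ) (h : ℝ) (n : Z) :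
    ContinuousOn (fun p : ℝ × E => MKf ψ g κ h n p.1 p.2) (Ioi 0 ×ˢ univ) := by
  refine ContinuousOn.mul (ContinuousOn.mul (by fun_prop) ?_) (by fun_prop)
  exact (continuousOn_dil hg κ).comp (f := fun p : ℝ × E => (p.1, h⁻¹ • p.2)) (by fun_prop)
    fun p hp => ⟨hp.1, mem_univ _⟩

theorem MK_cont (hψ : Continuous ψ) (hg : Continuous g) (κ : ℂ) (h : ℝ) (n : Z) {r : ℝ}
    (hr : 0 < r) : Continuous (MKf ψ g κ h n r) :=
  (MK_joint hψ hg κ h n).comp_continuous (f := fun x : E => (r, x)) (by fun_prop)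
    fun _ => ⟨hr, mem_univ _⟩

theorem cont_Kh_dil (hψ : Continuous ψ) (hg : Continuous g) (κ : ℂ) (h : ℝ) (n : Z) :
    ContinuousOn (fun r => Kh ψ (dil r κ g) h n) (Ioi 0) := by
  have hF := MK_joint hψ hg κ h n
  rw [continuousOn_iff_continuous_restrict]
  haveI : LocallyCompactSpace (Ioi (0 : ℝ)) := isOpen_Ioi.locallyCompactSpace
  refine continuous_const.mul (continuous_parametric_integral_of_continuous
    (f := fun (r : Ioi (0 : ℝ)) (x : E) => MKf ψ g κ h n r x) ?_ isCompact_cube)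
  exact hF.comp_continuous (f := fun p : Ioi (0 : ℝ) × E => ((p.1 : ℝ), p.2)) (by fun_prop)
    fun p => ⟨p.1.2, mem_univ _⟩

theorem cont_Kh_dil' (hψ : Continuous ψ) (hg : Continuous g) (κ : ℂ) (h : ℝ) (n : Z) {T : ℝ}
    (hT : T < 1) : ContinuousOn (fun s => Kh ψ (dil (1 - s) κ g) h n) (Icc 0 T) := by
  refine (cont_Kh_dil hψ hg κ h n).comp (f := fun s : ℝ => 1 - s) (by fun_prop) fun s hs => ?_
  have := hs.2
  rw [mem_Ioi]
  linarith

theorem hasDerivAt_Kh_dil (hψ : Continuous ψ) (hg : ContDiff ℝ ∞ g) (hρ : 0 < ρ) (κ : ℂ) (h : ℝ)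
    (n : Z) : HasDerivAt (fun r => Kh ψ (dil r κ g) h n)
      (-Kh ψ (dil ρ (κ + 1) (Lg κ g)) h n) ρ := by
  have hL := (contDiff_Lg hg κ).continuous
  have hJ := MK_joint hψ hL (κ + 1) h n
  have hK : IsCompact (Icc (ρ / 2) (2 * ρ) ×ˢ {x : E | ∀ i, x i ∈ Icc (-Real.pi) Real.pi}) :=
    isCompact_Icc.prod isCompact_cube
  have hsub : ∀ r ∈ Icc (ρ / 2) (2 * ρ), 0 < r := fun r hr => by linarith [hr.1]
  obtain ⟨B, hB⟩ := hK.exists_bound_of_continuousOn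
    (hJ.mono fun p hp => ⟨hsub _ hp.1, mem_univ _⟩)
  have key := hasDerivAt_integral_of_dominated_loc_of_deriv_le
    (μ := volume.restrict {x : E | ∀ i, x i ∈ Icc (-Real.pi) Real.pi})
    (F := fun r x => MKf ψ g κ h n r x) (F' := fun r x => -MKf ψ (Lg κ g) (κ + 1) h n r x)
    (bound := fun _ => B) (x₀ := ρ) (s := Icc (ρ / 2) (2 * ρ))
    (Icc_mem_nhds (by linarith) (by linarith)) ?_ ?_ ?_ ?_ ?_ ?_
  · have h2 := key.2.const_mul (((2 * Real.pi) ^ 12 : ℝ) : ℂ)⁻¹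
    rw [integral_neg, mul_neg] at h2
    exact h2
  · filter_upwards [Ioi_mem_nhds hρ] with r hr
    exact (MK_cont hψ hg.continuous κ h n hr).aestronglyMeasurable
  · exact (MK_cont hψ hg.continuous κ h n hρ).continuousOn.integrableOn_compact isCompact_cube
  · exact (MK_cont hψ hL (κ + 1) h n hρ).neg.aestronglyMeasurable
  · filter_upwards [ae_restrict_mem isCompact_cube.measurableSet] with x hx r hr
    rw [norm_neg]
    exact hB (r, x) ⟨hr, hx⟩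
  · exact integrableOn_const isCompact_cube.measure_ne_top
  · refine ae_of_all _ fun x r hr => ?_
    have h1 := ((hasDerivAt_dil (hg.differentiable (by simp)) (hsub r hr) κ (h⁻¹ • x)).const_mul
      (ψ x : ℂ)).mul_const (Complex.exp (-I * ((∑ i, (n i : ℝ) * x i : ℝ) : ℂ)))
    refine HasDerivAt.congr_deriv h1 ?_
    simp only [MKf]
    ring

end Vale.Agent.P139
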