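import Vale.Agent.P139.MK

/-! Calculus of radial functions on E.
Hints: y ↦ ‖y‖^2/4 has derivative v ↦ inner y v / 2 (HasFDerivAt of norm_sq: hasStrictFDerivAt_norm_sq,
or contDiff_norm_sq); HasDerivAt.comp_hasFDerivAt. inner y (single j 1) = y j.
lap f y = ∑ j, dj j (dj j f) y by rfl; dj j of y ↦ (y i / 2) is if i = j then 1/2 else 0;
∑ j, (y j)^2 = ‖y‖^2 (EuclideanSpace.norm_sq_eq / real_inner_self_eq_norm_sq); Fintype.card (Fin 12) = 12.
deriv g is smooth: ContDiff.iterate_deriv or contDiff_infty_iff_deriv. -/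

open Complex MeasureTheory Filter Topology Set
open scoped ComplexConjugate ContDiff

namespace Vale.Agent.P139

variable {g : ℝ → ℂ}

theorem MP1_quad (y : E) :
    HasFDerivAt (fun y : E => ‖y‖ ^ 2 / 4) ((1 / 2 : ℝ) • innerSL ℝ y) y := by
  have h := (hasStrictFDerivAt_norm_sq y).hasFDerivAt.mul_const (1 / 4 : ℝ)
  have e : (fun y : E => ‖y‖ ^ 2 / 4) = fun y : E => ‖y‖ ^ 2 * (1 / 4) := by
    funext y
    ring
  rw [e]
  refine h.congr_fderiv ?_
  ext v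
  simp
  ring

theorem MP1_rad (hg : Differentiable ℝ g) (y : E) : HasFDerivAt (rad g)
    (((1 / 2 : ℝ) • innerSL ℝ y).smulRight (deriv g (‖y‖ ^ 2 / 4))) y := by
  have h := (hg (‖y‖ ^ 2 / 4)).hasDerivAt.hasFDerivAt.comp y (MP1_quad y)
  refine h.congr_fderiv ?_
  ext v
  simp [mul_assoc]

theorem MP1_coord (j : Fin 12) (y : E) : HasFDerivAt (fun y : E => ((y j / 2 : ℝ) : ℂ))
    (Complex.ofRealCLM.comp ((1 / 2 : ℝ) • (EuclideanSpace.proj j : E →L[ℝ] ℝ))) y := by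
  have h := (Complex.ofRealCLM.comp ((1 / 2 : ℝ) • (EuclideanSpace.proj j : E →L[ℝ] ℝ))).hasFDerivAt
    (x := y)
  refine h.congr_of_eventuallyEq (Eventually.of_forall fun x => ?_)
  simp
  ring

theorem contDiff_rad (hg : ContDiff ℝ ∞ g) : ContDiff ℝ ∞ (rad g) :=
  hg.comp ((contDiff_norm_sq ℝ).div_const 4)

theorem contDiff_coord (j : Fin 12) : ContDiff ℝ ∞ fun y : E => ((y j / 2 : ℝ) : ℂ) :=
  Complex.ofRealCLM.contDiff.comp
    ((EuclideanSpace.proj j : E →L[ℝ] ℝ).contDiff.div_const 2)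

theorem fderiv_rad (hg : Differentiable ℝ g) (y v : E) :
    fderiv ℝ (rad g) y v = ((inner ℝ y v / 2 : ℝ) : ℂ) * rad (deriv g) y := by
  rw [(MP1_rad hg y).fderiv]
  simp only [rad, ContinuousLinearMap.smulRight_apply, ContinuousLinearMap.smul_apply,
    innerSL_apply_apply, smul_eq_mul, Complex.real_smul]
  push_cast
  ring

theorem dj_rad (hg : Differentiable ℝ g) (j : Fin 12) :
    dj j (rad g) = fun y => ((y j / 2 : ℝ) : ℂ) * rad (deriv g) y := by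
  funext y
  rw [dj, fderiv_rad hg, EuclideanSpace.inner_single_right]
  simp

theorem MP1_prod (hg : Differentiable ℝ g) (j : Fin 12) (y v : E) :
    fderiv ℝ (fun y : E => ((y j / 2 : ℝ) : ℂ) * rad g y) y v =
      ((v j / 2 : ℝ) : ℂ) * rad g y +
        ((y j / 2 : ℝ) : ℂ) * (((inner ℝ y v / 2 : ℝ) : ℂ) * rad (deriv g) y) := by
  have h := (MP1_coord j y).fun_mul (MP1_rad hg y)
  rw [h.fderiv]
  simp [rad]
  ring

theorem Lg_rad (hg : Differentiable ℝ g) (κ : ℂ) (y : E) :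
    Lg κ (rad g) y = κ * g (‖y‖ ^ 2 / 4) + ((‖y‖ ^ 2 / 4 : ℝ) : ℂ) * deriv g (‖y‖ ^ 2 / 4) := by
  rw [Lg, fderiv_rad hg, real_inner_self_eq_norm_sq]
  simp only [rad]
  push_cast
  ring

theorem MP1_sum (y : E) : ∑ j, ((y j : ℝ) : ℂ) ^ 2 = ((‖y‖ : ℝ) : ℂ) ^ 2 := by
  have h := EuclideanSpace.real_norm_sq_eq y
  rw [← Complex.ofReal_pow, h]
  push_cast
  rfl

theorem MP1_deriv (hg : ContDiff ℝ ∞ g) : ContDiff ℝ ∞ (deriv g) :=
  (contDiff_infty_iff_deriv.1 hg).2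

theorem MP1_lap (f : E → ℂ) (y : E) : lap f y = ∑ j, dj j (dj j f) y := rfl

theorem MP1_dd (hg : ContDiff ℝ ∞ g) (j : Fin 12) (y : E) :
    dj j (dj j (rad g)) y = 1 / 2 * deriv g (‖y‖ ^ 2 / 4) +
      ((y j : ℝ) : ℂ) ^ 2 / 4 * deriv (deriv g) (‖y‖ ^ 2 / 4) := by
  rw [dj_rad (hg.differentiable (by simp)), dj,
    MP1_prod ((MP1_deriv hg).differentiable (by simp)), EuclideanSpace.inner_single_right]
  simp [rad]
  ring

theorem lap_rad (hg : ContDiff ℝ ∞ g) (y : E) :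
    lap (rad g) y = ((‖y‖ ^ 2 / 4 : ℝ) : ℂ) * deriv (deriv g) (‖y‖ ^ 2 / 4)
      + 6 * deriv g (‖y‖ ^ 2 / 4) := by
  rw [MP1_lap]
  simp only [MP1_dd hg]
  rw [Finset.sum_add_distrib, ← Finset.sum_mul, ← Finset.sum_mul, ← Finset.sum_div,
    ← Finset.sum_div, MP1_sum]
  simp
  ring

theorem Lg_coord (hg : Differentiable ℝ g) (κ : ℂ) (j : Fin 12) (y : E) :
    Lg κ (fun y => ((y j / 2 : ℝ) : ℂ) * rad g y) y = ((y j / 2 : ℝ) : ℂ) *
      ((κ + 1 / 2) * g (‖y‖ ^ 2 / 4) + ((‖y‖ ^ 2 / 4 : ℝ) : ℂ) * deriv g (‖y‖ ^ 2 / 4)) := by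
  rw [Lg, MP1_prod hg, real_inner_self_eq_norm_sq]
  simp only [rad]
  push_cast
  ring

theorem MP1_dd_coord (hg : ContDiff ℝ ∞ g) (j i : Fin 12) (y : E) :
    dj i (dj i fun y : E => ((y j / 2 : ℝ) : ℂ) * rad g y) y =
      (if j = i then ((y j / 2 : ℝ) : ℂ) * deriv g (‖y‖ ^ 2 / 4) else 0) +
        ((y j / 2 : ℝ) : ℂ) * dj i (dj i (rad g)) y := by
  have hd : Differentiable ℝ g := hg.differentiable (by simp)
  have hr : Differentiable ℝ (dj i (rad g)) := by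
    rw [dj_rad hd]
    exact ((contDiff_coord i).mul (contDiff_rad (MP1_deriv hg))).differentiable (by simp)
  have e : (dj i fun y : E => ((y j / 2 : ℝ) : ℂ) * rad g y) = fun y =>
      (if j = i then (1 / 2 : ℂ) else 0) * rad g y + ((y j / 2 : ℝ) : ℂ) * dj i (rad g) y := by
    funext y
    rw [dj, MP1_prod hd, dj, fderiv_rad hd]
    by_cases h : j = i <;> simp [h]
  have h1 := ((MP1_rad hd y).const_mul (if j = i then (1 / 2 : ℂ) else 0)).fun_add
    ((MP1_coord j y).fun_mul (hr y).hasFDerivAt)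
  rw [e, dj, h1.fderiv]
  have e2 : dj i (rad g) y = ((y i / 2 : ℝ) : ℂ) * deriv g (‖y‖ ^ 2 / 4) := by
    rw [dj_rad hd]
    rfl
  have e3 : (fderiv ℝ (dj i (rad g)) y) (EuclideanSpace.single i 1) = dj i (dj i (rad g)) y := rfl
  simp only [ContinuousLinearMap.add_apply, ContinuousLinearMap.smul_apply, e3, e2,
    ContinuousLinearMap.smulRight_apply, innerSL_apply_apply, EuclideanSpace.inner_single_right]
  by_cases h : j = i
  · subst h
    simp
    ring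
  · simp [h]

theorem lap_coord (hg : ContDiff ℝ ∞ g) (j : Fin 12) (y : E) :
    lap (fun y => ((y j / 2 : ℝ) : ℂ) * rad g y) y = ((y j / 2 : ℝ) : ℂ) *
      (((‖y‖ ^ 2 / 4 : ℝ) : ℂ) * deriv (deriv g) (‖y‖ ^ 2 / 4) + 7 * deriv g (‖y‖ ^ 2 / 4)) := by
  rw [MP1_lap]
  simp only [MP1_dd_coord hg]
  rw [Finset.sum_add_distrib, ← Finset.mul_sum, ← MP1_lap, lap_rad hg, Finset.sum_ite_eq]
  simp only [Finset.mem_univ, if_true]
  ring

theorem Lg_const_mul {f : E → ℂ} (hf : Differentiable ℝ f) (c κ : ℂ) (y : E) :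
    Lg κ (fun y => c * f y) y = c * Lg κ f y := by
  rw [Lg, Lg, ((hf y).hasFDerivAt.const_mul c).fderiv]
  simp
  ring

theorem lap_const_mul {f : E → ℂ} (hf : ContDiff ℝ ∞ f) (c : ℂ) (y : E) :
    lap (fun y => c * f y) y = c * lap f y := by
  rw [MP1_lap, MP1_lap, Finset.mul_sum]
  refine Finset.sum_congr rfl fun j _ => ?_
  have hd : Differentiable ℝ f := hf.differentiable (by simp)
  have e : (dj j fun y => c * f y) = fun y => c * dj j f y := by
    funext y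
    rw [dj, ((hd y).hasFDerivAt.const_mul c).fderiv]
    rfl
  have h2 : Differentiable ℝ (dj j f) :=
    (((contDiff_infty_iff_fderiv.1 hf).2.clm_apply contDiff_const).differentiable (by simp) :)
  rw [e, dj, ((h2 y).hasFDerivAt.const_mul c).fderiv]
  rfl

end Vale.Agent.P139
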