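import Vale.Agent.P139.MFar

/-! Taylor expansion in the dilation parameter. -/

open Complex MeasureTheory Filter Topology Set
open scoped ComplexConjugate ContDiff

namespace Vale.Agent.P139

variable {γ : ℝ} {g : E → ℂ} {χ : E → ℝ}

theorem mr1_abs {u τ : ℝ} (hu : u ∈ Icc (0 : ℝ) 1) : |u * τ| ≤ |τ| := by
  rw [abs_mul, abs_of_nonneg hu.1]
  exact mul_le_of_le_one_left (abs_nonneg _) hu.2

theorem mr1_mem {u τ : ℝ} (hu : u ∈ Icc (0 : ℝ) 1) (hτ : |τ| ≤ 1 / 2) :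
    1 - u * τ ∈ Icc (1 / 2 : ℝ) 2 := by
  have h1 := abs_le.1 ((mr1_abs hu).trans hτ)
  exact ⟨by linarith [h1.2], by linarith [h1.1]⟩

theorem mr1_cont (hχ : Cut χ) (hg : ContDiff ℝ ∞ g) (κ : ℂ) (h : ℝ) {τ : ℝ} (hτ : |τ| ≤ 1 / 2)
    (n : Z) : ContinuousOn (fun u : ℝ => Kh χ (dil (1 - u * τ) κ g) h n) (Icc 0 1) :=
  (cont_Kh_dil hχ.smooth.continuous hg.continuous κ h n).comp (f := fun u : ℝ => 1 - u * τ)
    (by fun_prop) fun _ hu => lt_of_lt_of_le (by norm_num) (mr1_mem hu hτ).1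

theorem mr1_ftc (hχ : Cut χ) (hg : ContDiff ℝ ∞ g) (κ : ℂ) (h : ℝ) {τ : ℝ} (hτ : |τ| ≤ 1 / 2)
    (n : Z) : ∫ u in (0 : ℝ)..1, (τ : ℂ) * Kh χ (dil (1 - u * τ) (κ + 1) (Lg κ g)) h n =
      Kh χ (dil (1 - τ) κ g) h n - Kh χ g h n := by
  rw [intervalIntegral.integral_eq_sub_of_hasDerivAt
    (f := fun u : ℝ => Kh χ (dil (1 - u * τ) κ g) h n)]
  · simp only [one_mul, zero_mul, sub_zero, dil_one]
  · intro u hu
    rw [uIcc_of_le zero_le_one] at hu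
    have h1 := (hasDerivAt_Kh_dil hχ.smooth.continuous hg
      (lt_of_lt_of_le (by norm_num) (mr1_mem hu hτ).1) κ h n).scomp u
      (h := fun u : ℝ => 1 - u * τ) ((hasDerivAt_mul_const τ).const_sub 1)
    rw [neg_smul_neg, real_smul] at h1
    exact h1
  · exact (continuousOn_const.mul (mr1_cont hχ (contDiff_Lg hg κ) (κ + 1) h hτ n)
      ).intervalIntegrable_of_Icc zero_le_one

theorem mr1_int (K : ℕ) {M : ℝ} (hM : 0 < M) (h : ℝ) (τ : ℝ) (F : ℝ → Z → ℂ)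
    (hF : ∀ n, ContinuousOn (fun s => F s n) (Icc 0 1)) {B : ℝ}
    (hB : ∀ s ∈ Icc (0 : ℝ) 1, NN K M h (F s) ≤ ENNReal.ofReal B) :
    NN K M h (fun n => ∫ s in (0 : ℝ)..1, (τ : ℂ) * F s n) ≤ ENNReal.ofReal (|τ| * B) := by
  refine (NN_integral K hM h 1 zero_le_one (fun s => (τ : ℂ) • F s)
    fun n => continuousOn_const.mul (hF n)).trans ?_
  refine (setLIntegral_mono measurable_const (g := fun _ => ENNReal.ofReal (|τ| * B))
    fun s hs => ?_).trans (by simp)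
  rw [NN_smul K hM, norm_real, Real.norm_eq_abs, ENNReal.ofReal_mul (abs_nonneg _)]
  exact mul_le_mul_right (hB s hs) _

theorem dil_lip (hχ : Cut χ) (hγ : 0 < γ) (hg : SymA γ g) (κ : ℂ) (K : ℕ) : ∃ C : ℝ, 0 ≤ C ∧
    ∀ M h τ : ℝ, 1 ≤ M → 0 < h → h ≤ 1 → |τ| ≤ 1 / 2 →
      NN K M h (Kh χ (dil (1 - τ) κ g) h - Kh χ g h) ≤ ENNReal.ofReal (C * |τ|) := by
  obtain ⟨C, hC, H⟩ := NN_Kh_dil hχ hγ (hg.lg κ) (κ + 1) K (ρ0 := 1 / 2) (by norm_num)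
  refine ⟨C, hC, fun M h τ hM h0 h1 hτ => ?_⟩
  have h2 := mr1_int K (zero_lt_one.trans_le hM) h τ _
    (mr1_cont hχ (contDiff_Lg hg.contDiff κ) (κ + 1) h hτ)
    fun s hs => H M h hM h0 h1 _ (mr1_mem hs hτ)
  simp only [mr1_ftc hχ hg.contDiff κ h hτ] at h2
  rw [mul_comm]
  exact h2

theorem dil_taylor (hχ : Cut χ) (hγ : 0 < γ) (hg : SymA γ g) (κ : ℂ) (K : ℕ) : ∃ C : ℝ, 0 ≤ C ∧
    ∀ M h τ : ℝ, 1 ≤ M → 0 < h → h ≤ 1 → |τ| ≤ 1 / 2 →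
      NN K M h (Kh χ (dil (1 - τ) κ g) h - Kh χ g h - (τ : ℂ) • Kh χ (Lg κ g) h)
        ≤ ENNReal.ofReal (C * τ ^ 2) := by
  obtain ⟨C, hC, H⟩ := dil_lip hχ hγ (hg.lg κ) (κ + 1) K
  refine ⟨C, hC, fun M h τ hM h0 h1 hτ => ?_⟩
  have hc := mr1_cont hχ (contDiff_Lg hg.contDiff κ) (κ + 1) h hτ
  have h2 := mr1_int K (zero_lt_one.trans_le hM) h τ
    (fun s => Kh χ (dil (1 - s * τ) (κ + 1) (Lg κ g)) h - Kh χ (Lg κ g) h)
    (fun n => (hc n).sub continuousOn_const) (B := C * |τ|)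
    fun s hs => (H M h _ hM h0 h1 ((mr1_abs hs).trans hτ)).trans
      (ENNReal.ofReal_le_ofReal (mul_le_mul_of_nonneg_left (mr1_abs hs) hC))
  have h3 : (fun n => ∫ s in (0 : ℝ)..1, (τ : ℂ) *
      (Kh χ (dil (1 - s * τ) (κ + 1) (Lg κ g)) h - Kh χ (Lg κ g) h) n) =
      Kh χ (dil (1 - τ) κ g) h - Kh χ g h - (τ : ℂ) • Kh χ (Lg κ g) h := by
    funext n
    simp only [Pi.sub_apply, mul_sub, Pi.smul_apply, smul_eq_mul]
    rw [intervalIntegral.integral_sub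
      ((continuousOn_const.fun_mul (hc n)).intervalIntegrable_of_Icc zero_le_one)
      intervalIntegrable_const, mr1_ftc hχ hg.contDiff κ h hτ]
    simp
  rw [h3, mul_left_comm, ← sq, sq_abs] at h2
  exact h2

end Vale.Agent.P139
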