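import Vale.Agent.P139.MLap

/-! Taylor expansion of phase rotations and translations.
Hints: φ n = θ + ∑ n i * (h • x) i satisfies |φ n| ≤ 13 r (1 + ‖h • zE n‖) (|h * n i| ≤ ‖h • zE n‖ by
PiLp.norm_apply_le); wt K M ξ * (1 + ‖ξ‖)^j ≤ wt (K + j) 1 ξ as 1 ≤ M. ‖exp (I φ) - 1 - I φ‖ ≤ 2 φ^2
(Complex.norm_exp_sub_one_sub_id_le for |φ| ≤ 1, else norm_exp_I_mul_ofReal_sub_one_le).
ENNReal.tsum_mul_left, ofReal_mul. phs_Kh: coef_fderiv for G x = χ x * g (h⁻¹ • x), dj_trunc, coef_add,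
coef_smul, Kh_smul. -/

open Complex MeasureTheory Filter Topology Set
open scoped ComplexConjugate ContDiff

namespace Vale.Agent.P139

theorem MR2_phase {h r θ : ℝ} {x : E} (hθ : |θ| ≤ r) (hx : ∀ j, |x j| ≤ r) (n : Z) :
    |θ + ∑ i, (n i : ℝ) * (h • x) i| ≤ 13 * r * (1 + ‖h • zE n‖) := by
  have hr : 0 ≤ r := (abs_nonneg _).trans hθ
  have h1 : ∀ i, |(n i : ℝ) * (h • x) i| ≤ ‖h • zE n‖ * r := by
    intro i
    have h2 : |h * (n i : ℝ)| ≤ ‖h • zE n‖ := PiLp.norm_apply_le (h • zE n) i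
    have e : (n i : ℝ) * (h • x) i = h * (n i : ℝ) * x i := by
      change (n i : ℝ) * (h * x i) = _
      ring
    rw [e, abs_mul]
    exact mul_le_mul h2 (hx i) (abs_nonneg _) (norm_nonneg _)
  have h3 : |∑ i, (n i : ℝ) * (h • x) i| ≤ 12 * (‖h • zE n‖ * r) := by
    refine (Finset.abs_sum_le_sum_abs _ _).trans ?_
    refine (Finset.sum_le_sum fun i _ => h1 i).trans (le_of_eq ?_)
    simp
  have h4 := abs_add_le θ (∑ i, (n i : ℝ) * (h • x) i)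
  have h5 := mul_nonneg (norm_nonneg (h • zE n)) hr
  nlinarith

theorem MR2_wt (K j : ℕ) {M : ℝ} (hM : 1 ≤ M) (ξ : E) :
    wt K M ξ * (1 + ‖ξ‖) ^ j ≤ wt (K + j) 1 ξ := by
  unfold wt
  rw [pow_add, div_one]
  refine mul_le_mul_of_nonneg_right (pow_le_pow_left₀ (by positivity) ?_ K) (by positivity)
  exact add_le_add_right (div_le_self (norm_nonneg _) hM) 1

theorem MR2_NN (K j : ℕ) {M h C : ℝ} (hM : 1 ≤ M) (hC : 0 ≤ C) {a c : Z → ℂ}
    (H : ∀ n, ‖a n‖ ≤ C * (1 + ‖h • zE n‖) ^ j * ‖c n‖) :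
    NN K M h a ≤ ENNReal.ofReal C * NN (K + j) 1 h c := by
  unfold NN
  rw [← ENNReal.tsum_mul_left]
  refine ENNReal.tsum_le_tsum fun n => ?_
  rw [← ENNReal.ofReal_mul hC]
  refine ENNReal.ofReal_le_ofReal ?_
  have h0 : 0 ≤ wt K M (h • zE n) := by
    unfold wt
    positivity
  calc wt K M (h • zE n) * ‖a n‖ ≤ wt K M (h • zE n) * (C * (1 + ‖h • zE n‖) ^ j * ‖c n‖) :=
        mul_le_mul_of_nonneg_left (H n) h0
    _ = C * (wt K M (h • zE n) * (1 + ‖h • zE n‖) ^ j * ‖c n‖) := by ring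
    _ ≤ _ := mul_le_mul_of_nonneg_left
        (mul_le_mul_of_nonneg_right (MR2_wt K j hM _) (norm_nonneg _)) hC

theorem MR2_exp (φ : ℝ) : ‖Complex.exp (I * φ) - 1 - I * φ‖ ≤ 2 * φ ^ 2 := by
  have e : ‖I * (φ : ℂ)‖ = |φ| := by simp
  rcases le_total |φ| 1 with h | h
  · have h1 := Complex.norm_exp_sub_one_sub_id_le (x := I * φ) (by rwa [e])
    rw [e, sq_abs] at h1
    nlinarith [sq_nonneg φ]
  · have h1 : ‖Complex.exp (I * φ) - 1‖ ≤ ‖φ‖ := Real.norm_exp_I_mul_ofReal_sub_one_le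
    have h2 := norm_sub_le (Complex.exp (I * φ) - 1) (I * φ)
    rw [e] at h2
    rw [Real.norm_eq_abs] at h1
    rw [← sq_abs]
    nlinarith

theorem phs_le (K : ℕ) {M h r θ : ℝ} (hM : 1 ≤ M) (hh : 0 ≤ h) {x : E} (hθ : |θ| ≤ r)
    (hx : ∀ j, |x j| ≤ r) (c : Z → ℂ) :
    NN K M h (phs θ (h • x) c) ≤ ENNReal.ofReal (13 * r) * NN (K + 1) 1 h c := by
  have hr : 0 ≤ r := (abs_nonneg _).trans hθ
  refine MR2_NN K 1 hM (by positivity) fun n => ?_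
  unfold phs
  rw [norm_mul, norm_mul, Complex.norm_I, one_mul, Complex.norm_real, Real.norm_eq_abs, pow_one]
  exact mul_le_mul_of_nonneg_right (MR2_phase hθ hx n) (norm_nonneg _)

theorem mu_taylor (K : ℕ) {M h r θ : ℝ} (hM : 1 ≤ M) (hh : 0 ≤ h) {x : E} (hθ : |θ| ≤ r)
    (hx : ∀ j, |x j| ≤ r) (c : Z → ℂ) :
    NN K M h (mu θ (h • x) c - c - phs θ (h • x) c)
      ≤ ENNReal.ofReal (400 * r ^ 2) * NN (K + 2) 1 h c := by
  refine MR2_NN K 2 hM (by positivity) fun n => ?_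
  have h1 := MR2_phase (h := h) hθ hx n
  have e : (mu θ (h • x) c - c - phs θ (h • x) c) n =
      (Complex.exp (I * ((θ + ∑ i, (n i : ℝ) * (h • x) i : ℝ) : ℂ)) - 1 -
        I * ((θ + ∑ i, (n i : ℝ) * (h • x) i : ℝ) : ℂ)) * c n := by
    simp only [Pi.sub_apply, mu, phs]
    ring
  rw [e, norm_mul]
  refine mul_le_mul_of_nonneg_right ((MR2_exp _).trans ?_) (norm_nonneg _)
  have h2 := pow_le_pow_left₀ (abs_nonneg _) h1 2
  rw [sq_abs] at h2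
  have h3 : 0 ≤ r ^ 2 * (1 + ‖h • zE n‖) ^ 2 := by positivity
  nlinarith

theorem phs_sub (θ : ℝ) (x : E) (a b : Z → ℂ) : phs θ x (a - b) = phs θ x a - phs θ x b := by
  funext n
  simp only [Pi.sub_apply, phs]
  ring

theorem MR2_dj {χ : E → ℝ} {g : E → ℂ} (hχ : Cut χ) (hg : ContDiff ℝ ∞ g) {h : ℝ} (hh : 0 < h)
    (j : Fin 12) (n : Z) : (h : ℂ) * (I * (n j : ℂ) * Kh χ g h n) =
      Kh χ (dj j g) h n + (h : ℂ) * Kh (dj j χ) g h n := by
  have h1 : ContDiff ℝ ∞ fun x : E => (χ x : ℂ) * g (h⁻¹ • x) :=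
    (Complex.ofRealCLM.contDiff.comp hχ.smooth).mul (hg.comp (contDiff_const_smul h⁻¹))
  have h2 := coef_fderiv (fun x : E => (χ x : ℂ) * g (h⁻¹ • x)) (h1.of_le (by norm_num))
    (fun x hx => by rw [hχ.zero x (by linarith), Complex.ofReal_zero, zero_mul]) j n
  have h3 := congrFun (coef_smul (h : ℂ) (dj j fun x : E => (χ x : ℂ) * g (h⁻¹ • x))) n
  have h4 := continuous_trunc hχ.smooth.continuous (contDiff_dj hg j).continuous h
  have h5 := continuous_trunc (contDiff_dj hχ.smooth j).continuous hg.continuous h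
  have h7 : Continuous fun x : E => (h : ℂ) * ((dj j χ x : ℝ) * g (h⁻¹ • x)) :=
    continuous_const.mul h5
  have h6 := congrFun (coef_add h4 h7) n
  rw [coef_smul] at h6
  rw [funext (dj_trunc hχ.smooth hg hh j), h6] at h3
  refine Eq.trans ?_ h3.symm
  exact congrArg (fun z => (h : ℂ) * z) h2.symm

theorem phs_Kh {χ : E → ℝ} {g : E → ℂ} (hχ : Cut χ) (hg : ContDiff ℝ ∞ g) {h : ℝ} (hh : 0 < h)
    (θ : ℝ) (x : E) : phs θ (h • x) (Kh χ g h) = (θ : ℂ) • Kh χ (fun y => I * g y) h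
      + ∑ j, (x j : ℂ) • Kh χ (dj j g) h + ∑ j, ((x j * h : ℝ) : ℂ) • Kh (dj j χ) g h := by
  funext n
  rw [Kh_smul]
  simp only [phs, Pi.add_apply, Pi.smul_apply, Finset.sum_apply, smul_eq_mul]
  rw [add_assoc, ← Finset.sum_add_distrib]
  have e : ∀ j, (x j : ℂ) * Kh χ (dj j g) h n + ((x j * h : ℝ) : ℂ) * Kh (dj j χ) g h n =
      I * (((n j : ℝ) * (h • x) j : ℝ) : ℂ) * Kh χ g h n := by
    intro j
    have h1 := MR2_dj hχ hg hh j n
    change _ = I * (((n j : ℝ) * (h * x j) : ℝ) : ℂ) * Kh χ g h n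
    push_cast
    linear_combination (-(x j : ℂ)) * h1
  rw [Finset.sum_congr rfl fun j _ => e j, Complex.ofReal_add, Complex.ofReal_sum,
    ← Finset.sum_mul, ← Finset.mul_sum]
  ring

end Vale.Agent.P139
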