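import Vale.Agent.P139.MR1
import Vale.Agent.P139.MR2
import Vale.Agent.P139.MP3

/-! Recentring: a symmetry mode is absorbed by a change of the parameters.
Hints: θ = b none, τ = b (some none), x = toLp 2 (fun j => b (some (some j))), ρ = 1 - τ,
U = Kh χ (dil ρ sg W) h, A = Kh χ W h. With Fintype.sum_option, Lg_w, dj_w, phs_Kh:
mu θ (h•x) U - A - ∑ b i • Kh χ (em i) h = (mu U - U - phs U) + phs (U - A) + (U - A - τ • Kh χ (Lg sg W) h)
+ ∑ (x j h) • Kh (dj j χ) W h; bound by mu_taylor + NN_Kh_dil (K+2, M = 1), phs_le + dil_lip (K+1, M = 1),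
dil_taylor, far_dil at ρ = 1 (dil_one, h^(2a) ≤ 1). Then apply mu (-θ) (-(h•x)) (mu_neg_mu, mu_sub, NW_mu),
multiply by ρ^sg (norm ρ^a ≤ 2, Kh_dil, cpow_mul_neg) and change the scale by NN_scale with
L = 1 + r0, sqrt ρ ≤ 1 + r0, (1 + r0)^K ≤ 2 for r0 small (continuity of r ↦ (1+r)^K at 0), r0 ≤ 1/2. -/

open Complex MeasureTheory Filter Topology Set
open scoped ComplexConjugate ContDiff

namespace Vale.Agent.P139

variable {m : ℕ} {om : ℝ} {w : ℝ → ℂ} {χ : E → ℝ}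

theorem recentre_approx (hp : Prof m om w) (hχ : Cut χ) (K : ℕ) : ∃ C : ℝ, 0 ≤ C ∧
    ∀ (M h r : ℝ) (b : Ix → ℝ), 1 ≤ M → 0 < h → h ≤ 1 → 0 ≤ r → r ≤ 1 / 2 → (∀ i, |b i| ≤ r) →
      NN K M h (mu (b none) (h • WithLp.toLp 2 fun j => b (some (some j)))
          (Kh χ (dil (1 - b (some none)) (sg m om) (rad w)) h)
        - Kh χ (rad w) h - ∑ i, (b i : ℂ) • Kh χ (em m om w i) h)
        ≤ ENNReal.ofReal (C * (r ^ 2 + h * r)) := by
  have hγ : 0 < 2 * aa m := mul_pos two_pos hp.aa_pos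
  obtain ⟨C1, hC1, h1⟩ := NN_Kh_dil hχ hγ hp.symA_w (sg m om) (K + 2)
    (by norm_num : (0 : ℝ) < 1 / 2)
  obtain ⟨C2, hC2, h2⟩ := dil_lip hχ hγ hp.symA_w (sg m om) (K + 1)
  obtain ⟨C3, hC3, h3⟩ := dil_taylor hχ hγ hp.symA_w (sg m om) K
  have h4 := fun j : Fin 12 => far_dil (hχ.ann_dj j) hγ.le hp.symA_w 0 K one_pos
  choose C4 hC4 h4 using h4
  have hS : 0 ≤ ∑ j, C4 j := Finset.sum_nonneg fun j _ => hC4 j
  refine ⟨400 * C1 + 13 * C2 + C3 + 12 * ∑ j, C4 j, by positivity, ?_⟩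
  intro M h r b hM hh hh1 hr hr2 hb
  have hM0 : 0 < M := by linarith
  have hq := gw_wq K hM0 h
  set θ := b none with hθ
  set τ := b (some none) with hτ
  set x : E := WithLp.toLp 2 fun j => b (some (some j)) with hx
  have hxj : ∀ j, x j = b (some (some j)) := fun j => rfl
  set U := Kh χ (dil (1 - τ) (sg m om) (rad w)) h with hU
  set A := Kh χ (rad w) h with hA
  have hτr : |τ| ≤ r := hb _
  have hθr : |θ| ≤ r := hb _
  have hxr : ∀ j, |x j| ≤ r := fun j => hb _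
  have hτ2 : |τ| ≤ 1 / 2 := hτr.trans hr2
  have hid : mu θ (h • x) U - A - ∑ i, (b i : ℂ) • Kh χ (em m om w i) h
      = (mu θ (h • x) U - U - phs θ (h • x) U) + phs θ (h • x) (U - A)
        + (U - A - (τ : ℂ) • Kh χ (Lg (sg m om) (rad w)) h)
        + ∑ j, ((x j * h : ℝ) : ℂ) • Kh (dj j χ) (rad w) h := by
    have e1 := phs_Kh hχ hp.symA_w.contDiff hh θ x
    rw [phs_sub, Fintype.sum_option, Fintype.sum_option, e1, hp.Lg_w]
    have e2 : ∑ j, (x j : ℂ) • Kh χ (dj j (rad w)) h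
        = ∑ j, (b (some (some j)) : ℂ) • Kh χ (em m om w (some (some j))) h :=
      Finset.sum_congr rfl fun j _ => by rw [hp.dj_w, hxj]
    have e3 : em m om w none = fun y => I * rad w y := rfl
    rw [e2, e3]
    abel
  rw [hid, NN_eq]
  have b1 : NW (wq K M h) (mu θ (h • x) U - U - phs θ (h • x) U)
      ≤ ENNReal.ofReal (400 * r ^ 2 * C1) := by
    have t1 := mu_taylor K hM hh.le hθr hxr U
    have t2 := h1 1 h le_rfl hh hh1 (1 - τ)
      ⟨by linarith [(abs_le.mp hτ2).2], by linarith [(abs_le.mp hτ2).1]⟩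
    rw [ENNReal.ofReal_mul (by positivity)]
    exact t1.trans (mul_le_mul_right t2 _)
  have b2 : NW (wq K M h) (phs θ (h • x) (U - A)) ≤ ENNReal.ofReal (13 * r * (C2 * r)) := by
    have t1 := phs_le K hM hh.le hθr hxr (U - A)
    have t2 := h2 1 h τ le_rfl hh hh1 hτ2
    have t3 : ENNReal.ofReal (C2 * |τ|) ≤ ENNReal.ofReal (C2 * r) :=
      ENNReal.ofReal_le_ofReal (mul_le_mul_of_nonneg_left hτr hC2)
    rw [ENNReal.ofReal_mul (by positivity)]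
    exact t1.trans (mul_le_mul_right (t2.trans t3) _)
  have b3 : NW (wq K M h) (U - A - (τ : ℂ) • Kh χ (Lg (sg m om) (rad w)) h)
      ≤ ENNReal.ofReal (C3 * r ^ 2) := by
    have t1 := h3 M h τ hM hh hh1 hτ2
    have t2 : τ ^ 2 ≤ r ^ 2 := by
      rw [← sq_abs τ]; exact pow_le_pow_left₀ (abs_nonneg _) hτr 2
    exact t1.trans (ENNReal.ofReal_le_ofReal (mul_le_mul_of_nonneg_left t2 hC3))
  have b4 : NW (wq K M h) (∑ j, ((x j * h : ℝ) : ℂ) • Kh (dj j χ) (rad w) h)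
      ≤ ENNReal.ofReal (Fintype.card (Fin 12) * (r * h * ∑ j, C4 j)) := by
    refine NW_sum_le hq (by positivity) fun j => NW_smul_le ?_ ?_
    · rw [Complex.norm_real, Real.norm_eq_abs, abs_mul, abs_of_pos hh]
      exact mul_le_mul_of_nonneg_right (hxr j) hh.le
    · have t1 := h4 j M h hM hh hh1 1 ⟨le_rfl, one_le_two⟩
      rw [dil_one] at t1
      refine t1.trans (ENNReal.ofReal_le_ofReal ?_)
      have t2 : h ^ (2 * aa m) ≤ 1 := Real.rpow_le_one hh.le hh1 hγ.le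
      have t3 : C4 j ≤ ∑ j, C4 j :=
        Finset.single_le_sum (fun j _ => hC4 j) (Finset.mem_univ j)
      calc C4 j * h ^ (2 * aa m) ≤ C4 j * 1 := mul_le_mul_of_nonneg_left t2 (hC4 j)
        _ ≤ _ := by rw [mul_one]; exact t3
  have b5 := NW_add_le hq (by positivity) (by positivity)
    (NW_add_le hq (by positivity) (by positivity)
      (NW_add_le hq (by positivity) (by positivity) b1 b2) b3) b4
  refine b5.trans (ENNReal.ofReal_le_ofReal ?_)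
  rw [Fintype.card_fin]
  push_cast
  have p1 : 0 ≤ h * r := by positivity
  have p2 : 0 ≤ r ^ 2 := by positivity
  nlinarith [mul_nonneg hC1 p1, mul_nonneg hC2 p1, mul_nonneg hC3 p1, mul_nonneg hS p2]

theorem recentre (hp : Prof m om w) (hχ : Cut χ) (K : ℕ) : ∃ C r0 : ℝ, 0 ≤ C ∧ 0 < r0 ∧
    ∀ (M h r D : ℝ) (b : Ix → ℝ) (d : Z → ℂ), 1 ≤ M → 0 < h → h ≤ 1 → 0 ≤ r → r ≤ r0 → 0 ≤ D →
      (∀ i, |b i| ≤ r) →
      NN K M h (d - Kh χ (rad w) h - ∑ i, (b i : ℂ) • Kh χ (em m om w i) h) ≤ ENNReal.ofReal D →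
      ∃ (ρ θ : ℝ) (x : E), 1 / 2 ≤ ρ ∧ ρ ≤ 2 ∧
        NN K M (h * Real.sqrt ρ) ((ρ : ℂ) ^ sg m om • mu θ x d - Kh χ (rad w) (h * Real.sqrt ρ))
          ≤ ENNReal.ofReal (4 * (D + C * (r ^ 2 + h * r))) := by
  obtain ⟨C, hC, hA⟩ := recentre_approx hp hχ K
  obtain ⟨r0, hr0, hr02, hK⟩ : ∃ r0 : ℝ, 0 < r0 ∧ r0 ≤ 1 / 2 ∧ (1 + r0) ^ K ≤ 2 := by
    have hc : ContinuousAt (fun r : ℝ => (1 + r) ^ K) 0 := by fun_prop
    have he : ∀ᶠ r in 𝓝 (0 : ℝ), (1 + r) ^ K < 2 :=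
      hc.eventually (gt_mem_nhds (by simp))
    have he2 : ∀ᶠ r in 𝓝 (0 : ℝ), r < 1 / 2 := gt_mem_nhds (by norm_num)
    obtain ⟨r, hr⟩ := (((he.and he2).filter_mono nhdsWithin_le_nhds).and
      (self_mem_nhdsWithin : Ioi (0 : ℝ) ∈ 𝓝[>] 0)).exists
    exact ⟨r, hr.2, hr.1.2.le, hr.1.1.le⟩
  refine ⟨C, r0, hC, hr0, ?_⟩
  intro M h r D b d hM hh hh1 hr hrr hD hb hd
  have hM0 : 0 < M := by linarith
  have hq := gw_wq K hM0 h
  have hr2 : r ≤ 1 / 2 := hrr.trans hr02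
  have h1 := hA M h r b hM hh hh1 hr hr2 hb
  set θ := b none with hθ
  set τ := b (some none) with hτ
  set x : E := h • WithLp.toLp 2 fun j => b (some (some j)) with hx
  set U := Kh χ (dil (1 - τ) (sg m om) (rad w)) h with hU
  have hτr := abs_le.mp (hb (some none))
  have hρ0 : 0 < 1 - τ := by linarith [hτr.2]
  have hCr : 0 ≤ C * (r ^ 2 + h * r) := by positivity
  refine ⟨1 - τ, -θ, -x, by linarith [hτr.2], by linarith [hτr.1], ?_⟩
  have h2 : NW (wq K M h) (d - mu θ x U) ≤ ENNReal.ofReal (D + C * (r ^ 2 + h * r)) := by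
    have t := NW_sub_le hq hD hCr hd h1
    have e : d - Kh χ (rad w) h - ∑ i, (b i : ℂ) • Kh χ (em m om w i) h
        - (mu θ x U - Kh χ (rad w) h - ∑ i, (b i : ℂ) • Kh χ (em m om w i) h)
        = d - mu θ x U := by abel
    rwa [e] at t
  have h3 : NW (wq K M h) (mu (-θ) (-x) d - U) ≤ ENNReal.ofReal (D + C * (r ^ 2 + h * r)) := by
    have e : mu (-θ) (-x) d - U = mu (-θ) (-x) (d - mu θ x U) := by
      rw [mu_sub, mu_neg_mu]
    rw [e, NW_mu]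
    exact h2
  have hn : ‖((1 - τ : ℝ) : ℂ) ^ sg m om‖ ≤ 2 := by
    rw [norm_cpow_sg hρ0]
    have ha := aa_le_half hp.m_pos
    have ha0 := hp.aa_pos
    calc (1 - τ) ^ aa m ≤ (2 : ℝ) ^ aa m :=
          Real.rpow_le_rpow hρ0.le (by linarith [hτr.1]) ha0.le
      _ ≤ (2 : ℝ) ^ (1 : ℝ) := Real.rpow_le_rpow_of_exponent_le one_le_two (by linarith)
      _ = 2 := Real.rpow_one 2
  have h4 := NW_smul_le hn h3
  have e4 : ((1 - τ : ℝ) : ℂ) ^ sg m om • (mu (-θ) (-x) d - U)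
      = ((1 - τ : ℝ) : ℂ) ^ sg m om • mu (-θ) (-x) d - Kh χ (rad w) (h * Real.sqrt (1 - τ)) := by
    rw [smul_sub, hU, Kh_dil, smul_smul, cpow_mul_neg hρ0, one_smul]
  rw [e4] at h4
  have hs : Real.sqrt (1 - τ) ≤ 1 + r0 := by
    rw [Real.sqrt_le_left (by linarith)]
    nlinarith [hτr.1]
  have h5 := NN_scale K hM0 hh.le (h' := h * Real.sqrt (1 - τ)) (by positivity)
    (L := 1 + r0) (by linarith) (by nlinarith)
    (((1 - τ : ℝ) : ℂ) ^ sg m om • mu (-θ) (-x) d - Kh χ (rad w) (h * Real.sqrt (1 - τ)))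
  refine h5.trans ((mul_le_mul' (ENNReal.ofReal_le_ofReal hK) h4).trans ?_)
  rw [← ENNReal.ofReal_mul two_pos.le]
  exact ENNReal.ofReal_le_ofReal (le_of_eq (by ring))

end Vale.Agent.P139
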