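import Vale.Agent.P139.MD
import Vale.Agent.P139.ML
import Vale.Agent.P139.MN

/-! Global solutions: from H^k to l^1, symmetries.
Hints: l1_le_hs; hs k (a - b) is summable because ‖a n - b n‖^2 ≤ 2 ‖a n‖^2 + 2 ‖b n‖^2; squeeze with
C * sqrt (..) → 0, nhdsWithin_mono; cz and cH from L1C.coef_cont, L1C.Nl_cont;
(‖u‖^(2m+1-1) : ℝ) = (u conj u)^m. rescale: use the hypothesis at T0 = t0 + ρ T, L1C.shift, Duh.shift,
Duh.mu, Duh.smul, Duh.congr with Nl_smul_mu, norm_cpow_sg_pow, mu_smul. -/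

open Complex MeasureTheory Filter Topology Set
open scoped ComplexConjugate ContDiff

namespace Vale.Agent.P139

theorem MS_norm (u : ℂ) (m : ℕ) : ((‖u‖ ^ (2 * m + 1 - 1) : ℝ) : ℂ) = (u * conj u) ^ m := by
  rw [Nat.add_sub_cancel, Complex.mul_conj, Complex.normSq_eq_norm_sq, pow_mul]
  push_cast
  rfl

theorem MS_hs_sub {k : ℕ} {a b : Z → ℂ} (ha : Summable (hs k a)) (hb : Summable (hs k b)) :
    Summable (hs k (a - b)) := by
  have h0 : ∀ n : Z, 0 ≤ (1 + nsq n) ^ k := fun n => by unfold nsq; positivity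
  refine Summable.of_nonneg_of_le (fun n => mul_nonneg (h0 n) (sq_nonneg _)) (fun n => ?_)
    ((ha.mul_left 2).add (hb.mul_left 2))
  unfold hs
  have h1 : ‖(a - b) n‖ ≤ ‖a n‖ + ‖b n‖ := norm_sub_le _ _
  have h2 : ‖(a - b) n‖ ^ 2 ≤ 2 * ‖a n‖ ^ 2 + 2 * ‖b n‖ ^ 2 := by
    nlinarith [norm_nonneg ((a - b) n), norm_nonneg (a n), norm_nonneg (b n),
      sq_nonneg (‖a n‖ - ‖b n‖)]
  nlinarith [mul_le_mul_of_nonneg_left h2 (h0 n)]

theorem solH_of_global {m k : ℕ} (hk : 6 < k) {u0 : Z → ℂ} {c : ℝ → Z → ℂ}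
    (hc : GlobalSol (2 * m + 1) k u0 c) : SolH m 1 c := by
  intro T _
  obtain ⟨C, -, hC⟩ := l1_le_hs k hk
  have hl : L1C T c := by
    refine ⟨fun t ht => (hC _ (hc.mem t ht.1)).1, fun t ht => ?_⟩
    have h1 : Tendsto (fun s => C * Real.sqrt (∑' n, hs k (c s - c t) n)) (𝓝[Icc 0 T] t)
        (𝓝 (C * Real.sqrt 0)) :=
      (((hc.cont t ht.1).mono_left (nhdsWithin_mono _ Icc_subset_Ici_self)).sqrt).const_mul C
    rw [Real.sqrt_zero, mul_zero] at h1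
    refine squeeze_zero' (Eventually.of_forall fun s => l1_nonneg _) ?_ h1
    filter_upwards [self_mem_nhdsWithin] with s hs
    exact (hC _ (MS_hs_sub (hc.mem s hs.1) (hc.mem t ht.1))).2
  refine ⟨hl, hl.coef_cont, hl.Nl_cont m, fun t ht n => ?_⟩
  have h1 := hc.duhamel t ht.1 n
  simp only [MS_norm] at h1
  simp only [one_pow, one_mul]
  exact h1

theorem SolH.rescale {m : ℕ} (hm : 1 ≤ m) {h : ℝ} {v : ℝ → Z → ℂ} (hv : SolH m h v) (om : ℝ)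
    {t0 ρ : ℝ} (ht : 0 ≤ t0) (hρ : 0 < ρ) (θ : ℝ) (x : E) :
    SolH m (h * Real.sqrt ρ) fun s => (ρ : ℂ) ^ sg m om • mu θ x (v (t0 + ρ * s)) := by
  intro T hT
  obtain ⟨h1, h2⟩ := hv (t0 + ρ * T) (by positivity)
  refine ⟨h1.shift ht hρ le_rfl _ θ x,
    (((h2.shift ht hρ le_rfl).mu θ x).smul ((ρ : ℂ) ^ sg m om)).congr fun s hs => ?_⟩
  have h3 : t0 + ρ * s ∈ Icc 0 (t0 + ρ * T) :=
    ⟨by have := hs.1; positivity, by nlinarith [hs.2]⟩
  rw [Nl_smul_mu m _ θ x (h1.sum _ h3), norm_cpow_sg_pow hρ hm, mu_smul, smul_smul, mul_comm]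

end Vale.Agent.P139
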