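import Vale.Agent.P139.MA1

/-! The linear window estimate applied to the perturbation.
Hints: for γ : Ix → ℂ put z γ s = e s - ∑ i, γ i • Ym i s, G γ s = F s - ∑ i, γ i • FY i s. lin_duh: Duh.sub,
duh_sum, Duh.smul, Duh.congr; linearity of conv in the second slot (conv_sub_right, conv_sum_right,
conv_smul_right; S1 from l1c_ker and RL.l1c), refl_sub, refl_sum, refl_smul. Apply hl with ζ1 = e 0,
ζ2 = refl (e 0) (NN_refl), γ = co β and γ' = conj ∘ co β, tlin_of_duh. Initial data: Ym i 0 = Kh χ (em i) h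
(dil_one), mode1_eq, mode2_eq, Kh_sum, Kh_smul, refl_Kh. Take b i = (co β i).re; then
e T - ∑ b i • Y i T = (1/2) • (z γ T + z γ' T). NN_eq, gw_wq and the NW lemmas; card_Ix. -/

open Complex MeasureTheory Filter Topology Set
open scoped ComplexConjugate ContDiff

namespace Vale.Agent.P139

variable {m : ℕ} {om : ℝ} {w : ℝ → ℂ} {χ χ1 : E → ℝ}

theorem MT_conv {k e : Z → ℂ} {Y : Ix → Z → ℂ} (hk : S1 k) (he : S1 e) (hY : ∀ i, S1 (Y i))
    (γ : Ix → ℂ) : conv k (e - ∑ i, γ i • Y i) = conv k e - ∑ i, γ i • conv k (Y i) := by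
  rw [conv_sub_right hk he (S1_sum _ fun i _ => (hY i).smul _),
    conv_sum_right hk _ fun i _ => (hY i).smul _]
  simp only [conv_smul_right]

theorem MT_refl (e : Z → ℂ) (Y : Ix → Z → ℂ) (γ : Ix → ℂ) :
    refl (e - ∑ i, conj (γ i) • Y i) = refl e - ∑ i, γ i • refl (Y i) := by
  rw [refl_sub, refl_sum]
  simp only [refl_smul, Complex.conj_conj]

theorem MT_bound {q : Z → ℝ} (hq : GW q) {e : Z → ℂ} {Y : Ix → Z → ℂ} {γ : Ix → ℂ} {A B r : ℝ}
    (hA : 0 ≤ A) (hB : 0 ≤ B) (hr : 0 ≤ r) (hγ : ∀ i, ‖γ i‖ ≤ r) (he : NW q e ≤ ENNReal.ofReal A)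
    (hY : ∀ i, NW q (Y i) ≤ ENNReal.ofReal B) :
    NW q (e - ∑ i, γ i • Y i) ≤ ENNReal.ofReal (A + 14 * (r * B)) := by
  have h1 := NW_sum_le hq (A := r * B) (by positivity) fun i => NW_smul_le (hγ i) (hY i)
  rw [card_Ix] at h1
  exact NW_sub_le hq hA (by positivity) he h1

theorem lin_duh (hp : Prof m om w) (h1 : Cut χ1) {h T : ℝ} (hh : 0 < h) (hh1 : h ≤ 1) (hT : T < 1)
    {e F : ℝ → Z → ℂ} {Y FY : Ix → ℝ → Z → ℂ} (he : RL m om w χ1 h T e F)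
    (hY : ∀ i, RL m om w χ1 h T (Y i) (FY i)) (γ : Ix → ℂ) :
    Duh h T (fun s => e s - ∑ i, γ i • Y i s) fun s =>
      Lin m om w χ1 h s (e s - ∑ i, γ i • Y i s) (refl (e s - ∑ i, conj (γ i) • Y i s))
        + (F s - ∑ i, γ i • FY i s) := by
  obtain ⟨k1, k2⟩ := l1c_ker hp h1 hh hh1 hT
  refine (he.duh.sub (duh_sum Finset.univ fun i _ => (hY i).duh.smul (γ i))).congr fun s hs => ?_
  unfold Lin
  rw [MT_refl, MT_conv (k1.sum s hs) (he.l1c.sum s hs) fun i => (hY i).l1c.sum s hs,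
    MT_conv (k2.sum s hs) (he.l1c.sum s hs).refl fun i => ((hY i).l1c.sum s hs).refl]
  simp only [smul_add, Finset.sum_add_distrib]
  abel

theorem lin_step (hp : Prof m om w) (hχ : Cut χ) (h1 : Cut χ1) {K : ℕ} {M η ρ0 C h : ℝ}
    (hM : 1 ≤ M) (hh : 0 < h) (hh1 : h ≤ 1) (h0 : 0 < ρ0) (h0' : ρ0 ≤ 1) (hC : 0 ≤ C) (hη : 0 ≤ η)
    (hl : LWin m om w χ χ1 K M η ρ0 C h) {e F : ℝ → Z → ℂ} {FY : Ix → ℝ → Z → ℂ}
    (he : RL m om w χ1 h (1 - ρ0) e F)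
    (hY : ∀ i, RL m om w χ1 h (1 - ρ0) (Ym m om w χ h i) (FY i)) {δ B φ1 φ2 : ℝ} (hδ : 0 ≤ δ)
    (hB : 0 ≤ B) (hφ1 : 0 ≤ φ1) (hφ2 : 0 ≤ φ2) (he0 : NN K M h (e 0) ≤ ENNReal.ofReal δ)
    (hb : ∀ s ∈ Icc 0 (1 - ρ0), NN K M h (e s) ≤ ENNReal.ofReal B ∧
      NN K M h (F s) ≤ ENNReal.ofReal φ1 ∧ ∀ i, NN K M h (Ym m om w χ h i s) ≤ ENNReal.ofReal B ∧
        NN K M h (FY i s) ≤ ENNReal.ofReal φ2) :
    ∃ b : Ix → ℝ, (∀ i, |b i| ≤ C * δ) ∧
      NN K M (h * Real.sqrt ρ0) (e (1 - ρ0) - ∑ i, (b i : ℂ) • Ym m om w χ h i (1 - ρ0))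
        ≤ ENNReal.ofReal (ρ0 ^ (-(aa m)) * (η * δ + C * (φ1 + 14 * (C * δ * φ2)))) := by
  obtain ⟨β, hβ, hz⟩ := hl (e 0) (refl (e 0)) δ hδ he0 (by rw [NN_refl]; exact he0)
  have hT : 1 - ρ0 < 1 := by linarith
  have hM0 : 0 < M := lt_of_lt_of_le one_pos hM
  have hq := gw_wq K hM0 h
  have hγ : ∀ i, ‖co β i‖ ≤ C * δ := fun i => (norm_co_le β i).trans hβ
  have hγ' : ∀ i, ‖conj (co β i)‖ ≤ C * δ := fun i => by rw [Complex.norm_conj]; exact hγ i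
  have a := lin_duh hp h1 hh hh1 hT he hY (co β)
  have b := lin_duh hp h1 hh hh1 hT he hY fun i => conj (co β i)
  simp only [Complex.conj_conj] at b
  have cG : ∀ (γ : Ix → ℂ) (n : Z),
      ContinuousOn (fun t => (F t - ∑ i, γ i • FY i t) n) (Icc 0 (1 - ρ0)) := by
    intro γ n
    simp only [Pi.sub_apply, Finset.sum_apply, Pi.smul_apply]
    exact (he.cF n).sub (continuousOn_finsetSum _ fun i _ => ((hY i).cF n).const_smul (γ i))
  have tl := tlin_of_duh (cG _) (cG _) a b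
  have y0 : ∀ i, Ym m om w χ h i 0 = Kh χ (em m om w i) h := fun i => by
    unfold Ym
    rw [sub_zero, dil_one]
  have ce : ∀ i, Continuous (em m om w i) := fun i => (hp.symA_em i).contDiff.continuous
  have ce' : ∀ i, Continuous fun y => conj (em m om w i y) := fun i =>
    Complex.continuous_conj.comp (ce i)
  have hφ : 0 ≤ φ1 + 14 * (C * δ * φ2) := by positivity
  obtain ⟨r1, r2⟩ := hz _ _ _ _ (B + 14 * (C * δ * B)) _ hφ tl
    (by
      rw [mode1_eq, Kh_sum hχ.smooth.continuous _ fun i _ => (ce i).const_mul _]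
      simp only [Kh_smul, y0])
    (by
      rw [mode2_eq, Kh_sum hχ.smooth.continuous _ fun i _ => (ce' i).const_mul _, MT_refl]
      simp only [Kh_smul, y0, refl_Kh])
    fun t ht => by
      obtain ⟨b1, b2, b3⟩ := hb t ht
      have hr : 0 ≤ C * δ := by positivity
      rw [NN_refl, NN_refl]
      exact ⟨MT_bound hq hB hB hr hγ b1 fun i => (b3 i).1,
        MT_bound hq hB hB hr hγ' b1 fun i => (b3 i).1,
        MT_bound hq hφ1 hφ2 hr hγ b2 fun i => (b3 i).2,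
        MT_bound hq hφ1 hφ2 hr hγ' b2 fun i => (b3 i).2⟩
  rw [NN_refl] at r2
  have _ := h0'
  refine ⟨fun i => (co β i).re, fun i => (Complex.abs_re_le_norm _).trans (hγ i), ?_⟩
  have e1 : e (1 - ρ0) - ∑ i, ((co β i).re : ℂ) • Ym m om w χ h i (1 - ρ0) =
      (1 / 2 : ℂ) • ((e (1 - ρ0) - ∑ i, co β i • Ym m om w χ h i (1 - ρ0)) +
        (e (1 - ρ0) - ∑ i, conj (co β i) • Ym m om w χ h i (1 - ρ0))) := by
    funext n
    simp only [Pi.sub_apply, Pi.add_apply, Finset.sum_apply, Pi.smul_apply, smul_eq_mul,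
      Complex.re_eq_add_conj, add_div, add_mul, Finset.sum_add_distrib, div_mul_eq_mul_div,
      ← Finset.sum_div]
    ring
  have hX : 0 ≤ ρ0 ^ (-(aa m)) * (η * δ + C * (φ1 + 14 * (C * δ * φ2))) := by positivity
  rw [e1]
  refine (NW_smul_le (r := 1 / 2) (by simp)
    (NW_add_le (gw_wq K hM0 _) hX hX r1 r2)).trans (le_of_eq ?_)
  congr 1
  ring

end Vale.Agent.P139
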