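import Vale.Agent.P139.MA1

/-! The mode trajectories solve the linearised equation up to a small error.
Hints: duh_dil with pde_em and G = the function of symA_lin. Lin s Y (refl Y) = Kh (χ^(2m) χ) (dil (κ+1) G) h
by refl_Kh, conv_Kh twice, Kh_add, em_lin (S1 from l1c_ker, l1c_Kh_dil, S1.refl). So
F s = Kh (χ - χ^(2m) χ) (dil (1-s) (κ+1) G) h + Er: far_dil, NN_Er, cont_Kh_dil', cont_Er, Duh.congr.
Constants: choose for each i and sum over the finite type Ix (Finset.single_le_sum). -/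

open Complex MeasureTheory Filter Topology Set
open scoped ComplexConjugate ContDiff

namespace Vale.Agent.P139

variable {m : ℕ} {om : ℝ} {w : ℝ → ℂ} {χ : E → ℝ}

theorem MY_lin (hp : Prof m om w) (hχ : Cut χ) {h T : ℝ} (hh : 0 < h) (hh1 : h ≤ 1) (hT : T < 1)
    (i : Ix) {s : ℝ} (hs : s ∈ Icc 0 T) :
    Lin m om w (fun x => χ x ^ (2 * m)) h s (Ym m om w χ h i s) (refl (Ym m om w χ h i s)) =
      Kh (fun x => χ x ^ (2 * m) * χ x) (dil (1 - s) (sg m om + lam i + 1) fun y =>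
        rad (V1 m w) y * em m om w i y + rad (V2 m w) y * conj (em m om w i y)) h := by
  have hχ1 : Cut fun x => χ x ^ (2 * m) := hχ.pow _ (by have := hp.m_pos; omega)
  have hρ : 0 < 1 - s := by linarith [hs.2]
  have ha : 0 < 2 * aa m := mul_pos two_pos hp.aa_pos
  obtain ⟨k1, k2⟩ := l1c_ker hp hχ1 hh hh1 hT
  have k3 := (l1c_Kh_dil hχ ha (hp.symA_em i) (sg m om + lam i) hh hh1 hT).sum s hs
  have k4 := k3.refl
  have c1 : Continuous (P1 m w (1 - s)) := by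
    rw [P1_eq hρ]
    exact continuous_dil hp.symA_V1.contDiff.continuous _ _
  have c2 : Continuous (P2 m om w (1 - s)) := by
    rw [P2_eq hρ]
    exact continuous_dil hp.symA_V2.contDiff.continuous _ _
  have c3 : Continuous (dil (1 - s) (sg m om + lam i) (em m om w i)) :=
    continuous_dil (hp.symA_em i).contDiff.continuous _ _
  have c4 : Continuous fun y => conj (dil (1 - s) (sg m om + lam i) (em m om w i) y) :=
    Complex.continuous_conj.comp c3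
  unfold Lin Ym
  rw [refl_Kh] at k4 ⊢
  rw [conv_Kh hχ1 hχ c1 c3 (k1.sum s hs) k3, conv_Kh hχ1 hχ c2 c4 (k2.sum s hs) k4,
    ← Kh_add (hχ1.mul hχ).smooth.continuous (c1.fun_mul c3) (c2.fun_mul c4)]
  congr 1
  funext y
  exact em_lin hρ i y

theorem MY_one (hp : Prof m om w) (hχ : Cut χ) (K : ℕ) {ρ0 : ℝ} (h0 : 0 < ρ0) (i : Ix) :
    ∃ C : ℝ, 0 ≤ C ∧ ∀ M h : ℝ, 1 ≤ M → 0 < h → h ≤ 1 → ∃ F : ℝ → Z → ℂ,
      RL m om w (fun x => χ x ^ (2 * m)) h (1 - ρ0) (Ym m om w χ h i) F ∧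
      ∀ s ∈ Icc 0 (1 - ρ0), NN K M h (Ym m om w χ h i s) ≤ ENNReal.ofReal C ∧
        NN K M h (F s) ≤ ENNReal.ofReal (C * h ^ (2 * aa m)) := by
  have hχ1 : Cut fun x => χ x ^ (2 * m) := hχ.pow _ (by have := hp.m_pos; omega)
  have hχ2 := hχ1.mul hχ
  have ha : 0 < 2 * aa m := mul_pos two_pos hp.aa_pos
  have hG := hp.symA_lin i
  obtain ⟨C1, hC1, b1⟩ := NN_Kh_dil hχ ha (hp.symA_em i) (sg m om + lam i) K h0
  obtain ⟨C2, hC2, b2⟩ := far_dil (hχ.ann_sub hχ2) ha.le hG (sg m om + lam i + 1) K h0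
  obtain ⟨C3, hC3, b3⟩ := NN_Er hχ ha.le (hp.symA_em i) (sg m om + lam i) K h0
  refine ⟨C1 + C2 + C3, by positivity, fun M h hM hh hh1 => ?_⟩
  have hT : 1 - ρ0 < 1 := by linarith
  have hq := gw_wq K (lt_of_lt_of_le one_pos hM) h
  have hd := duh_dil hχ (hp.symA_em i).contDiff hG.contDiff.continuous (hp.pde_em i) hh hT
  refine ⟨fun s => Kh (fun x => χ x - χ x ^ (2 * m) * χ x) (dil (1 - s) (sg m om + lam i + 1)
      fun y => rad (V1 m w) y * em m om w i y + rad (V2 m w) y * conj (em m om w i y)) h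
      + Er χ (sg m om + lam i) (em m om w i) h (1 - s),
    ⟨l1c_Kh_dil hχ ha (hp.symA_em i) _ hh hh1 hT, fun n => ?_, hd.congr fun s hs => ?_⟩,
    fun s hs => ?_⟩
  · exact (cont_Kh_dil' (hχ.ann_sub hχ2).smooth.continuous hG.contDiff.continuous _ h n hT).add
      (cont_Er hχ.smooth (hp.symA_em i).contDiff _ h n hT)
  · rw [MY_lin hp hχ hh hh1 hT i hs, ← Kh_sub_cut hχ.smooth.continuous hχ2.smooth.continuous
      (continuous_dil hG.contDiff.continuous _ _)]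
    abel
  · have hρ : 1 - s ∈ Icc ρ0 2 := ⟨by linarith [hs.2], by linarith [hs.1]⟩
    have g0 : 0 ≤ h ^ (2 * aa m) := by positivity
    refine ⟨(b1 M h hM hh hh1 _ hρ).trans (ENNReal.ofReal_le_ofReal (by linarith)),
      (NW_add_le hq (by positivity) (by positivity) (b2 M h hM hh hh1 _ hρ)
        (b3 M h hM hh hh1 _ hρ)).trans (ENNReal.ofReal_le_ofReal ?_)⟩
    nlinarith [mul_nonneg hC1 g0]

theorem modes (hp : Prof m om w) (hχ : Cut χ) (K : ℕ) {ρ0 : ℝ} (h0 : 0 < ρ0) :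
    ∃ C : ℝ, 0 ≤ C ∧ ∀ M h : ℝ, 1 ≤ M → 0 < h → h ≤ 1 → ∀ i : Ix, ∃ F : ℝ → Z → ℂ,
      RL m om w (fun x => χ x ^ (2 * m)) h (1 - ρ0) (Ym m om w χ h i) F ∧
      ∀ s ∈ Icc 0 (1 - ρ0), NN K M h (Ym m om w χ h i s) ≤ ENNReal.ofReal C ∧
        NN K M h (F s) ≤ ENNReal.ofReal (C * h ^ (2 * aa m)) := by
  choose C hC hF using MY_one hp hχ K h0
  refine ⟨∑ i, C i, Finset.sum_nonneg fun i _ => hC i, fun M h hM hh hh1 i => ?_⟩
  obtain ⟨F, h1, h2⟩ := hF i M h hM hh hh1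
  have hle : C i ≤ ∑ i, C i := Finset.single_le_sum (fun i _ => hC i) (Finset.mem_univ i)
  exact ⟨F, h1, fun s hs => ⟨(h2 s hs).1.trans (ENNReal.ofReal_le_ofReal hle),
    (h2 s hs).2.trans (ENNReal.ofReal_le_ofReal
      (mul_le_mul_of_nonneg_right hle (by positivity)))⟩⟩

end Vale.Agent.P139
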