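import Vale.Agent.P139.MA2
import Vale.Agent.P139.MY
import Vale.Agent.P139.MT
import Vale.Agent.P139.MR3

/-! One renormalisation step. -/

open Complex MeasureTheory Filter Topology Set
open scoped ComplexConjugate ContDiff

namespace Vale.Agent.P139

variable {m : ℕ} {om : ℝ} {w : ℝ → ℂ} {χ : E → ℝ}

theorem MStep_num {C C1 C2 C3 R δ x h : ℝ} (hC : 0 ≤ C) (h1 : 0 ≤ C1) (h2 : 0 ≤ C2) (h3 : 0 ≤ C3)
    (hR : 0 ≤ R) (hδ : 0 ≤ δ) (hδ1 : δ ≤ 1) (hx : 0 ≤ x) (hh : h ≤ x)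
    (hA : δ * (16 * (C * C1 + C3 * R ^ 2 + 1)) ≤ 1)
    (hB : x * (16 * (C * C1 + 14 * C ^ 2 * C2 + C3 * R + 1)) ≤ δ) :
    4 * ((1 / 16 * δ + C * (C1 * (δ ^ 2 + x) + 14 * (C * δ * (C2 * x))))
      + C3 * ((R * δ) ^ 2 + h * (R * δ))) ≤ δ := by
  have a1 : δ * (δ * (16 * (C * C1 + C3 * R ^ 2 + 1))) ≤ δ * 1 := mul_le_mul_of_nonneg_left hA hδ
  have a2 : C ^ 2 * C2 * x * δ ≤ C ^ 2 * C2 * x * 1 :=
    mul_le_mul_of_nonneg_left hδ1 (by positivity)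
  have a3 : C3 * R * (h * δ) ≤ C3 * R * (x * 1) :=
    mul_le_mul_of_nonneg_left (mul_le_mul hh hδ1 hδ hx) (by positivity)
  nlinarith [sq_nonneg δ]

theorem MStep_renorm {ρ0 h : ℝ} (h0 : 0 < ρ0) (d : Z → ℂ) (b : Ix → ℝ) :
    (ρ0 : ℂ) ^ sg m om • (d - Ap m om w χ h (1 - ρ0) - ∑ i, (b i : ℂ) • Ym m om w χ h i (1 - ρ0))
      = (ρ0 : ℂ) ^ sg m om • d - Kh χ (rad w) (h * Real.sqrt ρ0)
        - ∑ i, ((b i * ρ0 ^ (-lam i) : ℝ) : ℂ) • Kh χ (em m om w i) (h * Real.sqrt ρ0) := by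
  rw [smul_sub, smul_sub, Finset.smul_sum, Ap, sub_sub_cancel, Kh_dil, smul_smul, cpow_mul_neg h0,
    one_smul]
  congr 1
  refine Finset.sum_congr rfl fun i _ => ?_
  rw [Ym, sub_sub_cancel, Kh_dil, smul_smul, smul_smul, ofReal_mul, ← cpow_mul_neg_add h0 (sg m om)]
  congr 1
  ring

theorem step (hp : Prof m om w) (hl : LW m om w) (hχ : Cut χ) :
    ∃ (K : ℕ) (M δ h0 : ℝ), 1 ≤ M ∧ 0 < δ ∧ δ ≤ ‖w 0‖ / 2 ∧ 0 < h0 ∧ h0 ≤ 1 ∧
      StepP m om w χ K M δ h0 := by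
  have hχ1 := hχ.pow (2 * m) (by have := hp.m_pos; omega)
  obtain ⟨K, M, -, hM, H⟩ := hl χ _ hχ hχ1
  obtain ⟨ρ0, C, h1, hρ0, hρ1, hC, hh1, hLW⟩ := H (1 / 16) (by norm_num)
  have hρ2 : ρ0 ≤ 1 := by linarith
  obtain ⟨C1, d0, hC1, hd0, hW⟩ := window hp hχ K hρ0 hρ2
  obtain ⟨C2, hC2, hY⟩ := modes hp hχ K hρ0
  obtain ⟨C3, r0, hC3, hr0, hR⟩ := recentre hp hχ K
  have ha := hp.aa_pos
  have ha2 : 0 < 2 * aa m := mul_pos two_pos ha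
  have ha3 : 2 * aa m ≤ 1 := by linarith [aa_le_half hp.m_pos]
  have hw : 0 < ‖w 0‖ := norm_pos_iff.2 (hp.ne 0 le_rfl)
  set R := C / ρ0 with hRd
  have hR0 : 0 ≤ R := by positivity
  have hA : 0 < 16 * (C * C1 + C3 * R ^ 2 + 1) := by positivity
  have hB : 0 < 16 * (C * C1 + 14 * C ^ 2 * C2 + C3 * R + 1) := by positivity
  obtain ⟨δ, hδ, d1, d2, d3, d4, d5⟩ : ∃ δ : ℝ, 0 < δ ∧ δ ≤ ‖w 0‖ / 2 ∧ δ ≤ d0 / 2 ∧ δ ≤ 1 ∧
      R * δ ≤ r0 ∧ δ * (16 * (C * C1 + C3 * R ^ 2 + 1)) ≤ 1 := by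
    refine ⟨min (min (‖w 0‖ / 2) (d0 / 2)) (min (min 1 (r0 / (R + 1)))
      (1 / (16 * (C * C1 + C3 * R ^ 2 + 1)))), by positivity,
      (min_le_left _ _).trans (min_le_left _ _), (min_le_left _ _).trans (min_le_right _ _),
      (min_le_right _ _).trans ((min_le_left _ _).trans (min_le_left _ _)), ?_,
      (le_div_iff₀ hA).1 ((min_le_right _ _).trans (min_le_right _ _))⟩
    refine (mul_le_mul_of_nonneg_left
      ((min_le_right _ _).trans ((min_le_left _ _).trans (min_le_right _ _))) hR0).trans ?_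
    rw [← mul_div_assoc, div_le_iff₀ (by positivity)]
    nlinarith
  obtain ⟨ε, hε, e1, e2⟩ : ∃ ε : ℝ, 0 < ε ∧ ε ≤ d0 / 2 ∧
      ε * (16 * (C * C1 + 14 * C ^ 2 * C2 + C3 * R + 1)) ≤ δ :=
    ⟨min (d0 / 2) (δ / (16 * (C * C1 + 14 * C ^ 2 * C2 + C3 * R + 1))), by positivity,
      min_le_left _ _, (le_div_iff₀ hB).1 (min_le_right _ _)⟩
  refine ⟨K, M, δ, min (min 1 h1) (ε ^ (2 * aa m)⁻¹), hM, hδ, d1, by positivity,
    (min_le_left _ _).trans (min_le_left _ _), fun h v hh hh0 hv hi => ?_⟩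
  have k1 : h ≤ 1 := hh0.trans ((min_le_left _ _).trans (min_le_left _ _))
  have k2 : h ≤ h1 := hh0.trans ((min_le_left _ _).trans (min_le_right _ _))
  have k3 : h ^ (2 * aa m) ≤ ε := by
    have := Real.rpow_le_rpow hh.le (hh0.trans (min_le_right _ _)) ha2.le
    rwa [Real.rpow_inv_rpow hε.le ha2.ne'] at this
  have k4 : h ≤ h ^ (2 * aa m) := by
    have := Real.rpow_le_rpow_of_exponent_ge hh k1 ha3
    rwa [Real.rpow_one] at this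
  set x := h ^ (2 * aa m) with hx
  have hx0 : 0 ≤ x := hh.le.trans k4
  obtain ⟨F, hF, hFb⟩ := hW M h δ v hM hh k1 hδ.le (by linarith) hv hi
  choose FY hFY hFYb using hY M h hM hh k1
  have he0 : NN K M h ((fun s => v s - Ap m om w χ h s) 0) ≤ ENNReal.ofReal δ := by
    simpa only [Ap_zero] using hi
  have hb0 : 0 ≤ C1 * (δ + x) := by positivity
  obtain ⟨b, hb, hz⟩ := lin_step (B := C1 * (δ + x) + C2) (φ1 := C1 * (δ ^ 2 + x)) (φ2 := C2 * x)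
    hp hχ hχ1 hM hh k1 hρ0 hρ2 hC (by norm_num) (hLW h hh k2) hF hFY hδ.le (by positivity)
    (by positivity) (by positivity) he0 fun s hs =>
      ⟨(hFb s hs).1.trans (ENNReal.ofReal_le_ofReal (by linarith)), (hFb s hs).2, fun i =>
        ⟨(hFYb i s hs).1.trans (ENNReal.ofReal_le_ofReal (by linarith)), (hFYb i s hs).2⟩⟩
  have hz2 := NW_smul_le (norm_cpow_sg hρ0 m om).le hz
  rw [MStep_renorm hρ0, ← mul_assoc, ← Real.rpow_add hρ0, add_neg_cancel, Real.rpow_zero,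
    one_mul] at hz2
  have hs0 := Real.sqrt_pos.2 hρ0
  have hs1 : h * Real.sqrt ρ0 ≤ h := mul_le_of_le_one_right hh.le (Real.sqrt_le_one.2 hρ2)
  have hb' : ∀ i, |b i * ρ0 ^ (-lam i)| ≤ R * δ := by
    intro i
    have t1 : ρ0 ^ (-lam i) ≤ ρ0⁻¹ := by
      rw [← Real.rpow_neg_one]
      exact Real.rpow_le_rpow_of_exponent_ge hρ0 hρ2 (neg_le_neg (lam_mem i).2)
    rw [abs_mul, abs_of_pos (Real.rpow_pos_of_pos hρ0 _)]
    refine (mul_le_mul (hb i) t1 (by positivity) (by positivity)).trans (le_of_eq ?_)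
    rw [hRd]; ring
  obtain ⟨ρ, θ, y, r1, r2, r3⟩ := hR M (h * Real.sqrt ρ0) (R * δ) _ _ _ hM (mul_pos hh hs0)
    (hs1.trans k1) (by positivity) d4 (by positivity) hb' hz2
  have hρ : 0 < ρ := by linarith
  refine ⟨1 - ρ0, ρ0 * ρ, θ, y, by linarith, by linarith, mul_pos hρ0 hρ, by nlinarith, ?_⟩
  rw [Real.sqrt_mul hρ0.le, ← mul_assoc, mul_comm ρ0 ρ, cpow_mul_real hρ hρ0, ← smul_smul,
    ← mu_smul]
  refine r3.trans (ENNReal.ofReal_le_ofReal ?_)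
  exact MStep_num hC hC1 hC2 hC3 hR0 hδ.le d3 hx0 (hs1.trans k4) d5
    ((mul_le_mul_of_nonneg_right k3 hB.le).trans e2)

end Vale.Agent.P139
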