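import Vale.Agent.P139.BCkL
import Vale.Agent.P139.BCe1
import Vale.Agent.P139.BCe2
import Vale.Agent.P139.BCe3
import Vale.Agent.P139.BCe4
import Vale.Agent.P139.BBl
import Vale.Agent.P139.BAl

open Complex MeasureTheory Filter Topology
open scoped ComplexConjugate ContDiff

namespace Vale.Agent.P139

open Ck

theorem pB_s {s : ℝ} (h1 : 177275 / 65536 ≤ s) (h2 : s ≤ 177283 / 65536) :
    |s * q - (2974248075264 : ℕ)| ≤ (67108864 : ℕ) := by
  rw [abs_le, q]
  push_cast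
  constructor <;> linarith

theorem pB_o {om : ℝ} (h1 : 21936 / 65536 ≤ om) (h2 : om ≤ 21944 / 65536) :
    |om * q - (368092119040 : ℕ)| ≤ (67108864 : ℕ) := by
  rw [abs_le, q]
  push_cast
  constructor <;> linarith

theorem pB_PX {l tc : ℕ} {T : Tr} {x0 x1 y0 y1 : ℤ} {s : ℝ}
    (h : cover (tX tc 2974248075264 67108864) T x0 x1 y0 y1 = true)
    (hs1 : 177275 / 65536 ≤ s) (hs2 : s ≤ 177283 / 65536) (ht : tc = l + 5) (h5 : 5 ≤ tc)
    (e0 : (x0 : ℝ) = (l : ℝ) / 2 * q) (e1 : (x1 : ℝ) = ((l : ℝ) / 2 + 5 / 2) * q) {a b : ℝ}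
    (e2 : (y0 : ℝ) = a * q) (e3 : (y1 : ℝ) = b * q) {α : ℂ} (h1 : (l : ℝ) / 2 ≤ α.re)
    (h2 : α.re ≤ (l : ℝ) / 2 + 5 / 2) (h3 : a ≤ α.im) (h4 : α.im ≤ b) : Pos α (l + 6) s := by
  have hq := q_pos.le
  have := cover_sound (Q := fun x y => (tc : ℝ) / 2 - 3 ≤ x → Pos (x + y * I) (l + 6) s)
    (tX_sound (by rw [ht]; push_cast; ring) h5 (by linarith) (pB_s hs1 hs2)) T _ _ _ _ h
    α.re α.im (e0 ▸ mul_le_mul_of_nonneg_right h1 hq) (e1 ▸ mul_le_mul_of_nonneg_right h2 hq)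
    (e2 ▸ mul_le_mul_of_nonneg_right h3 hq) (e3 ▸ mul_le_mul_of_nonneg_right h4 hq)
    (by rw [ht]; push_cast; linarith)
  rwa [re_add_im] at this

theorem pB_win (l : ℕ) (hl : 3 ≤ l) (hl2 : l ≤ 24) {s : ℝ} (hs1 : 177275 / 65536 ≤ s)
    (hs2 : s ≤ 177283 / 65536) {α : ℂ} (h1 : (l : ℝ) / 2 ≤ α.re)
    (h2 : α.re ≤ (l : ℝ) / 2 + 5 / 2) (h4 : -(2 * (l : ℝ) + 10) ≤ α.im) (h5 : α.im ≤ 0) :
    Pos α (l + 6) s := by
  interval_cases l
  · exact pB_PX cX3 hs1 hs2 (by norm_num) (by norm_num) (by norm_num [q]) (by norm_num [q])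
      (by norm_num [q]) (by norm_num [q]) h1 h2 h4 h5
  · exact pB_PX cX4 hs1 hs2 (by norm_num) (by norm_num) (by norm_num [q]) (by norm_num [q])
      (by norm_num [q]) (by norm_num [q]) h1 h2 h4 h5
  · exact pB_PX cX5 hs1 hs2 (by norm_num) (by norm_num) (by norm_num [q]) (by norm_num [q])
      (by norm_num [q]) (by norm_num [q]) h1 h2 h4 h5
  · exact pB_PX cX6 hs1 hs2 (by norm_num) (by norm_num) (by norm_num [q]) (by norm_num [q])
      (by norm_num [q]) (by norm_num [q]) h1 h2 h4 h5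
  · exact pB_PX cX7 hs1 hs2 (by norm_num) (by norm_num) (by norm_num [q]) (by norm_num [q])
      (by norm_num [q]) (by norm_num [q]) h1 h2 h4 h5
  · exact pB_PX cX8 hs1 hs2 (by norm_num) (by norm_num) (by norm_num [q]) (by norm_num [q])
      (by norm_num [q]) (by norm_num [q]) h1 h2 h4 h5
  · exact pB_PX cX9 hs1 hs2 (by norm_num) (by norm_num) (by norm_num [q]) (by norm_num [q])
      (by norm_num [q]) (by norm_num [q]) h1 h2 h4 h5
  · exact pB_PX cX10 hs1 hs2 (by norm_num) (by norm_num) (by norm_num [q]) (by norm_num [q])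
      (by norm_num [q]) (by norm_num [q]) h1 h2 h4 h5
  · exact pB_PX cX11 hs1 hs2 (by norm_num) (by norm_num) (by norm_num [q]) (by norm_num [q])
      (by norm_num [q]) (by norm_num [q]) h1 h2 h4 h5
  · exact pB_PX cX12 hs1 hs2 (by norm_num) (by norm_num) (by norm_num [q]) (by norm_num [q])
      (by norm_num [q]) (by norm_num [q]) h1 h2 h4 h5
  · exact pB_PX cX13 hs1 hs2 (by norm_num) (by norm_num) (by norm_num [q]) (by norm_num [q])
      (by norm_num [q]) (by norm_num [q]) h1 h2 h4 h5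
  · exact pB_PX cX14 hs1 hs2 (by norm_num) (by norm_num) (by norm_num [q]) (by norm_num [q])
      (by norm_num [q]) (by norm_num [q]) h1 h2 h4 h5
  · exact pB_PX cX15 hs1 hs2 (by norm_num) (by norm_num) (by norm_num [q]) (by norm_num [q])
      (by norm_num [q]) (by norm_num [q]) h1 h2 h4 h5
  · exact pB_PX cX16 hs1 hs2 (by norm_num) (by norm_num) (by norm_num [q]) (by norm_num [q])
      (by norm_num [q]) (by norm_num [q]) h1 h2 h4 h5
  · exact pB_PX cX17 hs1 hs2 (by norm_num) (by norm_num) (by norm_num [q]) (by norm_num [q])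
      (by norm_num [q]) (by norm_num [q]) h1 h2 h4 h5
  · exact pB_PX cX18 hs1 hs2 (by norm_num) (by norm_num) (by norm_num [q]) (by norm_num [q])
      (by norm_num [q]) (by norm_num [q]) h1 h2 h4 h5
  · exact pB_PX cX19 hs1 hs2 (by norm_num) (by norm_num) (by norm_num [q]) (by norm_num [q])
      (by norm_num [q]) (by norm_num [q]) h1 h2 h4 h5
  · exact pB_PX cX20 hs1 hs2 (by norm_num) (by norm_num) (by norm_num [q]) (by norm_num [q])
      (by norm_num [q]) (by norm_num [q]) h1 h2 h4 h5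
  · exact pB_PX cX21 hs1 hs2 (by norm_num) (by norm_num) (by norm_num [q]) (by norm_num [q])
      (by norm_num [q]) (by norm_num [q]) h1 h2 h4 h5
  · exact pB_PX cX22 hs1 hs2 (by norm_num) (by norm_num) (by norm_num [q]) (by norm_num [q])
      (by norm_num [q]) (by norm_num [q]) h1 h2 h4 h5
  · exact pB_PX cX23 hs1 hs2 (by norm_num) (by norm_num) (by norm_num [q]) (by norm_num [q])
      (by norm_num [q]) (by norm_num [q]) h1 h2 h4 h5
  · exact pB_PX cX24 hs1 hs2 (by norm_num) (by norm_num) (by norm_num [q]) (by norm_num [q])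
      (by norm_num [q]) (by norm_num [q]) h1 h2 h4 h5

theorem pB_far (l : ℕ) {s : ℝ} (hs : 0 < s) {α : ℂ} (h1 : (l : ℝ) / 2 ≤ α.re)
    (h : (l : ℝ) / 2 + 5 / 2 ≤ α.re ∨ α.im ≤ -(2 * (l : ℝ) + 10)) : Pos α (l + 6) s := by
  have hb : (l : ℂ) + 6 = 2 * (((l : ℝ) / 2 + 5 / 2 : ℝ) : ℂ) + 1 := by
    push_cast
    ring
  have l0 : (0 : ℝ) ≤ l := Nat.cast_nonneg l
  rcases le_total ((l : ℝ) / 2 + 5 / 2) α.re with h2 | h2
  · refine (hp_X hb (by positivity) h2 ?_ hs).pos hs (by positivity)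
    rintro rfl
    simp only [zero_re] at h2
    linarith
  · rcases h with h | h
    · refine (hp_X hb (by positivity) h ?_ hs).pos hs (by positivity)
      rintro rfl
      simp only [zero_re] at h
      linarith
    · exact al_big hb (by linarith) (by linarith) h2 (by linarith) hs

theorem pB_big (l : ℕ) (hl : 3 ≤ l) {s : ℝ} (hs1 : 177275 / 65536 ≤ s)
    (hs2 : s ≤ 177283 / 65536) {α : ℂ} (h1 : (l : ℝ) / 2 ≤ α.re) : Pos α (l + 6) s := by
  have l3 : (3 : ℝ) ≤ l := by exact_mod_cast hl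
  rcases le_total ((l : ℝ) / 2 + 5 / 2) α.re with h2 | h2
  · exact pB_far l (by linarith) h1 (Or.inl h2)
  rcases le_total α.im (-(2 * (l : ℝ) + 10)) with h4 | h4
  · exact pB_far l (by linarith) h1 (Or.inr h4)
  rcases le_total 0 α.im with h5 | h5
  · refine bl_big l hl h1 h2 (by linarith) (by linarith) ?_
    have a1 : 0 ≤ α.im * (2.71 * ((l : ℝ) / 2)) := by positivity
    have a2 : 0 ≤ ((l : ℝ) / 2 + 1) * ((l : ℝ) ^ 2 / 4 - 1.84) :=
      mul_nonneg (by positivity) (by nlinarith)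
    linarith
  rcases le_or_gt l 24 with h6 | h6
  · exact pB_win l hl h6 hs1 hs2 h1 h2 h4 h5
  · refine bl_big l hl h1 h2 (by linarith) (by linarith) ?_
    have l25 : (25 : ℝ) ≤ l := by exact_mod_cast h6
    have a1 : -α.im * (2.71 * ((l : ℝ) / 2)) ≤ (2 * l + 10) * (2.71 * ((l : ℝ) / 2)) :=
      mul_le_mul_of_nonneg_right (by linarith) (by positivity)
    refine a1.trans ?_
    obtain ⟨t, ht, e⟩ : ∃ t : ℝ, 0 ≤ t ∧ (l : ℝ) = 25 + t := ⟨l - 25, by linarith, by ring⟩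
    rw [e]
    nlinarith [mul_nonneg ht ht, mul_nonneg ht (mul_nonneg ht ht)]

theorem pB_small (l : ℕ) (hl : l ≤ 2) {s : ℝ} (hs1 : 177275 / 65536 ≤ s)
    (hs2 : s ≤ 177283 / 65536) {α : ℂ} (h1 : (l : ℝ) / 2 ≤ α.re)
    (h : (l : ℝ) / 2 + 5 / 2 ≤ α.re ∨ α.im ≤ -2 ∨ 3 / 2 ≤ α.im) : Pos α (l + 6) s := by
  rcases le_total ((l : ℝ) / 2 + 5 / 2) α.re with h2 | h2
  · exact pB_far l (by linarith) h1 (Or.inl h2)
  rcases h with h | h5 | h4
  · exact pB_far l (by linarith) h1 (Or.inl h)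
  · rcases le_total α.im (-(2 * (l : ℝ) + 10)) with h4 | h4
    · exact pB_far l (by linarith) h1 (Or.inr h4)
    interval_cases l
    · exact pB_PX cX0a hs1 hs2 (by norm_num) (by norm_num) (by norm_num [q]) (by norm_num [q])
        (by norm_num [q]) (by norm_num [q]) h1 h2 h4 h5
    · exact pB_PX cX1a hs1 hs2 (by norm_num) (by norm_num) (by norm_num [q]) (by norm_num [q])
        (by norm_num [q]) (by norm_num [q]) h1 h2 h4 h5
    · exact pB_PX cX2a hs1 hs2 (by norm_num) (by norm_num) (by norm_num [q]) (by norm_num [q])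
        (by norm_num [q]) (by norm_num [q]) h1 h2 h4 h5
  · rcases le_total 4 α.im with h5 | h5
    · exact bl_small l hl h1 h2 (by linarith) (by linarith) h5
    interval_cases l
    · exact pB_PX cX0b hs1 hs2 (by norm_num) (by norm_num) (by norm_num [q]) (by norm_num [q])
        (by norm_num [q]) (by norm_num [q]) h1 h2 h4 h5
    · exact pB_PX cX1b hs1 hs2 (by norm_num) (by norm_num) (by norm_num [q]) (by norm_num [q])
        (by norm_num [q]) (by norm_num [q]) h1 h2 h4 h5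
    · exact pB_PX cX2b hs1 hs2 (by norm_num) (by norm_num) (by norm_num [q]) (by norm_num [q])
        (by norm_num [q]) (by norm_num [q]) h1 h2 h4 h5

theorem pB_PD {l : ℕ} {L : List (ℤ × ℤ)} {T : Tr} {x0 x1 y0 y1 : ℤ} {s om : ℝ}
    (h : cover (tD l 2974248075264 67108864 368092119040 67108864 L) T x0 x1 y0 y1 = true)
    (hs1 : 177275 / 65536 ≤ s) (hs2 : s ≤ 177283 / 65536) (ho1 : 21936 / 65536 ≤ om)
    (ho2 : om ≤ 21944 / 65536) {a b c d : ℝ} (e0 : (x0 : ℝ) = a * q) (e1 : (x1 : ℝ) = b * q)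
    (e2 : (y0 : ℝ) = c * q) (e3 : (y1 : ℝ) = d * q) {z : ℂ} (h1 : a ≤ z.re) (h2 : z.re ≤ b)
    (h3 : c ≤ z.im) (h4 : z.im ≤ d) (h5 : -1 / 2 ≤ z.re) :
    0 < (Dn l om s z * conj (L.map fun p => z + cz p.1 p.2 / q).prod).re := by
  have hq := q_pos.le
  have := cover_sound (Q := fun x y => -1 / 2 ≤ x → 0 < (Dn l om s (x + y * I) *
      conj (L.map fun p => (x + y * I : ℂ) + cz p.1 p.2 / q).prod).re)
    (tD_sound (by linarith) (pB_s hs1 hs2) (pB_o ho1 ho2)) T _ _ _ _ h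
    z.re z.im (e0 ▸ mul_le_mul_of_nonneg_right h1 hq) (e1 ▸ mul_le_mul_of_nonneg_right h2 hq)
    (e2 ▸ mul_le_mul_of_nonneg_right h3 hq) (e3 ▸ mul_le_mul_of_nonneg_right h4 hq) h5
  rwa [re_add_im] at this

theorem pB_b0 {s om : ℝ} (hs1 : 177275 / 65536 ≤ s) (hs2 : s ≤ 177283 / 65536)
    (ho1 : 21936 / 65536 ≤ om) (ho2 : om ≤ 21944 / 65536) : ∀ z ∈ Rb (-1 / 8) (5 / 2) 2,
      0 < (Dn 0 om s z * conj (z * (z - 1) * ((z + 1 / 2) * (z + 1 / 2) * (z + 2)))).re := by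
  rintro z ⟨⟨a1, a2, a3, a4⟩, h⟩
  have e : z * (z - 1) * ((z + 1 / 2) * (z + 1 / 2) * (z + 2))
      = (rt0.map fun p => z + cz p.1 p.2 / q).prod := by
    norm_num [rt0, cz, q]
    ring
  have h5 : -1 / 2 ≤ z.re := by linarith
  rw [e]
  rcases h with h | h | h | h
  · rcases le_total z.im 0 with m | m
    · exact pB_PD cD0a hs1 hs2 ho1 ho2 (by norm_num [q]) (by norm_num [q])
        (by norm_num [q]) (by norm_num [q]) a1 h.le a3 m h5
    · exact pB_PD cD0b hs1 hs2 ho1 ho2 (by norm_num [q]) (by norm_num [q])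
        (by norm_num [q]) (by norm_num [q]) a1 h.le m a4 h5
  · exact pB_PD cD0c hs1 hs2 ho1 ho2 (by norm_num [q]) (by norm_num [q])
      (by norm_num [q]) (by norm_num [q]) h.ge a2 a3 a4 h5
  · exact pB_PD cD0d hs1 hs2 ho1 ho2 (by norm_num [q]) (by norm_num [q])
      (by norm_num [q]) (by norm_num [q]) a1 a2 a3 h.le h5
  · exact pB_PD cD0e hs1 hs2 ho1 ho2 (by norm_num [q]) (by norm_num [q])
      (by norm_num [q]) (by norm_num [q]) a1 a2 h.ge a4 h5

theorem pB_b1 {s om : ℝ} (hs1 : 177275 / 65536 ≤ s) (hs2 : s ≤ 177283 / 65536)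
    (ho1 : 21936 / 65536 ≤ om) (ho2 : om ≤ 21944 / 65536) : ∀ z ∈ Rb 0 (5 / 2) 2,
      0 < (Dn 1 om s z * conj ((z - 1 / 2) * ((z + 1 / 8) * (z + 1 / 2) * (z + 1) * (z + 1)))).re := by
  rintro z ⟨⟨a1, a2, a3, a4⟩, h⟩
  have e : (z - 1 / 2) * ((z + 1 / 8) * (z + 1 / 2) * (z + 1) * (z + 1))
      = (rt1.map fun p => z + cz p.1 p.2 / q).prod := by
    norm_num [rt1, cz, q]
    ring
  have h5 : -1 / 2 ≤ z.re := by linarith
  rw [e]
  rcases h with h | h | h | h
  · rcases le_total z.im 0 with m | m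
    · exact pB_PD cD1a hs1 hs2 ho1 ho2 (by norm_num [q]) (by norm_num [q])
        (by norm_num [q]) (by norm_num [q]) a1 h.le a3 m h5
    · exact pB_PD cD1b hs1 hs2 ho1 ho2 (by norm_num [q]) (by norm_num [q])
        (by norm_num [q]) (by norm_num [q]) a1 h.le m a4 h5
  · exact pB_PD cD1c hs1 hs2 ho1 ho2 (by norm_num [q]) (by norm_num [q])
      (by norm_num [q]) (by norm_num [q]) h.ge a2 a3 a4 h5
  · exact pB_PD cD1d hs1 hs2 ho1 ho2 (by norm_num [q]) (by norm_num [q])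
      (by norm_num [q]) (by norm_num [q]) a1 a2 a3 h.le h5
  · exact pB_PD cD1e hs1 hs2 ho1 ho2 (by norm_num [q]) (by norm_num [q])
      (by norm_num [q]) (by norm_num [q]) a1 a2 h.ge a4 h5

theorem pB_b2 {s om : ℝ} (hs1 : 177275 / 65536 ≤ s) (hs2 : s ≤ 177283 / 65536)
    (ho1 : 21936 / 65536 ≤ om) (ho2 : om ≤ 21944 / 65536) : ∀ z ∈ Rb 0 (5 / 2) 2,
      0 < (Dn 2 om s z * conj ((z + 1 / 8 - 15 / 16 * I) * (z + 1 / 8 + 15 / 16 * I) * (z + 1) * (z + 1)
        * (z + 2))).re := by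
  rintro z ⟨⟨a1, a2, a3, a4⟩, h⟩
  have e : (z + 1 / 8 - 15 / 16 * I) * (z + 1 / 8 + 15 / 16 * I) * (z + 1) * (z + 1)
        * (z + 2)
      = (rt2.map fun p => z + cz p.1 p.2 / q).prod := by
    norm_num [rt2, cz, q]
    ring
  have h5 : -1 / 2 ≤ z.re := by linarith
  rw [e]
  rcases h with h | h | h | h
  · rcases le_total z.im 0 with m | m
    · exact pB_PD cD2a hs1 hs2 ho1 ho2 (by norm_num [q]) (by norm_num [q])
        (by norm_num [q]) (by norm_num [q]) a1 h.le a3 m h5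
    · exact pB_PD cD2b hs1 hs2 ho1 ho2 (by norm_num [q]) (by norm_num [q])
        (by norm_num [q]) (by norm_num [q]) a1 h.le m a4 h5
  · exact pB_PD cD2c hs1 hs2 ho1 ho2 (by norm_num [q]) (by norm_num [q])
      (by norm_num [q]) (by norm_num [q]) h.ge a2 a3 a4 h5
  · exact pB_PD cD2d hs1 hs2 ho1 ho2 (by norm_num [q]) (by norm_num [q])
      (by norm_num [q]) (by norm_num [q]) a1 a2 a3 h.le h5
  · exact pB_PD cD2e hs1 hs2 ho1 ho2 (by norm_num [q]) (by norm_num [q])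
      (by norm_num [q]) (by norm_num [q]) a1 a2 h.ge a4 h5

theorem pB_PF {bx b g : ℤ} {T : Tr} {x0 x1 y0 y1 : ℤ}
    (h : cover (tF bx b g) T x0 x1 y0 y1 = true) {o1 o2 s1 s2 : ℝ} {β γ : ℂ}
    (e0 : (x0 : ℝ) = o1 * q) (e1 : (x1 : ℝ) = o2 * q) (e2 : (y0 : ℝ) = s1 * q)
    (e3 : (y1 : ℝ) = s2 * q) (e4 : cz bx b / q = β) (e5 : cz g 0 / q = γ) {om s : ℝ}
    (h1 : o1 ≤ om) (h2 : om ≤ o2) (h3 : s1 ≤ s) (h4 : s ≤ s2) (hs : 0 < s) :
    0 < ((β * -dU (-I * om) 6 s + γ * UU (-I * om) 6 s) * conj (UU (-I * om) 6 s)).re := by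
  have hq := q_pos.le
  have h5 := cover_sound (Q := fun om s => 0 < s → 0 < ((cz bx b / q * bP0 (-I * om) 6 s +
      cz g 0 / q * bA0 (-I * om) 6 s) * conj (bA0 (-I * om) 6 s)).re) tF_sound T _ _ _ _ h
    om s (e0 ▸ mul_le_mul_of_nonneg_right h1 hq) (e1 ▸ mul_le_mul_of_nonneg_right h2 hq)
    (e2 ▸ mul_le_mul_of_nonneg_right h3 hq) (e3 ▸ mul_le_mul_of_nonneg_right h4 hq) hs
  rw [e4, e5] at h5
  have r : -1 < (-I * om).re := by simp
  have hV : WW (-I * om + 2 + 1) (6 + 1) s ≠ 0 :=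
    V_ne (c := 5 / 2) (by push_cast; norm_num) (by norm_num) (by simp; norm_num)
      (by simp; norm_num) hs
  have e : (β * -dU (-I * om) 6 s + γ * UU (-I * om) 6 s) * conj (UU (-I * om) 6 s)
      = (β * bP0 (-I * om) 6 s + γ * bA0 (-I * om) 6 s) * conj (bA0 (-I * om) 6 s)
        * ((‖bK (-I * om) 6 s‖ ^ 2 : ℝ) : ℂ) := by
    rw [lin_U r hs hV, lin_dU r hs hV, map_mul, ← Complex.normSq_eq_norm_sq,
      Complex.normSq_eq_conj_mul_self]
    ring
  rw [e, re_mul_ofReal]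
  exact mul_pos h5 (pow_pos (norm_pos_iff.2 (bK_ne r hV)) 2)

theorem pB_Hf {β : ℂ} {om s : ℝ} (hs : 0 < s)
    (h : 0 < ((β * -dU (-I * om) 6 s + 0 * UU (-I * om) 6 s) * conj (UU (-I * om) 6 s)).re) :
    0 < (β * Hf om s).re := by
  have hU : UU (-I * om) 6 s ≠ 0 := by
    intro h0
    rw [h0] at h
    simp at h
  have e : β * Hf om s = (β * -dU (-I * om) 6 s + 0 * UU (-I * om) 6 s) * conj (UU (-I * om) 6 s)
      * ((s / ‖UU (-I * om) 6 s‖ ^ 2 : ℝ) : ℂ) := by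
    have hc : conj (UU (-I * om) 6 s) ≠ 0 := (map_ne_zero _).2 hU
    rw [Hf, ofReal_div, ← Complex.normSq_eq_norm_sq, Complex.normSq_eq_conj_mul_self]
    generalize UU (-I * om) 6 s = u at hU hc ⊢
    generalize dU (-I * om) 6 s = d
    field_simp
    ring
  rw [e, re_mul_ofReal]
  exact mul_pos h (div_pos hs (pow_pos (norm_pos_iff.2 hU) 2))

theorem pB_ls {om s : ℝ} (hs1 : 177275 / 65536 ≤ s) (hs2 : s ≤ 177283 / 65536)
    (ho1 : 21936 / 65536 ≤ om) (ho2 : om ≤ 21944 / 65536) (hW : WW (1 - I * om) 7 s = 0) :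
    LS om s := by
  have hs : 0 < s := by linarith
  have L0 := ls_zero hs hW (by norm_num) (by norm_num) (pB_b0 hs1 hs2 ho1 ho2)
  have L1 := ls_one hs hW (by norm_num) (by norm_num) (pB_b1 hs1 hs2 ho1 ho2)
  have L2 := ls_two hs (pB_b2 hs1 hs2 ho1 ho2)
  refine ⟨fun l z hz hn => ?_, fun i => ?_⟩
  · have r1 : (z + l / 2 - I * om).re = z.re + l / 2 := by simp
    have r2 : (conj z + l / 2 - I * om).re = z.re + l / 2 := by simp
    have i1 : (z + l / 2 - I * om).im = z.im - om := by simp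
    have i2 : (conj z + l / 2 - I * om).im = -z.im - om := by simp
    rcases le_or_gt 3 l with hl | hl
    · exact DD_ne_of_pos l om s z (pB_big l hl hs1 hs2 (by rw [r1]; linarith))
        (pB_big l hl hs1 hs2 (by rw [r2]; linarith))
    by_cases hc : 5 / 2 ≤ z.re ∨ z.im ≤ -2 ∨ 2 ≤ z.im
    · refine DD_ne_of_pos l om s z (pB_small l (by omega) hs1 hs2 (by rw [r1]; linarith) ?_)
        (pB_small l (by omega) hs1 hs2 (by rw [r2]; linarith) ?_)
      · rw [r1, i1]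
        rcases hc with h | h | h
        · exact Or.inl (by linarith)
        · exact Or.inr (Or.inl (by linarith))
        · exact Or.inr (Or.inr (by linarith))
      · rw [r2, i2]
        rcases hc with h | h | h
        · exact Or.inl (by linarith)
        · exact Or.inr (Or.inr (by linarith))
        · exact Or.inr (Or.inl (by linarith))
    push Not at hc
    obtain ⟨c1, c2, c3⟩ := hc
    interval_cases l
    · exact L0.1 z ⟨by linarith, c1.le, c2.le, c3.le⟩ (fun h => hn 0 ⟨rfl, h.symm⟩)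
        (fun h => hn 2 ⟨rfl, h.symm⟩)
    · exact L1.1 z ⟨hz, c1.le, c2.le, c3.le⟩ (fun h => hn 1 ⟨rfl, h.symm⟩)
    · exact L2 z ⟨hz, c1.le, c2.le, c3.le⟩
  · fin_cases i
    · exact L0.2.1
    · exact L1.2
    · exact L0.2.2

theorem partB : ∃ (o1 o2 s1 s2 : ℝ) (b1 b2 : ℂ), Box o1 o2 s1 s2 b1 b2 := by
  refine ⟨21936 / 65536, 21944 / 65536, 177275 / 65536, 177283 / 65536, 3 + 5 * I, -I,
    by norm_num, by norm_num, by norm_num, by norm_num, by norm_num, by norm_num,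
    fun om ho => ⟨?_, ?_⟩, fun s hs => ⟨?_, ?_⟩, by simp, fun om ho s hs => ?_,
    fun om ho s hs => ?_, fun om ho s hs hW => pB_ls hs.1 hs.2 ho.1 ho.2 hW⟩
  · have := pB_Hf (by norm_num) (pB_PF cFf1a (β := -(3 + 5 * I)) (by norm_num [q])
      (by norm_num [q]) (by norm_num [q]) (by norm_num [q]) (by norm_num [cz, q]; ring)
      (by simp [cz]) ho.1 ho.2 (le_refl (177275 / 65536 : ℝ)) le_rfl (by norm_num))
    rwa [neg_mul, neg_re, neg_pos] at this
  · exact pB_Hf (by norm_num) (pB_PF cFf1b (by norm_num [q])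
      (by norm_num [q]) (by norm_num [q]) (by norm_num [q]) (by norm_num [cz, q]; ring)
      (by simp [cz]) ho.1 ho.2 (le_refl (177283 / 65536 : ℝ)) le_rfl (by norm_num))
  · have := pB_Hf (by linarith [hs.1]) (pB_PF cFf2a (β := -(-I)) (by norm_num [q])
      (by norm_num [q]) (by norm_num [q]) (by norm_num [q]) (by norm_num [cz, q])
      (by simp [cz]) (le_refl (21936 / 65536 : ℝ)) le_rfl hs.1 hs.2 (by linarith [hs.1]))
    rwa [neg_mul, neg_re, neg_pos] at this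
  · exact pB_Hf (by linarith [hs.1]) (pB_PF cFf2b (by norm_num [q])
      (by norm_num [q]) (by norm_num [q]) (by norm_num [q]) (by norm_num [cz, q]; ring)
      (by simp [cz]) (le_refl (21944 / 65536 : ℝ)) le_rfl hs.1 hs.2 (by linarith [hs.1]))
  · refine flux_inc (c := 5 / 2) (s0 := 2.7) (by push_cast; norm_num) (by simp)
      (by simp; norm_num) (by norm_num) hs ?_
    have := pB_PF cFune (β := I) (γ := 1 / 2) (s1 := 43 / 16) (s2 := 173 / 64) (s := 2.7)
      (by norm_num [q]) (by norm_num [q]) (by norm_num [q]) (by norm_num [q])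
      (by norm_num [cz, q]) (by norm_num [cz, q]) ho.1 ho.2 (by norm_num) (by norm_num)
      (by norm_num)
    refine this.trans_le (le_of_eq ?_)
    rw [fl, Complex.sq_norm, Complex.normSq_apply]
    simp
    ring
  · rcases le_total 4 s with h | h
    · exact (mono_big (by linarith [ho.1]) (by linarith [ho.2]) h).le
    have := pB_PF cFmono (β := 1) (γ := 0) (s1 := 11 / 4) (s2 := 4)
      (by norm_num [q]) (by norm_num [q]) (by norm_num [q]) (by norm_num [q])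
      (by norm_num [cz, q]) (by norm_num [cz, q]) ho.1 ho.2 (by linarith) h (by linarith)
    rw [one_mul, zero_mul, add_zero, neg_mul, neg_re, mul_comm] at this
    linarith

end Vale.Agent.P139
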