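import Vale.Agent.P139.Good
import Vale.Agent.P139.SpC
import Vale.Agent.P139.CBdd
import Vale.Agent.P139.CHA
import Vale.Agent.P139.CAg

open Complex MeasureTheory Filter Topology
open scoped ComplexConjugate ContDiff

namespace Vale.Agent.P139

/-- membership in the span of the radial modes -/
def pcGoal (m : ℕ) (om : ℝ) (w : ℝ → ℂ) (l : ℕ) (f g : ℝ → ℂ) : Prop :=
  ∃ c' : Fin 3 → ℂ, ∀ r : ℝ, 0 < r → f r = rsp1 m om w l c' r ∧ g r = rsp2 m om w l c' r

theorem pc_add1 (m : ℕ) (om : ℝ) (w : ℝ → ℂ) {l : ℕ} (c : Fin 3 → ℂ) {i : Fin 3} (hi : rl i = l)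
    (t : ℂ) (r : ℝ) :
    rsp1 m om w l (c + Pi.single i t) r = rsp1 m om w l c r + t * rmode m om w i r := by
  unfold rsp1
  have e : t * rmode m om w i r = ∑ j, if j = i then t * rmode m om w i r else 0 := by simp
  rw [e, ← Finset.sum_add_distrib]
  refine Finset.sum_congr rfl fun j _ => ?_
  by_cases h : j = i
  · subst h
    simp [hi, add_mul]
  · simp [h]

theorem pc_add2 (m : ℕ) (om : ℝ) (w : ℝ → ℂ) {l : ℕ} (c : Fin 3 → ℂ) {i : Fin 3} (hi : rl i = l)
    (t : ℂ) (r : ℝ) :
    rsp2 m om w l (c + Pi.single i t) r = rsp2 m om w l c r + t * conj (rmode m om w i r) := by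
  unfold rsp2
  have e : t * conj (rmode m om w i r) = ∑ j, if j = i then t * conj (rmode m om w i r) else 0 := by
    simp
  rw [e, ← Finset.sum_add_distrib]
  refine Finset.sum_congr rfl fun j _ => ?_
  by_cases h : j = i
  · subst h
    simp [hi, add_mul]
  · simp [h]

theorem pc_zero (m : ℕ) (om : ℝ) (w : ℝ → ℂ) {l : ℕ} {c : Fin 3 → ℂ}
    (hc : ∀ i, rl i = l → c i = 0) (r : ℝ) : rsp1 m om w l c r = 0 ∧ rsp2 m om w l c r = 0 := by
  unfold rsp1 rsp2
  constructor <;> refine Finset.sum_eq_zero fun j _ => ?_ <;> split_ifs with h <;> simp [hc j, *]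

theorem pc_sub {m : ℕ} {om : ℝ} {w : ℝ → ℂ} (hP : Prof m om w) {l : ℕ} {z : ℂ} {f g : ℝ → ℂ}
    {c : Fin 3 → ℂ} (h : RSol m om w l z f g (rsp1 m om w l c) (rsp2 m om w l c)) {i : Fin 3}
    (hi : rl i = l) (t : ℂ) :
    RSol m om w l z (fun r => f r - t * rmode m om w i r)
      (fun r => g r - t * conj (rmode m om w i r))
      (rsp1 m om w l (c + Pi.single i (-(t * (z - rz i)))))
      (rsp2 m om w l (c + Pi.single i (-(t * (z - rz i))))) := by
  have he := rmode_sol hP i
  rw [hi] at he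
  refine (h.sub_smul he t).congr_src (fun r _ => ?_) (fun r _ => ?_)
  · rw [pc_add1 m om w c hi]; ring
  · rw [pc_add2 m om w c hi]; ring

theorem pc_lift {m : ℕ} {om : ℝ} {w : ℝ → ℂ} {l : ℕ} {f g : ℝ → ℂ} {i : Fin 3} (hi : rl i = l)
    (t : ℂ) (h : pcGoal m om w l (fun r => f r - t * rmode m om w i r)
      (fun r => g r - t * conj (rmode m om w i r))) : pcGoal m om w l f g := by
  obtain ⟨c, hc⟩ := h
  refine ⟨c + Pi.single i t, fun r hr => ?_⟩
  rw [pc_add1 m om w c hi, pc_add2 m om w c hi, ← (hc r hr).1, ← (hc r hr).2]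
  constructor <;> ring

theorem pc_van {m : ℕ} {om : ℝ} {w : ℝ → ℂ} {l : ℕ} {f g : ℝ → ℂ} (h : Van f g) :
    pcGoal m om w l f g := ⟨0, fun r hr => by
  have := pc_zero m om w (l := l) (c := 0) (fun _ _ => rfl) r
  rw [(h r hr).1, (h r hr).2, this.1, this.2]
  exact ⟨rfl, rfl⟩⟩

theorem pc_sep {i j : Fin 3} (hij : j ≠ i) (hl : rl j = rl i) {z : ℂ}
    (hi : ‖z - rz i‖ < 1 / 4) : 1 / 4 ≤ ‖z - rz j‖ := by
  have h1 : ‖rz i - rz j‖ = 1 := by
    fin_cases i <;> fin_cases j <;> simp_all [rl, rz]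
  have h2 : ‖rz i - rz j‖ ≤ ‖z - rz j‖ + ‖z - rz i‖ := by
    have := norm_sub_le (z - rz j) (z - rz i)
    rwa [show z - rz j - (z - rz i) = rz i - rz j by ring] at this
  linarith

theorem partC {o1 o2 s1 s2 : ℝ} {b1 b2 : ℂ} (hB : Box o1 o2 s1 s2 b1 b2) :
    ∃ ε : ℝ, 0 < ε ∧ ε ≤ 1 / 4 ∧ ∀ (m : ℕ) (om σ : ℝ) (w : ℝ → ℂ), Prof m om w →
      om ∈ Set.Icc o1 o2 → σ ∈ Set.Icc s1 s2 → Good ε m om σ w → RadialMS m om w := by
  obtain ⟨c0, εB, LB, hc0, hεB, HB⟩ := regime_B
  obtain ⟨εA, LA, hεA, HA⟩ := regime_A c0 hc0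
  obtain ⟨εF, hεF, HF⟩ := bdd_far hB (max LA LB)
  choose εN hεN HN using bdd_near hB
  set ε : ℝ := min (min (min εA εB) (min εF (1 / 1000))) (min (εN 0) (min (εN 1) (εN 2))) with hε
  have e0 : 0 < ε := by
    simp only [hε, lt_min_iff]
    exact ⟨⟨⟨hεA, hεB⟩, hεF, by norm_num⟩, hεN 0, hεN 1, hεN 2⟩
  have eA : ε ≤ εA := by simp [hε]
  have eB : ε ≤ εB := by simp [hε]
  have eF : ε ≤ εF := by simp [hε]
  have e1 : ε ≤ 1 / 1000 := (min_le_left _ _).trans ((min_le_right _ _).trans (min_le_right _ _))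
  have eN : ∀ i, ε ≤ εN i := fun i => by fin_cases i <;> simp [hε]
  refine ⟨ε, e0, by linarith, fun m om σ w hP ho hs hG l z f g c hz h => ?_⟩
  have hc : Ctx ε m om σ w := ⟨hP, hG, e0, e1, hB.ho1.trans ho.1, ho.2.trans hB.ho2,
    hB.hs1.trans hs.1, hs.2.trans hB.hs2⟩
  have far : ∀ f g : ℝ → ℂ, HSol m om w l z f g → (∀ i, rl i = l → 1 / 4 ≤ ‖z - rz i‖) →
      Van f g := by
    intro f g h hf
    rcases le_total (Lb l z) (max LA LB) with h1 | h1
    · exact HF hc eF ho hs h h1 hf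
    rcases le_total ‖z‖ (c0 * Lb l z ^ 2) with h2 | h2
    · exact HB hc eB h ((le_max_right _ _).trans h1) h2
    rcases le_total z.im 0 with h3 | h3
    · exact HA hc eA h h3 ((le_max_left _ _).trans h1) h2
    · have := HA hc eA h.swap (by simpa using h3)
        (by rw [Lb_conj]; exact (le_max_left _ _).trans h1) (by rw [Lb_conj]; simpa using h2)
      intro r hr
      have h4 := this r hr
      simp only [map_eq_zero] at h4
      exact ⟨h4.2, h4.1⟩
  have key : ∀ S : Finset (Fin 3), ∀ (f g : ℝ → ℂ) (c : Fin 3 → ℂ),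
      RSol m om w l z f g (rsp1 m om w l c) (rsp2 m om w l c) →
      (∀ i, i ∉ S → rl i = l → 1 / 4 ≤ ‖z - rz i‖ → c i = 0) → pcGoal m om w l f g := by
    intro S
    induction S using Finset.induction_on with
    | empty =>
      intro f g c h hc0
      by_cases ha : ∀ i, rl i = l → 1 / 4 ≤ ‖z - rz i‖
      · have hz0 : ∀ i, rl i = l → c i = 0 := fun i hi => hc0 i (by simp) hi (ha i hi)
        obtain ⟨C, hC⟩ := partO hP l z hz f g c h
        exact pc_van (far f g ⟨h.congr_src (fun r _ => (pc_zero m om w hz0 r).1)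
          (fun r _ => (pc_zero m om w hz0 r).2), hz, ⟨C, fun k hk r hr => (hC k hk r hr).1⟩,
          ⟨C, fun k hk r hr => (hC k hk r hr).2⟩⟩ ha)
      · push Not at ha
        obtain ⟨i, hi, hn⟩ := ha
        have he := rmode_sol hP i
        set e := D4 (rmode m om w i) (fun r => conj (rmode m om w i r)) with hee
        have hne : (inner ℂ e e : ℂ) ≠ 0 := inner_self_ne_zero.2 (D4_mode_ne hP i)
        set t : ℂ := inner ℂ e (D4 f g) / inner ℂ e e with ht
        refine pc_lift hi t (pc_van ?_)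
        have h1 := pc_sub hP h hi t
        set κ : ℂ := c i - t * (z - rz i) with hκ
        have hz0 : ∀ j, rl j = l → (c + Pi.single i (-(c i)) : Fin 3 → ℂ) j = 0 := by
          intro j hj
          by_cases hji : j = i
          · subst hji; simp
          · have := hc0 j (by simp) hj (pc_sep hji (hj.trans hi.symm) hn)
            simp [hji, this]
        have ec : (c + Pi.single i (-(t * (z - rz i))) : Fin 3 → ℂ)
            = (c + Pi.single i (-(c i))) + Pi.single i κ := by
          rw [add_assoc, ← Pi.single_add]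
          congr 2
          rw [hκ]; ring
        rw [ec] at h1
        have h2 := h1.congr_src (p' := fun r => κ * rmode m om w i r)
          (q' := fun r => κ * conj (rmode m om w i r))
          (fun r _ => by rw [pc_add1 m om w _ hi, (pc_zero m om w hz0 r).1, zero_add])
          (fun r _ => by rw [pc_add2 m om w _ hi, (pc_zero m om w hz0 r).2, zero_add])
        subst hi
        refine HN i hc (eN i) ho hs hz hn.le h2 ?_
        rw [D4_sub_smul h.1 h.2.1 he.1 he.2.1, inner_sub_right, inner_smul_right, ← hee, ht,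
          div_mul_cancel₀ _ hne, sub_self]
    | insert i S _ ih =>
      intro f g c h hc0
      by_cases ha : rl i = l ∧ 1 / 4 ≤ ‖z - rz i‖
      · have hne : z - rz i ≠ 0 := by
          intro h0
          have := ha.2
          rw [h0, norm_zero] at this
          norm_num at this
        refine pc_lift ha.1 (c i / (z - rz i)) (ih _ _ _ (pc_sub hP h ha.1 _) fun j hj h1 h2 => ?_)
        by_cases hji : j = i
        · subst hji
          simp [div_mul_cancel₀ _ hne]
        · have := hc0 j (by simp [hji, hj]) h1 h2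
          simp [hji, this]
      · refine ih f g c h fun j hj h1 h2 => hc0 j ?_ h1 h2
        simp only [Finset.mem_insert, not_or]
        exact ⟨fun hji => ha (hji ▸ ⟨h1, h2⟩), hj⟩
  exact key Finset.univ f g c h fun i hi => absurd (Finset.mem_univ i) hi

end Vale.Agent.P139
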