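import Vale.Agent.P139.F1
import Vale.Agent.P139.F2
import Vale.Agent.P139.F0
import Vale.Agent.P139.SymP
import Vale.Agent.P139.LR
import Vale.Agent.P139.LTs
import Vale.Agent.P139.LTe
import Vale.Agent.P139.LTc

open Complex MeasureTheory Filter Topology
open scoped ComplexConjugate ContDiff

namespace Vale.Agent.P139

theorem lw_aa_nonneg (m : ℕ) : 0 ≤ aa m := by
  unfold aa
  positivity

theorem lw_sim_NN (K : ℕ) {M h s : ℝ} (hM : 1 ≤ M) (hh : 0 < h) (hs : 0 ≤ s) {b : ℂ}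
    (hb : 0 ≤ b.re) (z : ℝ → Z → ℂ) :
    NN K M (hsg h s) (sim b z s) ≤ NN K M h (z (1 - Real.exp (-s))) := by
  refine (NN_hsg K hM hh hs _).trans ?_
  rw [hsg_zero, sim, NN_smul K (by linarith)]
  refine mul_le_of_le_one_left' ?_
  rw [ENNReal.ofReal_le_one, Complex.norm_exp]
  refine Real.exp_le_one_iff.2 ?_
  simp only [neg_mul, neg_re, mul_re, ofReal_re, ofReal_im, mul_zero, sub_zero]
  nlinarith

theorem lw_sim_end (K : ℕ) {M h S : ℝ} (hM : 1 ≤ M) {b : ℂ} {a : ℝ} (hb : b.re = a)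
    (z : ℝ → Z → ℂ) {D : ℝ} (hD : NN K M (hsg h S) (sim b z S) ≤ ENNReal.ofReal D) :
    NN K M (h * Real.sqrt (Real.exp (-S))) (z (1 - Real.exp (-S)))
      ≤ ENNReal.ofReal (Real.exp (-S) ^ (-a) * D) := by
  have e1 : h * Real.sqrt (Real.exp (-S)) = hsg h S := by
    rw [hsg, ← Real.exp_half]
  have e2 : z (1 - Real.exp (-S)) = Complex.exp (b * S) • sim b z S := by
    rw [sim, smul_smul, ← Complex.exp_add]
    simp
  have e3 : ‖Complex.exp (b * S)‖ = Real.exp (-S) ^ (-a) := by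
    rw [Complex.norm_exp, ← Real.exp_mul]
    simp [hb, mul_comm]
  rw [e1, e2, NN_smul K (by linarith), e3, ENNReal.ofReal_mul (by positivity)]
  exact mul_le_mul_right hD _

theorem lw_sim_zero (b : ℂ) (z : ℝ → Z → ℂ) : sim b z 0 = z 0 := by
  simp [sim]

theorem lw_time {s S : ℝ} (hs : s ∈ Set.Icc 0 S) :
    1 - Real.exp (-s) ∈ Set.Icc 0 (1 - Real.exp (-S)) := by
  constructor
  · have := Real.exp_le_one_iff.2 (neg_nonpos.2 hs.1)
    linarith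
  · have := Real.exp_le_exp.2 (neg_le_neg hs.2)
    linarith

theorem lw_ar1 {P Q a b x y : ℝ} (hQ : 0 ≤ Q) (h1 : 1 ≤ a * b) (hx : x ≤ Q) (hy : y ≤ P * b) :
    x + y ≤ (P + Q * a) * b := by
  nlinarith

theorem lw_ar2 {K : ℕ} {P Ct L S d ε N0 φ θ : ℝ} (hCt : 0 ≤ Ct) (hL : 0 ≤ L) (hS : 0 ≤ S)
    (hd : 0 ≤ d) (hε : 0 < ε) (hε1 : ε ≤ 1) (hN0 : 0 ≤ N0) (hφ : 0 ≤ φ) :
    4 * (2 ^ K * (P + Ct * (d + ε * (L * (N0 + φ * S)) + φ) * Real.exp (θ * S)) + N0)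
        * Real.exp (-θ * S) + 4 * φ * S ≤ 4 * (2 ^ K * P + N0) * Real.exp (-θ * S)
        + (4 * 2 ^ K * Ct * (1 + L + L * S) + 4 * S) * (d + ε * N0 + φ) := by
  have t6 : Real.exp (θ * S) * Real.exp (-θ * S) = 1 := by
    rw [← Real.exp_add]; simp
  have t7 : d + ε * (L * (N0 + φ * S)) + φ ≤ (1 + L + L * S) * (d + ε * N0 + φ) := by
    have u1 : ε * (L * S * φ) ≤ L * S * φ := mul_le_of_le_one_left (by positivity) hε1
    have u2 : 0 ≤ L * d := by positivity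
    have u3 : 0 ≤ L * S * d := by positivity
    have u4 : 0 ≤ ε * N0 := by positivity
    have u5 : 0 ≤ L * S * (ε * N0) := by positivity
    have u6 : 0 ≤ L * φ := by positivity
    linarith
  have t9 : φ * S ≤ S * (d + ε * N0 + φ) := by
    have : 0 ≤ S * (d + ε * N0) := by positivity
    linarith
  have t10 : (2 : ℝ) ^ K * (Ct * (d + ε * (L * (N0 + φ * S)) + φ))
      ≤ 2 ^ K * (Ct * ((1 + L + L * S) * (d + ε * N0 + φ))) := by gcongr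
  calc _ = 4 * (2 ^ K * P + N0) * Real.exp (-θ * S)
        + 4 * (2 ^ K * (Ct * (d + ε * (L * (N0 + φ * S)) + φ)))
          * (Real.exp (θ * S) * Real.exp (-θ * S)) + 4 * (φ * S) := by ring
    _ ≤ _ := by
      rw [t6]
      linarith

theorem lw_ar3 {K : ℕ} {D Cm Cw x ε η δ φ : ℝ} (hD : 0 ≤ D) (hδ : 0 ≤ δ) (hφ : 0 ≤ φ)
    (h1 : 4 * (2 ^ K * D + (1 + Cm * D)) * x ≤ η / 2) (h2 : Cw * (D + (1 + Cm * D)) * ε ≤ η / 2) :
    4 * (2 ^ K * (D * δ) + (1 + Cm * D) * δ) * x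
      + Cw * (ε * (D * δ) + ε * ((1 + Cm * D) * δ) + φ) ≤ η * δ + (D + Cw) * φ := by
  have u1 := mul_le_mul_of_nonneg_right h1 hδ
  have u2 := mul_le_mul_of_nonneg_right h2 hδ
  have u3 : 0 ≤ D * φ := by positivity
  linarith

theorem lw_eps (U η : ℝ) (hU : 0 ≤ U) (hη : 0 < η) : ∃ ε : ℝ, 0 < ε ∧ ε ≤ 1 ∧ U * ε ≤ η := by
  refine ⟨min 1 (η / (U + 1)), by positivity, min_le_left _ _, ?_⟩
  calc U * min 1 (η / (U + 1)) ≤ (U + 1) * (η / (U + 1)) := by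
        gcongr
        · linarith
        · exact min_le_right _ _
    _ = η := by field_simp

/-- the window estimate in similarity time -/
theorem lw_win {m : ℕ} {om : ℝ} {w : ℝ → ℂ} {χ : E → ℝ} (hχ : Cut χ) {k1 k2 k3 : E → ℂ}
    (h1 : Dens (g1 m w) k1) (h2 : Dens (g2 m w) k2) (h3 : Dens (g3 m w) k3) {K : ℕ} (hK : 1 ≤ K)
    {M A θ : ℝ} (hM : 1 ≤ M) (hA1 : ‖toX K M k1‖ ≤ A) (hA2 : ‖toX K M k2‖ ≤ A)
    (hA3 : ‖toX K M k3‖ ≤ A) (hθ : 0 ≤ θ) (hKA : 4 * (A + 1) + θ ≤ K / 4) (S : ℝ) (hS : 0 ≤ S) :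
    ∃ C : ℝ, 0 ≤ C ∧ ∀ ε : ℝ, 0 < ε → ε ≤ 1 → ∃ h0 : ℝ, 0 < h0 ∧ ∀ h : ℝ, 0 < h → h ≤ h0 →
      ∀ (c1 c2 f1 f2 : ℝ → Z → ℂ) (B φ N0 P d : ℝ) (η : ℝ → XX 0 M), 0 ≤ φ → 0 ≤ N0 → 0 ≤ P →
        TS m om w χ h S c1 c2 f1 f2 →
        (∀ s ∈ Set.Icc 0 S, NN K M (hsg h s) (c1 s) ≤ ENNReal.ofReal B ∧
          NN K M (hsg h s) (c2 s) ≤ ENNReal.ofReal B ∧ NN K M (hsg h s) (f1 s) ≤ ENNReal.ofReal φ ∧
          NN K M (hsg h s) (f2 s) ≤ ENNReal.ofReal φ) →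
        (NN K M h (c1 0) ≤ ENNReal.ofReal N0 ∧ NN K M h (c2 0) ≤ ENNReal.ofReal N0) →
        Mild (LEE 0 M m om) (CC (toX 0 M k1) (toX 0 M k2) (toX 0 M k3) Set.univ) η →
        (∀ σ, 0 ≤ σ → ‖η σ‖ ≤ P * Real.exp (-θ * σ)) →
        ‖((IX 0 M h (c1 0), IX 0 M h (c2 0)) : XX 0 M) - η 0‖ ≤ d →
        NN K M (hsg h S) (c1 S) + NN K M (hsg h S) (c2 S) ≤ ENNReal.ofReal
          (4 * (2 ^ K * P + N0) * Real.exp (-θ * S) + C * (d + ε * N0 + φ)) := by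
  have hA : 0 ≤ A := (norm_nonneg _).trans hA1
  obtain ⟨Ct, hCt, Ht⟩ := tc_main (om := om) hχ h1 h2 h3 hK hM S hS
  obtain ⟨a1, ha1, H1⟩ := ker_NN h1 hχ K hM hA1
  obtain ⟨a2, ha2, H2⟩ := ker_NN h2 hχ K hM hA2
  obtain ⟨a3, ha3, H3⟩ := ker_NN h3 hχ K hM hA3
  set L : ℝ := 4 * Real.exp (4 * (A + 1) * S) with hL
  have hL0 : 0 ≤ L := by positivity
  refine ⟨4 * 2 ^ K * Ct * (1 + L + L * S) + 4 * S, by positivity, fun ε hε hε1 => ?_⟩
  obtain ⟨a0, ha0, H0⟩ := Ht ε hε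
  refine ⟨min (min a0 a1) (min a2 a3), by positivity, fun h hh hle c1 c2 f1 f2 B φ N0 P d η hφ hN0
    hP HS hB h0 hη hdec hd => ?_⟩
  have hle0 : h ≤ a0 := hle.trans ((min_le_left _ _).trans (min_le_left _ _))
  have hle1 : h ≤ a1 := hle.trans ((min_le_left _ _).trans (min_le_right _ _))
  have hle2 : h ≤ a2 := hle.trans ((min_le_right _ _).trans (min_le_left _ _))
  have hle3 : h ≤ a3 := hle.trans ((min_le_right _ _).trans (min_le_right _ _))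
  have hd0 : 0 ≤ d := (norm_nonneg _).trans hd
  have hk : ∀ s ∈ Set.Icc 0 S,
      NN K M (hsg h s) (Kh χ (g1 m w) (hsg h s)) ≤ ENNReal.ofReal (A + 1) ∧
      NN K M (hsg h s) (Kh χ (g2 m w) (hsg h s)) ≤ ENNReal.ofReal (A + 1) ∧
      NN K M (hsg h s) (Kh χ (g3 m w) (hsg h s)) ≤ ENNReal.ofReal (A + 1) := by
    intro s hs
    have e : hsg h s ≤ h := (hsg_le hh hs.1).trans (hsg_zero h).le
    exact ⟨H1 _ (hsg_pos hh s) (e.trans hle1), H2 _ (hsg_pos hh s) (e.trans hle2),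
      H3 _ (hsg_pos hh s) (e.trans hle3)⟩
  have hap := HS.apriori K hM hh (by linarith) hφ hN0 hk hB h0
  set N : ℝ := 4 * (N0 + φ * S) * Real.exp (4 * (A + 1) * S) with hN
  have hNL : N = L * (N0 + φ * S) := by rw [hN, hL]; ring
  have hN' : 0 ≤ N := by positivity
  have hcmp := H0 h hh hle0 c1 c2 f1 f2 N φ η hN' hφ HS (fun s hs =>
    ⟨le_self_add.trans (hap s hs), le_add_self.trans (hap s hs), (hB s hs).2.2⟩) hη
  set Q : ℝ := Ct * (d + ε * N + φ) with hQ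
  have hQ0 : 0 ≤ Q := by positivity
  have hY : ∀ σ ∈ Set.Icc 0 S,
      NN 0 M h (c1 σ) ≤ ENNReal.ofReal ((P + Q * Real.exp (θ * S)) * Real.exp (-θ * σ)) ∧
      NN 0 M h (c2 σ) ≤ ENNReal.ofReal ((P + Q * Real.exp (θ * S)) * Real.exp (-θ * σ)) := by
    intro σ hσ
    have s1 := summable_of_NN K (by linarith) _ _
      (ne_top_of_le_ne_top ENNReal.ofReal_ne_top (hB σ hσ).1)
    have s2 := summable_of_NN K (by linarith) _ _
      (ne_top_of_le_ne_top ENNReal.ofReal_ne_top (hB σ hσ).2.1)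
    have e1 : ‖((IX 0 M (hsg h σ) (c1 σ), IX 0 M (hsg h σ) (c2 σ)) : XX 0 M)‖
        ≤ (P + Q * Real.exp (θ * S)) * Real.exp (-θ * σ) := by
      have t1 := hcmp σ hσ
      have t2 := hdec σ hσ.1
      have t3 := norm_add_le (((IX 0 M (hsg h σ) (c1 σ), IX 0 M (hsg h σ) (c2 σ)) : XX 0 M) - η σ)
        (η σ)
      rw [sub_add_cancel] at t3
      have t4 : Ct * (‖((IX 0 M h (c1 0), IX 0 M h (c2 0)) : XX 0 M) - η 0‖ + ε * N + φ) ≤ Q := by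
        rw [hQ]
        gcongr
      have t5 : 1 ≤ Real.exp (θ * S) * Real.exp (-θ * σ) := by
        rw [← Real.exp_add]
        refine Real.one_le_exp ?_
        have := mul_le_mul_of_nonneg_left hσ.2 hθ
        linarith
      exact t3.trans (lw_ar1 hQ0 t5 (t1.trans t4) t2)
    rw [NN_zero M h _ s1, NN_zero M h _ s2, ← IX0_norm hM (hsg_pos hh σ) s1,
      ← IX0_norm hM (hsg_pos hh σ) s2]
    exact ⟨ENNReal.ofReal_le_ofReal ((norm_fst_le _).trans e1),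
      ENNReal.ofReal_le_ofReal ((norm_snd_le _).trans e1)⟩
  have hfin := HS.decay K hM hh hS (by linarith) hφ hN0 (by positivity) hθ hKA hk hB h0 hY
  refine hfin.trans (ENNReal.ofReal_le_ofReal ?_)
  rw [hQ, hNL]
  exact lw_ar2 hCt hL0 hS hd0 hε hε1 hN0 hφ

theorem lw_S (D η θ : ℝ) (hη : 0 < η) (hθ : 0 < θ) :
    ∃ S : ℝ, 0 ≤ S ∧ Real.exp (-S) ≤ 1 / 4 ∧ D * Real.exp (-θ * S) ≤ η := by
  have t1 : Tendsto (fun S : ℝ => Real.exp (-S)) atTop (𝓝 0) := Real.tendsto_exp_neg_atTop_nhds_zero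
  have t2 : Tendsto (fun S : ℝ => D * Real.exp (-θ * S)) atTop (𝓝 (D * 0)) := by
    refine Tendsto.const_mul _ ?_
    refine (t1.comp (tendsto_id.const_mul_atTop hθ)).congr fun S => ?_
    simp
  rw [mul_zero] at t2
  obtain ⟨S, h1, h2, h3⟩ := ((eventually_ge_atTop (0 : ℝ)).and
    ((t1.eventually (ge_mem_nhds (by norm_num : (0 : ℝ) < 1 / 4))).and
      (t2.eventually (ge_mem_nhds hη)))).exists
  exact ⟨S, h1, h2, h3⟩

theorem partLW {m : ℕ} {om : ℝ} {w : ℝ → ℂ} (h : Prof m om w) (hp : PMS m om w) :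
    LW m om w := by
  intro χ χ1 hχ hχ1
  obtain ⟨k1, h1⟩ : ∃ k, Dens (g1 m w) k := f2 2 two_pos _ h.sym_V1
  obtain ⟨k2, h2⟩ : ∃ k, Dens (g2 m w) k := f2 2 two_pos _ h.sym_V2
  obtain ⟨k3, h3⟩ : ∃ k, Dens (g3 m w) k :=
    f2 2 two_pos _ fun J => (h.sym_V2 J).imp fun _ hC => hC.conj
  set A : ℝ := (∫ ξ, ‖k1 ξ‖) + (∫ ξ, ‖k2 ξ‖) + (∫ ξ, ‖k3 ξ‖) + 1 with hA
  have i1 : 0 ≤ ∫ ξ, ‖k1 ξ‖ := integral_nonneg fun _ => norm_nonneg _
  have i2 : 0 ≤ ∫ ξ, ‖k2 ξ‖ := integral_nonneg fun _ => norm_nonneg _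
  have i3 : 0 ≤ ∫ ξ, ‖k3 ξ‖ := integral_nonneg fun _ => norm_nonneg _
  obtain ⟨K0, HK⟩ := lr_main h hp h1 h2 h3 A
  obtain ⟨K, hK0, hK1, hKA⟩ : ∃ K : ℕ, K0 ≤ K ∧ 1 ≤ K ∧ 4 * (A + 1) + 1 ≤ K / 4 := by
    obtain ⟨n, hn⟩ := exists_nat_ge (4 * (4 * (A + 1) + 1))
    refine ⟨K0 + n + 1, by omega, by omega, ?_⟩
    push_cast
    have : (0 : ℝ) ≤ K0 := Nat.cast_nonneg _
    linarith
  obtain ⟨M, hM, m1, m2, m3⟩ := ((eventually_ge_atTop (1 : ℝ)).and ((exists_M h1 K).and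
    ((exists_M h2 K).and (exists_M h3 K)))).exists
  have n1 : ‖toX K M k1‖ ≤ A := by linarith
  have n2 : ‖toX K M k2‖ ≤ A := by linarith
  have n3 : ‖toX K M k3‖ ≤ A := by linarith
  obtain ⟨C, θ, hC, hθ, hθ1, HR⟩ := HK K hK0 M hM n1 n2 n3
  obtain ⟨Cm, hCm, Hm⟩ := mode_NN h hχ K
  refine ⟨K, M, hK1, hM, fun η hη => ?_⟩
  set D : ℝ := C * 5 ^ K with hD
  have hD0 : 0 ≤ D := by positivity
  obtain ⟨S, hS, hS4, hSη⟩ := lw_S (4 * (2 ^ K * D + (1 + Cm * D))) (η / 2) θ (by positivity) hθ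
  obtain ⟨Cw, hCw, HW⟩ := lw_win (om := om) hχ1 h1 h2 h3 hK1 hM n1 n2 n3 hθ.le (by linarith) S hS
  obtain ⟨ε, hε, hε1, hεη⟩ := lw_eps (Cw * (D + (1 + Cm * D))) (η / 2) (by positivity)
    (by positivity)
  obtain ⟨a0, ha0, H0⟩ := HW ε hε hε1
  obtain ⟨a1, ha1, H1⟩ := mode_err h hχ hM ε hε
  refine ⟨Real.exp (-S), D + Cw, min 1 (min a0 a1), Real.exp_pos _, hS4, by positivity,
    by positivity, fun hh hh0 hle ζ1 ζ2 δ hδ hζ1 hζ2 => ?_⟩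
  have hle1 : hh ≤ 1 := hle.trans (min_le_left _ _)
  have hl0 : hh ≤ a0 := hle.trans ((min_le_right _ _).trans (min_le_left _ _))
  have hl1 : hh ≤ a1 := hle.trans ((min_le_right _ _).trans (min_le_right _ _))
  have hx : ‖((IX K M hh ζ1, IX K M hh ζ2) : XX K M)‖ ≤ 5 ^ K * δ := by
    have e : (1 + 4 * hh) ^ K * δ ≤ 5 ^ K * δ := by gcongr; linarith
    exact max_le ((IX_norm K hM hh0 hδ hζ1).trans e) ((IX_norm K hM hh0 hδ hζ2).trans e)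
  obtain ⟨β, e, η0, hβ, he1, he2, hmild, hini, hdec⟩ := HR (IX K M hh ζ1, IX K M hh ζ2)
  have hβD : ‖β‖ ≤ D * δ := by
    rw [hD, mul_assoc]
    exact hβ.trans (by gcongr)
  refine ⟨β, hβD.trans (mul_le_mul_of_nonneg_right (by linarith) hδ), fun z1 z2 F1 F2 B φ hφ HT hz1 hz2 hB => ?_⟩
  have hb1 : (b1 m om).re = aa m := by simp [b1]
  have hb2 : (b2 m om).re = aa m := by simp [b2]
  have ha := lw_aa_nonneg m
  have HS := tlin_ts h hχ1 hK1 hM hh0 hle1 hS HT fun t ht => ⟨(hB t ht).1, (hB t ht).2.1⟩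
  have hM0 : 0 < M := by linarith
  obtain ⟨q1, q2⟩ := Hm M hh hM hh0 hle1 β
  have hN : ENNReal.ofReal δ + ENNReal.ofReal (Cm * ‖β‖)
      ≤ ENNReal.ofReal ((1 + Cm * D) * δ) := by
    rw [← ENNReal.ofReal_add hδ (by positivity)]
    refine ENNReal.ofReal_le_ofReal ?_
    linarith [mul_le_mul_of_nonneg_left hβD hCm]
  have sζ1 := ne_top_of_le_ne_top ENNReal.ofReal_ne_top hζ1
  have sζ2 := ne_top_of_le_ne_top ENNReal.ofReal_ne_top hζ2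
  obtain ⟨r1, r2⟩ := H1 hh hh0 hl1 β e he1 he2
  have key := H0 hh hh0 hl0 _ _ _ _ B φ ((1 + Cm * D) * δ) (D * δ) (ε * (D * δ)) η0 hφ
    (by positivity) (by positivity) HS
    (fun s hs => ⟨(lw_sim_NN K hM hh0 hs.1 (by rw [hb1]; exact ha) _).trans (hB _ (lw_time hs)).1,
      (lw_sim_NN K hM hh0 hs.1 (by rw [hb2]; exact ha) _).trans (hB _ (lw_time hs)).2.1,
      (lw_sim_NN K hM hh0 hs.1 (by simp [hb1]; linarith) _).trans (hB _ (lw_time hs)).2.2.1,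
      (lw_sim_NN K hM hh0 hs.1 (by simp [hb2]; linarith) _).trans (hB _ (lw_time hs)).2.2.2⟩)
    (by
      rw [lw_sim_zero, lw_sim_zero, hz1, hz2]
      exact ⟨(NN_sub K hM0 _ _ _).trans ((add_le_add hζ1 q1).trans hN),
        (NN_sub K hM0 _ _ _).trans ((add_le_add hζ2 q2).trans hN)⟩)
    hmild
    (fun σ hσ => (hdec σ hσ).trans (by
      rw [hD]
      have := Real.exp_pos (-θ * σ)
      calc C * Real.exp (-θ * σ) * ‖((IX K M hh ζ1, IX K M hh ζ2) : XX K M)‖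
          ≤ C * Real.exp (-θ * σ) * (5 ^ K * δ) := by gcongr
        _ = _ := by ring))
    (by
      rw [lw_sim_zero, lw_sim_zero, hz1, hz2, hini,
        IX0_sub hM hh0 (summable_of_NN K hM0 _ _ sζ1) (summable_of_NN K hM0 _ _
          (ne_top_of_le_ne_top ENNReal.ofReal_ne_top q1)),
        IX0_sub hM hh0 (summable_of_NN K hM0 _ _ sζ2) (summable_of_NN K hM0 _ _
          (ne_top_of_le_ne_top ENNReal.ofReal_ne_top q2)),
        Jop_IX K hM hh0 sζ1, Jop_IX K hM hh0 sζ2]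
      have u : ε * ‖β‖ ≤ ε * (D * δ) := by gcongr
      refine max_le ?_ ?_
      · refine le_trans (le_of_eq ?_) (r1.trans u)
        rw [← norm_neg]
        congr 1
        simp only [Prod.fst_sub]
        abel
      · refine le_trans (le_of_eq ?_) (r2.trans u)
        rw [← norm_neg]
        congr 1
        simp only [Prod.snd_sub]
        abel)
  have key' := key.trans (ENNReal.ofReal_le_ofReal (lw_ar3 hD0 hδ hφ hSη hεη))
  exact ⟨lw_sim_end K hM hb1 z1 (le_self_add.trans key'),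
    lw_sim_end K hM hb2 z2 (le_add_self.trans key')⟩

end Vale.Agent.P139
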