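import Vale.Agent.P139.MStep
import Vale.Agent.P139.MIter
import Vale.Agent.P139.MG2

open Complex MeasureTheory Filter Topology
open scoped ComplexConjugate ContDiff

namespace Vale.Agent.P139

theorem partM {m : ℕ} {om : ℝ} {w : ℝ → ℂ} (h : Prof m om w) (hl : LW m om w) :
    ∃ α1 : ℝ, ∀ α : ℝ, α1 < α → BlowsUp 12 (2 * m + 1) α := by
  obtain ⟨χ, hχ⟩ := exists_cut
  obtain ⟨K, M, δ, h0, hM, hδ0, hδ, hh, hh1, hs⟩ := step h hl hχ
  refine ⟨K + 12, fun α hα k hk v hv Ω _ P _ g hm hi hg => ?_⟩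
  have hM0 : (0 : ℝ) < M := one_pos.trans_le hM
  have hq := gw_wq K hM0 h0
  have hh2 : (0 : ℝ) < h0 ^ 2 := by positivity
  obtain ⟨C, -, hC⟩ := NN_Kh_dil hχ (mul_pos two_pos h.aa_pos) h.symA_w 0 K one_pos
  have hA := hC M h0 hM hh hh1 1 ⟨le_rfl, one_le_two⟩
  rw [dil_one] at hA
  have hc : NW (wq K M h0) (((h0 ^ 2 : ℝ) : ℂ) ^ (-sg m om) • Kh χ (rad w) h0) ≠ ⊤ := by
    rw [NW_smul]
    exact ENNReal.mul_ne_top ENNReal.ofReal_ne_top (ne_top_of_le_ne_top ENNReal.ofReal_ne_top hA)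
  have hn : ∀ n : Z, (0 : ℝ) < (1 + nsq n) ^ (-α / 2) := fun n => by
    rw [nsq_eq]; positivity
  obtain ⟨S, hS, hP, hb⟩ := gauss_ball (fun n => one_pos.trans_le (hq.one n)) hn
    (summable_weight K hM hh hh1 hα) hv P g hm hi hg hc hδ0
  refine ⟨S, hS, hP, fun x hx => ?_⟩
  rintro ⟨c, hc⟩
  have hk' : 6 < k := by
    have : ((6 : ℕ) : ℝ) < k := by push_cast at hk ⊢; linarith
    exact_mod_cast this
  refine no_global h hχ hM hδ0 hδ hh hh1 hs (solH_of_global hk' hc) ?_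
  have e : ((h0 ^ 2 : ℝ) : ℂ) ^ sg m om • c 0 - Kh χ (rad w) h0 = ((h0 ^ 2 : ℝ) : ℂ) ^ sg m om •
      (c 0 - ((h0 ^ 2 : ℝ) : ℂ) ^ (-sg m om) • Kh χ (rad w) h0) := by
    rw [smul_sub, smul_smul, cpow_mul_neg hh2, one_smul]
  rw [e, NN_eq, ← one_mul δ, hc.init]
  refine NW_smul_le ?_ (hb x hx)
  rw [norm_cpow_sg hh2]
  exact Real.rpow_le_one hh2.le (by nlinarith) h.aa_pos.le

end Vale.Agent.P139
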