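import Vale.Agent.P139.RLin

open Complex MeasureTheory Filter Topology
open scoped ComplexConjugate ContDiff

namespace Vale.Agent.P139

variable {m : ℕ} {om : ℝ} {w : ℝ → ℂ} {k : ℕ} {z : ℂ} {f g p q P : E → ℂ}

theorem partR_sub {F G : E → ℂ} (hF : Continuous F) (hG : Continuous G) (hP : Continuous P) :
    mom (fun y => F y - G y) P = fun r => mom F P r - mom G P r := by
  funext r
  have hsm : Continuous fun y : E => r • y := continuous_const_smul r
  have c1 : Continuous fun y => F (r • y) * P y := (hF.comp hsm).mul hP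
  have c2 : Continuous fun y => G (r • y) * P y := (hG.comp hsm).mul hP
  rw [mom, mom, mom, ← Av_sub c1 c2]
  exact Av_congr fun y _ => by ring

theorem partR_cont (h : Prof m om w) (γ : Co) :
    Continuous (mode1 m om w γ) ∧ Continuous (mode2 m om w γ) := by
  obtain ⟨C, -, hC⟩ := h.sym_mode 0
  exact ⟨(hC γ).1.1.continuous, (hC γ).2.1.continuous⟩

/-- the moments of the difference between a solution and a mode -/
theorem partR_dif (h : Prof m om w) (hs : PSol m om w z f g p q) (γ : Co) (hP : Hom k P) :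
    Cb1 (mom (fun y => f y - mode1 m om w γ y) P) ∧
    Cb1 (mom (fun y => g y - mode2 m om w γ y) P) ∧ ∀ r : ℝ, 0 < r →
      RL1 m om w k z (mom (fun y => f y - mode1 m om w γ y) P)
          (mom (fun y => g y - mode2 m om w γ y) P) r +
        mom (fun y => f y - mode1 m om w γ y) (lap P) r / r ^ 2 =
        I * (mom p P r - (Av P * (z * γ.1) * rmode m om w 0 r +
          (z - 1 / 2) * trm γ.2.2 P * rmode m om w 1 r +
          Av P * ((z - 1) * γ.2.1) * rmode m om w 2 r)) ∧
      RL2 m om w k z (mom (fun y => f y - mode1 m om w γ y) P)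
          (mom (fun y => g y - mode2 m om w γ y) P) r +
        mom (fun y => g y - mode2 m om w γ y) (lap P) r / r ^ 2 =
        -I * (mom q P r - (Av P * (z * γ.1) * cmode m om w 0 r +
          (z - 1 / 2) * trm γ.2.2 P * cmode m om w 1 r +
          Av P * ((z - 1) * γ.2.1) * cmode m om w 2 r)) := by
  have hf : Continuous f := hs.1.1.continuous
  have hg : Continuous g := hs.2.1.1.continuous
  obtain ⟨m1, m2⟩ := partR_cont h γ
  have hL : Continuous (lap P) := continuous_lap hP.c2
  have r1 : ∀ i, Cb1 (rmode m om w i) := fun i => (rmode_sol h i).1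
  have r2 : ∀ i, Cb1 (cmode m om w i) := fun i => (rmode_sol h i).2.1
  have e1 : mom (fun y => f y - mode1 m om w γ y) P = fun r => mom f P r -
      Av P * γ.1 * rmode m om w 0 r - trm γ.2.2 P * rmode m om w 1 r -
      Av P * γ.2.1 * rmode m om w 2 r := by
    rw [partR_sub hf m1 hP.cont]
    funext r
    rw [mom_mode1 hP.cont]
    ring
  have e2 : mom (fun y => g y - mode2 m om w γ y) P = fun r => mom g P r -
      Av P * γ.1 * cmode m om w 0 r - trm γ.2.2 P * cmode m om w 1 r -
      Av P * γ.2.1 * cmode m om w 2 r := by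
    rw [partR_sub hg m2 hP.cont]
    funext r
    rw [mom_mode2 hP.cont]
    ring
  have a0 := cb1_mom hs.1 hP.cont
  have a1 := a0.comb (r1 0) (Av P * γ.1)
  have a2 := a1.comb (r1 1) (trm γ.2.2 P)
  have b0 := cb1_mom hs.2.1 hP.cont
  have b1 := b0.comb (r2 0) (Av P * γ.1)
  have b2 := b1.comb (r2 1) (trm γ.2.2 P)
  rw [e1, e2]
  refine ⟨a2.comb (r1 2) _, b2.comb (r2 2) _, fun r hr => ?_⟩
  obtain ⟨s1, s2⟩ := hs.mom_eq hP hr
  obtain ⟨u0, v0⟩ := RL_mode h 0 k z hr
  obtain ⟨u1, v1⟩ := RL_mode h 1 k z hr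
  obtain ⟨u2, v2⟩ := RL_mode h 2 k z hr
  have l0 : rl 0 = 0 := rfl
  have l1 : rl 1 = 1 := rfl
  have l2 : rl 2 = 0 := rfl
  have z0 : rz 0 = 0 := rfl
  have z1 : rz 1 = 1 / 2 := rfl
  have z2 : rz 2 = 1 := rfl
  rw [l0, z0] at u0 v0
  rw [l1, z1] at u1 v1
  rw [l2, z2] at u2 v2
  constructor
  · rw [RL1_comb a2 (r1 2), RL1_comb a1 (r1 1), RL1_comb a0 (r1 0), u0, u1, u2,
      partR_sub hf m1 hL]
    simp only [mom_mode1 hL, trm_lap hP, Av_lap hP]
    push_cast
    linear_combination s1
  · rw [RL2_comb b2 (r2 2), RL2_comb b1 (r2 1), RL2_comb b0 (r2 0), v0, v1, v2,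
      partR_sub hg m2 hL]
    simp only [mom_mode2 hL, trm_lap hP, Av_lap hP]
    push_cast
    linear_combination s2

theorem partR_mom0 (F : E → ℂ) (r : ℝ) : mom F (fun _ => 0) r = 0 := by simp [mom, Av_const]

theorem partR_rsp (c : Fin 3 → ℂ) (r : ℝ) :
    (rsp1 m om w 0 c r = c 0 * rmode m om w 0 r + c 2 * rmode m om w 2 r ∧
      rsp2 m om w 0 c r = c 0 * cmode m om w 0 r + c 2 * cmode m om w 2 r) ∧
    (rsp1 m om w 1 c r = c 1 * rmode m om w 1 r ∧ rsp2 m om w 1 c r = c 1 * cmode m om w 1 r) ∧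
    ∀ l, rsp1 m om w (l + 2) c r = 0 ∧ rsp2 m om w (l + 2) c r = 0 := by
  simp [rsp1, rsp2, cmode, Fin.sum_univ_three, rl]

/-- harmonic moments -/
theorem partR_base (hr : RadialMS m om w) (hz : 0 ≤ z.re) (hs : PSol m om w z f g p q)
    (hP : Hom k P) (hl : lap P = fun _ => 0) (c : Fin 3 → ℂ)
    (hc : ∀ r, mom p P r = rsp1 m om w k c r ∧ mom q P r = rsp2 m om w k c r) :
    ∃ c' : Fin 3 → ℂ, ∀ r : ℝ, 0 < r →
      mom f P r = rsp1 m om w k c' r ∧ mom g P r = rsp2 m om w k c' r := by
  refine hr k z _ _ c hz ⟨cb1_mom hs.1 hP.cont, cb1_mom hs.2.1 hP.cont, fun r hr => ?_,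
    fun r hr => ?_⟩
  · have h1 := (hs.mom_eq hP hr).1
    rw [hl, partR_mom0, zero_div, add_zero, (hc r).1] at h1
    exact h1
  · have h1 := (hs.mom_eq hP hr).2
    rw [hl, partR_mom0, zero_div, add_zero, (hc r).2] at h1
    exact h1

/-- the choice of the mode -/
theorem partR_low (h : Prof m om w) (hr : RadialMS m om w) (hz : 0 ≤ z.re) {β : Co}
    (hs : PSol m om w z f g (mode1 m om w β) (mode2 m om w β)) : ∃ γ : Co,
    (∀ r : ℝ, 0 < r → mom (fun y => f y - mode1 m om w γ y) (fun _ => 1) r = 0 ∧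
      mom (fun y => g y - mode2 m om w γ y) (fun _ => 1) r = 0) ∧
    ∀ j, ∀ r : ℝ, 0 < r → mom (fun y => f y - mode1 m om w γ y) (rCo j) r = 0 ∧
      mom (fun y => g y - mode2 m om w γ y) (rCo j) r = 0 := by
  have hf : Continuous f := hs.1.1.continuous
  have hg : Continuous g := hs.2.1.1.continuous
  have hA : (rA : ℂ) ≠ 0 := by exact_mod_cast rA_pos.ne'
  obtain ⟨c0, h0⟩ := partR_base hr hz hs hom_one (funext lap_one)
    ![rA * β.1, 0, rA * β.2.1] fun r => by
      rw [(partR_rsp _ r).1.1, (partR_rsp _ r).1.2, mom_mode1 continuous_const,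
        mom_mode2 continuous_const, trm_one, Av_const]
      simp
  have h1 := fun j => partR_base hr hz hs (hom_co j) (funext (lap_co j))
    ![0, rA / 12 * β.2.2 j, 0] fun r => by
      rw [(partR_rsp _ r).2.1.1, (partR_rsp _ r).2.1.2, mom_mode1 (continuous_co j),
        mom_mode2 (continuous_co j), trm_co, Av_co]
      simp
  choose c1 h1 using h1
  obtain ⟨m1, m2⟩ := partR_cont h (c0 0 / rA, c0 2 / rA, fun j => 12 * c1 j 1 / rA)
  refine ⟨(c0 0 / rA, c0 2 / rA, fun j => 12 * c1 j 1 / rA), fun r hr => ?_, fun j r hr => ?_⟩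
  · rw [partR_sub hf m1 continuous_const, partR_sub hg m2 continuous_const]
    simp only [(h0 r hr).1, (h0 r hr).2, (partR_rsp _ r).1.1, (partR_rsp _ r).1.2,
      mom_mode1 continuous_const, mom_mode2 continuous_const, trm_one, Av_const]
    constructor <;> field_simp <;> ring
  · rw [partR_sub hf m1 (continuous_co j), partR_sub hg m2 (continuous_co j)]
    simp only [(h1 j r hr).1, (h1 j r hr).2, (partR_rsp _ r).2.1.1, (partR_rsp _ r).2.1.2,
      mom_mode1 (continuous_co j), mom_mode2 (continuous_co j), trm_co, Av_co]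
    constructor <;> field_simp <;> ring

theorem partR_deg0 {F : E → ℂ} (hP : Hom 0 P) {r : ℝ} (h : mom F (fun _ => 1) r = 0) :
    mom F P r = 0 := by
  have e : mom F P r = P 0 * mom F (fun _ => 1) r := by
    rw [mom, mom, ← Av_mul]
    exact Av_congr fun y _ => by rw [hP.zero_eq y]; ring
  rw [e, h, mul_zero]

theorem partR_deg1 {F : E → ℂ} (hF : Continuous F) (hP : Hom 1 P) {r : ℝ}
    (h : ∀ j, mom F (rCo j) r = 0) : mom F P r = 0 := by
  have c : ∀ j, Continuous fun y => fderiv ℝ P 0 (rEe j) * (F (r • y) * rCo j y) := fun j =>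
    continuous_const.mul ((hF.comp (continuous_const_smul r)).mul (continuous_co j))
  have e : mom F P r = Av fun y => ∑ j, fderiv ℝ P 0 (rEe j) * (F (r • y) * rCo j y) := by
    refine Av_congr fun y _ => ?_
    rw [hP.one_eq y, Finset.mul_sum]
    exact Finset.sum_congr rfl fun j _ => by ring
  rw [e, Av_sum _ c]
  refine Finset.sum_eq_zero fun j _ => ?_
  rw [Av_mul]
  exact mul_eq_zero_of_right _ (h j)

theorem partR_end {F : E → ℂ} (hF : Continuous F)
    (h : ∀ k P, Hom k P → ∀ r : ℝ, 0 < r → mom F P r = 0) : F = fun _ => 0 := by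
  refine Continuous.ext_on (dense_compl_singleton (0 : E)) hF continuous_const fun x hx => ?_
  have h0 : 0 < ‖x‖ := norm_pos_iff.2 hx
  have h1 := hom_total (F := fun y => F (‖x‖ • y)) (hF.comp (continuous_const_smul _))
    (fun k P hP => h k P hP _ h0) (‖x‖⁻¹ • x) (by
      rw [norm_smul, norm_inv, norm_norm, inv_mul_cancel₀ h0.ne'])
  rwa [smul_inv_smul₀ h0.ne'] at h1

theorem partR {m : ℕ} {om : ℝ} {w : ℝ → ℂ} (h : Prof m om w) (hr : RadialMS m om w) :
    PMS m om w := by
  intro z f g β hz hs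
  obtain ⟨γ, h0, h1⟩ := partR_low h hr hz hs
  have hA : (rA : ℂ) ≠ 0 := by exact_mod_cast rA_pos.ne'
  obtain ⟨m1, m2⟩ := partR_cont h γ
  have hF : Continuous fun y => f y - mode1 m om w γ y := hs.1.1.continuous.sub m1
  have hG : Continuous fun y => g y - mode2 m om w γ y := hs.2.1.1.continuous.sub m2
  -- the source vanishes
  have s0 : ∀ r : ℝ, 0 < r →
      (β.1 - z * γ.1) * rmode m om w 0 r + (β.2.1 - (z - 1) * γ.2.1) * rmode m om w 2 r = 0 ∧
      (β.1 - z * γ.1) * cmode m om w 0 r + (β.2.1 - (z - 1) * γ.2.1) * cmode m om w 2 r = 0 := by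
    intro r hr
    obtain ⟨a, b⟩ := (partR_dif h hs γ hom_one).2.2 r hr
    rw [(RL_zero h0 hr).1, funext lap_one, partR_mom0, mom_mode1 continuous_const, trm_one,
      trm_one, Av_const] at a
    rw [(RL_zero h0 hr).2, funext lap_one, partR_mom0, mom_mode2 continuous_const, trm_one,
      trm_one, Av_const] at b
    constructor
    · refine mul_left_cancel₀ (mul_ne_zero I_ne_zero hA) ?_
      linear_combination -a
    · refine mul_left_cancel₀ (mul_ne_zero I_ne_zero hA) ?_
      linear_combination b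
  have s1 : ∀ r : ℝ, 0 < r → ∀ j,
      (β.2.2 j - (z - 1 / 2) * γ.2.2 j) * rmode m om w 1 r = 0 ∧
      (β.2.2 j - (z - 1 / 2) * γ.2.2 j) * cmode m om w 1 r = 0 := by
    intro r hr j
    obtain ⟨a, b⟩ := (partR_dif h hs γ (hom_co j)).2.2 r hr
    rw [(RL_zero (h1 j) hr).1, funext (lap_co j), partR_mom0, mom_mode1 (continuous_co j), trm_co,
      trm_co, Av_co] at a
    rw [(RL_zero (h1 j) hr).2, funext (lap_co j), partR_mom0, mom_mode2 (continuous_co j), trm_co,
      trm_co, Av_co] at b
    constructor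
    · refine mul_left_cancel₀ (mul_ne_zero I_ne_zero hA) ?_
      linear_combination (-12) * a
    · refine mul_left_cancel₀ (mul_ne_zero I_ne_zero hA) ?_
      linear_combination 12 * b
  have key : ∀ k P, Hom k P → ∀ r : ℝ, 0 < r →
      mom (fun y => f y - mode1 m om w γ y) P r = 0 ∧
        mom (fun y => g y - mode2 m om w γ y) P r = 0 := by
    intro k
    induction k using Nat.strong_induction_on with
    | _ k ih =>
      intro P hP
      match k, ih, hP with
      | 0, _, hP => exact fun r hr => ⟨partR_deg0 hP (h0 r hr).1, partR_deg0 hP (h0 r hr).2⟩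
      | 1, _, hP => exact fun r hr => ⟨partR_deg1 hF hP fun j => (h1 j r hr).1,
          partR_deg1 hG hP fun j => (h1 j r hr).2⟩
      | l + 2, ih, hP =>
        obtain ⟨a, b, c⟩ := partR_dif h hs γ hP
        have hi := ih l (by omega) _ hP.lap
        obtain ⟨c', hc'⟩ := hr (l + 2) z _ _ 0 hz ⟨a, b, fun r hr => by
          have e := (c r hr).1
          have t := trm_zero (fun j => (s1 r hr j).1) P
          rw [trm_sub] at t
          rw [(hi r hr).1, mom_mode1 hP.cont] at e
          rw [((partR_rsp _ r).2.2 l).1]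
          change RL1 m om w (l + 2) z _ _ r = _
          linear_combination e + I * t + I * Av P * (s0 r hr).1, fun r hr => by
          have e := (c r hr).2
          have t := trm_zero (fun j => (s1 r hr j).2) P
          rw [trm_sub] at t
          rw [(hi r hr).2, mom_mode2 hP.cont] at e
          rw [((partR_rsp _ r).2.2 l).2]
          change RL2 m om w (l + 2) z _ _ r = _
          linear_combination e - I * t - I * Av P * (s0 r hr).2⟩
        intro r hr
        have := hc' r hr
        rwa [((partR_rsp _ r).2.2 l).1, ((partR_rsp _ r).2.2 l).2] at this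
  have e1 := partR_end hF fun k P hP r hr => (key k P hP r hr).1
  have e2 := partR_end hG fun k P hP r hr => (key k P hP r hr).2
  exact ⟨γ, funext fun y => sub_eq_zero.1 (congrFun e1 y),
    funext fun y => sub_eq_zero.1 (congrFun e2 y)⟩

end Vale.Agent.P139
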