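import Vale.Agent.P139.PartA
import Vale.Agent.P139.PartB
import Vale.Agent.P139.PartC
import Vale.Agent.P139.PartR
import Vale.Agent.P139.PartLW
import Vale.Agent.P139.PartM

open Complex MeasureTheory Filter Topology
open scoped ComplexConjugate ContDiff

namespace Vale.Agent.P139

theorem main : ∃ p : ℕ, Odd p ∧ 3 ≤ p ∧ (1 : ℝ) < ((12 : ℕ) : ℝ) / 2 - 2 / (p - 1) ∧
    ∃ α1 : ℝ, ∀ α : ℝ, α1 < α → BlowsUp 12 p α := by
  obtain ⟨o1, o2, s1, s2, b1, b2, hB⟩ := partB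
  obtain ⟨ε, hε, h4, hC⟩ := partC hB
  obtain ⟨m, om, σ, w, hP, ho, hs, hG⟩ := partA hB ε hε h4
  have hM := partM hP (partLW hP (partR hP (hC m om σ w hP ho hs hG)))
  have hm : (1 : ℝ) ≤ m := by exact_mod_cast hP.m_pos
  refine ⟨2 * m + 1, ⟨m, rfl⟩, by have := hP.m_pos; omega, ?_, hM⟩
  have h1 : (2 : ℝ) / (((2 * m + 1 : ℕ) : ℝ) - 1) ≤ 1 := by
    push_cast
    rw [div_le_one (by linarith)]
    linarith
  push_cast at h1 ⊢
  linarith

end Vale.Agent.P139
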