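import Vale.Agent.P139.AMatch
import Vale.Agent.P139.ADecay
import Vale.Agent.P139.AExt

open Complex MeasureTheory Filter Topology Set
open scoped ComplexConjugate ContDiff

namespace Vale.Agent.P139

open PA

theorem partA_ode {m : ℕ} {om P0 : ℝ} {w : ℝ → ℂ} (h : Inn m om P0 w)
    (h1 : ∀ s : ℝ, 0 < s → ‖w s‖ ≤ 1) : POde m om w := by
  intro s hs
  have h2 : ‖w s‖ ^ (2 * m) ≤ 3 / 2 := (pow_le_one₀ (norm_nonneg _) (h1 s hs)).trans (by norm_num)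
  have h3 := GG_add m om 1 (w s)
  rw [one_mul, kap_of_le h2] at h3
  rw [h.ode s, ← h3, al]

theorem partA_outB {ρ ρ' B B' a s : ℝ} {K : ℕ} {w : ℝ → ℂ} (h : OutB ρ B a K w s) (hs : 0 < s)
    (h1 : ρ ≤ ρ') (h2 : B ≤ B') : OutB ρ' B' a K w s := by
  have h0 : 0 ≤ (3 / s) ^ a := by positivity
  refine ⟨h.1.trans (mul_le_mul_of_nonneg_right h1 h0), fun j hj => (h.2 j hj).trans ?_⟩
  exact mul_le_mul_of_nonneg_right (mul_le_mul_of_nonneg_right h2 h0) (by positivity)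

theorem partA_mid {ρ B a s : ℝ} {w : ℝ → ℂ} (ha : 0 ≤ a) (hs : 0 < s) (hs3 : s ≤ 3) (hρ : 0 ≤ ρ)
    (h1 : ‖w s‖ ≤ ρ) (h2 : ∀ j ≤ 8, ‖iteratedDeriv j w s‖ ≤ B) :
    OutB ρ (B * 3 ^ 8) a 8 w s := by
  have h3 : 1 ≤ (3 / s) ^ a := Real.one_le_rpow ((one_le_div hs).2 hs3) ha
  have hB : 0 ≤ B := (norm_nonneg _).trans (h2 0 (by omega))
  refine ⟨h1.trans (le_mul_of_one_le_right hρ h3), fun j hj => (h2 j hj).trans ?_⟩
  have h4 : (1 / 3 : ℝ) ^ 8 ≤ (1 / s) ^ j :=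
    (pow_le_pow_of_le_one (by norm_num) (by norm_num) hj).trans
      (pow_le_pow_left₀ (by norm_num) (one_div_le_one_div_of_le hs hs3) j)
  calc B = B * 3 ^ 8 * 1 * (1 / 3) ^ 8 := by ring
    _ ≤ _ := by gcongr

theorem partA {o1 o2 s1 s2 : ℝ} {b1 b2 : ℂ} (hB : Box o1 o2 s1 s2 b1 b2) (ε : ℝ) (hε : 0 < ε)
    (hε4 : ε ≤ 1 / 4) :
    ∃ (m : ℕ) (om σ : ℝ) (w : ℝ → ℂ), Prof m om w ∧ om ∈ Set.Icc o1 o2 ∧ σ ∈ Set.Icc s1 s2 ∧
      Good ε m om σ w := by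
  obtain ⟨η1, hη1, hwall⟩ := wall_of hB hε
  obtain ⟨ρ, B, hρ0, hρ1, m1, hlim⟩ := match_lim hB hη1
  have hη0 : 0 < min (ε / 2) (1 / 1000) := lt_min (by linarith) (by norm_num)
  obtain ⟨m2, hgood⟩ := inner_good hη0 (min_le_right _ _)
  have he0 : 0 < Real.exp (-ε ^ 2 / 500) := Real.exp_pos _
  have he1 : Real.exp (-ε ^ 2 / 500) < 1 := by
    rw [Real.exp_lt_one_iff]
    have : 0 < ε ^ 2 := by positivity
    linarith
  obtain ⟨B1, m3, hjet⟩ := jets_in he0 he1 7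
  obtain ⟨m4, hext⟩ := ext_of (ρ := max ρ (Real.exp (-ε ^ 2 / 500))) (lt_max_of_lt_left hρ0)
    (max_lt hρ1 he1) hε (max B (B1 * 3 ^ 8))
  obtain ⟨m5, hm5⟩ := exists_nat_ge (1 / ε)
  obtain ⟨m, hm1, hm2, hm3, hm4, hm6, hm⟩ :
      ∃ m, m1 ≤ m ∧ m2 ≤ m ∧ m3 ≤ m ∧ m4 ≤ m ∧ m5 ≤ m ∧ 1 ≤ m :=
    ⟨m1 + m2 + m3 + m4 + m5 + 1, by omega, by omega, by omega, by omega, by omega, by omega⟩
  obtain ⟨om, hom, σ, hσ, P0, hP0, w, hI, hW, hH, hO⟩ := hlim m hm1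
  have hom' : om ∈ Icc (0.33 : ℝ) 0.34 := ⟨hB.ho1.trans hom.1, hom.2.trans hB.ho2⟩
  have hσ' : σ ∈ Icc (2.7 : ℝ) 2.71 := ⟨hB.hs1.trans hσ.1, hσ.2.trans hB.hs2⟩
  have hP : 0 < P0 := by linarith [hP0.1]
  have hG := hgood m hm2 om P0 σ w hom' hP hP0.2 hI hσ' hW
  have hη2 : min (ε / 2) (1 / 1000) ≤ ε / 2 := min_le_left _ _
  have hη3 : min (ε / 2) (1 / 1000) ≤ 1 / 1000 := min_le_right _ _
  generalize min (ε / 2) (1 / 1000) = η at hη0 hη2 hη3 hG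
  have ha := aa_nonneg m
  have hode : POde m om w := partA_ode hI fun s hs => by
    rcases le_or_gt s 3 with h | h
    · exact hG.hi s ⟨hs.le, h⟩
    · have h1 : (3 / s) ^ aa m ≤ 1 :=
        Real.rpow_le_one (by positivity) ((div_le_one hs).2 h.le) ha
      exact (hO s h).1.trans (mul_le_one₀ hρ1.le (by positivity) h1)
  have hs1 := hσ'.1
  have hs2 := hσ'.2
  have hslope : ∀ s ∈ Icc (0 : ℝ) 3, ‖deriv w s‖ ≤ 1 / 8 * ‖w s‖ := by
    intro s hs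
    rcases le_total s σ with h | h
    · exact (hG.core s ⟨hs.1, h⟩).2.trans
        (mul_le_mul_of_nonneg_right (by linarith) (norm_nonneg _))
    · exact (hG.out s ⟨h, hs.2⟩).1.trans
        (mul_le_mul_of_nonneg_right (by linarith [hs.2]) (norm_nonneg _))
  refine ⟨m, om, σ, w, ⟨hm, hI.smooth, hode, fun s hs => hI.ne hm hP hs,
    decay_all hm hI.smooth hode hO⟩, hom, hσ, ?_⟩
  refine ⟨?_, fun s hs => ?_, fun s hs => ?_, hG.lo, hG.hi, hslope, fun s hs => ?_,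
    fun k hk s hs => ?_, hwall om hom σ hσ hH⟩
  · have h1 : (m5 : ℝ) ≤ m := by exact_mod_cast hm6
    rw [div_le_iff₀ hε] at hm5
    nlinarith
  · have := (hG.core s ⟨hs.1, by linarith [hs.2]⟩).1
    linarith
  · rcases le_total s σ with h | h
    · exact (hG.core s ⟨hs.1, h⟩).2.trans
        (mul_le_mul_of_nonneg_right (by linarith) (norm_nonneg _))
    · exact (hG.out s ⟨h, by linarith [hs.2]⟩).1.trans
        (mul_le_mul_of_nonneg_right (by linarith [hs.2]) (norm_nonneg _))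
  · exact (hG.up s hs).trans (mul_le_mul_of_nonneg_right (by linarith) (sq_nonneg _))
  · have hs0 : 0 < s := by linarith
    refine hext m hm4 w hI.smooth s hs0 ?_ k hk
    rcases le_or_gt s 3 with h | h
    · have h1 : ‖w s‖ ≤ Real.exp (-ε ^ 2 / 500) := by
        refine (hG.out s ⟨by linarith, h⟩).2.trans (Real.exp_le_exp.2 ?_)
        have : ε ^ 2 ≤ (s - σ) ^ 2 := pow_le_pow_left₀ hε.le (by linarith) 2
        linarith
      have h2 : ‖deriv w s‖ ≤ 1 := by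
        have h3 := hslope s ⟨hs0.le, h⟩
        have h4 := hG.hi s ⟨hs0.le, h⟩
        linarith
      have h3 := hjet m hm3 om ⟨by linarith [hom'.1], by linarith [hom'.2]⟩ w hI.smooth hode s
        ⟨by linarith, h⟩ h1 h2
      exact partA_outB (partA_mid ha hs0 h he0.le h1 h3) hs0 (le_max_right _ _) (le_max_right _ _)
    · exact partA_outB (hO s h) hs0 (le_max_left _ _) (le_max_left _ _)

end Vale.Agent.P139
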