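import Vale.Agent.P139.Defs

/-! Part R: averages over the unit sphere, moments, homogeneous functions. -/

open Complex MeasureTheory Filter Topology
open scoped ComplexConjugate ContDiff

namespace Vale.Agent.P139

abbrev RS := Metric.sphere (0 : E) 1

/-- surface measure -/
noncomputable def rsg : Measure RS := (volume : Measure E).toSphere

instance rsg_fin : IsFiniteMeasure rsg := by unfold rsg; infer_instance

instance rsg_pos : rsg.IsOpenPosMeasure := by unfold rsg; infer_instance

/-- integral over the unit sphere -/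
noncomputable def Av (H : E → ℂ) : ℂ := ∫ θ : RS, H θ ∂rsg

/-- area of the unit sphere -/
noncomputable def rA : ℝ := rsg.real Set.univ

noncomputable def rEe (j : Fin 12) : E := EuclideanSpace.single j 1

/-- coordinate function -/
noncomputable def rCo (j : Fin 12) (y : E) : ℂ := ((y j : ℝ) : ℂ)

/-- moment of F against P on the sphere of radius r -/
noncomputable def mom (F P : E → ℂ) (r : ℝ) : ℂ := Av fun y => F (r • y) * P y

/-- smooth and positively homogeneous of degree k -/
def Hom (k : ℕ) (P : E → ℂ) : Prop :=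
  ContDiff ℝ ∞ P ∧ ∀ t : ℝ, 0 < t → ∀ y, P (t • y) = (t : ℂ) ^ k * P y

theorem rs_norm (θ : RS) : ‖(θ : E)‖ = 1 := by simpa using θ.2

theorem rA_pos : 0 < rA := by
  haveI : Nonempty RS := ⟨⟨rEe 0, by simp [rEe]⟩⟩
  exact ENNReal.toReal_pos (isOpen_univ.measure_ne_zero _ Set.univ_nonempty) (measure_ne_top _ _)

theorem contDiff_co (j : Fin 12) {n : WithTop ℕ∞} : ContDiff ℝ n (rCo j) :=
  ofRealCLM.contDiff.comp (EuclideanSpace.proj (𝕜 := ℝ) j).contDiff

theorem continuous_co (j : Fin 12) : Continuous (rCo j) := (contDiff_co j (n := 0)).continuous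

theorem hasFDerivAt_co (j : Fin 12) (y : E) :
    HasFDerivAt (rCo j) (ofRealCLM.comp (EuclideanSpace.proj (𝕜 := ℝ) j)) y :=
  (ofRealCLM.comp (EuclideanSpace.proj (𝕜 := ℝ) j)).hasFDerivAt

theorem fderiv_co (j : Fin 12) (y v : E) : fderiv ℝ (rCo j) y v = rCo j v := by
  rw [(hasFDerivAt_co j y).fderiv]; rfl

theorem co_ee (i j : Fin 12) : rCo i (rEe j) = if i = j then 1 else 0 := by
  unfold rCo rEe
  by_cases h : i = j <;> simp [h]

theorem co_smul (j : Fin 12) (t : ℝ) (y : E) : rCo j (t • y) = t * rCo j y := by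
  simp [rCo]

theorem sum_ee (y : E) : ∑ j, y j • rEe j = y := by
  ext i
  simp [rEe, Finset.sum_apply, Pi.single_apply]

theorem clm_sum (L : E →L[ℝ] ℂ) (y : E) : ∑ j, rCo j y * L (rEe j) = L y := by
  conv_rhs => rw [← sum_ee y, map_sum]
  simp [rCo]

theorem sum_co_sq (y : E) : ∑ j, rCo j y * rCo j y = ((‖y‖ ^ 2 : ℝ) : ℂ) := by
  rw [EuclideanSpace.real_norm_sq_eq]
  simp [rCo, sq]

theorem av_int {H : E → ℂ} (h : Continuous H) : Integrable (fun θ : RS => H θ) rsg :=
  (h.comp continuous_subtype_val).integrable_of_hasCompactSupport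
    (HasCompactSupport.of_compactSpace _)

theorem Av_congr {H G : E → ℂ} (h : ∀ y, ‖y‖ = 1 → H y = G y) : Av H = Av G :=
  integral_congr_ae (Eventually.of_forall fun θ => h θ (rs_norm θ))

theorem Av_add {H G : E → ℂ} (h : Continuous H) (g : Continuous G) :
    Av (fun y => H y + G y) = Av H + Av G := integral_add (av_int h) (av_int g)

theorem Av_sub {H G : E → ℂ} (h : Continuous H) (g : Continuous G) :
    Av (fun y => H y - G y) = Av H - Av G := integral_sub (av_int h) (av_int g)

theorem Av_mul (c : ℂ) (H : E → ℂ) : Av (fun y => c * H y) = c * Av H := integral_const_mul _ _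

theorem Av_sum {ι : Type} (s : Finset ι) {H : ι → E → ℂ} (h : ∀ i, Continuous (H i)) :
    Av (fun y => ∑ i ∈ s, H i y) = ∑ i ∈ s, Av (H i) :=
  integral_finset_sum _ fun i _ => av_int (h i)

theorem Av_const (c : ℂ) : Av (fun _ => c) = rA * c := by
  simp [Av, rA]

theorem norm_Av_le {H : E → ℂ} {C : ℝ} (h : ∀ y, ‖y‖ = 1 → ‖H y‖ ≤ C) : ‖Av H‖ ≤ C * rA :=
  norm_integral_le_of_norm_le_const (Eventually.of_forall fun θ => h θ (rs_norm θ))

theorem continuous_Av {Φ : ℝ → E → ℂ} (h : Continuous fun p : ℝ × E => Φ p.1 p.2) :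
    Continuous fun t => Av (Φ t) := by
  have h1 : Continuous (Function.uncurry fun (t : ℝ) (θ : RS) => Φ t θ) :=
    h.comp (continuous_fst.prodMk (continuous_subtype_val.comp continuous_snd))
  have h2 := continuous_parametric_integral_of_continuous (μ := rsg) h1 isCompact_univ
  simpa [Av] using h2

/-- differentiation under the integral -/
theorem hasDerivAt_Av {Φ Φ' : ℝ → E → ℂ} (h : Continuous fun p : ℝ × E => Φ p.1 p.2)
    (h' : Continuous fun p : ℝ × E => Φ' p.1 p.2)
    (hd : ∀ t y, HasDerivAt (fun s => Φ s y) (Φ' t y) t) (t : ℝ) :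
    HasDerivAt (fun s => Av (Φ s)) (Av (Φ' t)) t := by
  obtain ⟨C, hC⟩ := ((isCompact_closedBall t 1).prod
    (isCompact_sphere (0 : E) 1)).exists_bound_of_continuousOn h'.continuousOn
  exact (hasDerivAt_integral_of_dominated_loc_of_deriv_le (μ := rsg)
    (F := fun s (θ : RS) => Φ s θ) (F' := fun s (θ : RS) => Φ' s θ) (bound := fun _ => C)
    (Metric.closedBall_mem_nhds t one_pos)
    (Eventually.of_forall fun s => (av_int (h.comp (Continuous.prodMk_right s))).1)
    (av_int (h.comp (Continuous.prodMk_right t)))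
    (av_int (h'.comp (Continuous.prodMk_right t))).1
    (Eventually.of_forall fun θ s hs => hC (s, θ) ⟨hs, θ.2⟩) (integrable_const C)
    (Eventually.of_forall fun θ s _ => hd s θ)).2

end Vale.Agent.P139
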