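import Vale.Agent.P139.RDefs

/-! Part R: homogeneous functions. -/

open Complex MeasureTheory Filter Topology
open scoped ComplexConjugate ContDiff

namespace Vale.Agent.P139

variable {k l : ℕ} {P Q : E → ℂ}

theorem hom_one : Hom 0 fun _ => 1 := ⟨contDiff_const, fun t _ y => by simp⟩

theorem hom_co (j : Fin 12) : Hom 1 (rCo j) :=
  ⟨contDiff_co j, fun t _ y => by rw [co_smul, pow_one]⟩

theorem Hom.mul (h : Hom k P) (g : Hom l Q) : Hom (k + l) fun y => P y * Q y :=
  ⟨h.1.mul g.1, fun t ht y => by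
    simp only [h.2 t ht y, g.2 t ht y, pow_add]; ring⟩

theorem rhom_diff (h : Hom k P) : Differentiable ℝ P := h.1.differentiable (by simp)

theorem rhom_fderiv (h : Hom k P) : ContDiff ℝ ∞ (fderiv ℝ P) :=
  h.1.fderiv_right (m := ∞) (by simp)

theorem Hom.pd (h : Hom (k + 1) P) (v : E) : Hom k fun y => fderiv ℝ P y v := by
  refine ⟨(rhom_fderiv h).clm_apply contDiff_const, fun t ht y => ?_⟩
  have h1 : HasFDerivAt (fun x : E => P (t • x))
      ((fderiv ℝ P (t • y)).comp (t • ContinuousLinearMap.id ℝ E)) y :=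
    (rhom_diff h (t • y)).hasFDerivAt.comp y ((hasFDerivAt_id y).const_smul t)
  have h2 : HasFDerivAt (fun x : E => P (t • x)) (((t : ℂ) ^ (k + 1)) • fderiv ℝ P y) y := by
    have h3 : (fun x : E => P (t • x)) = fun x => (t : ℂ) ^ (k + 1) * P x :=
      funext fun x => h.2 t ht x
    rw [h3]
    exact (rhom_diff h y).hasFDerivAt.const_mul _
  have h4 := congrArg (fun L : E →L[ℝ] ℂ => L v) (h1.unique h2)
  simp only [ContinuousLinearMap.comp_apply, smul_apply,
    ContinuousLinearMap.id_apply, map_smul, smul_eq_mul, real_smul] at h4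
  have h5 : (t : ℂ) ≠ 0 := ofReal_ne_zero.2 ht.ne'
  apply mul_left_cancel₀ h5
  rw [h4]; ring

theorem rhom_sum {ι : Type} (s : Finset ι) {R : ι → E → ℂ} (h : ∀ i, Hom k (R i)) :
    Hom k fun y => ∑ i ∈ s, R i y :=
  ⟨ContDiff.sum fun i _ => (h i).1, fun t ht y => by
    rw [Finset.mul_sum]; exact Finset.sum_congr rfl fun i _ => (h i).2 t ht y⟩

theorem Hom.lap (h : Hom (k + 2) P) : Hom k (lap P) :=
  rhom_sum Finset.univ fun j : Fin 12 =>
    (h.pd (EuclideanSpace.single j 1)).pd (EuclideanSpace.single j 1)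

/-- Euler identity -/
theorem Hom.euler (h : Hom k P) (y : E) : fderiv ℝ P y y = k * P y := by
  have h0 : HasDerivAt (fun t : ℝ => t • y) y 1 := by
    simpa using (hasDerivAt_id (1 : ℝ)).smul_const y
  have h1 : HasDerivAt (fun t : ℝ => P (t • y)) (fderiv ℝ P y y) 1 := by
    have h2 : HasFDerivAt P (fderiv ℝ P y) ((1 : ℝ) • y) := by
      rw [one_smul]; exact (rhom_diff h y).hasFDerivAt
    exact h2.comp_hasDerivAt (1 : ℝ) h0
  have h2 : HasDerivAt (fun t : ℝ => (t : ℂ) ^ k * P y) (k * P y) 1 := by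
    have h3 := ((hasDerivAt_pow k ((1 : ℝ) : ℂ)).comp_ofReal).mul_const (P y)
    simpa using h3
  have h3 : (fun t : ℝ => P (t • y)) =ᶠ[𝓝 1] fun t : ℝ => (t : ℂ) ^ k * P y := by
    filter_upwards [lt_mem_nhds (one_pos : (0 : ℝ) < 1)] with t ht using h.2 t ht y
  exact h1.unique (h2.congr_of_eventuallyEq h3)

theorem Hom.euler2 (h : Hom k P) (y : E) :
    fderiv ℝ (fderiv ℝ P) y y y = k * ((k : ℂ) - 1) * P y := by
  have hd := (rhom_fderiv h).differentiable (by simp) y
  have h1 : HasFDerivAt (fun x : E => fderiv ℝ P x x)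
      ((fderiv ℝ P y).comp (ContinuousLinearMap.id ℝ E) + (fderiv ℝ (fderiv ℝ P) y).flip y) y :=
    hd.hasFDerivAt.clm_apply (hasFDerivAt_id y)
  have h2 : HasFDerivAt (fun x : E => fderiv ℝ P x x) ((k : ℂ) • fderiv ℝ P y) y := by
    have h3 : (fun x : E => fderiv ℝ P x x) = fun x => (k : ℂ) * P x := funext h.euler
    rw [h3]
    exact (rhom_diff h y).hasFDerivAt.const_mul _
  have h4 := congrArg (fun L : E →L[ℝ] ℂ => L y) (h1.unique h2)
  simp only [add_apply, ContinuousLinearMap.comp_apply,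
    smul_apply, ContinuousLinearMap.id_apply, ContinuousLinearMap.flip_apply,
    smul_eq_mul, h.euler y] at h4
  linear_combination h4

theorem Hom.zero_eq (h : Hom 0 P) (y : E) : P y = P 0 := by
  have h1 : Tendsto (fun t : ℝ => P (t • y)) (𝓝[>] 0) (𝓝 (P 0)) := by
    have h2 : Continuous fun t : ℝ => P (t • y) :=
      h.1.continuous.comp (continuous_id.smul continuous_const)
    have h3 := h2.tendsto 0
    rw [zero_smul] at h3
    exact h3.mono_left nhdsWithin_le_nhds
  have h2 : (fun t : ℝ => P (t • y)) =ᶠ[𝓝[>] 0] fun _ => P y := by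
    filter_upwards [self_mem_nhdsWithin] with t ht
    rw [h.2 t ht y, pow_zero, one_mul]
  exact tendsto_nhds_unique tendsto_const_nhds (h1.congr' h2)

theorem Hom.one_eq (h : Hom 1 P) (y : E) : P y = ∑ j, fderiv ℝ P 0 (rEe j) * rCo j y := by
  have h1 := h.euler y
  rw [Nat.cast_one, one_mul, ← clm_sum] at h1
  rw [← h1]
  refine Finset.sum_congr rfl fun j _ => ?_
  rw [mul_comm, Hom.zero_eq (Hom.pd (k := 0) h (rEe j)) y]

theorem lap_one (y : E) : lap (fun _ => 1) y = 0 := by
  simp [Vale.Agent.P139.lap]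

theorem lap_co (j : Fin 12) (y : E) : lap (rCo j) y = 0 := by
  simp [Vale.Agent.P139.lap, fderiv_co]

/-- the coordinate functions on the sphere -/
noncomputable def rhomC (j : Fin 12) : C(RS, ℝ) :=
  ⟨fun θ => (θ : E) j, (EuclideanSpace.proj (𝕜 := ℝ) j).continuous.comp continuous_subtype_val⟩

theorem rhom_sep : (Algebra.adjoin ℝ (Set.range rhomC)).SeparatesPoints := by
  intro x y hxy
  by_contra hc
  refine hxy (Subtype.ext ?_)
  ext j
  by_contra hj
  exact hc ⟨rhomC j, ⟨rhomC j, Algebra.subset_adjoin ⟨j, rfl⟩, rfl⟩, hj⟩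

theorem rhom_mono {φ : C(RS, ℝ)} (hφ : φ ∈ Submonoid.closure (Set.range rhomC)) :
    ∃ k P, Hom k P ∧ ∀ θ : RS, P θ = φ θ := by
  induction hφ using Submonoid.closure_induction with
  | mem x hx =>
    obtain ⟨j, rfl⟩ := hx
    exact ⟨1, rCo j, hom_co j, fun _ => rfl⟩
  | one => exact ⟨0, fun _ => 1, hom_one, fun _ => by simp⟩
  | mul x y _ _ hx hy =>
    obtain ⟨k, P, hP, h1⟩ := hx
    obtain ⟨l, Q, hQ, h2⟩ := hy
    exact ⟨k + l, _, hP.mul hQ, fun θ => by simp [h1, h2]⟩

theorem rhom_int {G : RS → ℂ} (h : Continuous G) : Integrable G rsg :=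
  h.integrable_of_hasCompactSupport (HasCompactSupport.of_compactSpace _)

theorem rhom_all {F : E → ℂ} (hF : Continuous F)
    (h : ∀ k P, Hom k P → Av (fun y => F y * P y) = 0) (φ : C(RS, ℝ)) :
    ∫ θ : RS, F θ * φ θ ∂rsg = 0 := by
  have hi : ∀ ψ : C(RS, ℝ), Continuous fun θ : RS => F θ * ψ θ := fun ψ =>
    (hF.comp continuous_subtype_val).mul (continuous_ofReal.comp ψ.continuous)
  have hc : Continuous fun ψ : C(RS, ℝ) => ∫ θ : RS, F θ * ψ θ ∂rsg := by
    obtain ⟨C, hC⟩ := (isCompact_sphere (0 : E) 1).exists_bound_of_continuousOn hF.continuousOn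
    refine (LipschitzWith.of_dist_le' (K := C * rsg.real Set.univ) fun ψ χ => ?_).continuous
    rw [dist_eq_norm, ← integral_sub (rhom_int (hi ψ)) (rhom_int (hi χ)), mul_right_comm]
    refine norm_integral_le_of_norm_le_const (Eventually.of_forall fun θ => ?_)
    rw [← mul_sub, norm_mul, ← ofReal_sub, norm_real, ← dist_eq_norm]
    exact mul_le_mul (hC θ θ.2) (ContinuousMap.dist_apply_le_dist θ) dist_nonneg
      ((norm_nonneg _).trans (hC θ θ.2))
  have hcl : φ ∈ closure (Algebra.adjoin ℝ (Set.range rhomC) : Set C(RS, ℝ)) := by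
    have h1 := ContinuousMap.subalgebra_topologicalClosure_eq_top_of_separatesPoints _ rhom_sep
    have h2 : φ ∈ (Algebra.adjoin ℝ (Set.range rhomC)).topologicalClosure := by
      rw [h1]; exact Algebra.mem_top
    exact h2
  refine closure_minimal (t := {ψ : C(RS, ℝ) | ∫ θ : RS, F θ * ψ θ ∂rsg = 0}) ?_
    (isClosed_eq hc continuous_const) hcl
  intro ψ hψ
  have h1 : ψ ∈ Submodule.span ℝ (Submonoid.closure (Set.range rhomC) : Set C(RS, ℝ)) := by
    rw [← Algebra.adjoin_eq_span]; exact hψ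
  clear hψ
  induction h1 using Submodule.span_induction with
  | mem x hx =>
    obtain ⟨k, P, hP, h1⟩ := rhom_mono hx
    have h2 := h k P hP
    simp only [Av, h1] at h2
    exact h2
  | zero => simp
  | add x y _ _ hx hy =>
    simp only [Set.mem_ofPred_eq, ContinuousMap.add_apply, ofReal_add, mul_add] at hx hy ⊢
    rw [integral_add (rhom_int (hi x)) (rhom_int (hi y)), hx, hy, add_zero]
  | smul a x _ hx =>
    simp only [Set.mem_ofPred_eq, ContinuousMap.smul_apply, smul_eq_mul, ofReal_mul] at hx ⊢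
    simp only [mul_left_comm _ (a : ℂ)]
    rw [integral_const_mul, hx, mul_zero]

/-- homogeneous functions are total on the sphere -/
theorem hom_total {F : E → ℂ} (hF : Continuous F)
    (h : ∀ k P, Hom k P → Av (fun y => F y * P y) = 0) (y : E) (hy : ‖y‖ = 1) : F y = 0 := by
  have hc : Continuous fun θ : RS => F θ := hF.comp continuous_subtype_val
  have h1 := rhom_all hF h ⟨fun θ => (F θ).re, continuous_re.comp hc⟩
  have h2 := rhom_all hF h ⟨fun θ => (F θ).im, continuous_im.comp hc⟩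
  simp only [ContinuousMap.coe_mk] at h1 h2
  have hi1 : Integrable (fun θ : RS => F θ * ((F θ).re : ℂ)) rsg :=
    rhom_int (hc.mul (continuous_ofReal.comp (continuous_re.comp hc)))
  have hi2 : Integrable (fun θ : RS => F θ * ((F θ).im : ℂ)) rsg :=
    rhom_int (hc.mul (continuous_ofReal.comp (continuous_im.comp hc)))
  have h3 : ∫ θ : RS, ((‖F θ‖ ^ 2 : ℝ) : ℂ) ∂rsg = 0 := by
    have h4 : ∀ θ : RS, ((‖F θ‖ ^ 2 : ℝ) : ℂ) =
        F θ * ((F θ).re : ℂ) - I * (F θ * ((F θ).im : ℂ)) := fun θ => by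
      rw [← normSq_eq_norm_sq, ← mul_conj]
      conv_lhs => rw [← re_add_im (F θ), map_add, map_mul, conj_ofReal, conj_ofReal, conj_I,
        re_add_im]
      ring
    simp only [h4]
    rw [integral_sub hi1 (hi2.const_mul I), integral_const_mul, h1, h2, mul_zero, sub_zero]
  rw [integral_complex_ofReal, ofReal_eq_zero] at h3
  have hc2 : Continuous fun θ : RS => ‖F θ‖ ^ 2 := hc.norm.pow 2
  have h4 := (hc2.integral_pos_of_hasCompactSupport_nonneg_nonzero (μ := rsg)
    (x := ⟨y, by simpa using hy⟩) (HasCompactSupport.of_compactSpace _)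
    (fun θ => by positivity)).mt (by rw [h3]; exact lt_irrefl _)
  simpa using h4

end Vale.Agent.P139
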