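import Vale.Agent.P139.RMom
import Vale.Agent.P139.RMode

/-! Part R: linearity of the radial system and the moments of the modes. -/

open Complex MeasureTheory Filter Topology
open scoped ComplexConjugate ContDiff

namespace Vale.Agent.P139

variable {m : ℕ} {om : ℝ} {w : ℝ → ℂ} {k : ℕ} {z : ℂ} {f g u v : ℝ → ℂ} {P : E → ℂ}

theorem Cb1.comb (hf : Cb1 f) (hu : Cb1 u) (a : ℂ) : Cb1 fun r => f r - a * u r := by
  obtain ⟨h1, C, hC⟩ := hf
  obtain ⟨h2, B, hB⟩ := hu
  refine ⟨h1.sub (contDiff_const.mul h2), C + ‖a‖ * B, fun k hk r => ?_⟩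
  have hk' : (k : WithTop ℕ∞) ≤ 16 := by exact_mod_cast hk
  have h3 : ContDiffAt ℝ k u r := (h2.of_le hk').contDiffAt
  have h4 : ContDiffAt ℝ k (fun r => a * u r) r := contDiffAt_const.mul h3
  rw [iteratedDeriv_fun_sub (h1.of_le hk').contDiffAt h4, iteratedDeriv_const_mul a h3]
  refine (norm_sub_le _ _).trans (add_le_add (hC k hk r) ?_)
  rw [norm_mul]
  exact mul_le_mul_of_nonneg_left (hB k hk r) (norm_nonneg _)

theorem Cb1.c2 (hf : Cb1 f) : ContDiff ℝ 2 f := hf.1.of_le (by norm_num)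

theorem rlin_deriv (hf : Differentiable ℝ f) (hu : Differentiable ℝ u) (a : ℂ) :
    deriv (fun r => f r - a * u r) = fun r => deriv f r - a * deriv u r :=
  funext fun r => ((hf r).hasDerivAt.sub ((hu r).hasDerivAt.const_mul a)).deriv

theorem rlin_d1 (hf : ContDiff ℝ 2 f) : Differentiable ℝ f := hf.differentiable two_ne_zero

theorem rlin_d2 (hf : ContDiff ℝ 2 f) : Differentiable ℝ (deriv f) :=
  (contDiff_succ_iff_deriv (n := 1)).1 hf |>.2.2.differentiable one_ne_zero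

theorem RL1_comb (hf : Cb1 f) (hu : Cb1 u) (a : ℂ) (r : ℝ) :
    RL1 m om w k z (fun r => f r - a * u r) (fun r => g r - a * v r) r =
      RL1 m om w k z f g r - a * RL1 m om w k z u v r := by
  unfold RL1
  rw [rlin_deriv (rlin_d1 hf.c2) (rlin_d1 hu.c2), rlin_deriv (rlin_d2 hf.c2) (rlin_d2 hu.c2)]
  ring

theorem RL2_comb (hg : Cb1 g) (hv : Cb1 v) (a : ℂ) (r : ℝ) :
    RL2 m om w k z (fun r => f r - a * u r) (fun r => g r - a * v r) r =
      RL2 m om w k z f g r - a * RL2 m om w k z u v r := by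
  unfold RL2
  rw [rlin_deriv (rlin_d1 hg.c2) (rlin_d1 hv.c2), rlin_deriv (rlin_d2 hg.c2) (rlin_d2 hv.c2)]
  ring

theorem rlin_zero (h : ∀ r, 0 < r → f r = 0) {r : ℝ} (hr : 0 < r) :
    deriv f r = 0 ∧ deriv (deriv f) r = 0 := by
  have h1 : f =ᶠ[𝓝 r] fun _ => 0 := Filter.mem_of_superset (Ioi_mem_nhds hr) h
  refine ⟨by rw [h1.deriv_eq]; simp, ?_⟩
  rw [h1.deriv.deriv_eq]
  simp

theorem RL_zero (h : ∀ r, 0 < r → f r = 0 ∧ g r = 0) {r : ℝ} (hr : 0 < r) :
    RL1 m om w k z f g r = 0 ∧ RL2 m om w k z f g r = 0 := by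
  obtain ⟨a1, a2⟩ := rlin_zero (fun r hr => (h r hr).1) hr
  obtain ⟨b1, b2⟩ := rlin_zero (fun r hr => (h r hr).2) hr
  simp [RL1, RL2, a1, a2, b1, b2, (h r hr).1, (h r hr).2]

/-- the conjugate radial modes -/
noncomputable def cmode (m : ℕ) (om : ℝ) (w : ℝ → ℂ) (i : Fin 3) (r : ℝ) : ℂ :=
  conj (rmode m om w i r)

theorem RL_mode (h : Prof m om w) (i : Fin 3) (k : ℕ) (z : ℂ) {r : ℝ} (hr : 0 < r) :
    RL1 m om w k z (rmode m om w i) (cmode m om w i) r =
      ((rl i * (rl i + 10) - k * (k + 10)) / r ^ 2 + I * (z - rz i)) * rmode m om w i r ∧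
    RL2 m om w k z (rmode m om w i) (cmode m om w i) r =
      ((rl i * (rl i + 10) - k * (k + 10)) / r ^ 2 - I * (z - rz i)) * cmode m om w i r := by
  obtain ⟨-, -, h1, h2⟩ := rmode_sol h i
  have h3 := h1 r hr
  have h4 := h2 r hr
  simp only [Pi.zero_apply, mul_zero] at h3 h4
  unfold RL1 RL2
  constructor
  · unfold cmode
    linear_combination h3
  · unfold cmode
    linear_combination h4

/-- moment of the translation part -/
noncomputable def trm (c : Fin 12 → ℂ) (P : E → ℂ) : ℂ := ∑ j, c j * Av fun y => rCo j y * P y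

theorem rlin_mom {G : E → ℂ} (hP : Continuous P) (γ : Co) (r : ℝ) {u0 u1 u2 : ℂ}
    (h : ∀ y, ‖y‖ = 1 → G (r • y) = γ.1 * u0 + γ.2.1 * u2 + ∑ j, γ.2.2 j * (rCo j y * u1)) :
    mom G P r = Av P * γ.1 * u0 + trm γ.2.2 P * u1 + Av P * γ.2.1 * u2 := by
  have c1 : Continuous fun y => (γ.1 * u0 + γ.2.1 * u2) * P y := continuous_const.mul hP
  have c2 : ∀ j, Continuous fun y => (γ.2.2 j * u1) * (rCo j y * P y) := fun j =>
    continuous_const.mul ((continuous_co j).mul hP)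
  have c3 : Continuous fun y => ∑ j, (γ.2.2 j * u1) * (rCo j y * P y) :=
    continuous_finset_sum _ fun j _ => c2 j
  have e : mom G P r = Av fun y => (γ.1 * u0 + γ.2.1 * u2) * P y +
      ∑ j, (γ.2.2 j * u1) * (rCo j y * P y) := by
    refine Av_congr fun y hy => ?_
    rw [h y hy, add_mul, Finset.sum_mul]
    congr 1
    exact Finset.sum_congr rfl fun j _ => by ring
  rw [e, Av_add c1 c3, Av_mul, Av_sum _ c2, trm, Finset.sum_mul]
  simp only [Av_mul]
  have e2 : ∑ j, γ.2.2 j * u1 * (Av fun y => rCo j y * P y) =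
      ∑ j, γ.2.2 j * (Av fun y => rCo j y * P y) * u1 :=
    Finset.sum_congr rfl fun j _ => by ring
  rw [e2]
  ring

theorem mom_mode1 (hP : Continuous P) (γ : Co) (r : ℝ) : mom (mode1 m om w γ) P r =
    Av P * γ.1 * rmode m om w 0 r + trm γ.2.2 P * rmode m om w 1 r +
      Av P * γ.2.1 * rmode m om w 2 r := by
  refine rlin_mom hP γ r fun y hy => ?_
  simp only [mode1, rad_smul _ _ hy, rmode, rCo, PiLp.smul_apply, smul_eq_mul]
  congr 1
  refine Finset.sum_congr rfl fun j _ => ?_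
  simp only [Matrix.cons_val_one, Matrix.cons_val_zero]
  push_cast
  ring

theorem mom_mode2 (hP : Continuous P) (γ : Co) (r : ℝ) : mom (mode2 m om w γ) P r =
    Av P * γ.1 * cmode m om w 0 r + trm γ.2.2 P * cmode m om w 1 r +
      Av P * γ.2.1 * cmode m om w 2 r := by
  refine rlin_mom hP γ r fun y hy => ?_
  simp only [mode2, rad_smul _ _ hy, cmode, rmode, rCo, PiLp.smul_apply, smul_eq_mul]
  congr 1
  refine Finset.sum_congr rfl fun j _ => ?_
  simp only [Matrix.cons_val_one, Matrix.cons_val_zero, map_mul, conj_ofReal]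
  push_cast
  ring

theorem trm_lap (hP : Hom k P) (c : Fin 12 → ℂ) :
    trm c (lap P) = (k * (k + 10) - 11) * trm c P := by
  unfold trm
  rw [Finset.mul_sum]
  refine Finset.sum_congr rfl fun j _ => ?_
  rw [Av_co_lap hP]
  ring

theorem trm_one (c : Fin 12 → ℂ) : trm c (fun _ => 1) = 0 := by
  simp [trm, Av_co]

theorem trm_co (c : Fin 12 → ℂ) (j : Fin 12) : trm c (rCo j) = rA / 12 * c j := by
  simp [trm, Av_co_co, mul_comm]

theorem trm_sub (c c' : Fin 12 → ℂ) (a : ℂ) (P : E → ℂ) :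
    trm (fun j => c j - a * c' j) P = trm c P - a * trm c' P := by
  unfold trm
  rw [Finset.mul_sum, ← Finset.sum_sub_distrib]
  exact Finset.sum_congr rfl fun j _ => by ring

theorem trm_zero {c : Fin 12 → ℂ} {a : ℂ} (h : ∀ j, c j * a = 0) (P : E → ℂ) :
    trm c P * a = 0 := by
  unfold trm
  rw [Finset.sum_mul]
  exact Finset.sum_eq_zero fun j _ => by linear_combination (Av fun y => rCo j y * P y) * h j

end Vale.Agent.P139
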