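import Vale.Agent.P139.RSph
import Vale.Agent.P139.RHom

/-! Part R: moments on spheres and the radial equation. -/

open Complex MeasureTheory Filter Topology
open scoped ComplexConjugate ContDiff

namespace Vale.Agent.P139

variable {F P : E → ℂ} {n k : ℕ}

theorem rmom_line (hF : ContDiff ℝ n F) (y : E) (hk : k ≤ n) (r : ℝ) :
    iteratedDeriv k (fun s : ℝ => F (s • y)) r = iteratedFDeriv ℝ k F (r • y) fun _ => y := by
  have e : (fun s : ℝ => F (s • y)) = F ∘ ContinuousLinearMap.toSpanSingleton ℝ y := rfl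
  rw [e, iteratedDeriv_eq_iteratedFDeriv, ContinuousLinearMap.iteratedFDeriv_comp_right _ hF _
    (by exact_mod_cast hk)]
  simp

/-- the moments of the radial derivatives -/
noncomputable def momD (F P : E → ℂ) (k : ℕ) (r : ℝ) : ℂ :=
  Av fun y => (iteratedFDeriv ℝ k F (r • y) fun _ => y) * P y

theorem rmom_cont (hF : ContDiff ℝ n F) (hP : Continuous P) (hk : k ≤ n) :
    Continuous fun p : ℝ × E => (iteratedFDeriv ℝ k F (p.1 • p.2) fun _ => p.2) * P p.2 := by
  have h1 : Continuous fun p : ℝ × E => iteratedFDeriv ℝ k F (p.1 • p.2) :=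
    (hF.continuous_iteratedFDeriv (by exact_mod_cast hk)).comp
      (continuous_fst.smul continuous_snd)
  have h2 : Continuous fun p : ℝ × E => fun _ : Fin k => p.2 :=
    continuous_pi fun _ => continuous_snd
  exact (h1.eval h2).mul (hP.comp continuous_snd)

theorem hasDerivAt_momD (hF : ContDiff ℝ n F) (hP : Continuous P) (hk : k < n) (r : ℝ) :
    HasDerivAt (momD F P k) (momD F P (k + 1) r) r := by
  refine hasDerivAt_Av (Φ := fun r y => (iteratedFDeriv ℝ k F (r • y) fun _ => y) * P y)
    (Φ' := fun r y => (iteratedFDeriv ℝ (k + 1) F (r • y) fun _ => y) * P y)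
    (rmom_cont hF hP hk.le) (rmom_cont hF hP hk) (fun t y => HasDerivAt.mul_const ?_ _) r
  have h1 : ContDiff ℝ n fun s : ℝ => F (s • y) := hF.comp (contDiff_id.smul contDiff_const)
  have h2 := (h1.differentiable_iteratedDeriv k (by exact_mod_cast hk) t).hasDerivAt
  rw [← iteratedDeriv_succ, rmom_line hF y hk, funext (rmom_line hF y hk.le)] at h2
  exact h2

theorem iter_mom (hF : ContDiff ℝ n F) (hP : Continuous P) (hk : k ≤ n) :
    iteratedDeriv k (mom F P) = momD F P k := by
  induction k with
  | zero => rfl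
  | succ k ih =>
    rw [iteratedDeriv_succ, ih (by omega)]
    exact funext fun r => (hasDerivAt_momD hF hP hk r).deriv

theorem contDiff_mom (hF : ContDiff ℝ n F) (hP : Continuous P) : ContDiff ℝ n (mom F P) := by
  refine contDiff_nat_iff_iteratedDeriv.2 ⟨fun k hk => ?_, fun k hk => ?_⟩
  · rw [iter_mom hF hP hk]
    exact continuous_Av (Φ := fun r y => (iteratedFDeriv ℝ k F (r • y) fun _ => y) * P y)
      (rmom_cont hF hP hk)
  · rw [iter_mom hF hP hk.le]
    exact fun r => (hasDerivAt_momD hF hP hk r).differentiableAt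

theorem cb1_mom (hF : Cb F) (hP : Continuous P) : Cb1 (mom F P) := by
  obtain ⟨h1, C, hC⟩ := hF
  have h2 : ContDiff ℝ (16 : ℕ) F := h1
  obtain ⟨B, hB⟩ := (isCompact_sphere (0 : E) 1).exists_bound_of_continuousOn hP.continuousOn
  refine ⟨contDiff_mom h2 hP, C * B * rA, fun k hk r => ?_⟩
  rw [iter_mom h2 hP hk]
  refine norm_Av_le fun y hy => ?_
  have h3 := (iteratedFDeriv ℝ k F (r • y)).le_opNorm fun _ => y
  simp only [hy, Finset.prod_const_one, mul_one] at h3
  rw [norm_mul]
  exact mul_le_mul (h3.trans (hC k hk _)) (hB y (by simpa using hy)) (norm_nonneg _)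
    ((norm_nonneg _).trans (hC k hk 0))

theorem deriv_mom (hF : ContDiff ℝ 2 F) (hP : Continuous P) (r : ℝ) :
    deriv (mom F P) r = Av fun y => fderiv ℝ F (r • y) y * P y := by
  have h2 : ContDiff ℝ (2 : ℕ) F := hF
  rw [← iteratedDeriv_one, iter_mom h2 hP (by norm_num)]
  simp only [momD, iteratedFDeriv_one_apply]

theorem deriv2_mom (hF : ContDiff ℝ 2 F) (hP : Continuous P) (r : ℝ) :
    deriv (deriv (mom F P)) r = Av fun y => fderiv ℝ (fderiv ℝ F) (r • y) y y * P y := by
  have h2 : ContDiff ℝ (2 : ℕ) F := hF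
  have e : deriv (deriv (mom F P)) = iteratedDeriv 2 (mom F P) := by
    rw [← iteratedDeriv_one (f := mom F P), ← iteratedDeriv_succ]
  rw [e, iter_mom h2 hP le_rfl]
  simp only [momD, iteratedFDeriv_two_apply]

theorem Hom.c2 (h : Hom k P) : ContDiff ℝ 2 P := h.1.of_le (ENat.LEInfty.out)

theorem Hom.cont (h : Hom k P) : Continuous P := h.1.continuous

theorem lap_eq (hF : ContDiff ℝ 2 F) (y : E) :
    lap F y = ∑ j, fderiv ℝ (fderiv ℝ F) y (rEe j) (rEe j) :=
  Finset.sum_congr rfl fun j _ => rsph_pd2 hF (rEe j) y (rEe j)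

/-- Green identity against a homogeneous function -/
theorem green_hom (hF : ContDiff ℝ 2 F) (hP : Hom k P) :
    Av (fun y => (lap F y - fderiv ℝ (fderiv ℝ F) y y y - 11 * fderiv ℝ F y y) * P y) =
      Av (fun y => F y * lap P y) - k * (k + 10) * Av (fun y => F y * P y) := by
  have c1 : Continuous fun y => F y * lap P y := hF.continuous.mul (continuous_lap hP.c2)
  have c2 : Continuous fun y => (k * (k + 10) : ℂ) * (F y * P y) :=
    continuous_const.mul (hF.continuous.mul hP.cont)
  rw [Av_green hF hP.c2, ← Av_mul, ← Av_sub c1 c2]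
  refine Av_congr fun y _ => ?_
  rw [hP.euler, hP.euler2]
  ring

/-- the moments of the Laplacian -/
theorem mom_lap (hF : ContDiff ℝ 2 F) (hP : Hom k P) {r : ℝ} (hr : r ≠ 0) :
    mom (lap F) P r = deriv (deriv (mom F P)) r + 11 / r * deriv (mom F P) r
      - k * (k + 10) / r ^ 2 * mom F P r + mom F (lap P) r / r ^ 2 := by
  have hU : ContDiff ℝ 2 fun y : E => F (r • y) := hF.comp (contDiff_const_smul r)
  have e1 : fderiv ℝ (fun y : E => F (r • y)) = r • fun y => fderiv ℝ F (r • y) :=
    funext fun y => fderiv_comp_smul r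
  have e2 : ∀ y u v, fderiv ℝ (fderiv ℝ fun y : E => F (r • y)) y u v =
      (r : ℂ) ^ 2 * fderiv ℝ (fderiv ℝ F) (r • y) u v := by
    intro y u v
    have hd : DifferentiableAt ℝ (fun y : E => fderiv ℝ F (r • y)) y :=
      (((hF.fderiv_right (m := 1) (by norm_num)).comp (contDiff_const_smul r)).differentiable
        one_ne_zero) y
    rw [e1, fderiv_const_smul hd, fderiv_comp_smul r]
    simp only [ContinuousLinearMap.smul_apply, real_smul]
    ring
  have h := green_hom hU hP
  have hsm : Continuous fun y : E => r • y := continuous_const_smul r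
  have c1 : Continuous fun y => (r : ℂ) ^ 2 * (lap F (r • y) * P y) :=
    continuous_const.mul (((continuous_lap hF).comp hsm).mul hP.cont)
  have c2 : Continuous fun y => (r : ℂ) ^ 2 * (fderiv ℝ (fderiv ℝ F) (r • y) y y * P y) :=
    continuous_const.mul (((continuous_d2 hF).comp (hsm.prodMk continuous_id)).mul hP.cont)
  have c3 : Continuous fun y => (11 * r : ℂ) * (fderiv ℝ F (r • y) y * P y) :=
    continuous_const.mul ((((hF.continuous_fderiv two_ne_zero).comp hsm).clm_apply
      continuous_id).mul hP.cont)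
  have e3 : Av (fun y => (lap (fun y : E => F (r • y)) y -
      fderiv ℝ (fderiv ℝ fun y : E => F (r • y)) y y y -
      11 * fderiv ℝ (fun y : E => F (r • y)) y y) * P y) =
      (r : ℂ) ^ 2 * mom (lap F) P r - (r : ℂ) ^ 2 * deriv (deriv (mom F P)) r -
        11 * r * deriv (mom F P) r := by
    have c4 : Continuous fun y => (r : ℂ) ^ 2 * (lap F (r • y) * P y) -
        (r : ℂ) ^ 2 * (fderiv ℝ (fderiv ℝ F) (r • y) y y * P y) := c1.sub c2
    rw [deriv_mom hF hP.cont, deriv2_mom hF hP.cont, mom, ← Av_mul, ← Av_mul, ← Av_mul,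
      ← Av_sub c1 c2, ← Av_sub c4 c3]
    refine Av_congr fun y _ => ?_
    rw [lap_eq hU, lap_eq hF, e2]
    simp only [e2, ← Finset.mul_sum]
    rw [e1]
    simp only [Pi.smul_apply, ContinuousLinearMap.smul_apply, real_smul, Pi.sub_apply]
    ring
  rw [e3] at h
  have hr' : (r : ℂ) ≠ 0 := by exact_mod_cast hr
  change _ = mom F (lap P) r - k * (k + 10) * mom F P r at h
  field_simp
  linear_combination h

theorem Av_lap (hP : Hom k P) : Av (lap P) = k * (k + 10) * Av P := by
  have h := green_hom (F := fun _ => 1) contDiff_const hP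
  simp only [lap_one, fderiv_fun_const, Pi.zero_apply, ContinuousLinearMap.zero_apply, one_mul,
    fderiv_zero, sub_self, mul_zero, zero_mul, Av_const] at h
  linear_combination -h

theorem Av_co_lap (hP : Hom k P) (j : Fin 12) : Av (fun y => rCo j y * lap P y) =
    (k * (k + 10) - 11) * Av fun y => rCo j y * P y := by
  have h := green_hom (contDiff_co j) hP
  have e : (fun y => (lap (rCo j) y - fderiv ℝ (fderiv ℝ (rCo j)) y y y -
      11 * fderiv ℝ (rCo j) y y) * P y) = fun y => (-11) * (rCo j y * P y) := by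
    funext y
    rw [lap_co, (hom_co j).euler, (hom_co j).euler2]
    push_cast
    ring
  rw [e, Av_mul] at h
  linear_combination -h

/-- left side of the first radial equation -/
noncomputable def RL1 (m : ℕ) (om : ℝ) (w : ℝ → ℂ) (l : ℕ) (z : ℂ) (f g : ℝ → ℂ) (r : ℝ) : ℂ :=
  deriv (deriv f) r + 11 / r * deriv f r - l * (l + 10) / r ^ 2 * f r
      + I * (z + aa m - I * om) * f r + I * r / 2 * deriv f r
      - V1 m w (r ^ 2 / 4) * f r - V2 m w (r ^ 2 / 4) * g r

/-- left side of the second radial equation -/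
noncomputable def RL2 (m : ℕ) (om : ℝ) (w : ℝ → ℂ) (l : ℕ) (z : ℂ) (f g : ℝ → ℂ) (r : ℝ) : ℂ :=
  deriv (deriv g) r + 11 / r * deriv g r - l * (l + 10) / r ^ 2 * g r
      - I * (z + aa m + I * om) * g r - I * r / 2 * deriv g r
      - V1 m w (r ^ 2 / 4) * g r - conj (V2 m w (r ^ 2 / 4)) * f r

theorem rad_smul (g : ℝ → ℂ) (r : ℝ) {y : E} (hy : ‖y‖ = 1) : rad g (r • y) = g (r ^ 2 / 4) := by
  simp [rad, norm_smul, hy]

theorem rmom_lin {f g p : E → ℂ} (hf : ContDiff ℝ 2 f) (hg : Continuous g) (hP : Hom k P)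
    {r : ℝ} (hr : r ≠ 0) {a b c d e : ℂ}
    (h : ∀ y, ‖y‖ = 1 → lap f (r • y) + a * f (r • y) + b * fderiv ℝ f (r • y) (r • y)
      - c * f (r • y) - d * g (r • y) = e * p (r • y)) :
    deriv (deriv (mom f P)) r + 11 / r * deriv (mom f P) r - k * (k + 10) / r ^ 2 * mom f P r
      + a * mom f P r + b * r * deriv (mom f P) r - c * mom f P r - d * mom g P r
      + mom f (lap P) r / r ^ 2 = e * mom p P r := by
  have hsm : Continuous fun y : E => r • y := continuous_const_smul r
  have c1 : Continuous fun y => lap f (r • y) * P y := ((continuous_lap hf).comp hsm).mul hP.cont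
  have c2 : Continuous fun y => (a - c) * (f (r • y) * P y) :=
    continuous_const.mul ((hf.continuous.comp hsm).mul hP.cont)
  have c3 : Continuous fun y => (b * r) * (fderiv ℝ f (r • y) y * P y) :=
    continuous_const.mul ((((hf.continuous_fderiv two_ne_zero).comp hsm).clm_apply
      continuous_id).mul hP.cont)
  have c4 : Continuous fun y => d * (g (r • y) * P y) :=
    continuous_const.mul ((hg.comp hsm).mul hP.cont)
  have c5 : Continuous fun y => lap f (r • y) * P y + (a - c) * (f (r • y) * P y) := c1.add c2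
  have c6 : Continuous fun y => lap f (r • y) * P y + (a - c) * (f (r • y) * P y) +
      (b * r) * (fderiv ℝ f (r • y) y * P y) := c5.add c3
  have h1 : mom (lap f) P r + (a - c) * mom f P r + b * r * deriv (mom f P) r - d * mom g P r =
      e * mom p P r := by
    rw [deriv_mom hf hP.cont, mom, mom, mom, mom, ← Av_mul, ← Av_mul, ← Av_mul, ← Av_mul,
      ← Av_add c1 c2, ← Av_add c5 c3, ← Av_sub c6 c4]
    refine Av_congr fun y hy => ?_
    have h2 := h y hy
    rw [map_smul, real_smul] at h2
    linear_combination P y * h2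
  rw [mom_lap hf hP hr] at h1
  linear_combination h1

/-- the moments of a solution solve the radial system with a source of lower degree -/
theorem PSol.mom_eq {m : ℕ} {om : ℝ} {w : ℝ → ℂ} {z : ℂ} {f g p q : E → ℂ}
    (h : PSol m om w z f g p q) (hP : Hom k P) {r : ℝ} (hr : 0 < r) :
    RL1 m om w k z (mom f P) (mom g P) r + mom f (lap P) r / r ^ 2 = I * mom p P r ∧
      RL2 m om w k z (mom f P) (mom g P) r + mom g (lap P) r / r ^ 2 = -I * mom q P r := by
  obtain ⟨hf, hg, h1, h2⟩ := h
  have hf2 : ContDiff ℝ 2 f := hf.1.of_le (by norm_num)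
  have hg2 : ContDiff ℝ 2 g := hg.1.of_le (by norm_num)
  constructor
  · have := rmom_lin (p := p) hf2 hg2.continuous hP hr.ne' (a := I * (z + aa m - I * om))
      (b := I / 2) (c := V1 m w (r ^ 2 / 4)) (d := V2 m w (r ^ 2 / 4)) (e := I) fun y hy => by
        have h3 := h1 (r • y)
        rw [rad_smul _ _ hy, rad_smul _ _ hy] at h3
        exact h3
    unfold RL1
    linear_combination this
  · have := rmom_lin (p := q) hg2 hf2.continuous hP hr.ne' (a := -(I * (z + aa m + I * om)))
      (b := -(I / 2)) (c := V1 m w (r ^ 2 / 4)) (d := conj (V2 m w (r ^ 2 / 4))) (e := -I)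
      fun y hy => by
        have h3 := h2 (r • y)
        rw [rad_smul _ _ hy, rad_smul _ _ hy] at h3
        linear_combination h3
    unfold RL2
    linear_combination this

end Vale.Agent.P139
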