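import Vale.Agent.P139.RDefs

/-! Part R: integration by parts on the sphere. -/

open Complex MeasureTheory Filter Topology
open scoped ComplexConjugate ContDiff

namespace Vale.Agent.P139

/-- the homeomorphism of the sphere induced by an isometry -/
noncomputable def rsphIso (L : E ≃ₗᵢ[ℝ] E) : RS ≃ₜ RS where
  toFun θ := ⟨L θ, by simp⟩
  invFun θ := ⟨L.symm θ, by simp⟩
  left_inv θ := by simp
  right_inv θ := by simp
  continuous_toFun := by fun_prop
  continuous_invFun := by fun_prop

open scoped Pointwise in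
theorem rsph_mp (L : E ≃ₗᵢ[ℝ] E) : MeasurePreserving (rsphIso L) rsg rsg := by
  have m : Measurable (rsphIso L) := (rsphIso L).continuous.measurable
  refine ⟨m, Measure.ext fun s hs => ?_⟩
  unfold rsg
  rw [Measure.map_apply m hs, Measure.toSphere_apply' _ hs, Measure.toSphere_apply' _ (m hs),
    ← L.measurePreserving.measure_preimage_emb L.toHomeomorph.measurableEmbedding
      (Set.Ioo (0 : ℝ) 1 • (Subtype.val '' s))]
  congr 2
  ext z
  simp only [Set.mem_preimage, Set.mem_smul, Set.mem_image]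
  constructor
  · rintro ⟨t, ht, _, ⟨u, hu, rfl⟩, rfl⟩
    exact ⟨t, ht, _, ⟨_, hu, rfl⟩, (map_smul L t u.1).symm⟩
  · rintro ⟨t, ht, _, ⟨u, hu, rfl⟩, e⟩
    refine ⟨t, ht, _, ⟨(rsphIso L).symm u, by simpa using hu, rfl⟩, ?_⟩
    change t • L.symm u.1 = z
    rw [← map_smul, e, L.symm_apply_apply]

/-- invariance of the surface measure -/
theorem Av_iso (L : E ≃ₗᵢ[ℝ] E) (H : E → ℂ) : Av (fun y => H (L y)) = Av H :=
  (rsph_mp L).integral_comp (rsphIso L).measurableEmbedding fun θ : RS => H θ

theorem rsph_inner (i : Fin 12) (y : E) : inner ℝ (rEe i) y = y i := by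
  simp [rEe, EuclideanSpace.inner_single_left]

theorem rsph_rot {i j : Fin 12} (hij : i ≠ j) (t : ℝ) : ∃ L : E ≃ₗᵢ[ℝ] E, ∀ y, L y =
    y - (2 * y i) • rEe i - (2 * (-Real.cos t * y i + Real.sin t * y j)) •
      (Real.cos t • rEe i + Real.sin t • rEe j) := by
  have h1 : ‖rEe i‖ = 1 := by simp [rEe]
  have h2 : ‖rEe j‖ = 1 := by simp [rEe]
  have h3 : (rEe i) j = 0 := by simp [rEe, hij.symm]
  have h4 : (rEe i) i = 1 := by simp [rEe]
  have h5 : inner ℝ (rEe i) (rEe j) = 0 := by rw [real_inner_comm, rsph_inner, h3]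
  have hv : ‖Real.cos t • rEe i + Real.sin t • rEe j‖ ^ 2 = 1 := by
    rw [norm_add_sq_real, norm_smul, norm_smul, h1, h2, real_inner_smul_left,
      real_inner_smul_right, h5, Real.norm_eq_abs, Real.norm_eq_abs, mul_one, mul_one, sq_abs,
      sq_abs]
    nlinarith [Real.cos_sq_add_sin_sq t]
  refine ⟨((ℝ ∙ rEe i).reflection).trans
    ((ℝ ∙ (Real.cos t • rEe i + Real.sin t • rEe j)).reflection), fun y => ?_⟩
  rw [LinearIsometryEquiv.trans_apply, Submodule.reflection_singleton_apply,
    Submodule.reflection_singleton_apply]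
  simp only [RCLike.ofReal_real_eq_id, id, hv, h1, inner_add_left, real_inner_smul_left,
    rsph_inner, PiLp.sub_apply, PiLp.smul_apply, h3, h4, smul_eq_mul, nsmul_eq_mul]
  module

/-- infinitesimal rotations integrate to zero -/
theorem Av_rot {H : E → ℂ} (h : ContDiff ℝ 1 H) (i j : Fin 12) :
    Av (fun y => rCo i y * fderiv ℝ H y (rEe j) - rCo j y * fderiv ℝ H y (rEe i)) = 0 := by
  by_cases hij : i = j
  · subst hij
    simp [Av_const]
  let γ : ℝ → E → E := fun t y => y - (2 * y i) • rEe i -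
    (2 * (-Real.cos t * y i + Real.sin t * y j)) • (Real.cos t • rEe i + Real.sin t • rEe j)
  let γ' : ℝ → E → E := fun t y =>
    -((2 * (-Real.cos t * y i + Real.sin t * y j)) • (-Real.sin t • rEe i + Real.cos t • rEe j) +
      (2 * (Real.sin t * y i + Real.cos t * y j)) • (Real.cos t • rEe i + Real.sin t • rEe j))
  have hγ : Continuous fun p : ℝ × E => γ p.1 p.2 := by simp only [γ]; fun_prop
  have hγ' : Continuous fun p : ℝ × E => γ' p.1 p.2 := by simp only [γ']; fun_prop
  have hd : ∀ t y, HasDerivAt (fun s => γ s y) (γ' t y) t := by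
    intro t y
    have a1 : HasDerivAt (fun s => 2 * (-Real.cos s * y i + Real.sin s * y j))
        (2 * (Real.sin t * y i + Real.cos t * y j)) t := by
      have := ((((Real.hasDerivAt_cos t).neg.mul_const (y i)).add
        ((Real.hasDerivAt_sin t).mul_const (y j))).const_mul 2)
      simpa using this
    have a2 : HasDerivAt (fun s => Real.cos s • rEe i + Real.sin s • rEe j)
        (-Real.sin t • rEe i + Real.cos t • rEe j) t :=
      ((Real.hasDerivAt_cos t).smul_const _).add ((Real.hasDerivAt_sin t).smul_const _)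
    exact (a1.smul a2).const_sub _
  have hD := hasDerivAt_Av (Φ := fun t y => H (γ t y))
    (Φ' := fun t y => fderiv ℝ H (γ t y) (γ' t y)) (h.continuous.comp hγ)
    (((h.continuous_fderiv one_ne_zero).comp hγ).clm_apply hγ')
    (fun t y => ((h.differentiable one_ne_zero) _).hasFDerivAt.comp_hasDerivAt t (hd t y)) 0
  have hc : (fun s => Av fun y => H (γ s y)) = fun _ => Av H := by
    funext s
    obtain ⟨L, hL⟩ := rsph_rot hij s
    rw [← Av_iso L H]
    simp only [hL, γ]
  rw [hc] at hD
  have h0 := hD.unique (hasDerivAt_const _ _)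
  have e : (fun y => fderiv ℝ H (γ 0 y) (γ' 0 y)) = fun y =>
      2 * (rCo i y * fderiv ℝ H y (rEe j) - rCo j y * fderiv ℝ H y (rEe i)) := by
    funext y
    have e1 : γ 0 y = y := by
      simp only [γ, Real.cos_zero, Real.sin_zero]
      module
    have e2 : γ' 0 y = (2 * y i) • rEe j - (2 * y j) • rEe i := by
      simp only [γ', Real.cos_zero, Real.sin_zero]
      module
    rw [e1, e2, map_sub, map_smul, map_smul]
    simp only [rCo, real_smul]
    push_cast
    ring
  rw [e, Av_mul] at h0
  simpa using h0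

theorem rsph_mul {H G : E → ℂ} (h : Differentiable ℝ H) (g : Differentiable ℝ G) (y v : E) :
    fderiv ℝ (fun x => H x * G x) y v = fderiv ℝ H y v * G y + H y * fderiv ℝ G y v := by
  rw [fderiv_fun_mul (h y) (g y)]
  simp only [ContinuousLinearMap.add_apply, ContinuousLinearMap.smul_apply, smul_eq_mul]
  ring

theorem rsph_cont {H : E → ℂ} (h : ContDiff ℝ 1 H) {v : E → E} (hv : Continuous v) :
    Continuous fun y => fderiv ℝ H y (v y) := (h.continuous_fderiv one_ne_zero).clm_apply hv

/-- the divergence theorem on the sphere -/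
theorem Av_div {H : E → ℂ} (h : ContDiff ℝ 1 H) (j : Fin 12) :
    Av (fun y => fderiv ℝ H y (rEe j) - rCo j y * fderiv ℝ H y y - 11 * (rCo j y * H y)) = 0 := by
  have hi : ∀ i, ContDiff ℝ 1 fun y => rCo i y * H y := fun i => (contDiff_co i).mul h
  have h1 := Av_sum Finset.univ (H := fun i y =>
    rCo i y * fderiv ℝ (fun x => rCo i x * H x) y (rEe j) -
      rCo j y * fderiv ℝ (fun x => rCo i x * H x) y (rEe i)) fun i =>
    ((continuous_co i).mul (rsph_cont (hi i) continuous_const)).sub
      ((continuous_co j).mul (rsph_cont (hi i) continuous_const))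
  rw [Finset.sum_congr rfl fun i _ => Av_rot (hi i) i j, Finset.sum_const_zero] at h1
  rw [← h1]
  refine Av_congr fun y hy => ?_
  have hco : ∀ i, Differentiable ℝ (rCo i) := fun i y => (hasFDerivAt_co i y).differentiableAt
  have e : ∀ i, rCo i y * fderiv ℝ (fun x => rCo i x * H x) y (rEe j) -
      rCo j y * fderiv ℝ (fun x => rCo i x * H x) y (rEe i) =
      (if i = j then rCo i y * H y else 0) + rCo i y * rCo i y * fderiv ℝ H y (rEe j) -
        rCo j y * H y - rCo j y * (rCo i y * fderiv ℝ H y (rEe i)) := by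
    intro i
    rw [rsph_mul (hco i) (h.differentiable one_ne_zero),
      rsph_mul (hco i) (h.differentiable one_ne_zero), fderiv_co, fderiv_co, co_ee, co_ee,
      if_pos rfl]
    split_ifs <;> ring
  rw [Finset.sum_congr rfl fun i _ => e i, Finset.sum_sub_distrib, Finset.sum_sub_distrib,
    Finset.sum_add_distrib, ← Finset.sum_mul, sum_co_sq, ← Finset.mul_sum, ← Finset.mul_sum,
    clm_sum, hy]
  simp
  ring

theorem rsph_pd {U : E → ℂ} (hU : ContDiff ℝ 2 U) (v : E) :
    ContDiff ℝ 1 fun x => fderiv ℝ U x v :=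
  (hU.fderiv_right (m := 1) (by norm_num)).clm_apply contDiff_const

theorem rsph_pd2 {U : E → ℂ} (hU : ContDiff ℝ 2 U) (v y u : E) :
    fderiv ℝ (fun x => fderiv ℝ U x v) y u = fderiv ℝ (fderiv ℝ U) y u v := by
  have h1 : DifferentiableAt ℝ (fderiv ℝ U) y :=
    (hU.fderiv_right (m := 1) (by norm_num)).differentiable one_ne_zero y
  rw [fderiv_clm_apply h1 (differentiableAt_const v)]
  simp

theorem continuous_lap {U : E → ℂ} (hU : ContDiff ℝ 2 U) : Continuous (lap U) :=
  continuous_finset_sum _ fun _ _ => rsph_cont (rsph_pd hU _) continuous_const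

theorem continuous_d2 {U : E → ℂ} (hU : ContDiff ℝ 2 U) :
    Continuous fun p : E × E => fderiv ℝ (fderiv ℝ U) p.1 p.2 p.2 :=
  ((((hU.fderiv_right (m := 1) (by norm_num)).continuous_fderiv one_ne_zero).comp
    continuous_fst).clm_apply continuous_snd).clm_apply continuous_snd

theorem rsph_green {U V : E → ℂ} (hU : ContDiff ℝ 2 U) (hV : ContDiff ℝ 2 V) :
    Av (fun y => (lap U y - fderiv ℝ (fderiv ℝ U) y y y - 11 * fderiv ℝ U y y) * V y) =
      Av (fun y => fderiv ℝ U y y * fderiv ℝ V y y -
        ∑ j, fderiv ℝ U y (rEe j) * fderiv ℝ V y (rEe j)) := by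
  have hU1 : ContDiff ℝ 1 U := hU.of_le (by norm_num)
  have hV1 : ContDiff ℝ 1 V := hV.of_le (by norm_num)
  have hj : ∀ j, ContDiff ℝ 1 fun y => fderiv ℝ U y (rEe j) * V y := fun j =>
    (rsph_pd hU _).mul hV1
  have h1 := Av_sum Finset.univ (H := fun j y =>
    fderiv ℝ (fun x => fderiv ℝ U x (rEe j) * V x) y (rEe j) -
      rCo j y * fderiv ℝ (fun x => fderiv ℝ U x (rEe j) * V x) y y -
        11 * (rCo j y * (fderiv ℝ U y (rEe j) * V y))) fun j =>
    ((rsph_cont (hj j) continuous_const).sub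
      ((continuous_co j).mul (rsph_cont (hj j) continuous_id))).sub
      (continuous_const.mul ((continuous_co j).mul (hj j).continuous))
  rw [Finset.sum_congr rfl fun j _ => Av_div (hj j) j, Finset.sum_const_zero] at h1
  have c1 : Continuous fun y =>
      (lap U y - fderiv ℝ (fderiv ℝ U) y y y - 11 * fderiv ℝ U y y) * V y :=
    (((continuous_lap hU).sub ((continuous_d2 hU).comp (continuous_id.prodMk continuous_id))).sub
      (continuous_const.mul (rsph_cont hU1 continuous_id))).mul hV.continuous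
  have c2 : Continuous fun y => fderiv ℝ U y y * fderiv ℝ V y y -
      ∑ j, fderiv ℝ U y (rEe j) * fderiv ℝ V y (rEe j) :=
    ((rsph_cont hU1 continuous_id).mul (rsph_cont hV1 continuous_id)).sub
      (continuous_finset_sum _ fun j _ =>
        (rsph_cont hU1 continuous_const).mul (rsph_cont hV1 continuous_const))
  rw [← sub_eq_zero, ← Av_sub c1 c2, ← h1]
  refine Av_congr fun y _ => ?_
  have e : ∀ j, fderiv ℝ (fun x => fderiv ℝ U x (rEe j) * V x) y (rEe j) -
      rCo j y * fderiv ℝ (fun x => fderiv ℝ U x (rEe j) * V x) y y -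
        11 * (rCo j y * (fderiv ℝ U y (rEe j) * V y)) =
      fderiv ℝ (fun x => fderiv ℝ U x (rEe j)) y (rEe j) * V y +
        fderiv ℝ U y (rEe j) * fderiv ℝ V y (rEe j) -
        rCo j y * fderiv ℝ (fderiv ℝ U) y y (rEe j) * V y -
        rCo j y * fderiv ℝ U y (rEe j) * (fderiv ℝ V y y + 11 * V y) := by
    intro j
    rw [rsph_mul ((rsph_pd hU _).differentiable one_ne_zero) (hV1.differentiable one_ne_zero),
      rsph_mul ((rsph_pd hU _).differentiable one_ne_zero) (hV1.differentiable one_ne_zero),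
      rsph_pd2 hU (rEe j) y y]
    ring
  rw [Finset.sum_congr rfl fun j _ => e j, Finset.sum_sub_distrib, Finset.sum_sub_distrib,
    Finset.sum_add_distrib, ← Finset.sum_mul, ← Finset.sum_mul, ← Finset.sum_mul, clm_sum,
    clm_sum]
  have e2 : lap U y = ∑ j, fderiv ℝ (fun x => fderiv ℝ U x (rEe j)) y (rEe j) := rfl
  rw [e2]
  ring

/-- Green identity on the sphere -/
theorem Av_green {U V : E → ℂ} (hU : ContDiff ℝ 2 U) (hV : ContDiff ℝ 2 V) :
    Av (fun y => (lap U y - fderiv ℝ (fderiv ℝ U) y y y - 11 * fderiv ℝ U y y) * V y) =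
      Av (fun y => U y * (lap V y - fderiv ℝ (fderiv ℝ V) y y y - 11 * fderiv ℝ V y y)) := by
  have h1 := rsph_green hV hU
  simp only [mul_comm _ (U _)] at h1
  rw [rsph_green hU hV, h1]
  simp only [mul_comm]

theorem Av_co (j : Fin 12) : Av (rCo j) = 0 := by
  have h := Av_div (H := fun _ => 1) contDiff_const j
  have e : (fun y => fderiv ℝ (fun _ : E => (1 : ℂ)) y (rEe j) -
      rCo j y * fderiv ℝ (fun _ : E => (1 : ℂ)) y y - 11 * (rCo j y * 1)) =
      fun y => (-11) * rCo j y := by
    funext y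
    simp
  rw [e, Av_mul] at h
  simpa using h

theorem Av_co_co (i j : Fin 12) :
    Av (fun y => rCo i y * rCo j y) = if i = j then (rA : ℂ) / 12 else 0 := by
  have h := Av_div (contDiff_co i) j
  have e : (fun y => fderiv ℝ (rCo i) y (rEe j) - rCo j y * fderiv ℝ (rCo i) y y -
      11 * (rCo j y * rCo i y)) = fun y => rCo i (rEe j) - 12 * (rCo i y * rCo j y) := by
    funext y
    rw [fderiv_co, fderiv_co]
    ring
  have c : Continuous fun y => 12 * (rCo i y * rCo j y) :=
    continuous_const.mul ((continuous_co i).mul (continuous_co j))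
  rw [e, Av_sub continuous_const c, Av_const, Av_mul, co_ee] at h
  split_ifs at h ⊢
  · linear_combination (-1 / 12 : ℂ) * h
  · linear_combination (-1 / 12 : ℂ) * h

end Vale.Agent.P139
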