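import Vale.Agent.P139.MG1

open Complex MeasureTheory Filter Topology

namespace Vale.Agent.P139

theorem reg_moment (v : NNReal) : ∫⁻ z, ENNReal.ofReal (‖z‖ ^ 2) ∂(cgauss v) ≠ ⊤ := by
  have h1 : Integrable (fun x : ℝ => x ^ 2) (ProbabilityTheory.gaussianReal 0 v) :=
    (ProbabilityTheory.memLp_id_gaussianReal (μ := 0) (v := v) 2).integrable_sq
  have h2 := (h1.comp_fst (ProbabilityTheory.gaussianReal 0 v)).add
    (h1.comp_snd (ProbabilityTheory.gaussianReal 0 v))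
  rw [cgauss, lintegral_map (by fun_prop) mg1_cont.measurable]
  refine ne_top_of_le_ne_top h2.lintegral_lt_top.ne (lintegral_mono fun w => ?_)
  refine ENNReal.ofReal_le_ofReal (le_of_eq ?_)
  rw [← normSq_eq_norm_sq, normSq_add_mul_I]
  rfl

theorem reg_sum {q : ℝ} (hq : 6 < q) : Summable fun n : Z => (1 + nsq n) ^ (-q) := by
  refine Summable.of_nonneg_of_le (fun n => ?_) (fun n => ?_)
    ((summable_lat (2 * q) (by linarith)).mul_left (2 ^ q))
  · rw [nsq_eq]; positivity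
  · rw [nsq_eq]
    have h0 := norm_nonneg (zE n)
    have h1 : (1 + ‖zE n‖) ^ 2 / 2 ≤ 1 + ‖zE n‖ ^ 2 := by nlinarith [sq_nonneg (1 - ‖zE n‖)]
    refine (Real.rpow_le_rpow_of_nonpos (by positivity) h1 (by linarith)).trans (le_of_eq ?_)
    rw [Real.div_rpow (by positivity) (by norm_num), ← Real.rpow_natCast, ← Real.rpow_mul
      (by positivity), Real.rpow_neg (by norm_num : (0 : ℝ) ≤ 2), div_inv_eq_mul, mul_comm]
    congr 2
    push_cast
    ring

/-- the random datum lies in H^k almost surely when k < α - 6 -/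
theorem reg_ae {Ω : Type} [MeasurableSpace Ω] (P : Measure Ω) (v : NNReal) (g : Z → Ω → ℂ)
    (hm : ∀ n, Measurable (g n)) (hg : ∀ n, P.map (g n) = cgauss v) (k : ℕ) (α : ℝ)
    (hk : (k : ℝ) < α - 6) :
    ∀ᵐ x ∂P, Summable (hs k fun n => g n x * (((1 + nsq n) ^ (-α / 2) : ℝ) : ℂ)) := by
  have p0 : ∀ n : Z, 0 < 1 + nsq n := fun n => by rw [nsq_eq]; positivity
  have e : ∀ x n, hs k (fun n => g n x * (((1 + nsq n) ^ (-α / 2) : ℝ) : ℂ)) n
      = (1 + nsq n) ^ (-(α - k)) * ‖g n x‖ ^ 2 := fun x n => by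
    rw [hs, norm_mul, mul_pow, norm_real, Real.norm_of_nonneg (Real.rpow_nonneg (p0 n).le _),
      ← Real.rpow_natCast, ← Real.rpow_natCast ((1 + nsq n) ^ (-α / 2)), ← Real.rpow_mul (p0 n).le,
      mul_left_comm, ← Real.rpow_add (p0 n), mul_comm]
    congr 2
    push_cast
    ring
  have ms : ∀ n, Measurable fun x =>
      ENNReal.ofReal ((1 + nsq n) ^ (-(α - k)) * ‖g n x‖ ^ 2) := fun n => by
    have := hm n
    fun_prop
  have fin : ∫⁻ x, ∑' n, ENNReal.ofReal ((1 + nsq n) ^ (-(α - k)) * ‖g n x‖ ^ 2) ∂P ≠ ⊤ := by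
    rw [lintegral_tsum fun n => (ms n).aemeasurable]
    have h1 : ∀ n, ∫⁻ x, ENNReal.ofReal ((1 + nsq n) ^ (-(α - k)) * ‖g n x‖ ^ 2) ∂P
        = ENNReal.ofReal ((1 + nsq n) ^ (-(α - k)))
          * ∫⁻ z, ENNReal.ofReal (‖z‖ ^ 2) ∂(cgauss v) := fun n => by
      rw [← hg n, lintegral_map (by fun_prop) (hm n), ← lintegral_const_mul' _ _ ENNReal.ofReal_ne_top]
      refine lintegral_congr fun x => ?_
      rw [ENNReal.ofReal_mul (Real.rpow_nonneg (p0 n).le _)]
    simp only [h1]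
    rw [ENNReal.tsum_mul_right, ← ENNReal.ofReal_tsum_of_nonneg
      (fun n => Real.rpow_nonneg (p0 n).le _) (reg_sum (by linarith))]
    exact ENNReal.mul_ne_top ENNReal.ofReal_ne_top (reg_moment v)
  filter_upwards [ae_lt_top (Measurable.ennreal_tsum ms) fin] with x hx
  have h2 := ENNReal.summable_toReal hx.ne
  refine h2.congr fun n => ?_
  rw [e, ENNReal.toReal_ofReal (mul_nonneg (Real.rpow_nonneg (p0 n).le _) (sq_nonneg _))]

end Vale.Agent.P139
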