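import Vale.Agent.P139.Defs

open Complex MeasureTheory Filter Topology
open scoped ComplexConjugate ContDiff

namespace Vale.Agent.P139

/-- the integrand -/
noncomputable def spA_K (α γ : ℂ) (x u : ℝ) : ℂ :=
  Complex.exp (-(u : ℂ)) * (u : ℂ) ^ (α - 1) * (1 + I * u * x) ^ γ

theorem spA_slit (u x : ℝ) : (1 + I * u * x : ℂ) ∈ slitPlane := Or.inl (by simp)

theorem spA_ne (u x : ℝ) : (1 + I * u * x : ℂ) ≠ 0 := slitPlane_ne_zero (spA_slit u x)

theorem spA_pow_le {γ : ℂ} {G X x u : ℝ} (hγ : ‖γ‖ ≤ G) (hx : |x| ≤ X) (hu : 0 < u) :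
    ‖(1 + I * u * x : ℂ) ^ γ‖ ≤
      Real.exp (Real.pi * G) * ((1 + X) ^ ⌈G⌉₊ * 2 ^ (⌈G⌉₊ - 1)) * (1 + u ^ ⌈G⌉₊) := by
  have hX : 0 ≤ X := (abs_nonneg x).trans hx
  have h1 : 1 ≤ ‖(1 + I * u * x : ℂ)‖ := by
    simpa using re_le_norm (1 + I * u * x : ℂ)
  have h2 : ‖(1 + I * u * x : ℂ)‖ ≤ (1 + X) * (1 + u) := by
    refine (norm_add_le _ _).trans ?_
    rw [norm_one, norm_mul, norm_mul, norm_I, one_mul, norm_real, norm_real, Real.norm_eq_abs,
      Real.norm_eq_abs, abs_of_pos hu]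
    nlinarith [mul_le_mul_of_nonneg_left hx hu.le]
  have h3 : ‖(1 + I * u * x : ℂ)‖ ^ γ.re ≤
      (1 + X) ^ ⌈G⌉₊ * 2 ^ (⌈G⌉₊ - 1) * (1 + u ^ ⌈G⌉₊) := by
    refine (Real.rpow_le_rpow_of_exponent_le h1
      ((re_le_norm γ).trans (hγ.trans (Nat.le_ceil G)))).trans ?_
    rw [Real.rpow_natCast]
    refine (pow_le_pow_left₀ (norm_nonneg _) h2 _).trans ?_
    rw [mul_pow, mul_assoc]
    have h4 := add_pow_le (zero_le_one' ℝ) hu.le ⌈G⌉₊
    rw [one_pow] at h4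
    exact mul_le_mul_of_nonneg_left h4 (by positivity)
  have h4 : -(arg (1 + I * u * x) * γ.im) ≤ Real.pi * G := by
    refine (neg_le_abs _).trans ?_
    rw [abs_mul]
    exact mul_le_mul (abs_arg_le_pi _) ((abs_im_le_norm γ).trans hγ) (abs_nonneg _) Real.pi_pos.le
  rw [norm_cpow_of_ne_zero (spA_ne u x), div_eq_mul_inv, ← Real.exp_neg, mul_comm,
    mul_assoc (Real.exp (Real.pi * G))]
  exact mul_le_mul (Real.exp_le_exp.2 h4) h3 (by positivity) (by positivity)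

/-- a locally uniform majorant -/
theorem spA_bound {a₁ a₂ : ℝ} (h₁ : 0 < a₁) (h₂ : 0 < a₂) (G X : ℝ) : ∃ g : ℝ → ℝ,
    IntegrableOn g (Set.Ioi 0) ∧ ∀ (α γ : ℂ) (x : ℝ), a₁ ≤ α.re → α.re ≤ a₂ → ‖γ‖ ≤ G → |x| ≤ X →
      ∀ u, 0 < u → ‖spA_K α γ x u‖ ≤ g u := by
  refine ⟨fun u => Real.exp (Real.pi * G) * ((1 + X) ^ ⌈G⌉₊ * 2 ^ (⌈G⌉₊ - 1)) *
    (Real.exp (-u) * u ^ (a₁ - 1) + Real.exp (-u) * u ^ (a₂ - 1) +
      (Real.exp (-u) * u ^ (a₁ + ⌈G⌉₊ - 1) + Real.exp (-u) * u ^ (a₂ + ⌈G⌉₊ - 1))),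
    (((Real.GammaIntegral_convergent h₁).add (Real.GammaIntegral_convergent h₂)).add
      ((Real.GammaIntegral_convergent (by positivity)).add
        (Real.GammaIntegral_convergent (by positivity)))).const_mul _,
    fun α γ x h1 h2 hγ hx u hu => ?_⟩
  have h3 : u ^ (α.re - 1) ≤ u ^ (a₁ - 1) + u ^ (a₂ - 1) := by
    rcases le_total u 1 with h | h
    · exact le_add_of_le_of_nonneg (Real.rpow_le_rpow_of_exponent_ge hu h (by linarith))
        (by positivity)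
    · exact le_add_of_nonneg_of_le (by positivity)
        (Real.rpow_le_rpow_of_exponent_le h (by linarith))
  have h4 : ∀ a : ℝ, u ^ (a + ⌈G⌉₊ - 1) = u ^ (a - 1) * u ^ ⌈G⌉₊ := fun a => by
    rw [add_sub_right_comm, Real.rpow_add hu, Real.rpow_natCast]
  have h5 := spA_pow_le hγ hx hu
  rw [spA_K, norm_mul, norm_mul, norm_exp, norm_cpow_eq_rpow_re_of_pos hu]
  simp only [neg_re, ofReal_re, sub_re, one_re, h4]
  refine (mul_le_mul (mul_le_mul_of_nonneg_left h3 (Real.exp_pos _).le) h5 (norm_nonneg _)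
    (by positivity)).trans (le_of_eq (by ring))

theorem spA_meas (α γ : ℂ) (x : ℝ) :
    AEStronglyMeasurable (spA_K α γ x) (volume.restrict (Set.Ioi 0)) := by
  refine Measurable.aestronglyMeasurable ?_
  unfold spA_K
  fun_prop

theorem spA_int {α : ℂ} (hα : 0 < α.re) (γ : ℂ) (x : ℝ) :
    Integrable (spA_K α γ x) (volume.restrict (Set.Ioi 0)) := by
  obtain ⟨g, hg, h⟩ := spA_bound hα hα ‖γ‖ |x|
  exact hg.mono' (spA_meas α γ x) ((ae_restrict_iff' measurableSet_Ioi).2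
    (Eventually.of_forall (h α γ x le_rfl le_rfl le_rfl le_rfl)))

theorem spA_Th (α γ : ℂ) (x : ℝ) : Th α γ x = ∫ u in Set.Ioi (0 : ℝ), spA_K α γ x u := rfl

theorem spA_pow1 {u : ℝ} (hu : 0 < u) (α : ℂ) : (u : ℂ) ^ (α + 1 - 1) = u ^ (α - 1) * u := by
  rw [add_sub_right_comm, cpow_add _ _ (ofReal_ne_zero.2 hu.ne'), cpow_one]

theorem spA_pow2 (u x : ℝ) (γ : ℂ) :
    (1 + I * u * x : ℂ) ^ γ = (1 + I * u * x) ^ (γ - 1) * (1 + I * u * x) := by
  conv_lhs => rw [← sub_add_cancel γ 1, cpow_add _ _ (spA_ne u x), cpow_one]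

theorem th_integrable {α : ℂ} (hα : 0 < α.re) (γ : ℂ) (x : ℝ) : IntegrableOn
    (fun u : ℝ => Complex.exp (-(u : ℂ)) * (u : ℂ) ^ (α - 1) * (1 + I * u * x) ^ γ)
    (Set.Ioi 0) := spA_int hα γ x

theorem th_deriv {α : ℂ} (hα : 0 < α.re) (γ : ℂ) (x : ℝ) :
    HasDerivAt (Th α γ) (I * γ * Th (α + 1) (γ - 1) x) x := by
  have hα1 : 0 < (α + 1).re := by
    rw [add_re, one_re]
    linarith
  obtain ⟨g, hg, h⟩ := spA_bound hα1 hα1 ‖γ - 1‖ (|x| + 1)
  rw [spA_Th, ← integral_const_mul]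
  refine (hasDerivAt_integral_of_dominated_loc_of_deriv_le (F := fun y => spA_K α γ y)
    (F' := fun y u => I * γ * spA_K (α + 1) (γ - 1) y u) (bound := fun u => ‖I * γ‖ * g u)
    (Metric.ball_mem_nhds x one_pos) (Eventually.of_forall fun y => spA_meas α γ y)
    (spA_int hα γ x) ((spA_meas _ _ x).const_mul _) ?_ (hg.const_mul _) ?_).2
  · refine (ae_restrict_iff' measurableSet_Ioi).2 (Eventually.of_forall fun u hu y hy => ?_)
    rw [norm_mul]
    refine mul_le_mul_of_nonneg_left (h _ _ y le_rfl le_rfl le_rfl ?_ u hu) (norm_nonneg _)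
    have h1 := abs_sub_abs_le_abs_sub y x
    rw [Metric.mem_ball, Real.dist_eq] at hy
    linarith
  · refine (ae_restrict_iff' measurableSet_Ioi).2 (Eventually.of_forall fun u hu y _ => ?_)
    have h1 : HasDerivAt (fun z : ℂ => 1 + I * u * z) (I * u * 1) y :=
      ((hasDerivAt_id _).const_mul _).const_add _
    refine (((h1.cpow_const (c := γ) (spA_slit u y)).comp_ofReal).const_mul
      (Complex.exp (-(u : ℂ)) * (u : ℂ) ^ (α - 1))).congr_deriv ?_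
    rw [spA_K, spA_pow1 hu]
    ring

theorem spA_re {α : ℂ} (hα : -1 < α.re) : 0 < (α + 1).re := by
  rw [add_re, one_re]
  linarith

theorem spA_re' {α : ℂ} (hα : 0 < α.re) : 0 < (α + 1).re := spA_re (by linarith)

theorem th_rec1 {α : ℂ} (hα : 0 < α.re) (γ : ℂ) (x : ℝ) :
    Th α γ x = Th α (γ - 1) x + I * x * Th (α + 1) (γ - 1) x := by
  rw [spA_Th, spA_Th, spA_Th, ← integral_const_mul,
    ← integral_add (spA_int hα _ x) ((spA_int (spA_re' hα) _ x).const_mul _)]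
  refine setIntegral_congr_fun measurableSet_Ioi fun u hu => ?_
  simp only [spA_K]
  rw [spA_pow1 hu, spA_pow2 u x γ]
  ring

theorem th_rec2 {α : ℂ} (hα : 0 < α.re) (γ : ℂ) (x : ℝ) :
    α * Th α γ x = Th (α + 1) γ x - I * γ * x * Th (α + 1) (γ - 1) x := by
  have hα0 : α ≠ 0 := fun h => by simp [h] at hα
  have i1 := (spA_int hα γ x).const_mul α
  have i2 := spA_int (spA_re' hα) γ x
  have i3 := (spA_int (spA_re' hα) (γ - 1) x).const_mul (I * γ * x)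
  have hd : ∀ u ∈ Set.Ioi (0 : ℝ), HasDerivAt (spA_K (α + 1) γ x)
      (α * spA_K α γ x u - spA_K (α + 1) γ x u + I * γ * x * spA_K (α + 1) (γ - 1) x u) u := by
    intro u hu
    have h1 : HasDerivAt (fun z : ℂ => 1 + I * z * x) (I * 1 * x) u :=
      (((hasDerivAt_id _).const_mul _).mul_const _).const_add _
    have h2 : HasDerivAt (fun z : ℂ => z ^ (α + 1 - 1)) _ u :=
      (hasDerivAt_id _).cpow_const (ofReal_mem_slitPlane.2 hu)
    have h3 : HasDerivAt (fun z : ℂ => Complex.exp (-z)) _ u := (hasDerivAt_neg _).cexp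
    refine (((h3.mul h2).mul (h1.cpow_const (c := γ) (spA_slit u x))).comp_ofReal).congr_deriv ?_
    simp only [spA_K, Pi.mul_apply, id, add_sub_cancel_right]
    ring
  have hc : ContinuousWithinAt (spA_K (α + 1) γ x) (Set.Ici 0) 0 := by
    refine ContinuousAt.continuousWithinAt (ContinuousAt.mul (ContinuousAt.mul (by fun_prop)
      (continuousAt_ofReal_cpow_const _ _ (Or.inl (by simpa using hα)))) ?_)
    exact ContinuousAt.cpow (by fun_prop) continuousAt_const (spA_slit 0 x)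
  have h := integral_Ioi_of_hasDerivAt_of_tendsto hc hd ((i1.sub i2).add i3)
    (tendsto_zero_of_hasDerivAt_of_integrableOn_Ioi hd ((i1.sub i2).add i3) i2)
  have i4 : Integrable (fun u => α * spA_K α γ x u - spA_K (α + 1) γ x u)
      (volume.restrict (Set.Ioi 0)) := i1.sub i2
  rw [integral_add i4 i3, integral_sub i1 i2, integral_const_mul, integral_const_mul,
    ← spA_Th, ← spA_Th, ← spA_Th] at h
  have h0 : spA_K (α + 1) γ x 0 = 0 := by simp [spA_K, hα0]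
  rw [h0] at h
  linear_combination h

theorem th_zero {α : ℂ} (hα : 0 < α.re) (γ : ℂ) : Th α γ 0 = Complex.Gamma α := by
  rw [Complex.Gamma_eq_integral hα, Complex.GammaIntegral, Th]
  simp

theorem th_smooth {α : ℂ} (hα : 0 < α.re) (γ : ℂ) : ContDiff ℝ ∞ (Th α γ) := by
  rw [contDiff_infty]
  intro n
  induction n generalizing α γ with
  | zero =>
    exact contDiff_zero.2 (continuous_iff_continuousAt.2 fun x => (th_deriv hα γ x).continuousAt)
  | succ n ih =>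
    rw [Nat.cast_succ, contDiff_succ_iff_deriv]
    refine ⟨fun x => (th_deriv hα γ x).differentiableAt, by simp, ?_⟩
    rw [show deriv (Th α γ) = fun x => I * γ * Th (α + 1) (γ - 1) x from
      funext fun x => (th_deriv hα γ x).deriv]
    exact contDiff_const.mul (ih (spA_re' hα) _)

theorem spA_W1 (α b : ℂ) {s : ℝ} (hs : 0 < s) :
    WW (α + 1) (b + 1) s = (s : ℂ) ^ (-α) * ((s : ℂ)⁻¹ * Th (α + 1) (b - α - 1) (1 / s)) := by
  rw [WW, neg_add, cpow_add _ _ (ofReal_ne_zero.2 hs.ne'), cpow_neg_one, mul_assoc,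
    add_sub_add_right_eq_sub]

theorem spA_W2 (α b : ℂ) {s : ℝ} (hs : 0 < s) : WW (α + 2) (b + 2) s =
    (s : ℂ) ^ (-α) * ((s : ℂ)⁻¹ * (s : ℂ)⁻¹ * Th (α + 1 + 1) (b - α - 1) (1 / s)) := by
  rw [← one_add_one_eq_two, ← add_assoc, ← add_assoc, spA_W1 _ _ hs, neg_add,
    cpow_add _ _ (ofReal_ne_zero.2 hs.ne'), cpow_neg_one, add_sub_add_right_eq_sub]
  ring

theorem spA_W3 (α b : ℂ) {s : ℝ} (hs : 0 < s) :
    WW (α + 1) b s = (s : ℂ) ^ (-α) * ((s : ℂ)⁻¹ * Th (α + 1) (b - α - 1 - 1) (1 / s)) := by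
  rw [WW, neg_add, cpow_add _ _ (ofReal_ne_zero.2 hs.ne'), cpow_neg_one, mul_assoc,
    sub_add_eq_sub_sub]

theorem WW_deriv {α : ℂ} (hα : 0 < α.re) (b : ℂ) {s : ℝ} (hs : 0 < s) :
    HasDerivAt (WW α b) (-WW (α + 1) (b + 1) s) s := by
  have hs0 : (s : ℂ) ≠ 0 := ofReal_ne_zero.2 hs.ne'
  have h1 : HasDerivAt (fun z : ℂ => z ^ (-α)) _ s :=
    (hasDerivAt_id _).cpow_const (ofReal_mem_slitPlane.2 hs)
  have h2 : HasDerivAt (fun t : ℝ => 1 / t) (-(s ^ 2)⁻¹) s := by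
    simpa only [one_div] using hasDerivAt_inv hs.ne'
  have h3 := (th_deriv hα (b - α - 1) (1 / s)).scomp s h2
  refine (h1.comp_ofReal.mul h3).congr_deriv ?_
  have h4 := th_rec2 hα (b - α - 1) (1 / s)
  rw [spA_W1 _ _ hs]
  simp only [id, Function.comp_apply, real_smul, cpow_sub _ _ hs0, cpow_one]
  push_cast at h4 ⊢
  linear_combination (-(s : ℂ) ^ (-α) * (s : ℂ)⁻¹) * h4

theorem WW_rec {α : ℂ} (hα : 0 < α.re) (b : ℂ) {s : ℝ} (hs : 0 < s) :
    α * WW α b s - s * WW (α + 1) (b + 1) s = -I * (b - α - 1) * WW (α + 1) b s := by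
  have hs0 : (s : ℂ) * (s : ℂ)⁻¹ = 1 := mul_inv_cancel₀ (ofReal_ne_zero.2 hs.ne')
  have h4 := th_rec2 hα (b - α - 1) (1 / s)
  rw [spA_W1 _ _ hs, spA_W3 _ _ hs, WW]
  push_cast at h4
  linear_combination (s : ℂ) ^ (-α) * h4 -
    (s : ℂ) ^ (-α) * Th (α + 1) (b - α - 1) (1 / s) * hs0

theorem UU_eq {α : ℂ} (hα : 0 < α.re) (b : ℂ) {s : ℝ} (hs : 0 < s) :
    UU α b s = α * WW α b s := by
  have hs0 : (s : ℂ) * (s : ℂ)⁻¹ = 1 := mul_inv_cancel₀ (ofReal_ne_zero.2 hs.ne')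
  have h1 := th_rec2 hα (b - α - 1) (1 / s)
  have h2 := th_rec2 (spA_re' hα) (b - α - 1) (1 / s)
  have h3 := th_rec1 (spA_re' hα) (b - α - 1) (1 / s)
  rw [UU, spA_W1 _ _ hs, spA_W2 _ _ hs, WW]
  push_cast at h1 h2 h3
  generalize Th α (b - α - 1) (1 / s) = T0 at *
  generalize Th (α + 1) (b - α - 1) (1 / s) = T1 at *
  generalize Th (α + 1 + 1) (b - α - 1) (1 / s) = T2 at *
  linear_combination (-(s : ℂ) ^ (-α)) * h1 - (s : ℂ) ^ (-α) * I * (s : ℂ)⁻¹ * h2 -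
    (s : ℂ) ^ (-α) * I * (s : ℂ)⁻¹ * (b - α - 1) * h3 +
    (s : ℂ) ^ (-α) * (T1 + I * (s : ℂ)⁻¹ * T2) * hs0 -
    (s : ℂ) ^ (-α) * (s * (s : ℂ)⁻¹) * T1 * I_mul_I

/-- the differential equation of W -/
theorem spA_ode {α : ℂ} (hα : 0 < α.re) (b : ℂ) {s : ℝ} (hs : 0 < s) :
    s * WW (α + 2) (b + 2) s - (b + I * s) * WW (α + 1) (b + 1) s + I * α * WW α b s = 0 := by
  have h := UU_eq hα b hs
  rw [UU] at h
  linear_combination (-I) * h -
    ((b + I * s) * WW (α + 1) (b + 1) s - s * WW (α + 2) (b + 2) s) * I_mul_I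

theorem spA_two (α : ℂ) : α + 1 + 1 = α + 2 := by ring

theorem spA_three (α : ℂ) : α + 1 + 2 = α + 2 + 1 := by ring

theorem spA_re2 {α : ℂ} (hα : -1 < α.re) : 0 < (α + 2).re := spA_two α ▸ spA_re' (spA_re hα)

theorem UU_deriv {α : ℂ} (hα : -1 < α.re) (b : ℂ) {s : ℝ} (hs : 0 < s) :
    HasDerivAt (UU α b) (dU α b s) s := by
  have h1 := WW_deriv (spA_re hα) (b + 1) hs
  have h2 := WW_deriv (spA_re2 hα) (b + 2) hs
  have h3 := spA_ode (spA_re hα) (b + 1) hs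
  have h4 : HasDerivAt (fun t : ℝ => (t : ℂ)) 1 s := (hasDerivAt_id (s : ℂ)).comp_ofReal
  rw [spA_two, spA_two] at h1 h3
  rw [spA_three, spA_three] at h3
  refine (((((h4.const_mul I).const_add b).mul h1).sub (h4.mul h2)).const_mul (-I)).congr_deriv ?_
  rw [dU]
  linear_combination (-I) * h3 + α * WW (α + 1) (b + 1) s * I_mul_I

theorem dU_deriv {α : ℂ} (hα : -1 < α.re) (b : ℂ) {s : ℝ} (hs : 0 < s) :
    HasDerivAt (dU α b) (α * WW (α + 2) (b + 2) s) s := by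
  have h1 := WW_deriv (spA_re hα) (b + 1) hs
  rw [spA_two, spA_two] at h1
  exact (h1.const_mul (-α)).congr_deriv (by ring)

theorem UU_ode (α b : ℂ) (s : ℝ) :
    s * (α * WW (α + 2) (b + 2) s) + (b + I * s) * dU α b s + I * α * UU α b s = 0 := by
  rw [UU, dU]
  linear_combination
    (-α * ((b + I * s) * WW (α + 1) (b + 1) s - s * WW (α + 2) (b + 2) s)) * I_mul_I

theorem spA_asym {α : ℂ} (hα : 0 < α.re) (γ : ℂ) :
    Tendsto (fun s : ℝ => Th α γ (1 / s)) atTop (𝓝 (Complex.Gamma α)) := by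
  rw [← th_zero hα γ]
  refine (th_deriv hα γ 0).continuousAt.tendsto.comp ?_
  exact tendsto_inv_atTop_zero.congr fun s : ℝ => (one_div s).symm

theorem spA_UU_asym {α : ℂ} (hα : -1 < α.re) (b : ℂ) :
    Tendsto (fun s : ℝ => (s : ℂ) ^ α * UU α b s) atTop (𝓝 (Complex.Gamma (α + 1))) := by
  have h0 : Tendsto (fun s : ℝ => ((s⁻¹ : ℝ) : ℂ)) atTop (𝓝 ((0 : ℝ) : ℂ)) :=
    (continuous_ofReal.tendsto _).comp tendsto_inv_atTop_zero
  have h1 := spA_asym (spA_re hα) (b - α - 1)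
  have h2 := spA_asym (spA_re' (spA_re hα)) (b - α - 1)
  have h3 := h1.sub ((((h0.const_mul b).mul h1).sub (h0.mul h2)).const_mul I)
  simp only [ofReal_zero, mul_zero, zero_mul, sub_zero] at h3
  refine h3.congr' ?_
  filter_upwards [eventually_gt_atTop 0] with s hs
  have hs0 : (s : ℂ) ≠ 0 := ofReal_ne_zero.2 hs.ne'
  have e1 : (s : ℂ) * (s : ℂ)⁻¹ = 1 := mul_inv_cancel₀ hs0
  have e2 : (s : ℂ) ^ α * (s : ℂ) ^ (-α) = 1 := by
    rw [← cpow_add _ _ hs0, add_neg_cancel, cpow_zero]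
  rw [UU, spA_W1 _ _ hs, spA_W2 _ _ hs]
  push_cast
  generalize Th (α + 1) (b - α - 1) (1 / s) = T1
  generalize Th (α + 1 + 1) (b - α - 1) (1 / s) = T2
  linear_combination
    (I * ((b + I * s) * (s : ℂ)⁻¹ * T1 - s * (s : ℂ)⁻¹ * (s : ℂ)⁻¹ * T2)) * e2 +
    (-T1 - I * (s : ℂ)⁻¹ * T2) * e1 + s * (s : ℂ)⁻¹ * T1 * I_mul_I

theorem UU_zero (b : ℂ) {s : ℝ} (hs : 0 < s) : UU 0 b s = 1 := by
  have h0 : -1 < (0 : ℂ).re := by simp
  have h1 := spA_UU_asym h0 b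
  simp only [cpow_zero, one_mul, zero_add, Complex.Gamma_one] at h1
  refine tendsto_nhds_unique (tendsto_const_nhds.congr' ?_) h1
  filter_upwards [eventually_gt_atTop 0] with t ht
  refine isOpen_Ioi.is_const_of_deriv_eq_zero isPreconnected_Ioi
    (fun y hy => (UU_deriv h0 b hy).differentiableAt.differentiableWithinAt) (fun y hy => ?_) hs ht
  rw [(UU_deriv h0 b hy).deriv, dU]
  simp

theorem spA_succ {α : ℂ} (hα : 0 < α.re) (b : ℂ) {s : ℝ} (hs : 0 < s) :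
    WW α (b + 1) s = WW α b s + I * WW (α + 1) (b + 1) s := by
  have h := th_rec1 hα (b - α) (1 / s)
  rw [spA_W1 _ _ hs, WW, WW, show b + 1 - α - 1 = b - α by ring, h]
  push_cast
  ring

theorem UU_b_succ {α : ℂ} (hα : -1 < α.re) (b : ℂ) {s : ℝ} (hs : 0 < s) :
    UU α (b + 1) s = UU α b s - I * dU α b s := by
  have h1 := spA_succ (spA_re hα) (b + 1) hs
  have h2 := spA_succ (spA_re2 hα) (b + 2) hs
  have h3 := spA_ode (spA_re hα) (b + 1) hs
  rw [UU, UU, dU, spA_three, h1, h2]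
  rw [spA_two, spA_two] at *
  rw [spA_three, spA_three] at h3
  linear_combination -h3 + (s * WW (α + 2 + 1) (b + 2 + 1) s -
    (b + 1 + I * s) * WW (α + 2) (b + 2) s) * I_mul_I

/-- asymptotics at infinity -/
theorem UU_asym {α : ℂ} (hα : -1 < α.re) (b : ℂ) :
    Tendsto (fun s : ℝ => (s : ℂ) ^ α * UU α b s) atTop (𝓝 (Complex.Gamma (α + 1))) :=
  spA_UU_asym hα b

end Vale.Agent.P139
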