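import Vale.Agent.P139.SpA

open Complex MeasureTheory Filter Topology
open scoped ComplexConjugate ContDiff

namespace Vale.Agent.P139

theorem th_cont : ContinuousOn (fun p : ℂ × ℂ × ℝ => Th p.1 p.2.1 p.2.2)
    {p | 0 < p.1.re} := by
  intro p hp
  have hp' : 0 < p.1.re := hp
  obtain ⟨g, hg, h⟩ := spA_bound (half_pos hp') (add_pos hp' one_pos) (‖p.2.1‖ + 1) (|p.2.2| + 1)
  refine (continuousAt_of_dominated (F := fun q : ℂ × ℂ × ℝ => spA_K q.1 q.2.1 q.2.2)
    (Eventually.of_forall fun q => spA_meas _ _ _) ?_ hg ?_).continuousWithinAt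
  · have c1 : Continuous fun q : ℂ × ℂ × ℝ => q.1.re := by fun_prop
    have c2 : Continuous fun q : ℂ × ℂ × ℝ => ‖q.2.1‖ := by fun_prop
    have c3 : Continuous fun q : ℂ × ℂ × ℝ => |q.2.2| := by fun_prop
    filter_upwards [(c1.tendsto p).eventually (lt_mem_nhds (half_lt_self hp')),
      (c1.tendsto p).eventually (gt_mem_nhds (lt_add_one _)),
      (c2.tendsto p).eventually (gt_mem_nhds (lt_add_one _)),
      (c3.tendsto p).eventually (gt_mem_nhds (lt_add_one _))] with q h1 h2 h3 h4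
    exact (ae_restrict_iff' measurableSet_Ioi).2
      (Eventually.of_forall (h _ _ _ h1.le h2.le h3.le h4.le))
  · refine (ae_restrict_iff' measurableSet_Ioi).2 (Eventually.of_forall fun u hu => ?_)
    exact (continuousAt_const.mul (ContinuousAt.cpow continuousAt_const (by fun_prop)
      (ofReal_mem_slitPlane.2 hu))).mul
      (ContinuousAt.cpow (by fun_prop) (by fun_prop) (spA_slit u p.2.2))

theorem WW_cont : ContinuousOn (fun p : ℂ × ℂ × ℝ => WW p.1 p.2.1 p.2.2)
    {p | 0 < p.1.re ∧ 0 < p.2.2} := by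
  refine ContinuousOn.mul (ContinuousOn.cpow (by fun_prop) (by fun_prop)
    fun p hp => ofReal_mem_slitPlane.2 hp.2) ?_
  have h1 : ContinuousOn (fun p : ℂ × ℂ × ℝ => (p.1, p.2.1 - p.1 - 1, 1 / p.2.2))
      {p | 0 < p.1.re ∧ 0 < p.2.2} :=
    continuousOn_fst.prodMk (ContinuousOn.prodMk (by fun_prop)
      (continuousOn_const.div (by fun_prop) fun p hp => hp.2.ne'))
  exact th_cont.comp h1 fun p hp => hp.1

theorem spB_near {a z : ℂ} {r : ℝ} (h : ‖z - a‖ ≤ r) (b : ℂ) :
    a.re - r ≤ z.re ∧ z.re ≤ a.re + r ∧ ‖b - z - 1‖ ≤ ‖b - a - 1‖ + r := by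
  have h1 := abs_le.1 ((abs_re_le_norm (z - a)).trans h)
  rw [sub_re] at h1
  have h2 := norm_sub_le (b - a - 1) (z - a)
  rw [show b - a - 1 - (z - a) = b - z - 1 + (a - a) by ring, sub_self, add_zero] at h2
  exact ⟨by linarith [h1.1], by linarith [h1.2], by linarith⟩

theorem spB_K_deriv (b a : ℂ) (x : ℝ) {u : ℝ} (hu : 0 < u) :
    HasDerivAt (fun z => spA_K z (b - z - 1) x u) (spA_K a (b - a - 1) x u *
      (Complex.log u - Complex.log (1 + I * u * x))) a := by
  have h1 := ((hasDerivAt_id a).sub_const 1).const_cpow (c := (u : ℂ))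
    (Or.inl (ofReal_ne_zero.2 hu.ne'))
  have h2 := (((hasDerivAt_id a).const_sub b).sub_const 1).const_cpow (Or.inl (spA_ne u x))
  refine ((h1.const_mul (Complex.exp (-(u : ℂ)))).mul h2).congr_deriv ?_
  simp only [spA_K, id]
  ring

theorem spB_th_holo (b : ℂ) (x : ℝ) {α : ℂ} (hα : 0 < α.re) :
    DifferentiableAt ℂ (fun a => Th a (b - a - 1) x) α := by
  have hr : 0 < α.re / 3 := by positivity
  obtain ⟨g, hg, h⟩ := spA_bound hr (show 0 < 2 * α.re by positivity) (‖b - α - 1‖ + α.re) |x|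
  refine (hasDerivAt_integral_of_dominated_loc_of_deriv_le (F := fun a => spA_K a (b - a - 1) x)
    (F' := fun a u => spA_K a (b - a - 1) x u * (Complex.log u - Complex.log (1 + I * u * x)))
    (bound := fun u => g u / (α.re / 3)) (Metric.ball_mem_nhds α hr)
    (Eventually.of_forall fun y => spA_meas _ _ _) (spA_int hα _ x)
    ((spA_meas _ _ x).mul (Measurable.aestronglyMeasurable (by fun_prop))) ?_ (hg.div_const _)
    ?_).2.differentiableAt
  · refine (ae_restrict_iff' measurableSet_Ioi).2 (Eventually.of_forall fun u hu a ha => ?_)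
    rw [← (spB_K_deriv b a x hu).deriv]
    refine norm_deriv_le_of_forall_mem_sphere_norm_le hr (Differentiable.diffContOnCl
      fun z => (spB_K_deriv b z x hu).differentiableAt) fun z hz => ?_
    have h1 : ‖z - α‖ ≤ 2 * α.re / 3 := by
      have h2 := norm_sub_le_norm_sub_add_norm_sub z a α
      rw [mem_sphere_iff_norm] at hz
      rw [mem_ball_iff_norm] at ha
      linarith
    obtain ⟨h2, h3, h4⟩ := spB_near h1 b
    exact h _ _ x (by linarith) (by linarith) (by linarith) le_rfl u hu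
  · exact (ae_restrict_iff' measurableSet_Ioi).2
      (Eventually.of_forall fun u hu a _ => spB_K_deriv b a x hu)

theorem WW_holo (b : ℂ) {s : ℝ} (hs : 0 < s) {α : ℂ} (hα : 0 < α.re) :
    DifferentiableAt ℂ (fun a => WW a b s) α :=
  (differentiableAt_id.neg.const_cpow (Or.inl (ofReal_ne_zero.2 hs.ne'))).mul
    (spB_th_holo b _ hα)

theorem spB_re {α c : ℂ} (hα : -1 < α.re) (hc : 1 ≤ c.re) : 0 < (α + c).re := by
  rw [add_re]
  linarith

theorem spB_holo (b : ℂ) {s : ℝ} (hs : 0 < s) {α c : ℂ} (hα : -1 < α.re) (hc : 1 ≤ c.re) :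
    DifferentiableAt ℂ (fun a => WW (a + c) b s) α :=
  (WW_holo b hs (spB_re hα hc)).comp α (differentiableAt_id.add_const c)

theorem UU_holo (b : ℂ) {s : ℝ} (hs : 0 < s) {α : ℂ} (hα : -1 < α.re) :
    DifferentiableAt ℂ (fun a => UU a b s) α :=
  (((spB_holo _ hs hα (by simp)).const_mul _).sub
    ((spB_holo _ hs hα (by simp)).const_mul _)).const_mul _

theorem dU_holo (b : ℂ) {s : ℝ} (hs : 0 < s) {α : ℂ} (hα : -1 < α.re) :
    DifferentiableAt ℂ (fun a => dU a b s) α :=
  differentiableAt_id.neg.mul (spB_holo _ hs hα (by simp))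

/-- exchange of the two derivatives -/
theorem spB_swap {F G : ℂ → ℝ → ℂ} {α : ℂ} {s : ℝ} (hα : -1 < α.re) (hs : 0 < s)
    (hd : ∀ a : ℂ, -1 < a.re → ∀ t, 0 < t → HasDerivAt (F a) (G a t) t)
    (hF : ∀ a : ℂ, -1 < a.re → ∀ t, 0 < t → DifferentiableAt ℂ (fun z => F z t) a)
    (hG : ∀ a : ℂ, -1 < a.re → DifferentiableAt ℂ (fun z => G z s) a)
    (hc : ∀ a : ℂ, -1 < a.re → ContinuousAt (fun p : ℝ × ℂ => G p.2 p.1) (s, a)) :
    HasDerivAt (fun t => deriv (fun z => F z t) α) (deriv (fun z => G z s) α) s := by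
  have hr : 0 < (α.re + 1) / 2 := by linarith
  have hb : ∀ a ∈ Metric.closedBall α ((α.re + 1) / 2), -1 < a.re := fun a ha => by
    linarith [(spB_near (mem_closedBall_iff_norm.1 ha) 0).1]
  rw [hasDerivAt_iff_isLittleO, Asymptotics.isLittleO_iff]
  intro c hc0
  have h1 : ∀ᶠ t in 𝓝 s, ∀ a ∈ Metric.closedBall α ((α.re + 1) / 2),
      ‖G a t - G a s‖ < c * ((α.re + 1) / 2) := by
    refine (isCompact_closedBall _ _).eventually_forall_of_forall_eventually fun a ha => ?_
    have h3 : ContinuousAt (fun p : ℝ × ℂ => G p.2 s) (s, a) :=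
      ContinuousAt.comp (g := fun z => G z s) (f := Prod.snd) (hG a (hb a ha)).continuousAt
        continuousAt_snd
    have h2 : ContinuousAt (fun p : ℝ × ℂ => ‖G p.2 p.1 - G p.2 s‖) (s, a) :=
      ((hc a (hb a ha)).sub h3).norm
    exact h2.eventually (gt_mem_nhds (by simpa using mul_pos hc0 hr))
  obtain ⟨δ, hδ, h2⟩ := Metric.eventually_nhds_iff_ball.1 (h1.and (lt_mem_nhds hs))
  filter_upwards [Metric.ball_mem_nhds s hδ] with t ht
  have hdiff : ∀ a : ℂ, -1 < a.re → HasDerivAt (fun z => F z t - F z s - (t - s) • G z s)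
      (deriv (fun z => F z t) a - deriv (fun z => F z s) a - (t - s) • deriv (fun z => G z s) a)
      a := fun a ha => (((hF a ha t (h2 t ht).2).hasDerivAt.sub (hF a ha s hs).hasDerivAt).sub
        ((hG a ha).hasDerivAt.const_smul (t - s)))
  rw [← (hdiff α hα).deriv]
  refine (norm_deriv_le_of_forall_mem_sphere_norm_le (C := c * ((α.re + 1) / 2) * ‖t - s‖) hr
    (DifferentiableOn.diffContOnCl fun a ha => ?_) fun a ha => ?_).trans (le_of_eq ?_)
  · exact (hdiff a (hb a (Metric.closure_ball_subset_closedBall ha))).differentiableAt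
      |>.differentiableWithinAt
  · have ha' := Metric.sphere_subset_closedBall ha
    have h3 := (convex_ball s δ).norm_image_sub_le_of_norm_hasDerivWithin_le
      (f := fun y => F a y - y • G a s) (f' := fun y => G a y - G a s)
      (fun y hy => (((hd a (hb a ha') y (h2 y hy).2).sub
        ((hasDerivAt_id y).smul_const (G a s))).congr_deriv (by rw [one_smul])).hasDerivWithinAt)
      (fun y hy => ((h2 y hy).1 a ha').le) (Metric.mem_ball_self hδ) ht
    refine le_of_eq_of_le (congrArg _ ?_) h3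
    rw [sub_smul]
    ring
  · rw [mul_right_comm, mul_div_assoc, div_self hr.ne', mul_one]

theorem spB_cont (b : ℂ) {s : ℝ} (hs : 0 < s) {α c : ℂ} (hα : -1 < α.re) (hc : 1 ≤ c.re) :
    ContinuousAt (fun p : ℝ × ℂ => WW (p.2 + c) b p.1) (s, α) := by
  have ho : IsOpen {p : ℂ × ℂ × ℝ | 0 < p.1.re ∧ 0 < p.2.2} :=
    IsOpen.and (isOpen_lt continuous_const (by fun_prop))
      (isOpen_lt continuous_const (by fun_prop))
  have h1 : ContinuousAt (fun p : ℝ × ℂ => (p.2 + c, b, p.1)) (s, α) := by fun_prop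
  exact (WW_cont.continuousAt (ho.mem_nhds ⟨spB_re hα hc, hs⟩)).comp_of_eq h1 rfl

/-- the parameter derivative of the higher derivatives -/
noncomputable def spB_P (c α b : ℂ) (s : ℝ) : ℂ := deriv (fun a => a * WW (a + c) (b + c) s) α

theorem spB_re1 {c : ℂ} (hc : 1 ≤ c.re) : 1 ≤ (c + 1).re := by
  rw [add_re, one_re]
  linarith

theorem spB_P_deriv {α c : ℂ} (hα : -1 < α.re) (hc : 1 ≤ c.re) (b : ℂ) {s : ℝ} (hs : 0 < s) :
    HasDerivAt (spB_P c α b) (-spB_P (c + 1) α b s) s := by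
  have h := spB_swap (F := fun a t => a * WW (a + c) (b + c) t)
    (G := fun a t => -(a * WW (a + (c + 1)) (b + (c + 1)) t)) hα hs
    (fun a ha t ht => ((WW_deriv (spB_re ha hc) (b + c) ht).const_mul a).congr_deriv
      (by rw [add_assoc, add_assoc, mul_neg]))
    (fun a ha t ht => differentiableAt_id.mul (spB_holo _ ht ha hc))
    (fun a ha => (differentiableAt_id.mul (spB_holo _ hs ha (spB_re1 hc))).neg)
    (fun a ha => (continuousAt_snd.mul (spB_cont _ hs ha (spB_re1 hc))).neg)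
  rwa [deriv.fun_neg] at h

theorem spB_P_smooth {α : ℂ} (hα : -1 < α.re) (b : ℂ) (n : ℕ) {c : ℂ} (hc : 1 ≤ c.re) :
    ContDiffOn ℝ n (spB_P c α b) (Set.Ioi 0) := by
  induction n generalizing c with
  | zero =>
    exact contDiffOn_zero.2 fun s hs => (spB_P_deriv hα hc b hs).continuousAt.continuousWithinAt
  | succ n ih =>
    rw [Nat.cast_succ, contDiffOn_succ_iff_deriv_of_isOpen isOpen_Ioi]
    exact ⟨fun s hs => (spB_P_deriv hα hc b hs).differentiableAt.differentiableWithinAt, by simp,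
      (ih (spB_re1 hc)).neg.congr fun s hs => (spB_P_deriv hα hc b hs).deriv⟩

noncomputable def pU (α b : ℂ) (s : ℝ) : ℂ := deriv (fun a => UU a b s) α

noncomputable def pdU (α b : ℂ) (s : ℝ) : ℂ := deriv (fun a => dU a b s) α

theorem pU_deriv {α : ℂ} (hα : -1 < α.re) (b : ℂ) {s : ℝ} (hs : 0 < s) :
    HasDerivAt (pU α b) (pdU α b s) s :=
  spB_swap (F := fun a => UU a b) (G := fun a => dU a b) hα hs (fun _ ha _ ht => UU_deriv ha b ht)
    (fun _ ha _ ht => UU_holo b ht ha) (fun _ ha => dU_holo b hs ha)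
    fun _ ha => continuousAt_snd.neg.mul (spB_cont _ hs ha (by simp))

theorem spB_pdU (α b : ℂ) : pdU α b = fun s => -spB_P 1 α b s := by
  funext s
  simp only [pdU, dU, spB_P, neg_mul, deriv.fun_neg]

theorem spB_pdU_deriv {α : ℂ} (hα : -1 < α.re) (b : ℂ) {s : ℝ} (hs : 0 < s) :
    HasDerivAt (pdU α b) (spB_P 2 α b s) s := by
  have h := (spB_P_deriv hα (c := 1) (by simp) b hs).fun_neg
  rwa [neg_neg, one_add_one_eq_two, ← spB_pdU] at h

theorem pU_smooth {α : ℂ} (hα : -1 < α.re) (b : ℂ) : ContDiffOn ℝ ∞ (pU α b) (Set.Ioi 0) := by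
  rw [contDiffOn_infty_iff_deriv_of_isOpen isOpen_Ioi]
  refine ⟨fun s hs => (pU_deriv hα b hs).differentiableAt.differentiableWithinAt, ?_⟩
  refine (contDiffOn_infty.2 fun n => spB_P_smooth hα b n (c := 1) (by simp)).neg.congr
    fun s hs => ?_
  rw [(pU_deriv hα b hs).deriv, spB_pdU]

theorem pU_ode {α : ℂ} (hα : -1 < α.re) (b : ℂ) {s : ℝ} (hs : 0 < s) :
    s * deriv (pdU α b) s + (b + I * s) * pdU α b s + I * α * pU α b s = -I * UU α b s := by
  have h1 : HasDerivAt (fun a => a * WW (a + 2) (b + 2) s) (spB_P 2 α b s) α :=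
    (differentiableAt_id.mul (spB_holo _ hs hα (by simp))).hasDerivAt
  have h2 := ((h1.const_mul (s : ℂ)).add ((dU_holo b hs hα).hasDerivAt.const_mul (b + I * s))).add
    (((hasDerivAt_id α).const_mul I).mul (UU_holo b hs hα).hasDerivAt)
  have h3 := h2.unique ((hasDerivAt_const α (0 : ℂ)).congr_of_eventuallyEq
    (Eventually.of_forall fun a => UU_ode a b s))
  rw [(spB_pdU_deriv hα b hs).deriv, pdU, pU]
  simp only [id] at h3
  linear_combination h3

theorem spB_iter {α : ℂ} (hα : -1 < α.re) (b : ℂ) (k : ℕ) {s : ℝ} (hs : 0 < s) :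
    iteratedDeriv (k + 1) (pU α b) s = (-1) ^ (k + 1) * spB_P (k + 1) α b s := by
  induction k generalizing s with
  | zero => simp [(pU_deriv hα b hs).deriv, spB_pdU]
  | succ k ih =>
    have h1 : iteratedDeriv (k + 1) (pU α b) =ᶠ[𝓝 s] fun t => (-1) ^ (k + 1) * spB_P (k + 1) α b t :=
      Filter.eventually_of_mem (Ioi_mem_nhds hs) fun t ht => ih ht
    rw [iteratedDeriv_succ, h1.deriv_eq,
      ((spB_P_deriv hα (c := k + 1) (by simp) b hs).const_mul _).deriv]
    push_cast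
    ring

theorem spB_W_bound {a₁ a₂ : ℝ} (h₁ : 0 < a₁) (h₂ : 0 < a₂) (G : ℝ) : ∃ C : ℝ, 0 ≤ C ∧
    ∀ (α b : ℂ) (s : ℝ), a₁ ≤ α.re → α.re ≤ a₂ → ‖b - α - 1‖ ≤ G → 1 ≤ s →
      ‖WW α b s‖ ≤ C * s ^ (-α.re) := by
  obtain ⟨g, hg, h⟩ := spA_bound h₁ h₂ G 1
  refine ⟨|∫ u in Set.Ioi (0 : ℝ), g u|, abs_nonneg _, fun α b s h1 h2 h3 hs => ?_⟩
  have hs0 : 0 < s := one_pos.trans_le hs
  rw [WW, norm_mul, norm_cpow_eq_rpow_re_of_pos hs0, mul_comm, neg_re]
  refine mul_le_mul_of_nonneg_right ((norm_integral_le_of_norm_le hg ?_).trans (le_abs_self _))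
    (by positivity)
  refine (ae_restrict_iff' measurableSet_Ioi).2 (Eventually.of_forall (h _ _ _ h1 h2 h3 ?_))
  rw [abs_of_pos (by positivity), div_le_one hs0]
  exact hs

theorem pU_slow {α : ℂ} (hα : 0 ≤ α.re) (b : ℂ) : ∃ C : ℝ, ∀ s : ℝ, 1 ≤ s →
    ‖iteratedDeriv 8 (pU α b) s‖ ≤ C * s ^ (-α.re - 15 / 2) := by
  obtain ⟨C, hC, h⟩ := spB_W_bound one_pos (show 0 < α.re + 9 by linarith) (‖b - α - 1‖ + 1 / 2)
  refine ⟨(‖α‖ + 1 / 2) * C / (1 / 2), fun s hs => ?_⟩
  have hs0 : 0 < s := one_pos.trans_le hs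
  rw [spB_iter (by linarith) b 7 hs0, norm_mul, norm_pow, norm_neg, norm_one, one_pow, one_mul,
    show ((7 : ℕ) : ℂ) + 1 = 8 by norm_num, div_mul_eq_mul_div]
  refine norm_deriv_le_of_forall_mem_sphere_norm_le one_half_pos
    (DifferentiableOn.diffContOnCl fun a ha => ?_) fun a ha => ?_
  · have h1 := (spB_near (mem_closedBall_iff_norm.1
      (Metric.closure_ball_subset_closedBall ha)) 0).1
    exact (differentiableAt_id.mul (spB_holo _ hs0 (by linarith) (by simp))).differentiableWithinAt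
  · have h0 := (mem_sphere_iff_norm.1 ha).le
    obtain ⟨h1, h2, h3⟩ := spB_near h0 b
    have h4 : (a + 8).re = a.re + 8 := by simp
    have h5 := h (a + 8) (b + 8) s (by linarith) (by linarith)
      (by rwa [add_sub_add_right_eq_sub]) hs
    have h6 := norm_le_norm_add_norm_sub' a α
    have h7 : s ^ (-(a + 8).re) ≤ s ^ (-α.re - 15 / 2) :=
      Real.rpow_le_rpow_of_exponent_le hs (by linarith)
    rw [norm_mul, mul_assoc]
    exact mul_le_mul (by linarith) (h5.trans (mul_le_mul_of_nonneg_left h7 hC)) (norm_nonneg _)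
      (by positivity)

theorem DD_deriv (l : ℕ) (om : ℝ) {s : ℝ} (hs : 0 < s) {z : ℂ} (hz : -1 < z.re) :
    HasDerivAt (DD l om s)
      (pdU (z + l / 2 - I * om) (l + 6) s * conj (UU (conj z + l / 2 - I * om) (l + 6) s)
        + dU (z + l / 2 - I * om) (l + 6) s * conj (pU (conj z + l / 2 - I * om) (l + 6) s)
        + pU (z + l / 2 - I * om) (l + 6) s * conj (dU (conj z + l / 2 - I * om) (l + 6) s)
        + UU (z + l / 2 - I * om) (l + 6) s * conj (pdU (conj z + l / 2 - I * om) (l + 6) s)) z := by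
  have hre : ∀ w : ℂ, -1 < w.re → -1 < (w + l / 2 - I * om).re := fun w hw => by
    have h0 : (0 : ℝ) ≤ l := Nat.cast_nonneg l
    simp only [sub_re, add_re, div_ofNat_re, natCast_re, mul_re, I_re, I_im, ofReal_im]
    linarith
  have hi : ∀ w : ℂ, HasDerivAt (fun y : ℂ => y + l / 2 - I * om) 1 w := fun w =>
    ((hasDerivAt_id w).add_const _).sub_const _
  have hU : ∀ w : ℂ, -1 < w.re → HasDerivAt (fun y => UU (y + l / 2 - I * om) (l + 6) s)
      (pU (w + l / 2 - I * om) (l + 6) s) w := fun w hw => by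
    have h := (UU_holo (l + 6) hs (hre w hw)).hasDerivAt.comp w (hi w)
    rwa [mul_one] at h
  have hD : ∀ w : ℂ, -1 < w.re → HasDerivAt (fun y => dU (y + l / 2 - I * om) (l + 6) s)
      (pdU (w + l / 2 - I * om) (l + 6) s) w := fun w hw => by
    have h := (dU_holo (l + 6) hs (hre w hw)).hasDerivAt.comp w (hi w)
    rwa [mul_one] at h
  have h1 := (hU (conj z) hz).conj_conj
  have h2 := (hD (conj z) hz).conj_conj
  rw [conj_conj] at h1 h2
  refine (((hD z hz).mul h1).add ((hU z hz).mul h2)).congr_deriv ?_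
  simp only [Function.comp_apply]
  ring

end Vale.Agent.P139
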