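import Mathlib

open Complex MeasureTheory Filter Topology

namespace Vale.Agent.P139

/-- the squared length of a lattice point -/
noncomputable def nsq {d : ℕ} (n : Fin d → ℤ) : ℝ := ∑ i, ((n i : ℝ)) ^ 2

/-- the terms of the squared Sobolev norm of order k of the Fourier series with coefficients c -/
noncomputable def hs {d : ℕ} (k : ℕ) (c : (Fin d → ℤ) → ℂ) (n : Fin d → ℤ) : ℝ :=
  (1 + nsq n) ^ k * ‖c n‖ ^ 2

/-- the value at x of the Fourier series with coefficients c -/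
noncomputable def ev {d : ℕ} (c : (Fin d → ℤ) → ℂ) (x : EuclideanSpace ℝ (Fin d)) : ℂ :=
  ∑' n, c n * Complex.exp (I * ((∑ i, (n i : ℝ) * x i : ℝ) : ℂ))

/-- the n-th Fourier coefficient of f over the period cube -/
noncomputable def coef {d : ℕ} (f : EuclideanSpace ℝ (Fin d) → ℂ) (n : Fin d → ℤ) : ℂ :=
  (((2 * Real.pi) ^ d : ℝ) : ℂ)⁻¹ *
    ∫ x in {x : EuclideanSpace ℝ (Fin d) | ∀ i, x i ∈ Set.Icc (-Real.pi) Real.pi},
      f x * Complex.exp (-I * ((∑ i, (n i : ℝ) * x i : ℝ) : ℂ))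

/-- c is the Fourier side of a global solution in C([0,∞); H^k) of
i u_t + Δ u = |u|^(p-1) u on the torus with initial Fourier coefficients u0 -/
structure GlobalSol {d : ℕ} (p k : ℕ) (u0 : (Fin d → ℤ) → ℂ) (c : ℝ → (Fin d → ℤ) → ℂ) : Prop where
  mem : ∀ t, 0 ≤ t → Summable (hs k (c t))
  cont : ∀ t, 0 ≤ t → Tendsto (fun s => ∑' n, hs k (c s - c t) n) (𝓝[Set.Ici 0] t) (𝓝 0)
  init : c 0 = u0
  duhamel : ∀ t, 0 ≤ t → ∀ n, c t n = Complex.exp (-I * ((t * nsq n : ℝ) : ℂ)) * c 0 n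
    - I * ∫ s in (0 : ℝ)..t, Complex.exp (-I * (((t - s) * nsq n : ℝ) : ℂ)) *
        coef (fun x => ((‖ev (c s) x‖ ^ (p - 1) : ℝ) : ℂ) * ev (c s) x) n

/-- the centred complex Gaussian law with independent real and imaginary parts of variance v -/
noncomputable def cgauss (v : NNReal) : Measure ℂ :=
  ((ProbabilityTheory.gaussianReal 0 v).prod (ProbabilityTheory.gaussianReal 0 v)).map
    (fun z : ℝ × ℝ => (z.1 : ℂ) + (z.2 : ℂ) * I)

/-- with positive probability the random datum of decay α has no global H^k solution -/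
def BlowsUp (d p : ℕ) (α : ℝ) : Prop :=
  ∀ k : ℕ, (d : ℝ) / 2 < k → ∀ v : NNReal, 0 < v →
    ∀ (Ω : Type) [MeasurableSpace Ω] (P : Measure Ω) [IsProbabilityMeasure P]
      (g : (Fin d → ℤ) → Ω → ℂ), (∀ n, Measurable (g n)) → ProbabilityTheory.iIndepFun g P →
      (∀ n, P.map (g n) = cgauss v) →
      ∃ S : Set Ω, MeasurableSet S ∧ 0 < P S ∧ ∀ ω ∈ S,
        ¬ ∃ c, GlobalSol p k (fun n => g n ω * (((1 + nsq n) ^ (-α / 2) : ℝ) : ℂ)) c

end Vale.Agent.P139
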